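import Mathlib
import Crest.Prelude.Def_Labels
import Crest.Prelude.Def_TreeIsing

/-!
Row 160 (S0241): the free Ising state on the regular tree is a factor of i.i.d. up to and including
the reconstruction threshold.  Shared definitions.
-/

set_option autoImplicit false

namespace Crest.Agent.FI

open MeasureTheory ProbabilityTheory unitInterval Set Filter Topology
open scoped ENNReal

/-- sign of a spin -/
def sg (b : Bool) : ℝ := if b then 1 else -1

/-- the edge map in field coordinates -/
noncomputable def ff (θ h : ℝ) : ℝ := Real.artanh (θ * Real.tanh h)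

/-- the derivative factor of the edge map, as a function of the message `a = tanh h` -/
noncomputable def ph (θ a : ℝ) : ℝ := θ * (1 - a ^ 2) / (1 - θ ^ 2 * a ^ 2)

/-- killing constant -/
noncomputable def kap (θ : ℝ) : ℝ := 1 - θ ^ 2

variable {V : Type*}

section tree

variable (G : SimpleGraph V) [G.LocallyFinite]

open Classical in
/-- the neighbours of `i` other than `j` -/
noncomputable def oth (i j : V) : Finset V := (G.neighborFinset i).filter (fun c => c ≠ j)

/-- the branch at `i` away from the neighbour `j` -/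
def brn (i j : V) : Set V := {w | G.dist w i < G.dist w j}

/-- depth-`n` message from `i` towards `j`, in field coordinates, for the fields `x` -/
noncomputable def msg (θ : ℝ) (x : V → ℝ) : ℕ → V → V → ℝ
  | 0, _, _ => 0
  | n + 1, i, j => x i + ∑ c ∈ oth G i j, ff θ (msg θ x n c i)

/-- the limiting message -/
noncomputable def hl (θ : ℝ) (x : V → ℝ) (i j : V) : ℝ := limsup (fun n => msg G θ x n i j) atTop

/-- the limiting total field -/
noncomputable def Hl (θ : ℝ) (x : V → ℝ) (v : V) : ℝ :=
  x v + ∑ c ∈ G.neighborFinset v, ff θ (hl G θ x c v)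

/-- the posterior mean -/
noncomputable def mm (θ : ℝ) (x : V → ℝ) (v : V) : ℝ := Real.tanh (Hl G θ x v)

/-- the limiting message in mean coordinates -/
noncomputable def al (θ : ℝ) (x : V → ℝ) (i j : V) : ℝ := Real.tanh (hl G θ x i j)

/-- all messages converge -/
def Good (θ : ℝ) (x : V → ℝ) : Prop :=
  ∀ i j, G.Adj i j → Tendsto (fun n => msg G θ x n i j) atTop (𝓝 (hl G θ x i j))

/-- non-backtracking path `p 0, ..., p n` -/
def IsPth (p : ℕ → V) (n : ℕ) : Prop :=
  (∀ i < n, G.Adj (p i) (p (i + 1))) ∧ ∀ i, i + 2 ≤ n → p i ≠ p (i + 2)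

/-- non-backtracking ray -/
def IsRay (p : ℕ → V) : Prop := ∀ n, IsPth G p n

/-- path product of derivative factors, messages pointing towards `p 0` -/
noncomputable def PP (θ : ℝ) (x : V → ℝ) (p : ℕ → V) (n : ℕ) : ℝ :=
  ∏ i ∈ Finset.range n, ph θ (al G θ x (p (i + 1)) (p i))

/-- posterior covariance of the spins at `p 0` and `p n` -/
noncomputable def Cv (θ : ℝ) (x : V → ℝ) (p : ℕ → V) (n : ℕ) : ℝ :=
  (1 - mm G θ x (p 0) ^ 2) * PP G θ x p n

/-- weighted size of the branch at `i` away from `j`, truncated at depth `n` -/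
noncomputable def Gs (θ : ℝ) (x : V → ℝ) : ℕ → V → V → ℝ
  | 0, _, _ => 1
  | n + 1, i, j => 1 + θ ^ 2 * ∑ c ∈ oth G i j,
      Real.exp (-(kap θ * al G θ x c i ^ 2)) * Gs θ x n c i

end tree

/-- `μ` is the free Ising state with parameter `θ` -/
def IsIsing (G : SimpleGraph V) (θ : ℝ) (μ : Measure (V → Bool)) : Prop :=
  ∀ (S : Finset V) (η : V → Bool), (G.induce (S : Set V)).Connected →
    μ {τ | ∀ v ∈ S, τ v = η v}
      = ENNReal.ofReal (Crest.ProbabilityR.TreeIsing.isingWeight G θ S η)

/-- joint law of the spins and the fields, when the field at `v` is `σ v * x̂ v`, with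
`x̂ v ~ ρ v` independent -/
noncomputable def spinField (μ : Measure (V → Bool)) (ρ : V → Measure ℝ) :
    Measure ((V → Bool) × (V → ℝ)) :=
  (μ.prod (Measure.infinitePi ρ)).map (fun p => (p.1, fun v => sg (p.1 v) * p.2 v))

/-- law of the fields -/
noncomputable def fieldLaw (μ : Measure (V → Bool)) (ρ : V → Measure ℝ) : Measure (V → ℝ) :=
  (spinField μ ρ).map Prod.snd

open Classical in
/-- gauged field on the branch at `c` away from `i` -/
noncomputable def Xbr (G : SimpleGraph V) (c i : V) (q : (V → Bool) × (V → ℝ)) : V → ℝ :=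
  fun w => if w ∈ brn G c i then sg (q.1 c) * q.2 w else 0

/-- law of an edge sign -/
noncomputable def berS (θ : ℝ) : Measure ℝ :=
  ENNReal.ofReal ((1 + θ) / 2) • Measure.dirac 1 + ENNReal.ofReal ((1 - θ) / 2) • Measure.dirac (-1)

/-- symmetric channel law (law of the log-likelihood field given spin `+`), bounded by `L` -/
structure Chan (ρ : Measure ℝ) (L : ℝ) : Prop where
  prob : IsProbabilityMeasure ρ
  bdd : ∀ᵐ x ∂ρ, |x| ≤ L
  nishi : ρ.map (fun x => -x) = ρ.withDensity (fun x => ENNReal.ofReal (Real.exp (-(2 * x))))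

/-! ### The observation channel -/

/-- observation strength of an event with label `t` -/
noncomputable def st (t : I) : ℝ := if (t : ℝ) < 1 / 2 then √(t : ℝ) / 2 else 0

/-- quantile function of the density `1 + c (2 z - 1)` on `[0,1]` -/
noncomputable def Qr (c u : ℝ) : ℝ := 2 * u / ((1 - c) + √((1 - c) ^ 2 + 4 * c * u))

/-- the quantile map on the unit interval -/
noncomputable def Qm (c : ℝ) (u : I) : I := Set.projIcc (0 : ℝ) 1 zero_le_one (Qr c u)

/-- the c.d.f. map on the unit interval -/
noncomputable def Fm (c : ℝ) (z : I) : I :=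
  Set.projIcc (0 : ℝ) 1 zero_le_one ((z : ℝ) + c * ((z : ℝ) ^ 2 - z))

/-- the field of one event, when the spin is `+` -/
noncomputable def xi (t u : I) : ℝ := Real.artanh (st t * (2 * (Qm (st t) u : ℝ) - 1))

/-- the channel law of a vertex when rounds `0, ..., k-1` have been observed, and round `k` up to
time `s` -/
noncomputable def rho (k : ℕ) (s : ℝ) : Measure ℝ :=
  (Measure.infinitePi (fun _ : ℕ => (volume : Measure (I × I)))).map (fun w =>
    (∑ l ∈ Finset.range k, xi (w l).1 (w l).2) +
      if ((w k).1 : ℝ) < s then xi (w k).1 (w k).2 else 0)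

/-! ### Events, masks and innovations (`T` = labels of the events) -/

/-- the uniform noise on events -/
noncomputable def nz (V : Type*) : Measure (V × ℕ → I) :=
  Measure.infinitePi (fun _ : V × ℕ => (volume : Measure I))

/-- order of events: by round, then by label -/
def prec (T : V × ℕ → I) (i j : V × ℕ) : Prop := i.2 < j.2 ∨ (i.2 = j.2 ∧ T i < T j)

/-- events before `j` -/
def bef (T : V × ℕ → I) (j : V × ℕ) : Set (V × ℕ) := {i | prec T i j}

/-- events before time `(k, s)` -/
def thr (T : V × ℕ → I) (k : ℕ) (s : ℝ) : Set (V × ℕ) :=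
  {i | i.2 < k ∨ (i.2 = k ∧ (T i : ℝ) < s)}

/-- initial segments of the order of events -/
def InitSeg (T : V × ℕ → I) (M : Set (V × ℕ)) : Prop := ∀ i ∈ M, ∀ i', prec T i' i → i' ∈ M

open Classical in
/-- masking -/
noncomputable def mask (M : Set (V × ℕ)) (z : V × ℕ → I) : V × ℕ → I :=
  fun j => if j ∈ M then z j else 0

open Classical in
/-- fields produced by the observations in `M` (in rounds `< K`), `s` = strengths -/
noncomputable def xf (s : V × ℕ → ℝ) (K : ℕ) (M : Set (V × ℕ)) (z : V × ℕ → I) (v : V) : ℝ :=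
  ∑ l ∈ Finset.range K, if (v, l) ∈ M then Real.artanh (s (v, l) * (2 * (z (v, l) : ℝ) - 1)) else 0

/-- strengths from labels -/
noncomputable def sts (T : V × ℕ → I) : V × ℕ → ℝ := fun j => st (T j)

/-- observations -/
noncomputable def zob (s : V × ℕ → ℝ) (ω : (V → Bool) × (V × ℕ → I)) : V × ℕ → I :=
  fun j => Qm (sg (ω.1 j.1) * s j) (ω.2 j)

/-- the innovations, as a function of labels and observations -/
noncomputable def un (G : SimpleGraph V) [G.LocallyFinite] (θ : ℝ) (T : V × ℕ → I)
    (z : V × ℕ → I) (j : V × ℕ) : I :=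
  Fm (sts T j * mm G θ (xf (sts T) (j.2 + 1) (bef T j) z) j.1) (z j)

/-- law of spins and noise -/
noncomputable def P1 (μ : Measure (V → Bool)) : Measure ((V → Bool) × (V × ℕ → I)) :=
  μ.prod (nz V)

/-- law of (innovations, (spins, observations)), for fixed labels -/
noncomputable def law1 (G : SimpleGraph V) [G.LocallyFinite] (θ : ℝ) (μ : Measure (V → Bool))
    (T : V × ℕ → I) : Measure ((V × ℕ → I) × ((V → Bool) × (V × ℕ → I))) :=
  (P1 μ).map (fun ω => (un G θ T (zob (sts T) ω), (ω.1, zob (sts T) ω)))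

/-! ### States of pairs of copies -/

/-- two fields with the single-copy law `fieldLaw μ ρ`, jointly invariant -/
structure PairState (G : SimpleGraph V) (μ : Measure (V → Bool)) (ρ : Measure ℝ)
    (Q : Measure ((V → ℝ) × (V → ℝ))) : Prop where
  prob : IsProbabilityMeasure Q
  fst : Q.map Prod.fst = fieldLaw μ (fun _ => ρ)
  snd : Q.map Prod.snd = fieldLaw μ (fun _ => ρ)
  inv : ∀ g : G ≃g G, Q.map (fun q => (q.1 ∘ g, q.2 ∘ g)) = Q

/-- `y = E (m - m')^2` -/
noncomputable def yy (G : SimpleGraph V) [G.LocallyFinite] (θ : ℝ)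
    (Q : Measure ((V → ℝ) × (V → ℝ))) (v : V) : ℝ :=
  ∫ q, (mm G θ q.1 v - mm G θ q.2 v) ^ 2 ∂Q

/-- the kernel of the increment inequality, for a path `p` from `p 0` to `p n` -/
noncomputable def kker (G : SimpleGraph V) [G.LocallyFinite] (θ : ℝ) (p : ℕ → V) (n : ℕ)
    (q : (V → ℝ) × (V → ℝ)) : ℝ :=
  (Cv G θ q.1 p n - Cv G θ q.2 p n) ^ 2
    + (Cv G θ q.2 p n) ^ 2 * (mm G θ q.1 (p n) - mm G θ q.2 (p n)) ^ 2

/-- the summed kernel `∑_u E kker`, written with the sizes of the spheres bounded by `2 D^n` -/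
noncomputable def KK (G : SimpleGraph V) [G.LocallyFinite] (θ : ℝ) (D : ℕ) (p : ℕ → V)
    (Q : Measure ((V → ℝ) × (V → ℝ))) : ℝ≥0∞ :=
  ∑' n : ℕ, 2 * (D : ℝ≥0∞) ^ n * ∫⁻ q, ENNReal.ofReal (kker G θ p n q) ∂Q

end Crest.Agent.FI
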