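import Mathlib
import Crest.Agent.FI.Defs

set_option autoImplicit false

namespace Crest.Agent.FI

open Set Filter Topology
open scoped ENNReal

variable {V : Type*} (G : SimpleGraph V) [G.LocallyFinite]

/-! combinatorics of branches `brn G i j = {w | dist w i < dist w j}` in a tree -/

omit [G.LocallyFinite] in
theorem mem_brn {i j w : V} : w ∈ brn G i j ↔ G.dist w i < G.dist w j := Iff.rfl

theorem mem_oth {i j c : V} : c ∈ oth G i j ↔ G.Adj i c ∧ c ≠ j := by
  classical
  simp [oth]

omit [G.LocallyFinite] in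
theorem mem_brn_self {i j : V} (h : G.Adj i j) : i ∈ brn G i j := by
  rw [mem_brn, SimpleGraph.dist_self, SimpleGraph.dist_eq_one_iff_adj.2 h]
  exact Nat.one_pos

omit [G.LocallyFinite] in
theorem parent_walk (hT : G.IsTree) {i c w : V} (hc : G.Adj i c) (h : G.dist w c < G.dist w i) :
    ∃ q : G.Walk c w, (SimpleGraph.Walk.cons hc q).IsPath := by
  obtain ⟨q, hq⟩ := hT.connected.exists_walk_length_eq_dist c w
  refine ⟨q, SimpleGraph.Walk.isPath_of_length_eq_dist _ ?_⟩
  rw [SimpleGraph.Walk.length_cons, hq]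
  have h1 : G.dist c w = G.dist w c := SimpleGraph.dist_comm
  have h2 : G.dist i w = G.dist w i := SimpleGraph.dist_comm
  have h3 := hT.dist_eq_dist_add_one_of_adj w hc
  omega

omit [G.LocallyFinite] in
theorem parent_unique (hT : G.IsTree) {i c c' w : V} (hc : G.Adj i c) (hc' : G.Adj i c')
    (h : G.dist w c < G.dist w i) (h' : G.dist w c' < G.dist w i) : c = c' := by
  obtain ⟨q, hq⟩ := parent_walk G hT hc h
  obtain ⟨q', hq'⟩ := parent_walk G hT hc' h'
  have := hT.isAcyclic.path_unique ⟨_, hq⟩ ⟨_, hq'⟩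
  have h2 := congrArg (fun p : G.Path i w => p.1.getVert 1) this
  simpa using h2

omit [G.LocallyFinite] in
theorem exists_parent (hT : G.IsTree) {i w : V} (hne : w ≠ i) :
    ∃ c, G.Adj i c ∧ G.dist w c < G.dist w i := by
  obtain ⟨q, hq⟩ := hT.connected.exists_walk_length_eq_dist i w
  cases q with
  | nil => exact absurd rfl hne
  | @cons _ c _ hc q =>
    refine ⟨c, hc, ?_⟩
    rw [SimpleGraph.Walk.length_cons] at hq
    have h1 : G.dist c w = G.dist w c := SimpleGraph.dist_comm
    have h2 : G.dist i w = G.dist w i := SimpleGraph.dist_comm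
    have h3 := SimpleGraph.dist_le q
    omega

/-- `brn i j` is the disjoint union of `{i}` and the sub-branches -/
theorem mem_brn_iff (hT : G.IsTree) {i j : V} (h : G.Adj i j) (w : V) :
    w ∈ brn G i j ↔ w = i ∨ ∃ c ∈ oth G i j, w ∈ brn G c i := by
  constructor
  · intro hw
    by_cases hwi : w = i
    · exact Or.inl hwi
    · obtain ⟨c, hc, hd⟩ := exists_parent G hT hwi
      refine Or.inr ⟨c, (mem_oth G).2 ⟨hc, ?_⟩, hd⟩
      rintro rfl
      rw [mem_brn] at hw
      omega
  · rintro (rfl | ⟨c, hc, hw⟩)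
    · exact mem_brn_self G h
    · rw [mem_oth] at hc
      rw [mem_brn] at hw ⊢
      by_contra hcon
      have h3 := hT.dist_ne_of_adj w h
      exact hc.2 (parent_unique G hT hc.1 h hw (by omega))

omit [G.LocallyFinite] in
theorem notMem_brn_of_mem (hT : G.IsTree) {i j : V} (h : G.Adj i j) {w : V} (hw : w ∈ brn G i j) :
    w ∉ brn G j i := by
  rw [mem_brn] at hw ⊢
  omega

omit [G.LocallyFinite] in
theorem mem_brn_or (hT : G.IsTree) {i j : V} (h : G.Adj i j) (w : V) :
    w ∈ brn G i j ∨ w ∈ brn G j i := by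
  rw [mem_brn, mem_brn]
  have := hT.dist_ne_of_adj w h
  omega

omit [G.LocallyFinite] in
/-- branches at distinct neighbours of `i` are disjoint -/
theorem brn_disjoint (hT : G.IsTree) {i c c' : V} (hc : G.Adj c i) (hc' : G.Adj c' i) (hne : c ≠ c') :
    Disjoint (brn G c i) (brn G c' i) := by
  rw [Set.disjoint_left]
  intro w hw hw'
  exact hne (parent_unique G hT hc.symm hc'.symm hw hw')

omit [G.LocallyFinite] in
theorem self_notMem_brn (hT : G.IsTree) {i c : V} (hc : G.Adj c i) : i ∉ brn G c i :=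
  notMem_brn_of_mem G hT hc.symm (mem_brn_self G hc.symm)

/-- the branches at `i` and `{i}` cover everything -/
theorem cover_brn (hT : G.IsTree) (i w : V) : w = i ∨ ∃ c ∈ G.neighborFinset i, w ∈ brn G c i := by
  by_cases hwi : w = i
  · exact Or.inl hwi
  · obtain ⟨c, hc, hd⟩ := exists_parent G hT hwi
    exact Or.inr ⟨c, (G.mem_neighborFinset i c).2 hc, hd⟩

/-- messages only depend on the fields in the branch -/
theorem msg_congr (hT : G.IsTree) (θ : ℝ) {x x' : V → ℝ} {i j : V} (h : G.Adj i j)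
    (hx : ∀ w ∈ brn G i j, x w = x' w) (n : ℕ) : msg G θ x n i j = msg G θ x' n i j := by
  induction n generalizing i j with
  | zero => rfl
  | succ n ih =>
    rw [msg, msg, hx i (mem_brn_self G h)]
    congr 1
    refine Finset.sum_congr rfl fun c hc => ?_
    have hc' := (mem_oth G).1 hc
    rw [ih hc'.1.symm fun w hw => hx w ((mem_brn_iff G hT h w).2 (Or.inr ⟨c, hc, hw⟩))]

theorem hl_congr (hT : G.IsTree) (θ : ℝ) {x x' : V → ℝ} {i j : V} (h : G.Adj i j)
    (hx : ∀ w ∈ brn G i j, x w = x' w) : hl G θ x i j = hl G θ x' i j := by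
  unfold hl
  congr 1
  funext n
  exact msg_congr G hT θ h hx n

theorem al_congr (hT : G.IsTree) (θ : ℝ) {x x' : V → ℝ} {i j : V} (h : G.Adj i j)
    (hx : ∀ w ∈ brn G i j, x w = x' w) : al G θ x i j = al G θ x' i j := by
  unfold al
  rw [hl_congr G hT θ h hx]

theorem Gs_congr (hT : G.IsTree) (θ : ℝ) {x x' : V → ℝ} {i j : V} (h : G.Adj i j)
    (hx : ∀ w ∈ brn G i j, x w = x' w) (n : ℕ) : Gs G θ x n i j = Gs G θ x' n i j := by
  induction n generalizing i j with
  | zero => rfl
  | succ n ih =>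
    rw [Gs, Gs]
    congr 2
    refine Finset.sum_congr rfl fun c hc => ?_
    have hc' := (mem_oth G).1 hc
    have hs : ∀ w ∈ brn G c i, x w = x' w :=
      fun w hw => hx w ((mem_brn_iff G hT h w).2 (Or.inr ⟨c, hc, hw⟩))
    rw [ih hc'.1.symm hs, al_congr G hT θ hc'.1.symm hs]

/-- if no event is in the branch of `c` away from `i` beyond..., path facts: for a path
`p 0, ..., p n`, the vertex `p n` lies in `brn (p (i+1)) (p i)` for every `i < n` -/
theorem pth_mem_brn (hT : G.IsTree) {p : ℕ → V} {n : ℕ} (hp : IsPth G p n) {i : ℕ} (hi : i < n) :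
    p n ∈ brn G (p (i + 1)) (p i) := by
  have key : ∀ k i : ℕ, i + k + 1 = n → p n ∈ brn G (p (i + 1)) (p i) := by
    intro k
    induction k with
    | zero =>
      intro i hik
      subst hik
      exact mem_brn_self G (hp.1 i (by omega)).symm
    | succ k ih =>
      intro i hik
      have h1 := ih (i + 1) (by omega)
      refine (mem_brn_iff G hT (hp.1 i (by omega)).symm (p n)).2 (Or.inr ⟨p (i + 1 + 1), ?_, h1⟩)
      rw [mem_oth]
      exact ⟨hp.1 (i + 1) (by omega), (hp.2 i (by omega)).symm⟩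
  exact key (n - i - 1) i (by omega)

/-- ... and in no branch at a neighbour of `p i` other than `p (i+1)`, nor is it `p i` -/
theorem pth_notMem_brn (hT : G.IsTree) {p : ℕ → V} {n : ℕ} (hp : IsPth G p n) {i : ℕ} (hi : i < n)
    {c : V} (hc : G.Adj c (p i)) (hne : c ≠ p (i + 1)) : p n ∉ brn G c (p i) := by
  intro h
  exact Set.disjoint_left.1 (brn_disjoint G hT hc (hp.1 i hi).symm hne) h (pth_mem_brn G hT hp hi)

omit [G.LocallyFinite] in
/-- reversed path -/
theorem IsPth.reverse {p : ℕ → V} {n : ℕ} (hp : IsPth G p n) : IsPth G (fun i => p (n - i)) n := by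
  refine ⟨fun i hi => ?_, fun i hi => ?_⟩
  · have h := hp.1 (n - (i + 1)) (by omega)
    have e : n - (i + 1) + 1 = n - i := by omega
    rw [e] at h
    exact h.symm
  · have h := hp.2 (n - (i + 2)) (by omega)
    have e : n - (i + 2) + 2 = n - i := by omega
    rw [e] at h
    exact h.symm

end Crest.Agent.FI
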