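import Mathlib
import Crest.Agent.FI.Defs

set_option autoImplicit false

namespace Crest.Agent.FI

open Set Filter Topology

theorem tanh_mem (x : ℝ) : Real.tanh x ∈ Ioo (-1 : ℝ) 1 :=
  ⟨Real.neg_one_lt_tanh x, Real.tanh_lt_one x⟩

theorem mul_tanh_mem {θ : ℝ} (h0 : 0 ≤ θ) (h1 : θ < 1) (x : ℝ) :
    θ * Real.tanh x ∈ Ioo (-1 : ℝ) 1 := by
  have h := Real.abs_tanh_lt_one x
  have h2 : |θ * Real.tanh x| < 1 := by
    rw [abs_mul, abs_of_nonneg h0]
    nlinarith [abs_nonneg (Real.tanh x)]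
  exact ⟨(abs_lt.1 h2).1, (abs_lt.1 h2).2⟩

theorem artanh_neg' (x : ℝ) : Real.artanh (-x) = -Real.artanh x := by
  unfold Real.artanh
  have h : (1 + -x) / (1 - -x) = ((1 + x) / (1 - x))⁻¹ := by
    rw [inv_div]; ring_nf
  rw [h, Real.sqrt_inv, Real.log_inv]

theorem tanh_ff {θ : ℝ} (h0 : 0 ≤ θ) (h1 : θ < 1) (h : ℝ) :
    Real.tanh (ff θ h) = θ * Real.tanh h := by
  unfold ff
  exact Real.tanh_artanh (mul_tanh_mem h0 h1 h)

theorem ff_neg (θ h : ℝ) : ff θ (-h) = -ff θ h := by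
  unfold ff
  rw [Real.tanh_neg, mul_neg, artanh_neg']

theorem ff_zero (θ : ℝ) : ff θ 0 = 0 := by
  unfold ff
  rw [Real.tanh_zero, mul_zero, Real.artanh_zero]

theorem hasDerivAt_tanh (x : ℝ) : HasDerivAt Real.tanh (1 - Real.tanh x ^ 2) x := by
  have h : Real.tanh = fun x => Real.sinh x / Real.cosh x := by
    funext y; exact Real.tanh_eq_sinh_div_cosh y
  have hc : Real.cosh x ≠ 0 := (Real.cosh_pos x).ne'
  have h2 := (Real.hasDerivAt_sinh x).div (Real.hasDerivAt_cosh x) hc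
  have h3 : 1 - Real.tanh x ^ 2
      = (Real.cosh x * Real.cosh x - Real.sinh x * Real.sinh x) / Real.cosh x ^ 2 := by
    rw [Real.tanh_eq_sinh_div_cosh]
    field_simp
  rw [h3, h]
  exact h2

theorem hasDerivAt_artanh {x : ℝ} (hx : x ∈ Ioo (-1 : ℝ) 1) :
    HasDerivAt Real.artanh (1 / (1 - x ^ 2)) x := by
  have hx1 : 0 < 1 - x := by linarith [hx.2]
  have hx2 : 0 < 1 + x := by linarith [hx.1]
  have h1 : HasDerivAt (fun y : ℝ => 1 / 2 * Real.log ((1 + y) / (1 - y)))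
      (1 / 2 * (((1 * (1 - x) - (1 + x) * (-1)) / (1 - x) ^ 2) / ((1 + x) / (1 - x)))) x := by
    apply HasDerivAt.const_mul
    apply HasDerivAt.log
    · apply HasDerivAt.div
      · exact (hasDerivAt_id x).const_add 1
      · exact (hasDerivAt_id x).const_sub 1
      · exact hx1.ne'
    · positivity
  have h2 : (1 / 2 * (((1 * (1 - x) - (1 + x) * (-1)) / (1 - x) ^ 2) / ((1 + x) / (1 - x))))
      = 1 / (1 - x ^ 2) := by
    have h3 : (1 : ℝ) - x ^ 2 = (1 - x) * (1 + x) := by ring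
    rw [h3]
    field_simp
    ring
  rw [h2] at h1
  refine h1.congr_of_eventuallyEq ?_
  filter_upwards [Ioo_mem_nhds hx.1 hx.2] with y hy
  exact Real.artanh_eq_half_log ⟨hy.1.le, hy.2.le⟩

theorem hasDerivAt_ff {θ : ℝ} (h0 : 0 ≤ θ) (h1 : θ < 1) (h : ℝ) :
    HasDerivAt (ff θ) (ph θ (Real.tanh h)) h := by
  have hm := mul_tanh_mem h0 h1 h
  have h2 := (hasDerivAt_artanh hm).comp h ((hasDerivAt_tanh h).const_mul θ)
  have h3 : ff θ = Real.artanh ∘ fun h => θ * Real.tanh h := by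
    funext y; rfl
  have h4 : ph θ (Real.tanh h) = 1 / (1 - (θ * Real.tanh h) ^ 2) * (θ * (1 - Real.tanh h ^ 2)) := by
    unfold ph
    ring
  rw [h3, h4]
  exact h2

theorem one_sub_pos {θ a : ℝ} (h0 : 0 ≤ θ) (h1 : θ < 1) (ha : |a| ≤ 1) :
    0 < 1 - θ ^ 2 * a ^ 2 := by
  have h2 : a ^ 2 ≤ 1 := by
    rw [← sq_abs]; nlinarith [abs_nonneg a]
  have h3 : θ ^ 2 < 1 := by nlinarith
  nlinarith [sq_nonneg θ, sq_nonneg a]

theorem one_sub_ge {θ a : ℝ} (h0 : 0 ≤ θ) (h1 : θ < 1) (ha : |a| ≤ 1) :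
    1 - θ ^ 2 ≤ 1 - θ ^ 2 * a ^ 2 := by
  have h2 : a ^ 2 ≤ 1 := by
    rw [← sq_abs]; nlinarith [abs_nonneg a]
  nlinarith [sq_nonneg θ, sq_nonneg a]

theorem ph_nonneg {θ a : ℝ} (h0 : 0 ≤ θ) (h1 : θ < 1) (ha : |a| ≤ 1) : 0 ≤ ph θ a := by
  have h2 : a ^ 2 ≤ 1 := by
    rw [← sq_abs]; nlinarith [abs_nonneg a]
  unfold ph
  exact div_nonneg (mul_nonneg h0 (by linarith)) (one_sub_pos h0 h1 ha).le

theorem ph_le_lin {θ a : ℝ} (h0 : 0 ≤ θ) (h1 : θ < 1) (ha : |a| ≤ 1) :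
    ph θ a ≤ θ * (1 - kap θ * a ^ 2) := by
  have h2 : a ^ 2 ≤ 1 := by
    rw [← sq_abs]; nlinarith [abs_nonneg a]
  have h3 : θ ^ 2 < 1 := by nlinarith
  unfold ph kap
  rw [div_le_iff₀ (one_sub_pos h0 h1 ha), mul_assoc]
  apply mul_le_mul_of_nonneg_left _ h0
  have h4 : 0 ≤ (1 - θ ^ 2) * (θ ^ 2 * (a ^ 2 * a ^ 2)) :=
    mul_nonneg (by linarith) (by positivity)
  nlinarith [h4]

theorem ph_le {θ a : ℝ} (h0 : 0 ≤ θ) (h1 : θ < 1) (ha : |a| ≤ 1) :
    ph θ a ≤ θ * Real.exp (-(kap θ * a ^ 2)) := by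
  refine (ph_le_lin h0 h1 ha).trans ?_
  apply mul_le_mul_of_nonneg_left _ h0
  have := Real.add_one_le_exp (-(kap θ * a ^ 2))
  linarith

theorem ph_le_theta {θ a : ℝ} (h0 : 0 ≤ θ) (h1 : θ < 1) (ha : |a| ≤ 1) :
    ph θ a ≤ θ := by
  refine (ph_le_lin h0 h1 ha).trans ?_
  have h3 : θ ^ 2 < 1 := by nlinarith
  have h4 : 0 ≤ kap θ * a ^ 2 := mul_nonneg (by unfold kap; linarith) (sq_nonneg a)
  nlinarith

theorem ff_lip {θ : ℝ} (h0 : 0 ≤ θ) (h1 : θ < 1) (h h' : ℝ) :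
    |ff θ h - ff θ h'| ≤ θ * |h - h'| := by
  have := Convex.norm_image_sub_le_of_norm_hasDerivWithin_le (f := ff θ)
    (f' := fun h => ph θ (Real.tanh h)) (C := θ) (s := Set.univ) (x := h') (y := h)
    (fun x _ => (hasDerivAt_ff h0 h1 x).hasDerivWithinAt)
    (fun x _ => by
      rw [Real.norm_eq_abs, abs_of_nonneg (ph_nonneg h0 h1 (Real.abs_tanh_lt_one x).le)]
      exact ph_le_theta h0 h1 (Real.abs_tanh_lt_one x).le)
    convex_univ (Set.mem_univ _) (Set.mem_univ _)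
  simpa [Real.norm_eq_abs] using this

theorem abs_ff_le {θ : ℝ} (h0 : 0 ≤ θ) (h1 : θ < 1) (h : ℝ) : |ff θ h| ≤ θ * |h| := by
  have := ff_lip h0 h1 h 0
  rwa [ff_zero, sub_zero, sub_zero] at this

theorem ff_mono {θ : ℝ} (h0 : 0 ≤ θ) (h1 : θ < 1) : Monotone (ff θ) := by
  apply monotone_of_deriv_nonneg
  · intro x
    exact (hasDerivAt_ff h0 h1 x).differentiableAt
  · intro x
    rw [(hasDerivAt_ff h0 h1 x).deriv]
    exact ph_nonneg h0 h1 (Real.abs_tanh_lt_one x).le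

theorem abs_ff_le' {θ : ℝ} (h0 : 0 ≤ θ) (h1 : θ < 1) (h : ℝ) : |ff θ h| ≤ Real.artanh θ := by
  have hm := mul_tanh_mem h0 h1 h
  have ht := Real.abs_tanh_lt_one h
  have h2 : θ * Real.tanh h ≤ θ := by nlinarith [(abs_lt.1 ht).2]
  have h3 : -θ ≤ θ * Real.tanh h := by nlinarith [(abs_lt.1 ht).1]
  rw [abs_le]
  constructor
  · rw [← artanh_neg']
    exact Real.artanh_le_artanh (by linarith) hm.2 h3
  · exact Real.artanh_le_artanh hm.1 h1 h2

theorem continuous_ff {θ : ℝ} (h0 : 0 ≤ θ) (h1 : θ < 1) : Continuous (ff θ) := by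
  rw [continuous_iff_continuousAt]
  intro x
  exact (hasDerivAt_ff h0 h1 x).continuousAt

theorem continuous_tanh : Continuous Real.tanh := by
  rw [continuous_iff_continuousAt]
  intro x
  exact (hasDerivAt_tanh x).continuousAt

theorem measurable_artanh : Measurable Real.artanh := by
  unfold Real.artanh
  fun_prop

theorem measurable_ff (θ : ℝ) : Measurable (ff θ) := by
  unfold ff
  exact measurable_artanh.comp (continuous_tanh.measurable.const_mul θ)

theorem ph_sub_le {θ a b : ℝ} (h0 : 0 ≤ θ) (h1 : θ < 1) (ha : |a| ≤ 1) (hb : |b| ≤ 1) :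
    |ph θ a - ph θ b| ≤ θ / (1 - θ ^ 2) * |a ^ 2 - b ^ 2| := by
  have ha' := one_sub_pos h0 h1 ha
  have hb' := one_sub_pos h0 h1 hb
  have ha2 := one_sub_ge h0 h1 ha
  have hb2 := one_sub_ge h0 h1 hb
  have hq : 0 < 1 - θ ^ 2 := by nlinarith
  have he : ph θ a - ph θ b
      = θ * (1 - θ ^ 2) * (b ^ 2 - a ^ 2) / ((1 - θ ^ 2 * a ^ 2) * (1 - θ ^ 2 * b ^ 2)) := by
    unfold ph
    field_simp
    ring
  rw [he, abs_div, abs_mul, abs_mul, abs_of_nonneg h0, abs_of_pos hq,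
    abs_of_pos (mul_pos ha' hb'), abs_sub_comm (b ^ 2) (a ^ 2), div_mul_eq_mul_div,
    div_le_div_iff₀ (mul_pos ha' hb') hq]
  have h4 : (1 - θ ^ 2) * (1 - θ ^ 2) ≤ (1 - θ ^ 2 * a ^ 2) * (1 - θ ^ 2 * b ^ 2) :=
    mul_le_mul ha2 hb2 hq.le ha'.le
  have h5 : 0 ≤ θ * |a ^ 2 - b ^ 2| := mul_nonneg h0 (abs_nonneg _)
  calc θ * (1 - θ ^ 2) * |a ^ 2 - b ^ 2| * (1 - θ ^ 2)
      = θ * |a ^ 2 - b ^ 2| * ((1 - θ ^ 2) * (1 - θ ^ 2)) := by ring
    _ ≤ θ * |a ^ 2 - b ^ 2| * ((1 - θ ^ 2 * a ^ 2) * (1 - θ ^ 2 * b ^ 2)) :=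
        mul_le_mul_of_nonneg_left h4 h5

theorem tanh_sub_eq (a b : ℝ) :
    Real.tanh a - Real.tanh b = Real.sinh (a - b) / (Real.cosh a * Real.cosh b) := by
  rw [Real.tanh_eq_sinh_div_cosh, Real.tanh_eq_sinh_div_cosh, Real.sinh_sub,
    div_sub_div _ _ (Real.cosh_pos a).ne' (Real.cosh_pos b).ne']

theorem abs_le_abs_sinh (x : ℝ) : |x| ≤ |Real.sinh x| := by
  rw [Real.abs_sinh]
  exact Real.self_le_sinh_iff.2 (abs_nonneg x)

theorem tanh_lip (a b : ℝ) : |Real.tanh a - Real.tanh b| ≤ |a - b| := by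
  have := Convex.norm_image_sub_le_of_norm_hasDerivWithin_le (f := Real.tanh)
    (f' := fun h => 1 - Real.tanh h ^ 2) (C := 1) (s := Set.univ) (x := b) (y := a)
    (fun x _ => (hasDerivAt_tanh x).hasDerivWithinAt)
    (fun x _ => by
      have := Real.tanh_sq_lt_one x
      rw [Real.norm_eq_abs, abs_of_nonneg (by linarith)]
      linarith [sq_nonneg (Real.tanh x)])
    convex_univ (Set.mem_univ _) (Set.mem_univ _)
  simpa [Real.norm_eq_abs] using this

theorem cosh_le_of_abs_le {L a : ℝ} (ha : |a| ≤ L) : Real.cosh a ≤ Real.cosh L := by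
  rw [Real.cosh_le_cosh]
  exact ha.trans (le_abs_self L)

theorem tanh_lip' {L a b : ℝ} (ha : |a| ≤ L) (hb : |b| ≤ L) :
    |a - b| ≤ Real.cosh L ^ 2 * |Real.tanh a - Real.tanh b| := by
  have hca := Real.cosh_pos a
  have hcb := Real.cosh_pos b
  have h2 : Real.cosh a * Real.cosh b ≤ Real.cosh L ^ 2 := by
    rw [sq]
    exact mul_le_mul (cosh_le_of_abs_le ha) (cosh_le_of_abs_le hb) hcb.le (Real.cosh_pos L).le
  rw [tanh_sub_eq, abs_div, abs_of_pos (mul_pos hca hcb), mul_div_assoc']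
  rw [le_div_iff₀ (mul_pos hca hcb)]
  calc |a - b| * (Real.cosh a * Real.cosh b)
      ≤ |Real.sinh (a - b)| * Real.cosh L ^ 2 :=
        mul_le_mul (abs_le_abs_sinh _) h2 (mul_pos hca hcb).le (abs_nonneg _)
    _ = Real.cosh L ^ 2 * |Real.sinh (a - b)| := by ring

theorem one_sub_tanh_sq (a : ℝ) : 1 - Real.tanh a ^ 2 = 1 / Real.cosh a ^ 2 := by
  have hc := Real.cosh_pos a
  have h := Real.cosh_sq a
  rw [Real.tanh_eq_sinh_div_cosh, div_pow]
  rw [eq_div_iff (by positivity), sub_mul, div_mul_cancel₀ _ (by positivity)]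
  linarith

/-- `1 - tanh^2` is bounded below for bounded fields -/
theorem one_sub_tanh_sq_ge {L a : ℝ} (ha : |a| ≤ L) :
    1 / Real.cosh L ^ 2 ≤ 1 - Real.tanh a ^ 2 := by
  rw [one_sub_tanh_sq]
  have hc := Real.cosh_pos a
  apply one_div_le_one_div_of_le (by positivity)
  exact pow_le_pow_left₀ hc.le (cosh_le_of_abs_le ha) 2

/-- the summation trick -/
theorem sum_exp_trick {κ : ℝ} (hκ : 0 < κ) (n : ℕ) (x : ℕ → ℝ) (hx : ∀ k, 0 ≤ x k ∧ x k ≤ 1) :
    ∑ k ∈ Finset.range n, x k * Real.exp (-(κ * ∑ i ∈ Finset.range k, x i)) ≤ Real.exp κ / κ := by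
  have key : ∑ k ∈ Finset.range n, x k * Real.exp (-(κ * ∑ i ∈ Finset.range k, x i))
      ≤ Real.exp κ / κ * (1 - Real.exp (-(κ * ∑ i ∈ Finset.range n, x i))) := by
    induction n with
    | zero => simp
    | succ n ih =>
      rw [Finset.sum_range_succ]
      set S := ∑ i ∈ Finset.range n, x i with hS
      have hS1 : ∑ i ∈ Finset.range (n + 1), x i = S + x n := by
        rw [Finset.sum_range_succ]
      rw [hS1]
      obtain ⟨h0, h1⟩ := hx n
      set E := Real.exp (-(κ * S)) with hE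
      have hEpos : 0 < E := Real.exp_pos _
      have hE1 : Real.exp (-(κ * (S + x n))) = E * Real.exp (-(κ * x n)) := by
        rw [hE, ← Real.exp_add]; ring_nf
      rw [hE1]
      have hk : x n * E ≤ Real.exp κ / κ * (E - E * Real.exp (-(κ * x n))) := by
        have h2 : κ * x n ≤ Real.exp κ * (1 - Real.exp (-(κ * x n))) := by
          have h3 : κ * x n * Real.exp (-(κ * x n)) ≤ 1 - Real.exp (-(κ * x n)) := by
            have h4 := Real.add_one_le_exp (κ * x n)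
            have h5 : Real.exp (κ * x n) * Real.exp (-(κ * x n)) = 1 := by
              rw [← Real.exp_add]; simp
            have h6 := Real.exp_pos (-(κ * x n))
            nlinarith
          have h7 : κ * x n ≤ Real.exp κ * (κ * x n * Real.exp (-(κ * x n))) := by
            have h8 : 1 ≤ Real.exp κ * Real.exp (-(κ * x n)) := by
              rw [← Real.exp_add]
              apply Real.one_le_exp
              nlinarith
            have h9 : 0 ≤ κ * x n := mul_nonneg hκ.le h0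
            nlinarith
          calc κ * x n ≤ Real.exp κ * (κ * x n * Real.exp (-(κ * x n))) := h7
            _ ≤ _ := mul_le_mul_of_nonneg_left h3 (Real.exp_pos κ).le
        rw [div_mul_eq_mul_div, le_div_iff₀ hκ]
        calc x n * E * κ = κ * x n * E := by ring
          _ ≤ Real.exp κ * (1 - Real.exp (-(κ * x n))) * E :=
              mul_le_mul_of_nonneg_right h2 hEpos.le
          _ = _ := by ring
      calc _ ≤ Real.exp κ / κ * (1 - E) + Real.exp κ / κ * (E - E * Real.exp (-(κ * x n))) :=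
            add_le_add ih hk
        _ = _ := by ring
  refine key.trans ?_
  have h1 : 0 ≤ Real.exp κ / κ := (div_pos (Real.exp_pos κ) hκ).le
  have h2 := Real.exp_pos (-(κ * ∑ i ∈ Finset.range n, x i))
  nlinarith

theorem prod_sub_prod (n : ℕ) (F F' : ℕ → ℝ) :
    ∏ k ∈ Finset.range n, F k - ∏ k ∈ Finset.range n, F' k
      = ∑ k ∈ Finset.range n, (∏ i ∈ Finset.range k, F i) * (F k - F' k)
        * ∏ i ∈ Finset.Ico (k + 1) n, F' i := by
  induction n with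
  | zero => simp
  | succ n ih =>
    rw [Finset.sum_range_succ, Finset.prod_range_succ, Finset.prod_range_succ]
    have h : ∑ k ∈ Finset.range n, (∏ i ∈ Finset.range k, F i) * (F k - F' k)
        * ∏ i ∈ Finset.Ico (k + 1) (n + 1), F' i
        = (∑ k ∈ Finset.range n, (∏ i ∈ Finset.range k, F i) * (F k - F' k)
        * ∏ i ∈ Finset.Ico (k + 1) n, F' i) * F' n := by
      rw [Finset.sum_mul]
      apply Finset.sum_congr rfl
      intro k hk
      rw [Finset.prod_Ico_succ_top (by have := Finset.mem_range.1 hk; omega)]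
      ring
    rw [h, ← ih]
    simp
    ring

/-- product difference with weights (the `H e^{-H}` trick) -/
theorem htrick {κ C : ℝ} (hκ : 0 < κ) (n : ℕ) (F F' a a' : ℕ → ℝ)
    (hF : ∀ k, 0 ≤ F k ∧ F k ≤ Real.exp (-(κ * a k ^ 2)))
    (hF' : ∀ k, 0 ≤ F' k ∧ F' k ≤ Real.exp (-(κ * a' k ^ 2)))
    (ha : ∀ k, |a k| ≤ 1) (ha' : ∀ k, |a' k| ≤ 1)
    (hd : ∀ k, |F k - F' k| ≤ C * |a k ^ 2 - a' k ^ 2|) :
    (∏ k ∈ Finset.range n, F k - ∏ k ∈ Finset.range n, F' k) ^ 2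
      ≤ 4 * C ^ 2 * (Real.exp κ / κ) * ∑ k ∈ Finset.range n,
        (∏ i ∈ Finset.range k, F i) * (a k - a' k) ^ 2 * ∏ i ∈ Finset.Ico (k + 1) n, F' i := by
  set w : ℕ → ℝ := fun k => (∏ i ∈ Finset.range k, F i) * ∏ i ∈ Finset.Ico (k + 1) n, F' i with hw
  have hP1 : ∀ k, 0 ≤ ∏ i ∈ Finset.range k, F i := fun k =>
    Finset.prod_nonneg fun i _ => (hF i).1
  have hP2 : ∀ k, 0 ≤ ∏ i ∈ Finset.Ico (k + 1) n, F' i := fun k =>
    Finset.prod_nonneg fun i _ => (hF' i).1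
  have hw0 : ∀ k, 0 ≤ w k := fun k => mul_nonneg (hP1 k) (hP2 k)
  have hsq : ∀ k, a k ^ 2 ≤ 1 := fun k => by
    rw [← sq_abs]; nlinarith [abs_nonneg (a k), ha k]
  have hsq' : ∀ k, a' k ^ 2 ≤ 1 := fun k => by
    rw [← sq_abs]; nlinarith [abs_nonneg (a' k), ha' k]
  have hQ1 : ∀ k, ∏ i ∈ Finset.range k, F i ≤ Real.exp (-(κ * ∑ i ∈ Finset.range k, a i ^ 2)) := by
    intro k
    rw [Finset.mul_sum, ← Finset.sum_neg_distrib, Real.exp_sum]
    exact Finset.prod_le_prod (fun i _ => (hF i).1) (fun i _ => (hF i).2)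
  have hQ2 : ∀ k, ∏ i ∈ Finset.Ico (k + 1) n, F' i
      ≤ Real.exp (-(κ * ∑ i ∈ Finset.Ico (k + 1) n, a' i ^ 2)) := by
    intro k
    rw [Finset.mul_sum, ← Finset.sum_neg_distrib, Real.exp_sum]
    exact Finset.prod_le_prod (fun i _ => (hF' i).1) (fun i _ => (hF' i).2)
  have hexp1 : ∀ t : ℝ, 0 ≤ t → Real.exp (-(κ * t)) ≤ 1 := by
    intro t ht
    rw [Real.exp_le_one_iff]
    nlinarith
  have hw1 : ∀ k, w k ≤ Real.exp (-(κ * ∑ i ∈ Finset.range k, a i ^ 2)) := by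
    intro k
    calc w k ≤ Real.exp (-(κ * ∑ i ∈ Finset.range k, a i ^ 2)) * 1 :=
          mul_le_mul (hQ1 k) ((hQ2 k).trans (hexp1 _ (Finset.sum_nonneg fun i _ => sq_nonneg _)))
            (hP2 k) (Real.exp_pos _).le
      _ = _ := mul_one _
  have hw2 : ∀ k, w k ≤ Real.exp (-(κ * ∑ i ∈ Finset.Ico (k + 1) n, a' i ^ 2)) := by
    intro k
    calc w k ≤ 1 * Real.exp (-(κ * ∑ i ∈ Finset.Ico (k + 1) n, a' i ^ 2)) :=
          mul_le_mul ((hQ1 k).trans (hexp1 _ (Finset.sum_nonneg fun i _ => sq_nonneg _))) (hQ2 k)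
            (hP2 k) zero_le_one
      _ = _ := one_mul _
  have hS1 : ∑ k ∈ Finset.range n, w k * a k ^ 2 ≤ Real.exp κ / κ := by
    refine le_trans ?_ (sum_exp_trick hκ n (fun k => a k ^ 2) (fun k => ⟨sq_nonneg _, hsq k⟩))
    apply Finset.sum_le_sum
    intro k _
    rw [mul_comm (a k ^ 2)]
    exact mul_le_mul_of_nonneg_right (hw1 k) (sq_nonneg _)
  have hS2 : ∑ k ∈ Finset.range n, w k * a' k ^ 2 ≤ Real.exp κ / κ := by
    refine le_trans ?_ (sum_exp_trick hκ n (fun k => a' (n - 1 - k) ^ 2)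
      (fun k => ⟨sq_nonneg _, hsq' _⟩))
    rw [← Finset.sum_range_reflect]
    apply Finset.sum_le_sum
    intro k hk
    have hk' := Finset.mem_range.1 hk
    rw [mul_comm (a' (n - 1 - k) ^ 2)]
    apply mul_le_mul_of_nonneg_right _ (sq_nonneg _)
    refine (hw2 _).trans (le_of_eq ?_)
    congr 3
    have h1 : n - 1 - k + 1 = n - k := by omega
    rw [h1, Finset.sum_Ico_eq_sum_range]
    have h2 : n - (n - k) = k := by omega
    rw [h2, ← Finset.sum_range_reflect]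
    apply Finset.sum_congr rfl
    intro i hi
    have hi' := Finset.mem_range.1 hi
    congr 2
    omega
  have hS3 : ∑ k ∈ Finset.range n, w k * (a k + a' k) ^ 2 ≤ 4 * (Real.exp κ / κ) := by
    have h1 : ∑ k ∈ Finset.range n, w k * (a k + a' k) ^ 2
        ≤ ∑ k ∈ Finset.range n, (2 * (w k * a k ^ 2) + 2 * (w k * a' k ^ 2)) := by
      apply Finset.sum_le_sum
      intro k _
      have h2 : (a k + a' k) ^ 2 ≤ 2 * a k ^ 2 + 2 * a' k ^ 2 := by
        nlinarith [sq_nonneg (a k - a' k)]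
      have h3 := mul_le_mul_of_nonneg_left h2 (hw0 k)
      linarith
    rw [Finset.sum_add_distrib, ← Finset.mul_sum, ← Finset.mul_sum] at h1
    linarith
  have hle : |∏ k ∈ Finset.range n, F k - ∏ k ∈ Finset.range n, F' k|
      ≤ ∑ k ∈ Finset.range n, (√(w k) * |a k - a' k|) * (√(w k) * (|C| * |a k + a' k|)) := by
    rw [prod_sub_prod]
    refine (Finset.abs_sum_le_sum_abs _ _).trans ?_
    apply Finset.sum_le_sum
    intro k _
    have h1 : |(∏ i ∈ Finset.range k, F i) * (F k - F' k) * ∏ i ∈ Finset.Ico (k + 1) n, F' i|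
        = w k * |F k - F' k| := by
      rw [abs_mul, abs_mul, abs_of_nonneg (hP1 k), abs_of_nonneg (hP2 k)]
      simp only [hw]
      ring
    rw [h1]
    have h2 : |F k - F' k| ≤ |C| * (|a k - a' k| * |a k + a' k|) := by
      refine (hd k).trans ?_
      rw [← abs_mul]
      have h3 : a k ^ 2 - a' k ^ 2 = (a k - a' k) * (a k + a' k) := by ring
      rw [h3]
      exact mul_le_mul_of_nonneg_right (le_abs_self C) (abs_nonneg _)
    have h4 : √(w k) * √(w k) = w k := Real.mul_self_sqrt (hw0 k)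
    calc w k * |F k - F' k| ≤ w k * (|C| * (|a k - a' k| * |a k + a' k|)) :=
          mul_le_mul_of_nonneg_left h2 (hw0 k)
      _ = (√(w k) * √(w k)) * (|C| * (|a k - a' k| * |a k + a' k|)) := by rw [h4]
      _ = _ := by ring
  have hsqle : (∏ k ∈ Finset.range n, F k - ∏ k ∈ Finset.range n, F' k) ^ 2
      ≤ (∑ k ∈ Finset.range n, (√(w k) * |a k - a' k|) * (√(w k) * (|C| * |a k + a' k|))) ^ 2 := by
    rw [← sq_abs (∏ k ∈ Finset.range n, F k - ∏ k ∈ Finset.range n, F' k)]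
    exact pow_le_pow_left₀ (abs_nonneg _) hle 2
  refine hsqle.trans ?_
  refine (Finset.sum_mul_sq_le_sq_mul_sq _ _ _).trans ?_
  have hA : ∑ k ∈ Finset.range n, (√(w k) * |a k - a' k|) ^ 2
      = ∑ k ∈ Finset.range n,
        (∏ i ∈ Finset.range k, F i) * (a k - a' k) ^ 2 * ∏ i ∈ Finset.Ico (k + 1) n, F' i := by
    apply Finset.sum_congr rfl
    intro k _
    rw [mul_pow, Real.sq_sqrt (hw0 k), sq_abs]
    simp only [hw]
    ring
  have hB : ∑ k ∈ Finset.range n, (√(w k) * (|C| * |a k + a' k|)) ^ 2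
      ≤ 4 * C ^ 2 * (Real.exp κ / κ) := by
    have h1 : ∑ k ∈ Finset.range n, (√(w k) * (|C| * |a k + a' k|)) ^ 2
        = C ^ 2 * ∑ k ∈ Finset.range n, w k * (a k + a' k) ^ 2 := by
      rw [Finset.mul_sum]
      apply Finset.sum_congr rfl
      intro k _
      rw [mul_pow, mul_pow, Real.sq_sqrt (hw0 k), sq_abs, sq_abs]
      ring
    rw [h1]
    have := mul_le_mul_of_nonneg_left hS3 (sq_nonneg C)
    linarith
  rw [hA, mul_comm]
  apply mul_le_mul_of_nonneg_right hB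
  rw [← hA]
  exact Finset.sum_nonneg fun k _ => sq_nonneg _

end Crest.Agent.FI
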