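import Mathlib
import Crest.Agent.FI.Defs
import Crest.Agent.FI.Branch
import Crest.Agent.FI.Real

set_option autoImplicit false

namespace Crest.Agent.FI

open MeasureTheory Set Filter Topology

variable {V : Type*} (G : SimpleGraph V) [G.LocallyFinite]

theorem tanh_add' (a b : ℝ) :
    Real.tanh (a + b) = (Real.tanh a + Real.tanh b) / (1 + Real.tanh a * Real.tanh b) := by
  have h1 := (Real.cosh_pos a).ne'
  have h2 := (Real.cosh_pos b).ne'
  have h3 := (Real.cosh_pos (a + b)).ne'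
  rw [Real.tanh_eq_sinh_div_cosh, Real.tanh_eq_sinh_div_cosh a, Real.tanh_eq_sinh_div_cosh b,
    Real.sinh_add, Real.cosh_add]
  rw [Real.cosh_add] at h3
  have h4 : 1 + Real.sinh a / Real.cosh a * (Real.sinh b / Real.cosh b) ≠ 0 := by
    intro h
    apply h3
    field_simp at h
    linarith
  field_simp

theorem one_add_tanh_mul_pos (a b : ℝ) : 0 < 1 + Real.tanh a * Real.tanh b := by
  have h1 := tanh_mem a
  have h2 := tanh_mem b
  have h3 : |Real.tanh a * Real.tanh b| < 1 := by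
    rw [abs_mul]
    have ha : |Real.tanh a| < 1 := abs_lt.2 ⟨h1.1, h1.2⟩
    have hb : |Real.tanh b| < 1 := abs_lt.2 ⟨h2.1, h2.2⟩
    nlinarith [abs_nonneg (Real.tanh a), abs_nonneg (Real.tanh b)]
  linarith [(abs_lt.1 h3).1]

theorem artanh_nonneg' {θ : ℝ} (h0 : 0 ≤ θ) (h1 : θ < 1) : 0 ≤ Real.artanh θ :=
  (abs_nonneg _).trans (abs_ff_le' h0 h1 0)

theorem sum_ff_bound {θ L : ℝ} (h0 : 0 ≤ θ) (h1 : θ < 1) {d : ℕ} {s : Finset V}
    (hs : s.card ≤ d) {a : ℝ} (ha : |a| ≤ L) (f : V → ℝ) :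
    |a + ∑ c ∈ s, ff θ (f c)| ≤ L + d * Real.artanh θ := by
  have hA := artanh_nonneg' h0 h1
  calc |a + ∑ c ∈ s, ff θ (f c)| ≤ |a| + ∑ c ∈ s, |ff θ (f c)| :=
        (abs_add_le _ _).trans (add_le_add le_rfl (Finset.abs_sum_le_sum_abs _ _))
    _ ≤ L + ∑ _c ∈ s, Real.artanh θ :=
        add_le_add ha (Finset.sum_le_sum fun c _ => abs_ff_le' h0 h1 _)
    _ = L + s.card * Real.artanh θ := by rw [Finset.sum_const, nsmul_eq_mul]
    _ ≤ L + d * Real.artanh θ := by
        have : (s.card : ℝ) ≤ d := by exact_mod_cast hs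
        nlinarith

theorem card_oth_le {d : ℕ} (hreg : G.IsRegularOfDegree d) (i j : V) : (oth G i j).card ≤ d := by
  classical
  refine (Finset.card_filter_le _ _).trans ?_
  rw [SimpleGraph.card_neighborFinset_eq_degree, hreg i]

theorem msg_bound {θ L : ℝ} (h0 : 0 ≤ θ) (h1 : θ < 1) {d : ℕ} (hreg : G.IsRegularOfDegree d)
    {x : V → ℝ} (hx : ∀ w, |x w| ≤ L) (n : ℕ) (i j : V) :
    |msg G θ x n i j| ≤ L + d * Real.artanh θ := by
  have hL : 0 ≤ L := (abs_nonneg _).trans (hx i)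
  have hA := artanh_nonneg' h0 h1
  cases n with
  | zero =>
    rw [msg, abs_zero]
    positivity
  | succ n =>
    rw [msg]
    exact sum_ff_bound h0 h1 (card_oth_le G hreg i j) (hx i) _

theorem hl_bound {θ L : ℝ} (h0 : 0 ≤ θ) (h1 : θ < 1) {d : ℕ} (hreg : G.IsRegularOfDegree d)
    {x : V → ℝ} (hx : ∀ w, |x w| ≤ L) (i j : V) : |hl G θ x i j| ≤ L + d * Real.artanh θ := by
  have hb := fun n => abs_le.1 (msg_bound G h0 h1 hreg hx n i j)
  rw [abs_le]
  unfold hl
  constructor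
  · refine le_limsup_of_frequently_le (Frequently.of_forall fun n => (hb n).1) ?_
    exact ⟨_, Filter.eventually_map.2 (Eventually.of_forall fun n => (hb n).2)⟩
  · refine limsup_le_of_le ?_ (Eventually.of_forall fun n => (hb n).2)
    exact Filter.IsCoboundedUnder.of_frequently_ge (a := -(L + d * Real.artanh θ))
      (Frequently.of_forall fun n => (hb n).1)

theorem Hl_bound {θ L : ℝ} (h0 : 0 ≤ θ) (h1 : θ < 1) {d : ℕ} (hreg : G.IsRegularOfDegree d)
    {x : V → ℝ} (hx : ∀ w, |x w| ≤ L) (v : V) : |Hl G θ x v| ≤ L + d * Real.artanh θ := by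
  refine sum_ff_bound h0 h1 ?_ (hx v) _
  rw [SimpleGraph.card_neighborFinset_eq_degree, hreg v]

/-- recursion of the limiting messages -/
theorem hl_rec {θ : ℝ} (h0 : 0 ≤ θ) (h1 : θ < 1) {x : V → ℝ} (hx : Good G θ x) {i j : V}
    (h : G.Adj i j) : hl G θ x i j = x i + ∑ c ∈ oth G i j, ff θ (hl G θ x c i) := by
  have h2 : Tendsto (fun n => msg G θ x (n + 1) i j) atTop (𝓝 (hl G θ x i j)) :=
    (hx i j h).comp (tendsto_add_atTop_nat 1)
  have h3 : Tendsto (fun n => msg G θ x (n + 1) i j) atTop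
      (𝓝 (x i + ∑ c ∈ oth G i j, ff θ (hl G θ x c i))) := by
    simp only [msg]
    refine tendsto_const_nhds.add (tendsto_finsetSum _ fun c hc => ?_)
    exact ((continuous_ff h0 h1).tendsto _).comp (hx c i ((mem_oth G).1 hc).1.symm)
  exact tendsto_nhds_unique h2 h3

theorem neighborFinset_eq_insert {i j : V} (h : G.Adj i j) :
    ∀ (f : V → ℝ), ∑ c ∈ G.neighborFinset i, f c = ∑ c ∈ oth G i j, f c + f j := by
  classical
  intro f
  have hj : j ∉ oth G i j := by simp [mem_oth]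
  have : G.neighborFinset i = insert j (oth G i j) := by
    ext c
    rw [Finset.mem_insert, mem_oth, SimpleGraph.mem_neighborFinset]
    constructor
    · intro hc
      by_cases hcj : c = j
      · exact Or.inl hcj
      · exact Or.inr ⟨hc, hcj⟩
    · rintro (rfl | hc)
      · exact h
      · exact hc.1
  rw [this, Finset.sum_insert hj, add_comm]

theorem Hl_eq {θ : ℝ} (h0 : 0 ≤ θ) (h1 : θ < 1) {x : V → ℝ} (hx : Good G θ x) {i j : V}
    (h : G.Adj i j) : Hl G θ x i = hl G θ x i j + ff θ (hl G θ x j i) := by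
  rw [hl_rec G h0 h1 hx h, Hl, neighborFinset_eq_insert G h, add_assoc]

/-- posterior mean through one edge -/
theorem mm_edge {θ : ℝ} (h0 : 0 ≤ θ) (h1 : θ < 1) {x : V → ℝ} (hx : Good G θ x) {i j : V}
    (h : G.Adj i j) : mm G θ x i
      = (al G θ x i j + θ * al G θ x j i) / (1 + θ * al G θ x i j * al G θ x j i) := by
  unfold mm al
  rw [Hl_eq G h0 h1 hx h, tanh_add', tanh_ff h0 h1]
  congr 1
  ring

theorem al_mem (θ : ℝ) (x : V → ℝ) (i j : V) : al G θ x i j ∈ Ioo (-1 : ℝ) 1 := tanh_mem _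

theorem abs_al_lt (θ : ℝ) (x : V → ℝ) (i j : V) : |al G θ x i j| < 1 :=
  abs_lt.2 ⟨(al_mem G θ x i j).1, (al_mem G θ x i j).2⟩

theorem abs_mm_lt (θ : ℝ) (x : V → ℝ) (i : V) : |mm G θ x i| < 1 :=
  abs_lt.2 ⟨(tanh_mem _).1, (tanh_mem _).2⟩

theorem edge_pos {θ a b : ℝ} (h0 : 0 ≤ θ) (h1 : θ < 1) (ha : |a| < 1) (hb : |b| < 1) :
    0 < 1 + θ * a * b := by
  have : |θ * a * b| < 1 := by
    rw [abs_mul, abs_mul, abs_of_nonneg h0]
    have h3 : θ * |a| ≤ 1 := by nlinarith [abs_nonneg a]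
    have h4 : 0 ≤ θ * |a| := by positivity
    nlinarith [abs_nonneg b]
  linarith [(abs_lt.1 this).1]

/-- the variance of an edge -/
theorem edge_var {θ a b : ℝ} (h0 : 0 ≤ θ) (h1 : θ < 1) (ha : |a| < 1) (hb : |b| < 1) :
    1 - ((a + θ * b) / (1 + θ * a * b)) ^ 2
      = (1 - a ^ 2) * (1 - θ ^ 2 * b ^ 2) / (1 + θ * a * b) ^ 2 := by
  have h2 := (edge_pos h0 h1 ha hb).ne'
  rw [div_pow, eq_div_iff (pow_ne_zero 2 h2), sub_mul, div_mul_cancel₀ _ (pow_ne_zero 2 h2)]
  ring

/-- the covariance of an edge -/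
theorem edge_cov {θ a b : ℝ} (h0 : 0 ≤ θ) (h1 : θ < 1) (ha : |a| < 1) (hb : |b| < 1) :
    (1 - ((a + θ * b) / (1 + θ * a * b)) ^ 2) * ph θ b
      = θ * (1 - a ^ 2) * (1 - b ^ 2) / (1 + θ * a * b) ^ 2 := by
  have h2 := (edge_pos h0 h1 ha hb).ne'
  have h3 := (one_sub_pos h0 h1 hb.le).ne'
  rw [edge_var h0 h1 ha hb, ph, div_mul_div_comm, div_eq_div_iff (mul_ne_zero (pow_ne_zero 2 h2) h3)
    (pow_ne_zero 2 h2)]
  ring

theorem cov_edge {θ : ℝ} (h0 : 0 ≤ θ) (h1 : θ < 1) {x : V → ℝ} (hx : Good G θ x) {i j : V}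
    (h : G.Adj i j) : (1 - mm G θ x i ^ 2) * ph θ (al G θ x j i)
      = (1 - mm G θ x j ^ 2) * ph θ (al G θ x i j) := by
  have ha := abs_al_lt G θ x i j
  have hb := abs_al_lt G θ x j i
  rw [mm_edge G h0 h1 hx h, mm_edge G h0 h1 hx h.symm, edge_cov h0 h1 ha hb, edge_cov h0 h1 hb ha]
  congr 1
  · ring
  · ring

/-- symmetry of the posterior covariance -/
theorem Cv_symm {θ : ℝ} (h0 : 0 ≤ θ) (h1 : θ < 1) {x : V → ℝ} (hx : Good G θ x) {p : ℕ → V} {n : ℕ}
    (hp : IsPth G p n) :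
    (1 - mm G θ x (p 0) ^ 2) * ∏ i ∈ Finset.range n, ph θ (al G θ x (p (i + 1)) (p i))
      = (1 - mm G θ x (p n) ^ 2) * ∏ i ∈ Finset.range n, ph θ (al G θ x (p i) (p (i + 1))) := by
  have hadj := hp.1
  clear hp
  induction n with
  | zero => simp
  | succ n ih =>
    rw [Finset.prod_range_succ, Finset.prod_range_succ, ← mul_assoc,
      ih (fun i hi => hadj i (by omega))]
    have h2 := cov_edge G h0 h1 hx (hadj n (by omega))
    calc _ = ((1 - mm G θ x (p n) ^ 2) * ph θ (al G θ x (p (n + 1)) (p n))) *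
          ∏ i ∈ Finset.range n, ph θ (al G θ x (p i) (p (i + 1))) := by ring
      _ = _ := by rw [h2]; ring

/-- message differences are controlled by posterior mean differences -/
theorem hl_sub_le {θ L : ℝ} (h0 : 0 ≤ θ) (h1 : θ < 1) {d : ℕ} (hreg : G.IsRegularOfDegree d)
    {x x' : V → ℝ} (hx : Good G θ x) (hx' : Good G θ x') (hL : ∀ w, |x w| ≤ L) (hL' : ∀ w, |x' w| ≤ L)
    {i j : V} (h : G.Adj i j) :
    |hl G θ x i j - hl G θ x' i j|
      ≤ Real.cosh (L + d * Real.artanh θ) ^ 2 / (1 - θ)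
        * (|mm G θ x i - mm G θ x' i| + |mm G θ x j - mm G θ x' j|) := by
  set C := Real.cosh (L + d * Real.artanh θ) ^ 2 with hC
  have hH : ∀ v, |Hl G θ x v - Hl G θ x' v| ≤ C * |mm G θ x v - mm G θ x' v| := fun v =>
    tanh_lip' (Hl_bound G h0 h1 hreg hL v) (Hl_bound G h0 h1 hreg hL' v)
  have key : ∀ {i j : V}, G.Adj i j → |hl G θ x i j - hl G θ x' i j| ≤
      |Hl G θ x i - Hl G θ x' i| + θ * |hl G θ x j i - hl G θ x' j i| := by
    intro i j h
    have e : hl G θ x i j - hl G θ x' i j = (Hl G θ x i - Hl G θ x' i)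
        - (ff θ (hl G θ x j i) - ff θ (hl G θ x' j i)) := by
      rw [Hl_eq G h0 h1 hx h, Hl_eq G h0 h1 hx' h]; ring
    rw [e]
    exact (abs_sub _ _).trans (add_le_add le_rfl (ff_lip h0 h1 _ _))
  have k1 := key h
  have k2 := key h.symm
  have k3 := hH i
  have k4 := hH j
  have hθ : 0 < 1 - θ := by linarith
  rw [div_mul_eq_mul_div, le_div_iff₀ hθ]
  set A := |hl G θ x i j - hl G θ x' i j|
  set B := |hl G θ x j i - hl G θ x' j i|
  set P := |Hl G θ x i - Hl G θ x' i|
  set Q := |Hl G θ x j - Hl G θ x' j|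
  have hA : 0 ≤ A := abs_nonneg _
  have hP : 0 ≤ P := abs_nonneg _
  have hQ : 0 ≤ Q := abs_nonneg _
  -- A ≤ P + θ B ≤ P + θ Q + θ² A
  have k5 : A * (1 - θ ^ 2) ≤ P + θ * Q := by nlinarith
  have k6 : A * (1 - θ) ≤ P + Q := by nlinarith
  calc A * (1 - θ) ≤ P + Q := k6
    _ ≤ C * |mm G θ x i - mm G θ x' i| + C * |mm G θ x j - mm G θ x' j| := add_le_add k3 k4
    _ = _ := by ring

/-! ### effect of one more observation -/

/-- the constant term of the linear regression through an edge -/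
noncomputable def cc (θ a : ℝ) : ℝ := a * (1 - θ ^ 2) / (1 - θ ^ 2 * a ^ 2)

theorem cc_id1 {θ a : ℝ} (h0 : 0 ≤ θ) (h1 : θ < 1) (ha : |a| < 1) (c : ℝ) :
    cc θ a * (c + θ * a) + ph θ a * (1 + θ * a * c) = c * a + θ := by
  have h3 := (one_sub_pos h0 h1 ha.le).ne'
  rw [cc, ph, div_mul_eq_mul_div, div_mul_eq_mul_div, ← add_div, div_eq_iff h3]
  ring

theorem cc_id2 {θ a : ℝ} (h0 : 0 ≤ θ) (h1 : θ < 1) (ha : |a| < 1) (c : ℝ) :
    cc θ a * (1 + θ * a * c) + ph θ a * (c + θ * a) = a + c * θ := by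
  have h3 := (one_sub_pos h0 h1 ha.le).ne'
  rw [cc, ph, div_mul_eq_mul_div, div_mul_eq_mul_div, ← add_div, div_eq_iff h3]
  ring

theorem cc_id3 {θ a b : ℝ} (h0 : 0 ≤ θ) (h1 : θ < 1) (ha : |a| < 1) (hb : |b| < 1) :
    (a + θ * b) / (1 + θ * a * b) = cc θ a + ph θ a * ((b + θ * a) / (1 + θ * b * a)) := by
  have h3 := (one_sub_pos h0 h1 ha.le).ne'
  have h2 := (edge_pos h0 h1 ha hb).ne'
  have e : 1 + θ * b * a = 1 + θ * a * b := by ring
  rw [e, cc, ph, div_mul_div_comm, div_add_div _ _ h3 (mul_ne_zero h3 h2),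
    div_eq_div_iff h2 (mul_ne_zero h3 (mul_ne_zero h3 h2))]
  ring

theorem abs_cc_add {θ a : ℝ} (h0 : 0 ≤ θ) (h1 : θ < 1) (ha : |a| < 1) :
    |cc θ a| + ph θ a ≤ 1 := by
  have h3 := one_sub_pos h0 h1 ha.le
  have h4 : 0 ≤ 1 - θ ^ 2 := by nlinarith
  have e : |cc θ a| = |a| * (1 - θ ^ 2) / (1 - θ ^ 2 * a ^ 2) := by
    rw [cc, abs_div, abs_mul, abs_of_pos h3, abs_of_nonneg h4]
  rw [e, ph, ← add_div, div_le_one h3]
  have h5 : a ^ 2 = |a| ^ 2 := (sq_abs a).symm
  rw [h5]
  have h6 : 0 ≤ (1 - |a|) * (1 - θ) * (1 - |a| * θ) := by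
    have : |a| * θ ≤ 1 := by nlinarith [abs_nonneg a]
    refine mul_nonneg (mul_nonneg ?_ ?_) ?_ <;> linarith
  nlinarith

/-- one step of the update recursion -/
theorem upd_step {θ η A' B' R a a' : ℝ} (h0 : 0 ≤ θ) (h1 : θ < 1) (hη : |η| < 1) (hB : 0 ≤ B')
    (hAB : |A'| + B' ≤ 1)
    (h : Real.tanh a' * (1 + η * (A' + B' * Real.tanh a))
      = Real.tanh a + η * (A' * Real.tanh a + B')) :
    Real.tanh (R + ff θ a') * (1 + η * ((A' + B' * cc θ (Real.tanh a))
        + B' * ph θ (Real.tanh a) * Real.tanh (R + ff θ a)))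
      = Real.tanh (R + ff θ a) + η * ((A' + B' * cc θ (Real.tanh a)) * Real.tanh (R + ff θ a)
        + B' * ph θ (Real.tanh a)) := by
  set α := Real.tanh a with hα
  set α' := Real.tanh a' with hα'
  set c := Real.tanh R with hc
  have haα : |α| < 1 := abs_lt.2 ⟨(tanh_mem a).1, (tanh_mem a).2⟩
  have haα' : |α'| < 1 := abs_lt.2 ⟨(tanh_mem a').1, (tanh_mem a').2⟩
  have hac : |c| < 1 := abs_lt.2 ⟨(tanh_mem R).1, (tanh_mem R).2⟩
  have e1 : Real.tanh (R + ff θ a) = (c + θ * α) / (1 + θ * α * c) := by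
    rw [tanh_add', tanh_ff h0 h1, ← hc, ← hα]; congr 1; ring
  have e2 : Real.tanh (R + ff θ a') = (c + θ * α') / (1 + θ * α' * c) := by
    rw [tanh_add', tanh_ff h0 h1, ← hc, ← hα']; congr 1; ring
  have p1 := edge_pos h0 h1 haα hac
  have p2 := edge_pos h0 h1 haα' hac
  set β := Real.tanh (R + ff θ a) with hβ
  set β' := Real.tanh (R + ff θ a') with hβ'
  have f1 : β * (1 + θ * α * c) = c + θ * α := by rw [e1, div_mul_cancel₀ _ p1.ne']
  have f2 : β' * (1 + θ * α' * c) = c + θ * α' := by rw [e2, div_mul_cancel₀ _ p2.ne']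
  have g1 := cc_id1 h0 h1 haα c
  have g2 := cc_id2 h0 h1 haα c
  set cα := cc θ α
  set φ := ph θ α
  have hD : 0 < 1 + η * (A' + B' * α) := by
    have : |η * (A' + B' * α)| < 1 := by
      rw [abs_mul]
      have h2 : |A' + B' * α| ≤ 1 := by
        refine (abs_add_le _ _).trans ?_
        rw [abs_mul, abs_of_nonneg hB]
        nlinarith [abs_nonneg α]
      nlinarith [abs_nonneg (A' + B' * α), abs_nonneg η]
    linarith [(abs_lt.1 this).1]
  set D := 1 + η * (A' + B' * α) with hDdef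
  -- β' (D + θ c N) = c D + θ N with N = α' D
  have k1 : β' * (D + θ * c * (α + η * (A' * α + B'))) = c * D + θ * (α + η * (A' * α + B')) := by
    rw [← h]
    linear_combination D * f2
  have k2 : D + θ * c * (α + η * (A' * α + B'))
      = (1 + θ * α * c) * (1 + η * ((A' + B' * cα) + B' * φ * β)) := by
    rw [hDdef]
    linear_combination (-η * B') * g2 - η * B' * φ * f1
  have k3 : c * D + θ * (α + η * (A' * α + B'))
      = (1 + θ * α * c) * (β + η * ((A' + B' * cα) * β + B' * φ)) := by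
    rw [hDdef]
    linear_combination (-η * B') * g1 - (1 + η * (A' + B' * cα)) * f1
  rw [k2, k3] at k1
  have k4 : (1 + θ * α * c) * (β' * (1 + η * ((A' + B' * cα) + B' * φ * β)))
      = (1 + θ * α * c) * (β + η * ((A' + B' * cα) * β + B' * φ)) := by
    linear_combination k1
  exact mul_left_cancel₀ p1.ne' k4

omit [G.LocallyFinite] in
theorem pth_tail {p : ℕ → V} {n : ℕ} (hp : IsPth G p (n + 1)) : IsPth G (fun i => p (i + 1)) n :=
  ⟨fun i hi => hp.1 (i + 1) (by omega), fun i hi => hp.2 (i + 1) (by omega)⟩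

theorem upd_key (hT : G.IsTree) {θ : ℝ} (h0 : 0 ≤ θ) (h1 : θ < 1) {x x' : V → ℝ}
    (hx : Good G θ x) (hx' : Good G θ x') {y : ℝ} (n : ℕ) (p : ℕ → V) (hp : IsPth G p n)
    (hy : x' (p n) = x (p n) + y) (hne : ∀ w, w ≠ p n → x' w = x w) :
    ∃ A B : ℝ, B = PP G θ x p n ∧ 0 ≤ B ∧ |A| + B ≤ 1 ∧ A + B * mm G θ x (p 0) = mm G θ x (p n) ∧
      (∀ j, G.Adj (p 0) j → (1 ≤ n → j ≠ p 1) →
        al G θ x' (p 0) j * (1 + Real.tanh y * (A + B * al G θ x (p 0) j))
          = al G θ x (p 0) j + Real.tanh y * (A * al G θ x (p 0) j + B)) ∧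
      mm G θ x' (p 0) * (1 + Real.tanh y * (A + B * mm G θ x (p 0)))
          = mm G θ x (p 0) + Real.tanh y * (A * mm G θ x (p 0) + B) := by
  induction n generalizing p with
  | zero =>
    refine ⟨0, 1, by simp [PP], zero_le_one, by simp, by simp, ?_, ?_⟩
    · intro j hj _
      have e : hl G θ x' (p 0) j = hl G θ x (p 0) j + y := by
        rw [hl_rec G h0 h1 hx' hj, hl_rec G h0 h1 hx hj, hy]
        have : ∑ c ∈ oth G (p 0) j, ff θ (hl G θ x' c (p 0))
            = ∑ c ∈ oth G (p 0) j, ff θ (hl G θ x c (p 0)) := by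
          refine Finset.sum_congr rfl fun c hc => ?_
          have hc' := (mem_oth G).1 hc
          rw [hl_congr G hT θ hc'.1.symm fun w hw => hne w ?_]
          rintro rfl
          exact self_notMem_brn G hT hc'.1.symm hw
        rw [this]; ring
      have p1 := one_add_tanh_mul_pos (hl G θ x (p 0) j) y
      unfold al
      rw [e, tanh_add', zero_add, one_mul, zero_mul, zero_add, mul_one]
      rw [mul_comm (Real.tanh y) (Real.tanh (hl G θ x (p 0) j)), div_mul_cancel₀ _ p1.ne']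
    · have e : Hl G θ x' (p 0) = Hl G θ x (p 0) + y := by
        unfold Hl
        rw [hy]
        have : ∑ c ∈ G.neighborFinset (p 0), ff θ (hl G θ x' c (p 0))
            = ∑ c ∈ G.neighborFinset (p 0), ff θ (hl G θ x c (p 0)) := by
          refine Finset.sum_congr rfl fun c hc => ?_
          have hc' := (G.mem_neighborFinset (p 0) c).1 hc
          rw [hl_congr G hT θ hc'.symm fun w hw => hne w ?_]
          rintro rfl
          exact self_notMem_brn G hT hc'.symm hw
        rw [this]; ring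
      have p1 := one_add_tanh_mul_pos (Hl G θ x (p 0)) y
      unfold mm
      rw [e, tanh_add', zero_add, one_mul, zero_mul, zero_add, mul_one]
      rw [mul_comm (Real.tanh y) (Real.tanh (Hl G θ x (p 0))), div_mul_cancel₀ _ p1.ne']
  | succ n ih =>
    obtain ⟨A', B', hB, hB0, hAB, hM, hal, -⟩ := ih (fun i => p (i + 1)) (pth_tail G hp) hy hne
    have hadj : G.Adj (p 0) (p 1) := hp.1 0 (by omega)
    have hη : |Real.tanh y| < 1 := abs_lt.2 ⟨(tanh_mem y).1, (tanh_mem y).2⟩
    have hα := abs_al_lt G θ x (p 1) (p 0)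
    have hβ := abs_al_lt G θ x (p 0) (p 1)
    have hφ := ph_nonneg h0 h1 hα.le
    have h01 := hal (p 0) hadj.symm (fun hn => by
      have := hp.2 0 (by omega)
      simpa using this)
    simp only [zero_add] at h01 hM
    have hp0 : p 0 ≠ p (n + 1) := by
      intro he
      have := pth_mem_brn G hT hp (i := 0) (by omega)
      rw [← he] at this
      exact self_notMem_brn G hT hadj.symm this
    have hxp0 : x' (p 0) = x (p 0) := hne _ hp0
    have hother : ∀ c, G.Adj (p 0) c → c ≠ p 1 → hl G θ x' c (p 0) = hl G θ x c (p 0) := by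
      intro c hc hc1
      refine hl_congr G hT θ hc.symm fun w hw => hne w ?_
      rintro rfl
      exact pth_notMem_brn G hT hp (i := 0) (by omega) hc.symm hc1 hw
    refine ⟨A' + B' * cc θ (al G θ x (p 1) (p 0)), B' * ph θ (al G θ x (p 1) (p 0)), ?_,
      mul_nonneg hB0 hφ, ?_, ?_, ?_, ?_⟩
    · rw [PP, Finset.prod_range_succ', hB, PP]
    · have h2 := abs_cc_add h0 h1 hα
      calc |A' + B' * cc θ (al G θ x (p 1) (p 0))| + B' * ph θ (al G θ x (p 1) (p 0))
          ≤ (|A'| + B' * |cc θ (al G θ x (p 1) (p 0))|) + B' * ph θ (al G θ x (p 1) (p 0)) := by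
            refine add_le_add ((abs_add_le _ _).trans ?_) le_rfl
            rw [abs_mul, abs_of_nonneg hB0]
        _ = |A'| + B' * (|cc θ (al G θ x (p 1) (p 0))| + ph θ (al G θ x (p 1) (p 0))) := by ring
        _ ≤ |A'| + B' * 1 := by gcongr
        _ ≤ 1 := by linarith
    · rw [← hM, mm_edge G h0 h1 hx hadj, mm_edge G h0 h1 hx hadj.symm, cc_id3 h0 h1 hα hβ]
      ring
    · intro j hj hj1
      have hj1 := hj1 (by omega)
      classical
      have hmem : p 1 ∈ oth G (p 0) j := (mem_oth G).2 ⟨hadj, hj1.symm⟩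
      have e1 : hl G θ x (p 0) j = (x (p 0) + ∑ c ∈ (oth G (p 0) j).erase (p 1),
          ff θ (hl G θ x c (p 0))) + ff θ (hl G θ x (p 1) (p 0)) := by
        rw [hl_rec G h0 h1 hx hj, ← Finset.sum_erase_add _ _ hmem, add_assoc]
      have e2 : hl G θ x' (p 0) j = (x (p 0) + ∑ c ∈ (oth G (p 0) j).erase (p 1),
          ff θ (hl G θ x c (p 0))) + ff θ (hl G θ x' (p 1) (p 0)) := by
        rw [hl_rec G h0 h1 hx' hj, ← Finset.sum_erase_add _ _ hmem, hxp0, ← add_assoc]
        congr 2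
        refine Finset.sum_congr rfl fun c hc => ?_
        rw [Finset.mem_erase, mem_oth] at hc
        rw [hother c hc.2.1 hc.1]
      have := upd_step (R := x (p 0) + ∑ c ∈ (oth G (p 0) j).erase (p 1), ff θ (hl G θ x c (p 0)))
        h0 h1 hη hB0 hAB h01
      rw [← e1, ← e2] at this
      exact this
    · classical
      have hmem : p 1 ∈ G.neighborFinset (p 0) := (G.mem_neighborFinset _ _).2 hadj
      have e1 : Hl G θ x (p 0) = (x (p 0) + ∑ c ∈ (G.neighborFinset (p 0)).erase (p 1),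
          ff θ (hl G θ x c (p 0))) + ff θ (hl G θ x (p 1) (p 0)) := by
        rw [Hl, ← Finset.sum_erase_add _ _ hmem, add_assoc]
      have e2 : Hl G θ x' (p 0) = (x (p 0) + ∑ c ∈ (G.neighborFinset (p 0)).erase (p 1),
          ff θ (hl G θ x c (p 0))) + ff θ (hl G θ x' (p 1) (p 0)) := by
        rw [Hl, ← Finset.sum_erase_add _ _ hmem, hxp0, ← add_assoc]
        congr 2
        refine Finset.sum_congr rfl fun c hc => ?_
        rw [Finset.mem_erase, SimpleGraph.mem_neighborFinset] at hc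
        rw [hother c hc.2 hc.1]
      have := upd_step (R := x (p 0) + ∑ c ∈ (G.neighborFinset (p 0)).erase (p 1),
        ff θ (hl G θ x c (p 0))) h0 h1 hη hB0 hAB h01
      rw [← e1, ← e2] at this
      exact this

/-- effect of one more observation: if `x'` differs from `x` only at `p n`, by `y` -/
theorem mm_update (hT : G.IsTree) {θ : ℝ} (h0 : 0 ≤ θ) (h1 : θ < 1) {x x' : V → ℝ}
    (hx : Good G θ x) (hx' : Good G θ x') {p : ℕ → V} {n : ℕ} (hp : IsPth G p n) {y : ℝ}
    (hy : x' (p n) = x (p n) + y) (hne : ∀ w, w ≠ p n → x' w = x w) :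
    mm G θ x' (p 0) - mm G θ x (p 0)
      = Cv G θ x p n * Real.tanh y / (1 + Real.tanh y * mm G θ x (p n)) := by
  obtain ⟨A, B, hB, -, -, hM, -, hmm⟩ := upd_key G hT h0 h1 hx hx' n p hp hy hne
  have hpos : 0 < 1 + Real.tanh y * mm G θ x (p n) := one_add_tanh_mul_pos y _
  rw [hM] at hmm
  rw [eq_div_iff hpos.ne', Cv, ← hB]
  linear_combination hmm + Real.tanh y * mm G θ x (p 0) * hM

/-! ### equivariance -/

theorem sum_oth_aut (g : G ≃g G) (i j : V) (f : V → ℝ) :
    ∑ c ∈ oth G i j, f (g c) = ∑ c ∈ oth G (g i) (g j), f c := by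
  classical
  refine Finset.sum_bij (fun c _ => g c) ?_ ?_ ?_ ?_
  · intro c hc
    rw [mem_oth] at hc ⊢
    exact ⟨g.map_adj_iff.2 hc.1, fun h => hc.2 (g.injective h)⟩
  · intro a _ b _ h
    exact g.injective h
  · intro b hb
    rw [mem_oth] at hb
    refine ⟨g.symm b, ?_, by simp⟩
    rw [mem_oth]
    refine ⟨?_, ?_⟩
    · rw [← g.map_adj_iff]; simpa using hb.1
    · rintro h
      apply hb.2
      rw [← h]; simp
  · intro c _
    rfl

theorem sum_nbr_aut (g : G ≃g G) (i : V) (f : V → ℝ) :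
    ∑ c ∈ G.neighborFinset i, f (g c) = ∑ c ∈ G.neighborFinset (g i), f c := by
  classical
  refine Finset.sum_bij (fun c _ => g c) ?_ ?_ ?_ ?_
  · intro c hc
    rw [SimpleGraph.mem_neighborFinset] at hc ⊢
    exact g.map_adj_iff.2 hc
  · intro a _ b _ h
    exact g.injective h
  · intro b hb
    rw [SimpleGraph.mem_neighborFinset] at hb
    refine ⟨g.symm b, ?_, by simp⟩
    rw [SimpleGraph.mem_neighborFinset, ← g.map_adj_iff]
    simpa using hb
  · intro c _
    rfl

theorem msg_aut (θ : ℝ) (g : G ≃g G) (x : V → ℝ) (n : ℕ) (i j : V) :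
    msg G θ (x ∘ g) n i j = msg G θ x n (g i) (g j) := by
  induction n generalizing i j with
  | zero => rfl
  | succ n ih =>
    rw [msg, msg, Function.comp_apply, ← sum_oth_aut G g i j]
    congr 1
    exact Finset.sum_congr rfl fun c _ => by rw [ih]

theorem hl_aut (θ : ℝ) (g : G ≃g G) (x : V → ℝ) (i j : V) :
    hl G θ (x ∘ g) i j = hl G θ x (g i) (g j) := by
  unfold hl
  congr 1
  funext n
  exact msg_aut G θ g x n i j

theorem Hl_aut (θ : ℝ) (g : G ≃g G) (x : V → ℝ) (v : V) :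
    Hl G θ (x ∘ g) v = Hl G θ x (g v) := by
  unfold Hl
  rw [Function.comp_apply, ← sum_nbr_aut G g v]
  congr 1
  exact Finset.sum_congr rfl fun c _ => by rw [hl_aut]

theorem mm_aut (θ : ℝ) (g : G ≃g G) (x : V → ℝ) (v : V) :
    mm G θ (x ∘ g) v = mm G θ x (g v) := by
  unfold mm
  rw [Hl_aut]

theorem al_aut (θ : ℝ) (g : G ≃g G) (x : V → ℝ) (i j : V) :
    al G θ (x ∘ g) i j = al G θ x (g i) (g j) := by
  unfold al
  rw [hl_aut]

theorem Cv_aut (θ : ℝ) (g : G ≃g G) (x : V → ℝ) (p : ℕ → V) (n : ℕ) :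
    Cv G θ (x ∘ g) p n = Cv G θ x (g ∘ p) n := by
  unfold Cv PP
  rw [mm_aut]
  congr 1
  exact Finset.prod_congr rfl fun i _ => by rw [al_aut]; rfl

theorem Gs_aut (θ : ℝ) (g : G ≃g G) (x : V → ℝ) (n : ℕ) (i j : V) :
    Gs G θ (x ∘ g) n i j = Gs G θ x n (g i) (g j) := by
  induction n generalizing i j with
  | zero => rfl
  | succ n ih =>
    rw [Gs, Gs, ← sum_oth_aut G g i j]
    congr 2
    exact Finset.sum_congr rfl fun c _ => by rw [ih, al_aut]

/-- oddness -/
theorem msg_neg (θ : ℝ) (x : V → ℝ) (n : ℕ) (i j : V) :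
    msg G θ (fun w => -x w) n i j = -msg G θ x n i j := by
  induction n generalizing i j with
  | zero => simp [msg]
  | succ n ih =>
    rw [msg, msg, neg_add, ← Finset.sum_neg_distrib]
    congr 1
    exact Finset.sum_congr rfl fun c _ => by rw [ih, ff_neg]

theorem hl_neg {θ L : ℝ} (h0 : 0 ≤ θ) (h1 : θ < 1) {x : V → ℝ} (hx : Good G θ x) {i j : V}
    (h : G.Adj i j) : hl G θ (fun w => -x w) i j = -hl G θ x i j := by
  unfold hl
  have h2 : Tendsto (fun n => msg G θ (fun w => -x w) n i j) atTop (𝓝 (-hl G θ x i j)) := by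
    simp only [msg_neg]
    exact (hx i j h).neg
  rw [h2.limsup_eq]
  rfl

/-- measurability -/
theorem measurable_msg (θ : ℝ) (n : ℕ) (i j : V) : Measurable (fun x : V → ℝ => msg G θ x n i j) := by
  induction n generalizing i j with
  | zero => exact measurable_const
  | succ n ih =>
    simp only [msg]
    exact (measurable_pi_apply i).add
      (Finset.measurable_sum _ fun c _ => (measurable_ff θ).comp (ih c i))

theorem measurable_hl (θ : ℝ) (i j : V) : Measurable (fun x : V → ℝ => hl G θ x i j) := by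
  unfold hl
  exact Measurable.limsup fun n => measurable_msg G θ n i j

theorem measurable_Hl (θ : ℝ) (v : V) : Measurable (fun x : V → ℝ => Hl G θ x v) := by
  unfold Hl
  exact (measurable_pi_apply v).add
    (Finset.measurable_sum _ fun c _ => (measurable_ff θ).comp (measurable_hl G θ c v))

theorem measurable_mm (θ : ℝ) (v : V) : Measurable (fun x : V → ℝ => mm G θ x v) :=
  continuous_tanh.measurable.comp (measurable_Hl G θ v)

theorem measurable_al (θ : ℝ) (i j : V) : Measurable (fun x : V → ℝ => al G θ x i j) :=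
  continuous_tanh.measurable.comp (measurable_hl G θ i j)

theorem measurable_ph (θ : ℝ) : Measurable (ph θ) := by
  unfold ph
  fun_prop

theorem measurable_PP (θ : ℝ) (p : ℕ → V) (n : ℕ) : Measurable (fun x : V → ℝ => PP G θ x p n) := by
  unfold PP
  exact Finset.measurable_prod _ fun i _ => (measurable_ph θ).comp (measurable_al G θ _ _)

theorem measurable_Cv (θ : ℝ) (p : ℕ → V) (n : ℕ) : Measurable (fun x : V → ℝ => Cv G θ x p n) := by
  unfold Cv
  exact (measurable_const.sub ((measurable_mm G θ _).pow_const 2)).mul (measurable_PP G θ p n)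

theorem measurable_Gs (θ : ℝ) (n : ℕ) (i j : V) : Measurable (fun x : V → ℝ => Gs G θ x n i j) := by
  induction n generalizing i j with
  | zero => exact measurable_const
  | succ n ih =>
    simp only [Gs]
    refine measurable_const.add (measurable_const.mul (Finset.measurable_sum _ fun c _ => ?_))
    exact (Real.measurable_exp.comp (((measurable_al G θ c i).pow_const 2).const_mul _).neg).mul
      (ih c i)

theorem measurableSet_Good [Countable V] (θ : ℝ) : MeasurableSet {x : V → ℝ | Good G θ x} := by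
  unfold Good
  simp only [Set.ofPred_forall]
  refine MeasurableSet.iInter fun i => MeasurableSet.iInter fun j => MeasurableSet.iInter fun _ => ?_
  exact measurableSet_tendsto_fun (fun n => measurable_msg G θ n i j) (measurable_hl G θ i j)

end Crest.Agent.FI
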