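import Mathlib
import Crest.Agent.FI.Defs

/-!
The free Ising state on a tree: root construction, existence, uniqueness, invariance, gauge.
-/

set_option autoImplicit false

namespace Crest.Agent.FI

open MeasureTheory ProbabilityTheory Set Filter Topology
open scoped ENNReal

variable {V : Type*} (G : SimpleGraph V)

/-! ### Parents -/

open Classical in
/-- parent of `v` towards the root `r` -/
noncomputable def par (r v : V) : V :=
  if h : ∃ w, G.Adj v w ∧ G.dist r w + 1 = G.dist r v then h.choose else v

theorem par_root (r : V) : par G r r = r := by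
  unfold par
  rw [dif_neg]
  rintro ⟨w, -, hw⟩
  simp at hw

theorem exists_par (hT : G.IsTree) {r v : V} (hv : v ≠ r) :
    ∃ w, G.Adj v w ∧ G.dist r w + 1 = G.dist r v := by
  obtain ⟨p, hp⟩ := hT.connected.exists_walk_length_eq_dist v r
  cases p with
  | nil => exact absurd rfl hv
  | @cons _ w _ h q =>
    refine ⟨w, h, ?_⟩
    have h1 : G.dist w r ≤ q.length := SimpleGraph.dist_le q
    simp only [SimpleGraph.Walk.length_cons] at hp
    have h2 := hT.dist_eq_dist_add_one_of_adj r h
    rw [SimpleGraph.dist_comm (u := w)] at h1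
    rw [SimpleGraph.dist_comm (u := v)] at hp
    omega

theorem par_spec (hT : G.IsTree) {r v : V} (hv : v ≠ r) :
    G.Adj v (par G r v) ∧ G.dist r (par G r v) + 1 = G.dist r v := by
  have h := exists_par G hT hv
  unfold par
  rw [dif_pos h]
  exact h.choose_spec

theorem par_adj (hT : G.IsTree) {r v : V} (hv : v ≠ r) : G.Adj v (par G r v) :=
  (par_spec G hT hv).1

theorem par_dist (hT : G.IsTree) {r v : V} (hv : v ≠ r) :
    G.dist r (par G r v) + 1 = G.dist r v :=
  (par_spec G hT hv).2

/-- uniqueness of the parent -/
theorem eq_par (hT : G.IsTree) {r v w : V} (h : G.Adj v w) (hd : G.dist r w + 1 = G.dist r v) :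
    w = par G r v := by
  have hv : v ≠ r := by
    rintro rfl
    simp at hd
  have key : ∀ w', G.Adj v w' → G.dist r w' + 1 = G.dist r v →
      ∃ p : G.Walk r w', p.IsPath ∧ v ∉ p.support := by
    intro w' _ hd'
    obtain ⟨p, hp, hl⟩ := hT.connected.exists_path_of_dist r w'
    refine ⟨p, hp, fun hmem => ?_⟩
    classical
    have h1 : G.dist r v ≤ (p.takeUntil v hmem).length := SimpleGraph.dist_le _
    have h2 := p.length_takeUntil_le_length hmem
    omega
  obtain ⟨p, hp, hvp⟩ := key w h hd
  obtain ⟨q, hq, hvq⟩ := key _ (par_adj G hT hv) (par_dist G hT hv)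
  have e := (hT.existsUnique_path r v).unique (hp.concat hvp h.symm)
    (hq.concat hvq (par_adj G hT hv).symm)
  have e' := congrArg SimpleGraph.Walk.penultimate e
  simpa using e'

theorem par_or (hT : G.IsTree) (r : V) {v w : V} (h : G.Adj v w) :
    w = par G r v ∨ v = par G r w := by
  rcases hT.dist_eq_dist_add_one_of_adj r h with h1 | h1
  · exact Or.inl (eq_par G hT h h1.symm)
  · exact Or.inr (eq_par G hT h.symm h1.symm)

theorem par_mem_of_path (hT : G.IsTree) {r a v : V} (p : G.Walk a v) (hp : p.IsPath)
    (ha : par G r a ∉ p.support ∨ a = r) : v = a ∨ (v ≠ r ∧ par G r v ∈ p.support) := by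
  induction p with
  | nil => exact Or.inl rfl
  | @cons a w v h q ih =>
    rw [SimpleGraph.Walk.cons_isPath_iff] at hp
    obtain ⟨hq, haq⟩ := hp
    rcases par_or G hT r h with h1 | h1
    · exfalso
      rcases ha with ha | ha
      · apply ha
        rw [← h1]
        simp
      · subst ha
        rw [par_root] at h1
        exact h.ne h1.symm
    · have hwr : w ≠ r := by
        rintro rfl
        rw [par_root] at h1
        exact h.ne h1
      right
      rcases ih hq (Or.inl (by rw [← h1]; exact haq)) with h2 | h2
      · subst h2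
        refine ⟨hwr, ?_⟩
        rw [← h1]
        simp
      · exact ⟨h2.1, by simp [h2.2]⟩

/-- top vertex of a finite connected set -/
theorem exists_top (hT : G.IsTree) (r : V) (S : Finset V)
    (hS : (G.induce (S : Set V)).Connected) :
    ∃ a ∈ S, (a = r ∨ par G r a ∉ S) ∧ ∀ v ∈ S, v ≠ a → (v ≠ r ∧ par G r v ∈ S) := by
  have hne : S.Nonempty := by
    obtain ⟨⟨x, hx⟩⟩ := hS.nonempty
    exact ⟨x, by simpa using hx⟩
  obtain ⟨a, haS, hmin⟩ := S.exists_min_image (fun v => G.dist r v) hne
  have htop : a = r ∨ par G r a ∉ S := by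
    by_cases har : a = r
    · exact Or.inl har
    · right
      intro hmem
      have := hmin _ hmem
      have h2 := par_dist G hT har
      omega
  refine ⟨a, haS, htop, fun v hv hva => ?_⟩
  obtain ⟨p, hp⟩ := hS.exists_isPath ⟨a, by simpa using haS⟩ ⟨v, by simpa using hv⟩
  have hp' : (p.map (SimpleGraph.Embedding.induce (S : Set V)).toHom).IsPath :=
    SimpleGraph.Walk.IsPath.map Subtype.val_injective hp
  have hsup : ∀ x ∈ (p.map (SimpleGraph.Embedding.induce (S : Set V)).toHom).support, x ∈ S := by
    intro x hx
    rw [SimpleGraph.Walk.support_map] at hx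
    obtain ⟨y, -, rfl⟩ := List.mem_map.1 hx
    exact y.2
  have hcond : par G r a ∉ (p.map (SimpleGraph.Embedding.induce (S : Set V)).toHom).support
      ∨ a = r := by
    rcases htop with h | h
    · exact Or.inr h
    · exact Or.inl fun hm => h (hsup _ hm)
  rcases par_mem_of_path G hT _ hp' hcond with h | h
  · exact absurd h hva
  · exact ⟨h.1, hsup _ h.2⟩

/-! ### Weights -/

open Classical in
theorem isingWeight_eq (hT : G.IsTree) (r : V) (S : Finset V) (a : V)
    (htop : a = r ∨ par G r a ∉ S) (hpar : ∀ v ∈ S, v ≠ a → (v ≠ r ∧ par G r v ∈ S))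
    (θ : ℝ) (η : V → Bool) :
    Crest.ProbabilityR.TreeIsing.isingWeight G θ S η
      = 1 / 2 * ∏ v ∈ S.erase a, (if η v = η (par G r v) then (1 + θ) / 2 else (1 - θ) / 2) := by
  unfold Crest.ProbabilityR.TreeIsing.isingWeight
  congr 1
  symm
  refine Finset.prod_bij (fun v _ => s(v, par G r v)) ?_ ?_ ?_ ?_
  · intro v hv
    rw [Finset.mem_erase] at hv
    have h := hpar v hv.2 hv.1
    rw [Finset.mem_filter, Finset.mk_mem_sym2_iff]
    exact ⟨⟨hv.2, h.2⟩, par_adj G hT h.1⟩
  · intro v hv w hw e
    rw [Finset.mem_erase] at hv hw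
    have h1 := par_dist G hT (hpar v hv.2 hv.1).1
    have h2 := par_dist G hT (hpar w hw.2 hw.1).1
    rw [Sym2.eq_iff] at e
    rcases e with e | e
    · exact e.1
    · exfalso
      rw [← e.1] at h2
      rw [e.2] at h1
      omega
  · intro e he
    rw [Finset.mem_filter] at he
    obtain ⟨he1, he2⟩ := he
    induction e using Sym2.ind with
    | _ x y =>
      rw [Finset.mk_mem_sym2_iff] at he1
      have hadj : G.Adj x y := he2
      have main : ∀ x y : V, x ∈ S → y ∈ S → G.Adj x y → y = par G r x →
          ∃ v, ∃ hv : v ∈ S.erase a, s(v, par G r v) = s(x, y) := by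
        intro x y hx hy hxy h
        have hxa : x ≠ a := by
          rintro rfl
          rcases htop with h3 | h3
          · rw [h3, par_root] at h
            rw [h3, h] at hxy
            exact hxy.ne rfl
          · exact h3 (h ▸ hy)
        exact ⟨x, Finset.mem_erase.2 ⟨hxa, hx⟩, by rw [← h]⟩
      rcases par_or G hT r hadj with h | h
      · exact main x y he1.1 he1.2 hadj h
      · obtain ⟨v, hv, e⟩ := main y x he1.2 he1.1 hadj.symm h
        exact ⟨v, hv, by rw [e, Sym2.eq_swap]⟩
  · intro v hv
    simp only [Sym2.map_mk, Sym2.mk_isDiag_iff]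

/-! ### Spins from edge signs -/

/-- auxiliary recursion -/
noncomputable def spinAux (r : V) (e : V → Bool) : ℕ → V → Bool
  | 0, v => e v
  | n + 1, v => (e v == spinAux r e n (par G r v))

/-- spins from edge signs -/
noncomputable def spin (r : V) (e : V → Bool) : V → Bool := fun v => spinAux G r e (G.dist r v) v

open Classical in
/-- edge signs from spins -/
noncomputable def gauge (r : V) (τ : V → Bool) : V → Bool :=
  fun v => if v = r then τ r else (τ v == τ (par G r v))

theorem spin_root (r : V) (e : V → Bool) : spin G r e r = e r := by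
  simp [spin, spinAux]

theorem spin_of_ne (hT : G.IsTree) {r v : V} (hv : v ≠ r) (e : V → Bool) :
    spin G r e v = (e v == spin G r e (par G r v)) := by
  unfold spin
  rw [← par_dist G hT hv]
  rfl

theorem beq_beq_self (a b : Bool) : ((a == b) == b) = a := by
  cases a <;> cases b <;> rfl

theorem gauge_spin (hT : G.IsTree) (r : V) (e : V → Bool) : gauge G r (spin G r e) = e := by
  funext v
  unfold gauge
  split_ifs with h
  · rw [h, spin_root]
  · rw [spin_of_ne G hT h, beq_beq_self]

theorem spin_gauge (hT : G.IsTree) (r : V) (τ : V → Bool) : spin G r (gauge G r τ) = τ := by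
  funext v
  induction h : G.dist r v using Nat.strong_induction_on generalizing v with
  | _ n ih =>
    by_cases hv : v = r
    · rw [hv, spin_root]
      simp [gauge]
    · have hd := par_dist G hT hv
      rw [spin_of_ne G hT hv, ih _ (by omega) _ rfl]
      simp only [gauge, if_neg hv]
      exact beq_beq_self _ _

theorem sg_beq (a b : Bool) : sg (a == b) = sg a * sg b := by
  cases a <;> cases b <;> simp [sg]

theorem sg_not (a : Bool) : sg (!a) = - sg a := by
  cases a <;> simp [sg]

theorem measurable_beq {α : Type*} [MeasurableSpace α] {f g : α → Bool} (hf : Measurable f)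
    (hg : Measurable g) : Measurable (fun x => (f x == g x)) :=
  (measurable_of_countable (fun p : Bool × Bool => (p.1 == p.2))).comp (hf.prodMk hg)

theorem measurable_spinAux (r : V) (n : ℕ) (v : V) :
    Measurable (fun e : V → Bool => spinAux G r e n v) := by
  induction n generalizing v with
  | zero => exact measurable_pi_apply v
  | succ n ih => exact measurable_beq (measurable_pi_apply v) (ih _)

theorem measurable_spin (r : V) : Measurable (spin G r) :=
  measurable_pi_iff.2 fun v => measurable_spinAux G r _ v

theorem measurable_gauge (r : V) : Measurable (gauge G r) := by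
  refine measurable_pi_iff.2 fun v => ?_
  unfold gauge
  by_cases h : v = r
  · simp only [if_pos h]
    exact measurable_pi_apply r
  · simp only [if_neg h]
    exact measurable_beq (measurable_pi_apply _) (measurable_pi_apply _)

/-- law of an edge spin: agreement (`true`) with probability `(1 + t)/2` -/
noncomputable def berB (t : ℝ) : Measure Bool :=
  ENNReal.ofReal ((1 + t) / 2) • Measure.dirac true
    + ENNReal.ofReal ((1 - t) / 2) • Measure.dirac false

theorem berB_true (t : ℝ) : berB t {true} = ENNReal.ofReal ((1 + t) / 2) := by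
  simp [berB]

theorem berB_false (t : ℝ) : berB t {false} = ENNReal.ofReal ((1 - t) / 2) := by
  simp [berB]

theorem berB_prob {t : ℝ} (h0 : -1 ≤ t) (h1 : t ≤ 1) : IsProbabilityMeasure (berB t) := by
  constructor
  simp only [berB, Measure.coe_add, Measure.coe_smul, Pi.add_apply, Pi.smul_apply,
    measure_univ, smul_eq_mul, mul_one]
  rw [← ENNReal.ofReal_add (by linarith) (by linarith),
    show (1 + t) / 2 + (1 - t) / 2 = 1 by ring]
  simp

theorem berB_zero_map_not : (berB 0).map (fun b => !b) = berB 0 := by
  refine Measure.ext_of_singleton fun b => ?_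
  rw [Measure.map_apply (measurable_of_countable _) (measurableSet_singleton b)]
  cases b
  · have : (fun b : Bool => !b) ⁻¹' {false} = {true} := by ext b; cases b <;> simp
    rw [this, berB_true, berB_false]
    norm_num
  · have : (fun b : Bool => !b) ⁻¹' {true} = {false} := by ext b; cases b <;> simp
    rw [this, berB_true, berB_false]
    norm_num

theorem sg_map_berB (t : ℝ) : (berB t).map sg = berS t := by
  have hm : Measurable sg := measurable_of_countable _
  unfold berB berS
  rw [Measure.map_add _ _ hm, Measure.map_smul, Measure.map_smul, Measure.map_dirac' hm,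
    Measure.map_dirac' hm]
  simp [sg]

open Classical in
/-- parameters of the edge signs -/
noncomputable def edgeP (r : V) (θ : ℝ) (v : V) : Measure Bool := berB (if v = r then 0 else θ)

theorem edgeP_prob (r : V) {θ : ℝ} (h0 : 0 ≤ θ) (h1 : θ ≤ 1) (v : V) :
    IsProbabilityMeasure (edgeP r θ v) := by
  unfold edgeP
  split_ifs
  · exact berB_prob (by norm_num) (by norm_num)
  · exact berB_prob (by linarith) h1

open Classical in
/-- flip the sign at the root -/
noncomputable def flipR (r : V) (e : V → Bool) : V → Bool :=
  fun v => (if v = r then (fun b => !b) else id) (e v)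

theorem flipR_map (r : V) {θ : ℝ} (h0 : 0 ≤ θ) (h1 : θ ≤ 1) :
    (Measure.infinitePi (edgeP r θ)).map (flipR r) = Measure.infinitePi (edgeP r θ) := by
  have := fun v => edgeP_prob r h0 h1 v
  classical
  have := Measure.infinitePi_map_pi (μ := edgeP r θ)
    (f := fun v => if v = r then (fun b => !b) else id) (fun v => measurable_of_countable _)
  unfold flipR
  rw [this]
  congr 1
  funext v
  by_cases hv : v = r
  · simp only [if_pos hv, edgeP]
    exact berB_zero_map_not
  · simp only [if_neg hv, Measure.map_id]

theorem spin_flipR (hT : G.IsTree) (r : V) (e : V → Bool) (v : V) :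
    spin G r (flipR r e) v = !(spin G r e v) := by
  induction h : G.dist r v using Nat.strong_induction_on generalizing v with
  | _ n ih =>
    by_cases hv : v = r
    · rw [hv, spin_root, spin_root]
      simp [flipR]
    · have hd := par_dist G hT hv
      rw [spin_of_ne G hT hv, spin_of_ne G hT hv, ih _ (by omega) _ rfl]
      simp only [flipR, if_neg hv, id]
      cases e v <;> cases spin G r e (par G r v) <;> rfl

theorem measurable_flipR (r : V) : Measurable (flipR r) :=
  measurable_pi_iff.2 fun v => (measurable_of_countable _).comp (measurable_pi_apply v)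

theorem spin_event (hT : G.IsTree) (r : V) (S : Finset V) (a : V) (haS : a ∈ S)
    (hpar : ∀ v ∈ S, v ≠ a → (v ≠ r ∧ par G r v ∈ S)) (η : V → Bool) (e : V → Bool) :
    (∀ v ∈ S, spin G r e v = η v) ↔
      spin G r e a = η a ∧ ∀ v ∈ S, v ≠ a → e v = (η v == η (par G r v)) := by
  constructor
  · intro h
    refine ⟨h a haS, fun v hv hva => ?_⟩
    obtain ⟨h1, h2⟩ := hpar v hv hva
    rw [← h v hv, ← h _ h2, spin_of_ne G hT h1, beq_beq_self]
  · rintro ⟨h1, h2⟩ v hv
    induction h : G.dist r v using Nat.strong_induction_on generalizing v with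
    | _ n ih =>
      by_cases hva : v = a
      · rw [hva, h1]
      · obtain ⟨h3, h4⟩ := hpar v hv hva
        have hd := par_dist G hT h3
        rw [spin_of_ne G hT h3, ih _ (by omega) _ h4 rfl, h2 v hv hva, beq_beq_self]

theorem spin_prob (hT : G.IsTree) {θ : ℝ} (h0 : 0 ≤ θ) (h1 : θ ≤ 1) (r : V) (S : Finset V)
    (η : V → Bool) (hS : (G.induce (S : Set V)).Connected) :
    (Measure.infinitePi (edgeP r θ)) {e | ∀ v ∈ S, spin G r e v = η v}
      = ENNReal.ofReal (Crest.ProbabilityR.TreeIsing.isingWeight G θ S η) := by
  classical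
  have := fun v => edgeP_prob r h0 h1 v
  obtain ⟨a, haS, htop, hpar⟩ := exists_top G hT r S hS
  set P := Measure.infinitePi (edgeP r θ) with hP
  set B : Set (V → Bool) := {e | ∀ v ∈ S, v ≠ a → e v = (η v == η (par G r v))} with hB
  have hBpi : B = Set.pi (↑(S.erase a)) (fun v => ({(η v == η (par G r v))} : Set Bool)) := by
    ext e
    simp only [hB, Set.mem_ofPred_eq, Set.mem_pi, Finset.mem_coe, Finset.mem_erase,
      Set.mem_singleton_iff]
    constructor
    · intro h v hv
      exact h v hv.2 hv.1
    · intro h v hv hva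
      exact h v ⟨hva, hv⟩
  have hBmeas : MeasurableSet B := by
    rw [hBpi]
    exact MeasurableSet.pi (Finset.countable_toSet _) fun _ _ => measurableSet_singleton _
  have hA : ∀ b : Bool, MeasurableSet {e : V → Bool | spin G r e a = b} := fun b =>
    (measurable_pi_iff.1 (measurable_spin G r) a) (measurableSet_singleton b)
  have hev : {e | ∀ v ∈ S, spin G r e v = η v} = {e | spin G r e a = η a} ∩ B := by
    ext e
    exact spin_event G hT r S a haS hpar η e
  -- the probability of `B`
  have hPB : P B = ENNReal.ofReal (∏ v ∈ S.erase a,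
      (if η v = η (par G r v) then (1 + θ) / 2 else (1 - θ) / 2)) := by
    rw [hBpi, hP, Measure.infinitePi_pi _ (fun _ _ => measurableSet_singleton _),
      ENNReal.ofReal_prod_of_nonneg]
    · refine Finset.prod_congr rfl fun v hv => ?_
      rw [Finset.mem_erase] at hv
      have hvr := (hpar v hv.2 hv.1).1
      simp only [edgeP, if_neg hvr]
      by_cases h : η v = η (par G r v)
      · rw [if_pos h, h]
        simp only [beq_self_eq_true]
        exact berB_true θ
      · rw [if_neg h, beq_false_of_ne h]
        exact berB_false θ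
    · intro v _
      split_ifs <;> linarith
  -- flip symmetry
  have hflip : P ({e | spin G r e a = η a} ∩ B) = P ({e | spin G r e a = !(η a)} ∩ B) := by
    conv_lhs => rw [hP, ← flipR_map r h0 h1]
    rw [Measure.map_apply (measurable_flipR r) ((hA _).inter hBmeas)]
    congr 1
    ext e
    simp only [hB, Set.mem_preimage, Set.mem_inter_iff, Set.mem_ofPred_eq, spin_flipR G hT]
    refine and_congr ?_ (forall_congr' fun v => forall_congr' fun hv => forall_congr' fun hva => ?_)
    · cases spin G r e a <;> cases η a <;> simp
    · have hvr := (hpar v hv hva).1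
      simp only [flipR, if_neg hvr, id]
  have hsum : P ({e | spin G r e a = η a} ∩ B) + P ({e | spin G r e a = !(η a)} ∩ B) = P B := by
    rw [← measure_union]
    · congr 1
      ext e
      simp only [Set.mem_union, Set.mem_inter_iff, Set.mem_ofPred_eq]
      constructor
      · rintro (h | h)
        · exact h.2
        · exact h.2
      · intro h
        cases h3 : spin G r e a <;> cases h4 : η a <;> simp [h]
    · rw [Set.disjoint_left]
      rintro e ⟨h3, -⟩ ⟨h4, -⟩
      simp only [Set.mem_ofPred_eq] at h3 h4
      rw [h3] at h4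
      cases h5 : η a <;> simp [h5] at h4
    · exact (hA _).inter hBmeas
  rw [hev, isingWeight_eq G hT r S a htop hpar, ENNReal.ofReal_mul (by norm_num), ← hPB]
  rw [← hflip] at hsum
  rw [← hsum, ← two_mul, ← mul_assoc]
  have : ENNReal.ofReal (1 / 2) * 2 = 1 := by
    rw [show (2 : ℝ≥0∞) = ENNReal.ofReal 2 by simp, ← ENNReal.ofReal_mul (by norm_num)]
    norm_num
  rw [this, one_mul]

/-- the law of the spins built from a root is an Ising state -/
theorem isIsing_spin (hT : G.IsTree) {θ : ℝ} (h0 : 0 ≤ θ) (h1 : θ ≤ 1) (r : V) :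
    IsIsing G θ ((Measure.infinitePi (edgeP r θ)).map (spin G r)) := by
  intro S η hS
  rw [Measure.map_apply (measurable_spin G r)]
  · exact spin_prob G hT h0 h1 r S η hS
  · have : {τ : V → Bool | ∀ v ∈ S, τ v = η v} = Set.pi (↑S) (fun v => ({η v} : Set Bool)) := by
      ext τ
      simp [Set.mem_pi]
    rw [this]
    exact MeasurableSet.pi (Finset.countable_toSet _) fun _ _ => measurableSet_singleton _

theorem exists_ising (hT : G.IsTree) {θ : ℝ} (h0 : 0 ≤ θ) (h1 : θ ≤ 1) :
    ∃ μ : Measure (V → Bool), IsProbabilityMeasure μ ∧ IsIsing G θ μ := by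
  have := hT.connected.nonempty
  obtain ⟨r⟩ := this
  have := fun v => edgeP_prob r h0 h1 v
  exact ⟨_, Measure.isProbabilityMeasure_map (measurable_spin G r).aemeasurable,
    isIsing_spin G hT h0 h1 r⟩

theorem ising_unique (hT : G.IsTree) {θ : ℝ} {μ ν : Measure (V → Bool)}
    [IsProbabilityMeasure μ] [IsProbabilityMeasure ν] (hμ : IsIsing G θ μ) (hν : IsIsing G θ ν) :
    μ = ν := by
  classical
  have hlim : ∀ κ : Measure (V → Bool),
      IsProjectiveLimit κ (fun I : Finset V => κ.map I.restrict) := fun κ I => rfl
  have key : ∀ I : Finset V, μ.map I.restrict = ν.map I.restrict := by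
    intro I
    -- a finite connected set containing `I`
    obtain ⟨r⟩ := hT.connected.nonempty
    obtain ⟨S, hIS, hS⟩ := SimpleGraph.extend_finset_to_connected hT.connected.preconnected
      (t := insert r I) ⟨r, by simp⟩
    have hIS' : I ⊆ S := (Finset.subset_insert r I).trans hIS
    have hfull : μ.map S.restrict = ν.map S.restrict := by
      refine Measure.ext_of_singleton fun x => ?_
      have hx : ∀ κ : Measure (V → Bool), (κ.map S.restrict) {x}
          = κ {τ | ∀ v ∈ S, τ v = (fun v => if h : v ∈ S then x ⟨v, h⟩ else true) v} := by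
        intro κ
        rw [Measure.map_apply (Finset.measurable_restrict S) (measurableSet_singleton x)]
        congr 1
        ext τ
        simp only [Set.mem_preimage, Set.mem_singleton_iff, Set.mem_ofPred_eq]
        constructor
        · intro h v hv
          rw [dif_pos hv, ← h]
          rfl
        · intro h
          funext v
          have := h v v.2
          rw [dif_pos v.2] at this
          exact this
      rw [hx, hx, hμ S _ hS, hν S _ hS]
    have hcomp : (I.restrict : (V → Bool) → (I → Bool))
        = (Finset.restrict₂ (π := fun _ : V => Bool) hIS') ∘ S.restrict := rfl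
    rw [hcomp, ← Measure.map_map (Finset.measurable_restrict₂ hIS') (Finset.measurable_restrict S),
      hfull, Measure.map_map (Finset.measurable_restrict₂ hIS') (Finset.measurable_restrict S)]
  have hlim2 : IsProjectiveLimit ν (fun I : Finset V => μ.map I.restrict) := by
    intro I
    exact (key I).symm
  exact (hlim μ).unique hlim2

theorem ising_eq_map_spin (hT : G.IsTree) {θ : ℝ} (h0 : 0 ≤ θ) (h1 : θ ≤ 1)
    {μ : Measure (V → Bool)} [IsProbabilityMeasure μ] (hμ : IsIsing G θ μ) (r : V) :
    μ = (Measure.infinitePi (edgeP r θ)).map (spin G r) := by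
  have := fun v => edgeP_prob r h0 h1 v
  have : IsProbabilityMeasure ((Measure.infinitePi (edgeP r θ)).map (spin G r)) :=
    Measure.isProbabilityMeasure_map (measurable_spin G r).aemeasurable
  exact ising_unique G hT hμ (isIsing_spin G hT h0 h1 r)

theorem ising_gauge (hT : G.IsTree) {θ : ℝ} (h0 : 0 ≤ θ) (h1 : θ ≤ 1)
    {μ : Measure (V → Bool)} [IsProbabilityMeasure μ] (hμ : IsIsing G θ μ) (r : V) :
    μ.map (gauge G r) = Measure.infinitePi (edgeP r θ) := by
  rw [ising_eq_map_spin G hT h0 h1 hμ r, Measure.map_map (measurable_gauge G r)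
    (measurable_spin G r)]
  have : gauge G r ∘ spin G r = id := by
    funext e
    exact gauge_spin G hT r e
  rw [this, Measure.map_id]

theorem mem_mapS (g : G ≃g G) (S : Finset V) (v : V) :
    v ∈ S.map g.toEquiv.toEmbedding ↔ g.symm v ∈ S := Finset.mem_map_equiv

theorem apply_mem_mapS (g : G ≃g G) (S : Finset V) (v : V) :
    g v ∈ S.map g.toEquiv.toEmbedding ↔ v ∈ S := by
  rw [mem_mapS, RelIso.symm_apply_apply]

/-- weights are invariant under automorphisms -/
theorem isingWeight_aut (g : G ≃g G) (θ : ℝ) (S : Finset V) (η : V → Bool) :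
    Crest.ProbabilityR.TreeIsing.isingWeight G θ (S.map g.toEquiv.toEmbedding) (fun v => η (g.symm v))
      = Crest.ProbabilityR.TreeIsing.isingWeight G θ S η := by
  classical
  unfold Crest.ProbabilityR.TreeIsing.isingWeight
  congr 1
  symm
  refine Finset.prod_bij (fun e _ => Sym2.map g e) ?_ ?_ ?_ ?_
  · intro e he
    induction e using Sym2.ind with
    | _ x y =>
      simp only [Finset.mem_filter, Finset.mk_mem_sym2_iff, SimpleGraph.mem_edgeSet, Sym2.map_mk,
        apply_mem_mapS] at he ⊢
      exact ⟨he.1, g.map_adj_iff.2 he.2⟩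
  · intro e _ e' _ h
    exact Sym2.map.injective g.injective h
  · intro e he
    induction e using Sym2.ind with
    | _ x y =>
      simp only [Finset.mem_filter, Finset.mk_mem_sym2_iff, SimpleGraph.mem_edgeSet,
        mem_mapS] at he
      refine ⟨s(g.symm x, g.symm y), ?_, ?_⟩
      · simp only [Finset.mem_filter, Finset.mk_mem_sym2_iff, SimpleGraph.mem_edgeSet]
        exact ⟨⟨he.1.1, he.1.2⟩, g.symm.map_adj_iff.2 he.2⟩
      · simp
  · intro e he
    induction e using Sym2.ind with
    | _ x y => simp

theorem connected_aut (g : G ≃g G) (S : Finset V) (hS : (G.induce (S : Set V)).Connected) :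
    (G.induce ((S.map g.toEquiv.toEmbedding : Finset V) : Set V)).Connected := by
  have hiso : Nonempty ((G.induce (S : Set V)) ≃g
      (G.induce ((S.map g.toEquiv.toEmbedding : Finset V) : Set V))) := by
    refine ⟨⟨⟨fun x => ⟨g x.1, ?_⟩, fun x => ⟨g.symm x.1, ?_⟩, ?_, ?_⟩, ?_⟩⟩
    · exact (apply_mem_mapS G g S x.1).2 x.2
    · exact (mem_mapS G g S x.1).1 x.2
    · intro x
      simp
    · intro x
      simp
    · intro x y
      exact g.map_adj_iff
  obtain ⟨f⟩ := hiso
  exact f.connected_iff.1 hS

theorem ising_aut (hT : G.IsTree) {θ : ℝ} {μ : Measure (V → Bool)}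
    [IsProbabilityMeasure μ] (hμ : IsIsing G θ μ) (g : G ≃g G) :
    μ.map (fun x => x ∘ g) = μ := by
  have hm : Measurable (fun x : V → Bool => x ∘ g) :=
    measurable_pi_iff.2 fun v => measurable_pi_apply (g v)
  have : IsProbabilityMeasure (μ.map (fun x => x ∘ g)) :=
    Measure.isProbabilityMeasure_map hm.aemeasurable
  refine ising_unique G hT ?_ hμ
  intro S η hS
  have hms : MeasurableSet {τ : V → Bool | ∀ v ∈ S, τ v = η v} := by
    have : {τ : V → Bool | ∀ v ∈ S, τ v = η v} = Set.pi (↑S) (fun v => ({η v} : Set Bool)) := by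
      ext τ
      simp [Set.mem_pi]
    rw [this]
    exact MeasurableSet.pi (Finset.countable_toSet _) fun _ _ => measurableSet_singleton _
  rw [Measure.map_apply hm hms, ← isingWeight_aut G g θ S η,
    ← hμ (S.map g.toEquiv.toEmbedding) (fun v => η (g.symm v)) (connected_aut G g S hS)]
  congr 1
  ext τ
  simp only [Set.mem_preimage, Set.mem_ofPred_eq, Function.comp_apply, mem_mapS]
  constructor
  · intro h v hv
    have := h _ hv
    rwa [RelIso.apply_symm_apply] at this
  · intro h v hv
    have := h (g v) (by rwa [RelIso.symm_apply_apply])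
    rwa [RelIso.symm_apply_apply] at this

end Crest.Agent.FI
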