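import Mathlib
import Crest.Agent.FI.Ising

/-!
Branch structure of the free Ising state (row 160).
-/

set_option autoImplicit false

namespace Crest.Agent.FI

open MeasureTheory ProbabilityTheory Set Filter Topology
open scoped ENNReal

/-! ### Block independence for infinite products -/

section block

variable {ι κ : Type*} {X : ι → Type*} [∀ i, MeasurableSpace (X i)] (μ : ∀ i, Measure (X i))
  [∀ i, IsProbabilityMeasure (μ i)]

theorem bst_indep_restrict (S : κ → Set ι) (hS : ∀ k l, k ≠ l → Disjoint (S k) (S l)) :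
    iIndepFun (fun (k : κ) (ω : ∀ i, X i) (i : S k) => ω i) (Measure.infinitePi μ) := by
  have hinj : Function.Injective (fun p : (k : κ) × S k => (p.2 : ι)) := by
    rintro ⟨k, i, hi⟩ ⟨l, j, hj⟩ h
    simp only at h
    subst h
    have : k = l := by
      by_contra hne
      exact Set.disjoint_left.1 (hS k l hne) hi hj
    subst this
    rfl
  have h1 := Measure.map_infinitePi_infinitePi_of_inj (P := μ) hinj
  have hm : ∀ k : κ, Measurable (fun (ω : ∀ i, X i) (i : S k) => ω i) := fun k =>
    measurable_pi_iff.2 fun i => measurable_pi_apply _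
  rw [iIndepFun_iff_map_fun_eq_infinitePi_map hm]
  have h2 : (Measure.infinitePi μ).map (fun (ω : ∀ i, X i) (k : κ) (i : S k) => ω i)
      = Measure.infinitePi fun k : κ => Measure.infinitePi fun i : S k => μ i := by
    rw [← Measure.infinitePi_map_piCurry (fun (k : κ) (i : S k) => μ i), ← h1,
      Measure.map_map (by fun_prop) (by fun_prop)]
    rfl
  rw [h2]
  congr 1
  funext k
  have h3 := Measure.map_infinitePi_infinitePi_of_inj (P := μ)
    (f := fun i : S k => (i : ι)) Subtype.val_injective
  exact h3.symm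

theorem bst_block {Y : κ → Type*} [∀ k, MeasurableSpace (Y k)] (S : κ → Set ι)
    (hS : ∀ k l, k ≠ l → Disjoint (S k) (S l)) (f : ∀ k, (∀ i, X i) → Y k)
    (hf : ∀ k, Measurable (f k))
    (hd : ∀ k, ∀ ω ω' : ∀ i, X i, (∀ i ∈ S k, ω i = ω' i) → f k ω = f k ω') :
    iIndepFun f (Measure.infinitePi μ) := by
  classical
  have hne : Nonempty (∀ i, X i) := nonempty_of_isProbabilityMeasure (Measure.infinitePi μ)
  obtain ⟨ω0⟩ := hne
  let ext : ∀ k, (∀ i : S k, X i) → ∀ i, X i := fun k y i => if h : i ∈ S k then y ⟨i, h⟩ else ω0 i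
  have hext : ∀ k, Measurable (ext k) := by
    intro k
    refine measurable_pi_iff.2 fun i => ?_
    by_cases h : i ∈ S k
    · simp only [ext, dif_pos h]
      exact measurable_pi_apply _
    · simp only [ext, dif_neg h]
      exact measurable_const
  have h := (bst_indep_restrict μ S hS).comp (fun k => f k ∘ ext k) (fun k => (hf k).comp (hext k))
  convert h using 1
  funext k ω
  refine hd k _ _ fun i hi => ?_
  simp only [ext, dif_pos hi]

end block

section block2

variable {ι : Type*} {X : ι → Type*} [∀ i, MeasurableSpace (X i)] (μ : ∀ i, Measure (X i))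
  [∀ i, IsProbabilityMeasure (μ i)]

theorem bst_block2 {Y Z : Type*} [MeasurableSpace Y] [MeasurableSpace Z] (A B : Set ι)
    (hAB : Disjoint A B) (f : (∀ i, X i) → Y) (g : (∀ i, X i) → Z)
    (hf : Measurable f) (hg : Measurable g)
    (hdf : ∀ ω ω' : ∀ i, X i, (∀ i ∈ A, ω i = ω' i) → f ω = f ω')
    (hdg : ∀ ω ω' : ∀ i, X i, (∀ i ∈ B, ω i = ω' i) → g ω = g ω') :
    IndepFun f g (Measure.infinitePi μ) := by
  classical
  have hne : Nonempty (∀ i, X i) := nonempty_of_isProbabilityMeasure (Measure.infinitePi μ)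
  obtain ⟨ω0⟩ := hne
  let ext : ∀ S : Set ι, (∀ i : S, X i) → ∀ i, X i :=
    fun S y i => if h : i ∈ S then y ⟨i, h⟩ else ω0 i
  have hext : ∀ S, Measurable (ext S) := by
    intro S
    refine measurable_pi_iff.2 fun i => ?_
    by_cases h : i ∈ S
    · simp only [ext, dif_pos h]
      exact measurable_pi_apply _
    · simp only [ext, dif_neg h]
      exact measurable_const
  have h := bst_indep_restrict μ (fun b : Bool => if b = true then A else B) (by
    intro k l hkl
    cases k <;> cases l <;> simp_all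
    exact hAB.symm)
  have h2 := h.indepFun (i := true) (j := false) (by simp)
  have h3 := h2.comp (φ := f ∘ ext _) (ψ := g ∘ ext _) (hf.comp (hext _)) (hg.comp (hext _))
  convert h3 using 1
  · funext ω
    refine hdf _ _ fun i hi => ?_
    have hi' : i ∈ (if true = true then A else B) := by simpa using hi
    simp only [ext, dif_pos hi']
  · funext ω
    refine hdg _ _ fun i hi => ?_
    have hi' : i ∈ (if false = true then A else B) := by simpa using hi
    simp only [ext, dif_pos hi']

end block2

/-! ### Tree facts -/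

section tree

variable {V : Type*} (G : SimpleGraph V)

theorem bst_dist_adj (hT : G.IsTree) {i c w : V} (h : G.Adj c i) (hw : w ∈ brn G c i) :
    G.dist w c + 1 = G.dist w i := by
  have h1 : G.dist w c < G.dist w i := hw
  rcases hT.dist_eq_dist_add_one_of_adj w h with h2 | h2 <;> omega

theorem bst_disj (hT : G.IsTree) {i c c' : V} (h : G.Adj c i) (h' : G.Adj c' i) (hne : c ≠ c') :
    Disjoint (brn G c i) (brn G c' i) := by
  rw [Set.disjoint_left]
  intro w hw hw'
  have h1 := bst_dist_adj G hT h hw
  have h2 := bst_dist_adj G hT h' hw'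
  exact hne ((eq_par G hT h.symm h1).trans (eq_par G hT h'.symm h2).symm)

theorem bst_par (hT : G.IsTree) {i c w : V} (h : G.Adj c i) (hw : w ∈ brn G c i) (hwc : w ≠ c) :
    w ≠ i ∧ par G i w ∈ brn G c i := by
  have h1 := bst_dist_adj G hT h hw
  have h2 := par_adj G hT hwc
  have h3 := par_dist G hT hwc
  have hwi : w ≠ i := by
    rintro rfl
    simp at h1
  have h4 := par_adj G hT hwi
  have h5 := par_dist G hT hwi
  rw [SimpleGraph.dist_comm (u := c) (v := w)] at h3
  rw [SimpleGraph.dist_comm (u := i) (v := w)] at h5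
  -- `par G c w` is at distance at most `dist w c` from `i`
  have h6 : G.dist (par G c w) i ≤ G.dist (par G c w) c + 1 := by
    have := hT.connected.dist_triangle (u := par G c w) (v := c) (w := i)
    rwa [SimpleGraph.dist_eq_one_iff_adj.2 h] at this
  have h7 : G.dist i (par G c w) + 1 = G.dist i w := by
    rw [SimpleGraph.dist_comm (u := par G c w) (v := i), SimpleGraph.dist_comm (u := par G c w) (v := c)] at h6
    rcases hT.dist_eq_dist_add_one_of_adj i h2 with h8 | h8
    · omega
    · rw [SimpleGraph.dist_comm (u := w) (v := i)] at h1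
      omega
  have h8 := eq_par G hT h2 h7
  refine ⟨hwi, ?_⟩
  rw [← h8]
  show G.dist (par G c w) c < G.dist (par G c w) i
  rw [SimpleGraph.dist_comm (u := par G c w) (v := i), SimpleGraph.dist_comm (u := par G c w) (v := c)]
  rw [SimpleGraph.dist_comm (u := w) (v := i)] at h1
  omega

theorem bst_sg_sq (b : Bool) : sg b * sg b = 1 := by
  cases b <;> simp [sg]

/-- the gauged sign on a branch only depends on the edge signs on the branch -/
theorem bst_sign_congr (hT : G.IsTree) {i c : V} (h : G.Adj c i) (e e' : V → Bool)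
    (he : ∀ w ∈ brn G c i, w ≠ c → e w = e' w) (w : V) (hw : w ∈ brn G c i) :
    sg (spin G i e c) * sg (spin G i e w) = sg (spin G i e' c) * sg (spin G i e' w) := by
  induction hn : G.dist i w using Nat.strong_induction_on generalizing w with
  | _ n ih =>
    by_cases hwc : w = c
    · subst hwc
      rw [bst_sg_sq, bst_sg_sq]
    · obtain ⟨hwi, hp⟩ := bst_par G hT h hw hwc
      have hd := par_dist G hT hwi
      have := ih _ (by omega) _ hp rfl
      rw [spin_of_ne G hT hwi, spin_of_ne G hT hwi, sg_beq, sg_beq, he w hw hwc]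
      calc sg (spin G i e c) * (sg (e' w) * sg (spin G i e (par G i w)))
          = sg (e' w) * (sg (spin G i e c) * sg (spin G i e (par G i w))) := by ring
        _ = sg (e' w) * (sg (spin G i e' c) * sg (spin G i e' (par G i w))) := by rw [this]
        _ = _ := by ring

end tree

/-! ### Real coding -/

/-- decode a sign -/
noncomputable def bst_dec (r : ℝ) : Bool := decide (0 < r)

theorem bst_dec_meas : Measurable bst_dec := by
  unfold bst_dec
  exact measurable_to_bool (by
    have : (fun r : ℝ => decide (0 < r)) ⁻¹' {true} = Set.Ioi 0 := by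
      ext r
      simp
    rw [this]
    exact measurableSet_Ioi)

theorem bst_dec_map (t : ℝ) : (berS t).map bst_dec = berB t := by
  unfold berS berB
  rw [Measure.map_add _ _ bst_dec_meas, Measure.map_smul, Measure.map_smul,
    Measure.map_dirac' bst_dec_meas, Measure.map_dirac' bst_dec_meas]
  have e1 : bst_dec 1 = true := by simp [bst_dec]
  have e2 : bst_dec (-1) = false := by
    unfold bst_dec
    rw [decide_eq_false_iff_not]
    norm_num
  rw [e1, e2]

theorem bst_sg_meas : Measurable sg := measurable_of_countable _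

theorem bst_berS_prob {t : ℝ} (h0 : -1 ≤ t) (h1 : t ≤ 1) : IsProbabilityMeasure (berS t) := by
  have := berB_prob h0 h1
  rw [← sg_map_berB]
  exact Measure.isProbabilityMeasure_map bst_sg_meas.aemeasurable

theorem bst_sg_dec_map (t : ℝ) : (berS t).map (fun r => sg (bst_dec r)) = berS t := by
  have : (fun r => sg (bst_dec r)) = sg ∘ bst_dec := rfl
  rw [this, ← Measure.map_map bst_sg_meas bst_dec_meas, bst_dec_map, sg_map_berB]

section main

variable {V : Type*} (G : SimpleGraph V)

/-- decoded configuration -/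
noncomputable def bst_Phi (i : V) (ω : V ⊕ V → ℝ) : (V → Bool) × (V → ℝ) :=
  (spin G i (fun v => bst_dec (ω (Sum.inl v))),
    fun v => sg (spin G i (fun v => bst_dec (ω (Sum.inl v))) v) * ω (Sum.inr v))

theorem bst_Phi_meas (i : V) : Measurable (bst_Phi G i) := by
  have h1 : Measurable (fun (ω : V ⊕ V → ℝ) (v : V) => bst_dec (ω (Sum.inl v))) :=
    measurable_pi_iff.2 fun v => bst_dec_meas.comp (measurable_pi_apply _)
  have h2 := (measurable_spin G i).comp h1
  refine h2.prodMk (measurable_pi_iff.2 fun v => ?_)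
  exact (bst_sg_meas.comp ((measurable_pi_apply v).comp h2)).mul (measurable_pi_apply _)

open Classical in
/-- coordinate laws -/
noncomputable def bst_mu (i : V) (θ : ℝ) (ρ : V → Measure ℝ) : V ⊕ V → Measure ℝ :=
  Sum.elim (fun v => berS (if v = i then 0 else θ)) ρ

theorem bst_mu_prob (i : V) {θ : ℝ} (h0 : 0 ≤ θ) (h1 : θ ≤ 1) (ρ : V → Measure ℝ)
    [∀ v, IsProbabilityMeasure (ρ v)] (k : V ⊕ V) : IsProbabilityMeasure (bst_mu i θ ρ k) := by
  rcases k with v | v
  · simp only [bst_mu, Sum.elim_inl]
    split_ifs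
    · exact bst_berS_prob (by norm_num) (by norm_num)
    · exact bst_berS_prob (by linarith) h1
  · simp only [bst_mu, Sum.elim_inr]
    infer_instance

theorem bst_law (i : V) {θ : ℝ} (h0 : 0 ≤ θ) (h1 : θ ≤ 1) (ρ : V → Measure ℝ)
    [∀ v, IsProbabilityMeasure (ρ v)] :
    (Measure.infinitePi (bst_mu i θ ρ)).map
        (fun ω => ((fun v => bst_dec (ω (Sum.inl v))), fun v => ω (Sum.inr v)))
      = (Measure.infinitePi (edgeP i θ)).prod (Measure.infinitePi ρ) := by
  have := bst_mu_prob i h0 h1 ρ
  have := fun v => edgeP_prob i h0 h1 v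
  have hm1 : Measurable (fun (ω : V ⊕ V → ℝ) (v : V) => bst_dec (ω (Sum.inl v))) :=
    measurable_pi_iff.2 fun v => bst_dec_meas.comp (measurable_pi_apply _)
  have hm2 : Measurable (fun (ω : V ⊕ V → ℝ) (v : V) => ω (Sum.inr v)) :=
    measurable_pi_iff.2 fun v => measurable_pi_apply _
  have hm2' : Measurable (fun (ω : V ⊕ V → ℝ) (v : V) => ω (Sum.inl v)) :=
    measurable_pi_iff.2 fun v => measurable_pi_apply _
  have hind := bst_block2 (bst_mu i θ ρ) (Set.range Sum.inl) (Set.range Sum.inr)
    (by
      rw [Set.disjoint_left]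
      rintro _ ⟨a, rfl⟩ ⟨b, hb⟩
      simp at hb)
    (fun (ω : V ⊕ V → ℝ) (v : V) => bst_dec (ω (Sum.inl v)))
    (fun (ω : V ⊕ V → ℝ) (v : V) => ω (Sum.inr v)) hm1 hm2
    (by
      intro ω ω' h
      funext v
      rw [h _ ⟨v, rfl⟩])
    (by
      intro ω ω' h
      funext v
      exact h _ ⟨v, rfl⟩)
  rw [(indepFun_iff_map_prod_eq_prod_map_map hm1.aemeasurable hm2.aemeasurable).1 hind]
  congr 1
  · have e : (fun (ω : V ⊕ V → ℝ) (v : V) => bst_dec (ω (Sum.inl v)))
        = (fun (x : V → ℝ) (v : V) => bst_dec (x v)) ∘ (fun (ω : V ⊕ V → ℝ) (v : V) => ω (Sum.inl v)) :=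
      rfl
    have h3 := Measure.map_infinitePi_infinitePi_of_inj (P := bst_mu i θ ρ)
      (f := (Sum.inl : V → V ⊕ V)) Sum.inl_injective
    have hma : Measurable (fun (x : V → ℝ) (v : V) => bst_dec (x v)) :=
      measurable_pi_iff.2 fun v => bst_dec_meas.comp (measurable_pi_apply v)
    rw [e, ← Measure.map_map hma hm2', h3]
    have h4 := Measure.infinitePi_map_pi (μ := fun v => bst_mu i θ ρ (Sum.inl v))
      (f := fun _ => bst_dec) (fun _ => bst_dec_meas)
    rw [h4]
    congr 1
    funext v
    simp only [bst_mu, Sum.elim_inl, edgeP, bst_dec_map]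
  · exact Measure.map_infinitePi_infinitePi_of_inj (P := bst_mu i θ ρ)
      (f := (Sum.inr : V → V ⊕ V)) Sum.inr_injective

theorem bst_spinField (hT : G.IsTree) {θ : ℝ} (h0 : 0 ≤ θ) (h1 : θ ≤ 1)
    {μ : Measure (V → Bool)} [IsProbabilityMeasure μ] (hμ : IsIsing G θ μ)
    (ρ : V → Measure ℝ) [∀ v, IsProbabilityMeasure (ρ v)] (i : V) :
    spinField μ ρ = (Measure.infinitePi (bst_mu i θ ρ)).map (bst_Phi G i) := by
  have := bst_mu_prob i h0 h1 ρ
  have := fun v => edgeP_prob i h0 h1 v
  have hm1 : Measurable (fun (ω : V ⊕ V → ℝ) => ((fun v => bst_dec (ω (Sum.inl v))), fun v => ω (Sum.inr v))) :=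
    (measurable_pi_iff.2 fun v => bst_dec_meas.comp (measurable_pi_apply _)).prodMk
      (measurable_pi_iff.2 fun v => measurable_pi_apply _)
  have hm2 : Measurable (fun p : (V → Bool) × (V → ℝ) => (p.1, fun v => sg (p.1 v) * p.2 v)) := by
    refine measurable_fst.prodMk (measurable_pi_iff.2 fun v => ?_)
    exact (bst_sg_meas.comp ((measurable_pi_apply v).comp measurable_fst)).mul
      ((measurable_pi_apply v).comp measurable_snd)
  unfold spinField
  rw [ising_eq_map_spin G hT h0 h1 hμ i]
  have hprod : ((Measure.infinitePi (edgeP i θ)).map (spin G i)).prod (Measure.infinitePi ρ)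
      = ((Measure.infinitePi (edgeP i θ)).prod (Measure.infinitePi ρ)).map
          (Prod.map (spin G i) id) := by
    rw [← Measure.map_prod_map _ _ (measurable_spin G i) measurable_id, Measure.map_id]
  rw [hprod, ← bst_law i h0 h1 ρ, Measure.map_map ((measurable_spin G i).prodMap measurable_id) hm1,
    Measure.map_map hm2 (((measurable_spin G i).prodMap measurable_id).comp hm1)]
  rfl

theorem bst_Xbr_meas (c i : V) : Measurable (Xbr G c i) := by
  refine measurable_pi_iff.2 fun w => ?_
  unfold Xbr
  by_cases h : w ∈ brn G c i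
  · simp only [if_pos h]
    exact (bst_sg_meas.comp ((measurable_pi_apply c).comp measurable_fst)).mul
      ((measurable_pi_apply w).comp measurable_snd)
  · simp only [if_neg h]
    exact measurable_const

theorem bst_Xbr_congr (hT : G.IsTree) {c i : V} (h : G.Adj c i) (ω ω' : V ⊕ V → ℝ)
    (h1 : ∀ w ∈ brn G c i, w ≠ c → ω (Sum.inl w) = ω' (Sum.inl w))
    (h2 : ∀ w ∈ brn G c i, ω (Sum.inr w) = ω' (Sum.inr w)) :
    Xbr G c i (bst_Phi G i ω) = Xbr G c i (bst_Phi G i ω') := by
  funext w
  unfold Xbr
  by_cases hw : w ∈ brn G c i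
  · rw [if_pos hw, if_pos hw]
    simp only [bst_Phi]
    rw [h2 w hw, ← mul_assoc, ← mul_assoc]
    congr 1
    exact bst_sign_congr G hT h _ _ (fun w hw hwc => by rw [h1 w hw hwc]) w hw
  · rw [if_neg hw, if_neg hw]

theorem branch_structure [G.LocallyFinite] [Countable V] (hT : G.IsTree) {θ : ℝ} (h0 : 0 ≤ θ)
    (h1 : θ ≤ 1) {μ : Measure (V → Bool)} [IsProbabilityMeasure μ] (hμ : IsIsing G θ μ)
    (ρ : V → Measure ℝ) [∀ v, IsProbabilityMeasure (ρ v)] (i : V) :
    (spinField μ ρ).map (fun q => (sg (q.1 i) * q.2 i,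
        fun c : G.neighborFinset i => (sg (q.1 c) * sg (q.1 i), Xbr G c i q)))
      = (ρ i).prod (Measure.pi (fun c : G.neighborFinset i =>
          (berS θ).prod ((spinField μ ρ).map (Xbr G c i)))) := by
  have hp := bst_mu_prob i h0 h1 ρ
  have hadj : ∀ c : G.neighborFinset i, G.Adj (c : V) i := fun c =>
    ((SimpleGraph.mem_neighborFinset _ _ _).1 c.2).symm
  have hii : ∀ c : G.neighborFinset i, i ∉ brn G (c : V) i := by
    intro c hc
    have : G.dist i (c : V) < G.dist i i := hc
    simp at this
  have hcc : ∀ c : G.neighborFinset i, (c : V) ∈ brn G (c : V) i := by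
    intro c
    show G.dist (c : V) (c : V) < G.dist (c : V) i
    rw [SimpleGraph.dist_self, SimpleGraph.dist_eq_one_iff_adj.2 (hadj c)]
    exact one_pos
  have hmX : ∀ c : G.neighborFinset i, Measurable (fun ω => Xbr G (c : V) i (bst_Phi G i ω)) :=
    fun c => (bst_Xbr_meas G _ _).comp (bst_Phi_meas G i)
  have hmS : ∀ c : G.neighborFinset i,
      Measurable (fun ω : V ⊕ V → ℝ => sg (bst_dec (ω (Sum.inl (c : V))))) :=
    fun c => bst_sg_meas.comp (bst_dec_meas.comp (measurable_pi_apply _))
  have hmP : ∀ c : G.neighborFinset i, Measurable (fun ω : V ⊕ V → ℝ =>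
      (sg (bst_dec (ω (Sum.inl (c : V)))), Xbr G (c : V) i (bst_Phi G i ω))) :=
    fun c => (hmS c).prodMk (hmX c)
  have hmR : Measurable (fun (ω : V ⊕ V → ℝ) (c : G.neighborFinset i) =>
      (sg (bst_dec (ω (Sum.inl (c : V)))), Xbr G (c : V) i (bst_Phi G i ω))) :=
    measurable_pi_iff.2 hmP
  -- rewriting the left side
  have hL : (spinField μ ρ).map (fun q => (sg (q.1 i) * q.2 i,
        fun c : G.neighborFinset i => (sg (q.1 c) * sg (q.1 i), Xbr G c i q)))
      = (Measure.infinitePi (bst_mu i θ ρ)).map (fun ω => (ω (Sum.inr i),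
          fun c : G.neighborFinset i =>
            (sg (bst_dec (ω (Sum.inl (c : V)))), Xbr G (c : V) i (bst_Phi G i ω)))) := by
    rw [bst_spinField G hT h0 h1 hμ ρ i, Measure.map_map _ (bst_Phi_meas G i)]
    · congr 1
      funext ω
      simp only [Function.comp_apply, Prod.mk.injEq]
      refine ⟨?_, ?_⟩
      · simp only [bst_Phi]
        rw [← mul_assoc, bst_sg_sq, one_mul]
      · funext c
        have hci : (c : V) ≠ i := (hadj c).ne
        have hpar : par G i (c : V) = i := by
          refine (eq_par G hT (hadj c) ?_).symm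
          rw [SimpleGraph.dist_self, SimpleGraph.dist_eq_one_iff_adj.2 (hadj c).symm]
        refine Prod.ext ?_ rfl
        simp only [bst_Phi]
        rw [spin_of_ne G hT hci, hpar, sg_beq, mul_assoc, bst_sg_sq, mul_one]
    · refine ((bst_sg_meas.comp ((measurable_pi_apply i).comp measurable_fst)).mul
        ((measurable_pi_apply i).comp measurable_snd)).prodMk (measurable_pi_iff.2 fun c => ?_)
      exact ((bst_sg_meas.comp ((measurable_pi_apply _).comp measurable_fst)).mul
        (bst_sg_meas.comp ((measurable_pi_apply _).comp measurable_fst))).prodMk (bst_Xbr_meas G _ _)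
  rw [hL]
  -- independence of the root field
  have hind1 := bst_block2 (bst_mu i θ ρ) {Sum.inr i} {Sum.inr i}ᶜ disjoint_compl_right
    (fun ω : V ⊕ V → ℝ => ω (Sum.inr i))
    (fun (ω : V ⊕ V → ℝ) (c : G.neighborFinset i) =>
      (sg (bst_dec (ω (Sum.inl (c : V)))), Xbr G (c : V) i (bst_Phi G i ω)))
    (measurable_pi_apply _) hmR
    (fun ω ω' h => h _ rfl)
    (by
      intro ω ω' h
      funext c
      refine Prod.ext ?_ ?_
      · simp only
        rw [h _ (by simp)]
      · refine bst_Xbr_congr G hT (hadj c) _ _ (fun w _ _ => h _ (by simp)) (fun w hw => h _ ?_)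
        simp only [Set.mem_compl_iff, Set.mem_singleton_iff, Sum.inr.injEq]
        rintro rfl
        exact hii c hw)
  rw [(indepFun_iff_map_prod_eq_prod_map_map (measurable_pi_apply _).aemeasurable
    hmR.aemeasurable).1 hind1]
  congr 1
  · rw [Measure.infinitePi_map_eval]
    rfl
  -- independence of the branches
  · have hind2 := bst_block (bst_mu i θ ρ)
      (fun c : G.neighborFinset i => {k | ∃ w ∈ brn G (c : V) i, k = Sum.inl w ∨ k = Sum.inr w})
      (by
        intro c c' hne
        rw [Set.disjoint_left]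
        rintro k ⟨w, hw, hk⟩ ⟨w', hw', hk'⟩
        have hww : w = w' := by
          rcases hk with rfl | rfl <;> rcases hk' with h | h <;> simp_all
        subst hww
        exact Set.disjoint_left.1 (bst_disj G hT (hadj c) (hadj c') (fun h => hne (Subtype.ext h)))
          hw hw')
      (fun (c : G.neighborFinset i) (ω : V ⊕ V → ℝ) =>
        (sg (bst_dec (ω (Sum.inl (c : V)))), Xbr G (c : V) i (bst_Phi G i ω)))
      hmP
      (by
        intro c ω ω' h
        refine Prod.ext ?_ ?_
        · simp only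
          rw [h _ ⟨c, hcc c, Or.inl rfl⟩]
        · exact bst_Xbr_congr G hT (hadj c) _ _ (fun w hw _ => h _ ⟨w, hw, Or.inl rfl⟩)
            (fun w hw => h _ ⟨w, hw, Or.inr rfl⟩))
    rw [(iIndepFun_iff_map_fun_eq_pi_map (fun c => (hmP c).aemeasurable)).1 hind2]
    congr 1
    funext c
    -- independence of the edge sign
    have hind3 := bst_block2 (bst_mu i θ ρ) {Sum.inl (c : V)} {Sum.inl (c : V)}ᶜ
      disjoint_compl_right
      (fun ω : V ⊕ V → ℝ => sg (bst_dec (ω (Sum.inl (c : V)))))
      (fun ω : V ⊕ V → ℝ => Xbr G (c : V) i (bst_Phi G i ω)) (hmS c) (hmX c)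
      (by
        intro ω ω' h
        rw [h _ rfl])
      (by
        intro ω ω' h
        refine bst_Xbr_congr G hT (hadj c) _ _ (fun w _ hwc => h _ ?_) (fun w _ => h _ (by simp))
        simp only [Set.mem_compl_iff, Set.mem_singleton_iff, Sum.inl.injEq]
        exact hwc)
    rw [(indepFun_iff_map_prod_eq_prod_map_map (hmS c).aemeasurable (hmX c).aemeasurable).1 hind3]
    congr 1
    · have e : (fun ω : V ⊕ V → ℝ => sg (bst_dec (ω (Sum.inl (c : V)))))
          = (fun r => sg (bst_dec r)) ∘ (fun ω : V ⊕ V → ℝ => ω (Sum.inl (c : V))) := rfl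
      have hma : Measurable (fun r : ℝ => sg (bst_dec r)) := bst_sg_meas.comp bst_dec_meas
      rw [e, ← Measure.map_map hma (measurable_pi_apply _), Measure.infinitePi_map_eval]
      have hci : (c : V) ≠ i := (hadj c).ne
      simp only [bst_mu, Sum.elim_inl, if_neg hci]
      exact bst_sg_dec_map θ
    · rw [bst_spinField G hT h0 h1 hμ ρ i, Measure.map_map (bst_Xbr_meas G _ _) (bst_Phi_meas G i)]
      rfl

end main

end Crest.Agent.FI
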