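import Mathlib
import Crest.Agent.FI.Defs

set_option autoImplicit false
set_option linter.unusedSectionVars false
set_option linter.unusedVariables false

namespace Crest.Agent.FI

open Set Filter Topology
open scoped ENNReal

section taux

variable {V : Type*} {G : SimpleGraph V}

/-- `v` is the parent of `w`, seen from the root `r` -/
def TPar (G : SimpleGraph V) (r v w : V) : Prop := G.Adj v w ∧ G.dist r v + 1 = G.dist r w

lemma tpar_unique (hT : G.IsTree) {r v v' w : V} (h : TPar G r v w) (h' : TPar G r v' w) :
    v = v' := by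
  classical
  obtain ⟨p, hp, hpl⟩ := hT.connected.exists_path_of_dist r v
  obtain ⟨p', hp', hpl'⟩ := hT.connected.exists_path_of_dist r v'
  obtain ⟨q, hq, hql⟩ := hT.connected.exists_path_of_dist r w
  have key : ∀ (u : V) (s : G.Walk r u) (hs : s.IsPath) (hadj : G.Adj u w)
      (hsl : s.length = G.dist r u) (hd : G.dist r u + 1 = G.dist r w),
      q = s.concat hadj := by
    intro u s hs hadj hsl hd
    refine hT.isAcyclic.path_concat hs hq hadj ?_
    refine hT.isAcyclic.mem_support_of_ne_mem_support_of_adj_of_isPath hq hs hadj.symm ?_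
    intro hw
    have h1 : (s.takeUntil w hw).length ≤ s.length := s.length_takeUntil_le_length hw
    have h2 := G.dist_le (s.takeUntil w hw)
    omega
  have e1 := key v p hp h.1 hpl h.2
  have e2 := key v' p' hp' h'.1 hpl' h'.2
  have f1 : q.penultimate = v := by rw [e1]; simp
  have f2 : q.penultimate = v' := by rw [e2]; simp
  rw [← f1, f2]

lemma tpar_exists (hT : G.IsTree) {r w : V} (h : w ≠ r) : ∃ v, TPar G r v w := by
  obtain ⟨q, hq, hql⟩ := hT.connected.exists_path_of_dist r w
  have hpos : 0 < G.dist r w := hT.connected.pos_dist_of_ne (Ne.symm h)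
  have hnil : ¬ q.Nil := by
    intro hn
    have := hn.length_eq_zero
    omega
  refine ⟨q.penultimate, q.adj_penultimate hnil, ?_⟩
  have h1 : G.dist r q.penultimate ≤ q.dropLast.length := G.dist_le _
  have h2 : q.dropLast.length + 1 = q.length := by
    simp only [SimpleGraph.Walk.dropLast]
    rw [SimpleGraph.Walk.take_length]
    omega
  rcases hT.dist_eq_dist_add_one_of_adj r (q.adj_penultimate hnil) with h3 | h3 <;> omega

lemma tpar_or (hT : G.IsTree) (r : V) {v w : V} (h : G.Adj v w) :
    TPar G r v w ∨ TPar G r w v := by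
  rcases hT.dist_eq_dist_add_one_of_adj r h with h1 | h1
  · exact Or.inr ⟨h.symm, h1.symm⟩
  · exact Or.inl ⟨h, h1.symm⟩

lemma tpar_ne_root {r v w : V} (h : TPar G r v w) : w ≠ r := by
  rintro rfl
  have := h.2
  simp at this

end taux

variable {V : Type*} (G : SimpleGraph V) [G.LocallyFinite]

theorem isPth_dist (hT : G.IsTree) {p : ℕ → V} {n : ℕ} (hp : IsPth G p n) :
    G.dist (p 0) (p n) = n := by
  have key : ∀ m, m ≤ n → G.dist (p 0) (p m) = m ∧
      (∀ m', m' + 1 = m → G.dist (p 0) (p m') = m') := by
    intro m
    induction m with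
    | zero => intro _; simp
    | succ m ih =>
      intro hm
      obtain ⟨h1, h2⟩ := ih (by omega)
      refine ⟨?_, ?_⟩
      · rcases hT.dist_eq_dist_add_one_of_adj (p 0) (hp.1 m (by omega)) with h3 | h3
        · exfalso
          rcases m with _ | m'
          · simp at h3
          · have h4 := h2 m' rfl
            have e : p m' = p (m' + 1 + 1) :=
              tpar_unique hT (r := p 0) (w := p (m' + 1))
                ⟨hp.1 m' (by omega), by omega⟩ ⟨(hp.1 (m' + 1) (by omega)).symm, by omega⟩
            exact hp.2 m' (by omega) e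
        · omega
      · intro m' hm'
        have : m' = m := by omega
        rw [this]; exact h1
  exact (key n le_rfl).1

omit [G.LocallyFinite] in
lemma isPth_mono {p : ℕ → V} {n m : ℕ} (hp : IsPth G p n) (hm : m ≤ n) : IsPth G p m :=
  ⟨fun i hi => hp.1 i (by omega), fun i hi => hp.2 i (by omega)⟩

theorem isPth_unique (hT : G.IsTree) {u v : V} {p q : ℕ → V} {n m : ℕ} (hp : IsPth G p n)
    (hq : IsPth G q m) (hp0 : p 0 = u) (hpn : p n = v) (hq0 : q 0 = u) (hqm : q m = v) :
    n = m ∧ ∀ i ≤ n, p i = q i := by
  have h1 := isPth_dist G hT hp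
  have h2 := isPth_dist G hT hq
  have hnm : n = m := by
    rw [hp0, hpn] at h1
    rw [hq0, hqm] at h2
    omega
  subst hnm
  refine ⟨rfl, ?_⟩
  have key : ∀ j, j ≤ n → p (n - j) = q (n - j) := by
    intro j
    induction j with
    | zero => intro _; simp [hpn, hqm]
    | succ j ih =>
      intro hj
      have e := ih (by omega)
      have e1 : n - (j + 1) + 1 = n - j := by omega
      have d1 := isPth_dist G hT (isPth_mono G hp (m := n - (j + 1)) (by omega))
      have d2 := isPth_dist G hT (isPth_mono G hp (m := n - j) (by omega))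
      have d3 := isPth_dist G hT (isPth_mono G hq (m := n - (j + 1)) (by omega))
      have d4 := isPth_dist G hT (isPth_mono G hq (m := n - j) (by omega))
      have a1 := hp.1 (n - (j + 1)) (by omega)
      have a2 := hq.1 (n - (j + 1)) (by omega)
      rw [e1] at a1 a2
      rw [hp0] at d1 d2
      rw [hq0] at d3 d4
      refine tpar_unique hT (r := u) (w := p (n - j)) ⟨a1, by omega⟩ ⟨?_, by omega⟩
      rw [e]; exact a2
  intro i hi
  have := key (n - i) (by omega)
  rwa [show n - (n - i) = i by omega] at this

/-- the unique path between two vertices, as a sequence -/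
theorem exists_pth (hT : G.IsTree) (u v : V) :
    ∃ p : ℕ → V, IsPth G p (G.dist u v) ∧ p 0 = u ∧ p (G.dist u v) = v := by
  obtain ⟨w, hw, hl⟩ := hT.connected.exists_path_of_dist u v
  refine ⟨w.getVert, ⟨?_, ?_⟩, by simp, by rw [← hl]; simp⟩
  · intro i hi
    exact w.adj_getVert_succ (by omega)
  · intro i hi h
    have := hw.getVert_injOn (show i ∈ {i | i ≤ w.length} by simp; omega)
      (show i + 2 ∈ {i | i ≤ w.length} by simp; omega) h
    omega

omit [G.LocallyFinite] in
lemma sphere_finite [G.LocallyFinite] (hT : G.IsTree) (r : V) (n : ℕ) : {v | G.dist r v = n}.Finite := by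
  classical
  induction n with
  | zero =>
    refine (Set.finite_singleton r).subset ?_
    intro v hv
    have hv' : G.dist r v = 0 := hv
    rw [hT.connected.dist_eq_zero_iff] at hv'
    simp [hv'.symm]
  | succ n ih =>
    refine (ih.biUnion (fun v _ => (G.neighborFinset v).finite_toSet)).subset ?_
    intro w hw
    have hw' : G.dist r w = n + 1 := hw
    have hne : w ≠ r := by rintro rfl; simp at hw'
    obtain ⟨v, hv⟩ := tpar_exists hT hne
    rw [Set.mem_iUnion₂]
    refine ⟨v, ?_, ?_⟩
    · show G.dist r v = n
      have := hv.2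
      omega
    · simpa using hv.1

theorem countable_tree (hT : G.IsTree) : Countable V := by
  obtain ⟨r⟩ := hT.connected.nonempty
  have h : (Set.univ : Set V) = ⋃ n : ℕ, {v | G.dist r v = n} := by
    ext v; simp
  rw [← Set.countable_univ_iff, h]
  exact Set.countable_iUnion fun n => (sphere_finite G hT r n).countable

/-- children -/
noncomputable def chF (r v : V) : Finset V := by
  classical exact (G.neighborFinset v).filter (fun w => TPar G r v w)

lemma mem_chF {r v w : V} : w ∈ chF G r v ↔ TPar G r v w := by
  classical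
  simp only [chF, Finset.mem_filter, SimpleGraph.mem_neighborFinset]
  exact ⟨fun h => h.2, fun h => ⟨h.1, h⟩⟩

lemma card_chF_root (hT : G.IsTree) {d : ℕ} (hreg : G.IsRegularOfDegree d) (r : V) :
    (chF G r r).card = d := by
  classical
  rw [← hreg r, ← SimpleGraph.card_neighborFinset_eq_degree]
  congr 1
  ext w
  rw [mem_chF, SimpleGraph.mem_neighborFinset]
  refine ⟨fun h => h.1, fun h => ?_⟩
  rcases tpar_or hT r h with h1 | h1
  · exact h1
  · exact absurd rfl (tpar_ne_root h1)

lemma card_chF (hT : G.IsTree) {d : ℕ} (hreg : G.IsRegularOfDegree d) {r v : V} (hv : v ≠ r) :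
    (chF G r v).card + 1 = d := by
  classical
  obtain ⟨u, hu⟩ := tpar_exists hT hv
  have hne : u ∉ chF G r v := by
    rw [mem_chF]
    intro h
    have h1 := h.2
    have h2 := hu.2
    omega
  rw [← hreg v, ← SimpleGraph.card_neighborFinset_eq_degree, ← Finset.card_insert_of_notMem hne]
  congr 1
  ext w
  rw [Finset.mem_insert, mem_chF, SimpleGraph.mem_neighborFinset]
  constructor
  · rintro (rfl | h)
    · exact hu.1.symm
    · exact h.1
  · intro h
    rcases tpar_or hT r h with h1 | h1
    · exact Or.inr h1
    · exact Or.inl (tpar_unique hT h1 hu)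

/-- homogeneity of the regular tree under its automorphisms -/
theorem exists_aut_path (hT : G.IsTree) {d : ℕ} (hd : 2 ≤ d) (hreg : G.IsRegularOfDegree d)
    (p q : ℕ → V) (n : ℕ) (hp : IsPth G p n) (hq : IsPth G q n) :
    ∃ g : G ≃g G, ∀ i ≤ n, g (p i) = q i := by
  classical
  set r := p 0 with hr
  set r' := q 0 with hr'
  have dp : ∀ i ≤ n, G.dist r (p i) = i := fun i hi => isPth_dist G hT (isPth_mono G hp hi)
  have dq : ∀ i ≤ n, G.dist r' (q i) = i := fun i hi => isPth_dist G hT (isPth_mono G hq hi)
  have pp : ∀ i < n, TPar G r (p i) (p (i + 1)) := fun i hi =>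
    ⟨hp.1 i hi, by rw [dp i (by omega), dp (i + 1) (by omega)]⟩
  have qp : ∀ i < n, TPar G r' (q i) (q (i + 1)) := fun i hi =>
    ⟨hq.1 i hi, by rw [dq i (by omega), dq (i + 1) (by omega)]⟩
  -- the local bijections
  have hE : ∀ v v' : V, ∃ φ : V → V,
      ((v = r ↔ v' = r') → Set.BijOn φ (chF G r v) (chF G r' v')) ∧
      (∀ i < n, v = p i → v' = q i → φ (p (i + 1)) = q (i + 1)) := by
    intro v v'
    by_cases hvv : v = r ↔ v' = r'
    swap
    · refine ⟨id, fun h => absurd h hvv, ?_⟩
      rintro i hi rfl rfl
      exfalso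
      apply hvv
      have h1 := dp i hi.le
      have h2 := dq i hi.le
      constructor
      · intro h; rw [h] at h1; simp at h1
        rw [← h1]
      · intro h; rw [h] at h2; simp at h2
        rw [← h2]
    have hcard : (chF G r v).card = (chF G r' v').card := by
      by_cases hv : v = r
      · have hv' := hvv.1 hv
        rw [hv, hv', card_chF_root G hT hreg, card_chF_root G hT hreg]
      · have hv' : v' ≠ r' := fun h => hv (hvv.2 h)
        have h1 := card_chF G hT hreg hv
        have h2 := card_chF G hT hreg hv'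
        omega
    have e0 : (chF G r v) ≃ (chF G r' v') := Finset.equivOfCardEq hcard
    -- choose the special value
    by_cases hs : ∃ i, i < n ∧ v = p i ∧ v' = q i
    · obtain ⟨i, hi, hvi, hvi'⟩ := hs
      have ha : p (i + 1) ∈ chF G r v := by rw [mem_chF, hvi]; exact pp i hi
      have hb : q (i + 1) ∈ chF G r' v' := by rw [mem_chF, hvi']; exact qp i hi
      let e : (chF G r v) ≃ (chF G r' v') := e0.trans (Equiv.swap (e0 ⟨_, ha⟩) ⟨_, hb⟩)
      refine ⟨fun w => if hw : w ∈ chF G r v then (e ⟨w, hw⟩ : V) else r, fun _ => ?_, ?_⟩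
      · refine ⟨?_, ?_, ?_⟩
        · intro w hw
          have hw' : w ∈ chF G r v := hw
          simp only [hw', dite_true]
          exact (e ⟨w, hw'⟩).2
        · intro w hw w2 hw2 h
          have hw' : w ∈ chF G r v := hw
          have hw2' : w2 ∈ chF G r v := hw2
          simp only [hw', hw2', dite_true] at h
          have := e.injective (Subtype.ext h)
          simpa using this
        · intro z hz
          have hz' : z ∈ chF G r' v' := hz
          refine ⟨(e.symm ⟨z, hz'⟩ : V), (e.symm ⟨z, hz'⟩).2, ?_⟩
          have h1 : (e.symm ⟨z, hz'⟩ : V) ∈ chF G r v := (e.symm ⟨z, hz'⟩).2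
          simp only [h1, dite_true]
          simp
      · intro j hj h1 h2
        have hij : j = i := by
          have a1 := dp i hi.le
          have a2 := dp j hj.le
          rw [← hvi] at a1
          rw [← h1] at a2
          omega
        subst hij
        simp only [ha, dite_true]
        simp [e]
    · refine ⟨fun w => if hw : w ∈ chF G r v then (e0 ⟨w, hw⟩ : V) else r, fun _ => ?_, ?_⟩
      · refine ⟨?_, ?_, ?_⟩
        · intro w hw
          have hw' : w ∈ chF G r v := hw
          simp only [hw', dite_true]
          exact (e0 ⟨w, hw'⟩).2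
        · intro w hw w2 hw2 h
          have hw' : w ∈ chF G r v := hw
          have hw2' : w2 ∈ chF G r v := hw2
          simp only [hw', hw2', dite_true] at h
          have := e0.injective (Subtype.ext h)
          simpa using this
        · intro z hz
          have hz' : z ∈ chF G r' v' := hz
          refine ⟨(e0.symm ⟨z, hz'⟩ : V), (e0.symm ⟨z, hz'⟩).2, ?_⟩
          have h1 : (e0.symm ⟨z, hz'⟩ : V) ∈ chF G r v := (e0.symm ⟨z, hz'⟩).2
          simp only [h1, dite_true]
          simp
      · intro j hj h1 h2
        exact absurd ⟨j, hj, h1, h2⟩ hs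
  choose E hE1 hE2 using hE
  -- parents
  have hpar : ∀ w : V, ∃ v, w ≠ r → TPar G r v w := by
    intro w
    by_cases h : w = r
    · exact ⟨r, fun h' => absurd h h'⟩
    · obtain ⟨v, hv⟩ := tpar_exists hT h
      exact ⟨v, fun _ => hv⟩
  choose par hpar using hpar
  have par_eq : ∀ {v w : V}, TPar G r v w → par w = v := fun {v w} h =>
    tpar_unique hT (hpar w (tpar_ne_root h)) h
  let F : ℕ → V → V := fun m => Nat.rec (fun _ => r') (fun _ Fm w => E (par w) (Fm (par w)) w) m
  have F0 : ∀ w, F 0 w = r' := fun w => rfl
  have FS : ∀ m w, F (m + 1) w = E (par w) (F m (par w)) w := fun m w => rfl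
  let f : V → V := fun w => F (G.dist r w) w
  have fr : f r = r' := by simp [f, F0]
  have fS : ∀ {v w : V}, TPar G r v w → f w = E v (f v) w := by
    intro v w h
    have h1 := par_eq h
    simp only [f]
    rw [← h.2, FS, h1]
  have fdist : ∀ m, ∀ w, G.dist r w = m → G.dist r' (f w) = m ∧
      (∀ v, TPar G r v w → TPar G r' (f v) (f w)) := by
    intro m
    induction m with
    | zero =>
      intro w hw
      rw [hT.connected.dist_eq_zero_iff] at hw
      subst hw
      refine ⟨by rw [fr]; simp, ?_⟩
      intro v hv
      exact absurd rfl (tpar_ne_root hv)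
    | succ m ih =>
      intro w hw
      have hne : w ≠ r := by rintro rfl; simp at hw
      have hpw := hpar w hne
      have key : ∀ v, TPar G r v w → TPar G r' (f v) (f w) := by
        intro v hv
        have hdv : G.dist r v = m := by have := hv.2; omega
        have h2 := (ih v hdv).1
        have hiff : v = r ↔ f v = r' := by
          rw [← hT.connected.dist_eq_zero_iff (u := v) (v := r),
            ← hT.connected.dist_eq_zero_iff (u := f v) (v := r'), G.dist_comm, hdv,
            G.dist_comm (u := f v), h2]
        have hb := hE1 v (f v) hiff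
        have hm := hb.mapsTo (show w ∈ (chF G r v : Set V) from (mem_chF G).2 hv)
        rw [fS hv]
        exact (mem_chF G).1 hm
      refine ⟨?_, key⟩
      have h1 := key _ hpw
      have h2 := (ih (par w) (by have := hpw.2; omega)).1
      have := h1.2
      omega
  have fd : ∀ w, G.dist r' (f w) = G.dist r w := fun w => (fdist _ w rfl).1
  have ft : ∀ {v w}, TPar G r v w → TPar G r' (f v) (f w) := fun {v w} h => (fdist _ w rfl).2 v h
  have fiff : ∀ v, v = r ↔ f v = r' := by
    intro v
    rw [← hT.connected.dist_eq_zero_iff (u := v) (v := r),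
      ← hT.connected.dist_eq_zero_iff (u := f v) (v := r'), G.dist_comm,
      G.dist_comm (u := f v), fd]
  have finj : ∀ m, ∀ w w', G.dist r w = m → f w = f w' → w = w' := by
    intro m
    induction m with
    | zero =>
      intro w w' hw h
      have h1 : G.dist r w' = 0 := by rw [← fd w', ← h, fd w, hw]
      rw [hT.connected.dist_eq_zero_iff] at hw h1
      rw [← hw, ← h1]
    | succ m ih =>
      intro w w' hw h
      have h1 : G.dist r w' = m + 1 := by rw [← fd w', ← h, fd w, hw]
      have hne : w ≠ r := by rintro rfl; simp at hw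
      have hne' : w' ≠ r := by rintro rfl; simp at h1
      have a := hpar w hne
      have a' := hpar w' hne'
      have b := ft a
      have b' := ft a'
      rw [← h] at b'
      have e1 : f (par w) = f (par w') := tpar_unique hT b b'
      have e2 : par w = par w' := ih _ _ (by have := a.2; omega) e1
      rw [← e2] at a'
      have hb := (hE1 (par w) (f (par w)) (fiff _)).injOn
      refine hb ((mem_chF G).2 a) ((mem_chF G).2 a') ?_
      rw [← fS a, ← fS a', h]
  have fsurj : ∀ m, ∀ z, G.dist r' z = m → ∃ w, f w = z := by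
    intro m
    induction m with
    | zero =>
      intro z hz
      rw [hT.connected.dist_eq_zero_iff] at hz
      exact ⟨r, by rw [fr, hz]⟩
    | succ m ih =>
      intro z hz
      have hne : z ≠ r' := by rintro rfl; simp at hz
      obtain ⟨y, hy⟩ := tpar_exists hT hne
      obtain ⟨v, hv⟩ := ih y (by have := hy.2; omega)
      obtain ⟨w, hw, hw2⟩ := (hE1 v (f v) (fiff _)).surjOn
        (show z ∈ (chF G r' (f v) : Set V) from (mem_chF G).2 (by rw [hv]; exact hy))
      refine ⟨w, ?_⟩
      rw [fS ((mem_chF G).1 hw), hw2]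
  have hbij : Function.Bijective f :=
    ⟨fun w w' h => finj _ w w' rfl h, fun z => fsurj _ z rfl⟩
  have hadj : ∀ v w, G.Adj (f v) (f w) ↔ G.Adj v w := by
    have one : ∀ v w, TPar G r' (f v) (f w) → G.Adj v w := by
      intro v w h
      have hne : w ≠ r := by
        intro h'
        exact tpar_ne_root h ((fiff w).1 h')
      have a := hpar w hne
      have e1 := tpar_unique hT (ft a) h
      have e2 := hbij.1 e1
      rw [← e2]
      exact a.1
    intro v w
    constructor
    · intro h
      rcases tpar_or hT r' h with h1 | h1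
      · exact one _ _ h1
      · exact (one _ _ h1).symm
    · intro h
      rcases tpar_or hT r h with h1 | h1
      · exact (ft h1).1
      · exact (ft h1).1.symm
  refine ⟨⟨Equiv.ofBijective f hbij, ?_⟩, ?_⟩
  · intro v w
    exact hadj v w
  · intro i
    induction i with
    | zero => intro _; exact fr
    | succ i ih =>
      intro hi
      have h1 : f (p i) = q i := ih (by omega)
      show f (p (i + 1)) = q (i + 1)
      rw [fS (pp i (by omega)), h1]
      exact hE2 _ _ i (by omega) rfl rfl

/-- every path extends to a ray -/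
theorem exists_ray (hT : G.IsTree) {d : ℕ} (hd : 2 ≤ d) (hreg : G.IsRegularOfDegree d)
    (p : ℕ → V) (n : ℕ) (hp : IsPth G p n) : ∃ q : ℕ → V, IsRay G q ∧ ∀ i ≤ n, q i = p i := by
  classical
  have hn : ∀ a b : V, ∃ c, G.Adj b c ∧ a ≠ c := by
    intro a b
    have h1 : 1 < (G.neighborFinset b).card := by
      rw [SimpleGraph.card_neighborFinset_eq_degree, hreg b]; omega
    obtain ⟨c, hc, hca⟩ := Finset.exists_mem_ne h1 a
    exact ⟨c, by simpa using hc, Ne.symm hca⟩
  choose nx h1 h2 using hn
  let s : ℕ → V × V := fun m => Nat.rec (p (n - 1), p n) (fun _ x => (x.2, nx x.1 x.2)) m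
  have s0 : s 0 = (p (n - 1), p n) := rfl
  have sS : ∀ m, s (m + 1) = ((s m).2, nx (s m).1 (s m).2) := fun m => rfl
  let q : ℕ → V := fun i => if i ≤ n then p i else (s (i - n)).2
  have ql : ∀ i ≤ n, q i = p i := fun i hi => by simp [q, hi]
  have qg : ∀ m, q (n + m) = (s m).2 := by
    intro m
    rcases m with _ | m
    · simp [q, s0]
    · simp [q]
  have adj : ∀ i, G.Adj (q i) (q (i + 1)) := by
    intro i
    by_cases hi : i + 1 ≤ n
    · rw [ql i (by omega), ql (i + 1) hi]
      exact hp.1 i (by omega)
    · obtain ⟨m, rfl⟩ : ∃ m, i = n + m := ⟨i - n, by omega⟩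
      rw [qg m, show n + m + 1 = n + (m + 1) by ring, qg (m + 1), sS]
      exact h1 _ _
  refine ⟨q, fun N => ⟨fun i _ => adj i, fun i _ => ?_⟩, ql⟩
  by_cases hi : i + 2 ≤ n
  · rw [ql i (by omega), ql (i + 2) hi]
    exact hp.2 i hi
  · by_cases hi2 : i + 1 ≤ n
    · have hin : i = n - 1 := by omega
      have h3 : i + 2 = n + 1 := by omega
      rw [ql i (by omega), h3, qg 1, show (1 : ℕ) = 0 + 1 from rfl, sS 0, s0, hin]
      exact h2 _ _
    · obtain ⟨m, rfl⟩ : ∃ m, i = n + m := ⟨i - n, by omega⟩
      rw [qg m, show n + m + 2 = n + (m + 1 + 1) by ring, qg (m + 1 + 1), sS (m + 1), sS m]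
      exact h2 _ _

lemma card_sphere_le (hT : G.IsTree) {d : ℕ} (hd : 3 ≤ d) (hreg : G.IsRegularOfDegree d) (v : V)
    (n : ℕ) : (sphere_finite G hT v n).toFinset.card ≤ 2 * (d - 1) ^ n := by
  classical
  have step : ∀ m (c : ℕ), (∀ w, G.dist v w = m → (chF G v w).card ≤ c) →
      (sphere_finite G hT v (m + 1)).toFinset.card ≤ (sphere_finite G hT v m).toFinset.card * c := by
    intro m c hc
    have hsub : (sphere_finite G hT v (m + 1)).toFinset ⊆
        (sphere_finite G hT v m).toFinset.biUnion (fun w => chF G v w) := by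
      intro w hw
      have hw' : G.dist v w = m + 1 := by simpa using hw
      have hne : w ≠ v := by rintro rfl; simp at hw'
      obtain ⟨u, hu⟩ := tpar_exists hT hne
      rw [Finset.mem_biUnion]
      refine ⟨u, ?_, (mem_chF G).2 hu⟩
      have := hu.2
      simp; omega
    refine (Finset.card_le_card hsub).trans ?_
    refine Finset.card_biUnion_le_card_mul _ _ _ ?_
    intro w hw
    exact hc w (by simpa using hw)
  have h1 : ∀ m, (sphere_finite G hT v (m + 1)).toFinset.card ≤ d * (d - 1) ^ m := by
    intro m
    induction m with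
    | zero =>
      refine (step 0 d ?_).trans ?_
      · intro w hw
        rw [hT.connected.dist_eq_zero_iff] at hw
        subst hw
        rw [card_chF_root G hT hreg]
      · have : (sphere_finite G hT v 0).toFinset ⊆ {v} := by
          intro w hw
          have hw' : G.dist v w = 0 := by simpa using hw
          rw [hT.connected.dist_eq_zero_iff] at hw'
          simp [hw'.symm]
        have h2 := Finset.card_le_card this
        simp only [Finset.card_singleton] at h2
        simp only [pow_zero, mul_one]
        nlinarith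
    | succ m ih =>
      refine (step (m + 1) (d - 1) ?_).trans ?_
      · intro w hw
        have hne : w ≠ v := by rintro rfl; simp at hw
        have := card_chF G hT hreg hne
        omega
      · rw [pow_succ, ← mul_assoc]
        exact Nat.mul_le_mul_right _ ih
  rcases n with _ | m
  · have : (sphere_finite G hT v 0).toFinset ⊆ {v} := by
      intro w hw
      have hw' : G.dist v w = 0 := by simpa using hw
      rw [hT.connected.dist_eq_zero_iff] at hw'
      simp [hw'.symm]
    have h2 := Finset.card_le_card this
    simp only [Finset.card_singleton] at h2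
    simp only [pow_zero, mul_one]
    omega
  · refine (h1 m).trans ?_
    rw [pow_succ, ← mul_assoc, mul_comm (2 * (d - 1) ^ m) (d - 1), mul_comm d, ← mul_assoc,
      mul_comm (d - 1) 2, mul_assoc, mul_comm ((d - 1) : ℕ) ((d - 1) ^ m), ← mul_assoc,
      mul_comm 2, mul_assoc]
    refine Nat.mul_le_mul_left _ ?_
    omega

/-- sizes of the spheres -/
theorem tsum_dist_le (hT : G.IsTree) {d : ℕ} (hd : 3 ≤ d) (hreg : G.IsRegularOfDegree d) (v : V)
    (F : ℕ → ℝ≥0∞) :
    ∑' u : V, F (G.dist v u) ≤ ∑' n : ℕ, 2 * ((d - 1 : ℕ) : ℝ≥0∞) ^ n * F n := by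
  classical
  rw [← (Equiv.sigmaFiberEquiv (fun u => G.dist v u)).tsum_eq, ENNReal.tsum_sigma']
  refine ENNReal.tsum_le_tsum fun n => ?_
  have e : ∀ b : {u // G.dist v u = n},
      F (G.dist v ((Equiv.sigmaFiberEquiv (fun u => G.dist v u)) ⟨n, b⟩)) = F n := by
    intro b
    simp [b.2]
  simp_rw [e]
  have hfin : Finite {u // G.dist v u = n} := (sphere_finite G hT v n).to_subtype
  have : Fintype {u // G.dist v u = n} := Fintype.ofFinite _
  rw [tsum_fintype, Finset.sum_const, nsmul_eq_mul]
  refine mul_le_mul_left ?_ _
  have hc : (Finset.univ : Finset {u // G.dist v u = n}).card =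
      (sphere_finite G hT v n).toFinset.card := by
    rw [Finset.card_univ, ← Nat.card_eq_fintype_card]
    exact Nat.card_coe_set_eq {u | G.dist v u = n} ▸ Set.ncard_eq_toFinset_card _ _
  rw [hc]
  have := card_sphere_le G hT hd hreg v n
  exact_mod_cast this

end Crest.Agent.FI
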