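import Mathlib
import Crest.Agent.FI.Defs
import Crest.Agent.FI.Real
import Crest.Agent.FI.Alg
import Crest.Agent.FI.Branch
import Crest.Agent.FI.Ising
import Crest.Agent.FI.BST
import Crest.Agent.FI.TreeAut

/-!
Environment of one copy: independence, invariance and Nishimori identity of the messages (row 160).
-/

set_option autoImplicit false

namespace Crest.Agent.FI

open MeasureTheory ProbabilityTheory Set Filter Topology
open scoped ENNReal

variable {V : Type*} (G : SimpleGraph V) [G.LocallyFinite]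

/-- gauged message -/
noncomputable def hh (θ : ℝ) (q : (V → Bool) × (V → ℝ)) (i j : V) : ℝ :=
  sg (q.1 i) * hl G θ q.2 i j

theorem eb_meas_spin : Measurable
    (fun p : (V → Bool) × (V → ℝ) => (p.1, fun v => sg (p.1 v) * p.2 v)) := by
  refine measurable_fst.prodMk (measurable_pi_iff.2 fun v => ?_)
  exact (bst_sg_meas.comp ((measurable_pi_apply v).comp measurable_fst)).mul
    ((measurable_pi_apply v).comp measurable_snd)

instance spinField_prob (μ : Measure (V → Bool)) [IsProbabilityMeasure μ] (ρ : V → Measure ℝ)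
    [∀ v, IsProbabilityMeasure (ρ v)] : IsProbabilityMeasure (spinField μ ρ) :=
  Measure.isProbabilityMeasure_map eb_meas_spin.aemeasurable

instance fieldLaw_prob (μ : Measure (V → Bool)) [IsProbabilityMeasure μ] (ρ : V → Measure ℝ)
    [∀ v, IsProbabilityMeasure (ρ v)] : IsProbabilityMeasure (fieldLaw μ ρ) :=
  Measure.isProbabilityMeasure_map measurable_snd.aemeasurable

theorem abs_sg (b : Bool) : |sg b| = 1 := by
  cases b <;> simp [sg]

theorem spinField_bdd [Countable V] {μ : Measure (V → Bool)} [IsProbabilityMeasure μ]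
    {ρ : V → Measure ℝ} {L : ℝ} (hρ : ∀ v, Chan (ρ v) L) :
    ∀ᵐ q ∂(spinField μ ρ), ∀ w, |q.2 w| ≤ L := by
  have := fun v => (hρ v).prob
  rw [ae_all_iff]
  intro w
  have hset : MeasurableSet {q : (V → Bool) × (V → ℝ) | |q.2 w| ≤ L} :=
    measurableSet_le ((measurable_pi_apply w).comp measurable_snd).abs measurable_const
  unfold spinField
  rw [ae_map_iff eb_meas_spin.aemeasurable hset]
  simp only [abs_mul, abs_sg, one_mul]
  have h1 : ∀ᵐ x ∂(Measure.infinitePi ρ), |x w| ≤ L := by
    have h2 : ∀ᵐ x ∂((Measure.infinitePi ρ).map (fun x => x w)), |x| ≤ L := by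
      rw [Measure.infinitePi_map_eval]
      exact (hρ w).bdd
    exact ae_of_ae_map (measurable_pi_apply w).aemeasurable h2
  have h3 : ∀ᵐ x ∂((μ.prod (Measure.infinitePi ρ)).map Prod.snd), |x w| ≤ L := by
    rw [Measure.map_snd_prod]
    simpa using h1
  exact ae_of_ae_map measurable_snd.aemeasurable h3

theorem fieldLaw_bdd [Countable V] {μ : Measure (V → Bool)} [IsProbabilityMeasure μ] {ρ : V → Measure ℝ}
    {L : ℝ} (hρ : ∀ v, Chan (ρ v) L) : ∀ᵐ x ∂(fieldLaw μ ρ), ∀ w, |x w| ≤ L := by
  have hset : MeasurableSet {x : V → ℝ | ∀ w, |x w| ≤ L} := by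
    have : {x : V → ℝ | ∀ w, |x w| ≤ L} = ⋂ w, {x | |x w| ≤ L} := by
      ext x
      simp
    rw [this]
    exact MeasurableSet.iInter fun w => measurableSet_le (measurable_pi_apply w).abs measurable_const
  unfold fieldLaw
  rw [ae_map_iff measurable_snd.aemeasurable hset]
  exact spinField_bdd hρ

theorem eb_meas_comp (g : V → V) : Measurable
    (fun q : (V → Bool) × (V → ℝ) => (q.1 ∘ g, q.2 ∘ g)) :=
  (measurable_pi_iff.2 fun v => (measurable_pi_apply (g v)).comp measurable_fst).prodMk
    (measurable_pi_iff.2 fun v => (measurable_pi_apply (g v)).comp measurable_snd)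

theorem spinField_aut [Countable V] (hT : G.IsTree) {θ : ℝ} {μ : Measure (V → Bool)}
    [IsProbabilityMeasure μ] (hμ : IsIsing G θ μ) (ρ : Measure ℝ) [IsProbabilityMeasure ρ]
    (g : G ≃g G) : (spinField μ (fun _ => ρ)).map (fun q => (q.1 ∘ g, q.2 ∘ g))
      = spinField μ (fun _ => ρ) := by
  have h1 := ising_aut G hT hμ g
  have h2 := Measure.map_infinitePi_infinitePi_of_inj (P := fun _ : V => ρ) (f := g) g.injective
  have hm1 : Measurable (fun x : V → Bool => x ∘ g) :=
    measurable_pi_iff.2 fun v => measurable_pi_apply (g v)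
  have hm2 : Measurable (fun (ω : V → ℝ) (i : V) => ω (g i)) :=
    measurable_pi_iff.2 fun v => measurable_pi_apply (g v)
  unfold spinField
  rw [Measure.map_map (eb_meas_comp g) eb_meas_spin]
  have e : (fun q : (V → Bool) × (V → ℝ) => (q.1 ∘ g, q.2 ∘ g)) ∘
        (fun p : (V → Bool) × (V → ℝ) => (p.1, fun v => sg (p.1 v) * p.2 v))
      = (fun p : (V → Bool) × (V → ℝ) => (p.1, fun v => sg (p.1 v) * p.2 v)) ∘
        (Prod.map (fun x : V → Bool => x ∘ g) (fun (ω : V → ℝ) (i : V) => ω (g i))) := rfl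
  rw [e, ← Measure.map_map eb_meas_spin (hm1.prodMap hm2), ← Measure.map_prod_map _ _ hm1 hm2, h1,
    h2]

theorem fieldLaw_aut [Countable V] (hT : G.IsTree) {θ : ℝ} {μ : Measure (V → Bool)}
    [IsProbabilityMeasure μ] (hμ : IsIsing G θ μ) (ρ : Measure ℝ) [IsProbabilityMeasure ρ]
    (g : G ≃g G) : (fieldLaw μ (fun _ => ρ)).map (fun x => x ∘ g) = fieldLaw μ (fun _ => ρ) := by
  have hm2 : Measurable (fun x : V → ℝ => x ∘ g) :=
    measurable_pi_iff.2 fun v => measurable_pi_apply (g v)
  unfold fieldLaw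
  rw [Measure.map_map hm2 measurable_snd]
  conv_rhs => rw [← spinField_aut G hT hμ ρ g]
  rw [Measure.map_map measurable_snd (eb_meas_comp g)]
  rfl

theorem ff_sg (θ : ℝ) (b : Bool) (h : ℝ) : ff θ (sg b * h) = sg b * ff θ h := by
  cases b
  · simp only [sg, Bool.false_eq_true, if_false, neg_one_mul, ff_neg]
  · simp only [sg, if_true, one_mul]

/-- recursion of gauged messages -/
theorem hh_rec {θ : ℝ} (h0 : 0 ≤ θ) (h1 : θ < 1) {q : (V → Bool) × (V → ℝ)} (hx : Good G θ q.2)
    {i j : V} (h : G.Adj i j) : hh G θ q i j = sg (q.1 i) * q.2 i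
      + ∑ c ∈ oth G i j, sg (q.1 c) * sg (q.1 i) * ff θ (hh G θ q c i) := by
  unfold hh
  rw [hl_rec G h0 h1 hx h, mul_add, Finset.mul_sum]
  congr 1
  refine Finset.sum_congr rfl fun c _ => ?_
  rw [ff_sg]
  have := bst_sg_sq (q.1 c)
  calc sg (q.1 i) * ff θ (hl G θ q.2 c i)
      = (sg (q.1 c) * sg (q.1 c)) * (sg (q.1 i) * ff θ (hl G θ q.2 c i)) := by rw [this, one_mul]
    _ = _ := by ring

/-! ### Independence -/

/-- general form: functionals of the branches -/
theorem eb_indep [Countable V] (hT : G.IsTree) {θ : ℝ} (h0 : 0 ≤ θ) (h1 : θ ≤ 1)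
    {μ : Measure (V → Bool)} [IsProbabilityMeasure μ] (hμ : IsIsing G θ μ)
    (ρ : V → Measure ℝ) [∀ v, IsProbabilityMeasure (ρ v)] (i : V) {Y : Type*} [MeasurableSpace Y]
    (T : G.neighborFinset i → (V → ℝ) → Y) (hTm : ∀ c, Measurable (T c))
    (U : G.neighborFinset i → (V → Bool) × (V → ℝ) → Y)
    (hU : ∀ c, ∀ᵐ q ∂(spinField μ ρ), U c q = T c (Xbr G c i q)) :
    (spinField μ ρ).map (fun q => (sg (q.1 i) * q.2 i,
        fun c : G.neighborFinset i => (sg (q.1 c) * sg (q.1 i), U c q)))
      = (ρ i).prod (Measure.pi (fun c : G.neighborFinset i =>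
          (berS θ).prod ((spinField μ ρ).map (U c)))) := by
  have hB := branch_structure G hT h0 h1 hμ ρ i
  have hbp : IsProbabilityMeasure (berS θ) := bst_berS_prob (by linarith) h1
  have hXp : ∀ c : G.neighborFinset i, IsProbabilityMeasure ((spinField μ ρ).map (Xbr G (c : V) i)) :=
    fun c => Measure.isProbabilityMeasure_map (bst_Xbr_meas G _ _).aemeasurable
  have hmB : Measurable (fun q : (V → Bool) × (V → ℝ) => (sg (q.1 i) * q.2 i,
        fun c : G.neighborFinset i => (sg (q.1 c) * sg (q.1 i), Xbr G c i q))) := by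
    refine ((bst_sg_meas.comp ((measurable_pi_apply i).comp measurable_fst)).mul
      ((measurable_pi_apply i).comp measurable_snd)).prodMk (measurable_pi_iff.2 fun c => ?_)
    exact ((bst_sg_meas.comp ((measurable_pi_apply _).comp measurable_fst)).mul
      (bst_sg_meas.comp ((measurable_pi_apply _).comp measurable_fst))).prodMk (bst_Xbr_meas G _ _)
  have hmΨ : Measurable (fun (z : G.neighborFinset i → ℝ × (V → ℝ)) (c : G.neighborFinset i) =>
      ((z c).1, T c (z c).2)) :=
    measurable_pi_iff.2 fun c => (measurable_fst.comp (measurable_pi_apply c)).prodMk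
      ((hTm c).comp (measurable_snd.comp (measurable_pi_apply c)))
  have hae : (fun q : (V → Bool) × (V → ℝ) => (sg (q.1 i) * q.2 i,
        fun c : G.neighborFinset i => (sg (q.1 c) * sg (q.1 i), U c q)))
      =ᵐ[spinField μ ρ] (Prod.map id
        (fun (z : G.neighborFinset i → ℝ × (V → ℝ)) (c : G.neighborFinset i) => ((z c).1, T c (z c).2)))
        ∘ (fun q => (sg (q.1 i) * q.2 i,
          fun c : G.neighborFinset i => (sg (q.1 c) * sg (q.1 i), Xbr G c i q))) := by
    have := ae_all_iff.2 hU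
    filter_upwards [this] with q hq
    simp only [Function.comp_apply, Prod.map_apply, id, Prod.mk.injEq, true_and]
    funext c
    rw [hq c]
  rw [Measure.map_congr hae, ← Measure.map_map (measurable_id.prodMap hmΨ) hmB, hB,
    ← Measure.map_prod_map _ _ measurable_id hmΨ, Measure.map_id]
  congr 1
  have hpi := Measure.pi_map_pi (μ := fun c : G.neighborFinset i =>
      (berS θ).prod ((spinField μ ρ).map (Xbr G (c : V) i)))
    (f := fun c (z : ℝ × (V → ℝ)) => (z.1, T c z.2))
    (fun c => (measurable_fst.prodMk ((hTm c).comp measurable_snd)).aemeasurable)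
  rw [hpi]
  congr 1
  funext c
  have e : (fun z : ℝ × (V → ℝ) => (z.1, T c z.2)) = Prod.map id (T c) := rfl
  rw [e, ← Measure.map_prod_map _ _ measurable_id (hTm c), Measure.map_id,
    Measure.map_map (hTm c) (bst_Xbr_meas G _ _)]
  congr 1
  exact Measure.map_congr (by
    filter_upwards [hU c] with q hq
    exact hq.symm)

theorem adj_of_mem_oth {i j c : V} (h : c ∈ oth G i j) : G.Adj i c := by
  exact ((mem_oth G).1 h).1

theorem al_neg {θ : ℝ} (h0 : 0 ≤ θ) (h1 : θ < 1) {x : V → ℝ} (hx : Good G θ x) {i j : V}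
    (h : G.Adj i j) : al G θ (fun w => -x w) i j = -al G θ x i j := by
  unfold al
  rw [hl_neg G (L := 0) h0 h1 hx h, Real.tanh_neg]

theorem Gs_neg {θ : ℝ} (h0 : 0 ≤ θ) (h1 : θ < 1) {x : V → ℝ} (hx : Good G θ x) (n : ℕ) {i j : V}
    (h : G.Adj i j) : Gs G θ (fun w => -x w) n i j = Gs G θ x n i j := by
  induction n generalizing i j with
  | zero => rfl
  | succ n ih =>
    simp only [Gs]
    congr 2
    refine Finset.sum_congr rfl fun c hc => ?_
    have hci := (adj_of_mem_oth G hc).symm
    rw [ih hci, al_neg G h0 h1 hx hci, neg_sq]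

theorem hl_Xbr (hT : G.IsTree) {θ : ℝ} (h0 : 0 ≤ θ) (h1 : θ < 1) {q : (V → Bool) × (V → ℝ)}
    (hx : Good G θ q.2) {c i : V} (h : G.Adj c i) : hl G θ (Xbr G c i q) c i = hh G θ q c i := by
  have h2 : hl G θ (Xbr G c i q) c i = hl G θ (fun w => sg (q.1 c) * q.2 w) c i := by
    refine hl_congr G hT θ h fun w hw => ?_
    unfold Xbr
    rw [if_pos hw]
  rw [h2]
  unfold hh
  cases hb : q.1 c
  · have e : (fun w => sg false * q.2 w) = fun w => -q.2 w := by
      funext w
      simp [sg]
    rw [e, hl_neg G (L := 0) h0 h1 hx h]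
    simp [sg]
  · have e : (fun w => sg true * q.2 w) = q.2 := by
      funext w
      simp [sg]
    rw [e]
    simp [sg]

theorem Gs_Xbr (hT : G.IsTree) {θ : ℝ} (h0 : 0 ≤ θ) (h1 : θ < 1) {q : (V → Bool) × (V → ℝ)}
    (hx : Good G θ q.2) (n : ℕ) {c i : V} (h : G.Adj c i) :
    Gs G θ (Xbr G c i q) n c i = Gs G θ q.2 n c i := by
  have h2 : Gs G θ (Xbr G c i q) n c i = Gs G θ (fun w => sg (q.1 c) * q.2 w) n c i := by
    refine Gs_congr G hT θ h (fun w hw => ?_) n
    unfold Xbr
    rw [if_pos hw]
  rw [h2]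
  cases hb : q.1 c
  · have e : (fun w => sg false * q.2 w) = fun w => -q.2 w := by
      funext w
      simp [sg]
    rw [e, Gs_neg G h0 h1 hx n h]
  · have e : (fun w => sg true * q.2 w) = q.2 := by
      funext w
      simp [sg]
    rw [e]

theorem spinField_good {θ : ℝ} {μ : Measure (V → Bool)} {ρ : V → Measure ℝ}
    (hgood : ∀ᵐ x ∂(fieldLaw μ ρ), Good G θ x) : ∀ᵐ q ∂(spinField μ ρ), Good G θ q.2 :=
  ae_of_ae_map measurable_snd.aemeasurable hgood

/-- the messages into `i` are independent (general, inhomogeneous channels); `Gs` is carried along -/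
theorem hh_indep [Countable V] (hT : G.IsTree) {θ : ℝ} (h0 : 0 ≤ θ) (h1 : θ < 1)
    {μ : Measure (V → Bool)} [IsProbabilityMeasure μ] (hμ : IsIsing G θ μ)
    (ρ : V → Measure ℝ) [∀ v, IsProbabilityMeasure (ρ v)]
    (hgood : ∀ᵐ x ∂(fieldLaw μ ρ), Good G θ x) (i : V) (n : ℕ) :
    (spinField μ ρ).map (fun q => (sg (q.1 i) * q.2 i,
        fun c : G.neighborFinset i => (sg (q.1 c) * sg (q.1 i), (hh G θ q c i, Gs G θ q.2 n c i))))
      = (ρ i).prod (Measure.pi (fun c : G.neighborFinset i =>
          (berS θ).prod ((spinField μ ρ).map (fun q => (hh G θ q c i, Gs G θ q.2 n c i))))) := by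
  refine eb_indep G hT h0 h1.le hμ ρ i (fun c x => (hl G θ x c i, Gs G θ x n c i))
    (fun c => (measurable_hl G θ _ _).prodMk (measurable_Gs G θ _ _ _))
    (fun c q => (hh G θ q c i, Gs G θ q.2 n c i)) (fun c => ?_)
  have hadj : G.Adj (c : V) i := ((SimpleGraph.mem_neighborFinset _ _ _).1 c.2).symm
  filter_upwards [spinField_good G hgood] with q hq
  rw [hl_Xbr G hT h0 h1 hq hadj, Gs_Xbr G hT h0 h1 hq n hadj]

theorem measurable_hh (θ : ℝ) (i j : V) :
    Measurable (fun q : (V → Bool) × (V → ℝ) => hh G θ q i j) :=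
  (bst_sg_meas.comp ((measurable_pi_apply i).comp measurable_fst)).mul
    ((measurable_hl G θ i j).comp measurable_snd)

/-- the law of (message, Gs) does not depend on the directed edge -/
theorem hh_law [Countable V] (hT : G.IsTree) {d : ℕ} (hd : 2 ≤ d) (hreg : G.IsRegularOfDegree d)
    {θ : ℝ} {μ : Measure (V → Bool)} [IsProbabilityMeasure μ] (hμ : IsIsing G θ μ)
    (ρ : Measure ℝ) [IsProbabilityMeasure ρ] {i j i' j' : V} (h : G.Adj i j) (h' : G.Adj i' j') (n : ℕ) :
    (spinField μ (fun _ => ρ)).map (fun q => (hh G θ q i j, Gs G θ q.2 n i j))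
      = (spinField μ (fun _ => ρ)).map (fun q => (hh G θ q i' j', Gs G θ q.2 n i' j')) := by
  classical
  obtain ⟨g, hg⟩ := exists_aut_path G hT hd hreg (fun k => if k = 0 then i else j)
    (fun k => if k = 0 then i' else j') 1
    ⟨fun k hk => by
      have : k = 0 := by omega
      subst this
      simpa using h, fun k hk => by omega⟩
    ⟨fun k hk => by
      have : k = 0 := by omega
      subst this
      simpa using h', fun k hk => by omega⟩
  have hi : g i = i' := by simpa using hg 0 (by omega)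
  have hj : g j = j' := by simpa using hg 1 le_rfl
  have hm : Measurable (fun q : (V → Bool) × (V → ℝ) => (hh G θ q i j, Gs G θ q.2 n i j)) :=
    (measurable_hh G θ i j).prodMk ((measurable_Gs G θ n i j).comp measurable_snd)
  conv_lhs => rw [← spinField_aut G hT hμ ρ g]
  rw [Measure.map_map hm (eb_meas_comp g)]
  congr 1
  funext q
  simp only [Function.comp_apply, hh, hl_aut, Gs_aut, hi, hj]

/-! ### Nishimori identity -/

/-- Nishimori identity of a random variable -/
def NishF {Ω : Type*} [MeasurableSpace Ω] (P : Measure Ω) (Y : Ω → ℝ) : Prop :=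
  ∀ g : ℝ → ℝ≥0∞, Measurable g → ∫⁻ ω, g (-(Y ω)) ∂P
    = ∫⁻ ω, g (Y ω) * ENNReal.ofReal (Real.exp (-(2 * Y ω))) ∂P

theorem measurable_expE : Measurable (fun x : ℝ => ENNReal.ofReal (Real.exp (-(2 * x)))) := by
  fun_prop

theorem nishF_map {Ω : Type*} [MeasurableSpace Ω] {P : Measure Ω} {Y : Ω → ℝ} (hY : Measurable Y)
    {f : ℝ → ℝ} (hf : Measurable f) : NishF (P.map Y) f ↔ NishF P (fun ω => f (Y ω)) := by
  unfold NishF
  refine forall_congr' fun g => forall_congr' fun hg => ?_
  have hm1 : Measurable (fun x => g (-(f x))) := hg.comp hf.neg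
  have hm2 : Measurable (fun x => g (f x) * ENNReal.ofReal (Real.exp (-(2 * f x)))) :=
    (hg.comp hf).mul (measurable_expE.comp hf)
  rw [lintegral_map hm1 hY, lintegral_map hm2 hY]

theorem nishF_map' {Ω Ω' : Type*} [MeasurableSpace Ω] [MeasurableSpace Ω'] {P : Measure Ω}
    {Y : Ω → Ω'} (hY : Measurable Y) {f : Ω' → ℝ} (hf : Measurable f) :
    NishF (P.map Y) f ↔ NishF P (fun ω => f (Y ω)) := by
  unfold NishF
  refine forall_congr' fun g => forall_congr' fun hg => ?_
  have hm1 : Measurable (fun x => g (-(f x))) := hg.comp hf.neg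
  have hm2 : Measurable (fun x => g (f x) * ENNReal.ofReal (Real.exp (-(2 * f x)))) :=
    (hg.comp hf).mul (measurable_expE.comp hf)
  rw [lintegral_map hm1 hY, lintegral_map hm2 hY]

theorem nishF_zero {Ω : Type*} [MeasurableSpace Ω] (P : Measure Ω) : NishF P (fun _ => 0) := by
  intro g _
  simp

theorem nishF_prod {Ω Ω' : Type*} [MeasurableSpace Ω] [MeasurableSpace Ω'] {α : Measure Ω}
    {β : Measure Ω'} [SFinite α] [SFinite β] {f : Ω → ℝ} {k : Ω' → ℝ} (hf : Measurable f)
    (hk : Measurable k) (h1 : NishF α f) (h2 : NishF β k) :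
    NishF (α.prod β) (fun z => f z.1 + k z.2) := by
  intro g hg
  have hm1 : Measurable (fun z : Ω × Ω' => g (-(f z.1 + k z.2))) := by fun_prop
  have hm2 : Measurable (fun z : Ω × Ω' => g (-(f z.1) + k z.2)
      * ENNReal.ofReal (Real.exp (-(2 * k z.2)))) := by fun_prop
  have hm3 : Measurable (fun z : Ω × Ω' => g (f z.1 + k z.2)
      * ENNReal.ofReal (Real.exp (-(2 * (f z.1 + k z.2))))) := by fun_prop
  calc ∫⁻ z, g (-(f z.1 + k z.2)) ∂(α.prod β)
      = ∫⁻ x, ∫⁻ y, g (-(f x + k y)) ∂β ∂α := lintegral_prod _ hm1.aemeasurable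
    _ = ∫⁻ x, ∫⁻ y, g (-(f x) + k y) * ENNReal.ofReal (Real.exp (-(2 * k y))) ∂β ∂α := by
        refine lintegral_congr fun x => ?_
        have := h2 (fun u => g (-(f x) + u)) (by fun_prop)
        rw [← this]
        refine lintegral_congr fun y => ?_
        congr 1
        ring
    _ = ∫⁻ y, ∫⁻ x, g (-(f x) + k y) * ENNReal.ofReal (Real.exp (-(2 * k y))) ∂α ∂β :=
        lintegral_lintegral_swap hm2.aemeasurable
    _ = ∫⁻ y, ∫⁻ x, g (f x + k y) * ENNReal.ofReal (Real.exp (-(2 * (f x + k y)))) ∂α ∂β := by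
        refine lintegral_congr fun y => ?_
        have := h1 (fun u => g (u + k y)) (by fun_prop)
        rw [lintegral_mul_const _ (by fun_prop), this, ← lintegral_mul_const _ (by fun_prop)]
        refine lintegral_congr fun x => ?_
        rw [mul_assoc, ← ENNReal.ofReal_mul (Real.exp_nonneg _), ← Real.exp_add]
        congr 3
        ring
    _ = ∫⁻ z, g (f z.1 + k z.2) * ENNReal.ofReal (Real.exp (-(2 * (f z.1 + k z.2)))) ∂(α.prod β) := by
        rw [lintegral_prod_symm _ hm3.aemeasurable]

theorem nishF_add {Ω : Type*} [MeasurableSpace Ω] {P : Measure Ω} [IsProbabilityMeasure P]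
    {Y Z : Ω → ℝ} (hY : Measurable Y) (hZ : Measurable Z) (hi : IndepFun Y Z P)
    (h1 : NishF P Y) (h2 : NishF P Z) : NishF P (fun ω => Y ω + Z ω) := by
  have hpY : IsProbabilityMeasure (P.map Y) := Measure.isProbabilityMeasure_map hY.aemeasurable
  have hpZ : IsProbabilityMeasure (P.map Z) := Measure.isProbabilityMeasure_map hZ.aemeasurable
  have h1' : NishF (P.map Y) (fun x => x) := (nishF_map hY measurable_id).2 h1
  have h2' : NishF (P.map Z) (fun x => x) := (nishF_map hZ measurable_id).2 h2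
  have h3 := nishF_prod measurable_id measurable_id h1' h2'
  rw [← (indepFun_iff_map_prod_eq_prod_map_map hY.aemeasurable hZ.aemeasurable).1 hi] at h3
  exact (nishF_map' (hY.prodMk hZ) (by fun_prop)).1 h3

theorem nishF_sum {Ω ι : Type*} [MeasurableSpace Ω] {P : Measure Ω} [IsProbabilityMeasure P]
    {Y : ι → Ω → ℝ} (hY : ∀ i, Measurable (Y i)) (hi : iIndepFun Y P) (h : ∀ i, NishF P (Y i))
    (A : Finset ι) : NishF P (fun ω => ∑ i ∈ A, Y i ω) := by
  classical
  induction A using Finset.induction_on with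
  | empty => simpa using nishF_zero P
  | insert a A ha ih =>
    have h1 := hi.indepFun_finsetSum_of_notMem hY ha
    have e : (fun ω => ∑ i ∈ A, Y i ω) = ∑ j ∈ A, Y j := by
      funext ω
      rw [Finset.sum_apply]
    rw [← e] at h1
    have h2 := nishF_add (Finset.measurable_sum A fun i _ => hY i) (hY a) h1 ih (h a)
    convert h2 using 1
    funext ω
    rw [Finset.sum_insert ha, add_comm]

theorem exp_ff {θ : ℝ} (h0 : 0 ≤ θ) (h1 : θ < 1) (h : ℝ) :
    (1 + θ) / 2 * Real.exp (-(2 * h)) + (1 - θ) / 2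
      = Real.exp (-(2 * ff θ h)) * ((1 + θ) / 2 + (1 - θ) / 2 * Real.exp (-(2 * h))) := by
  have key : ∀ x : ℝ, Real.tanh x * (1 + Real.exp (-(2 * x))) = 1 - Real.exp (-(2 * x)) := by
    intro x
    rw [Real.tanh_eq_sinh_div_cosh, Real.sinh_eq, Real.cosh_eq]
    have e1 : Real.exp (-(2 * x)) = Real.exp (-x) / Real.exp x := by
      rw [← Real.exp_sub]
      congr 1
      ring
    have hp := Real.exp_pos x
    have hn := Real.exp_pos (-x)
    rw [e1]
    field_simp
  have k1 := key h
  have k2 := key (ff θ h)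
  rw [tanh_ff h0 h1] at k2
  set u := Real.exp (-(2 * h))
  set w := Real.exp (-(2 * ff θ h))
  have hu : 0 < 1 + u := by
    have := Real.exp_pos (-(2 * h))
    positivity
  have k3 : θ * (1 - u) * (1 + w) = (1 - w) * (1 + u) := by
    rw [← k1, ← k2]
    ring
  linarith [k3]

theorem nishF_edge {θ : ℝ} (h0 : 0 ≤ θ) (h1 : θ < 1) {ν : Measure ℝ} [IsProbabilityMeasure ν]
    (hν : NishF ν (fun x => x)) : NishF ((berS θ).prod ν) (fun z => z.1 * ff θ z.2) := by
  intro g hg
  have hff := measurable_ff θ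
  have hbp : IsProbabilityMeasure (berS θ) := bst_berS_prob (by linarith) h1.le
  have hber : ∀ F : ℝ → ℝ≥0∞, ∫⁻ e, F e ∂(berS θ)
      = ENNReal.ofReal ((1 + θ) / 2) * F 1 + ENNReal.ofReal ((1 - θ) / 2) * F (-1) := by
    intro F
    unfold berS
    rw [lintegral_add_measure, lintegral_smul_measure, lintegral_smul_measure, lintegral_dirac,
      lintegral_dirac]
    rfl
  rw [lintegral_prod _ (by fun_prop), lintegral_prod _ (by fun_prop), hber, hber]
  simp only [one_mul, neg_mul, neg_neg]
  have e1 : ∫⁻ y, g (-ff θ y) ∂ν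
      = ∫⁻ y, g (ff θ y) * ENNReal.ofReal (Real.exp (-(2 * y))) ∂ν := by
    have := hν (fun x => g (ff θ x)) (by fun_prop)
    rw [← this]
    simp only [ff_neg]
  have e2 : ∫⁻ y, g (-ff θ y) * ENNReal.ofReal (Real.exp (-(2 * -ff θ y))) ∂ν
      = ∫⁻ y, g (ff θ y) * ENNReal.ofReal (Real.exp (-(2 * ff θ y)))
          * ENNReal.ofReal (Real.exp (-(2 * y))) ∂ν := by
    have := hν (fun x => g (ff θ x) * ENNReal.ofReal (Real.exp (-(2 * ff θ x)))) (by fun_prop)
    rw [← this]
    simp only [ff_neg]
  rw [e1, e2, ← lintegral_const_mul _ (by fun_prop), ← lintegral_const_mul _ (by fun_prop),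
    ← lintegral_const_mul _ (by fun_prop), ← lintegral_const_mul _ (by fun_prop),
    ← lintegral_add_left (by fun_prop), ← lintegral_add_left (by fun_prop)]
  refine lintegral_congr fun y => ?_
  have key := exp_ff h0 h1 y
  have hk : ENNReal.ofReal ((1 + θ) / 2) * ENNReal.ofReal (Real.exp (-(2 * y)))
        + ENNReal.ofReal ((1 - θ) / 2)
      = ENNReal.ofReal (Real.exp (-(2 * ff θ y))) * (ENNReal.ofReal ((1 + θ) / 2)
        + ENNReal.ofReal ((1 - θ) / 2) * ENNReal.ofReal (Real.exp (-(2 * y)))) := by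
    rw [← ENNReal.ofReal_mul (by linarith), ← ENNReal.ofReal_mul (by linarith),
      ← ENNReal.ofReal_add (by have := Real.exp_pos (-(2 * y)); have : 0 ≤ (1 + θ) / 2 := by linarith
                               positivity) (by linarith),
      ← ENNReal.ofReal_add (by linarith) (by have : 0 ≤ (1 - θ) / 2 := by linarith
                                             positivity),
      ← ENNReal.ofReal_mul (Real.exp_nonneg _), key]
  calc ENNReal.ofReal ((1 + θ) / 2) * (g (ff θ y) * ENNReal.ofReal (Real.exp (-(2 * y))))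
        + ENNReal.ofReal ((1 - θ) / 2) * g (ff θ y)
      = g (ff θ y) * (ENNReal.ofReal ((1 + θ) / 2) * ENNReal.ofReal (Real.exp (-(2 * y)))
        + ENNReal.ofReal ((1 - θ) / 2)) := by ring
    _ = _ := by
        rw [hk]
        ring

theorem msg_sg (θ : ℝ) (b : Bool) (x : V → ℝ) (n : ℕ) (i j : V) :
    msg G θ (fun w => sg b * x w) n i j = sg b * msg G θ x n i j := by
  cases b
  · have e : (fun w => sg false * x w) = fun w => -x w := by
      funext w
      simp [sg]
    rw [e, msg_neg]
    simp [sg]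
  · have e : (fun w => sg true * x w) = x := by
      funext w
      simp [sg]
    rw [e]
    simp [sg]

theorem nish_msg [Countable V] (hT : G.IsTree) {θ : ℝ} (h0 : 0 ≤ θ) (h1 : θ < 1)
    {μ : Measure (V → Bool)} [IsProbabilityMeasure μ] (hμ : IsIsing G θ μ) {ρ : V → Measure ℝ}
    [∀ v, IsProbabilityMeasure (ρ v)] (hρ : ∀ v, NishF (ρ v) (fun x => x)) (n : ℕ) {i j : V}
    (h : G.Adj i j) : NishF (spinField μ ρ) (fun q => sg (q.1 i) * msg G θ q.2 n i j) := by
  classical
  induction n generalizing i j with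
  | zero =>
    have : (fun q : (V → Bool) × (V → ℝ) => sg (q.1 i) * msg G θ q.2 0 i j) = fun _ => 0 := by
      funext q
      simp [msg]
    rw [this]
    exact nishF_zero _
  | succ n ih =>
    have hadj : ∀ c : G.neighborFinset i, G.Adj (c : V) i := fun c =>
      ((SimpleGraph.mem_neighborFinset _ _ _).1 c.2).symm
    have hmU : ∀ c : G.neighborFinset i, Measurable (fun q : (V → Bool) × (V → ℝ) =>
        sg (q.1 (c : V)) * msg G θ q.2 n (c : V) i) := fun c =>
      (bst_sg_meas.comp ((measurable_pi_apply _).comp measurable_fst)).mul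
        ((measurable_msg G θ n _ _).comp measurable_snd)
    have hlaw := eb_indep G hT h0 h1.le hμ ρ i (fun c x => msg G θ x n (c : V) i)
      (fun c => measurable_msg G θ n _ _)
      (fun c q => sg (q.1 (c : V)) * msg G θ q.2 n (c : V) i) (fun c => by
        refine Filter.Eventually.of_forall fun q => ?_
        have e : msg G θ (Xbr G (c : V) i q) n (c : V) i
            = msg G θ (fun w => sg (q.1 (c : V)) * q.2 w) n (c : V) i := by
          refine msg_congr G hT θ (hadj c) (fun w hw => ?_) n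
          unfold Xbr
          rw [if_pos hw]
        show sg (q.1 (c : V)) * msg G θ q.2 n (c : V) i = msg G θ (Xbr G (c : V) i q) n (c : V) i
        rw [e, msg_sg])
    set κ : G.neighborFinset i → Measure (ℝ × ℝ) := fun c => (berS θ).prod
      ((spinField μ ρ).map (fun q => sg (q.1 (c : V)) * msg G θ q.2 n (c : V) i)) with hκ
    have hbp : IsProbabilityMeasure (berS θ) := bst_berS_prob (by linarith) h1.le
    have hUp : ∀ c : G.neighborFinset i, IsProbabilityMeasure
        ((spinField μ ρ).map (fun q => sg (q.1 (c : V)) * msg G θ q.2 n (c : V) i)) :=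
      fun c => Measure.isProbabilityMeasure_map (hmU c).aemeasurable
    have hκp : ∀ c, IsProbabilityMeasure (κ c) := fun c => by
      rw [hκ]
      infer_instance
    -- the edge terms
    let E : G.neighborFinset i → ℝ × ℝ → ℝ := fun c z => if (c : V) = j then 0 else z.1 * ff θ z.2
    have hff := measurable_ff θ
    have hEm : ∀ c, Measurable (E c) := by
      intro c
      by_cases hc : (c : V) = j
      · simp only [E, if_pos hc]
        exact measurable_const
      · simp only [E, if_neg hc]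
        fun_prop
    have hEn : ∀ c, NishF (κ c) (E c) := by
      intro c
      by_cases hc : (c : V) = j
      · simp only [E, if_pos hc]
        exact nishF_zero _
      · simp only [E, if_neg hc]
        exact nishF_edge h0 h1 ((nishF_map (hmU c) measurable_id).2 (ih (hadj c)))
    have hsum : NishF (Measure.pi κ) (fun z => ∑ c, E c (z c)) := by
      have hi := iIndepFun_pi (μ := κ) (X := E) (fun c => (hEm c).aemeasurable)
      refine nishF_sum (fun c => (hEm c).comp (measurable_pi_apply c)) hi (fun c => ?_) Finset.univ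
      have h5 : NishF ((Measure.pi κ).map (Function.eval c)) (E c) := by
        rw [(measurePreserving_eval κ c).map_eq]
        exact hEn c
      exact (nishF_map' (measurable_pi_apply c) (hEm c)).1 h5
    have hmsum : Measurable (fun z : G.neighborFinset i → ℝ × ℝ => ∑ c, E c (z c)) :=
      Finset.measurable_sum _ fun c _ => (hEm c).comp (measurable_pi_apply c)
    have hQ := nishF_prod measurable_id hmsum (hρ i) hsum
    rw [← hlaw] at hQ
    have hmΛ : Measurable (fun q : (V → Bool) × (V → ℝ) => (sg (q.1 i) * q.2 i,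
        fun c : G.neighborFinset i => (sg (q.1 c) * sg (q.1 i),
          sg (q.1 (c : V)) * msg G θ q.2 n (c : V) i))) := by
      refine ((bst_sg_meas.comp ((measurable_pi_apply i).comp measurable_fst)).mul
        ((measurable_pi_apply i).comp measurable_snd)).prodMk (measurable_pi_iff.2 fun c => ?_)
      exact ((bst_sg_meas.comp ((measurable_pi_apply _).comp measurable_fst)).mul
        (bst_sg_meas.comp ((measurable_pi_apply _).comp measurable_fst))).prodMk (hmU c)
    have hfin := (nishF_map' hmΛ ((measurable_id.comp measurable_fst).add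
      (hmsum.comp measurable_snd))).1 hQ
    convert hfin using 1
    funext q
    simp only [msg, E, Function.comp_apply, Pi.add_apply, id]
    rw [mul_add, Finset.mul_sum]
    congr 1
    rw [Finset.sum_coe_sort (G.neighborFinset i) (fun c => if c = j then 0 else
      sg (q.1 c) * sg (q.1 i) * ff θ (sg (q.1 c) * msg G θ q.2 n c i))]
    have hoth : oth G i j = (G.neighborFinset i).filter (fun c => ¬ c = j) := by
      ext c
      rw [mem_oth, Finset.mem_filter, SimpleGraph.mem_neighborFinset]
    rw [hoth, Finset.sum_filter]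
    refine Finset.sum_congr rfl fun c _ => ?_
    by_cases hc : c = j
    · simp [hc]
    · simp only [hc, not_false_eq_true, if_true, if_false]
      rw [ff_sg]
      have := bst_sg_sq (q.1 c)
      calc sg (q.1 i) * ff θ (msg G θ q.2 n c i)
          = (sg (q.1 c) * sg (q.1 c)) * (sg (q.1 i) * ff θ (msg G θ q.2 n c i)) := by
            rw [this, one_mul]
        _ = _ := by ring

theorem nishF_of_chan {ρ : Measure ℝ} {L : ℝ} (h : Chan ρ L) : NishF ρ (fun x => x) := by
  intro g hg
  have h1 := h.nishi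
  have h2 : ∫⁻ x, g x ∂(ρ.map (fun x => -x)) = ∫⁻ x, g (-x) ∂ρ := lintegral_map hg measurable_neg
  rw [← h2, h1, lintegral_withDensity_eq_lintegral_mul _ measurable_expE hg]
  refine lintegral_congr fun x => ?_
  simp only [Pi.mul_apply]
  rw [mul_comm]

/-- Nishimori identity for the messages -/
theorem hh_nishi [Countable V] (hT : G.IsTree) {d : ℕ} (hreg : G.IsRegularOfDegree d)
    {θ : ℝ} (h0 : 0 ≤ θ) (h1 : θ < 1) {μ : Measure (V → Bool)} [IsProbabilityMeasure μ]
    (hμ : IsIsing G θ μ) {ρ : V → Measure ℝ} {L : ℝ} (hρ : ∀ v, Chan (ρ v) L)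
    (hgood : ∀ᵐ x ∂(fieldLaw μ ρ), Good G θ x) {i j : V} (h : G.Adj i j)
    (g : ℝ → ℝ) (hg : Measurable g) (hb : ∃ C, ∀ a, |g a| ≤ C) :
    ∫ q, g (-(hh G θ q i j)) ∂(spinField μ ρ)
      = ∫ q, g (hh G θ q i j) * Real.exp (-(2 * hh G θ q i j)) ∂(spinField μ ρ) := by
  have hρp := fun v => (hρ v).prob
  set P := spinField μ ρ with hP
  have hmh := measurable_hh G θ i j
  have hmh' : Measurable (fun q : (V → Bool) × (V → ℝ) => -(hh G θ q i j)) := hmh.neg
  set B : ℝ := L + d * Real.artanh θ with hB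
  have hbd : ∀ᵐ q ∂P, ∀ n, |sg (q.1 i) * msg G θ q.2 n i j| ≤ B := by
    filter_upwards [spinField_bdd hρ] with q hq n
    rw [abs_mul, abs_sg, one_mul]
    exact msg_bound G h0 h1 hreg hq n i j
  have hconv : ∀ᵐ q ∂P, Tendsto (fun n => sg (q.1 i) * msg G θ q.2 n i j) atTop
      (𝓝 (hh G θ q i j)) := by
    filter_upwards [spinField_good G hgood] with q hq
    exact (hq i j h).const_mul _
  have hmn : ∀ n, Measurable (fun q : (V → Bool) × (V → ℝ) => sg (q.1 i) * msg G θ q.2 n i j) :=
    fun n => (bst_sg_meas.comp ((measurable_pi_apply _).comp measurable_fst)).mul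
        ((measurable_msg G θ n _ _).comp measurable_snd)
  -- identity for bounded continuous functions
  have hcont : ∀ f : BoundedContinuousFunction ℝ NNReal, ∫⁻ q, (f (-(hh G θ q i j)) : ℝ≥0∞) ∂P
      = ∫⁻ q, (f (hh G θ q i j) : ℝ≥0∞) * ENNReal.ofReal (Real.exp (-(2 * hh G θ q i j))) ∂P := by
    intro f
    have hfm : Measurable (fun x : ℝ => (f x : ℝ≥0∞)) :=
      measurable_coe_nnreal_ennreal.comp f.continuous.measurable
    have hfc : Continuous (fun x : ℝ => (f x : ℝ≥0∞)) :=
      ENNReal.continuous_coe.comp f.continuous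
    have hfb : ∀ x, (f x : ℝ≥0∞) ≤ (nndist f 0 : ℝ≥0∞) := by
      intro x
      exact ENNReal.coe_le_coe.2 (BoundedContinuousFunction.NNReal.upper_bound f x)
    have hL := tendsto_lintegral_of_dominated_convergence (μ := P)
      (F := fun n q => (f (-(sg (q.1 i) * msg G θ q.2 n i j)) : ℝ≥0∞))
      (f := fun q => (f (-(hh G θ q i j)) : ℝ≥0∞)) (fun _ => (nndist f 0 : ℝ≥0∞))
      (fun n => hfm.comp (hmn n).neg) (fun n => Filter.Eventually.of_forall fun q => hfb _)
      (by simp) (by
        filter_upwards [hconv] with q hq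
        exact (hfc.tendsto _).comp hq.neg)
    have hR := tendsto_lintegral_of_dominated_convergence (μ := P)
      (F := fun n q => (f (sg (q.1 i) * msg G θ q.2 n i j) : ℝ≥0∞)
        * ENNReal.ofReal (Real.exp (-(2 * (sg (q.1 i) * msg G θ q.2 n i j)))))
      (f := fun q => (f (hh G θ q i j) : ℝ≥0∞) * ENNReal.ofReal (Real.exp (-(2 * hh G θ q i j))))
      (fun _ => (nndist f 0 : ℝ≥0∞) * ENNReal.ofReal (Real.exp (2 * B)))
      (fun n => (hfm.comp (hmn n)).mul (measurable_expE.comp (hmn n))) (fun n => by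
        filter_upwards [hbd] with q hq
        refine mul_le_mul' (hfb _) (ENNReal.ofReal_le_ofReal (Real.exp_le_exp.2 ?_))
        have := (abs_le.1 (hq n)).1
        linarith)
      (by
        simp only [lintegral_const, measure_univ, mul_one]
        exact ENNReal.mul_ne_top ENNReal.coe_ne_top ENNReal.ofReal_ne_top) (by
        filter_upwards [hconv] with q hq
        have hc2 : Continuous (fun x : ℝ => Real.exp (-(2 * x))) := by fun_prop
        refine ENNReal.Tendsto.mul ((hfc.tendsto _).comp hq) (Or.inr ENNReal.ofReal_ne_top)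
          (ENNReal.tendsto_ofReal ((hc2.tendsto _).comp hq)) (Or.inr ENNReal.coe_ne_top))
    refine tendsto_nhds_unique hL ?_
    refine hR.congr fun n => ?_
    exact (nish_msg G hT h0 h1 hμ (fun v => nishF_of_chan (hρ v)) n h (fun x => (f x : ℝ≥0∞)) hfm).symm
  -- equality of measures
  set m1 := P.map (fun q => -(hh G θ q i j)) with hm1
  set m2 := (P.map (fun q => hh G θ q i j)).withDensity
    (fun x => ENNReal.ofReal (Real.exp (-(2 * x)))) with hm2
  have hm1p : IsProbabilityMeasure m1 := Measure.isProbabilityMeasure_map hmh'.aemeasurable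
  have hl2 : ∀ f : ℝ → ℝ≥0∞, Measurable f → ∫⁻ x, f x ∂m2
      = ∫⁻ q, f (hh G θ q i j) * ENNReal.ofReal (Real.exp (-(2 * hh G θ q i j))) ∂P := by
    intro f hf
    rw [hm2, lintegral_withDensity_eq_lintegral_mul _ measurable_expE hf,
      lintegral_map (measurable_expE.mul hf) hmh]
    refine lintegral_congr fun q => ?_
    simp only [Pi.mul_apply]
    rw [mul_comm]
  have hm2p : IsFiniteMeasure m2 := by
    refine ⟨?_⟩
    have e1 := hl2 (fun _ => 1) measurable_const
    have e2 := hcont 1
    simp only [lintegral_const, one_mul] at e1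
    rw [e1]
    have e3 : ∫⁻ q, ENNReal.ofReal (Real.exp (-(2 * hh G θ q i j))) ∂P = 1 := by
      have : ∫⁻ q, ((1 : BoundedContinuousFunction ℝ NNReal) (-(hh G θ q i j)) : ℝ≥0∞) ∂P = 1 := by
        simp
      rw [← this, e2]
      refine lintegral_congr fun q => ?_
      simp
    rw [e3]
    exact ENNReal.one_lt_top
  have hmm : m1 = m2 := by
    refine ext_of_forall_lintegral_eq_of_IsFiniteMeasure fun f => ?_
    have hfm : Measurable (fun x : ℝ => (f x : ℝ≥0∞)) :=
      measurable_coe_nnreal_ennreal.comp f.continuous.measurable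
    rw [hl2 _ hfm, ← hcont f, hm1, lintegral_map hfm hmh']
  have e1 : ∫ q, g (-(hh G θ q i j)) ∂P = ∫ x, g x ∂m1 := by
    rw [hm1, integral_map hmh'.aemeasurable hg.aestronglyMeasurable]
  rw [e1, hmm, hm2, integral_withDensity_eq_integral_toReal_smul measurable_expE
    (Filter.Eventually.of_forall fun x => ENNReal.ofReal_lt_top),
    integral_map hmh.aemeasurable (by
      have : Measurable (fun x : ℝ => (ENNReal.ofReal (Real.exp (-(2 * x)))).toReal • g x) :=
        measurable_expE.ennreal_toReal.smul hg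
      exact this.aestronglyMeasurable)]
  refine integral_congr_ae (Filter.Eventually.of_forall fun q => ?_)
  simp only [smul_eq_mul]
  rw [ENNReal.toReal_ofReal (Real.exp_nonneg _), mul_comm]

end Crest.Agent.FI
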