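import Mathlib
import Crest.Agent.FI.Defs
import Crest.Agent.FI.TreeAut
import Crest.Agent.FI.Branch
import Crest.Agent.FI.BST
import Crest.Agent.FI.Alg
import Crest.Agent.FI.EnvBase

set_option autoImplicit false
set_option linter.unusedSectionVars false

namespace Crest.Agent.FI

open MeasureTheory ProbabilityTheory Set Filter Topology
open scoped ENNReal

variable {V : Type*} (G : SimpleGraph V) [G.LocallyFinite]

/-- average of a function of the messages over the descendants at depth `m` -/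
noncomputable def Av (D : ℕ) (F : ℝ → ℝ) (θ : ℝ) (x : V → ℝ) : ℕ → V → V → ℝ
  | 0, i, j => F (al G θ x i j)
  | m + 1, i, j => (1 / (D : ℝ)) * ∑ c ∈ oth G i j, Av D F θ x m c i

lemma ev_card_oth {d : ℕ} (hreg : G.IsRegularOfDegree d) {i j : V} (h : G.Adj i j) :
    (oth G i j).card + 1 = d := by
  classical
  have e : insert j (oth G i j) = G.neighborFinset i := by
    ext c
    rw [Finset.mem_insert, mem_oth, SimpleGraph.mem_neighborFinset]
    constructor
    · rintro (rfl | h1)
      · exact h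
      · exact h1.1
    · intro h1
      by_cases hc : c = j
      · exact Or.inl hc
      · exact Or.inr ⟨h1, hc⟩
  have hne : j ∉ oth G i j := by rw [mem_oth]; simp
  rw [← hreg i, ← SimpleGraph.card_neighborFinset_eq_degree, ← e, Finset.card_insert_of_notMem hne]

lemma Av_congr (hT : G.IsTree) (D : ℕ) (F : ℝ → ℝ) (θ : ℝ) {x x' : V → ℝ} (m : ℕ) :
    ∀ {i j : V}, G.Adj i j → (∀ w ∈ brn G i j, x w = x' w) →
      Av G D F θ x m i j = Av G D F θ x' m i j := by
  induction m with
  | zero => intro i j h hx; simp only [Av]; rw [al_congr G hT θ h hx]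
  | succ m ih =>
    intro i j h hx
    simp only [Av]
    congr 1
    refine Finset.sum_congr rfl fun c hc => ?_
    have hc' := (mem_oth G).1 hc
    refine ih hc'.1.symm fun w hw => hx w ?_
    rw [mem_brn_iff G hT h]
    exact Or.inr ⟨c, hc, hw⟩

lemma ev_al_neg {θ : ℝ} (h0 : 0 ≤ θ) (h1 : θ < 1) {x : V → ℝ} (hx : Good G θ x)
    {i j : V} (h : G.Adj i j) : al G θ (fun w => -x w) i j = -al G θ x i j := by
  unfold al
  rw [hl_neg G (L := 0) h0 h1 hx h, Real.tanh_neg]

lemma Av_neg {D : ℕ} {F : ℝ → ℝ} (heven : ∀ a, F (-a) = F a) {θ : ℝ} (h0 : 0 ≤ θ) (h1 : θ < 1)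
    {x : V → ℝ} (hx : Good G θ x) (m : ℕ) :
    ∀ {i j : V}, G.Adj i j → Av G D F θ (fun w => -x w) m i j = Av G D F θ x m i j := by
  induction m with
  | zero => intro i j h; simp only [Av]; rw [ev_al_neg G h0 h1 hx h, heven]
  | succ m ih =>
    intro i j h
    simp only [Av]
    congr 1
    refine Finset.sum_congr rfl fun c hc => ?_
    exact ih ((mem_oth G).1 hc).1.symm

lemma Av_Xbr (hT : G.IsTree) {D : ℕ} {F : ℝ → ℝ} (heven : ∀ a, F (-a) = F a) {θ : ℝ} (h0 : 0 ≤ θ)
    (h1 : θ < 1) {q : (V → Bool) × (V → ℝ)} (hx : Good G θ q.2) (m : ℕ) {c i : V} (h : G.Adj c i) :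
    Av G D F θ q.2 m c i = Av G D F θ (Xbr G c i q) m c i := by
  have e : Av G D F θ (Xbr G c i q) m c i = Av G D F θ (fun w => sg (q.1 c) * q.2 w) m c i := by
    refine Av_congr G hT D F θ m h fun w hw => ?_
    unfold Xbr
    rw [if_pos hw]
  rw [e]
  cases hq : q.1 c
  · have : (fun w => sg false * q.2 w) = fun w => -q.2 w := by
      funext w; simp [sg]
    rw [this, Av_neg G heven h0 h1 hx m h]
  · have : (fun w => sg true * q.2 w) = q.2 := by
      funext w; simp [sg]
    rw [this]

lemma measurable_Av {F : ℝ → ℝ} (hF : Measurable F) (D : ℕ) (θ : ℝ) (m : ℕ) :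
    ∀ i j : V, Measurable (fun x : V → ℝ => Av G D F θ x m i j) := by
  induction m with
  | zero => intro i j; simp only [Av]; exact hF.comp (measurable_al G θ i j)
  | succ m ih =>
    intro i j
    simp only [Av]
    exact (Finset.measurable_sum _ fun c _ => ih c i).const_mul _

lemma Av_bdd {d : ℕ} (hd : 3 ≤ d) (hreg : G.IsRegularOfDegree d) {F : ℝ → ℝ} {B : ℝ}
    (hB : ∀ a, |F a| ≤ B) (θ : ℝ) (x : V → ℝ) (m : ℕ) :
    ∀ {i j : V}, G.Adj i j → |Av G (d - 1) F θ x m i j| ≤ B := by
  induction m with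
  | zero => intro i j _; simp only [Av]; exact hB _
  | succ m ih =>
    intro i j h
    simp only [Av]
    have hc := ev_card_oth G hreg h
    have hD : (0 : ℝ) < ((d - 1 : ℕ) : ℝ) := by exact_mod_cast (by omega : 0 < d - 1)
    rw [abs_mul, abs_of_pos (by positivity)]
    have h1 : |∑ c ∈ oth G i j, Av G (d - 1) F θ x m c i| ≤ ((d - 1 : ℕ) : ℝ) * B := by
      refine (Finset.abs_sum_le_sum_abs _ _).trans ?_
      refine (Finset.sum_le_card_nsmul _ _ B fun c hc => ih ((mem_oth G).1 hc).1.symm).trans ?_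
      rw [nsmul_eq_mul]
      have : (oth G i j).card = d - 1 := by omega
      rw [this]
    rw [one_div, inv_mul_le_iff₀ hD]
    exact h1

lemma ev_Xbr_indep (hT : G.IsTree) {θ : ℝ} (h0 : 0 ≤ θ) (h1 : θ ≤ 1)
    {μ : Measure (V → Bool)} [IsProbabilityMeasure μ] (hμ : IsIsing G θ μ)
    (ρ : V → Measure ℝ) [∀ v, IsProbabilityMeasure (ρ v)] {i c c' : V} (hc : G.Adj c i)
    (hc' : G.Adj c' i) (hne : c ≠ c') :
    IndepFun (Xbr G c i) (Xbr G c' i) (spinField μ ρ) := by
  have := bst_mu_prob i h0 h1 ρ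
  rw [bst_spinField G hT h0 h1 hμ ρ i]
  have hPm := bst_Phi_meas G i
  have hX := bst_Xbr_meas G c i
  have hX' := bst_Xbr_meas G c' i
  have key : IndepFun (fun ω => Xbr G c i (bst_Phi G i ω)) (fun ω => Xbr G c' i (bst_Phi G i ω))
      (Measure.infinitePi (bst_mu i θ ρ)) := by
    let A : V → Set (V ⊕ V) := fun c => Sum.elim (fun w => w ∈ brn G c i) (fun w => w ∈ brn G c i)
    have hA : ∀ c w, (Sum.inl w : V ⊕ V) ∈ A c ↔ w ∈ brn G c i := fun c w => Iff.rfl
    have hA' : ∀ c w, (Sum.inr w : V ⊕ V) ∈ A c ↔ w ∈ brn G c i := fun c w => Iff.rfl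
    refine bst_block2 _ (A c) (A c') ?_ _ _ (hX.comp hPm) (hX'.comp hPm) ?_ ?_
    · rw [Set.disjoint_left]
      have hd := bst_disj G hT hc hc' hne
      rw [Set.disjoint_left] at hd
      rintro (w | w) h1 h2
      · exact hd ((hA _ _).1 h1) ((hA _ _).1 h2)
      · exact hd ((hA' _ _).1 h1) ((hA' _ _).1 h2)
    · intro ω ω' h
      exact bst_Xbr_congr G hT hc ω ω' (fun w hw _ => h _ ((hA _ _).2 hw))
        (fun w hw => h _ ((hA' _ _).2 hw))
    · intro ω ω' h
      exact bst_Xbr_congr G hT hc' ω ω' (fun w hw _ => h _ ((hA _ _).2 hw))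
        (fun w hw => h _ ((hA' _ _).2 hw))
  rw [indepFun_iff_measure_inter_preimage_eq_mul] at key ⊢
  intro s t hs ht
  rw [Measure.map_apply hPm ((hX hs).inter (hX' ht)), Measure.map_apply hPm (hX hs),
    Measure.map_apply hPm (hX' ht)]
  exact key s t hs ht

lemma ev_al_law [Countable V] (hT : G.IsTree) {d : ℕ} (hd : 2 ≤ d) (hreg : G.IsRegularOfDegree d)
    {θ : ℝ} {μ : Measure (V → Bool)} [IsProbabilityMeasure μ] (hμ : IsIsing G θ μ) (ρ : Measure ℝ)
    [IsProbabilityMeasure ρ] (F : ℝ → ℝ) (hF : Measurable F) {c i i' j : V}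
    (h : G.Adj c i) (h' : G.Adj i' j) :
    ∫ x, F (al G θ x c i) ∂(fieldLaw μ (fun _ => ρ))
      = ∫ x, F (al G θ x i' j) ∂(fieldLaw μ (fun _ => ρ)) := by
  obtain ⟨g, hg⟩ := exists_aut_path G hT hd hreg (fun n => if n = 0 then c else i)
    (fun n => if n = 0 then i' else j) 1
    ⟨fun n hn => by
      have : n = 0 := by omega
      subst this; simpa using h, fun n hn => by omega⟩
    ⟨fun n hn => by
      have : n = 0 := by omega
      subst this; simpa using h', fun n hn => by omega⟩
  have g0 := hg 0 (by norm_num)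
  have g1 := hg 1 le_rfl
  simp only [if_true] at g0
  norm_num at g1
  have hgm : Measurable (fun x : V → ℝ => x ∘ g) :=
    measurable_pi_iff.2 fun v => measurable_pi_apply (g v)
  have hfm : Measurable (fun x : V → ℝ => F (al G θ x c i)) := hF.comp (measurable_al G θ c i)
  calc ∫ x, F (al G θ x c i) ∂(fieldLaw μ (fun _ => ρ))
      = ∫ x, F (al G θ x c i) ∂((fieldLaw μ (fun _ => ρ)).map (fun x => x ∘ g)) := by
        rw [fieldLaw_aut G hT hμ ρ g]
    _ = ∫ x, F (al G θ (x ∘ g) c i) ∂(fieldLaw μ (fun _ => ρ)) :=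
        integral_map hgm.aemeasurable hfm.aestronglyMeasurable
    _ = ∫ x, F (al G θ x i' j) ∂(fieldLaw μ (fun _ => ρ)) := by
        refine integral_congr_ae (ae_of_all _ fun x => ?_)
        show F (al G θ (x ∘ g) c i) = F (al G θ x i' j)
        rw [al_aut, g0, g1]

lemma ev_fieldLaw_int {μ : Measure (V → Bool)} {ρ : V → Measure ℝ} {f : (V → ℝ) → ℝ}
    (hf : Measurable f) : ∫ x, f x ∂(fieldLaw μ ρ) = ∫ q, f q.2 ∂(spinField μ ρ) := by
  unfold fieldLaw
  rw [integral_map measurable_snd.aemeasurable hf.aestronglyMeasurable]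

lemma ev_spinField_good [Countable V] {θ : ℝ} {μ : Measure (V → Bool)} {ρ : V → Measure ℝ}
    (hgood : ∀ᵐ x ∂(fieldLaw μ ρ), Good G θ x) : ∀ᵐ q ∂(spinField μ ρ), Good G θ q.2 := by
  unfold fieldLaw at hgood
  exact ae_of_ae_map measurable_snd.aemeasurable hgood

theorem Av_var [Countable V] (hT : G.IsTree) {d : ℕ} (hd : 3 ≤ d) (hreg : G.IsRegularOfDegree d)
    {θ : ℝ} (h0 : 0 ≤ θ) (h1 : θ < 1)
    {μ : Measure (V → Bool)} [IsProbabilityMeasure μ] (hμ : IsIsing G θ μ) (ρ : Measure ℝ)
    [IsProbabilityMeasure ρ] (hgood : ∀ᵐ x ∂(fieldLaw μ (fun _ => ρ)), Good G θ x)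
    (F : ℝ → ℝ) (hF : Measurable F) (heven : ∀ a, F (-a) = F a) {B : ℝ} (hB : ∀ a, |F a| ≤ B)
    (m : ℕ) {i j : V} (h : G.Adj i j) :
    ∫ x, (Av G (d - 1) F θ x m i j - ∫ x, F (al G θ x i j) ∂(fieldLaw μ (fun _ => ρ))) ^ 2
      ∂(fieldLaw μ (fun _ => ρ)) ≤ B ^ 2 / ((d : ℝ) - 1) ^ m := by
  have hPs := spinField_prob (V := V) μ (fun _ => ρ)
  have hPf := fieldLaw_prob (V := V) μ (fun _ => ρ)
  set P := fieldLaw μ (fun _ : V => ρ) with hP
  set fb := ∫ x, F (al G θ x i j) ∂P with hfb
  have hB0 : 0 ≤ B := (abs_nonneg _).trans (hB 0)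
  have hDr : ((d - 1 : ℕ) : ℝ) = (d : ℝ) - 1 := by
    rw [Nat.cast_sub (by omega)]; simp
  have hD : (0 : ℝ) < (d : ℝ) - 1 := by
    rw [← hDr]; exact_mod_cast (by omega : 0 < d - 1)
  have hint : ∀ {f : (V → ℝ) → ℝ} {K : ℝ}, Measurable f → (∀ x, |f x| ≤ K) → Integrable f P := by
    intro f K hf hb
    exact Integrable.of_bound hf.aestronglyMeasurable K (ae_of_all _ fun x => by simpa using hb x)
  have hmA := measurable_Av G hF (d - 1) θ
  have hbA : ∀ (m : ℕ) (x : V → ℝ) {i j : V}, G.Adj i j → |Av G (d - 1) F θ x m i j| ≤ B :=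
    fun m x _ _ h => Av_bdd G hd hreg hB θ x m h
  have hfbB : |fb| ≤ B := by
    have := norm_integral_le_of_norm_le_const (μ := P) (f := fun x => F (al G θ x i j)) (C := B)
      (ae_of_all _ fun x => hB _)
    simpa using this
  -- means
  have hmean : ∀ m : ℕ, ∀ {i' j' : V}, G.Adj i' j' →
      ∫ x, Av G (d - 1) F θ x m i' j' ∂P = fb := by
    intro m
    induction m with
    | zero =>
      intro i' j' h'
      simp only [Av]
      exact ev_al_law G hT (by omega) hreg hμ ρ F hF h' h
    | succ m ih =>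
      intro i' j' h'
      simp only [Av]
      rw [integral_const_mul, integral_finsetSum]
      · rw [Finset.sum_congr rfl (fun c hc => ih ((mem_oth G).1 hc).1.symm), Finset.sum_const]
        have hc := ev_card_oth G hreg h'
        have : (oth G i' j').card = d - 1 := by omega
        rw [this, nsmul_eq_mul, ← mul_assoc, one_div, inv_mul_cancel₀, one_mul]
        rw [hDr]; exact hD.ne'
      · intro c hc
        exact hint (hmA m c i') fun x => hbA m x ((mem_oth G).1 hc).1.symm
  -- variances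
  have hvar : ∀ m : ℕ, ∀ {i' j' : V}, G.Adj i' j' →
      ∫ x, (Av G (d - 1) F θ x m i' j' - fb) ^ 2 ∂P ≤ B ^ 2 / ((d : ℝ) - 1) ^ m := by
    intro m
    induction m with
    | zero =>
      intro i' j' h'
      rw [pow_zero, div_one]
      have e : ∀ x, (Av G (d - 1) F θ x 0 i' j' - fb) ^ 2
          = Av G (d - 1) F θ x 0 i' j' ^ 2 - 2 * fb * Av G (d - 1) F θ x 0 i' j' + fb ^ 2 := by
        intro x; ring
      have i1 : Integrable (fun x => Av G (d - 1) F θ x 0 i' j' ^ 2) P := by
        refine hint (K := B ^ 2) ((hmA 0 i' j').pow_const 2) fun x => ?_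
        rw [abs_pow]
        exact pow_le_pow_left₀ (abs_nonneg _) (hbA 0 x h') 2
      have i2 : Integrable (fun x => Av G (d - 1) F θ x 0 i' j') P :=
        hint (hmA 0 i' j') fun x => hbA 0 x h'
      calc ∫ x, (Av G (d - 1) F θ x 0 i' j' - fb) ^ 2 ∂P
          = ∫ x, (Av G (d - 1) F θ x 0 i' j' ^ 2 - 2 * fb * Av G (d - 1) F θ x 0 i' j' + fb ^ 2) ∂P :=
            integral_congr_ae (ae_of_all _ e)
        _ = ∫ x, Av G (d - 1) F θ x 0 i' j' ^ 2 ∂P - 2 * fb * fb + fb ^ 2 := by
            have i3 : Integrable (fun x => Av G (d - 1) F θ x 0 i' j' ^ 2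
              - 2 * fb * Av G (d - 1) F θ x 0 i' j') P := i1.sub (i2.const_mul _)
            rw [integral_add i3 (integrable_const _), integral_sub i1 (i2.const_mul _),
              integral_const_mul, hmean 0 h']
            simp
        _ ≤ B ^ 2 - 2 * fb * fb + fb ^ 2 := by
            have : ∫ x, Av G (d - 1) F θ x 0 i' j' ^ 2 ∂P ≤ ∫ _x, B ^ 2 ∂P := by
              refine integral_mono i1 (integrable_const _) fun x => ?_
              rw [← sq_abs]
              exact pow_le_pow_left₀ (abs_nonneg _) (hbA 0 x h') 2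
            have h2 : ∫ _x : V → ℝ, B ^ 2 ∂P = B ^ 2 := by simp
            linarith
        _ ≤ B ^ 2 := by nlinarith [sq_nonneg fb]
    | succ m ih =>
      intro i' j' h'
      have hcard : (oth G i' j').card = d - 1 := by
        have := ev_card_oth G hreg h'; omega
      set Y : V → (V → ℝ) → ℝ := fun c x => Av G (d - 1) F θ x m c i' - fb with hY
      have hYm : ∀ c, Measurable (Y c) := fun c => (hmA m c i').sub_const _
      have hadj : ∀ c ∈ oth G i' j', G.Adj c i' := fun c hc => ((mem_oth G).1 hc).1.symm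
      have hYb : ∀ c ∈ oth G i' j', ∀ x, |Y c x| ≤ 2 * B := by
        intro c hc x
        have := hbA m x (hadj c hc)
        simp only [hY]
        calc |Av G (d - 1) F θ x m c i' - fb| ≤ |Av G (d - 1) F θ x m c i'| + |fb| := abs_sub _ _
          _ ≤ 2 * B := by linarith
      have hYY : ∀ c ∈ oth G i' j', ∀ c' ∈ oth G i' j', Integrable (fun x => Y c x * Y c' x) P := by
        intro c hc c' hc'
        refine hint (K := (2 * B) * (2 * B)) ((hYm c).mul (hYm c')) fun x => ?_
        rw [abs_mul]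
        exact mul_le_mul (hYb c hc x) (hYb c' hc' x) (abs_nonneg _) (by positivity)
      have hcross : ∀ c ∈ oth G i' j', ∀ c' ∈ oth G i' j', c ≠ c' → ∫ x, Y c x * Y c' x ∂P = 0 := by
        intro c hc c' hc' hne
        rw [hP, ev_fieldLaw_int (f := fun x => Y c x * Y c' x) ((hYm c).mul (hYm c'))]
        have hg : ∀ᵐ q ∂(spinField μ (fun _ : V => ρ)), Y c q.2 * Y c' q.2
            = (Y c ∘ Xbr G c i') q * (Y c' ∘ Xbr G c' i') q := by
          filter_upwards [ev_spinField_good G hgood] with q hq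
          simp only [hY, Function.comp]
          rw [Av_Xbr G hT heven h0 h1 hq m (hadj c hc), Av_Xbr G hT heven h0 h1 hq m (hadj c' hc')]
        rw [integral_congr_ae hg]
        have hind := (ev_Xbr_indep G hT h0 h1.le hμ (fun _ => ρ) (hadj c hc) (hadj c' hc') hne).comp
          (hYm c) (hYm c')
        rw [hind.integral_fun_mul_eq_mul_integral
          ((hYm c).comp (bst_Xbr_meas G c i')).aestronglyMeasurable
          ((hYm c').comp (bst_Xbr_meas G c' i')).aestronglyMeasurable]
        have hz : ∫ q, (Y c ∘ Xbr G c i') q ∂(spinField μ (fun _ : V => ρ)) = 0 := by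
          have hg2 : ∀ᵐ q ∂(spinField μ (fun _ : V => ρ)), (Y c ∘ Xbr G c i') q = Y c q.2 := by
            filter_upwards [ev_spinField_good G hgood] with q hq
            simp only [hY, Function.comp]
            rw [← Av_Xbr G hT heven h0 h1 hq m (hadj c hc)]
          rw [integral_congr_ae hg2, ← ev_fieldLaw_int (hYm c), ← hP]
          simp only [hY]
          rw [integral_sub (hint (hmA m c i') fun x => hbA m x (hadj c hc)) (integrable_const _),
            hmean m (hadj c hc)]
          simp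
        rw [hz, zero_mul]
      have e1 : ∀ x, (Av G (d - 1) F θ x (m + 1) i' j' - fb) ^ 2
          = (1 / ((d : ℝ) - 1)) ^ 2 * ∑ c ∈ oth G i' j', ∑ c' ∈ oth G i' j', Y c x * Y c' x := by
        intro x
        have e2 : Av G (d - 1) F θ x (m + 1) i' j' - fb
            = (1 / ((d : ℝ) - 1)) * ∑ c ∈ oth G i' j', Y c x := by
          simp only [Av, hY]
          rw [Finset.sum_sub_distrib, Finset.sum_const, hcard, nsmul_eq_mul, hDr]
          field_simp
        rw [e2, mul_pow, sq (∑ c ∈ oth G i' j', Y c x), Finset.sum_mul_sum]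
      calc ∫ x, (Av G (d - 1) F θ x (m + 1) i' j' - fb) ^ 2 ∂P
          = ∫ x, (1 / ((d : ℝ) - 1)) ^ 2
              * ∑ c ∈ oth G i' j', ∑ c' ∈ oth G i' j', Y c x * Y c' x ∂P :=
            integral_congr_ae (ae_of_all _ e1)
        _ = (1 / ((d : ℝ) - 1)) ^ 2 * ∑ c ∈ oth G i' j', ∑ c' ∈ oth G i' j',
              ∫ x, Y c x * Y c' x ∂P := by
            rw [integral_const_mul, integral_finsetSum]
            · congr 1
              refine Finset.sum_congr rfl fun c hc => ?_
              rw [integral_finsetSum]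
              intro c' hc'
              exact hYY c hc c' hc'
            · intro c hc
              exact integrable_finsetSum _ fun c' hc' => hYY c hc c' hc'
        _ = (1 / ((d : ℝ) - 1)) ^ 2 * ∑ c ∈ oth G i' j', ∫ x, Y c x * Y c x ∂P := by
            congr 1
            refine Finset.sum_congr rfl fun c hc => ?_
            rw [Finset.sum_eq_single c]
            · intro c' hc' hne
              exact hcross c hc c' hc' (Ne.symm hne)
            · intro h; exact absurd hc h
        _ ≤ (1 / ((d : ℝ) - 1)) ^ 2 * ∑ c ∈ oth G i' j', B ^ 2 / ((d : ℝ) - 1) ^ m := by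
            refine mul_le_mul_of_nonneg_left (Finset.sum_le_sum fun c hc => ?_) (by positivity)
            have := ih (hadj c hc)
            calc ∫ x, Y c x * Y c x ∂P = ∫ x, (Av G (d - 1) F θ x m c i' - fb) ^ 2 ∂P :=
                  integral_congr_ae (ae_of_all _ fun x => by simp only [hY]; ring)
              _ ≤ _ := this
        _ = B ^ 2 / ((d : ℝ) - 1) ^ (m + 1) := by
            rw [Finset.sum_const, hcard, nsmul_eq_mul, hDr]
            field_simp
            ring
  exact hvar m h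

end Crest.Agent.FI
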