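import Mathlib
import Crest.Agent.FI.Defs
import Crest.Agent.FI.Real
import Crest.Agent.FI.TreeAut
import Crest.Agent.FI.Branch
import Crest.Agent.FI.BST
import Crest.Agent.FI.Alg
import Crest.Agent.FI.EnvBase
import Crest.Agent.FI.EnvVar

set_option autoImplicit false
set_option linter.unusedSectionVars false

namespace Crest.Agent.FI

open MeasureTheory ProbabilityTheory Set Filter Topology
open scoped ENNReal

section gen

/-- resampling one coordinate of a finite product measure -/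
lemma ek_map_update {ι : Type*} [Fintype ι] [DecidableEq ι] {X : ι → Type*}
    [∀ i, MeasurableSpace (X i)] (μ : ∀ i, Measure (X i)) [∀ i, IsProbabilityMeasure (μ i)] (a : ι) :
    ((Measure.pi μ).prod (μ a)).map (fun q => Function.update q.1 a q.2) = Measure.pi μ := by
  symm
  refine Measure.pi_eq fun s hs => ?_
  have hm : Measurable (fun q : (∀ i, X i) × X a => Function.update q.1 a q.2) := by
    refine measurable_pi_iff.2 fun i => ?_
    by_cases h : i = a
    · subst h; simpa using measurable_snd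
    · simp only [Function.update_of_ne h]; fun_prop
  rw [Measure.map_apply hm (MeasurableSet.univ_pi hs)]
  have hset : (fun q : (∀ i, X i) × X a => Function.update q.1 a q.2) ⁻¹' (univ.pi s)
      = (univ.pi (Function.update s a univ)) ×ˢ s a := by
    ext q
    simp only [mem_preimage, Set.mem_pi, mem_univ, forall_const, mem_prod]
    constructor
    · intro h
      refine ⟨fun i => ?_, ?_⟩
      · by_cases hi : i = a
        · subst hi; simp
        · have := h i
          rw [Function.update_of_ne hi] at this ⊢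
          exact this
      · have := h a
        rwa [Function.update_self] at this
    · rintro ⟨h1, h2⟩ i
      by_cases hi : i = a
      · subst hi; rwa [Function.update_self]
      · have := h1 i
        rw [Function.update_of_ne hi] at this ⊢
        exact this
  rw [hset, Measure.prod_prod, Measure.pi_pi]
  rw [← Finset.mul_prod_erase Finset.univ _ (Finset.mem_univ a),
    ← Finset.mul_prod_erase Finset.univ (fun i => μ i (s i)) (Finset.mem_univ a)]
  rw [Function.update_self, measure_univ, one_mul, mul_comm]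
  congr 1
  refine Finset.prod_congr rfl fun i hi => ?_
  rw [Function.update_of_ne (Finset.ne_of_mem_erase hi)]

lemma ek_lintegral_update {ι : Type*} [Fintype ι] [DecidableEq ι] {X : ι → Type*}
    [∀ i, MeasurableSpace (X i)] (μ : ∀ i, Measure (X i)) [∀ i, IsProbabilityMeasure (μ i)] (a : ι)
    {H : (∀ i, X i) → ℝ≥0∞} (hH : Measurable H) :
    ∫⁻ w, H w ∂(Measure.pi μ) = ∫⁻ w, ∫⁻ y, H (Function.update w a y) ∂(μ a) ∂(Measure.pi μ) := by
  have hm : Measurable (fun q : (∀ i, X i) × X a => Function.update q.1 a q.2) := by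
    refine measurable_pi_iff.2 fun i => ?_
    by_cases h : i = a
    · subst h; simpa using measurable_snd
    · simp only [Function.update_of_ne h]; fun_prop
  conv_lhs => rw [← ek_map_update μ a]
  rw [lintegral_map hH hm]
  exact lintegral_prod _ (hH.comp hm).aemeasurable

lemma ek_ofReal_int {Ω : Type*} [MeasurableSpace Ω] {P : Measure Ω} [IsProbabilityMeasure P]
    {f : Ω → ℝ} (hf : Measurable f) {K : ℝ} (h0 : ∀ x, 0 ≤ f x) (h1 : ∀ x, f x ≤ K) :
    ∫⁻ x, ENNReal.ofReal (f x) ∂P = ENNReal.ofReal (∫ x, f x ∂P) := by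
  rw [ofReal_integral_eq_lintegral_ofReal]
  · exact Integrable.of_bound hf.aestronglyMeasurable K (ae_of_all _ fun x => by
      rw [Real.norm_eq_abs, abs_of_nonneg (h0 x)]; exact h1 x)
  · exact ae_of_all _ h0

lemma ek_mul_le {a b : ℝ≥0∞} (h : a ≤ b) (c : ℝ≥0∞) : a * c ≤ b * c := mul_le_mul_left h c

lemma ek_mul_const_le {Ω : Type*} [MeasurableSpace Ω] {P : Measure Ω} [IsProbabilityMeasure P]
    {f : Ω → ℝ} (hf : Measurable f) (h0 : ∀ x, 0 ≤ f x) (h1 : ∀ x, f x ≤ 1) {A : ℝ}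
    (hA : ∫ x, f x ∂P ≤ A) (B : ℝ≥0∞) :
    ∫⁻ x, ENNReal.ofReal (f x) * B ∂P ≤ ENNReal.ofReal A * B := by
  have h2 : Measurable (fun x => ENNReal.ofReal (f x)) := ENNReal.measurable_ofReal.comp hf
  rw [lintegral_mul_const _ h2, ek_ofReal_int hf h0 h1]
  exact mul_le_mul_left (ENNReal.ofReal_le_ofReal hA) _

lemma ek_meas_e (κ r : ℝ) : Measurable (fun a => Real.exp (-(κ * Real.tanh (a + r) ^ 2))) := by
  refine Real.measurable_exp.comp (Measurable.neg (Measurable.const_mul (Measurable.pow_const ?_ 2) _))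
  exact continuous_tanh.measurable.comp (measurable_id.add measurable_const)

lemma ek_exp_concave {a y : ℝ} (hy : 0 ≤ y) (hy1 : y ≤ 1) :
    Real.exp (-(a * y)) ≤ 1 - (1 - Real.exp (-a)) * y := by
  have h := convexOn_exp.2 (mem_univ (0 : ℝ)) (mem_univ (-a)) (sub_nonneg.2 hy1) hy (by ring)
  simp only [smul_eq_mul, mul_zero, zero_add, Real.exp_zero, mul_one] at h
  have e : y * -a = -(a * y) := by ring
  rw [e] at h
  linarith

lemma ek_sg_mul (b : Bool) (x : ℝ) : sg b * x = x ∨ sg b * x = -x := by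
  cases b <;> simp [sg]

lemma ek_sg_sq (b : Bool) : sg b * sg b = 1 := by cases b <;> simp [sg]

lemma ek_tanh_sg (b : Bool) (x : ℝ) : Real.tanh (sg b * x) ^ 2 = Real.tanh x ^ 2 := by
  rcases ek_sg_mul b x with h | h <;> rw [h]
  rw [Real.tanh_neg, neg_sq]

lemma ek_ff_sg (θ : ℝ) (b : Bool) (x : ℝ) : ff θ (sg b * x) = sg b * ff θ x := by
  cases b
  · simp [sg, ff_neg]
  · simp [sg]

end gen

variable {V : Type*} (G : SimpleGraph V) [G.LocallyFinite]

/-- killing rate `c`: given the (gauged) branch at one child, the message at `i` is non-zero enough -/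
def KillR (θ : ℝ) (μ : Measure (V → Bool)) (ρ : V → Measure ℝ) (c : ℝ) : Prop :=
  ∀ i j, G.Adj i j → ∀ c0 ∈ oth G i j, ∀ F : (V → ℝ) → ℝ≥0∞, Measurable F →
    ∫⁻ q, ENNReal.ofReal (Real.exp (-(kap θ * al G θ q.2 i j ^ 2))) * F (Xbr G c0 i q) ∂(spinField μ ρ)
      ≤ ENNReal.ofReal (1 - c) * ∫⁻ q, F (Xbr G c0 i q) ∂(spinField μ ρ)

/-- killing at one vertex -/
def ek_KillAt (θ : ℝ) (μ : Measure (V → Bool)) (ρ : V → Measure ℝ) (c : ℝ) (i : V) : Prop :=
  ∀ j, G.Adj i j → ∀ c0 ∈ oth G i j, ∀ F : (V → ℝ) → ℝ≥0∞, Measurable F →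
    ∫⁻ q, ENNReal.ofReal (Real.exp (-(kap θ * al G θ q.2 i j ^ 2))) * F (Xbr G c0 i q) ∂(spinField μ ρ)
      ≤ ENNReal.ofReal (1 - c) * ∫⁻ q, F (Xbr G c0 i q) ∂(spinField μ ρ)

lemma ek_hl_Xbr (hT : G.IsTree) {θ : ℝ} (h0 : 0 ≤ θ) (h1 : θ < 1) {q : (V → Bool) × (V → ℝ)}
    (hx : Good G θ q.2) {c i a b : V} (hab : G.Adj a b) (hsub : brn G a b ⊆ brn G c i) :
    hl G θ (Xbr G c i q) a b = sg (q.1 c) * hl G θ q.2 a b := by
  have e : hl G θ (Xbr G c i q) a b = hl G θ (fun w => sg (q.1 c) * q.2 w) a b := by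
    refine hl_congr G hT θ hab fun w hw => ?_
    unfold Xbr
    rw [if_pos (hsub hw)]
  rw [e]
  cases hq : q.1 c
  · have : (fun w => sg false * q.2 w) = fun w => -q.2 w := by
      funext w; simp [sg]
    rw [this, hl_neg G (L := 0) h0 h1 hx hab]; simp [sg]
  · have : (fun w => sg true * q.2 w) = q.2 := by
      funext w; simp [sg]
    rw [this]; simp [sg]

lemma ek_al_sq_Xbr (hT : G.IsTree) {θ : ℝ} (h0 : 0 ≤ θ) (h1 : θ < 1) {q : (V → Bool) × (V → ℝ)}
    (hx : Good G θ q.2) {c i a b : V} (hab : G.Adj a b) (hsub : brn G a b ⊆ brn G c i) :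
    al G θ (Xbr G c i q) a b ^ 2 = al G θ q.2 a b ^ 2 := by
  unfold al
  rw [ek_hl_Xbr G hT h0 h1 hx hab hsub, ek_tanh_sg]

/-- the field from the neighbours other than `j`, from gauged data -/
noncomputable def ek_R (θ : ℝ) (i j : V) (w : G.neighborFinset i → ℝ × (V → ℝ)) : ℝ := by
  classical
  exact ∑ c : G.neighborFinset i, if (c : V) ≠ j then (w c).1 * ff θ (hl G θ (w c).2 c i) else 0

lemma ek_R_meas (θ : ℝ) (i j : V) : Measurable (ek_R G θ i j) := by
  classical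
  unfold ek_R
  refine Finset.measurable_sum _ fun c _ => ?_
  by_cases h : (c : V) ≠ j
  · simp only [if_pos h]
    refine Measurable.mul (by fun_prop) ((measurable_ff θ).comp ((measurable_hl G θ c i).comp ?_))
    fun_prop
  · simp only [if_neg h]
    exact measurable_const

/-- gauged data at `i` -/
noncomputable def ek_data (i : V) (q : (V → Bool) × (V → ℝ)) :
    ℝ × (G.neighborFinset i → ℝ × (V → ℝ)) :=
  (sg (q.1 i) * q.2 i, fun c => (sg (q.1 c) * sg (q.1 i), Xbr G c i q))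

lemma ek_data_meas (i : V) : Measurable (ek_data G i) := by
  unfold ek_data
  refine Measurable.prodMk ?_ (measurable_pi_iff.2 fun c => Measurable.prodMk ?_ ?_)
  · exact (bst_sg_meas.comp ((measurable_pi_apply i).comp measurable_fst)).mul
      ((measurable_pi_apply i).comp measurable_snd)
  · exact (bst_sg_meas.comp ((measurable_pi_apply _).comp measurable_fst)).mul
      (bst_sg_meas.comp ((measurable_pi_apply _).comp measurable_fst))
  · exact bst_Xbr_meas G _ _

lemma ek_al_sq (hT : G.IsTree) {θ : ℝ} (h0 : 0 ≤ θ) (h1 : θ < 1) {q : (V → Bool) × (V → ℝ)}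
    (hx : Good G θ q.2) {i j : V} (h : G.Adj i j) :
    al G θ q.2 i j ^ 2 = Real.tanh ((ek_data G i q).1 + ek_R G θ i j (ek_data G i q).2) ^ 2 := by
  classical
  unfold al
  rw [← ek_tanh_sg (q.1 i), hl_rec G h0 h1 hx h]
  congr 2
  simp only [ek_data, ek_R]
  rw [mul_add]
  congr 1
  have hth : (oth G i j) = (G.neighborFinset i).filter (fun c => c ≠ j) := by
    ext c
    simp [mem_oth]
  rw [hth, Finset.sum_filter, Finset.mul_sum, ← Finset.sum_coe_sort]
  refine Finset.sum_congr rfl fun c _ => ?_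
  by_cases hc : (c : V) ≠ j
  · rw [if_pos hc, if_pos hc]
    have hadj : G.Adj (c : V) i := ((SimpleGraph.mem_neighborFinset _ _ _).1 c.2).symm
    rw [ek_hl_Xbr G hT h0 h1 hx hadj (subset_refl _), ek_ff_sg]
    have := ek_sg_sq (q.1 c)
    calc sg (q.1 i) * ff θ (hl G θ q.2 c i)
        = (sg (q.1 c) * sg (q.1 c)) * sg (q.1 i) * ff θ (hl G θ q.2 c i) := by rw [this, one_mul]
      _ = _ := by ring
  · rw [if_neg hc, if_neg hc, mul_zero]

/-- the killed integral, in terms of the gauged data -/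
lemma ek_kill_eq [Countable V] (hT : G.IsTree) {θ : ℝ} (h0 : 0 ≤ θ) (h1 : θ < 1)
    {μ : Measure (V → Bool)} [IsProbabilityMeasure μ] (hμ : IsIsing G θ μ)
    (ρ : V → Measure ℝ) [∀ v, IsProbabilityMeasure (ρ v)]
    (hgood : ∀ᵐ x ∂(fieldLaw μ ρ), Good G θ x) {i j : V} (h : G.Adj i j)
    (c0 : G.neighborFinset i) (F : (V → ℝ) → ℝ≥0∞) (hF : Measurable F) :
    ∫⁻ q, ENNReal.ofReal (Real.exp (-(kap θ * al G θ q.2 i j ^ 2))) * F (Xbr G c0 i q) ∂(spinField μ ρ)
      = ∫⁻ p, ENNReal.ofReal (Real.exp (-(kap θ * Real.tanh (p.1 + ek_R G θ i j p.2) ^ 2)))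
          * F (p.2 c0).2 ∂((ρ i).prod (Measure.pi (fun c : G.neighborFinset i =>
          (berS θ).prod ((spinField μ ρ).map (Xbr G c i))))) := by
  have hb : (spinField μ ρ).map (ek_data G i) = (ρ i).prod (Measure.pi (fun c : G.neighborFinset i =>
      (berS θ).prod ((spinField μ ρ).map (Xbr G c i)))) := branch_structure G hT h0 h1.le hμ ρ i
  rw [← hb]
  have hm : Measurable (fun p : ℝ × (G.neighborFinset i → ℝ × (V → ℝ)) =>
      ENNReal.ofReal (Real.exp (-(kap θ * Real.tanh (p.1 + ek_R G θ i j p.2) ^ 2)))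
          * F (p.2 c0).2) := by
    refine Measurable.mul ?_ (hF.comp (by fun_prop))
    refine ENNReal.measurable_ofReal.comp (Real.measurable_exp.comp ?_)
    refine Measurable.neg (Measurable.const_mul ?_ _)
    refine Measurable.pow_const ?_ 2
    refine continuous_tanh.measurable.comp ?_
    exact measurable_fst.add ((ek_R_meas G θ i j).comp measurable_snd)
  rw [lintegral_map hm (ek_data_meas G i)]
  refine lintegral_congr_ae ?_
  filter_upwards [ev_spinField_good G hgood] with q hq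
  rw [ek_al_sq G hT h0 h1 hq h]
  rfl

lemma ek_plain_eq [Countable V] (hT : G.IsTree) {θ : ℝ} (h0 : 0 ≤ θ) (h1 : θ < 1)
    {μ : Measure (V → Bool)} [IsProbabilityMeasure μ] (hμ : IsIsing G θ μ)
    (ρ : V → Measure ℝ) [∀ v, IsProbabilityMeasure (ρ v)] (i : V)
    (c0 : G.neighborFinset i) (F : (V → ℝ) → ℝ≥0∞) (hF : Measurable F) :
    ∫⁻ q, F (Xbr G c0 i q) ∂(spinField μ ρ)
      = ∫⁻ w, F (w c0).2 ∂(Measure.pi (fun c : G.neighborFinset i =>
          (berS θ).prod ((spinField μ ρ).map (Xbr G c i)))) := by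
  have hbp := bst_berS_prob (t := θ) (by linarith) h1.le
  have hPs := spinField_prob (V := V) μ ρ
  have hXp : ∀ c : G.neighborFinset i, IsProbabilityMeasure ((spinField μ ρ).map (Xbr G c i)) :=
    fun c => Measure.isProbabilityMeasure_map (bst_Xbr_meas G c i).aemeasurable
  have hb : (spinField μ ρ).map (ek_data G i) = (ρ i).prod (Measure.pi (fun c : G.neighborFinset i =>
      (berS θ).prod ((spinField μ ρ).map (Xbr G c i)))) := branch_structure G hT h0 h1.le hμ ρ i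
  have hm : Measurable (fun p : ℝ × (G.neighborFinset i → ℝ × (V → ℝ)) => F (p.2 c0).2) :=
    hF.comp (by fun_prop)
  have e1 : ∫⁻ p, F (p.2 c0).2 ∂((ρ i).prod (Measure.pi (fun c : G.neighborFinset i =>
          (berS θ).prod ((spinField μ ρ).map (Xbr G c i)))))
      = ∫⁻ w, F (w c0).2 ∂(Measure.pi (fun c : G.neighborFinset i =>
          (berS θ).prod ((spinField μ ρ).map (Xbr G c i)))) := by
    rw [lintegral_prod _ hm.aemeasurable]
    simp
  rw [← e1, ← hb, lintegral_map hm (ek_data_meas G i)]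
  rfl

lemma ek_killAt_own [Countable V] (hT : G.IsTree) {θ : ℝ} (h0 : 0 ≤ θ) (h1 : θ < 1)
    {μ : Measure (V → Bool)} [IsProbabilityMeasure μ] (hμ : IsIsing G θ μ)
    (ρ : V → Measure ℝ) [∀ v, IsProbabilityMeasure (ρ v)]
    (hgood : ∀ᵐ x ∂(fieldLaw μ ρ), Good G θ x) {c : ℝ} (i : V)
    (hk : ∀ r : ℝ, ∫ x, Real.exp (-(kap θ * Real.tanh (x + r) ^ 2)) ∂(ρ i) ≤ 1 - c) :
    ek_KillAt G θ μ ρ c i := by
  intro j h c0 hc0 F hF
  have hbp := bst_berS_prob (t := θ) (by linarith) h1.le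
  have hPs := spinField_prob (V := V) μ ρ
  have hXp : ∀ c : G.neighborFinset i, IsProbabilityMeasure ((spinField μ ρ).map (Xbr G c i)) :=
    fun c => Measure.isProbabilityMeasure_map (bst_Xbr_meas G c i).aemeasurable
  have hc0' : c0 ∈ G.neighborFinset i := by
    rw [SimpleGraph.mem_neighborFinset]; exact ((mem_oth G).1 hc0).1
  have hkap : 0 ≤ kap θ := by unfold kap; nlinarith
  rw [ek_kill_eq G hT h0 h1 hμ ρ hgood h ⟨c0, hc0'⟩ F hF,
    ek_plain_eq G hT h0 h1 hμ ρ i ⟨c0, hc0'⟩ F hF]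
  have hm1 : Measurable (fun p : ℝ × (G.neighborFinset i → ℝ × (V → ℝ)) =>
      Real.exp (-(kap θ * Real.tanh (p.1 + ek_R G θ i j p.2) ^ 2))) := by
    refine Real.measurable_exp.comp ?_
    refine Measurable.neg (Measurable.const_mul ?_ _)
    refine Measurable.pow_const ?_ 2
    refine continuous_tanh.measurable.comp ?_
    exact measurable_fst.add ((ek_R_meas G θ i j).comp measurable_snd)
  have hm : Measurable (fun p : ℝ × (G.neighborFinset i → ℝ × (V → ℝ)) =>
      ENNReal.ofReal (Real.exp (-(kap θ * Real.tanh (p.1 + ek_R G θ i j p.2) ^ 2)))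
          * F (p.2 ⟨c0, hc0'⟩).2) :=
    (ENNReal.measurable_ofReal.comp hm1).mul (hF.comp (by fun_prop))
  rw [lintegral_prod_symm _ hm.aemeasurable]
  have h5 : ∀ w : G.neighborFinset i → ℝ × (V → ℝ),
      ∫⁻ a, ENNReal.ofReal (Real.exp (-(kap θ * Real.tanh (a + ek_R G θ i j w) ^ 2)))
          * F (w ⟨c0, hc0'⟩).2 ∂(ρ i) ≤ ENNReal.ofReal (1 - c) * F (w ⟨c0, hc0'⟩).2 := by
    intro w
    generalize ek_R G θ i j w = r
    refine ek_mul_const_le (f := fun a => Real.exp (-(kap θ * Real.tanh (a + r) ^ 2)))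
      (ek_meas_e _ _) (fun a => (Real.exp_pos _).le) (fun a => ?_) (hk _) _
    refine Real.exp_le_one_iff.2 ?_
    have := mul_nonneg hkap (sq_nonneg (Real.tanh (a + r)))
    linarith
  refine (lintegral_mono h5).trans_eq ?_
  exact lintegral_const_mul _ (hF.comp (by fun_prop))

/-- killing by the own fields -/
theorem killR_own [Countable V] (hT : G.IsTree) {θ : ℝ} (h0 : 0 ≤ θ) (h1 : θ < 1)
    {μ : Measure (V → Bool)} [IsProbabilityMeasure μ] (hμ : IsIsing G θ μ)
    (ρ : V → Measure ℝ) [∀ v, IsProbabilityMeasure (ρ v)]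
    (hgood : ∀ᵐ x ∂(fieldLaw μ ρ), Good G θ x) {c : ℝ} (hc : 0 ≤ c) (hc1 : c ≤ 1)
    (hk : ∀ v, ∀ r : ℝ, ∫ x, Real.exp (-(kap θ * Real.tanh (x + r) ^ 2)) ∂(ρ v) ≤ 1 - c) :
    KillR G θ μ ρ c :=
  fun i => ek_killAt_own G hT h0 h1 hμ ρ hgood i (hk i)

/-- one sign is favourable -/
lemma ek_two_signs {κ θ U v : ℝ} (hκ : 0 ≤ κ) (h0 : 0 ≤ θ) (h1 : θ < 1) :
    (1 + θ) / 2 * Real.exp (-(κ * Real.tanh (U + 1 * v) ^ 2))
      + (1 - θ) / 2 * Real.exp (-(κ * Real.tanh (U + (-1) * v) ^ 2))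
      ≤ 1 - (1 - θ) / 2 * (1 - Real.exp (-(κ * Real.tanh v ^ 2))) := by
  have hle : ∀ z, Real.exp (-(κ * Real.tanh z ^ 2)) ≤ 1 := fun z =>
    Real.exp_le_one_iff.2 (by nlinarith [mul_nonneg hκ (sq_nonneg (Real.tanh z))])
  have hmono : ∀ z, |v| ≤ |z| →
      Real.exp (-(κ * Real.tanh z ^ 2)) ≤ Real.exp (-(κ * Real.tanh v ^ 2)) := by
    intro z hz
    refine Real.exp_le_exp.2 (neg_le_neg (mul_le_mul_of_nonneg_left ?_ hκ))
    have h3 : Real.cosh v ≤ Real.cosh z := Real.cosh_le_cosh.2 hz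
    have h4 : 1 / Real.cosh z ^ 2 ≤ 1 / Real.cosh v ^ 2 := by
      have := Real.cosh_pos v
      apply one_div_le_one_div_of_le (by positivity)
      exact pow_le_pow_left₀ this.le h3 2
    rw [← one_sub_tanh_sq, ← one_sub_tanh_sq] at h4
    linarith
  rcases le_total 0 (U * v) with h | h
  · have h2 : |v| ≤ |U + 1 * v| := by
      rw [one_mul]
      exact sq_le_sq.1 (by nlinarith [sq_nonneg U])
    have a1 := hmono _ h2
    have a2 := hle (U + (-1) * v)
    have a3 := hle v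
    nlinarith
  · have h2 : |v| ≤ |U + (-1) * v| := by
      exact sq_le_sq.1 (by nlinarith [sq_nonneg U])
    have a1 := hmono _ h2
    have a2 := hle (U + 1 * v)
    have a3 := hle v
    nlinarith

lemma ek_brn_step (hT : G.IsTree) {i j c : V} (h : G.Adj i j) (hc : c ∈ oth G i j) :
    brn G c i ⊆ brn G i j := by
  intro w hw
  exact (mem_brn_iff G hT h w).2 (Or.inr ⟨c, hc, hw⟩)

lemma ek_brn_path (hT : G.IsTree) {p : ℕ → V} {n : ℕ} (hp : IsPth G p (n + 1)) {k i : ℕ}
    (hki : k ≤ i) (hi : i ≤ n) : brn G (p (i + 1)) (p i) ⊆ brn G (p (k + 1)) (p k) := by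
  induction i, hki using Nat.le_induction with
  | base => exact subset_refl _
  | succ i hki ih =>
    refine subset_trans ?_ (ih (by omega))
    refine ek_brn_step G hT (hp.1 i (by omega)).symm ?_
    exact (mem_oth G).2 ⟨hp.1 (i + 1) (by omega), fun he => hp.2 i (by omega) he.symm⟩

/-- path products, lower integral over `spinField` -/
noncomputable def ek_E (θ : ℝ) (μ : Measure (V → Bool)) (ρ : V → Measure ℝ) (p : ℕ → V) (n k : ℕ) :
    ℝ≥0∞ :=
  ∫⁻ q, ∏ i ∈ Finset.Ico k (n + 1),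
    ENNReal.ofReal (Real.exp (-(kap θ * al G θ q.2 (p (i + 1)) (p i) ^ 2))) ∂(spinField μ ρ)

lemma ek_meas_al (θ : ℝ) (i j : V) : Measurable (fun x : V → ℝ =>
    Real.exp (-(kap θ * al G θ x i j ^ 2))) :=
  Real.measurable_exp.comp (((measurable_al G θ i j).pow_const 2).const_mul _).neg

lemma ek_al_le {θ : ℝ} (hκ : 0 ≤ kap θ) (x : V → ℝ) (i j : V) :
    Real.exp (-(kap θ * al G θ x i j ^ 2)) ≤ 1 := by
  refine Real.exp_le_one_iff.2 ?_
  have := mul_nonneg hκ (sq_nonneg (al G θ x i j))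
  linarith

lemma ek_E_step [Countable V] (hT : G.IsTree) {θ : ℝ} (h0 : 0 ≤ θ) (h1 : θ < 1)
    {μ : Measure (V → Bool)} [IsProbabilityMeasure μ] (ρ : V → Measure ℝ)
    [∀ v, IsProbabilityMeasure (ρ v)] (hgood : ∀ᵐ x ∂(fieldLaw μ ρ), Good G θ x) {c : ℝ}
    (p : ℕ → V) (n : ℕ) (hp : IsPth G p (n + 1)) {k : ℕ} (hk : k < n)
    (hkill : ek_KillAt G θ μ ρ c (p (k + 1))) :
    ek_E G θ μ ρ p n k ≤ ENNReal.ofReal (1 - c) * ek_E G θ μ ρ p n (k + 1) := by
  have hadj : G.Adj (p (k + 1)) (p k) := (hp.1 k (by omega)).symm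
  have hmem : p (k + 2) ∈ oth G (p (k + 1)) (p k) :=
    (mem_oth G).2 ⟨hp.1 (k + 1) (by omega), fun he => hp.2 k (by omega) he.symm⟩
  set F : (V → ℝ) → ℝ≥0∞ := fun X => ∏ i ∈ Finset.Ico (k + 1) (n + 1),
    ENNReal.ofReal (Real.exp (-(kap θ * al G θ X (p (i + 1)) (p i) ^ 2))) with hF
  have hFm : Measurable F :=
    Finset.measurable_prod _ fun i _ => ENNReal.measurable_ofReal.comp (ek_meas_al G θ _ _)
  have hFX : ∀ᵐ q ∂(spinField μ ρ), F (Xbr G (p (k + 2)) (p (k + 1)) q) = F q.2 := by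
    filter_upwards [spinField_good G hgood] with q hq
    simp only [hF]
    refine Finset.prod_congr rfl fun i hi => ?_
    rw [Finset.mem_Ico] at hi
    rw [ek_al_sq_Xbr G hT h0 h1 hq (hp.1 i (by omega)).symm
      (ek_brn_path G hT hp (k := k + 1) hi.1 (by omega))]
  have h := hkill (p k) hadj (p (k + 2)) hmem F hFm
  have e1 : ek_E G θ μ ρ p n k = ∫⁻ q, ENNReal.ofReal
      (Real.exp (-(kap θ * al G θ q.2 (p (k + 1)) (p k) ^ 2)))
        * F (Xbr G (p (k + 2)) (p (k + 1)) q) ∂(spinField μ ρ) := by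
    unfold ek_E
    refine lintegral_congr_ae ?_
    filter_upwards [hFX] with q hq
    rw [hq, hF, Finset.prod_eq_prod_Ico_succ_bot (by omega)]
  have e2 : ek_E G θ μ ρ p n (k + 1) = ∫⁻ q, F (Xbr G (p (k + 2)) (p (k + 1)) q)
      ∂(spinField μ ρ) := by
    unfold ek_E
    refine lintegral_congr_ae ?_
    filter_upwards [hFX] with q hq
    rw [hq]
  rw [e1, e2]
  exact h

lemma ek_path_gen [Countable V] (hT : G.IsTree) {θ : ℝ} (h0 : 0 ≤ θ) (h1 : θ < 1)
    {μ : Measure (V → Bool)} [IsProbabilityMeasure μ] (ρ : V → Measure ℝ)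
    [∀ v, IsProbabilityMeasure (ρ v)] (hgood : ∀ᵐ x ∂(fieldLaw μ ρ), Good G θ x) {c : ℝ}
    (hc1 : c ≤ 1) (p : ℕ → V) (n : ℕ) (hp : IsPth G p (n + 1))
    (hkill : ∀ k < n, ek_KillAt G θ μ ρ c (p (k + 1))) :
    ∫ x, (∏ i ∈ Finset.range (n + 1), Real.exp (-(kap θ * al G θ x (p (i + 1)) (p i) ^ 2)))
      ∂(fieldLaw μ ρ) ≤ (1 - c) ^ n := by
  have hκ : 0 ≤ kap θ := by unfold kap; nlinarith
  have hE : ∀ m ≤ n, ek_E G θ μ ρ p n (n - m) ≤ ENNReal.ofReal (1 - c) ^ m := by
    intro m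
    induction m with
    | zero =>
      intro _
      unfold ek_E
      rw [pow_zero]
      calc _ ≤ ∫⁻ _, 1 ∂(spinField μ ρ) := by
            refine lintegral_mono fun q => ?_
            refine Finset.prod_le_one' fun i _ => ?_
            exact ENNReal.ofReal_le_one.2 (ek_al_le G hκ _ _ _)
        _ = 1 := by simp
    | succ m ih =>
      intro hm
      have hs := ek_E_step G hT h0 h1 ρ hgood p n hp (k := n - (m + 1)) (by omega)
        (hkill _ (by omega))
      have e : n - (m + 1) + 1 = n - m := by omega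
      rw [e] at hs
      refine hs.trans ?_
      rw [pow_succ, mul_comm]
      exact mul_le_mul_left (ih (by omega)) _
  have h := hE n le_rfl
  rw [Nat.sub_self] at h
  set f : (V → ℝ) → ℝ := fun x =>
    ∏ i ∈ Finset.range (n + 1), Real.exp (-(kap θ * al G θ x (p (i + 1)) (p i) ^ 2)) with hf
  have hfm : Measurable f := Finset.measurable_prod _ fun i _ => ek_meas_al G θ _ _
  have hf0 : ∀ x, 0 ≤ f x := fun x => Finset.prod_nonneg fun i _ => (Real.exp_pos _).le
  have hf1 : ∀ x, f x ≤ 1 := fun x => Finset.prod_le_one (fun i _ => (Real.exp_pos _).le)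
    fun i _ => ek_al_le G hκ _ _ _
  have e1 : ek_E G θ μ ρ p n 0 = ENNReal.ofReal (∫ x, f x ∂(fieldLaw μ ρ)) := by
    rw [← ek_ofReal_int hfm hf0 hf1]
    have hfm' : Measurable (fun x => ENNReal.ofReal (f x)) := ENNReal.measurable_ofReal.comp hfm
    unfold fieldLaw ek_E
    rw [lintegral_map hfm' measurable_snd]
    refine lintegral_congr fun q => ?_
    simp only [hf]
    rw [ENNReal.ofReal_prod_of_nonneg fun i _ => (Real.exp_pos _).le, Finset.range_eq_Ico]
  rw [e1, ← ENNReal.ofReal_pow (by linarith)] at h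
  exact (ENNReal.ofReal_le_ofReal_iff (pow_nonneg (by linarith) _)).1 h

/-- path products decay -/
theorem kill_path [Countable V] (hT : G.IsTree) {θ : ℝ} (h0 : 0 ≤ θ) (h1 : θ < 1)
    {μ : Measure (V → Bool)} [IsProbabilityMeasure μ] (ρ : V → Measure ℝ)
    [∀ v, IsProbabilityMeasure (ρ v)] (hgood : ∀ᵐ x ∂(fieldLaw μ ρ), Good G θ x) {c : ℝ} (hc : 0 ≤ c)
    (hc1 : c ≤ 1) (hk : KillR G θ μ ρ c) (p : ℕ → V) (n : ℕ) (hp : IsPth G p (n + 1)) :
    ∫ x, (∏ i ∈ Finset.range (n + 1), Real.exp (-(kap θ * al G θ x (p (i + 1)) (p i) ^ 2)))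
      ∂(fieldLaw μ ρ) ≤ (1 - c) ^ n :=
  ek_path_gen G hT h0 h1 ρ hgood hc1 p n hp fun _ _ => hk _

/-- path products decay, when all fields except the last one on the path kill at rate `c` -/
theorem kill_path_own [Countable V] (hT : G.IsTree) {θ : ℝ} (h0 : 0 ≤ θ) (h1 : θ < 1)
    {μ : Measure (V → Bool)} [IsProbabilityMeasure μ] (hμ : IsIsing G θ μ) (ρ : V → Measure ℝ)
    [∀ v, IsProbabilityMeasure (ρ v)] (hgood : ∀ᵐ x ∂(fieldLaw μ ρ), Good G θ x) {c : ℝ} (hc : 0 ≤ c)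
    (hc1 : c ≤ 1) (p : ℕ → V) (n : ℕ) (hp : IsPth G p (n + 1))
    (hk : ∀ v, v ≠ p (n + 1) → ∀ r : ℝ,
      ∫ x, Real.exp (-(kap θ * Real.tanh (x + r) ^ 2)) ∂(ρ v) ≤ 1 - c) :
    ∫ x, (∏ i ∈ Finset.range (n + 1), Real.exp (-(kap θ * al G θ x (p (i + 1)) (p i) ^ 2)))
      ∂(fieldLaw μ ρ) ≤ (1 - c) ^ n := by
  refine ek_path_gen G hT h0 h1 ρ hgood hc1 p n hp fun k hk' => ?_
  refine ek_killAt_own G hT h0 h1 hμ ρ hgood _ (hk _ ?_)
  intro he
  have a1 := isPth_dist G hT hp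
  have a2 := isPth_dist G hT (isPth_mono G hp (m := k + 1) (by omega))
  rw [he] at a2
  omega

theorem one_le_Gs (θ : ℝ) (x : V → ℝ) (n : ℕ) (i j : V) : 1 ≤ Gs G θ x n i j := by
  induction n generalizing i j with
  | zero => exact le_refl _
  | succ n ih =>
    simp only [Gs]
    have : 0 ≤ ∑ c ∈ oth G i j, Real.exp (-(kap θ * al G θ x c i ^ 2)) * Gs G θ x n c i :=
      Finset.sum_nonneg fun c _ => mul_nonneg (Real.exp_pos _).le (by linarith [ih c i])
    nlinarith [sq_nonneg θ, mul_nonneg (sq_nonneg θ) this]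

/-- subcritical case: `Gs` is bounded -/
theorem Gs_sub {d : ℕ} (hd : 3 ≤ d) (hreg : G.IsRegularOfDegree d) {θ : ℝ} (h0 : 0 ≤ θ)
    (h1 : θ < 1) (hcrit : θ ^ 2 * ((d : ℝ) - 1) < 1) (x : V → ℝ) (n : ℕ) {i j : V} (h : G.Adj i j) :
    Gs G θ x n i j ≤ 1 / (1 - θ ^ 2 * ((d : ℝ) - 1)) := by
  have hκ : 0 ≤ kap θ := by unfold kap; nlinarith
  have hd' : (3 : ℝ) ≤ d := by exact_mod_cast hd
  have hpos : 0 < 1 - θ ^ 2 * ((d : ℝ) - 1) := by linarith
  set M := 1 / (1 - θ ^ 2 * ((d : ℝ) - 1)) with hM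
  have hM1 : M * (1 - θ ^ 2 * ((d : ℝ) - 1)) = 1 := by rw [hM]; field_simp
  have hMpos : 0 < M := by rw [hM]; positivity
  induction n generalizing i j with
  | zero =>
    simp only [Gs]
    have : 0 ≤ θ ^ 2 * ((d : ℝ) - 1) := mul_nonneg (sq_nonneg _) (by linarith)
    nlinarith
  | succ n ih =>
    simp only [Gs]
    have hs : ∑ c ∈ oth G i j, Real.exp (-(kap θ * al G θ x c i ^ 2)) * Gs G θ x n c i
        ≤ ∑ _c ∈ oth G i j, M := by
      refine Finset.sum_le_sum fun c hc => ?_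
      have b1 := ek_al_le G hκ x c i
      have b2 := ih (adj_of_mem_oth G hc).symm
      have b3 := one_le_Gs G θ x n c i
      calc _ ≤ 1 * Gs G θ x n c i := mul_le_mul_of_nonneg_right b1 (by linarith)
        _ ≤ M := by linarith
    rw [Finset.sum_const, nsmul_eq_mul] at hs
    have e : ((oth G i j).card : ℝ) = (d : ℝ) - 1 := by
      have := ev_card_oth G hreg h
      rw [← this]; push_cast; ring
    rw [e] at hs
    have := mul_le_mul_of_nonneg_left hs (sq_nonneg θ)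
    nlinarith

lemma ek_meas_T (θ : ℝ) (n : ℕ) (i j : V) : Measurable (fun x : V → ℝ =>
    ENNReal.ofReal (Real.exp (-(kap θ * al G θ x i j ^ 2))) * ENNReal.ofReal (Gs G θ x n i j)) :=
  (ENNReal.measurable_ofReal.comp (ek_meas_al G θ i j)).mul
    (ENNReal.measurable_ofReal.comp (measurable_Gs G θ n i j))

lemma ek_Gs_ofReal (θ : ℝ) (x : V → ℝ) (n : ℕ) (i j : V) :
    ENNReal.ofReal (Gs G θ x (n + 1) i j) = 1 + ENNReal.ofReal (θ ^ 2) * ∑ c ∈ oth G i j,
      ENNReal.ofReal (Real.exp (-(kap θ * al G θ x c i ^ 2))) * ENNReal.ofReal (Gs G θ x n c i) := by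
  simp only [Gs]
  have h1 : ∀ c ∈ oth G i j,
      0 ≤ Real.exp (-(kap θ * al G θ x c i ^ 2)) * Gs G θ x n c i := fun c _ =>
    mul_nonneg (Real.exp_pos _).le (by linarith [one_le_Gs G θ x n c i])
  rw [ENNReal.ofReal_add zero_le_one (mul_nonneg (sq_nonneg _) (Finset.sum_nonneg h1)),
    ENNReal.ofReal_one, ENNReal.ofReal_mul (sq_nonneg _), ENNReal.ofReal_sum_of_nonneg h1]
  congr 2
  refine Finset.sum_congr rfl fun c _ => ?_
  rw [ENNReal.ofReal_mul (Real.exp_pos _).le]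

/-- the bound for the sum over the children -/
lemma ek_sum_le {d : ℕ} (hd : 3 ≤ d) (hreg : G.IsRegularOfDegree d) {θ : ℝ}
    (hcrit : θ ^ 2 * ((d : ℝ) - 1) ≤ 1) {i j : V} (h : G.Adj i j) {B : ℝ} (hB : 0 ≤ B)
    (t : V → ℝ≥0∞) (ht : ∀ c ∈ oth G i j, t c ≤ ENNReal.ofReal B) :
    ENNReal.ofReal (θ ^ 2) * ∑ c ∈ oth G i j, t c ≤ ENNReal.ofReal B := by
  have hd' : (3 : ℝ) ≤ d := by exact_mod_cast hd
  have e : ((oth G i j).card : ℝ) = (d : ℝ) - 1 := by
    have := ev_card_oth G hreg h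
    rw [← this]; push_cast; ring
  calc ENNReal.ofReal (θ ^ 2) * ∑ c ∈ oth G i j, t c
      ≤ ENNReal.ofReal (θ ^ 2) * ∑ _c ∈ oth G i j, ENNReal.ofReal B := by
        gcongr with c hc
        exact ht c hc
    _ = ENNReal.ofReal (θ ^ 2 * ((d : ℝ) - 1) * B) := by
        rw [Finset.sum_const, nsmul_eq_mul, ← e, ENNReal.ofReal_mul (by positivity),
          ENNReal.ofReal_mul (sq_nonneg _), ENNReal.ofReal_natCast, mul_assoc]
    _ ≤ ENNReal.ofReal B := by
        refine ENNReal.ofReal_le_ofReal ?_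
        nlinarith

lemma ek_T_bound [Countable V] (hT : G.IsTree) {d : ℕ} (hd : 3 ≤ d) (hreg : G.IsRegularOfDegree d)
    {θ : ℝ} (h0 : 0 ≤ θ) (h1 : θ < 1) (hcrit : θ ^ 2 * ((d : ℝ) - 1) ≤ 1)
    {μ : Measure (V → Bool)} [IsProbabilityMeasure μ] (ρ : V → Measure ℝ)
    [∀ v, IsProbabilityMeasure (ρ v)] (hgood : ∀ᵐ x ∂(fieldLaw μ ρ), Good G θ x) {c : ℝ} (hc : 0 < c)
    (hc1 : c ≤ 1) (hk : KillR G θ μ ρ c) (n : ℕ) {i j : V} (h : G.Adj i j) :
    ∫⁻ q, ENNReal.ofReal (Real.exp (-(kap θ * al G θ q.2 i j ^ 2)))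
      * ENNReal.ofReal (Gs G θ q.2 n i j) ∂(spinField μ ρ) ≤ ENNReal.ofReal (1 / c) := by
  have hκ : 0 ≤ kap θ := by unfold kap; nlinarith
  have h1c : (1 : ℝ) ≤ 1 / c := by rw [le_div_iff₀ hc]; linarith
  induction n generalizing i j with
  | zero =>
    simp only [Gs, ENNReal.ofReal_one, mul_one]
    calc _ ≤ ∫⁻ _, 1 ∂(spinField μ ρ) :=
          lintegral_mono fun q => ENNReal.ofReal_le_one.2 (ek_al_le G hκ _ _ _)
      _ = ENNReal.ofReal 1 := by simp
      _ ≤ _ := ENNReal.ofReal_le_ofReal h1c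
  | succ n ih =>
    have hme : Measurable (fun q : (V → Bool) × (V → ℝ) =>
        ENNReal.ofReal (Real.exp (-(kap θ * al G θ q.2 i j ^ 2)))) :=
      (ENNReal.measurable_ofReal.comp (ek_meas_al G θ i j)).comp measurable_snd
    have hmT : ∀ c' : V, Measurable (fun q : (V → Bool) × (V → ℝ) =>
        ENNReal.ofReal (Real.exp (-(kap θ * al G θ q.2 c' i ^ 2)))
          * ENNReal.ofReal (Gs G θ q.2 n c' i)) :=
      fun c' => (ek_meas_T G θ n c' i).comp measurable_snd
    have e1 : ∀ q : (V → Bool) × (V → ℝ), ENNReal.ofReal (Real.exp (-(kap θ * al G θ q.2 i j ^ 2)))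
      * ENNReal.ofReal (Gs G θ q.2 (n + 1) i j)
      = ENNReal.ofReal (Real.exp (-(kap θ * al G θ q.2 i j ^ 2)))
        + ENNReal.ofReal (θ ^ 2) * ∑ c' ∈ oth G i j,
          ENNReal.ofReal (Real.exp (-(kap θ * al G θ q.2 i j ^ 2)))
            * (ENNReal.ofReal (Real.exp (-(kap θ * al G θ q.2 c' i ^ 2)))
              * ENNReal.ofReal (Gs G θ q.2 n c' i)) := by
      intro q
      rw [ek_Gs_ofReal, mul_add, mul_one, Finset.mul_sum, Finset.mul_sum, Finset.mul_sum]
      congr 1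
      refine Finset.sum_congr rfl fun c' _ => ?_
      ring
    simp only [e1]
    have hmP : ∀ c' : V, Measurable (fun q : (V → Bool) × (V → ℝ) =>
        ENNReal.ofReal (Real.exp (-(kap θ * al G θ q.2 i j ^ 2)))
            * (ENNReal.ofReal (Real.exp (-(kap θ * al G θ q.2 c' i ^ 2)))
              * ENNReal.ofReal (Gs G θ q.2 n c' i))) := fun c' => hme.mul (hmT c')
    rw [lintegral_add_left hme, lintegral_const_mul _ (Finset.measurable_sum _ fun c' _ =>
      hmP c'), lintegral_finsetSum _ (fun c' _ => hmP c')]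
    have a1 : ∫⁻ q, ENNReal.ofReal (Real.exp (-(kap θ * al G θ q.2 i j ^ 2))) ∂(spinField μ ρ)
        ≤ ENNReal.ofReal 1 := by
      calc _ ≤ ∫⁻ _, 1 ∂(spinField μ ρ) :=
            lintegral_mono fun q => ENNReal.ofReal_le_one.2 (ek_al_le G hκ _ _ _)
        _ = ENNReal.ofReal 1 := by simp
    have a2 : ∀ c' ∈ oth G i j, ∫⁻ q, ENNReal.ofReal (Real.exp (-(kap θ * al G θ q.2 i j ^ 2)))
            * (ENNReal.ofReal (Real.exp (-(kap θ * al G θ q.2 c' i ^ 2)))
              * ENNReal.ofReal (Gs G θ q.2 n c' i)) ∂(spinField μ ρ)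
        ≤ ENNReal.ofReal ((1 - c) * (1 / c)) := by
      intro c' hc'
      have hadj : G.Adj c' i := (adj_of_mem_oth G hc').symm
      have hae : ∀ᵐ q ∂(spinField μ ρ),
          ENNReal.ofReal (Real.exp (-(kap θ * al G θ (Xbr G c' i q) c' i ^ 2)))
            * ENNReal.ofReal (Gs G θ (Xbr G c' i q) n c' i)
          = ENNReal.ofReal (Real.exp (-(kap θ * al G θ q.2 c' i ^ 2)))
            * ENNReal.ofReal (Gs G θ q.2 n c' i) := by
        filter_upwards [spinField_good G hgood] with q hq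
        rw [Gs_Xbr G hT h0 h1 hq n hadj, ek_al_sq_Xbr G hT h0 h1 hq hadj (subset_refl _)]
      have b1 := hk i j h c' hc' (fun x => ENNReal.ofReal (Real.exp (-(kap θ * al G θ x c' i ^ 2)))
            * ENNReal.ofReal (Gs G θ x n c' i)) (ek_meas_T G θ n c' i)
      have b2 : ∫⁻ q, ENNReal.ofReal (Real.exp (-(kap θ * al G θ q.2 i j ^ 2)))
            * (ENNReal.ofReal (Real.exp (-(kap θ * al G θ q.2 c' i ^ 2)))
              * ENNReal.ofReal (Gs G θ q.2 n c' i)) ∂(spinField μ ρ)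
          = ∫⁻ q, ENNReal.ofReal (Real.exp (-(kap θ * al G θ q.2 i j ^ 2)))
            * (ENNReal.ofReal (Real.exp (-(kap θ * al G θ (Xbr G c' i q) c' i ^ 2)))
            * ENNReal.ofReal (Gs G θ (Xbr G c' i q) n c' i)) ∂(spinField μ ρ) := by
        refine lintegral_congr_ae ?_
        filter_upwards [hae] with q hq
        rw [hq]
      have b3 : ∫⁻ q, ENNReal.ofReal (Real.exp (-(kap θ * al G θ (Xbr G c' i q) c' i ^ 2)))
            * ENNReal.ofReal (Gs G θ (Xbr G c' i q) n c' i) ∂(spinField μ ρ)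
          ≤ ENNReal.ofReal (1 / c) := by
        refine (le_of_eq (lintegral_congr_ae ?_)).trans (ih hadj)
        filter_upwards [hae] with q hq
        rw [hq]
      rw [b2, ENNReal.ofReal_mul (by linarith)]
      refine b1.trans ?_
      exact mul_le_mul_right b3 _
    have a3 := ek_sum_le G hd hreg hcrit h (B := (1 - c) * (1 / c))
      (mul_nonneg (by linarith) (by linarith)) _ a2
    calc _ ≤ ENNReal.ofReal 1 + ENNReal.ofReal ((1 - c) * (1 / c)) := add_le_add a1 a3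
      _ = ENNReal.ofReal (1 / c) := by
        rw [← ENNReal.ofReal_add zero_le_one (mul_nonneg (by linarith) (by linarith))]
        congr 1
        field_simp
        ring

lemma ek_Gs_bdd (θ : ℝ) (n : ℕ) (i j : V) : ∃ B, ∀ x : V → ℝ, Gs G θ x n i j ≤ B := by
  induction n generalizing i j with
  | zero => exact ⟨1, fun x => by simp [Gs]⟩
  | succ n ih =>
    choose B hB using ih
    refine ⟨1 + θ ^ 2 * ∑ c ∈ oth G i j, Real.exp |kap θ| * B c i, fun x => ?_⟩
    rw [Gs]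
    gcongr with c _
    · exact zero_le_one.trans (one_le_Gs G θ x n c i)
    · have h1 : al G θ x c i ^ 2 ≤ 1 := (Real.tanh_sq_lt_one _).le
      have h2 := neg_abs_le (kap θ)
      have h3 := abs_nonneg (kap θ)
      nlinarith [sq_nonneg (al G θ x c i)]
    · exact hB c i x

/-- expectation of `Gs` -/
theorem kill_Gs [Countable V] (hT : G.IsTree) {d : ℕ} (hd : 3 ≤ d) (hreg : G.IsRegularOfDegree d)
    {θ : ℝ} (h0 : 0 ≤ θ) (h1 : θ < 1) (hcrit : θ ^ 2 * ((d : ℝ) - 1) ≤ 1)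
    {μ : Measure (V → Bool)} [IsProbabilityMeasure μ] (ρ : V → Measure ℝ)
    [∀ v, IsProbabilityMeasure (ρ v)] (hgood : ∀ᵐ x ∂(fieldLaw μ ρ), Good G θ x) {c : ℝ} (hc : 0 < c)
    (hc1 : c ≤ 1) (hk : KillR G θ μ ρ c) (n : ℕ) {i j : V} (h : G.Adj i j) :
    ∫ x, Gs G θ x n i j ∂(fieldLaw μ ρ) ≤ 1 + 1 / c := by
  have h1c : (0 : ℝ) ≤ 1 / c := by positivity
  obtain ⟨B, hB⟩ := ek_Gs_bdd G θ n i j
  have hm : Measurable (fun x : V → ℝ => ENNReal.ofReal (Gs G θ x n i j)) :=
    ENNReal.measurable_ofReal.comp (measurable_Gs G θ n i j)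
  have e1 : ENNReal.ofReal (∫ x, Gs G θ x n i j ∂(fieldLaw μ ρ))
      = ∫⁻ q, ENNReal.ofReal (Gs G θ q.2 n i j) ∂(spinField μ ρ) := by
    rw [← ek_ofReal_int (measurable_Gs G θ n i j) (fun x => by linarith [one_le_Gs G θ x n i j]) hB]
    unfold fieldLaw
    rw [lintegral_map hm measurable_snd]
  have h2 : ENNReal.ofReal (∫ x, Gs G θ x n i j ∂(fieldLaw μ ρ)) ≤ ENNReal.ofReal (1 + 1 / c) := by
    rw [e1]
    cases n with
    | zero =>
      simp only [Gs, ENNReal.ofReal_one, lintegral_one, measure_univ]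
      rw [← ENNReal.ofReal_one]
      exact ENNReal.ofReal_le_ofReal (by linarith)
    | succ n =>
      simp only [ek_Gs_ofReal]
      have hmT : ∀ c' : V, Measurable (fun q : (V → Bool) × (V → ℝ) =>
          ENNReal.ofReal (Real.exp (-(kap θ * al G θ q.2 c' i ^ 2)))
            * ENNReal.ofReal (Gs G θ q.2 n c' i)) :=
        fun c' => (ek_meas_T G θ n c' i).comp measurable_snd
      rw [lintegral_add_left measurable_const, lintegral_const_mul _ (Finset.measurable_sum _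
        fun c' _ => hmT c'), lintegral_finsetSum _ (fun c' _ => hmT c')]
      have a3 := ek_sum_le G hd hreg hcrit h (B := 1 / c) h1c _ (fun c' hc' =>
        ek_T_bound G hT hd hreg h0 h1 hcrit ρ hgood hc hc1 hk n (adj_of_mem_oth G hc').symm)
      rw [lintegral_one, measure_univ, ENNReal.ofReal_add zero_le_one h1c, ENNReal.ofReal_one]
      exact add_le_add le_rfl a3
  exact (ENNReal.ofReal_le_ofReal_iff (by linarith)).1 h2

lemma ek_R_update (θ : ℝ) (i j : V) [DecidableEq (G.neighborFinset i)]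
    (w : G.neighborFinset i → ℝ × (V → ℝ))
    (c' : G.neighborFinset i) (hc' : (c' : V) ≠ j) :
    ∃ U : ℝ, ∀ y : ℝ × (V → ℝ), ek_R G θ i j (Function.update w c' y)
      = U + y.1 * ff θ (hl G θ y.2 c' i) := by
  classical
  refine ⟨∑ c ∈ Finset.univ.erase c', if (c : V) ≠ j then (w c).1 * ff θ (hl G θ (w c).2 c i) else 0,
    fun y => ?_⟩
  unfold ek_R
  rw [← Finset.sum_erase_add _ _ (Finset.mem_univ c')]
  congr 1
  · refine Finset.sum_congr rfl fun c hc => ?_
    have hne : c ≠ c' := Finset.ne_of_mem_erase hc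
    rw [Function.update_of_ne hne]
  · rw [Function.update_self, if_pos hc']

lemma ek_berS_lint {θ : ℝ} (f : ℝ → ℝ≥0∞) :
    ∫⁻ e, f e ∂(berS θ) = ENNReal.ofReal ((1 + θ) / 2) * f 1 + ENNReal.ofReal ((1 - θ) / 2) * f (-1) := by
  unfold berS
  rw [lintegral_add_measure, lintegral_smul_measure, lintegral_smul_measure, lintegral_dirac,
    lintegral_dirac]
  rfl

/-- the killing constant -/
noncomputable def ek_c0 (θ : ℝ) : ℝ := (1 - θ) / 2 * (1 - Real.exp (-(kap θ * θ ^ 2)))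

lemma ek_inner [Countable V] {θ : ℝ} (h0 : 0 < θ) (h1 : θ < 1)
    {μ : Measure (V → Bool)} [IsProbabilityMeasure μ] (hT : G.IsTree)
    (ρ : V → Measure ℝ) [∀ v, IsProbabilityMeasure (ρ v)]
    (hgood : ∀ᵐ x ∂(fieldLaw μ ρ), Good G θ x) {c' i : V} (h : G.Adj c' i) {q0 : ℝ}
    (hq : q0 ≤ ∫ x, al G θ x c' i ^ 2 ∂(fieldLaw μ ρ)) (U : ℝ) :
    ∫⁻ y, ENNReal.ofReal (Real.exp (-(kap θ * Real.tanh (U + y.1 * ff θ (hl G θ y.2 c' i)) ^ 2)))
      ∂((berS θ).prod ((spinField μ ρ).map (Xbr G c' i))) ≤ ENNReal.ofReal (1 - ek_c0 θ * q0) := by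
  have hbp := bst_berS_prob (t := θ) (by linarith) h1.le
  have hXp : IsProbabilityMeasure ((spinField μ ρ).map (Xbr G c' i)) :=
    Measure.isProbabilityMeasure_map (bst_Xbr_meas G c' i).aemeasurable
  have hκ : 0 < kap θ := by unfold kap; nlinarith
  have hm : Measurable (fun y : ℝ × (V → ℝ) => ENNReal.ofReal
      (Real.exp (-(kap θ * Real.tanh (U + y.1 * ff θ (hl G θ y.2 c' i)) ^ 2)))) := by
    refine ENNReal.measurable_ofReal.comp (Real.measurable_exp.comp
      (Measurable.neg (Measurable.const_mul (Measurable.pow_const ?_ 2) _)))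
    refine continuous_tanh.measurable.comp (measurable_const.add (measurable_fst.mul ?_))
    exact (measurable_ff θ).comp ((measurable_hl G θ c' i).comp measurable_snd)
  rw [lintegral_prod_symm _ hm.aemeasurable]
  have hc0 : 0 ≤ ek_c0 θ := by
    unfold ek_c0
    have : Real.exp (-(kap θ * θ ^ 2)) ≤ 1 := Real.exp_le_one_iff.2 (by
      have := mul_nonneg hκ.le (sq_nonneg θ); linarith)
    exact mul_nonneg (by linarith) (by linarith)
  have hc01 : ek_c0 θ ≤ 1 := by
    unfold ek_c0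
    have := Real.exp_pos (-(kap θ * θ ^ 2))
    nlinarith
  have hpt : ∀ x : V → ℝ, ∫⁻ e, ENNReal.ofReal
      (Real.exp (-(kap θ * Real.tanh (U + e * ff θ (hl G θ x c' i)) ^ 2))) ∂(berS θ)
      ≤ ENNReal.ofReal (1 - ek_c0 θ * al G θ x c' i ^ 2) := by
    intro x
    rw [ek_berS_lint, ← ENNReal.ofReal_mul (by linarith), ← ENNReal.ofReal_mul (by linarith),
      ← ENNReal.ofReal_add (mul_nonneg (by linarith) (Real.exp_pos _).le)
        (mul_nonneg (by linarith) (Real.exp_pos _).le)]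
    refine ENNReal.ofReal_le_ofReal ((ek_two_signs hκ.le h0.le h1).trans ?_)
    have e1 : Real.tanh (ff θ (hl G θ x c' i)) = θ * al G θ x c' i := tanh_ff h0.le h1 _
    rw [e1]
    have hal : al G θ x c' i ^ 2 ≤ 1 := (Real.tanh_sq_lt_one _).le
    have h2 := ek_exp_concave (a := kap θ * θ ^ 2) (sq_nonneg (al G θ x c' i)) hal
    have e2 : kap θ * (θ * al G θ x c' i) ^ 2 = kap θ * θ ^ 2 * al G θ x c' i ^ 2 := by ring
    rw [e2]
    unfold ek_c0
    have h3 : (1 - θ) / 2 * ((1 - Real.exp (-(kap θ * θ ^ 2))) * al G θ x c' i ^ 2)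
        ≤ (1 - θ) / 2 * (1 - Real.exp (-(kap θ * θ ^ 2 * al G θ x c' i ^ 2))) :=
      mul_le_mul_of_nonneg_left (by linarith) (by linarith)
    linarith
  refine (lintegral_mono hpt).trans ?_
  have hmal : Measurable (fun x : V → ℝ => 1 - ek_c0 θ * al G θ x c' i ^ 2) :=
    measurable_const.sub (((measurable_al G θ c' i).pow_const 2).const_mul _)
  have hal : ∀ x : V → ℝ, al G θ x c' i ^ 2 ≤ 1 := fun x => (Real.tanh_sq_lt_one _).le
  have hal0 : ∀ x : V → ℝ, 0 ≤ al G θ x c' i ^ 2 := fun x => sq_nonneg _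
  have hmal' : Measurable (fun x : V → ℝ => ENNReal.ofReal (1 - ek_c0 θ * al G θ x c' i ^ 2)) :=
    ENNReal.measurable_ofReal.comp hmal
  rw [lintegral_map hmal' (bst_Xbr_meas G c' i)]
  have e3 : ∫⁻ q, ENNReal.ofReal (1 - ek_c0 θ * al G θ (Xbr G c' i q) c' i ^ 2) ∂(spinField μ ρ)
      = ∫⁻ x, ENNReal.ofReal (1 - ek_c0 θ * al G θ x c' i ^ 2) ∂(fieldLaw μ ρ) := by
    unfold fieldLaw
    rw [lintegral_map hmal' measurable_snd]
    refine lintegral_congr_ae ?_
    filter_upwards [spinField_good G hgood] with q hq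
    rw [ek_al_sq_Xbr G hT h0.le h1 hq h (subset_refl _)]
  have e4 : ∫⁻ a, ENNReal.ofReal (1 - ek_c0 θ * al G θ (Xbr G c' i a) c' i ^ 2)
      ∂(spinField μ ρ) = ENNReal.ofReal (∫ x, (1 - ek_c0 θ * al G θ x c' i ^ 2) ∂(fieldLaw μ ρ)) := by
    refine e3.trans ?_
    refine ek_ofReal_int hmal (K := 1) (fun x => ?_) (fun x => ?_)
    · nlinarith [hal x, hal0 x]
    · nlinarith [hal x, hal0 x, mul_nonneg hc0 (hal0 x)]
  refine e4.le.trans (ENNReal.ofReal_le_ofReal ?_)
  have hint : Integrable (fun x : V → ℝ => al G θ x c' i ^ 2) (fieldLaw μ ρ) :=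
    Integrable.of_bound ((measurable_al G θ c' i).pow_const 2).aestronglyMeasurable 1
      (ae_of_all _ fun x => by rw [Real.norm_eq_abs, abs_of_nonneg (hal0 x)]; exact hal x)
  rw [integral_sub (integrable_const _) (hint.const_mul _), integral_const_mul]
  simp only [integral_const, probReal_univ, smul_eq_mul, one_mul]
  have := mul_le_mul_of_nonneg_left hq hc0
  linarith

/-- killing by another child (`d ≥ 3`), rate proportional to `q = E α²` -/
theorem killR_q [Countable V] (hT : G.IsTree) {d : ℕ} (hd : 3 ≤ d) (hreg : G.IsRegularOfDegree d)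
    {θ : ℝ} (h0 : 0 < θ) (h1 : θ < 1)
    {μ : Measure (V → Bool)} [IsProbabilityMeasure μ] (hμ : IsIsing G θ μ) :
    ∃ c0 : ℝ, 0 < c0 ∧ c0 ≤ 1 / 2 ∧ ∀ (ρ : Measure ℝ) (L : ℝ), Chan ρ L →
      (∀ᵐ x ∂(fieldLaw μ (fun _ => ρ)), Good G θ x) → ∀ q0 : ℝ, 0 ≤ q0 →
      (∀ i j, G.Adj i j → q0 ≤ ∫ x, al G θ x i j ^ 2 ∂(fieldLaw μ (fun _ => ρ))) →
      KillR G θ μ (fun _ => ρ) (c0 * q0) := by
  classical
  have hκ : 0 < kap θ := by unfold kap; nlinarith
  refine ⟨ek_c0 θ, ?_, ?_, ?_⟩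
  · unfold ek_c0
    have : Real.exp (-(kap θ * θ ^ 2)) < 1 := by
      rw [← Real.exp_zero]
      exact Real.exp_lt_exp.2 (by have := mul_pos hκ (pow_pos h0 2); linarith)
    exact mul_pos (by linarith) (by linarith)
  · unfold ek_c0
    have := Real.exp_pos (-(kap θ * θ ^ 2))
    nlinarith
  intro ρ L hρ hgood q0 hq0 hq i j h c1 hc1 F hF
  have := hρ.prob
  have hbp := bst_berS_prob (t := θ) (by linarith) h1.le
  have hXp : ∀ c : G.neighborFinset i,
      IsProbabilityMeasure ((spinField μ (fun _ => ρ)).map (Xbr G c i)) :=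
    fun c => Measure.isProbabilityMeasure_map (bst_Xbr_meas G c i).aemeasurable
  have hc1' : c1 ∈ G.neighborFinset i := by
    rw [SimpleGraph.mem_neighborFinset]; exact ((mem_oth G).1 hc1).1
  obtain ⟨c', hc', hne⟩ : ∃ c' ∈ oth G i j, c' ≠ c1 := by
    have hcard := ev_card_oth G hreg h
    by_contra hcon
    push Not at hcon
    have : oth G i j ⊆ {c1} := fun c hc => Finset.mem_singleton.2 (hcon c hc)
    have := Finset.card_le_card this
    rw [Finset.card_singleton] at this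
    omega
  have hc'N : c' ∈ G.neighborFinset i := by
    rw [SimpleGraph.mem_neighborFinset]; exact ((mem_oth G).1 hc').1
  have hc'j : c' ≠ j := ((mem_oth G).1 hc').2
  have hadj' : G.Adj c' i := (adj_of_mem_oth G hc').symm
  rw [ek_kill_eq G hT h0.le h1 hμ (fun _ => ρ) hgood h ⟨c1, hc1'⟩ F hF,
    ek_plain_eq G hT h0.le h1 hμ (fun _ => ρ) i ⟨c1, hc1'⟩ F hF]
  have hm : Measurable (fun p : ℝ × (G.neighborFinset i → ℝ × (V → ℝ)) =>
      ENNReal.ofReal (Real.exp (-(kap θ * Real.tanh (p.1 + ek_R G θ i j p.2) ^ 2)))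
          * F (p.2 ⟨c1, hc1'⟩).2) := by
    refine Measurable.mul (ENNReal.measurable_ofReal.comp (Real.measurable_exp.comp
      (Measurable.neg (Measurable.const_mul (Measurable.pow_const ?_ 2) _)))) (hF.comp (by fun_prop))
    exact continuous_tanh.measurable.comp
      (measurable_fst.add ((ek_R_meas G θ i j).comp measurable_snd))
  have hmF : Measurable (fun w : G.neighborFinset i → ℝ × (V → ℝ) => F (w ⟨c1, hc1'⟩).2) :=
    hF.comp (by fun_prop)
  rw [lintegral_prod _ hm.aemeasurable]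
  have key : ∀ a : ℝ, ∫⁻ w, ENNReal.ofReal (Real.exp (-(kap θ * Real.tanh (a + ek_R G θ i j w) ^ 2)))
          * F (w ⟨c1, hc1'⟩).2 ∂(Measure.pi (fun c : G.neighborFinset i =>
          (berS θ).prod ((spinField μ (fun _ => ρ)).map (Xbr G c i))))
      ≤ ENNReal.ofReal (1 - ek_c0 θ * q0) * ∫⁻ w, F (w ⟨c1, hc1'⟩).2 ∂(Measure.pi
        (fun c : G.neighborFinset i => (berS θ).prod ((spinField μ (fun _ => ρ)).map (Xbr G c i)))) := by
    intro a
    have hma : Measurable (fun w : G.neighborFinset i → ℝ × (V → ℝ) =>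
        ENNReal.ofReal (Real.exp (-(kap θ * Real.tanh (a + ek_R G θ i j w) ^ 2)))
          * F (w ⟨c1, hc1'⟩).2) := by
      refine Measurable.mul (ENNReal.measurable_ofReal.comp (Real.measurable_exp.comp
        (Measurable.neg (Measurable.const_mul (Measurable.pow_const ?_ 2) _)))) hmF
      exact continuous_tanh.measurable.comp (measurable_const.add (ek_R_meas G θ i j))
    rw [ek_lintegral_update _ (⟨c', hc'N⟩ : G.neighborFinset i) hma, ← lintegral_const_mul _ hmF]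
    refine lintegral_mono fun w => ?_
    obtain ⟨U, hU⟩ := ek_R_update G θ i j w ⟨c', hc'N⟩ hc'j
    have hne' : (⟨c1, hc1'⟩ : G.neighborFinset i) ≠ ⟨c', hc'N⟩ := by
      intro he
      exact hne (congrArg Subtype.val he).symm
    have e1 : ∀ y : ℝ × (V → ℝ), ENNReal.ofReal (Real.exp (-(kap θ * Real.tanh
          (a + ek_R G θ i j (Function.update w ⟨c', hc'N⟩ y)) ^ 2)))
          * F (Function.update w ⟨c', hc'N⟩ y ⟨c1, hc1'⟩).2
        = ENNReal.ofReal (Real.exp (-(kap θ * Real.tanh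
          ((a + U) + y.1 * ff θ (hl G θ y.2 c' i)) ^ 2))) * F (w ⟨c1, hc1'⟩).2 := by
      intro y
      rw [hU y, Function.update_of_ne hne', add_assoc]
    simp only [e1]
    have hmy : Measurable (fun y : ℝ × (V → ℝ) => ENNReal.ofReal (Real.exp (-(kap θ * Real.tanh
          ((a + U) + y.1 * ff θ (hl G θ y.2 c' i)) ^ 2)))) := by
      refine ENNReal.measurable_ofReal.comp (Real.measurable_exp.comp
        (Measurable.neg (Measurable.const_mul (Measurable.pow_const ?_ 2) _)))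
      refine continuous_tanh.measurable.comp (measurable_const.add (measurable_fst.mul ?_))
      exact (measurable_ff θ).comp ((measurable_hl G θ c' i).comp measurable_snd)
    have h3 := ek_inner G h0 h1 hT (fun _ => ρ) hgood hadj' (hq c' i hadj') (a + U)
    generalize F (w ⟨c1, hc1'⟩).2 = B
    exact (lintegral_mul_const B hmy).le.trans (ek_mul_le h3 B)
  calc _ ≤ ∫⁻ _, ENNReal.ofReal (1 - ek_c0 θ * q0) * ∫⁻ w, F (w ⟨c1, hc1'⟩).2 ∂(Measure.pi
        (fun c : G.neighborFinset i => (berS θ).prod ((spinField μ (fun _ => ρ)).map (Xbr G c i))))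
        ∂ρ := lintegral_mono key
    _ = _ := by rw [lintegral_const, measure_univ, mul_one]

end Crest.Agent.FI
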