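import Mathlib
import Crest.Agent.FI.Defs
import Crest.Agent.FI.Real
import Crest.Agent.FI.Alg
import Crest.Agent.FI.EnvBase

/-!
Second moment of the messages near the threshold (row 160).
-/

set_option autoImplicit false

namespace Crest.Agent.FI

open MeasureTheory ProbabilityTheory Set Filter Topology
open scoped ENNReal

/-! ### the Nishimori identity, symmetrised -/

theorem exp_tanh (x : ℝ) :
    (1 + Real.tanh x) * Real.exp (-(2 * x)) = 1 - Real.tanh x := by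
  rw [Real.tanh_eq_sinh_div_cosh, Real.sinh_eq, Real.cosh_eq]
  have e1 : Real.exp (-(2 * x)) = Real.exp (-x) / Real.exp x := by
    rw [← Real.exp_sub]
    congr 1
    ring
  have hp := Real.exp_pos x
  have hn := Real.exp_pos (-x)
  rw [e1]
  field_simp
  ring

theorem nish_half {Ω : Type*} [MeasurableSpace Ω] {P : Measure Ω} {Y : Ω → ℝ} (hY : Measurable Y)
    (hN : NishF P Y) (g : ℝ → ℝ≥0∞) (hg : Measurable g) :
    ∫⁻ ω, g (Y ω) ∂P = ∫⁻ ω, (ENNReal.ofReal ((1 + Real.tanh (Y ω)) / 2) * g (Y ω)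
      + ENNReal.ofReal ((1 - Real.tanh (Y ω)) / 2) * g (-(Y ω))) ∂P := by
  have hth := continuous_tanh.measurable
  have hm1 : Measurable (fun y : ℝ => ENNReal.ofReal ((1 + Real.tanh y) / 2) * g y) := by fun_prop
  have hm2 : Measurable (fun y : ℝ => ENNReal.ofReal ((1 - Real.tanh y) / 2) * g (-y)) := by fun_prop
  have hm3 : Measurable (fun ω => ENNReal.ofReal ((1 + Real.tanh (Y ω)) / 2) * g (Y ω)) :=
    hm1.comp hY
  rw [lintegral_add_left hm3]
  have h2 := hN (fun y => ENNReal.ofReal ((1 + Real.tanh y) / 2) * g y) hm1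
  have h3 : ∫⁻ ω, ENNReal.ofReal ((1 - Real.tanh (Y ω)) / 2) * g (-(Y ω)) ∂P
      = ∫⁻ ω, ENNReal.ofReal ((1 - Real.tanh (Y ω)) / 2) * g (Y ω) ∂P := by
    calc ∫⁻ ω, ENNReal.ofReal ((1 - Real.tanh (Y ω)) / 2) * g (-(Y ω)) ∂P
        = ∫⁻ ω, ENNReal.ofReal ((1 + Real.tanh (-(Y ω))) / 2) * g (-(Y ω)) ∂P := by
          refine lintegral_congr fun ω => ?_
          rw [Real.tanh_neg]; rfl
      _ = ∫⁻ ω, ENNReal.ofReal ((1 + Real.tanh (Y ω)) / 2) * g (Y ω)
            * ENNReal.ofReal (Real.exp (-(2 * Y ω))) ∂P := h2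
      _ = _ := by
          refine lintegral_congr fun ω => ?_
          have hp : 0 ≤ (1 + Real.tanh (Y ω)) / 2 := by
            have := (tanh_mem (Y ω)).1
            linarith
          rw [mul_right_comm, ← ENNReal.ofReal_mul hp]
          congr 2
          have := exp_tanh (Y ω)
          linarith
  rw [h3, ← lintegral_add_left hm3]
  refine lintegral_congr fun ω => ?_
  have hp1 : 0 ≤ (1 + Real.tanh (Y ω)) / 2 := by
    have := (tanh_mem (Y ω)).1
    linarith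
  have hp2 : 0 ≤ (1 - Real.tanh (Y ω)) / 2 := by
    have := (tanh_mem (Y ω)).2
    linarith
  rw [← add_mul, ← ENNReal.ofReal_add hp1 hp2]
  have : (1 + Real.tanh (Y ω)) / 2 + (1 - Real.tanh (Y ω)) / 2 = 1 := by ring
  rw [this, ENNReal.ofReal_one, one_mul]

theorem tanh_abs_lt (x : ℝ) : |Real.tanh x| < 1 := abs_lt.2 ⟨(tanh_mem x).1, (tanh_mem x).2⟩

theorem one_sub_tanh_add_sq (s t : ℝ) :
    1 - Real.tanh (s + t) ^ 2 = (1 - Real.tanh s ^ 2) * (1 - Real.tanh t ^ 2)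
      / (1 + Real.tanh s * Real.tanh t) ^ 2 := by
  have h := (one_add_tanh_mul_pos s t).ne'
  rw [tanh_add', div_pow, eq_div_iff (pow_ne_zero 2 h), sub_mul,
    div_mul_cancel₀ _ (pow_ne_zero 2 h)]
  ring

theorem four_id {a b : ℝ} (ha : |a| < 1) (hb : |b| < 1) :
    (1 + a) / 2 * ((1 + b) / 2 * ((1 - a ^ 2) * (1 - b ^ 2) / (1 + a * b) ^ 2)
        + (1 - b) / 2 * ((1 - a ^ 2) * (1 - b ^ 2) / (1 - a * b) ^ 2))
      + (1 - a) / 2 * ((1 + b) / 2 * ((1 - a ^ 2) * (1 - b ^ 2) / (1 - a * b) ^ 2)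
        + (1 - b) / 2 * ((1 - a ^ 2) * (1 - b ^ 2) / (1 + a * b) ^ 2))
      = (1 - a ^ 2) * (1 - b ^ 2) / (1 - a ^ 2 * b ^ 2) := by
  have hab : |a * b| < 1 := by
    rw [abs_mul]
    nlinarith [abs_nonneg a, abs_nonneg b]
  have h1 : 0 < 1 + a * b := by linarith [(abs_lt.1 hab).1]
  have h2 : 0 < 1 - a * b := by linarith [(abs_lt.1 hab).2]
  have h3 : 1 - a ^ 2 * b ^ 2 = (1 + a * b) * (1 - a * b) := by ring
  rw [h3]
  set K := (1 - a ^ 2) * (1 - b ^ 2)
  have e : ∀ u v : ℝ, u ≠ 0 → v ≠ 0 → u + v = 2 →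
      (1 + a) / 2 * ((1 + b) / 2 * (K / u ^ 2) + (1 - b) / 2 * (K / v ^ 2))
      + (1 - a) / 2 * ((1 + b) / 2 * (K / v ^ 2) + (1 - b) / 2 * (K / u ^ 2))
      = K * ((1 + a * b) / 2 / u ^ 2 + (1 - a * b) / 2 / v ^ 2) := by
    intro u v hu hv _
    field_simp
    ring
  rw [e _ _ h1.ne' h2.ne' (by ring)]
  field_simp
  ring

/-- auxiliary -/
noncomputable def nF (s t : ℝ) : ℝ≥0∞ := ENNReal.ofReal (1 - Real.tanh (s + t) ^ 2)

/-- auxiliary -/
noncomputable def nG (s t : ℝ) : ℝ≥0∞ := ENNReal.ofReal ((1 + Real.tanh t) / 2) * nF s t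
      + ENNReal.ofReal ((1 - Real.tanh t) / 2) * nF s (-t)

/-- auxiliary -/
noncomputable def nH (s t : ℝ) : ℝ := (1 - Real.tanh s ^ 2) * (1 - Real.tanh t ^ 2)
          / (1 - Real.tanh s ^ 2 * Real.tanh t ^ 2)

theorem measurable_nF {Ω : Type*} [MeasurableSpace Ω] {f k : Ω → ℝ} (hf : Measurable f)
    (hk : Measurable k) : Measurable (fun ω => nF (f ω) (k ω)) := by
  have hth := continuous_tanh.measurable
  unfold nF
  fun_prop

theorem measurable_nG {Ω : Type*} [MeasurableSpace Ω] {f k : Ω → ℝ} (hf : Measurable f)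
    (hk : Measurable k) : Measurable (fun ω => nG (f ω) (k ω)) := by
  have hth := continuous_tanh.measurable
  unfold nG nF
  fun_prop

theorem measurable_nH {Ω : Type*} [MeasurableSpace Ω] {f k : Ω → ℝ} (hf : Measurable f)
    (hk : Measurable k) : Measurable (fun ω => nH (f ω) (k ω)) := by
  have hth := continuous_tanh.measurable
  unfold nH
  fun_prop

theorem one_sub_tanh_sq_nonneg (u : ℝ) : 0 ≤ 1 - Real.tanh u ^ 2 := by
  have := tanh_abs_lt u
  have := (sq_lt_one_iff_abs_lt_one _).2 this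
  linarith

theorem nG_combine (s t : ℝ) : ENNReal.ofReal ((1 + Real.tanh s) / 2) * nG s t
      + ENNReal.ofReal ((1 - Real.tanh s) / 2) * nG (-s) t = ENNReal.ofReal (nH s t) := by
  unfold nG nF nH
  have ha := tanh_abs_lt s
  have hb := tanh_abs_lt t
  have ha' := abs_lt.1 ha
  have hb' := abs_lt.1 hb
  have e1 := one_sub_tanh_add_sq s t
  have e2 := one_sub_tanh_add_sq s (-t)
  have e3 := one_sub_tanh_add_sq (-s) t
  have e4 := one_sub_tanh_add_sq (-s) (-t)
  simp only [Real.tanh_neg, neg_sq, mul_neg, neg_mul, neg_neg, ← sub_eq_add_neg (1 : ℝ)] at e2 e3 e4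
  have q1 := one_sub_tanh_sq_nonneg
  have p1 : 0 ≤ (1 + Real.tanh s) / 2 := by linarith
  have p2 : 0 ≤ (1 - Real.tanh s) / 2 := by linarith
  have p3 : 0 ≤ (1 + Real.tanh t) / 2 := by linarith
  have p4 : 0 ≤ (1 - Real.tanh t) / 2 := by linarith
  rw [← ENNReal.ofReal_mul p3, ← ENNReal.ofReal_mul p4, ← ENNReal.ofReal_mul p3,
    ← ENNReal.ofReal_mul p4, ← ENNReal.ofReal_add (mul_nonneg p3 (q1 _))
    (mul_nonneg p4 (q1 _)), ← ENNReal.ofReal_add (mul_nonneg p3 (q1 _))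
    (mul_nonneg p4 (q1 _)), ← ENNReal.ofReal_mul p1, ← ENNReal.ofReal_mul p2,
    ← ENNReal.ofReal_add (mul_nonneg p1 (add_nonneg (mul_nonneg p3 (q1 _))
    (mul_nonneg p4 (q1 _)))) (mul_nonneg p2 (add_nonneg (mul_nonneg p3 (q1 _))
    (mul_nonneg p4 (q1 _))))]
  congr 1
  rw [e1, e2, e3, e4]
  exact four_id ha hb

theorem nish_pair {Ω Ω' : Type*} [MeasurableSpace Ω] [MeasurableSpace Ω'] {α : Measure Ω}
    {β : Measure Ω'} [SFinite α] [SFinite β] {f : Ω → ℝ} {k : Ω' → ℝ} (hf : Measurable f)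
    (hk : Measurable k) (h1 : NishF α f) (h2 : NishF β k) :
    ∫⁻ z, nF (f z.1) (k z.2) ∂(α.prod β)
      = ∫⁻ z, ENNReal.ofReal (nH (f z.1) (k z.2)) ∂(α.prod β) := by
  have hf' : Measurable (fun z : Ω × Ω' => f z.1) := hf.comp measurable_fst
  have hk' : Measurable (fun z : Ω × Ω' => k z.2) := hk.comp measurable_snd
  have hm0 := measurable_nF hf' hk'
  have hm1 := measurable_nG hf' hk'
  have hm2 := (measurable_nH hf' hk').ennreal_ofReal
  have e1 : ∀ x, ∫⁻ y, nF (f x) (k y) ∂β = ∫⁻ y, nG (f x) (k y) ∂β := fun x =>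
    nish_half hk h2 (fun t => nF (f x) t) (measurable_nF measurable_const measurable_id)
  have e2 : ∀ y, ∫⁻ x, nG (f x) (k y) ∂α = ∫⁻ x, ENNReal.ofReal (nH (f x) (k y)) ∂α := by
    intro y
    have e3 := nish_half hf h1 (fun s => nG s (k y)) (measurable_nG measurable_id measurable_const)
    rw [e3]
    exact lintegral_congr fun x => nG_combine (f x) (k y)
  calc ∫⁻ z, nF (f z.1) (k z.2) ∂(α.prod β)
      = ∫⁻ x, ∫⁻ y, nF (f x) (k y) ∂β ∂α := lintegral_prod _ hm0.aemeasurable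
    _ = ∫⁻ x, ∫⁻ y, nG (f x) (k y) ∂β ∂α := lintegral_congr fun x => e1 x
    _ = ∫⁻ y, ∫⁻ x, nG (f x) (k y) ∂α ∂β := lintegral_lintegral_swap hm1.aemeasurable
    _ = ∫⁻ y, ∫⁻ x, ENNReal.ofReal (nH (f x) (k y)) ∂α ∂β := lintegral_congr fun y => e2 y
    _ = _ := (lintegral_prod_symm _ hm2.aemeasurable).symm

theorem nH_nonneg (s t : ℝ) : 0 ≤ nH s t := by
  have ha := one_sub_tanh_sq_nonneg s
  have hb := one_sub_tanh_sq_nonneg t
  have ha' := sq_nonneg (Real.tanh s)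
  have hb' := sq_nonneg (Real.tanh t)
  unfold nH
  refine div_nonneg (mul_nonneg ha hb) ?_
  nlinarith

theorem nH_den_pos (s t : ℝ) : 0 < 1 - Real.tanh s ^ 2 * Real.tanh t ^ 2 := by
  have ha := (sq_lt_one_iff_abs_lt_one _).2 (tanh_abs_lt s)
  have hb := (sq_lt_one_iff_abs_lt_one _).2 (tanh_abs_lt t)
  have ha' := sq_nonneg (Real.tanh s)
  have hb' := sq_nonneg (Real.tanh t)
  nlinarith

theorem nH_lower (s t : ℝ) : (1 - Real.tanh s ^ 2) * (1 - Real.tanh t ^ 2) ≤ nH s t := by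
  have h := nH_den_pos s t
  have ha := one_sub_tanh_sq_nonneg s
  have hb := one_sub_tanh_sq_nonneg t
  unfold nH
  rw [le_div_iff₀ h]
  have : 0 ≤ Real.tanh s ^ 2 * Real.tanh t ^ 2 := by positivity
  nlinarith [mul_nonneg ha hb, mul_nonneg (mul_nonneg ha hb) this]

theorem nH_upper (s t : ℝ) : nH s t ≤ 1 - Real.tanh s ^ 2 - Real.tanh t ^ 2
    + 2 * (Real.tanh s ^ 2 * Real.tanh t ^ 2) := by
  have h := nH_den_pos s t
  have ha := one_sub_tanh_sq_nonneg s
  have hb := one_sub_tanh_sq_nonneg t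
  unfold nH
  rw [div_le_iff₀ h]
  have ha' := sq_nonneg (Real.tanh s)
  have hb' := sq_nonneg (Real.tanh t)
  set u := Real.tanh s ^ 2
  set v := Real.tanh t ^ 2
  have e : (1 - u - v + 2 * (u * v)) * (1 - u * v) - (1 - u) * (1 - v)
      = (u * v) * (u * (1 - v) + v * (1 - u)) := by ring
  have : 0 ≤ (u * v) * (u * (1 - v) + v * (1 - u)) := by positivity
  linarith

theorem nH_upper' (s t : ℝ) : nH s t ≤ 1 - Real.tanh s ^ 2 := by
  have h := nH_den_pos s t
  have ha := one_sub_tanh_sq_nonneg s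
  have hb := one_sub_tanh_sq_nonneg t
  unfold nH
  rw [div_le_iff₀ h]
  refine mul_le_mul_of_nonneg_left ?_ ha
  have hb' := sq_nonneg (Real.tanh t)
  nlinarith

theorem integrable_of_bdd01 {Ω : Type*} [MeasurableSpace Ω] {P : Measure Ω} [IsFiniteMeasure P]
    {f : Ω → ℝ} (hf : Measurable f) (C : ℝ) (h : ∀ ω, |f ω| ≤ C) : Integrable f P :=
  Integrable.of_bound hf.aestronglyMeasurable C (Eventually.of_forall h)

theorem tanh_sq_bdd (x : ℝ) : |Real.tanh x ^ 2| ≤ 1 := by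
  rw [abs_of_nonneg (sq_nonneg _)]
  linarith [one_sub_tanh_sq_nonneg x]

theorem integrable_tanh_sq {Ω : Type*} [MeasurableSpace Ω] {P : Measure Ω} [IsFiniteMeasure P]
    {Y : Ω → ℝ} (hY : Measurable Y) : Integrable (fun ω => Real.tanh (Y ω) ^ 2) P :=
  integrable_of_bdd01 ((continuous_tanh.measurable.comp hY).pow_const 2) 1 fun _ => tanh_sq_bdd _

theorem nH_bdd (s t : ℝ) : |nH s t| ≤ 1 := by
  rw [abs_of_nonneg (nH_nonneg s t)]
  linarith [nH_upper' s t, sq_nonneg (Real.tanh s)]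

theorem q_pair {Ω Ω' : Type*} [MeasurableSpace Ω] [MeasurableSpace Ω'] {α : Measure Ω}
    {β : Measure Ω'} [IsProbabilityMeasure α] [IsProbabilityMeasure β] {f : Ω → ℝ} {k : Ω' → ℝ}
    (hf : Measurable f) (hk : Measurable k) (h1 : NishF α f) (h2 : NishF β k) :
    1 - ∫ z, Real.tanh (f z.1 + k z.2) ^ 2 ∂(α.prod β) = ∫ z, nH (f z.1) (k z.2) ∂(α.prod β) := by
  have hf' : Measurable (fun z : Ω × Ω' => f z.1) := hf.comp measurable_fst
  have hk' : Measurable (fun z : Ω × Ω' => k z.2) := hk.comp measurable_snd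
  have hm : Measurable (fun z : Ω × Ω' => 1 - Real.tanh (f z.1 + k z.2) ^ 2) :=
    measurable_const.sub ((continuous_tanh.measurable.comp (hf'.add hk')).pow_const 2)
  have hs : Measurable (fun z : Ω × Ω' => f z.1 + k z.2) := hf'.add hk'
  have e1 : 1 - ∫ z, Real.tanh (f z.1 + k z.2) ^ 2 ∂(α.prod β)
      = ∫ z, (1 - Real.tanh (f z.1 + k z.2) ^ 2) ∂(α.prod β) := by
    rw [integral_sub (integrable_const _) (integrable_tanh_sq hs)]
    simp
  rw [e1, integral_eq_lintegral_of_nonneg_ae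
    (Eventually.of_forall fun z => one_sub_tanh_sq_nonneg _) hm.aestronglyMeasurable,
    integral_eq_lintegral_of_nonneg_ae
    (Eventually.of_forall fun z => nH_nonneg _ _) (measurable_nH hf' hk').aestronglyMeasurable]
  congr 1
  exact nish_pair hf hk h1 h2

theorem q_prod_bounds {Ω Ω' : Type*} [MeasurableSpace Ω] [MeasurableSpace Ω'] {α : Measure Ω}
    {β : Measure Ω'} [IsProbabilityMeasure α] [IsProbabilityMeasure β] {f : Ω → ℝ} {k : Ω' → ℝ}
    (hf : Measurable f) (hk : Measurable k) (h1 : NishF α f) (h2 : NishF β k) {A B Q : ℝ}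
    (hA : ∫ x, Real.tanh (f x) ^ 2 ∂α = A) (hB : ∫ y, Real.tanh (k y) ^ 2 ∂β = B)
    (hQ : ∫ z, Real.tanh (f z.1 + k z.2) ^ 2 ∂(α.prod β) = Q) :
    (1 - A) * (1 - B) ≤ 1 - Q ∧ 1 - Q ≤ 1 - A - B + 2 * (A * B) ∧ 1 - Q ≤ 1 - A := by
  have hf' : Measurable (fun z : Ω × Ω' => f z.1) := hf.comp measurable_fst
  have hk' : Measurable (fun z : Ω × Ω' => k z.2) := hk.comp measurable_snd
  have hi1 : Integrable (fun z : Ω × Ω' => Real.tanh (f z.1) ^ 2) (α.prod β) :=
    integrable_tanh_sq hf'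
  have hi2 : Integrable (fun z : Ω × Ω' => Real.tanh (k z.2) ^ 2) (α.prod β) :=
    integrable_tanh_sq hk'
  have hi3 : Integrable (fun z : Ω × Ω' => Real.tanh (f z.1) ^ 2 * Real.tanh (k z.2) ^ 2)
      (α.prod β) := by
    refine integrable_of_bdd01 (((continuous_tanh.measurable.comp hf').pow_const 2).mul
      ((continuous_tanh.measurable.comp hk').pow_const 2)) 1 fun z => ?_
    rw [abs_mul]
    exact mul_le_one₀ (tanh_sq_bdd _) (abs_nonneg _) (tanh_sq_bdd _)
  have hiH : Integrable (fun z : Ω × Ω' => nH (f z.1) (k z.2)) (α.prod β) :=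
    integrable_of_bdd01 (measurable_nH hf' hk') 1 fun z => nH_bdd _ _
  have hj1 : Integrable (fun z : Ω × Ω' => 1 - Real.tanh (f z.1) ^ 2) (α.prod β) :=
    (integrable_const _).sub hi1
  have hj2 : Integrable (fun z : Ω × Ω' => Real.tanh (k z.2) ^ 2
      - Real.tanh (f z.1) ^ 2 * Real.tanh (k z.2) ^ 2) (α.prod β) := hi2.sub hi3
  have hj3 : Integrable (fun z : Ω × Ω' => Real.tanh (k z.2) ^ 2
      - 2 * (Real.tanh (f z.1) ^ 2 * Real.tanh (k z.2) ^ 2)) (α.prod β) :=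
    hi2.sub (hi3.const_mul 2)
  have e1 : ∫ z : Ω × Ω', Real.tanh (f z.1) ^ 2 ∂(α.prod β) = A := by
    rw [← hA]
    have := integral_prod_mul (μ := α) (ν := β) (fun x => Real.tanh (f x) ^ 2) (fun _ => (1 : ℝ))
    simpa using this
  have e2 : ∫ z : Ω × Ω', Real.tanh (k z.2) ^ 2 ∂(α.prod β) = B := by
    rw [← hB]
    have := integral_prod_mul (μ := α) (ν := β) (fun _ => (1 : ℝ)) (fun y => Real.tanh (k y) ^ 2)
    simpa using this
  have e3 : ∫ z : Ω × Ω', Real.tanh (f z.1) ^ 2 * Real.tanh (k z.2) ^ 2 ∂(α.prod β) = A * B := by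
    rw [← hA, ← hB]
    exact integral_prod_mul (μ := α) (ν := β) (fun x => Real.tanh (f x) ^ 2)
      (fun y => Real.tanh (k y) ^ 2)
  rw [← hQ, q_pair hf hk h1 h2]
  refine ⟨?_, ?_, ?_⟩
  · calc (1 - A) * (1 - B) = ∫ z : Ω × Ω', ((1 - Real.tanh (f z.1) ^ 2) - (Real.tanh (k z.2) ^ 2
          - Real.tanh (f z.1) ^ 2 * Real.tanh (k z.2) ^ 2)) ∂(α.prod β) := by
          rw [integral_sub hj1 hj2,
            integral_sub (integrable_const _) hi1, integral_sub hi2 hi3, e1, e2, e3]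
          simp
          ring
      _ ≤ _ := by
          refine integral_mono (((integrable_const _).sub hi1).sub (hi2.sub hi3)) hiH fun z => ?_
          have := nH_lower (f z.1) (k z.2)
          simp only
          linarith
  · calc ∫ z, nH (f z.1) (k z.2) ∂(α.prod β)
        ≤ ∫ z : Ω × Ω', ((1 - Real.tanh (f z.1) ^ 2) - (Real.tanh (k z.2) ^ 2
          - 2 * (Real.tanh (f z.1) ^ 2 * Real.tanh (k z.2) ^ 2))) ∂(α.prod β) := by
          refine integral_mono hiH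
            (((integrable_const _).sub hi1).sub (hi2.sub (hi3.const_mul 2))) fun z => ?_
          have := nH_upper (f z.1) (k z.2)
          simp only
          linarith
      _ = _ := by
          rw [integral_sub hj1 hj3,
            integral_sub (integrable_const _) hi1, integral_sub hi2 (hi3.const_mul 2),
            integral_const_mul, e1, e2, e3]
          simp
          ring
  · calc ∫ z, nH (f z.1) (k z.2) ∂(α.prod β)
        ≤ ∫ z : Ω × Ω', (1 - Real.tanh (f z.1) ^ 2) ∂(α.prod β) :=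
          integral_mono hiH ((integrable_const _).sub hi1) fun z => nH_upper' _ _
      _ = _ := by
          rw [integral_sub (integrable_const _) hi1, e1]
          simp

theorem q_add_bounds {Ω : Type*} [MeasurableSpace Ω] {P : Measure Ω} [IsProbabilityMeasure P]
    {Y Z : Ω → ℝ} (hY : Measurable Y) (hZ : Measurable Z) (hi : IndepFun Y Z P)
    (h1 : NishF P Y) (h2 : NishF P Z) {A B Q : ℝ}
    (hA : ∫ ω, Real.tanh (Y ω) ^ 2 ∂P = A) (hB : ∫ ω, Real.tanh (Z ω) ^ 2 ∂P = B)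
    (hQ : ∫ ω, Real.tanh (Y ω + Z ω) ^ 2 ∂P = Q) :
    (1 - A) * (1 - B) ≤ 1 - Q ∧ 1 - Q ≤ 1 - A - B + 2 * (A * B) ∧ 1 - Q ≤ 1 - A := by
  have hpY : IsProbabilityMeasure (P.map Y) := Measure.isProbabilityMeasure_map hY.aemeasurable
  have hpZ : IsProbabilityMeasure (P.map Z) := Measure.isProbabilityMeasure_map hZ.aemeasurable
  have h1' : NishF (P.map Y) (fun x => x) := (nishF_map hY measurable_id).2 h1
  have h2' : NishF (P.map Z) (fun x => x) := (nishF_map hZ measurable_id).2 h2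
  have hth : Measurable (fun x : ℝ => Real.tanh x ^ 2) :=
    continuous_tanh.measurable.pow_const 2
  refine q_prod_bounds (α := P.map Y) (β := P.map Z) (f := fun x => x) (k := fun x => x)
    measurable_id measurable_id h1' h2' ?_ ?_ ?_
  · rw [← hA, integral_map hY.aemeasurable hth.aestronglyMeasurable]
  · rw [← hB, integral_map hZ.aemeasurable hth.aestronglyMeasurable]
  · rw [← (indepFun_iff_map_prod_eq_prod_map_map hY.aemeasurable hZ.aemeasurable).1 hi, ← hQ,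
      integral_map (hY.prodMk hZ).aemeasurable]
    exact (hth.comp (measurable_fst.add measurable_snd)).aestronglyMeasurable

theorem q_nonneg {Ω : Type*} [MeasurableSpace Ω] {P : Measure Ω} (Y : Ω → ℝ) :
    0 ≤ ∫ ω, Real.tanh (Y ω) ^ 2 ∂P := integral_nonneg fun _ => sq_nonneg _

theorem q_le_one {Ω : Type*} [MeasurableSpace Ω] {P : Measure Ω} [IsProbabilityMeasure P]
    {Y : Ω → ℝ} (hY : Measurable Y) : ∫ ω, Real.tanh (Y ω) ^ 2 ∂P ≤ 1 := by
  calc ∫ ω, Real.tanh (Y ω) ^ 2 ∂P ≤ ∫ _ω, (1 : ℝ) ∂P :=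
        integral_mono (integrable_tanh_sq hY) (integrable_const _) fun ω => by
          have := one_sub_tanh_sq_nonneg (Y ω)
          simp only
          linarith
    _ = 1 := by simp

theorem q_sum_bounds {Ω ι : Type*} [MeasurableSpace Ω] {P : Measure Ω} [IsProbabilityMeasure P]
    {Y : ι → Ω → ℝ} (hY : ∀ i, Measurable (Y i)) (hi : iIndepFun Y P) (h : ∀ i, NishF P (Y i))
    (A : Finset ι) {t : ℝ} (ht : ∀ i ∈ A, ∫ ω, Real.tanh (Y i ω) ^ 2 ∂P = t) :
    ∫ ω, Real.tanh (∑ i ∈ A, Y i ω) ^ 2 ∂P ≤ A.card * t ∧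
      A.card * t - 2 * (A.card * t) ^ 2 ≤ ∫ ω, Real.tanh (∑ i ∈ A, Y i ω) ^ 2 ∂P ∧
      (1 - t) ^ A.card ≤ 1 - ∫ ω, Real.tanh (∑ i ∈ A, Y i ω) ^ 2 ∂P := by
  classical
  induction A using Finset.induction_on with
  | empty => simp
  | insert a A ha ih =>
    have h1 := hi.indepFun_finsetSum_of_notMem hY ha
    have e : (fun ω => ∑ i ∈ A, Y i ω) = ∑ j ∈ A, Y j := by
      funext ω
      rw [Finset.sum_apply]
    rw [← e] at h1
    have hmA := Finset.measurable_sum A fun i _ => hY i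
    have hNA := nishF_sum hY hi h A
    obtain ⟨i1, i2, i3⟩ := ih fun i hi => ht i (Finset.mem_insert_of_mem hi)
    have hta := ht a (Finset.mem_insert_self a A)
    have ht0 : 0 ≤ t := by rw [← hta]; exact q_nonneg _
    have ht1 : t ≤ 1 := by rw [← hta]; exact q_le_one (hY a)
    have e2 : ∫ ω, Real.tanh (∑ i ∈ insert a A, Y i ω) ^ 2 ∂P
        = ∫ ω, Real.tanh (∑ i ∈ A, Y i ω + Y a ω) ^ 2 ∂P := by
      congr 1
      funext ω
      rw [Finset.sum_insert ha, add_comm]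
    obtain ⟨b1, b2, b3⟩ := q_add_bounds hmA (hY a) h1 hNA (h a) rfl hta rfl
    rw [e2, Finset.card_insert_of_notMem ha]
    have hq0 := q_nonneg (P := P) (fun ω => ∑ i ∈ A, Y i ω)
    have hq1 := q_le_one (P := P) hmA
    set q := ∫ ω, Real.tanh (∑ i ∈ A, Y i ω) ^ 2 ∂P
    set Q := ∫ ω, Real.tanh (∑ i ∈ A, Y i ω + Y a ω) ^ 2 ∂P
    push_cast
    refine ⟨?_, ?_, ?_⟩
    · nlinarith
    · have hc : (0 : ℝ) ≤ A.card * t := by positivity
      nlinarith
    · calc (1 - t) ^ (A.card + 1) = (1 - t) ^ A.card * (1 - t) := pow_succ _ _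
        _ ≤ (1 - q) * (1 - t) := by
            refine mul_le_mul_of_nonneg_right i3 (by linarith)
        _ ≤ 1 - Q := b1

section tree

variable {V : Type*} (G : SimpleGraph V) [G.LocallyFinite]

theorem nishF_hh [Countable V] (hT : G.IsTree) {d : ℕ} (hreg : G.IsRegularOfDegree d)
    {θ : ℝ} (h0 : 0 ≤ θ) (h1 : θ < 1) {μ : Measure (V → Bool)} [IsProbabilityMeasure μ]
    (hμ : IsIsing G θ μ) {ρ : V → Measure ℝ} {L : ℝ} (hρ : ∀ v, Chan (ρ v) L)
    (hgood : ∀ᵐ x ∂(fieldLaw μ ρ), Good G θ x) {i j : V} (h : G.Adj i j) :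
    NishF (spinField μ ρ) (fun q => hh G θ q i j) := by
  have hρp := fun v => (hρ v).prob
  set P := spinField μ ρ with hP
  have hm := measurable_hh G θ i j
  have hmn : Measurable (fun q : (V → Bool) × (V → ℝ) => -(hh G θ q i j)) := hm.neg
  set e : ℝ → ℝ≥0∞ := fun x => ENNReal.ofReal (Real.exp (-(2 * x))) with he
  have hem : Measurable e := measurable_expE
  have key : P.map (fun q => -(hh G θ q i j)) = (P.map (fun q => hh G θ q i j)).withDensity e := by
    ext A hA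
    have hgA : Measurable (A.indicator (fun _ => (1 : ℝ))) := measurable_const.indicator hA
    have hb : ∀ a, |A.indicator (fun _ => (1 : ℝ)) a| ≤ 1 := by
      intro a
      by_cases ha : a ∈ A <;> simp [ha]
    have h3 := hh_nishi G hT hreg h0 h1 hμ hρ hgood h (A.indicator (fun _ => (1 : ℝ))) hgA
      ⟨1, hb⟩
    rw [Measure.map_apply hmn hA, withDensity_apply _ hA, ← lintegral_indicator hA,
      lintegral_map (hem.indicator hA) hm]
    have e1 : P ((fun q => -(hh G θ q i j)) ⁻¹' A)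
        = ENNReal.ofReal (∫ q, A.indicator (fun _ => (1 : ℝ)) (-(hh G θ q i j)) ∂P) := by
      have hs : MeasurableSet ((fun q => -(hh G θ q i j)) ⁻¹' A) := hm.neg hA
      have : (fun q => A.indicator (fun _ => (1 : ℝ)) (-(hh G θ q i j)))
          = ((fun q => -(hh G θ q i j)) ⁻¹' A).indicator (fun _ => (1 : ℝ)) := by
        funext q
        rfl
      rw [this, integral_indicator hs]
      simp [Measure.real]
    rw [e1, h3, ofReal_integral_eq_lintegral_ofReal]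
    · refine lintegral_congr fun q => ?_
      by_cases hq : hh G θ q i j ∈ A <;> simp [hq, he]
    · refine Integrable.of_bound (((hgA.comp hm).mul
        (Real.measurable_exp.comp (hm.const_mul 2).neg)).aestronglyMeasurable)
        (Real.exp (2 * (L + d * Real.artanh θ))) ?_
      filter_upwards [spinField_bdd hρ] with q hq
      have hb2 : |hh G θ q i j| ≤ L + d * Real.artanh θ := by
        unfold hh
        rw [abs_mul, abs_sg, one_mul]
        exact hl_bound G h0 h1 hreg hq i j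
      rw [Real.norm_eq_abs, abs_mul, abs_of_nonneg (Real.exp_nonneg _)]
      calc _ ≤ 1 * Real.exp (-(2 * hh G θ q i j)) :=
            mul_le_mul_of_nonneg_right (hb _) (Real.exp_nonneg _)
        _ ≤ _ := by
            rw [one_mul]
            apply Real.exp_le_exp.2
            have := (abs_le.1 hb2).1
            linarith
    · refine Eventually.of_forall fun q => mul_nonneg ?_ (Real.exp_nonneg _)
      exact Set.indicator_nonneg (fun _ _ => zero_le_one) _
  intro g hg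
  have e1 : ∫⁻ q, g (-(hh G θ q i j)) ∂P = ∫⁻ x, g x ∂(P.map (fun q => -(hh G θ q i j))) :=
    (lintegral_map hg hmn).symm
  rw [e1, key, lintegral_withDensity_eq_lintegral_mul _ hem hg, lintegral_map (hem.mul hg) hm]
  refine lintegral_congr fun q => ?_
  simp only [Pi.mul_apply, he]
  rw [mul_comm]

theorem tanh_sg_sq (b : Bool) (x : ℝ) : Real.tanh (sg b * x) ^ 2 = Real.tanh x ^ 2 := by
  cases b <;> simp [sg]

/-- `E α²` in terms of the gauged messages -/
theorem al_sq_eq (θ : ℝ) (μ : Measure (V → Bool)) (ρ : V → Measure ℝ) (i j : V) :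
    ∫ x, al G θ x i j ^ 2 ∂(fieldLaw μ ρ)
      = ∫ q, Real.tanh (hh G θ q i j) ^ 2 ∂(spinField μ ρ) := by
  unfold fieldLaw
  rw [integral_map measurable_snd.aemeasurable
    ((measurable_al G θ i j).pow_const 2).aestronglyMeasurable]
  congr 1
  funext q
  unfold hh al
  rw [tanh_sg_sq]

/-- edge -/
theorem q_edge {θ : ℝ} (h0 : 0 ≤ θ) (h1 : θ < 1) {ν : Measure ℝ} [IsProbabilityMeasure ν] :
    ∫ z, Real.tanh (z.1 * ff θ z.2) ^ 2 ∂((berS θ).prod ν)
      = θ ^ 2 * ∫ y, Real.tanh y ^ 2 ∂ν := by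
  have hbp : IsProbabilityMeasure (berS θ) := bst_berS_prob (by linarith) h1.le
  have hff := measurable_ff θ
  have hm : Measurable (fun z : ℝ × ℝ => z.1 * ff θ z.2) := by fun_prop
  have hm' : Measurable (fun z : ℝ => Real.tanh z ^ 2) := continuous_tanh.measurable.pow_const 2
  have hae : ∀ᵐ x ∂(berS θ), x = 1 ∨ x = -1 := by
    unfold berS
    have hs : MeasurableSet {x : ℝ | x = 1 ∨ x = -1} :=
      (measurableSet_singleton (1 : ℝ)).union (measurableSet_singleton (-1 : ℝ))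
    have hsc : MeasurableSet {x : ℝ | x = 1 ∨ x = -1}ᶜ := hs.compl
    rw [ae_iff]
    have e : {a : ℝ | ¬(a = 1 ∨ a = -1)} = {x : ℝ | x = 1 ∨ x = -1}ᶜ := rfl
    rw [e, Measure.add_apply, Measure.smul_apply, Measure.smul_apply, Measure.dirac_apply' _ hsc,
      Measure.dirac_apply' _ hsc]
    simp
  rw [integral_prod _ (integrable_tanh_sq hm)]
  have e1 : ∀ᵐ x ∂(berS θ), ∫ y, Real.tanh (x * ff θ y) ^ 2 ∂ν = θ ^ 2 * ∫ y, Real.tanh y ^ 2 ∂ν := by
    filter_upwards [hae] with x hx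
    rw [← integral_const_mul]
    congr 1
    funext y
    rcases hx with rfl | rfl
    · rw [one_mul, tanh_ff h0 h1]; ring
    · rw [neg_one_mul, Real.tanh_neg, neg_sq, tanh_ff h0 h1]; ring
  rw [integral_congr_ae e1]
  simp

/-- the recursion for `E α²`, as inequalities; `S = ∫ tanh² dρ`, `T` = the second moment of the sum
of the edge messages -/
theorem q_rec [Countable V] (hT : G.IsTree) {d : ℕ} (hd : 3 ≤ d) (hreg : G.IsRegularOfDegree d)
    {θ : ℝ} (h0 : 0 ≤ θ) (h1 : θ < 1) {μ : Measure (V → Bool)} [IsProbabilityMeasure μ]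
    (hμ : IsIsing G θ μ) {ρ : Measure ℝ} {L : ℝ} (hρ : Chan ρ L)
    (hgood : ∀ᵐ x ∂(fieldLaw μ (fun _ => ρ)), Good G θ x) {i j : V} (h : G.Adj i j) :
    ∃ T : ℝ,
      T ≤ ((d - 1 : ℕ) : ℝ) * (θ ^ 2 * ∫ x, al G θ x i j ^ 2 ∂(fieldLaw μ (fun _ => ρ))) ∧
      ((d - 1 : ℕ) : ℝ) * (θ ^ 2 * ∫ x, al G θ x i j ^ 2 ∂(fieldLaw μ (fun _ => ρ)))
        - 2 * (((d - 1 : ℕ) : ℝ) * (θ ^ 2 * ∫ x, al G θ x i j ^ 2 ∂(fieldLaw μ (fun _ => ρ)))) ^ 2
          ≤ T ∧
      (1 - θ ^ 2 * ∫ x, al G θ x i j ^ 2 ∂(fieldLaw μ (fun _ => ρ))) ^ (d - 1) ≤ 1 - T ∧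
      (1 - ∫ x, Real.tanh x ^ 2 ∂ρ) * (1 - T)
        ≤ 1 - ∫ x, al G θ x i j ^ 2 ∂(fieldLaw μ (fun _ => ρ)) ∧
      1 - ∫ x, al G θ x i j ^ 2 ∂(fieldLaw μ (fun _ => ρ))
        ≤ 1 - (∫ x, Real.tanh x ^ 2 ∂ρ) - T + 2 * ((∫ x, Real.tanh x ^ 2 ∂ρ) * T) ∧
      1 - ∫ x, al G θ x i j ^ 2 ∂(fieldLaw μ (fun _ => ρ)) ≤ 1 - ∫ x, Real.tanh x ^ 2 ∂ρ := by
  classical
  have hρp := hρ.prob
  set P := spinField μ (fun _ : V => ρ) with hP
  have hbp : IsProbabilityMeasure (berS θ) := bst_berS_prob (by linarith) h1.le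
  have hadj : ∀ c : G.neighborFinset i, G.Adj (c : V) i := fun c =>
    ((SimpleGraph.mem_neighborFinset _ _ _).1 c.2).symm
  have hmU : ∀ c : G.neighborFinset i, Measurable (fun q : (V → Bool) × (V → ℝ) =>
      hh G θ q (c : V) i) := fun c => measurable_hh G θ _ _
  have hlaw := eb_indep G hT h0 h1.le hμ (fun _ => ρ) i (fun c x => hl G θ x (c : V) i)
    (fun c => measurable_hl G θ _ _) (fun c q => hh G θ q (c : V) i) (fun c => by
      filter_upwards [spinField_good G hgood] with q hq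
      rw [hl_Xbr G hT h0 h1 hq (hadj c)])
  set κ : G.neighborFinset i → Measure (ℝ × ℝ) := fun c => (berS θ).prod
    ((spinField μ (fun _ => ρ)).map (fun q => hh G θ q (c : V) i)) with hκ
  have hUp : ∀ c : G.neighborFinset i, IsProbabilityMeasure
      ((spinField μ (fun _ => ρ)).map (fun q => hh G θ q (c : V) i)) :=
    fun c => Measure.isProbabilityMeasure_map (hmU c).aemeasurable
  have hκp : ∀ c, IsProbabilityMeasure (κ c) := fun c => by
    rw [hκ]
    infer_instance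
  have hff := measurable_ff θ
  let E : G.neighborFinset i → ℝ × ℝ → ℝ := fun _ z => z.1 * ff θ z.2
  have hEm : ∀ c, Measurable (E c) := fun c => by
    simp only [E]
    fun_prop
  have hEn : ∀ c, NishF (κ c) (E c) := fun c =>
    nishF_edge h0 h1 ((nishF_map (hmU c) measurable_id).2
      (nishF_hh G hT hreg h0 h1 hμ (fun _ => hρ) hgood (hadj c)))
  have hi := iIndepFun_pi (μ := κ) (X := E) (fun c => (hEm c).aemeasurable)
  have hYm : ∀ c, Measurable (fun z : G.neighborFinset i → ℝ × ℝ => E c (z c)) := fun c =>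
    (hEm c).comp (measurable_pi_apply c)
  have hYn : ∀ c, NishF (Measure.pi κ) (fun z => E c (z c)) := fun c => by
    have h5 : NishF ((Measure.pi κ).map (Function.eval c)) (E c) := by
      rw [(measurePreserving_eval κ c).map_eq]
      exact hEn c
    exact (nishF_map' (measurable_pi_apply c) (hEm c)).1 h5
  -- second moments of the edge terms
  set q0 := ∫ x, al G θ x i j ^ 2 ∂(fieldLaw μ (fun _ => ρ)) with hq0
  have hqc : ∀ c : G.neighborFinset i, ∫ q, Real.tanh (hh G θ q (c : V) i) ^ 2 ∂P = q0 := by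
    intro c
    have hl := hh_law G hT (by omega) hreg hμ ρ (hadj c) h 0
    have hmp : ∀ a b : V, Measurable (fun q : (V → Bool) × (V → ℝ) =>
        (hh G θ q a b, Gs G θ q.2 0 a b)) := fun a b =>
      (measurable_hh G θ a b).prodMk ((measurable_Gs G θ 0 a b).comp measurable_snd)
    have hth : Measurable (fun z : ℝ × ℝ => Real.tanh z.1 ^ 2) :=
      (continuous_tanh.measurable.comp measurable_fst).pow_const 2
    have e1 : ∀ a b : V, ∫ q, Real.tanh (hh G θ q a b) ^ 2 ∂P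
        = ∫ z, Real.tanh z.1 ^ 2 ∂(P.map (fun q => (hh G θ q a b, Gs G θ q.2 0 a b))) := by
      intro a b
      rw [integral_map (hmp a b).aemeasurable hth.aestronglyMeasurable]
    rw [e1, hl, ← e1, hq0, al_sq_eq]
  have hYq : ∀ c, ∫ z, Real.tanh (E c (z c)) ^ 2 ∂(Measure.pi κ) = θ ^ 2 * q0 := by
    intro c
    have hth : Measurable (fun z : ℝ × ℝ => Real.tanh (E c z) ^ 2) :=
      (continuous_tanh.measurable.comp (hEm c)).pow_const 2
    have e1 : ∫ z, Real.tanh (E c (z c)) ^ 2 ∂(Measure.pi κ)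
        = ∫ w, Real.tanh (E c w) ^ 2 ∂(κ c) := by
      rw [← (measurePreserving_eval κ c).map_eq,
        integral_map (measurable_pi_apply c).aemeasurable hth.aestronglyMeasurable]
    have hth' : Measurable (fun x : ℝ => Real.tanh x ^ 2) := continuous_tanh.measurable.pow_const 2
    rw [e1, ← hqc c]
    have e2 := q_edge h0 h1 (ν := (spinField μ (fun _ => ρ)).map (fun q => hh G θ q (c : V) i))
    rw [integral_map (hmU c).aemeasurable hth'.aestronglyMeasurable] at e2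
    exact e2
  let A : Finset (G.neighborFinset i) := Finset.univ.filter (fun c => (c : V) ≠ j)
  have hAcard : A.card = d - 1 := by
    have e1 : A.card = (oth G i j).card := by
      have e2 : A = (oth G i j).subtype (fun c => c ∈ G.neighborFinset i) := by
        ext c
        simp only [A, Finset.mem_filter, Finset.mem_univ, true_and, Finset.mem_subtype, mem_oth]
        exact ⟨fun hc => ⟨(hadj c).symm, hc⟩, fun hc => hc.2⟩
      rw [e2, Finset.card_subtype, Finset.filter_true_of_mem]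
      intro c hc
      exact (SimpleGraph.mem_neighborFinset _ _ _).2 ((mem_oth G).1 hc).1
    have hj : j ∉ oth G i j := by simp [mem_oth]
    have e3 : G.neighborFinset i = insert j (oth G i j) := by
      ext c
      rw [Finset.mem_insert, mem_oth, SimpleGraph.mem_neighborFinset]
      constructor
      · intro hc
        by_cases hcj : c = j
        · exact Or.inl hcj
        · exact Or.inr ⟨hc, hcj⟩
      · rintro (rfl | hc)
        · exact h
        · exact hc.1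
    have e4 : (G.neighborFinset i).card = d := by
      rw [SimpleGraph.card_neighborFinset_eq_degree, hreg i]
    rw [e3, Finset.card_insert_of_notMem hj] at e4
    omega
  obtain ⟨s1, s2, s3⟩ := q_sum_bounds hYm hi hYn A (t := θ ^ 2 * q0) (fun c _ => hYq c)
  rw [hAcard] at s1 s2 s3
  have hmk : Measurable (fun z : G.neighborFinset i → ℝ × ℝ => ∑ c ∈ A, E c (z c)) :=
    Finset.measurable_sum A fun c _ => hYm c
  have hNk := nishF_sum hYm hi hYn A
  have hmΛ : Measurable (fun q : (V → Bool) × (V → ℝ) => (sg (q.1 i) * q.2 i,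
      fun c : G.neighborFinset i => (sg (q.1 c) * sg (q.1 i), hh G θ q (c : V) i))) := by
    refine ((bst_sg_meas.comp ((measurable_pi_apply i).comp measurable_fst)).mul
      ((measurable_pi_apply i).comp measurable_snd)).prodMk (measurable_pi_iff.2 fun c => ?_)
    exact ((bst_sg_meas.comp ((measurable_pi_apply _).comp measurable_fst)).mul
      (bst_sg_meas.comp ((measurable_pi_apply _).comp measurable_fst))).prodMk (hmU c)
  have hQ : ∫ z, Real.tanh (id z.1 + ∑ c ∈ A, E c (z.2 c)) ^ 2 ∂(ρ.prod (Measure.pi κ)) = q0 := by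
    rw [← hlaw, integral_map hmΛ.aemeasurable, hq0, al_sq_eq]
    · refine integral_congr_ae ?_
      filter_upwards [spinField_good G hgood] with q hq
      simp only [E, id]
      rw [hh_rec G h0 h1 hq h]
      congr 3
      rw [Finset.sum_filter, Finset.sum_coe_sort (G.neighborFinset i) (fun c => if c ≠ j then
        sg (q.1 c) * sg (q.1 i) * ff θ (hh G θ q c i) else 0), ← Finset.sum_filter]
      refine Finset.sum_congr ?_ fun _ _ => rfl
      ext c
      rw [mem_oth, Finset.mem_filter, SimpleGraph.mem_neighborFinset]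
    · exact ((continuous_tanh.measurable.comp ((measurable_id.comp measurable_fst).add
        (hmk.comp measurable_snd))).pow_const 2).aestronglyMeasurable
  obtain ⟨b1, b2, b3⟩ := q_prod_bounds (α := ρ) (β := Measure.pi κ) (f := id) measurable_id hmk
    (nishF_of_chan hρ) hNk rfl rfl hQ
  exact ⟨_, s1, s2, s3, b1, b2, b3⟩

/-- at the threshold, `E α² ≥ c √S`, `S = ∫ tanh² dρ` -/
theorem q_lower [Countable V] (hT : G.IsTree) {d : ℕ} (hd : 3 ≤ d) (hreg : G.IsRegularOfDegree d)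
    {θ : ℝ} (h0 : 0 < θ) (h1 : θ < 1) (hcrit : θ ^ 2 * ((d : ℝ) - 1) = 1)
    {μ : Measure (V → Bool)} [IsProbabilityMeasure μ] (hμ : IsIsing G θ μ) :
    ∃ c : ℝ, 0 < c ∧ ∀ (ρ : Measure ℝ) (L : ℝ), Chan ρ L →
      (∀ᵐ x ∂(fieldLaw μ (fun _ => ρ)), Good G θ x) → ∀ i j, G.Adj i j →
      c * √(∫ x, Real.tanh x ^ 2 ∂ρ) ≤ ∫ x, al G θ x i j ^ 2 ∂(fieldLaw μ (fun _ => ρ)) := by
  refine ⟨1 / 2, by norm_num, fun ρ L hρ hgood i j h => ?_⟩
  obtain ⟨T, t1, t2, -, -, b2, b3⟩ := q_rec G hT hd hreg h0.le h1 hμ hρ hgood h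
  have hρp := hρ.prob
  have hS0 : 0 ≤ ∫ x, Real.tanh x ^ 2 ∂ρ := integral_nonneg fun _ => sq_nonneg _
  have hcast : ((d - 1 : ℕ) : ℝ) = (d : ℝ) - 1 := by
    rw [Nat.cast_sub (by omega), Nat.cast_one]
  rw [hcast] at t1 t2
  set q := ∫ x, al G θ x i j ^ 2 ∂(fieldLaw μ (fun _ => ρ)) with hq
  set S := ∫ x, Real.tanh x ^ 2 ∂ρ with hS
  have e : ((d : ℝ) - 1) * (θ ^ 2 * q) = q := by
    calc ((d : ℝ) - 1) * (θ ^ 2 * q) = (θ ^ 2 * ((d : ℝ) - 1)) * q := by ring
      _ = q := by rw [hcrit, one_mul]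
  rw [e] at t1 t2
  have hSq : S ≤ q := by linarith
  have hq0 : 0 ≤ q := hS0.trans hSq
  have hST : S * T ≤ q * q := by
    calc S * T ≤ S * q := mul_le_mul_of_nonneg_left t1 hS0
      _ ≤ q * q := mul_le_mul_of_nonneg_right hSq hq0
  have hfin : S ≤ (2 * q) ^ 2 := by nlinarith
  have : √S ≤ 2 * q := by
    rw [← Real.sqrt_sq (by linarith : 0 ≤ 2 * q)]
    exact Real.sqrt_le_sqrt hfin
  linarith

theorem one_sub_pow_ge {t : ℝ} (h0 : 0 ≤ t) (h1 : t ≤ 1) (n : ℕ) (hn : 2 ≤ n) :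
    1 - n * t + t ^ 2 ≤ (1 - t) ^ n := by
  induction n, hn using Nat.le_induction with
  | base => push_cast; nlinarith
  | succ n hn ih =>
    rw [pow_succ]
    have hn' : (2 : ℝ) ≤ n := by exact_mod_cast hn
    calc (1 : ℝ) - ((n + 1 : ℕ) : ℝ) * t + t ^ 2 ≤ (1 - n * t + t ^ 2) * (1 - t) := by
          push_cast
          nlinarith [sq_nonneg t, mul_nonneg (sq_nonneg t) (by linarith : (0 : ℝ) ≤ n - t)]
      _ ≤ (1 - t) ^ n * (1 - t) := mul_le_mul_of_nonneg_right ih (by linarith)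

/-- up to the threshold, `E α² ≤ C √S` -/
theorem q_upper [Countable V] (hT : G.IsTree) {d : ℕ} (hd : 3 ≤ d) (hreg : G.IsRegularOfDegree d)
    {θ : ℝ} (h0 : 0 < θ) (h1 : θ < 1) (hcrit : θ ^ 2 * ((d : ℝ) - 1) ≤ 1)
    {μ : Measure (V → Bool)} [IsProbabilityMeasure μ] (hμ : IsIsing G θ μ) :
    ∃ C : ℝ, 0 < C ∧ ∀ (ρ : Measure ℝ) (L : ℝ), Chan ρ L →
      (∀ᵐ x ∂(fieldLaw μ (fun _ => ρ)), Good G θ x) → ∀ i j, G.Adj i j →
      ∫ x, al G θ x i j ^ 2 ∂(fieldLaw μ (fun _ => ρ)) ≤ C * √(∫ x, Real.tanh x ^ 2 ∂ρ) := by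
  refine ⟨1 / θ ^ 2, by positivity, fun ρ L hρ hgood i j h => ?_⟩
  obtain ⟨T, -, -, t3, b1, -, b3⟩ := q_rec G hT hd hreg h0.le h1 hμ hρ hgood h
  have hρp := hρ.prob
  have hS0 : 0 ≤ ∫ x, Real.tanh x ^ 2 ∂ρ := integral_nonneg fun _ => sq_nonneg _
  have hS1 : ∫ x, Real.tanh x ^ 2 ∂ρ ≤ 1 := q_le_one (P := ρ) (Y := fun x => x) measurable_id
  have hq0 : 0 ≤ ∫ x, al G θ x i j ^ 2 ∂(fieldLaw μ (fun _ => ρ)) :=
    integral_nonneg fun _ => sq_nonneg _
  have hq1 : ∫ x, al G θ x i j ^ 2 ∂(fieldLaw μ (fun _ => ρ)) ≤ 1 := by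
    have := q_le_one (P := fieldLaw μ (fun _ => ρ)) (Y := fun x => hl G θ x i j)
      (measurable_hl G θ i j)
    exact this
  have hcast : ((d - 1 : ℕ) : ℝ) = (d : ℝ) - 1 := by
    rw [Nat.cast_sub (by omega), Nat.cast_one]
  set q := ∫ x, al G θ x i j ^ 2 ∂(fieldLaw μ (fun _ => ρ)) with hq
  set S := ∫ x, Real.tanh x ^ 2 ∂ρ with hS
  have hθ2 : 0 < θ ^ 2 := by positivity
  have hθ1 : θ ^ 2 ≤ 1 := by nlinarith
  have ht0 : 0 ≤ θ ^ 2 * q := by positivity
  have ht1 : θ ^ 2 * q ≤ 1 := by nlinarith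
  have k1 := one_sub_pow_ge ht0 ht1 (d - 1) (by omega)
  rw [hcast] at k1
  have k2 : ((d : ℝ) - 1) * (θ ^ 2 * q) ≤ q := by nlinarith
  -- `1 - q + θ⁴ q² ≤ 1 - T`
  have k3 : 1 - q + (θ ^ 2 * q) ^ 2 ≤ 1 - T := by linarith
  have k4 : (1 - S) * (1 - q + (θ ^ 2 * q) ^ 2) ≤ 1 - q :=
    (mul_le_mul_of_nonneg_left k3 (by linarith)).trans b1
  have k5 : (θ ^ 2 * q) ^ 2 ≤ q := by
    calc (θ ^ 2 * q) ^ 2 = (θ ^ 2 * q) * (θ ^ 2 * q) := sq _
      _ ≤ 1 * q := by
          refine mul_le_mul ht1 ?_ ht0 zero_le_one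
          nlinarith
      _ = q := one_mul q
  have k6 : (θ ^ 2 * q) ^ 2 ≤ S := by nlinarith
  have k7 : θ ^ 2 * q ≤ √S := by
    rw [← Real.sqrt_sq ht0]
    exact Real.sqrt_le_sqrt k6
  rw [one_div, ← div_eq_inv_mul, le_div_iff₀ hθ2]
  linarith

end tree

end Crest.Agent.FI
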