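import Mathlib
import Crest.Agent.FI.Defs

set_option autoImplicit false

namespace Crest.Agent.FI

open MeasureTheory ProbabilityTheory unitInterval Set Filter Topology
open scoped ENNReal

/-! ### real-number facts about the quantile function -/

lemma Qr_aux {c u : ℝ} (hc : |c| ≤ 1 / 2) (hu0 : 0 ≤ u) (hu1 : u ≤ 1) :
    0 ≤ (1 - c) ^ 2 + 4 * c * u := by
  obtain ⟨h1, h2⟩ := abs_le.1 hc
  rcases le_total 0 c with h | h
  · positivity
  · nlinarith [mul_nonneg (neg_nonneg.2 h) (sub_nonneg.2 hu1)]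

lemma Qr_den_pos {c u : ℝ} (hc : |c| ≤ 1 / 2) : 0 < (1 - c) + √((1 - c) ^ 2 + 4 * c * u) := by
  obtain ⟨h1, h2⟩ := abs_le.1 hc
  have := Real.sqrt_nonneg ((1 - c) ^ 2 + 4 * c * u)
  linarith

lemma Qr_nonneg {c u : ℝ} (hc : |c| ≤ 1 / 2) (hu0 : 0 ≤ u) : 0 ≤ Qr c u :=
  div_nonneg (by linarith) (Qr_den_pos hc).le

lemma Qr_le_one {c u : ℝ} (hc : |c| ≤ 1 / 2) (hu0 : 0 ≤ u) (hu1 : u ≤ 1) : Qr c u ≤ 1 := by
  unfold Qr
  rw [div_le_one (Qr_den_pos hc)]
  have h : 2 * u - (1 - c) ≤ √((1 - c) ^ 2 + 4 * c * u) := by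
    apply Real.le_sqrt_of_sq_le
    nlinarith [mul_nonneg hu0 (sub_nonneg.2 hu1)]
  linarith

/-- `Qr` inverts `z ↦ z + c (z² - z)` -/
lemma F_Qr {c u : ℝ} (hc : |c| ≤ 1 / 2) (hu0 : 0 ≤ u) (hu1 : u ≤ 1) :
    Qr c u + c * (Qr c u ^ 2 - Qr c u) = u := by
  have hD := Real.sq_sqrt (Qr_aux hc hu0 hu1)
  have hpos := Qr_den_pos (u := u) hc
  unfold Qr
  set D := √((1 - c) ^ 2 + 4 * c * u)
  have hne : (1 - c) + D ≠ 0 := hpos.ne'
  field_simp
  have hD' : D ^ 2 = (1 - c) ^ 2 + 4 * c * u := hD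
  linear_combination (-u) * hD'

lemma Qr_F {c z : ℝ} (hc : |c| ≤ 1 / 2) (hz0 : 0 ≤ z) (hz1 : z ≤ 1) :
    Qr c (z + c * (z ^ 2 - z)) = z := by
  obtain ⟨h1, h2⟩ := abs_le.1 hc
  have hpos : 0 < 1 - c + c * z := by nlinarith
  have hpos2 : 0 ≤ 1 - c + 2 * c * z := by nlinarith
  have e : (1 - c) ^ 2 + 4 * c * (z + c * (z ^ 2 - z)) = (1 - c + 2 * c * z) ^ 2 := by ring
  unfold Qr
  rw [e, Real.sqrt_sq hpos2, div_eq_iff (by linarith)]
  ring

lemma F_mem {c z : ℝ} (hc : |c| ≤ 1 / 2) (hz0 : 0 ≤ z) (hz1 : z ≤ 1) :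
    z + c * (z ^ 2 - z) ∈ Icc (0 : ℝ) 1 := by
  obtain ⟨h1, h2⟩ := abs_le.1 hc
  have h := mul_nonneg hz0 (sub_nonneg.2 hz1)
  constructor <;> nlinarith

lemma coe_Qm {c : ℝ} (hc : |c| ≤ 1 / 2) (u : I) : (Qm c u : ℝ) = Qr c u := by
  unfold Qm
  rw [Set.projIcc_of_mem _ ⟨Qr_nonneg hc u.2.1, Qr_le_one hc u.2.1 u.2.2⟩]

lemma coe_Fm {c : ℝ} (hc : |c| ≤ 1 / 2) (z : I) :
    (Fm c z : ℝ) = (z : ℝ) + c * ((z : ℝ) ^ 2 - z) := by
  unfold Fm
  rw [Set.projIcc_of_mem _ (F_mem hc z.2.1 z.2.2)]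

theorem Fm_Qm {c : ℝ} (hc : |c| ≤ 1 / 2) (u : I) : Fm c (Qm c u) = u := by
  apply Subtype.ext
  rw [coe_Fm hc, coe_Qm hc, F_Qr hc u.2.1 u.2.2]

theorem Qm_Fm {c : ℝ} (hc : |c| ≤ 1 / 2) (z : I) : Qm c (Fm c z) = z := by
  apply Subtype.ext
  rw [coe_Qm hc, coe_Fm hc, Qr_F hc z.2.1 z.2.2]

theorem measurable_Qm : Measurable (fun p : ℝ × I => Qm p.1 p.2) := by
  unfold Qm Qr
  apply continuous_projIcc.measurable.comp
  fun_prop

theorem measurable_Fm : Measurable (fun p : ℝ × I => Fm p.1 p.2) := by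
  unfold Fm
  apply continuous_projIcc.measurable.comp
  fun_prop

theorem Qm_zero (u : I) : Qm 0 u = u := by
  apply Subtype.ext
  rw [coe_Qm (by norm_num)]
  simp [Qr]
  ring

theorem Fm_zero (u : I) : Fm 0 u = u := by
  apply Subtype.ext
  rw [coe_Fm (by norm_num)]
  simp

lemma Fm_mono {c : ℝ} (hc : |c| ≤ 1 / 2) {z z' : I} (h : z ≤ z') : Fm c z ≤ Fm c z' := by
  obtain ⟨h1, h2⟩ := abs_le.1 hc
  rw [← Subtype.coe_le_coe, coe_Fm hc, coe_Fm hc]
  have hz : (z : ℝ) ≤ z' := h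
  have h01 := z.2.1
  have h02 := z.2.2
  have h03 := z'.2.1
  have h04 := z'.2.2
  have key : ((z' : ℝ) - z) * (1 + c * ((z : ℝ) + z' - 1)) ≥ 0 := by
    apply mul_nonneg (by linarith)
    nlinarith
  nlinarith

lemma Qm_le_iff {c : ℝ} (hc : |c| ≤ 1 / 2) (u z : I) : Qm c u ≤ z ↔ u ≤ Fm c z := by
  constructor
  · intro h
    have := Fm_mono hc h
    rwa [Fm_Qm hc] at this
  · intro h
    by_contra hcon
    push Not at hcon
    have h2 := Fm_mono hc hcon.le
    rw [Fm_Qm hc] at h2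
    have h3 : Fm c z = u := le_antisymm h2 h
    rw [← h3, Qm_Fm hc] at hcon
    exact lt_irrefl _ hcon

theorem map_Qm {c : ℝ} (hc : |c| ≤ 1 / 2) : (volume : Measure I).map (Qm c)
    = volume.withDensity (fun z : I => ENNReal.ofReal (1 + c * (2 * (z : ℝ) - 1))) := by
  obtain ⟨h1, h2⟩ := abs_le.1 hc
  have hmeas : Measurable (Qm c) := measurable_Qm.comp (measurable_const.prodMk measurable_id)
  have : IsFiniteMeasure ((volume : Measure I).map (Qm c)) := Measure.isFiniteMeasure_map _ _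
  apply Measure.ext_of_Iic
  intro z
  rw [Measure.map_apply hmeas measurableSet_Iic]
  have e : Qm c ⁻¹' Iic z = Iic (Fm c z) := by
    ext u
    simp only [mem_preimage, mem_Iic]
    exact Qm_le_iff hc u z
  rw [e, unitInterval.volume_Iic, withDensity_apply _ measurableSet_Iic]
  have e2 : ∫⁻ a in Iic z, ENNReal.ofReal (1 + c * (2 * (a : ℝ) - 1))
      = ∫⁻ x in Icc (0 : ℝ) z, ENNReal.ofReal (1 + c * (2 * x - 1)) := by
    rw [← lintegral_indicator measurableSet_Iic, ← lintegral_indicator measurableSet_Icc]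
    have h3 : (Iic z).indicator (fun a : I => ENNReal.ofReal (1 + c * (2 * (a : ℝ) - 1)))
        = fun a : I => (Iic (z : ℝ)).indicator (fun x => ENNReal.ofReal (1 + c * (2 * x - 1))) a := by
      funext a
      by_cases h : a ≤ z
      · rw [indicator_of_mem (show a ∈ Iic z from h), indicator_of_mem (show (a : ℝ) ∈ Iic (z : ℝ) from h)]
      · rw [indicator_of_notMem (show a ∉ Iic z from h), indicator_of_notMem (show (a : ℝ) ∉ Iic (z : ℝ) from h)]
    rw [h3, unitInterval.measurePreserving_coe.lintegral_comp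
      (f := (Iic (z : ℝ)).indicator (fun x => ENNReal.ofReal (1 + c * (2 * x - 1)))),
      ← lintegral_indicator (by exact measurableSet_Icc)]
    · congr 1
      funext x
      by_cases hx0 : 0 ≤ x
      · by_cases hx : x ≤ z
        · have hx1 : x ≤ 1 := hx.trans z.2.2
          simp [indicator, hx0, hx, hx1]
        · simp [indicator, hx0, hx]
      · simp [indicator, hx0]
    · apply Measurable.indicator (by fun_prop) measurableSet_Iic
  rw [e2, ← ofReal_integral_eq_lintegral_ofReal]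
  · congr 1
    rw [integral_Icc_eq_integral_Ioc, ← intervalIntegral.integral_of_le z.2.1, coe_Fm hc]
    have h4 : ∀ x : ℝ, HasDerivAt (fun x : ℝ => x + c * (x ^ 2 - x)) (1 + c * (2 * x - 1)) x := by
      intro x
      have h5 := (hasDerivAt_id' x).add ((((hasDerivAt_pow 2 x).sub (hasDerivAt_id' x))).const_mul c)
      exact h5.congr_deriv (by norm_num)
    rw [intervalIntegral.integral_eq_sub_of_hasDerivAt (fun x _ => h4 x)]
    · ring
    · apply Continuous.intervalIntegrable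
      fun_prop
  · apply Continuous.integrableOn_Icc
    fun_prop
  · rw [Filter.EventuallyLE, ae_restrict_iff' measurableSet_Icc]
    refine Filter.Eventually.of_forall fun x hx => ?_
    have hx1 : x ≤ 1 := hx.2.trans z.2.2
    have hx0 := hx.1
    show 0 ≤ 1 + c * (2 * x - 1)
    nlinarith

theorem map_Fm {c : ℝ} (hc : |c| ≤ 1 / 2) :
    ((volume : Measure I).withDensity
      (fun z : I => ENNReal.ofReal (1 + c * (2 * (z : ℝ) - 1)))).map (Fm c) = volume := by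
  rw [← map_Qm hc, Measure.map_map]
  · have : Fm c ∘ Qm c = id := funext (Fm_Qm hc)
    rw [this, Measure.map_id]
  · exact measurable_Fm.comp (measurable_const.prodMk measurable_id)
  · exact measurable_Qm.comp (measurable_const.prodMk measurable_id)

/-- spin-flip symmetry of the channel -/
theorem Qm_neg {c : ℝ} (hc : |c| ≤ 1 / 2) (u : I) : Qm (-c) u = symm (Qm c (symm u)) := by
  have hc' : |-c| ≤ 1 / 2 := by rwa [abs_neg]
  rw [← Qm_Fm hc' (symm (Qm c (symm u)))]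
  congr 1
  apply Subtype.ext
  rw [coe_Fm hc', coe_symm_eq, coe_Qm hc]
  have := F_Qr hc (symm u).2.1 (symm u).2.2
  rw [coe_symm_eq] at this ⊢
  linear_combination this

theorem Qm_lip {c c' : ℝ} (hc : |c| ≤ 1 / 2) (hc' : |c'| ≤ 1 / 2) (u : I) :
    |(Qm c u : ℝ) - Qm c' u| ≤ |c - c'| / 2 := by
  obtain ⟨h1, h2⟩ := abs_le.1 hc
  have e1 : (Qm c u : ℝ) + c * ((Qm c u : ℝ) ^ 2 - Qm c u) = u := by
    rw [coe_Qm hc]; exact F_Qr hc u.2.1 u.2.2
  have e2 : (Qm c' u : ℝ) + c' * ((Qm c' u : ℝ) ^ 2 - Qm c' u) = u := by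
    rw [coe_Qm hc']; exact F_Qr hc' u.2.1 u.2.2
  have q0 := (Qm c u).2.1
  have q1 := (Qm c u).2.2
  have q0' := (Qm c' u).2.1
  have q1' := (Qm c' u).2.2
  set q : ℝ := (Qm c u : ℝ)
  set q' : ℝ := (Qm c' u : ℝ)
  have key : (q - q') * (1 + c * (q + q' - 1)) = (c - c') * (q' * (1 - q')) := by
    linear_combination e1 - e2
  have hA : 1 / 2 ≤ 1 + c * (q + q' - 1) := by nlinarith
  have hB0 : 0 ≤ q' * (1 - q') := mul_nonneg q0' (by linarith)
  have hB : q' * (1 - q') ≤ 1 / 4 := by nlinarith [sq_nonneg (q' - 1 / 2)]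
  have habs : |q - q'| * (1 + c * (q + q' - 1)) = |c - c'| * (q' * (1 - q')) := by
    have := congrArg abs key
    rwa [abs_mul, abs_mul, abs_of_pos (by linarith : 0 < 1 + c * (q + q' - 1)),
      abs_of_nonneg hB0] at this
  have h5 : |q - q'| * (1 / 2) ≤ |c - c'| * (1 / 4) := by
    calc |q - q'| * (1 / 2) ≤ |q - q'| * (1 + c * (q + q' - 1)) :=
          mul_le_mul_of_nonneg_left hA (abs_nonneg _)
      _ = |c - c'| * (q' * (1 - q')) := habs
      _ ≤ |c - c'| * (1 / 4) := mul_le_mul_of_nonneg_left hB (abs_nonneg _)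
  linarith

lemma zeta_abs (z : I) : |2 * (z : ℝ) - 1| ≤ 1 := by
  have h0 := z.2.1
  have h1 := z.2.2
  rw [abs_le]
  constructor <;> linarith

lemma den_half {a m : ℝ} (ha0 : 0 ≤ a) (ha : a ≤ 1 / 2) (hm : |m| ≤ 1) (z : I) :
    1 / 2 ≤ 1 + a * (2 * (z : ℝ) - 1) * m := by
  have h := zeta_abs z
  have h2 : |a * (2 * (z : ℝ) - 1) * m| ≤ 1 / 2 := by
    rw [abs_mul, abs_mul, abs_of_nonneg ha0]
    calc a * |2 * (z : ℝ) - 1| * |m| ≤ 1 / 2 * 1 * 1 := by
          gcongr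
      _ = 1 / 2 := by norm_num
  linarith [(abs_le.1 h2).1]

theorem eta_bound {a m : ℝ} (ha0 : 0 ≤ a) (ha : a ≤ 1 / 2) (hm : |m| ≤ 1) (z : I) :
    |a * (2 * (z : ℝ) - 1) / (1 + a * (2 * (z : ℝ) - 1) * m)| ≤ 2 * a := by
  have hd := den_half ha0 ha hm z
  rw [abs_div, abs_of_pos (by linarith : 0 < 1 + a * (2 * (z : ℝ) - 1) * m),
    div_le_iff₀ (by linarith), abs_mul, abs_of_nonneg ha0]
  have h := zeta_abs z
  calc a * |2 * (z : ℝ) - 1| ≤ a * 1 := mul_le_mul_of_nonneg_left h ha0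
    _ = 2 * a * (1 / 2) := by ring
    _ ≤ 2 * a * (1 + a * (2 * (z : ℝ) - 1) * m) := by
        apply mul_le_mul_of_nonneg_left hd (by linarith)

/-- Lipschitz bound for the jump ratio under the quantile coupling -/
theorem eta_diff {a m m' : ℝ} (ha0 : 0 ≤ a) (ha : a ≤ 1 / 2) (hm : |m| ≤ 1) (hm' : |m'| ≤ 1) (u : I) :
    |a * (2 * (Qm (a * m) u : ℝ) - 1) / (1 + a * (2 * (Qm (a * m) u : ℝ) - 1) * m)
      - a * (2 * (Qm (a * m') u : ℝ) - 1) / (1 + a * (2 * (Qm (a * m') u : ℝ) - 1) * m')|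
      ≤ 8 * a * |m - m'| := by
  have hc : |a * m| ≤ 1 / 2 := by
    rw [abs_mul, abs_of_nonneg ha0]
    calc a * |m| ≤ 1 / 2 * 1 := by gcongr
      _ = 1 / 2 := by norm_num
  have hc' : |a * m'| ≤ 1 / 2 := by
    rw [abs_mul, abs_of_nonneg ha0]
    calc a * |m'| ≤ 1 / 2 * 1 := by gcongr
      _ = 1 / 2 := by norm_num
  have hq := Qm_lip hc hc' u
  have hd := den_half ha0 ha hm (Qm (a * m) u)
  have hd' := den_half ha0 ha hm' (Qm (a * m') u)
  have hz := zeta_abs (Qm (a * m) u)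
  have hz' := zeta_abs (Qm (a * m') u)
  have e0 : |a * m - a * m'| = a * |m - m'| := by
    rw [← mul_sub, abs_mul, abs_of_nonneg ha0]
  rw [e0] at hq
  set q : ℝ := (Qm (a * m) u : ℝ)
  set q' : ℝ := (Qm (a * m') u : ℝ)
  set ζ : ℝ := 2 * q - 1 with hζ
  set ζ' : ℝ := 2 * q' - 1 with hζ'
  have hzz : |ζ - ζ'| ≤ a * |m - m'| := by
    have : ζ - ζ' = 2 * (q - q') := by rw [hζ, hζ']; ring
    rw [this, abs_mul, abs_two]
    linarith
  have p1 : 0 < 1 + a * ζ * m := by linarith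
  have p2 : 0 < 1 + a * ζ' * m' := by linarith
  have e : a * ζ / (1 + a * ζ * m) - a * ζ' / (1 + a * ζ' * m')
      = a * ((ζ - ζ') + a * (ζ * ζ') * (m' - m)) / ((1 + a * ζ * m) * (1 + a * ζ' * m')) := by
    rw [div_sub_div _ _ p1.ne' p2.ne']
    congr 1
    ring
  rw [e, abs_div, abs_of_pos (mul_pos p1 p2), div_le_iff₀ (mul_pos p1 p2), abs_mul,
    abs_of_nonneg ha0]
  have h6 : |(ζ - ζ') + a * (ζ * ζ') * (m' - m)| ≤ |m - m'| := by
    have h7 : |a * (ζ * ζ') * (m' - m)| ≤ a * |m - m'| := by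
      rw [abs_mul, abs_mul, abs_mul, abs_of_nonneg ha0, abs_sub_comm m' m]
      have : |ζ| * |ζ'| ≤ 1 := by
        calc |ζ| * |ζ'| ≤ 1 * 1 := by gcongr
          _ = 1 := by norm_num
      calc a * (|ζ| * |ζ'|) * |m - m'| ≤ a * 1 * |m - m'| := by gcongr
        _ = a * |m - m'| := by ring
    calc |(ζ - ζ') + a * (ζ * ζ') * (m' - m)| ≤ |ζ - ζ'| + |a * (ζ * ζ') * (m' - m)| := abs_add_le _ _
      _ ≤ a * |m - m'| + a * |m - m'| := add_le_add hzz h7
      _ = 2 * a * |m - m'| := by ring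
      _ ≤ 1 * |m - m'| := by
          apply mul_le_mul_of_nonneg_right _ (abs_nonneg _)
          linarith
      _ = |m - m'| := one_mul _
  have h8 : 1 / 4 ≤ (1 + a * ζ * m) * (1 + a * ζ' * m') := by nlinarith
  calc a * |(ζ - ζ') + a * (ζ * ζ') * (m' - m)| ≤ a * |m - m'| := by gcongr
    _ ≤ 8 * a * |m - m'| * (1 / 4) := by nlinarith [mul_nonneg ha0 (abs_nonneg (m - m'))]
    _ ≤ 8 * a * |m - m'| * ((1 + a * ζ * m) * (1 + a * ζ' * m')) := by
        apply mul_le_mul_of_nonneg_left h8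
        positivity

theorem st_nonneg (t : I) : 0 ≤ st t := by
  unfold st
  split_ifs <;> positivity

theorem st_le (t : I) : st t ≤ 2 / 5 := by
  unfold st
  split_ifs with h
  · have : √(t : ℝ) ≤ 4 / 5 := by
      rw [Real.sqrt_le_left (by norm_num)]
      linarith [show (1 / 2 : ℝ) ≤ (4 / 5) ^ 2 by norm_num]
    linarith
  · norm_num

theorem st_sq_le (t : I) : st t ^ 2 ≤ (t : ℝ) / 4 := by
  unfold st
  split_ifs with h
  · rw [div_pow, Real.sq_sqrt t.2.1]
    norm_num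
  · have := t.2.1
    simp
    positivity

theorem measurable_st : Measurable st := by
  unfold st
  apply Measurable.ite
  · exact measurableSet_lt measurable_subtype_coe measurable_const
  · fun_prop
  · fun_prop

lemma ch_measurable_artanh : Measurable Real.artanh := by
  unfold Real.artanh
  fun_prop

theorem measurable_xi : Measurable (fun p : I × I => xi p.1 p.2) := by
  unfold xi
  apply ch_measurable_artanh.comp
  have h1 : Measurable (fun p : I × I => st p.1) := measurable_st.comp measurable_fst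
  have h2 : Measurable (fun p : I × I => Qm (st p.1) p.2) :=
    measurable_Qm.comp (h1.prodMk measurable_snd)
  have h3 : Measurable (fun p : I × I => ((Qm (st p.1) p.2 : I) : ℝ)) :=
    measurable_subtype_coe.comp h2
  exact h1.mul ((h3.const_mul 2).sub_const 1)

lemma artanh_le_of_nonneg {x : ℝ} (h0 : 0 ≤ x) (h1 : x ≤ 2 / 5) : Real.artanh x ≤ 2 * x := by
  rw [Real.artanh_eq_half_log ⟨by linarith, by linarith⟩, Real.log_div (by linarith) (by linarith)]
  have h2 : Real.log (1 + x) ≤ x := by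
    have := Real.log_le_sub_one_of_pos (show (0 : ℝ) < 1 + x by linarith)
    linarith
  have h3 : -Real.log (1 - x) ≤ 5 / 3 * x := by
    rw [← Real.log_inv]
    have := Real.log_le_sub_one_of_pos (show (0 : ℝ) < (1 - x)⁻¹ by
      apply inv_pos.2; linarith)
    have h4 : (1 - x)⁻¹ - 1 ≤ 5 / 3 * x := by
      rw [inv_eq_one_div, div_sub_one (by linarith), div_le_iff₀ (by linarith)]
      nlinarith
    linarith
  linarith

lemma ch_artanh_neg' {x : ℝ} (h1 : |x| ≤ 2 / 5) : Real.artanh (-x) = -Real.artanh x := by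
  obtain ⟨ha, hb⟩ := abs_le.1 h1
  rw [Real.artanh_eq_half_log ⟨by linarith, by linarith⟩,
    Real.artanh_eq_half_log ⟨by linarith, by linarith⟩, Real.log_div (by linarith) (by linarith),
    Real.log_div (by linarith) (by linarith), sub_neg_eq_add, ← sub_eq_add_neg]
  ring

lemma abs_artanh_le {x : ℝ} (h1 : |x| ≤ 2 / 5) : |Real.artanh x| ≤ 2 * |x| := by
  rcases le_total 0 x with h | h
  · rw [abs_of_nonneg h] at h1 ⊢
    rw [abs_of_nonneg]
    · exact artanh_le_of_nonneg h h1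
    · rcases h.eq_or_lt with h0 | h0
      · rw [← h0, Real.artanh_zero]
      · exact (Real.artanh_pos ⟨h0, by linarith⟩).le
  · rw [abs_of_nonpos h] at h1 ⊢
    have e : Real.artanh x = -Real.artanh (-x) := by
      rw [ch_artanh_neg' (by rwa [abs_of_nonpos h]), neg_neg]
    rw [e, abs_neg, abs_of_nonneg]
    · exact artanh_le_of_nonneg (by linarith) h1
    · rcases h.eq_or_lt with h0 | h0
      · rw [h0, neg_zero, Real.artanh_zero]
      · exact (Real.artanh_pos ⟨by linarith, by linarith⟩).le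

lemma abs_st_mul_le (t z : I) : |st t * (2 * (z : ℝ) - 1)| ≤ st t := by
  rw [abs_mul, abs_of_nonneg (st_nonneg t)]
  calc st t * |2 * (z : ℝ) - 1| ≤ st t * 1 := mul_le_mul_of_nonneg_left (zeta_abs z) (st_nonneg t)
    _ = st t := mul_one _

theorem abs_xi_le (t u : I) : |xi t u| ≤ √(t : ℝ) := by
  unfold xi
  have h := abs_st_mul_le t (Qm (st t) u)
  have h2 := abs_artanh_le (h.trans (st_le t))
  have h3 : 2 * st t ≤ √(t : ℝ) := by
    unfold st
    split_ifs
    · linarith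
    · rw [mul_zero]; exact Real.sqrt_nonneg _
  calc |Real.artanh (st t * (2 * (Qm (st t) u : ℝ) - 1))| ≤ 2 * |st t * (2 * (Qm (st t) u : ℝ) - 1)| := h2
    _ ≤ 2 * st t := by linarith
    _ ≤ √(t : ℝ) := h3

theorem xi_eq_zero {t : I} (ht : 1 / 2 ≤ (t : ℝ)) (u : I) : xi t u = 0 := by
  unfold xi st
  rw [if_neg (not_lt.2 ht), zero_mul, Real.artanh_zero]

end Crest.Agent.FI
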