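import Mathlib
import Crest.Agent.FI.Defs
import Crest.Agent.FI.Channel

set_option autoImplicit false

namespace Crest.Agent.FI

open MeasureTheory ProbabilityTheory unitInterval Set Filter Topology Measure
open scoped ENNReal

/-! ### single events -/

/-- field of one event, observed up to time `τ` -/
noncomputable def rh_gev (τ : ℝ) (p : I × I) : ℝ := if ((p.1 : I) : ℝ) < τ then xi p.1 p.2 else 0

/-- its law -/
noncomputable def rh_nu (τ : ℝ) : Measure ℝ := (volume : Measure (I × I)).map (rh_gev τ)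

lemma rh_measurable_gev (τ : ℝ) : Measurable (rh_gev τ) := by
  unfold rh_gev
  apply Measurable.ite
  · exact measurableSet_lt (measurable_subtype_coe.comp measurable_fst) measurable_const
  · exact measurable_xi
  · exact measurable_const

instance (τ : ℝ) : IsProbabilityMeasure (rh_nu τ) :=
  Measure.isProbabilityMeasure_map (rh_measurable_gev τ).aemeasurable

lemma rh_gev_two (p : I × I) : rh_gev 2 p = xi p.1 p.2 := by
  unfold rh_gev
  rw [if_pos]
  linarith [p.1.2.2]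

lemma rh_abs_gev_le (τ : ℝ) (p : I × I) : |rh_gev τ p| ≤ 1 := by
  unfold rh_gev
  split_ifs
  · refine (abs_xi_le _ _).trans ?_
    rw [Real.sqrt_le_left zero_le_one]
    simpa using p.1.2.2
  · simp

/-- functional form of the Nishimori identity -/
def NishiF (ρ : Measure ℝ) : Prop := ∀ φ : ℝ → ℝ≥0∞, Measurable φ →
  ∫⁻ x, φ (-x) ∂ρ = ∫⁻ x, φ x * ENNReal.ofReal (Real.exp (-(2 * x))) ∂ρ

lemma NishiF.nishi {ρ : Measure ℝ} (h : NishiF ρ) :
    ρ.map (fun x => -x) = ρ.withDensity (fun x => ENNReal.ofReal (Real.exp (-(2 * x)))) := by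
  ext A hA
  rw [Measure.map_apply measurable_neg hA, withDensity_apply _ hA,
    ← lintegral_indicator_one (measurable_neg hA), ← lintegral_indicator hA]
  have := h (A.indicator 1) (measurable_one.indicator hA)
  calc ∫⁻ a, ((fun x : ℝ => -x) ⁻¹' A).indicator 1 a ∂ρ = ∫⁻ x, A.indicator 1 (-x) ∂ρ := rfl
    _ = _ := this
    _ = _ := by
      congr 1
      funext x
      by_cases hx : x ∈ A
      · simp [hx]
      · simp [hx]

lemma rh_lint_Qm {c : ℝ} (hc : |c| ≤ 1 / 2) (f : I → ℝ≥0∞) (hf : Measurable f) :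
    ∫⁻ u, f (Qm c u) = ∫⁻ z : I, ENNReal.ofReal (1 + c * (2 * (z : ℝ) - 1)) * f z := by
  have hm : Measurable (Qm c) := measurable_Qm.comp (measurable_const.prodMk measurable_id)
  rw [← lintegral_map hf hm, map_Qm hc, lintegral_withDensity_eq_lintegral_mul _ (by fun_prop) hf]
  rfl

lemma rh_exp_artanh_id {y : ℝ} (hy : |y| ≤ 2 / 5) :
    (1 + y) * Real.exp (-(2 * Real.artanh y)) = 1 - y := by
  obtain ⟨ha, hb⟩ := abs_le.1 hy
  rw [Real.artanh_eq_half_log ⟨by linarith, by linarith⟩]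
  have e : -(2 * (1 / 2 * Real.log ((1 + y) / (1 - y)))) = Real.log ((1 - y) / (1 + y)) := by
    rw [← inv_div (1 + y) (1 - y), Real.log_inv]
    ring
  rw [e, Real.exp_log (div_pos (by linarith) (by linarith))]
  have h3 : (1 : ℝ) + y ≠ 0 := by linarith
  field_simp

lemma nishiF_fibre (t : I) (φ : ℝ → ℝ≥0∞) (hφ : Measurable φ) :
    ∫⁻ u, φ (-(xi t u)) = ∫⁻ u, φ (xi t u) * ENNReal.ofReal (Real.exp (-(2 * xi t u))) := by
  have hst := st_le t
  have hst0 := st_nonneg t
  have hc : |st t| ≤ 1 / 2 := by rw [abs_of_nonneg hst0]; linarith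
  have hm : Measurable (fun z : I => Real.artanh (st t * (2 * (z : ℝ) - 1))) :=
    ch_measurable_artanh.comp (by fun_prop)
  have hy : ∀ z : I, |st t * (2 * (z : ℝ) - 1)| ≤ 2 / 5 := fun z => (abs_st_mul_le t z).trans hst
  have e1 : ∫⁻ u, φ (-(xi t u))
      = ∫⁻ z : I, ENNReal.ofReal (1 + st t * (2 * (z : ℝ) - 1))
        * φ (-(Real.artanh (st t * (2 * (z : ℝ) - 1)))) :=
    rh_lint_Qm hc (fun z => φ (-(Real.artanh (st t * (2 * (z : ℝ) - 1))))) (hφ.comp hm.neg)
  have e2 : ∫⁻ u, φ (xi t u) * ENNReal.ofReal (Real.exp (-(2 * xi t u)))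
      = ∫⁻ z : I, ENNReal.ofReal (1 + st t * (2 * (z : ℝ) - 1))
        * (φ (Real.artanh (st t * (2 * (z : ℝ) - 1)))
          * ENNReal.ofReal (Real.exp (-(2 * Real.artanh (st t * (2 * (z : ℝ) - 1)))))) := by
    apply rh_lint_Qm hc (fun z => φ (Real.artanh (st t * (2 * (z : ℝ) - 1)))
          * ENNReal.ofReal (Real.exp (-(2 * Real.artanh (st t * (2 * (z : ℝ) - 1))))))
    apply (hφ.comp hm).mul
    exact ((hm.const_mul 2).neg.exp).ennreal_ofReal
  rw [e1, e2]
  have e3 : ∀ z : I, ENNReal.ofReal (1 + st t * (2 * (z : ℝ) - 1))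
        * (φ (Real.artanh (st t * (2 * (z : ℝ) - 1)))
          * ENNReal.ofReal (Real.exp (-(2 * Real.artanh (st t * (2 * (z : ℝ) - 1))))))
      = ENNReal.ofReal (1 - st t * (2 * (z : ℝ) - 1)) * φ (Real.artanh (st t * (2 * (z : ℝ) - 1))) := by
    intro z
    rw [← rh_exp_artanh_id (hy z), ENNReal.ofReal_mul (by linarith [(abs_le.1 (hy z)).1])]
    ring
  simp_rw [e3]
  rw [← unitInterval.measurePreserving_symm.lintegral_comp
    (f := fun z : I => ENNReal.ofReal (1 - st t * (2 * (z : ℝ) - 1))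
      * φ (Real.artanh (st t * (2 * (z : ℝ) - 1))))]
  · congr 1
    funext z
    have e4 : st t * (2 * ((σ z : I) : ℝ) - 1) = -(st t * (2 * (z : ℝ) - 1)) := by
      rw [coe_symm_eq]; ring
    rw [e4, ch_artanh_neg' (hy z), sub_neg_eq_add]
  · apply Measurable.mul
    · fun_prop
    · exact hφ.comp hm

lemma nishiF_nu (τ : ℝ) : NishiF (rh_nu τ) := by
  intro φ hφ
  unfold rh_nu
  rw [lintegral_map (by fun_prop) (rh_measurable_gev τ), lintegral_map (by fun_prop) (rh_measurable_gev τ),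
    Measure.volume_eq_prod]
  rw [lintegral_prod, lintegral_prod]
  · apply lintegral_congr
    intro t
    unfold rh_gev
    by_cases h : ((t : I) : ℝ) < τ
    · simp only [h, if_true]
      exact nishiF_fibre t φ hφ
    · simp [h]
  · apply Measurable.aemeasurable
    have := rh_measurable_gev τ
    fun_prop
  · apply Measurable.aemeasurable
    have := rh_measurable_gev τ
    fun_prop

lemma NishiF.conv {ρ₁ ρ₂ : Measure ℝ} [IsProbabilityMeasure ρ₁] [IsProbabilityMeasure ρ₂]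
    (h1 : NishiF ρ₁) (h2 : NishiF ρ₂) : NishiF (ρ₁ ∗ ρ₂) := by
  intro φ hφ
  have s1 : ∀ x : ℝ, ∫⁻ y, φ (-(x + y)) ∂ρ₂
      = ∫⁻ y, φ (-x + y) * ENNReal.ofReal (Real.exp (-(2 * y))) ∂ρ₂ := by
    intro x
    rw [← h2 (fun y => φ (-x + y)) (by fun_prop)]
    apply lintegral_congr
    intro y
    rw [neg_add]
  have s3 : ∀ y : ℝ, ∫⁻ x, φ (-x + y) * ENNReal.ofReal (Real.exp (-(2 * y))) ∂ρ₁
      = ∫⁻ x, φ (x + y) * ENNReal.ofReal (Real.exp (-(2 * (x + y)))) ∂ρ₁ := by
    intro y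
    rw [lintegral_mul_const _ (by fun_prop)]
    have s2 : ∫⁻ x, φ (-x + y) ∂ρ₁
        = ∫⁻ x, φ (x + y) * ENNReal.ofReal (Real.exp (-(2 * x))) ∂ρ₁ :=
      h1 (fun x => φ (x + y)) (by fun_prop)
    rw [s2, ← lintegral_mul_const _ (by fun_prop)]
    apply lintegral_congr
    intro x
    rw [mul_assoc, ← ENNReal.ofReal_mul (Real.exp_pos _).le, ← Real.exp_add]
    congr 3
    ring
  calc ∫⁻ x, φ (-x) ∂(ρ₁ ∗ ρ₂) = ∫⁻ x, ∫⁻ y, φ (-(x + y)) ∂ρ₂ ∂ρ₁ :=
        Measure.lintegral_conv (by fun_prop)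
    _ = ∫⁻ x, ∫⁻ y, φ (-x + y) * ENNReal.ofReal (Real.exp (-(2 * y))) ∂ρ₂ ∂ρ₁ :=
        lintegral_congr s1
    _ = ∫⁻ y, ∫⁻ x, φ (-x + y) * ENNReal.ofReal (Real.exp (-(2 * y))) ∂ρ₁ ∂ρ₂ :=
        lintegral_lintegral_swap (by fun_prop)
    _ = ∫⁻ y, ∫⁻ x, φ (x + y) * ENNReal.ofReal (Real.exp (-(2 * (x + y)))) ∂ρ₁ ∂ρ₂ :=
        lintegral_congr s3
    _ = ∫⁻ x, ∫⁻ y, φ (x + y) * ENNReal.ofReal (Real.exp (-(2 * (x + y)))) ∂ρ₂ ∂ρ₁ :=
        lintegral_lintegral_swap (by fun_prop)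
    _ = ∫⁻ x, φ x * ENNReal.ofReal (Real.exp (-(2 * x))) ∂(ρ₁ ∗ ρ₂) :=
        (Measure.lintegral_conv (f := fun x => φ x * ENNReal.ofReal (Real.exp (-(2 * x))))
          (by fun_prop)).symm

/-! ### partial sums -/

/-- thresholds -/
noncomputable def rh_thk (k : ℕ) (s : ℝ) (l : ℕ) : ℝ := if l < k then 2 else s

/-- the product measure -/
noncomputable def rh_PI : Measure (ℕ → I × I) :=
  Measure.infinitePi (fun _ : ℕ => (volume : Measure (I × I)))

instance : IsProbabilityMeasure rh_PI := by unfold rh_PI; infer_instance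

/-- law of the partial sums -/
noncomputable def rh_LL (k : ℕ) (s : ℝ) (n : ℕ) : Measure ℝ :=
  rh_PI.map (fun w => ∑ l ∈ Finset.range n, rh_gev (rh_thk k s l) (w l))

lemma rh_measurable_sumgev (k : ℕ) (s : ℝ) (n : ℕ) :
    Measurable (fun w : ℕ → I × I => ∑ l ∈ Finset.range n, rh_gev (rh_thk k s l) (w l)) := by
  apply Finset.measurable_sum
  intro l _
  exact (rh_measurable_gev _).comp (measurable_pi_apply l)

instance (k : ℕ) (s : ℝ) (n : ℕ) : IsProbabilityMeasure (rh_LL k s n) :=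
  Measure.isProbabilityMeasure_map (rh_measurable_sumgev k s n).aemeasurable

lemma rh_map_eval_gev (τ : ℝ) (l : ℕ) : rh_PI.map (fun w => rh_gev τ (w l)) = rh_nu τ := by
  have : (fun w : ℕ → I × I => rh_gev τ (w l)) = rh_gev τ ∘ (fun w => w l) := rfl
  rw [this, ← Measure.map_map (rh_measurable_gev τ) (measurable_pi_apply l)]
  unfold rh_PI rh_nu
  rw [Measure.infinitePi_map_eval]

lemma rh_LL_zero (k : ℕ) (s : ℝ) : rh_LL k s 0 = Measure.dirac 0 := by
  unfold rh_LL
  simp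

lemma rh_LL_succ (k : ℕ) (s : ℝ) (n : ℕ) : rh_LL k s (n + 1) = rh_LL k s n ∗ rh_nu (rh_thk k s n) := by
  have hind : iIndepFun (fun l (w : ℕ → I × I) => rh_gev (rh_thk k s l) (w l)) rh_PI :=
    iIndepFun_infinitePi (X := fun l => rh_gev (rh_thk k s l)) (fun l => rh_measurable_gev _)
  have hm : ∀ l, Measurable (fun w : ℕ → I × I => rh_gev (rh_thk k s l) (w l)) :=
    fun l => (rh_measurable_gev _).comp (measurable_pi_apply l)
  have h := (hind.indepFun_sum_range_succ hm n).map_add_eq_map_conv_map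
    (by
      have := rh_measurable_sumgev k s n
      convert this using 1
      funext w
      simp) (hm n)
  rw [rh_map_eval_gev] at h
  unfold rh_LL
  have e1 : (fun w : ℕ → I × I => ∑ l ∈ Finset.range (n + 1), rh_gev (rh_thk k s l) (w l))
      = (∑ j ∈ Finset.range n, fun w : ℕ → I × I => rh_gev (rh_thk k s j) (w j))
        + fun w => rh_gev (rh_thk k s n) (w n) := by
    funext w
    simp [Finset.sum_range_succ]
  have e2 : (fun w : ℕ → I × I => ∑ l ∈ Finset.range n, rh_gev (rh_thk k s l) (w l))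
      = (∑ j ∈ Finset.range n, fun w : ℕ → I × I => rh_gev (rh_thk k s j) (w j)) := by
    funext w
    simp
  rw [e1, e2]
  exact h

lemma rh_rho_eq_LL (k : ℕ) (s : ℝ) : rho k s = rh_LL k s (k + 1) := by
  unfold rho rh_LL rh_PI
  congr 1
  funext w
  rw [Finset.sum_range_succ]
  congr 1
  · apply Finset.sum_congr rfl
    intro l hl
    rw [rh_thk, if_pos (Finset.mem_range.1 hl), rh_gev_two]
  · rw [rh_thk, if_neg (lt_irrefl k)]
    rfl

lemma rh_LL_congr (k k' : ℕ) (s : ℝ) (n : ℕ) (hn : n ≤ k) (hn' : n ≤ k') : rh_LL k s n = rh_LL k' s n := by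
  unfold rh_LL
  congr 1
  funext w
  apply Finset.sum_congr rfl
  intro l hl
  have := Finset.mem_range.1 hl
  rw [rh_thk, rh_thk, if_pos (by omega), if_pos (by omega)]

instance (k : ℕ) (s : ℝ) : IsProbabilityMeasure (rho k s) := by
  rw [rh_rho_eq_LL]; infer_instance

lemma rh_rho_zero_eq (s : ℝ) : rho 0 s = rh_nu s := by
  rw [rh_rho_eq_LL, rh_LL_succ, rh_LL_zero, Measure.dirac_zero_conv]
  simp [rh_thk]

lemma nishiF_dirac : NishiF (Measure.dirac 0) := by
  intro φ hφ
  rw [lintegral_dirac' _ (by fun_prop), lintegral_dirac' _ (by fun_prop)]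
  simp

lemma nishiF_LL (k : ℕ) (s : ℝ) (n : ℕ) : NishiF (rh_LL k s n) := by
  induction n with
  | zero => rw [rh_LL_zero]; exact nishiF_dirac
  | succ n ih => rw [rh_LL_succ]; exact ih.conv (nishiF_nu _)

theorem chan_rho (k : ℕ) (s : ℝ) : Chan (rho k s) (k + 1) := by
  refine ⟨inferInstance, ?_, ?_⟩
  · rw [rh_rho_eq_LL]
    unfold rh_LL
    rw [ae_map_iff (rh_measurable_sumgev _ _ _).aemeasurable
      (measurableSet_le (by fun_prop) measurable_const)]
    refine Filter.Eventually.of_forall fun w => ?_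
    calc |∑ l ∈ Finset.range (k + 1), rh_gev (rh_thk k s l) (w l)|
        ≤ ∑ l ∈ Finset.range (k + 1), |rh_gev (rh_thk k s l) (w l)| := Finset.abs_sum_le_sum_abs _ _
      _ ≤ ∑ l ∈ Finset.range (k + 1), (1 : ℝ) := Finset.sum_le_sum fun l _ => rh_abs_gev_le _ _
      _ = k + 1 := by simp
  · rw [rh_rho_eq_LL]
    exact (nishiF_LL k s (k + 1)).nishi

/-! ### killing -/

/-- the killing integrand -/
noncomputable def rh_kf (κ r x : ℝ) : ℝ := Real.exp (-(κ * Real.tanh (x + r) ^ 2))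

lemma rh_continuous_kf (κ r : ℝ) : Continuous (rh_kf κ r) := by
  unfold rh_kf
  have : Continuous Real.tanh := by
    have h : Real.tanh = fun x => Real.sinh x / Real.cosh x := by
      funext x; exact Real.tanh_eq_sinh_div_cosh x
    rw [h]
    exact Real.continuous_sinh.div Real.continuous_cosh (fun x => (Real.cosh_pos x).ne')
  fun_prop

lemma rh_kf_le_one {κ : ℝ} (hκ : 0 < κ) (r x : ℝ) : rh_kf κ r x ≤ 1 := by
  unfold rh_kf
  rw [Real.exp_le_one_iff]
  have := mul_nonneg hκ.le (sq_nonneg (Real.tanh (x + r)))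
  linarith

lemma rh_kf_nonneg (κ r x : ℝ) : 0 ≤ rh_kf κ r x := (Real.exp_pos _).le

lemma rh_integrable_kf {κ : ℝ} (hκ : 0 < κ) (r : ℝ) (ρ : Measure ℝ) [IsFiniteMeasure ρ] :
    Integrable (rh_kf κ r) ρ := by
  apply Integrable.of_bound (C := 1) (rh_continuous_kf κ r).aestronglyMeasurable
  refine Filter.Eventually.of_forall fun x => ?_
  rw [Real.norm_eq_abs, abs_of_nonneg (rh_kf_nonneg κ r x)]
  exact rh_kf_le_one hκ r x

lemma rh_kill_conv {κ c : ℝ} (hκ : 0 < κ) (α β : Measure ℝ) [IsProbabilityMeasure α]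
    [IsProbabilityMeasure β] (h : ∀ r : ℝ, ∫ x, rh_kf κ r x ∂α ≤ 1 - c) (r : ℝ) :
    ∫ x, rh_kf κ r x ∂(β ∗ α) ≤ 1 - c := by
  rw [integral_conv (rh_integrable_kf hκ r _)]
  have h1 : ∀ x, ∫ y, rh_kf κ r (x + y) ∂α ≤ 1 - c := by
    intro x
    have := h (x + r)
    refine le_trans (le_of_eq ?_) this
    congr 1
    funext y
    unfold rh_kf
    congr 4
    ring
  calc ∫ x, ∫ y, rh_kf κ r (x + y) ∂α ∂β ≤ ∫ x, (1 - c) ∂β := by
        apply integral_mono_of_nonneg
        · exact Filter.Eventually.of_forall fun x => integral_nonneg fun y => rh_kf_nonneg _ _ _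
        · exact integrable_const _
        · exact Filter.Eventually.of_forall h1
    _ = 1 - c := by simp

lemma rh_half_le_artanh {y : ℝ} (h0 : 0 ≤ y) (h1 : y ≤ 2 / 5) : y / 2 ≤ Real.artanh y := by
  rw [Real.artanh_eq_half_log ⟨by linarith, by linarith⟩, Real.log_div (by linarith) (by linarith)]
  have h2 := Real.log_nonneg (show (1 : ℝ) ≤ 1 + y by linarith)
  have h3 := Real.log_le_sub_one_of_pos (show (0 : ℝ) < 1 - y by linarith)
  linarith

lemma rh_Qm_ge {a : ℝ} (ha0 : 0 ≤ a) (ha : a ≤ 1 / 2) {u : I} (hu : (3 / 4 : ℝ) ≤ u) :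
    (3 / 4 : ℝ) ≤ Qm a u := by
  have hc : |a| ≤ 1 / 2 := by rwa [abs_of_nonneg ha0]
  by_contra hcon
  push Not at hcon
  have e1 : (Qm a u : ℝ) + a * ((Qm a u : ℝ) ^ 2 - Qm a u) = u := by
    rw [coe_Qm hc]; exact F_Qr hc u.2.1 u.2.2
  have q0 := (Qm a u).2.1
  nlinarith [mul_nonneg ha0 (mul_nonneg q0 (by linarith : 0 ≤ 1 - (Qm a u : ℝ)))]

lemma rh_Qm_le' {a : ℝ} (ha0 : 0 ≤ a) (ha : a ≤ 2 / 5) {u : I} (hu : (u : ℝ) ≤ 1 / 8) :
    (Qm a u : ℝ) ≤ 1 / 4 := by
  have hc : |a| ≤ 1 / 2 := by rw [abs_of_nonneg ha0]; linarith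
  by_contra hcon
  push Not at hcon
  have e1 : (Qm a u : ℝ) + a * ((Qm a u : ℝ) ^ 2 - Qm a u) = u := by
    rw [coe_Qm hc]; exact F_Qr hc u.2.1 u.2.2
  have q0 := (Qm a u).2.1
  have q1 := (Qm a u).2.2
  nlinarith [mul_nonneg (sub_nonneg.2 ha) (mul_nonneg q0 (by linarith : 0 ≤ 1 - (Qm a u : ℝ)))]

lemma rh_xi_ge {t u : I} {t1 : ℝ} (ht1 : 0 ≤ t1) (h1 : t1 ≤ t) (h2 : (t : ℝ) < 1 / 2)
    (hu : (3 / 4 : ℝ) ≤ u) : √t1 / 8 ≤ xi t u := by
  have hst := st_le t
  have hst0 := st_nonneg t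
  have hq := rh_Qm_ge hst0 (by linarith) hu
  have hst1 : √t1 / 2 ≤ st t := by
    unfold st
    rw [if_pos h2]
    have := Real.sqrt_le_sqrt h1
    linarith
  have hy := (abs_le.1 ((abs_st_mul_le t (Qm (st t) u)).trans hst)).2
  have hlow : √t1 / 4 ≤ st t * (2 * (Qm (st t) u : ℝ) - 1) := by
    have : (1 / 2 : ℝ) ≤ 2 * (Qm (st t) u : ℝ) - 1 := by linarith
    calc √t1 / 4 = √t1 / 2 * (1 / 2) := by ring
      _ ≤ st t * (2 * (Qm (st t) u : ℝ) - 1) := by
          apply mul_le_mul hst1 this (by norm_num) hst0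
  have h3 := rh_half_le_artanh (le_trans (by positivity) hlow) hy
  unfold xi
  linarith

lemma rh_xi_le' {t u : I} {t1 : ℝ} (ht1 : 0 ≤ t1) (h1 : t1 ≤ t) (h2 : (t : ℝ) < 1 / 2)
    (hu : (u : ℝ) ≤ 1 / 8) : xi t u ≤ -(√t1 / 8) := by
  have hst := st_le t
  have hst0 := st_nonneg t
  have hq := rh_Qm_le' hst0 hst hu
  have hst1 : √t1 / 2 ≤ st t := by
    unfold st
    rw [if_pos h2]
    have := Real.sqrt_le_sqrt h1
    linarith
  have hy := abs_le.1 ((abs_st_mul_le t (Qm (st t) u)).trans hst)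
  have hlow : √t1 / 4 ≤ -(st t * (2 * (Qm (st t) u : ℝ) - 1)) := by
    have : (1 / 2 : ℝ) ≤ -(2 * (Qm (st t) u : ℝ) - 1) := by linarith
    calc √t1 / 4 = √t1 / 2 * (1 / 2) := by ring
      _ ≤ st t * (-(2 * (Qm (st t) u : ℝ) - 1)) := by
          apply mul_le_mul hst1 this (by norm_num) hst0
      _ = -(st t * (2 * (Qm (st t) u : ℝ) - 1)) := by ring
  have h3 := rh_half_le_artanh (le_trans (by positivity) hlow) (by linarith [hy.1])
  rw [ch_artanh_neg' (abs_le.2 hy)] at h3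
  unfold xi
  linarith

lemma rh_tanh_sm : StrictMono Real.tanh := by
  intro x y h
  have hx := Real.tanh_bijOn.mapsTo (mem_univ x)
  have hy := Real.tanh_bijOn.mapsTo (mem_univ y)
  rw [← Real.artanh_lt_artanh_iff hx hy, Real.artanh_tanh, Real.artanh_tanh]
  exact h

lemma rh_tanh_sq_ge {δ x : ℝ} (hδ : 0 ≤ δ) (h : δ ≤ |x|) : Real.tanh δ ^ 2 ≤ Real.tanh x ^ 2 := by
  have h1 : Real.tanh δ ≤ Real.tanh |x| := rh_tanh_sm.monotone h
  have h0 : 0 ≤ Real.tanh δ := by
    have := rh_tanh_sm.monotone hδ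
    rwa [Real.tanh_zero] at this
  have h2 : Real.tanh |x| ^ 2 = Real.tanh x ^ 2 := by
    rcases abs_choice x with h | h
    · rw [h]
    · rw [h, Real.tanh_neg, neg_sq]
  rw [← h2]
  exact pow_le_pow_left₀ h0 h1 2

/-- upper bound for an integral by the measure of a set where the integrand is small -/
lemma rh_integral_le_of_small {Ω : Type*} [MeasurableSpace Ω] (m : Measure Ω) [IsProbabilityMeasure m]
    (f : Ω → ℝ) (hf : Integrable f m) (h1 : ∀ p, f p ≤ 1) (A : Set Ω) (hA : MeasurableSet A) (e : ℝ)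
    (h2 : ∀ p ∈ A, f p ≤ e) : ∫ p, f p ∂m ≤ 1 - (1 - e) * m.real A := by
  have h3 : ∫ p, f p ∂m ≤ ∫ p, (1 - A.indicator (fun _ => 1 - e) p) ∂m := by
    apply integral_mono hf
    · exact (integrable_const _).sub ((integrable_const _).indicator hA)
    · intro p
      by_cases hp : p ∈ A
      · simp only [indicator_of_mem hp]
        linarith [h2 p hp]
      · simp only [indicator_of_notMem hp]
        linarith [h1 p]
  refine h3.trans (le_of_eq ?_)
  rw [integral_sub (integrable_const _) ((integrable_const _).indicator hA),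
    integral_indicator_const _ hA]
  simp
  ring

lemma rh_kill_nu {κ : ℝ} (hκ : 0 < κ) {τ0 : ℝ} (hτ0 : 0 < τ0) :
    ∃ c : ℝ, 0 < c ∧ c < 1 ∧ ∀ τ, τ0 ≤ τ → ∀ r : ℝ, ∫ x, rh_kf κ r x ∂(rh_nu τ) ≤ 1 - c := by
  set t2 : ℝ := min τ0 (1 / 2) with ht2
  have ht2pos : 0 < t2 := lt_min hτ0 (by norm_num)
  have ht2h : t2 ≤ 1 / 2 := min_le_right _ _
  have ht2τ : t2 ≤ τ0 := min_le_left _ _
  set t1 : ℝ := t2 / 2 with ht1
  have ht1pos : 0 < t1 := by positivity
  set δ : ℝ := √t1 / 8 with hδ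
  have hδpos : 0 < δ := by
    have := Real.sqrt_pos.2 ht1pos
    positivity
  set e : ℝ := Real.exp (-(κ * Real.tanh δ ^ 2)) with he
  have he1 : e < 1 := by
    rw [he, Real.exp_lt_one_iff]
    have : 0 < Real.tanh δ := by
      have := rh_tanh_sm hδpos
      rwa [Real.tanh_zero] at this
    have := mul_pos hκ (pow_pos this 2)
    linarith
  have he0 : 0 < e := Real.exp_pos _
  let T1 : I := ⟨t1, ht1pos.le, by linarith⟩
  let T2 : I := ⟨t2, ht2pos.le, by linarith⟩
  let U1 : I := ⟨3 / 4, by norm_num, by norm_num⟩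
  let U2 : I := ⟨1 / 8, by norm_num, by norm_num⟩
  set A : Set (I × I) := Ioo T1 T2 ×ˢ Ici U1 with hA
  set B : Set (I × I) := Ioo T1 T2 ×ˢ Iic U2 with hB
  have hAm : MeasurableSet A := measurableSet_Ioo.prod measurableSet_Ici
  have hBm : MeasurableSet B := measurableSet_Ioo.prod measurableSet_Iic
  have hAv : (volume : Measure (I × I)).real A = (t2 - t1) * (1 / 4) := by
    rw [hA, Measure.volume_eq_prod, measureReal_prod_prod, measureReal_def, measureReal_def,
      unitInterval.volume_Ioo, unitInterval.volume_Ici, ENNReal.toReal_ofReal, ENNReal.toReal_ofReal]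
    · show (t2 - t1) * (1 - 3 / 4) = _
      norm_num
    · show (0 : ℝ) ≤ 1 - 3 / 4
      norm_num
    · show (0 : ℝ) ≤ t2 - t1
      linarith
  have hBv : (volume : Measure (I × I)).real B = (t2 - t1) * (1 / 8) := by
    rw [hB, Measure.volume_eq_prod, measureReal_prod_prod, measureReal_def, measureReal_def,
      unitInterval.volume_Ioo, unitInterval.volume_Iic, ENNReal.toReal_ofReal, ENNReal.toReal_ofReal]
    · show (0 : ℝ) ≤ 1 / 8
      norm_num
    · show (0 : ℝ) ≤ t2 - t1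
      linarith
  refine ⟨(1 - e) * ((t2 - t1) * (1 / 8)), ?_, ?_, ?_⟩
  · apply mul_pos (by linarith) (mul_pos (by linarith) (by norm_num))
  · have h1 : (1 - e) ≤ 1 := by linarith
    have h2 : (t2 - t1) * (1 / 8) ≤ 1 / 8 := by nlinarith
    have h3 : 0 ≤ (t2 - t1) * (1 / 8) := mul_nonneg (by linarith) (by norm_num)
    nlinarith
  · intro τ hτ r
    have hm := rh_measurable_gev τ
    have hint : Integrable (fun p : I × I => rh_kf κ r (rh_gev τ p)) volume := by
      apply Integrable.of_bound (C := 1)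
      · exact ((rh_continuous_kf κ r).measurable.comp hm).aestronglyMeasurable
      · refine Filter.Eventually.of_forall fun x => ?_
        rw [Real.norm_eq_abs, abs_of_nonneg (rh_kf_nonneg κ r _)]
        exact rh_kf_le_one hκ r _
    unfold rh_nu
    rw [integral_map hm.aemeasurable (rh_continuous_kf κ r).aestronglyMeasurable]
    rcases le_total 0 r with hr | hr
    · have h4 : ∀ p ∈ A, rh_kf κ r (rh_gev τ p) ≤ e := by
        intro p hp
        obtain ⟨⟨hp1, hp2⟩, hp3⟩ := hp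
        have hp1' : t1 < p.1 := hp1
        have hp2' : (p.1 : ℝ) < t2 := hp2
        have hp3' : (3 / 4 : ℝ) ≤ p.2 := hp3
        have hg : δ ≤ rh_gev τ p := by
          unfold rh_gev
          rw [if_pos (by linarith)]
          exact rh_xi_ge ht1pos.le hp1'.le (by linarith) hp3'
        unfold rh_kf
        rw [he, Real.exp_le_exp, neg_le_neg_iff]
        apply mul_le_mul_of_nonneg_left _ hκ.le
        apply rh_tanh_sq_ge hδpos.le
        rw [abs_of_nonneg (by linarith)]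
        linarith
      have := rh_integral_le_of_small volume _ hint (fun p => rh_kf_le_one hκ r _) A hAm e h4
      rw [hAv] at this
      have h5 : (1 - e) * ((t2 - t1) * (1 / 8)) ≤ (1 - e) * ((t2 - t1) * (1 / 4)) := by
        apply mul_le_mul_of_nonneg_left _ (by linarith)
        nlinarith
      linarith
    · have h4 : ∀ p ∈ B, rh_kf κ r (rh_gev τ p) ≤ e := by
        intro p hp
        obtain ⟨⟨hp1, hp2⟩, hp3⟩ := hp
        have hp1' : t1 < p.1 := hp1
        have hp2' : (p.1 : ℝ) < t2 := hp2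
        have hp3' : (p.2 : ℝ) ≤ 1 / 8 := hp3
        have hg : rh_gev τ p ≤ -δ := by
          unfold rh_gev
          rw [if_pos (by linarith)]
          exact rh_xi_le' ht1pos.le hp1'.le (by linarith) hp3'
        unfold rh_kf
        rw [he, Real.exp_le_exp, neg_le_neg_iff]
        apply mul_le_mul_of_nonneg_left _ hκ.le
        apply rh_tanh_sq_ge hδpos.le
        rw [abs_of_nonpos (by linarith)]
        linarith
      have := rh_integral_le_of_small volume _ hint (fun p => rh_kf_le_one hκ r _) B hBm e h4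
      rw [hBv] at this
      exact this

/-- killing by the own field, uniform in the rest; crude version -/
theorem rho_kill {κ : ℝ} (hκ : 0 < κ) (k : ℕ) (s : ℝ) (h : 1 ≤ k ∨ 0 < s) :
    ∃ c : ℝ, 0 < c ∧ c < 1 ∧ ∀ s', s ≤ s' → ∀ r : ℝ,
      ∫ x, Real.exp (-(κ * Real.tanh (x + r) ^ 2)) ∂(rho k s') ≤ 1 - c := by
  rcases Nat.eq_zero_or_pos k with hk | hk
  · subst hk
    have hs : 0 < s := by
      rcases h with h | h
      · omega
      · exact h
    obtain ⟨c, hc0, hc1, hc⟩ := rh_kill_nu hκ hs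
    refine ⟨c, hc0, hc1, fun s' hs' r => ?_⟩
    rw [rh_rho_zero_eq]
    exact hc s' hs' r
  · obtain ⟨c, hc0, hc1, hc⟩ := rh_kill_nu hκ (show (0 : ℝ) < 2 by norm_num)
    refine ⟨c, hc0, hc1, fun s' hs' r => ?_⟩
    obtain ⟨n, rfl⟩ : ∃ n, k = n + 1 := ⟨k - 1, by omega⟩
    have e : rho (n + 1) s' = (rh_LL (n + 1) s' n ∗ rh_nu (rh_thk (n + 1) s' (n + 1))) ∗ rh_nu 2 := by
      rw [rh_rho_eq_LL, rh_LL_succ, rh_LL_succ]
      have : rh_thk (n + 1) s' n = 2 := by rw [rh_thk, if_pos (by omega)]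
      rw [this, Measure.conv_assoc, Measure.conv_assoc, Measure.conv_comm (rh_nu 2)]
    rw [e]
    exact rh_kill_conv hκ (rh_nu 2) _ (fun r => hc 2 le_rfl r) r

theorem rho_zero_zero : rho 0 0 = Measure.dirac 0 := by
  rw [rh_rho_zero_eq]
  unfold rh_nu
  have : rh_gev 0 = fun _ => 0 := by
    funext p
    unfold rh_gev
    rw [if_neg (not_lt.2 p.1.2.1)]
  rw [this]
  simp

theorem rho_S_lower : ∃ c : ℝ, 0 < c ∧ ∀ s, 0 ≤ s → s ≤ 1 / 2 →
    c * s ^ 2 ≤ ∫ x, Real.tanh x ^ 2 ∂(rho 0 s) := by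
  -- on the event `s/2 ≤ t < s`, `u ≥ 3/4` the integrand is at least `s / 1000`
  refine ⟨1 / 8000, by norm_num, fun s hs0 hs1 => ?_⟩
  rcases hs0.eq_or_lt with h0 | h0
  · rw [← h0]
    simp only [ne_eq, OfNat.ofNat_ne_zero, not_false_eq_true, zero_pow, mul_zero]
    exact integral_nonneg fun x => sq_nonneg _
  have htc : Continuous Real.tanh := by
    have h : Real.tanh = fun x => Real.sinh x / Real.cosh x := by
      funext x; exact Real.tanh_eq_sinh_div_cosh x
    rw [h]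
    exact Real.continuous_sinh.div Real.continuous_cosh (fun x => (Real.cosh_pos x).ne')
  let T1 : I := ⟨s / 2, by linarith, by linarith⟩
  let T2 : I := ⟨s, hs0, by linarith⟩
  let U1 : I := ⟨3 / 4, by norm_num, by norm_num⟩
  set A : Set (I × I) := Ioo T1 T2 ×ˢ Ici U1 with hA
  have hAm : MeasurableSet A := measurableSet_Ioo.prod measurableSet_Ici
  have hAv : (volume : Measure (I × I)).real A = (s - s / 2) * (1 / 4) := by
    rw [hA, Measure.volume_eq_prod, measureReal_prod_prod, measureReal_def, measureReal_def,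
      unitInterval.volume_Ioo, unitInterval.volume_Ici, ENNReal.toReal_ofReal, ENNReal.toReal_ofReal]
    · show (s - s / 2) * (1 - 3 / 4) = _
      norm_num
    · show (0 : ℝ) ≤ 1 - 3 / 4
      norm_num
    · show (0 : ℝ) ≤ s - s / 2
      linarith
  have hm := rh_measurable_gev s
  rw [rh_rho_zero_eq]
  unfold rh_nu
  rw [integral_map hm.aemeasurable (by fun_prop)]
  have hint : Integrable (fun p : I × I => Real.tanh (rh_gev s p) ^ 2) volume := by
    apply Integrable.of_bound (C := 1)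
    · exact ((htc.measurable.comp hm).pow_const 2).aestronglyMeasurable
    · refine Filter.Eventually.of_forall fun x => ?_
      rw [Real.norm_eq_abs, abs_of_nonneg (sq_nonneg _)]
      have h1 := Real.tanh_bijOn.mapsTo (mem_univ (rh_gev s x))
      rw [sq_le_one_iff_abs_le_one]
      exact abs_le.2 ⟨h1.1.le, h1.2.le⟩
  have key : ∀ p ∈ A, s / 1000 ≤ Real.tanh (rh_gev s p) ^ 2 := by
    intro p hp
    obtain ⟨⟨hp1, hp2⟩, hp3⟩ := hp
    have hp1' : s / 2 < p.1 := hp1
    have hp2' : (p.1 : ℝ) < s := hp2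
    have hp3' : (3 / 4 : ℝ) ≤ p.2 := hp3
    have hst := st_le p.1
    have hst0 := st_nonneg p.1
    have hq := rh_Qm_ge hst0 (by linarith) hp3'
    have hy := (abs_st_mul_le p.1 (Qm (st p.1) p.2)).trans hst
    have hg : Real.tanh (rh_gev s p) = st p.1 * (2 * (Qm (st p.1) p.2 : ℝ) - 1) := by
      unfold rh_gev
      rw [if_pos hp2']
      unfold xi
      rw [Real.tanh_artanh]
      obtain ⟨ha, hb⟩ := abs_le.1 hy
      exact ⟨by linarith, by linarith⟩
    rw [hg, mul_pow]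
    have h2 : st p.1 ^ 2 = (p.1 : ℝ) / 4 := by
      unfold st
      rw [if_pos (by linarith), div_pow, Real.sq_sqrt p.1.2.1]
      norm_num
    have h3 : (1 / 4 : ℝ) ≤ (2 * (Qm (st p.1) p.2 : ℝ) - 1) ^ 2 := by nlinarith
    rw [h2]
    have h4 : (0 : ℝ) ≤ (p.1 : ℝ) / 4 := by linarith
    calc s / 1000 ≤ (p.1 : ℝ) / 4 * (1 / 4) := by linarith
      _ ≤ (p.1 : ℝ) / 4 * (2 * (Qm (st p.1) p.2 : ℝ) - 1) ^ 2 := mul_le_mul_of_nonneg_left h3 h4
  have h5 : ∫ p, A.indicator (fun _ => s / 1000) p ∂(volume : Measure (I × I))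
      ≤ ∫ p, Real.tanh (rh_gev s p) ^ 2 ∂(volume : Measure (I × I)) := by
    apply integral_mono ((integrable_const _).indicator hAm) hint
    intro p
    by_cases hp : p ∈ A
    · simp only [indicator_of_mem hp]
      exact key p hp
    · simp only [indicator_of_notMem hp]
      positivity
  rw [integral_indicator_const _ hAm, hAv] at h5
  refine le_trans (le_of_eq ?_) h5
  simp only [smul_eq_mul]
  ring

theorem rho_abs_mom (s : ℝ) (hs : 0 ≤ s) (hs' : s ≤ 1 / 2) (n : ℕ) (hn : 1 ≤ n) :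
    ∫ x, |x| ^ n ∂(rho 0 s) ≤ √s ^ n * s := by
  have hm := rh_measurable_gev s
  rw [rh_rho_zero_eq]
  unfold rh_nu
  rw [integral_map hm.aemeasurable (by fun_prop)]
  let T2 : I := ⟨s, hs, by linarith⟩
  set A : Set (I × I) := Iio T2 ×ˢ univ with hA
  have hAm : MeasurableSet A := measurableSet_Iio.prod MeasurableSet.univ
  have hAv : (volume : Measure (I × I)).real A = s := by
    rw [hA, Measure.volume_eq_prod, measureReal_prod_prod, measureReal_def,
      unitInterval.volume_Iio, ENNReal.toReal_ofReal]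
    · simp [T2]
    · exact hs
  have hint : Integrable (fun p : I × I => |rh_gev s p| ^ n) volume := by
    apply Integrable.of_bound (C := 1)
    · exact (hm.abs.pow_const n).aestronglyMeasurable
    · refine Filter.Eventually.of_forall fun x => ?_
      rw [Real.norm_eq_abs, abs_of_nonneg (by positivity)]
      exact pow_le_one₀ (abs_nonneg _) (rh_abs_gev_le s x)
  have h5 : ∫ p, |rh_gev s p| ^ n ∂(volume : Measure (I × I))
      ≤ ∫ p, A.indicator (fun _ => √s ^ n) p ∂(volume : Measure (I × I)) := by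
    apply integral_mono hint ((integrable_const _).indicator hAm)
    intro p
    by_cases hp : p ∈ A
    · simp only [indicator_of_mem hp]
      have hp2' : (p.1 : ℝ) < s := hp.1
      apply pow_le_pow_left₀ (abs_nonneg _)
      unfold rh_gev
      rw [if_pos hp2']
      exact (abs_xi_le _ _).trans (Real.sqrt_le_sqrt hp2'.le)
    · simp only [indicator_of_notMem hp]
      have : ¬ ((p.1 : ℝ) < s) := fun h => hp ⟨h, mem_univ _⟩
      unfold rh_gev
      rw [if_neg this, abs_zero, zero_pow (by omega)]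
  rw [integral_indicator_const _ hAm, hAv] at h5
  refine h5.trans (le_of_eq ?_)
  simp only [smul_eq_mul]
  ring

end Crest.Agent.FI
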