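import Mathlib
import Crest.Agent.FI.Defs
import Crest.Agent.FI.EnvBase
import Crest.Agent.FI.EnvQ
import Crest.Agent.FI.Rho
import Crest.Agent.FI.Alg

set_option autoImplicit false

namespace Crest.Agent.FI

open MeasureTheory ProbabilityTheory Set Filter Topology
open scoped ENNReal

/-! ### moment calculus for sums of independent variables -/

/-- moment bounds of order up to `2 p + 2` -/
structure EMB {Ω : Type*} [MeasurableSpace Ω] (P : Measure Ω) (X : Ω → ℝ) (p : ℕ) (s C A : ℝ) :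
    Prop where
  meas : Measurable X
  bdd : ∃ B, ∀ᵐ ω ∂P, |X ω| ≤ B
  mom : ∀ k ≤ 2 * p + 1, |∫ ω, X ω ^ k ∂P| ≤ C * s ^ (min ((k + 1) / 2) p)
  top : ∫ ω, X ω ^ (2 * p + 2) ∂P ≤ A

lemma em_int_pow {Ω : Type*} [MeasurableSpace Ω] {P : Measure Ω} [IsProbabilityMeasure P]
    {X : Ω → ℝ} (hX : Measurable X) (hb : ∃ B, ∀ᵐ ω ∂P, |X ω| ≤ B) (k : ℕ) :
    Integrable (fun ω => X ω ^ k) P := by
  obtain ⟨B, hB⟩ := hb
  refine Integrable.of_bound (hX.pow_const k).aestronglyMeasurable (B ^ k) ?_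
  filter_upwards [hB] with ω h
  rw [Real.norm_eq_abs, abs_pow]
  exact pow_le_pow_left₀ (abs_nonneg _) h k

lemma em_int_pow_mul {Ω : Type*} [MeasurableSpace Ω] {P : Measure Ω} [IsProbabilityMeasure P]
    {X Y : Ω → ℝ} (hX : Measurable X) (hY : Measurable Y) (hb : ∃ B, ∀ᵐ ω ∂P, |X ω| ≤ B)
    (hb' : ∃ B, ∀ᵐ ω ∂P, |Y ω| ≤ B) (k l : ℕ) :
    Integrable (fun ω => X ω ^ k * Y ω ^ l) P := by
  obtain ⟨B, hB⟩ := hb
  obtain ⟨B', hB'⟩ := hb'
  refine Integrable.of_bound ((hX.pow_const k).mul (hY.pow_const l)).aestronglyMeasurable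
    (B ^ k * B' ^ l) ?_
  filter_upwards [hB, hB'] with ω h h'
  rw [Real.norm_eq_abs, abs_mul, abs_pow, abs_pow]
  have h0 : 0 ≤ B := (abs_nonneg _).trans h
  exact mul_le_mul (pow_le_pow_left₀ (abs_nonneg _) h k) (pow_le_pow_left₀ (abs_nonneg _) h' l)
    (by positivity) (by positivity)

lemma em_binom {Ω : Type*} [MeasurableSpace Ω] {P : Measure Ω} [IsProbabilityMeasure P]
    {X Y : Ω → ℝ} (hX : Measurable X) (hY : Measurable Y) (hb : ∃ B, ∀ᵐ ω ∂P, |X ω| ≤ B)
    (hb' : ∃ B, ∀ᵐ ω ∂P, |Y ω| ≤ B) (hi : IndepFun X Y P) (k : ℕ) :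
    ∫ ω, (X ω + Y ω) ^ k ∂P = ∑ m ∈ Finset.range (k + 1),
      (∫ ω, X ω ^ m ∂P) * (∫ ω, Y ω ^ (k - m) ∂P) * (k.choose m : ℝ) := by
  simp_rw [add_pow]
  rw [integral_finsetSum _ fun m _ => (em_int_pow_mul hX hY hb hb' m (k - m)).mul_const _]
  refine Finset.sum_congr rfl fun m _ => ?_
  rw [integral_mul_const]
  congr 1
  exact hi.integral_fun_comp_mul_comp (f := fun x => x ^ m) (g := fun x => x ^ (k - m))
    hX.aemeasurable hY.aemeasurable (by fun_prop) (by fun_prop)

lemma em_sum_bound {k : ℕ} {a : ℕ → ℝ} {M : ℝ} (hM : ∀ m ≤ k, |a m| ≤ M) :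
    |∑ m ∈ Finset.range (k + 1), a m * (k.choose m : ℝ)| ≤ 2 ^ k * M := by
  calc |∑ m ∈ Finset.range (k + 1), a m * (k.choose m : ℝ)|
      ≤ ∑ m ∈ Finset.range (k + 1), |a m * (k.choose m : ℝ)| := Finset.abs_sum_le_sum_abs _ _
    _ ≤ ∑ m ∈ Finset.range (k + 1), M * (k.choose m : ℝ) := by
        refine Finset.sum_le_sum fun m hm => ?_
        rw [abs_mul, abs_of_nonneg (by positivity : (0 : ℝ) ≤ (k.choose m : ℝ))]
        exact mul_le_mul_of_nonneg_right (hM m (by have := Finset.mem_range.1 hm; omega))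
          (by positivity)
    _ = 2 ^ k * M := by
        rw [← Finset.mul_sum]
        have := Nat.sum_range_choose k
        have h2 : ∑ m ∈ Finset.range (k + 1), (k.choose m : ℝ) = 2 ^ k := by exact_mod_cast this
        rw [h2]; ring

lemma EMB.add {Ω : Type*} [MeasurableSpace Ω] {P : Measure Ω} [IsProbabilityMeasure P]
    {X Y : Ω → ℝ} {p : ℕ} (hp : 1 ≤ p) {s C C' A A' : ℝ} (hs : 0 < s) (hs1 : s ≤ 1)
    (hC : 1 ≤ C) (hC' : 1 ≤ C') (hX : EMB P X p s C A) (hY : EMB P Y p s C' A')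
    (hi : IndepFun X Y P) :
    EMB P (fun ω => X ω + Y ω) p s (4 ^ (p + 1) * (C * C'))
      (A + A' + 4 ^ (p + 1) * (C * C') * s ^ (p + 1)) := by
  have hCC : 0 < C * C' := by positivity
  have key : ∀ m l e : ℕ, m ≤ 2 * p + 1 → l ≤ 2 * p + 1 →
      e ≤ min ((m + 1) / 2) p + min ((l + 1) / 2) p →
      |(∫ ω, X ω ^ m ∂P) * (∫ ω, Y ω ^ l ∂P)| ≤ C * C' * s ^ e := by
    intro m l e hm hl he
    rw [abs_mul]
    calc |∫ ω, X ω ^ m ∂P| * |∫ ω, Y ω ^ l ∂P|
        ≤ (C * s ^ (min ((m + 1) / 2) p)) * (C' * s ^ (min ((l + 1) / 2) p)) :=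
          mul_le_mul (hX.mom m hm) (hY.mom l hl) (abs_nonneg _) (by positivity)
      _ = C * C' * s ^ (min ((m + 1) / 2) p + min ((l + 1) / 2) p) := by rw [pow_add]; ring
      _ ≤ C * C' * s ^ e := by
          apply mul_le_mul_of_nonneg_left _ hCC.le
          exact pow_le_pow_of_le_one hs.le hs1 he
  refine ⟨hX.meas.add hY.meas, ?_, ?_, ?_⟩
  · obtain ⟨B, hB⟩ := hX.bdd
    obtain ⟨B', hB'⟩ := hY.bdd
    refine ⟨B + B', ?_⟩
    filter_upwards [hB, hB'] with ω h h'
    exact (abs_add_le _ _).trans (add_le_add h h')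
  · intro k hk
    rw [em_binom hX.meas hY.meas hX.bdd hY.bdd hi k]
    refine (em_sum_bound (M := C * C' * s ^ (min ((k + 1) / 2) p)) fun m hm => ?_).trans ?_
    · exact key m (k - m) _ (by omega) (by omega) (by omega)
    · rw [mul_assoc (4 ^ (p + 1))]
      apply mul_le_mul_of_nonneg_right _ (by positivity)
      calc (2 : ℝ) ^ k ≤ 2 ^ (2 * (p + 1)) := pow_le_pow_right₀ (by norm_num) (by omega)
        _ = 4 ^ (p + 1) := by rw [pow_mul]; norm_num
  · rw [em_binom hX.meas hY.meas hX.bdd hY.bdd hi (2 * p + 2), Finset.sum_range_succ,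
      Finset.sum_range_succ']
    have hPu : ∫ _ω, (1 : ℝ) ∂P = 1 := by simp
    simp only [pow_zero, Nat.choose_zero_right, Nat.choose_self, Nat.sub_self, Nat.cast_one,
      mul_one, hPu, one_mul, Nat.sub_zero]
    have h1 : ∑ m ∈ Finset.range (2 * p + 1), (∫ ω, X ω ^ (m + 1) ∂P) *
        (∫ ω, Y ω ^ (2 * p + 2 - (m + 1)) ∂P) * ((2 * p + 2).choose (m + 1) : ℝ)
        ≤ 4 ^ (p + 1) * (C * C') * s ^ (p + 1) := by
      calc _ ≤ ∑ m ∈ Finset.range (2 * p + 1), C * C' * s ^ (p + 1) *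
            ((2 * p + 2).choose (m + 1) : ℝ) := by
            refine Finset.sum_le_sum fun m hm => ?_
            have hm' := Finset.mem_range.1 hm
            apply mul_le_mul_of_nonneg_right _ (by positivity)
            exact (le_abs_self _).trans (key (m + 1) (2 * p + 2 - (m + 1)) (p + 1) (by omega)
              (by omega) (by omega))
        _ ≤ ∑ m ∈ Finset.range (2 * p + 2), C * C' * s ^ (p + 1) *
            ((2 * p + 2).choose (m + 1) : ℝ) := by
            refine Finset.sum_le_sum_of_subset_of_nonneg ?_ fun _ _ _ => by positivity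
            intro m hm
            have := Finset.mem_range.1 hm
            exact Finset.mem_range.2 (by omega)
        _ ≤ ∑ m ∈ Finset.range (2 * p + 2 + 1), C * C' * s ^ (p + 1) *
            ((2 * p + 2).choose m : ℝ) := by
            rw [Finset.sum_range_succ' _ (2 * p + 2)]
            have : 0 ≤ C * C' * s ^ (p + 1) * ((2 * p + 2).choose 0 : ℝ) := by positivity
            linarith
        _ = 4 ^ (p + 1) * (C * C') * s ^ (p + 1) := by
            rw [← Finset.mul_sum]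
            have := Nat.sum_range_choose (2 * p + 2)
            have h2 : ∑ m ∈ Finset.range (2 * p + 2 + 1), ((2 * p + 2).choose m : ℝ)
                = 2 ^ (2 * p + 2) := by exact_mod_cast this
            rw [h2, show 2 * p + 2 = 2 * (p + 1) by ring, pow_mul]
            norm_num
            ring
    have h2 := hX.top
    have h3 := hY.top
    linarith

lemma EMB.comp {Ω Ω' : Type*} [MeasurableSpace Ω] [MeasurableSpace Ω'] {P : Measure Ω}
    {P' : Measure Ω'} {X : Ω → ℝ} {p : ℕ} {s C A : ℝ} (h : EMB P X p s C A) {φ : Ω' → Ω}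
    (hφ : MeasurePreserving φ P' P) : EMB P' (fun ω => X (φ ω)) p s C A := by
  have key : ∀ k : ℕ, ∫ ω, X (φ ω) ^ k ∂P' = ∫ ω, X ω ^ k ∂P := by
    intro k
    rw [← hφ.map_eq, integral_map hφ.measurable.aemeasurable
      (h.meas.pow_const k).aestronglyMeasurable]
  refine ⟨h.meas.comp hφ.measurable, ?_, ?_, ?_⟩
  · obtain ⟨B, hB⟩ := h.bdd
    exact ⟨B, hφ.quasiMeasurePreserving.ae hB⟩
  · intro k hk
    rw [key k]
    exact h.mom k hk
  · rw [key]
    exact h.top

lemma em_zero {Ω : Type*} [MeasurableSpace Ω] (P : Measure Ω) [IsProbabilityMeasure P] (p : ℕ)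
    {s : ℝ} (hs : 0 < s) : EMB P (fun _ => 0) p s 1 0 := by
  refine ⟨measurable_const, ⟨0, by simp⟩, ?_, by simp⟩
  intro k _
  cases k with
  | zero => simp
  | succ k =>
    simp only [ne_eq, Nat.add_eq_zero_iff, one_ne_zero, and_false, not_false_eq_true, zero_pow,
      integral_zero, abs_zero, one_mul]
    positivity

lemma EMB.mono {Ω : Type*} [MeasurableSpace Ω] {P : Measure Ω} {X : Ω → ℝ} {p : ℕ}
    {s C A C' A' : ℝ} (h : EMB P X p s C A) (hs : 0 < s) (hC : C ≤ C') (hA : A ≤ A') :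
    EMB P X p s C' A' :=
  ⟨h.meas, h.bdd, fun k hk => (h.mom k hk).trans (mul_le_mul_of_nonneg_right hC (by positivity)),
    h.top.trans hA⟩

lemma em_sum {Ω ι : Type*} [MeasurableSpace Ω] {P : Measure Ω} [IsProbabilityMeasure P]
    {X : ι → Ω → ℝ} {p : ℕ} (hp : 1 ≤ p) {s C A : ℝ} (hs : 0 < s) (hs1 : s ≤ 1)
    (hC : 1 ≤ C) (hX : ∀ i, EMB P (X i) p s C A) (hi : iIndepFun X P) (F : Finset ι) :
    EMB P (fun ω => ∑ i ∈ F, X i ω) p s ((4 ^ (p + 1) * C) ^ F.card)
      (F.card * A + F.card * (4 ^ (p + 1) * C) ^ F.card * s ^ (p + 1)) := by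
  classical
  have hD : 1 ≤ 4 ^ (p + 1) * C := by
    have : (1 : ℝ) ≤ 4 ^ (p + 1) := one_le_pow₀ (by norm_num)
    nlinarith
  induction F using Finset.induction_on with
  | empty => simpa using em_zero P p hs
  | insert a F ha ih =>
    have h1 : IndepFun (X a) (fun ω => ∑ i ∈ F, X i ω) P := by
      have := (hi.indepFun_finsetSum_of_notMem (fun i => (hX i).meas) ha).symm
      have e : (fun ω => ∑ i ∈ F, X i ω) = ∑ j ∈ F, X j := by
        funext ω
        rw [Finset.sum_apply]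
      rw [e]
      exact this
    have hDn : 1 ≤ (4 ^ (p + 1) * C) ^ F.card := one_le_pow₀ hD
    have h2 := EMB.add hp hs hs1 hC hDn (hX a) ih h1
    have e : (fun ω => ∑ i ∈ insert a F, X i ω) = fun ω => X a ω + ∑ i ∈ F, X i ω := by
      funext ω
      rw [Finset.sum_insert ha]
    rw [e, Finset.card_insert_of_notMem ha]
    refine h2.mono hs ?_ ?_
    · rw [pow_succ]
      apply le_of_eq
      ring
    · have h3 : (4 : ℝ) ^ (p + 1) * (C * (4 ^ (p + 1) * C) ^ F.card)
          = (4 ^ (p + 1) * C) ^ (F.card + 1) := by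
        rw [pow_succ]; ring
      rw [h3]
      push_cast
      have h4 : (F.card : ℝ) * (4 ^ (p + 1) * C) ^ F.card * s ^ (p + 1)
          ≤ F.card * (4 ^ (p + 1) * C) ^ (F.card + 1) * s ^ (p + 1) := by
        apply mul_le_mul_of_nonneg_right _ (by positivity)
        apply mul_le_mul_of_nonneg_left _ (by positivity)
        exact pow_le_pow_right₀ hD (by omega)
      nlinarith [h4]

/-! ### one edge -/

lemma em_berS_int (θ : ℝ) (h0 : 0 ≤ θ) (h1 : θ ≤ 1) (k : ℕ) :
    ∫ e, e ^ k ∂(berS θ) = (1 + θ) / 2 + (1 - θ) / 2 * (-1) ^ k := by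
  unfold berS
  rw [integral_add_measure, integral_smul_measure, integral_smul_measure, integral_dirac,
    integral_dirac, ENNReal.toReal_ofReal (by linarith), ENNReal.toReal_ofReal (by linarith)]
  · simp
  · exact (integrable_dirac (by simp)).smul_measure ENNReal.ofReal_ne_top
  · exact (integrable_dirac (by simp)).smul_measure ENNReal.ofReal_ne_top

lemma em_berS_abs (θ : ℝ) (h0 : 0 ≤ θ) (h1 : θ ≤ 1) (k : ℕ) :
    |∫ e, e ^ k ∂(berS θ)| ≤ 1 := by
  rw [em_berS_int θ h0 h1]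
  rcases Nat.even_or_odd k with h | h
  · rw [h.neg_one_pow, abs_of_nonneg] <;> linarith
  · rw [h.neg_one_pow, abs_of_nonneg] <;> linarith

lemma em_edge {Ω : Type*} [MeasurableSpace Ω] {Q : Measure Ω} [IsProbabilityMeasure Q]
    {H : Ω → ℝ} (hH : Measurable H) {B : ℝ} (hB1 : 1 ≤ B) (hB : ∀ᵐ ω ∂Q, |H ω| ≤ B)
    {θ : ℝ} (h0 : 0 ≤ θ) (h1 : θ < 1)
    (hN : ∀ k, ∫ ω, ff θ (H ω) ^ (2 * k + 1) ∂Q
      = ∫ ω, ff θ (H ω) ^ (2 * k + 1) * Real.tanh (H ω) ∂Q)
    {p : ℕ} {s C : ℝ} (hs : 0 < s) (hC : 1 ≤ C)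
    (hmom : ∀ j ≤ p, ∫ ω, H ω ^ (2 * j) ∂Q ≤ C * s ^ j) :
    EMB ((berS θ).prod Q) (fun z => z.1 * ff θ (H z.2)) p s (B * C)
      (θ ^ (2 * p + 2) * ∫ ω, H ω ^ (2 * p + 2) ∂Q) := by
  have hbp : IsProbabilityMeasure (berS θ) := bst_berS_prob (by linarith) h1.le
  have hfm : Measurable (fun ω => ff θ (H ω)) := (measurable_ff θ).comp hH
  have hprod : ∀ k : ℕ, ∫ z, (z.1 * ff θ (H z.2)) ^ k ∂((berS θ).prod Q)
      = (∫ e, e ^ k ∂(berS θ)) * ∫ ω, ff θ (H ω) ^ k ∂Q := by
    intro k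
    simp_rw [mul_pow]
    exact integral_prod_mul (fun e : ℝ => e ^ k) (fun ω => ff θ (H ω) ^ k)
  have hfb : ∀ ω, |ff θ (H ω)| ≤ |H ω| := fun ω =>
    (abs_ff_le h0 h1 _).trans (by nlinarith [abs_nonneg (H ω)])
  have hfb2 : ∀ ω, |ff θ (H ω)| ≤ θ * |H ω| := fun ω => abs_ff_le h0 h1 _
  have hHi : ∀ k, Integrable (fun ω => H ω ^ k) Q := em_int_pow hH ⟨B, hB⟩
  have hfbd : ∃ B', ∀ᵐ ω ∂Q, |ff θ (H ω)| ≤ B' :=
    ⟨B, by filter_upwards [hB] with ω h using (hfb ω).trans h⟩
  have hfi : ∀ k, Integrable (fun ω => ff θ (H ω) ^ k) Q := em_int_pow hfm hfbd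
  have heven : ∀ j ≤ p, |∫ ω, ff θ (H ω) ^ (2 * j) ∂Q| ≤ C * s ^ j := by
    intro j hj
    refine (abs_integral_le_integral_abs).trans (le_trans ?_ (hmom j hj))
    refine integral_mono (hfi _).abs (hHi _) fun ω => ?_
    simp only
    rw [abs_pow, pow_mul, pow_mul]
    refine pow_le_pow_left₀ (by positivity) ?_ j
    rw [sq_abs, sq_le_sq]
    exact hfb ω
  have hodd : ∀ j < p, |∫ ω, ff θ (H ω) ^ (2 * j + 1) ∂Q| ≤ C * s ^ (j + 1) := by
    intro j hj
    rw [hN j]
    refine (abs_integral_le_integral_abs).trans (le_trans ?_ (hmom (j + 1) hj))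
    refine integral_mono_of_nonneg (Eventually.of_forall fun ω => abs_nonneg _) (hHi _)
      (Eventually.of_forall fun ω => ?_)
    simp only
    rw [abs_mul, abs_pow]
    have ht : |Real.tanh (H ω)| ≤ |H ω| := by
      have := tanh_lip (H ω) 0
      rwa [Real.tanh_zero, sub_zero, sub_zero] at this
    calc |ff θ (H ω)| ^ (2 * j + 1) * |Real.tanh (H ω)| ≤ |H ω| ^ (2 * j + 1) * |H ω| :=
          mul_le_mul (pow_le_pow_left₀ (abs_nonneg _) (hfb ω) _) ht (abs_nonneg _) (by positivity)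
      _ = |H ω| ^ (2 * (j + 1)) := by ring
      _ = H ω ^ (2 * (j + 1)) := (even_two_mul _).pow_abs _
  have hlast : |∫ ω, ff θ (H ω) ^ (2 * p + 1) ∂Q| ≤ B * (C * s ^ p) := by
    refine (abs_integral_le_integral_abs).trans ?_
    calc ∫ ω, |ff θ (H ω) ^ (2 * p + 1)| ∂Q ≤ ∫ ω, B * H ω ^ (2 * p) ∂Q := by
          refine integral_mono_of_nonneg (Eventually.of_forall fun ω => abs_nonneg _)
            ((hHi _).const_mul _) ?_
          filter_upwards [hB] with ω h
          rw [abs_pow]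
          calc |ff θ (H ω)| ^ (2 * p + 1) ≤ |H ω| ^ (2 * p + 1) :=
                pow_le_pow_left₀ (abs_nonneg _) (hfb ω) _
            _ = |H ω| * |H ω| ^ (2 * p) := by ring
            _ ≤ B * |H ω| ^ (2 * p) := mul_le_mul_of_nonneg_right h (by positivity)
            _ = B * H ω ^ (2 * p) := by rw [(even_two_mul _).pow_abs]
      _ = B * ∫ ω, H ω ^ (2 * p) ∂Q := integral_const_mul _ _
      _ ≤ B * (C * s ^ p) := mul_le_mul_of_nonneg_left (hmom p le_rfl) (by linarith)
  have hBC : C ≤ B * C := by nlinarith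
  refine ⟨?_, ?_, ?_, ?_⟩
  · exact measurable_fst.mul (hfm.comp measurable_snd)
  · refine ⟨B, ?_⟩
    have h2 : ∀ᵐ z ∂((berS θ).prod Q), |H z.2| ≤ B :=
      (measurePreserving_snd (μ := berS θ) (ν := Q)).quasiMeasurePreserving.ae hB
    have h3 : ∀ᵐ e ∂(berS θ), |e| ≤ 1 := by
      unfold berS
      rw [ae_add_measure_iff]
      constructor
      · exact Measure.ae_smul_measure (by rw [ae_dirac_iff] <;> simp; measurability) _
      · exact Measure.ae_smul_measure (by rw [ae_dirac_iff] <;> simp; measurability) _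
    have h4 : ∀ᵐ z ∂((berS θ).prod Q), |z.1| ≤ 1 :=
      (measurePreserving_fst (μ := berS θ) (ν := Q)).quasiMeasurePreserving.ae h3
    filter_upwards [h2, h4] with z h h'
    rw [abs_mul]
    calc |z.1| * |ff θ (H z.2)| ≤ 1 * B := mul_le_mul h' ((hfb _).trans h) (abs_nonneg _) zero_le_one
      _ = B := one_mul B
  · intro k hk
    rw [hprod k, abs_mul]
    have h5 : |∫ ω, ff θ (H ω) ^ k ∂Q| ≤ B * C * s ^ (min ((k + 1) / 2) p) := by
      rcases Nat.even_or_odd' k with ⟨j, rfl | rfl⟩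
      · have e : min ((2 * j + 1) / 2) p = j := by omega
        rw [e]
        exact (heven j (by omega)).trans (mul_le_mul_of_nonneg_right hBC (by positivity))
      · rcases lt_or_ge j p with hj | hj
        · have e : min ((2 * j + 1 + 1) / 2) p = j + 1 := by omega
          rw [e]
          exact (hodd j hj).trans (mul_le_mul_of_nonneg_right hBC (by positivity))
        · have e0 : j = p := by omega
          subst e0
          have e : min ((2 * j + 1 + 1) / 2) j = j := by omega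
          rw [e]
          exact hlast.trans (by rw [mul_assoc])
    calc |∫ e, e ^ k ∂(berS θ)| * |∫ ω, ff θ (H ω) ^ k ∂Q| ≤ 1 * |∫ ω, ff θ (H ω) ^ k ∂Q| :=
          mul_le_mul_of_nonneg_right (em_berS_abs θ h0 h1.le k) (abs_nonneg _)
      _ ≤ _ := by rw [one_mul]; exact h5
  · rw [hprod, em_berS_int θ h0 h1.le, show 2 * p + 2 = 2 * (p + 1) by ring,
      (even_two_mul (p + 1)).neg_one_pow]
    have e : (1 + θ) / 2 + (1 - θ) / 2 * 1 = 1 := by ring
    rw [e, one_mul, ← integral_const_mul]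
    refine integral_mono (hfi _) ((hHi _).const_mul _) fun ω => ?_
    simp only
    rw [← (even_two_mul (p + 1)).pow_abs (ff θ (H ω)), ← (even_two_mul (p + 1)).pow_abs (H ω),
      ← mul_pow]
    exact pow_le_pow_left₀ (abs_nonneg _) (hfb2 ω) _

/-! ### the fields -/

lemma em_rho {s : ℝ} (hs : 0 < s) (hs' : s ≤ 1 / 2) (p : ℕ) :
    EMB (rho 0 s) (fun x => x) p s 1 (s ^ (p + 1)) := by
  have hch := chan_rho 0 s
  have := hch.prob
  have hbd : ∀ᵐ x ∂(rho 0 s), |x| ≤ 1 := by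
    filter_upwards [hch.bdd] with x hx
    simpa using hx
  have hsq : √s ≤ 1 := Real.sqrt_le_one.2 (by linarith)
  have hsq0 : 0 ≤ √s := Real.sqrt_nonneg s
  have hss : √s ^ 2 = s := Real.sq_sqrt hs.le
  have key : ∀ k e : ℕ, 1 ≤ k → 2 * e ≤ k + 2 → |∫ x, x ^ k ∂(rho 0 s)| ≤ s ^ e := by
    intro k e hk he
    calc |∫ x, x ^ k ∂(rho 0 s)| ≤ ∫ x, |x ^ k| ∂(rho 0 s) := abs_integral_le_integral_abs
      _ = ∫ x, |x| ^ k ∂(rho 0 s) := by simp_rw [abs_pow]
      _ ≤ √s ^ k * s := rho_abs_mom s hs.le hs' k hk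
      _ = √s ^ (k + 2) := by rw [pow_add, hss]
      _ ≤ √s ^ (2 * e) := pow_le_pow_of_le_one hsq0 hsq he
      _ = s ^ e := by rw [pow_mul, hss]
  refine ⟨measurable_id, ⟨1, hbd⟩, ?_, ?_⟩
  · intro k hk
    rw [one_mul]
    rcases Nat.eq_zero_or_pos k with rfl | hk0
    · simp
    · exact key k _ hk0 (by omega)
  · exact (le_abs_self _).trans (key (2 * p + 2) (p + 1) (by omega) (by omega))

variable {V : Type*} (G : SimpleGraph V) [G.LocallyFinite]

lemma em_tanh_id (h : ℝ) : (1 + Real.tanh h) * Real.exp (-(2 * h)) = 1 - Real.tanh h := by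
  rw [Real.tanh_eq_sinh_div_cosh, Real.sinh_eq, Real.cosh_eq]
  have e1 : Real.exp (-(2 * h)) = Real.exp (-h) * Real.exp (-h) := by
    rw [← Real.exp_add]; ring_nf
  have e2 : Real.exp h * Real.exp (-h) = 1 := by rw [← Real.exp_add]; simp
  have h1 := Real.exp_pos h
  have h2 := Real.exp_pos (-h)
  have h3 : (Real.exp h + Real.exp (-h)) ≠ 0 := by positivity
  rw [e1]
  field_simp
  linear_combination (2 * Real.exp (-h)) * e2

lemma em_nishi_odd [Countable V] (hT : G.IsTree) {d : ℕ} (hreg : G.IsRegularOfDegree d)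
    {θ : ℝ} (h0 : 0 ≤ θ) (h1 : θ < 1) {μ : Measure (V → Bool)} [IsProbabilityMeasure μ]
    (hμ : IsIsing G θ μ) {ρ : V → Measure ℝ} {L : ℝ} (hρ : ∀ v, Chan (ρ v) L)
    (hgood : ∀ᵐ x ∂(fieldLaw μ ρ), Good G θ x) {i j : V} (h : G.Adj i j) (k : ℕ) :
    ∫ q, ff θ (hh G θ q i j) ^ (2 * k + 1) ∂(spinField μ ρ)
      = ∫ q, ff θ (hh G θ q i j) ^ (2 * k + 1) * Real.tanh (hh G θ q i j) ∂(spinField μ ρ) := by
  have := fun v => (hρ v).prob
  have hodd : ∀ a, ff θ (-a) ^ (2 * k + 1) = -(ff θ a ^ (2 * k + 1)) := by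
    intro a
    rw [ff_neg, Odd.neg_pow ⟨k, rfl⟩]
  have hfb : ∀ a, |ff θ a ^ (2 * k + 1)| ≤ Real.artanh θ ^ (2 * k + 1) := fun a => by
    rw [abs_pow]
    exact pow_le_pow_left₀ (abs_nonneg _) (abs_ff_le' h0 h1 a) _
  have h2 := hh_nishi G hT hreg h0 h1 hμ hρ hgood h
    (fun a => ff θ a ^ (2 * k + 1) * (1 + Real.tanh a))
    (((measurable_ff θ).pow_const _).mul (continuous_tanh.measurable.const_add 1))
    ⟨Real.artanh θ ^ (2 * k + 1) * 2, fun a => by
      rw [abs_mul]
      refine mul_le_mul (hfb a) ?_ (abs_nonneg _) ((abs_nonneg _).trans (hfb a))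
      have := tanh_mem a
      rw [abs_of_nonneg] <;> linarith [this.1, this.2]⟩
  have hm := measurable_hh G θ i j
  have hi1 : Integrable (fun q => ff θ (hh G θ q i j) ^ (2 * k + 1)) (spinField μ ρ) :=
    Integrable.of_bound (((measurable_ff θ).comp hm).pow_const _).aestronglyMeasurable
      (Real.artanh θ ^ (2 * k + 1)) (Eventually.of_forall fun q => by
        rw [Real.norm_eq_abs]; exact hfb _)
  have hi2 : Integrable (fun q => ff θ (hh G θ q i j) ^ (2 * k + 1) * Real.tanh (hh G θ q i j))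
      (spinField μ ρ) :=
    Integrable.of_bound ((((measurable_ff θ).comp hm).pow_const _).mul
      (continuous_tanh.measurable.comp hm)).aestronglyMeasurable
      (Real.artanh θ ^ (2 * k + 1)) (Eventually.of_forall fun q => by
        rw [Real.norm_eq_abs, abs_mul]
        calc _ ≤ Real.artanh θ ^ (2 * k + 1) * 1 :=
              mul_le_mul (hfb _) (Real.abs_tanh_lt_one _).le (abs_nonneg _)
                ((abs_nonneg _).trans (hfb 0))
          _ = _ := mul_one _)
  have e1 : ∀ q, ff θ (-(hh G θ q i j)) ^ (2 * k + 1) * (1 + Real.tanh (-(hh G θ q i j)))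
      = ff θ (hh G θ q i j) ^ (2 * k + 1) * Real.tanh (hh G θ q i j)
        - ff θ (hh G θ q i j) ^ (2 * k + 1) := by
    intro q
    rw [hodd, Real.tanh_neg]
    ring
  have e2 : ∀ q, ff θ (hh G θ q i j) ^ (2 * k + 1) * (1 + Real.tanh (hh G θ q i j))
      * Real.exp (-(2 * hh G θ q i j)) = ff θ (hh G θ q i j) ^ (2 * k + 1)
        - ff θ (hh G θ q i j) ^ (2 * k + 1) * Real.tanh (hh G θ q i j) := by
    intro q
    rw [mul_assoc, em_tanh_id]
    ring
  simp only [e1, e2] at h2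
  rw [integral_sub hi2 hi1, integral_sub hi1 hi2] at h2
  linarith

lemma em_card_oth {d : ℕ} (hreg : G.IsRegularOfDegree d) {i j : V} (h : G.Adj i j) :
    (oth G i j).card + 1 = d := by
  classical
  have e : insert j (oth G i j) = G.neighborFinset i := by
    ext c
    rw [Finset.mem_insert, mem_oth, SimpleGraph.mem_neighborFinset]
    constructor
    · rintro (rfl | h1)
      · exact h
      · exact h1.1
    · intro h1
      by_cases hc : c = j
      · exact Or.inl hc
      · exact Or.inr ⟨h1, hc⟩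
  have hne : j ∉ oth G i j := by rw [mem_oth]; simp
  rw [← hreg i, ← SimpleGraph.card_neighborFinset_eq_degree, ← e, Finset.card_insert_of_notMem hne]

lemma em_step [Countable V] (hT : G.IsTree) {d : ℕ} (hd : 3 ≤ d) (hreg : G.IsRegularOfDegree d)
    {θ : ℝ} (h0 : 0 < θ) (h1 : θ < 1) (hcrit : θ ^ 2 * ((d : ℝ) - 1) ≤ 1)
    {μ : Measure (V → Bool)} [IsProbabilityMeasure μ] (hμ : IsIsing G θ μ) {p : ℕ} (hp : 1 ≤ p)
    {C : ℝ} (hC : 1 ≤ C) :
    ∃ C' : ℝ, 1 ≤ C' ∧ ∀ s : ℝ, 0 < s → s ≤ 1 / 2 →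
      (∀ᵐ x ∂(fieldLaw μ (fun _ => rho 0 s)), Good G θ x) →
      (∀ i j, G.Adj i j → ∀ l ≤ p,
        ∫ q, hh G θ q i j ^ (2 * l) ∂(spinField μ (fun _ => rho 0 s)) ≤ C * s ^ l) →
      ∀ i j, G.Adj i j →
        ∫ q, hh G θ q i j ^ (2 * (p + 1)) ∂(spinField μ (fun _ => rho 0 s)) ≤ C' * s ^ (p + 1) := by
  classical
  set B : ℝ := 1 + d * Real.artanh θ with hBdef
  have hart : 0 ≤ Real.artanh θ := (abs_nonneg _).trans (abs_ff_le' h0.le h1 0)
  have hB1 : 1 ≤ B := by
    have : 0 ≤ (d : ℝ) * Real.artanh θ := by positivity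
    linarith
  set D : ℝ := 4 ^ (p + 1) * (B * C) with hD
  have hBC : 1 ≤ B * C := by nlinarith
  have hD1 : 1 ≤ D := by
    have : (1 : ℝ) ≤ 4 ^ (p + 1) := one_le_pow₀ (by norm_num)
    nlinarith
  set M : ℝ := 1 + ((d - 1 : ℕ) : ℝ) * D ^ (d - 1) + 4 ^ (p + 1) * D ^ (d - 1) with hM
  have hM1 : 1 ≤ M := by
    have : 0 ≤ ((d - 1 : ℕ) : ℝ) * D ^ (d - 1) := by positivity
    have : 0 ≤ 4 ^ (p + 1) * D ^ (d - 1) := by positivity
    linarith
  have hθ2 : 0 < 1 - θ ^ 2 := by nlinarith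
  refine ⟨M / (1 - θ ^ 2), ?_, ?_⟩
  · rw [le_div_iff₀ hθ2]
    nlinarith [sq_nonneg θ]
  intro s hs hs' hgood hmom i j hij
  have hch : ∀ v : V, Chan ((fun _ : V => rho 0 s) v) 1 := fun v => by
    have := chan_rho 0 s
    simpa using this
  have := fun v => (hch v).prob
  set S := spinField μ (fun _ : V => rho 0 s) with hS
  have hgood' : ∀ᵐ q ∂S, Good G θ q.2 := spinField_good G hgood
  have hbd : ∀ i j, ∀ᵐ q ∂S, |hh G θ q i j| ≤ B := by
    intro i j
    filter_upwards [spinField_bdd hch] with q hq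
    unfold hh
    rw [abs_mul, abs_sg, one_mul]
    exact hl_bound G h0.le h1 hreg hq i j
  set y : ℝ := ∫ q, hh G θ q i j ^ (2 * p + 2) ∂S with hy
  -- the law of the messages
  have hmT : ∀ c i : V, Measurable (fun q : (V → Bool) × (V → ℝ) =>
      (hh G θ q c i, Gs G θ q.2 0 c i)) := fun c i =>
    (measurable_hh G θ c i).prodMk ((measurable_Gs G θ 0 c i).comp measurable_snd)
  set Q : G.neighborFinset i → Measure (ℝ × ℝ) := fun c =>
    S.map (fun q => (hh G θ q c i, Gs G θ q.2 0 c i)) with hQ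
  have hQp : ∀ c, IsProbabilityMeasure (Q c) := fun c =>
    Measure.isProbabilityMeasure_map (hmT c i).aemeasurable
  have hadj : ∀ c : G.neighborFinset i, G.Adj c i := fun c =>
    ((SimpleGraph.mem_neighborFinset _ _ _).1 c.2).symm
  have hQint : ∀ (c : G.neighborFinset i) (g : ℝ → ℝ), Measurable g →
      ∫ z, g z.1 ∂(Q c) = ∫ q, g (hh G θ q c i) ∂S := by
    intro c g hg
    exact integral_map (f := fun z : ℝ × ℝ => g z.1) (hmT c i).aemeasurable
      (hg.comp measurable_fst).aestronglyMeasurable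
  have hbp : IsProbabilityMeasure (berS θ) := bst_berS_prob (by linarith) h1.le
  have hedge : ∀ c : G.neighborFinset i, EMB ((berS θ).prod (Q c))
      (fun z => z.1 * ff θ z.2.1) p s (B * C) (θ ^ (2 * p + 2) * y) := by
    intro c
    have h3 := em_edge (Q := Q c) (H := Prod.fst) measurable_fst hB1
      (by
        simp only [hQ]
        rw [ae_map_iff (hmT c i).aemeasurable]
        · exact hbd c i
        · exact measurableSet_le (measurable_fst.abs) measurable_const) h0.le h1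
      (fun k => by
        rw [hQint c (fun a => ff θ a ^ (2 * k + 1)) ((measurable_ff θ).pow_const _),
          hQint c (fun a => ff θ a ^ (2 * k + 1) * Real.tanh a)
            (((measurable_ff θ).pow_const _).mul continuous_tanh.measurable)]
        exact em_nishi_odd G hT hreg h0.le h1 hμ hch hgood (hadj c) k) (p := p) hs hC
      (fun l hl => by
        rw [hQint c (fun a => a ^ (2 * l)) (by fun_prop)]
        exact hmom c i (hadj c) l hl)
    refine h3.mono hs le_rfl (le_of_eq ?_)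
    congr 1
    rw [hQint c (fun a => a ^ (2 * p + 2)) (by fun_prop), hy]
    have h4 := hh_law G hT (by omega) hreg hμ (rho 0 s) (hadj c) hij 0
    have h5 : ∀ a b : V, ∫ q, hh G θ q a b ^ (2 * p + 2) ∂S
        = ∫ z, z.1 ^ (2 * p + 2) ∂(S.map (fun q => (hh G θ q a b, Gs G θ q.2 0 a b))) := by
      intro a b
      rw [integral_map (hmT a b).aemeasurable (by fun_prop)]
    rw [h5, h5]
    congr 1
  set ν : G.neighborFinset i → Measure (ℝ × (ℝ × ℝ)) := fun c => (berS θ).prod (Q c) with hν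
  have hνp : ∀ c, IsProbabilityMeasure (ν c) := fun c => by
    simp only [hν]; infer_instance
  set X : G.neighborFinset i → (G.neighborFinset i → ℝ × (ℝ × ℝ)) → ℝ := fun c w =>
    (w c).1 * ff θ (w c).2.1 with hX
  have hXm : Measurable (fun z : ℝ × (ℝ × ℝ) => z.1 * ff θ z.2.1) :=
    measurable_fst.mul ((measurable_ff θ).comp (measurable_fst.comp measurable_snd))
  have hXe : ∀ c, EMB (Measure.pi ν) (X c) p s (B * C) (θ ^ (2 * p + 2) * y) := fun c =>
    (hedge c).comp (measurePreserving_eval ν c)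
  have hXi : iIndepFun X (Measure.pi ν) :=
    iIndepFun_pi (X := fun _ (z : ℝ × (ℝ × ℝ)) => z.1 * ff θ z.2.1) fun _ => hXm.aemeasurable
  set F : Finset (G.neighborFinset i) := (oth G i j).subtype (· ∈ G.neighborFinset i) with hF
  have hoth : ∀ c ∈ oth G i j, c ∈ G.neighborFinset i := fun c hc =>
    (SimpleGraph.mem_neighborFinset _ _ _).2 (adj_of_mem_oth G hc)
  have hFs : ∀ g : V → ℝ, ∑ c ∈ F, g c = ∑ c ∈ oth G i j, g c := fun g =>
    Finset.sum_subtype_of_mem g hoth
  have hFc : (F.card : ℝ) = ((d - 1 : ℕ) : ℝ) := by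
    have h6 := hFs fun _ => 1
    simp only [Finset.sum_const, nsmul_eq_mul, mul_one] at h6
    have h7 := em_card_oth G hreg hij
    rw [h6]
    congr 1
    omega
  have hsum := em_sum hp hs (by linarith) hBC hXe hXi F
  have hfin := EMB.add hp hs (by linarith) le_rfl (one_le_pow₀ hD1)
    ((em_rho hs hs' p).comp (measurePreserving_fst (μ := rho 0 s) (ν := Measure.pi ν)))
    (hsum.comp (measurePreserving_snd (μ := rho 0 s) (ν := Measure.pi ν)))
    (indepFun_prod measurable_id hsum.meas)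
  have hlaw := hh_indep G hT h0.le h1 hμ (fun _ : V => rho 0 s) hgood i 0
  have hTm : Measurable (fun q : (V → Bool) × (V → ℝ) => (sg (q.1 i) * q.2 i,
      fun c : G.neighborFinset i => (sg (q.1 c) * sg (q.1 i), (hh G θ q c i, Gs G θ q.2 0 c i)))) := by
    have hsg : ∀ v : V, Measurable (fun q : (V → Bool) × (V → ℝ) => sg (q.1 v)) := fun v =>
      bst_sg_meas.comp ((measurable_pi_apply v).comp measurable_fst)
    refine ((hsg i).mul (by fun_prop)).prodMk (measurable_pi_iff.2 fun c => ?_)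
    exact ((hsg c).mul (hsg i)).prodMk (hmT c i)
  have hy2 : y = ∫ z, (z.1 + ∑ c ∈ F, X c z.2) ^ (2 * p + 2) ∂((rho 0 s).prod (Measure.pi ν)) := by
    have h7 : (rho 0 s).prod (Measure.pi ν) = S.map (fun q : (V → Bool) × (V → ℝ) =>
      (sg (q.1 i) * q.2 i, fun c : G.neighborFinset i =>
        (sg (q.1 c) * sg (q.1 i), (hh G θ q c i, Gs G θ q.2 0 c i)))) := hlaw.symm
    rw [h7, integral_map hTm.aemeasurable, hy]
    · refine integral_congr_ae ?_
      filter_upwards [hgood'] with q hq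
      rw [hh_rec G h0.le h1 hq hij]
      congr 2
      simp only [hX]
      rw [hFs (fun c => sg (q.1 c) * sg (q.1 i) * ff θ (hh G θ q c i))]
    · exact ((measurable_fst.add (hsum.meas.comp measurable_snd)).pow_const _).aestronglyMeasurable
  have htop := hfin.top
  rw [← hy2, hFc] at htop
  have hFc' : F.card = d - 1 := by exact_mod_cast hFc
  rw [hFc'] at htop
  have hy0 : 0 ≤ y := integral_nonneg fun q => by
    have : Even (2 * p + 2) := ⟨p + 1, by ring⟩
    exact this.pow_nonneg _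
  have hd1 : ((d - 1 : ℕ) : ℝ) = (d : ℝ) - 1 := by
    rw [Nat.cast_sub (by omega)]
    simp
  have hcoef : ((d - 1 : ℕ) : ℝ) * (θ ^ (2 * p + 2) * y) ≤ θ ^ 2 * y := by
    rw [← mul_assoc]
    apply mul_le_mul_of_nonneg_right _ hy0
    rw [hd1]
    calc ((d : ℝ) - 1) * θ ^ (2 * p + 2) = (θ ^ 2 * ((d : ℝ) - 1)) * θ ^ (2 * p) := by ring
      _ ≤ 1 * θ ^ (2 * p) := mul_le_mul_of_nonneg_right hcrit (by positivity)
      _ = θ ^ (2 * p) := one_mul _
      _ ≤ θ ^ 2 := pow_le_pow_of_le_one h0.le h1.le (by omega)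
  have hfinal : y * (1 - θ ^ 2) ≤ M * s ^ (p + 1) := by
    rw [hM]
    have e1 : (1 : ℝ) * (4 ^ (p + 1) * (B * C)) ^ (d - 1) = D ^ (d - 1) := one_mul _
    rw [e1] at htop
    nlinarith [htop, hcoef]
  have e2 : 2 * (p + 1) = 2 * p + 2 := by ring
  rw [e2, ← hy, div_mul_eq_mul_div, le_div_iff₀ hθ2]
  exact hfinal

lemma em_all [Countable V] (hT : G.IsTree) {d : ℕ} (hd : 3 ≤ d) (hreg : G.IsRegularOfDegree d)
    {θ : ℝ} (h0 : 0 < θ) (h1 : θ < 1) (hcrit : θ ^ 2 * ((d : ℝ) - 1) ≤ 1)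
    {μ : Measure (V → Bool)} [IsProbabilityMeasure μ] (hμ : IsIsing G θ μ) (P : ℕ) :
    ∃ C : ℝ, 1 ≤ C ∧ ∀ s : ℝ, 0 < s → s ≤ 1 / 2 →
      (∀ᵐ x ∂(fieldLaw μ (fun _ => rho 0 s)), Good G θ x) → ∀ i j, G.Adj i j → ∀ l ≤ P + 1,
      ∫ q, hh G θ q i j ^ (2 * l) ∂(spinField μ (fun _ => rho 0 s)) ≤ C * s ^ l := by
  induction P with
  | zero =>
    obtain ⟨C, hC0, hC⟩ := q_upper G hT hd hreg h0 h1 hcrit hμ
    set B : ℝ := 1 + d * Real.artanh θ with hBdef
    refine ⟨1 + Real.cosh B ^ 4 * C, by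
      have : 0 ≤ Real.cosh B ^ 4 * C := by positivity
      linarith, ?_⟩
    intro s hs hs' hgood i j hij l hlP
    have hch : ∀ v : V, Chan ((fun _ : V => rho 0 s) v) 1 := fun v => by
      have := chan_rho 0 s
      simpa using this
    have := fun v => (hch v).prob
    have hrp : IsProbabilityMeasure (rho 0 s) := (chan_rho 0 s).prob
    have hK : 0 ≤ Real.cosh B ^ 4 * C := by positivity
    interval_cases l
    · simp
      exact hK
    · set S := spinField μ (fun _ : V => rho 0 s) with hS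
      have h2 := hC (rho 0 s) 1 (by
        have := chan_rho 0 s
        simpa using this) hgood i j hij
      have h3 : √(∫ x, Real.tanh x ^ 2 ∂(rho 0 s)) ≤ s := by
        rw [Real.sqrt_le_left hs.le]
        calc ∫ x, Real.tanh x ^ 2 ∂(rho 0 s) ≤ ∫ x, |x| ^ 2 ∂(rho 0 s) := by
              refine integral_mono_of_nonneg (Eventually.of_forall fun x => sq_nonneg _) ?_
                (Eventually.of_forall fun x => ?_)
              · simp_rw [sq_abs]
                exact em_int_pow (X := fun x => x) measurable_id ⟨_, (chan_rho 0 s).bdd⟩ 2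
              · simp only
                rw [sq_abs, sq_le_sq]
                have := tanh_lip x 0
                rwa [Real.tanh_zero, sub_zero, sub_zero] at this
          _ ≤ √s ^ 2 * s := rho_abs_mom s hs.le hs' 2 (by norm_num)
          _ = s ^ 2 := by rw [Real.sq_sqrt hs.le]; ring
      have hbd : ∀ᵐ q ∂S, |hh G θ q i j| ≤ B := by
        filter_upwards [spinField_bdd hch] with q hq
        unfold hh
        rw [abs_mul, abs_sg, one_mul]
        exact hl_bound G h0.le h1 hreg hq i j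
      have h4 : ∫ q, hh G θ q i j ^ (2 * 1) ∂S
          ≤ Real.cosh B ^ 4 * ∫ x, al G θ x i j ^ 2 ∂(fieldLaw μ (fun _ => rho 0 s)) := by
        have hfl : ∫ x, al G θ x i j ^ 2 ∂(fieldLaw μ (fun _ => rho 0 s))
            = ∫ q, al G θ q.2 i j ^ 2 ∂S := by
          unfold fieldLaw
          rw [integral_map measurable_snd.aemeasurable
            ((measurable_al G θ i j).pow_const 2).aestronglyMeasurable]
        rw [hfl, ← integral_const_mul]
        refine integral_mono_ae (em_int_pow (measurable_hh G θ i j) ⟨B, hbd⟩ _) ?_ ?_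
        · refine Integrable.const_mul ?_ _
          exact em_int_pow (X := fun q : (V → Bool) × (V → ℝ) => al G θ q.2 i j)
            ((measurable_al G θ i j).comp measurable_snd)
            ⟨1, Eventually.of_forall fun q => (abs_al_lt G θ q.2 i j).le⟩ 2
        · filter_upwards [hbd] with q hq
          have hq' : |hl G θ q.2 i j| ≤ B := by
            unfold hh at hq
            rwa [abs_mul, abs_sg, one_mul] at hq
          have h5 := tanh_lip' (L := B) hq' (b := 0) (by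
            rw [abs_zero]; exact (abs_nonneg _).trans hq')
          rw [Real.tanh_zero, sub_zero, sub_zero] at h5
          have h6 : hh G θ q i j ^ (2 * 1) = |hl G θ q.2 i j| ^ 2 := by
            unfold hh
            rw [mul_one, ← sq_abs, abs_mul, abs_sg, one_mul]
          rw [h6]
          calc |hl G θ q.2 i j| ^ 2 ≤ (Real.cosh B ^ 2 * |Real.tanh (hl G θ q.2 i j)|) ^ 2 :=
                pow_le_pow_left₀ (abs_nonneg _) h5 2
            _ = Real.cosh B ^ 4 * al G θ q.2 i j ^ 2 := by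
                unfold al
                rw [mul_pow, sq_abs]
                ring
      calc ∫ q, hh G θ q i j ^ (2 * 1) ∂S
          ≤ Real.cosh B ^ 4 * ∫ x, al G θ x i j ^ 2 ∂(fieldLaw μ (fun _ => rho 0 s)) := h4
        _ ≤ Real.cosh B ^ 4 * (C * s) := by
            apply mul_le_mul_of_nonneg_left _ (by positivity)
            exact h2.trans (mul_le_mul_of_nonneg_left h3 hC0.le)
        _ ≤ (1 + Real.cosh B ^ 4 * C) * s ^ 1 := by nlinarith
  | succ P ih =>
    obtain ⟨C, hC1, hC⟩ := ih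
    obtain ⟨C', hC1', hC'⟩ := em_step G hT hd hreg h0 h1 hcrit hμ (p := P + 1) (by omega) hC1
    refine ⟨max C C', le_max_of_le_left hC1, ?_⟩
    intro s hs hs' hgood i j hij l hl
    rcases Nat.lt_or_ge l (P + 2) with h | h
    · exact (hC s hs hs' hgood i j hij l (by omega)).trans
        (mul_le_mul_of_nonneg_right (le_max_left _ _) (by positivity))
    · have : l = P + 1 + 1 := by omega
      subst this
      exact (hC' s hs hs' hgood (fun i j hij l hl => hC s hs hs' hgood i j hij l hl) i j hij).trans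
        (mul_le_mul_of_nonneg_right (le_max_right _ _) (by positivity))

/-- moments of the messages in round 0 -/
theorem mom_bound [Countable V] (hT : G.IsTree) {d : ℕ} (hd : 3 ≤ d) (hreg : G.IsRegularOfDegree d)
    {θ : ℝ} (h0 : 0 < θ) (h1 : θ < 1) (hcrit : θ ^ 2 * ((d : ℝ) - 1) ≤ 1)
    {μ : Measure (V → Bool)} [IsProbabilityMeasure μ] (hμ : IsIsing G θ μ) (P : ℕ) :
    ∃ C : ℝ, 0 < C ∧ ∀ s : ℝ, 0 < s → s ≤ 1 / 2 →
      (∀ᵐ x ∂(fieldLaw μ (fun _ => rho 0 s)), Good G θ x) → ∀ i j, G.Adj i j →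
      ∫ x, hl G θ x i j ^ (2 * P) ∂(fieldLaw μ (fun _ => rho 0 s)) ≤ C * s ^ P := by
  obtain ⟨C, hC1, hC⟩ := em_all G hT hd hreg h0 h1 hcrit hμ P
  refine ⟨C, by linarith, ?_⟩
  intro s hs hs' hgood i j hij
  refine le_trans (le_of_eq ?_) (hC s hs hs' hgood i j hij P (by omega))
  unfold fieldLaw
  rw [integral_map measurable_snd.aemeasurable
    ((measurable_hl G θ i j).pow_const _).aestronglyMeasurable]
  refine integral_congr_ae (Eventually.of_forall fun q => ?_)
  simp only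
  unfold hh
  rw [mul_pow, pow_mul (sg (q.1 i)), ← sq_abs (sg (q.1 i)), abs_sg]
  simp

end Crest.Agent.FI
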