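import Mathlib
import Crest.Agent.FI.Defs
import Crest.Agent.FI.Branch
import Crest.Agent.FI.Real
import Crest.Agent.FI.Alg
import Crest.Agent.FI.EnvBase
import Crest.Agent.FI.BST

set_option autoImplicit false

namespace Crest.Agent.FI

open MeasureTheory ProbabilityTheory Set Filter Topology
open scoped ENNReal

variable {V : Type*} (G : SimpleGraph V) [G.LocallyFinite]

theorem et_ge_one (θ : ℝ) (x : V → ℝ) (n : ℕ) (i j : V) : 1 ≤ Gs G θ x n i j := by
  induction n generalizing i j with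
  | zero => simp [Gs]
  | succ n ih =>
    rw [Gs]
    have : 0 ≤ θ ^ 2 * ∑ c ∈ oth G i j, Real.exp (-(kap θ * al G θ x c i ^ 2)) * Gs G θ x n c i := by
      apply mul_nonneg (sq_nonneg θ)
      apply Finset.sum_nonneg
      intro c _
      exact mul_nonneg (Real.exp_pos _).le (zero_le_one.trans (ih c i))
    linarith

theorem et_al_sq (θ : ℝ) (x : V → ℝ) (i j : V) : al G θ x i j ^ 2 ≤ 1 :=
  (Real.tanh_sq_lt_one _).le

theorem et_bdd (θ : ℝ) (n : ℕ) (i j : V) : ∃ B, ∀ x, Gs G θ x n i j ≤ B := by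
  induction n generalizing i j with
  | zero => exact ⟨1, fun x => by simp [Gs]⟩
  | succ n ih =>
    choose B hB using ih
    refine ⟨1 + θ ^ 2 * ∑ c ∈ oth G i j, Real.exp |kap θ| * B c i, fun x => ?_⟩
    rw [Gs]
    gcongr with c _
    · exact zero_le_one.trans (et_ge_one G θ x n c i)
    · have h1 := et_al_sq G θ x c i
      have h2 := neg_abs_le (kap θ)
      have h3 := abs_nonneg (kap θ)
      nlinarith [sq_nonneg (al G θ x c i)]
    · exact hB c i x

theorem et_kap_nonneg {θ : ℝ} (h0 : 0 ≤ θ) (h1 : θ < 1) : 0 ≤ kap θ := by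
  unfold kap; nlinarith

theorem et_step {θ : ℝ} (h0 : 0 ≤ θ) (h1 : θ < 1) (x : V → ℝ) (n : ℕ) (i j : V) :
    Gs G θ x (n + 1) i j ≤ 1 + θ ^ 2 * ∑ c ∈ oth G i j, Gs G θ x n c i := by
  rw [Gs]
  gcongr with c _
  have h2 : Real.exp (-(kap θ * al G θ x c i ^ 2)) ≤ 1 := by
    rw [Real.exp_le_one_iff]
    have := mul_nonneg (et_kap_nonneg h0 h1) (sq_nonneg (al G θ x c i))
    linarith
  have h3 := zero_le_one.trans (et_ge_one G θ x n c i)
  nlinarith

theorem et_card {d : ℕ} (hreg : G.IsRegularOfDegree d) {i j : V} (h : G.Adj i j) :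
    (oth G i j).card = d - 1 := by
  classical
  have h1 : oth G i j = (G.neighborFinset i).erase j := by
    ext c
    rw [mem_oth, Finset.mem_erase, SimpleGraph.mem_neighborFinset]
    tauto
  rw [h1, Finset.card_erase_of_mem (by rwa [SimpleGraph.mem_neighborFinset]),
    SimpleGraph.card_neighborFinset_eq_degree, hreg i]

/-- `Gs n ≤ n + 1` -/
theorem et_le {d : ℕ} (hd : 3 ≤ d) (hreg : G.IsRegularOfDegree d)
    {θ : ℝ} (h0 : 0 ≤ θ) (h1 : θ < 1) (hcrit : θ ^ 2 * ((d : ℝ) - 1) ≤ 1) (x : V → ℝ) (n : ℕ)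
    {i j : V} (h : G.Adj i j) : Gs G θ x n i j ≤ n + 1 := by
  induction n generalizing i j with
  | zero => simp [Gs]
  | succ n ih =>
    refine (et_step G h0 h1 x n i j).trans ?_
    have h2 : ∑ c ∈ oth G i j, Gs G θ x n c i ≤ ((d : ℝ) - 1) * (n + 1) := by
      have h3 : ∑ c ∈ oth G i j, Gs G θ x n c i ≤ ∑ c ∈ oth G i j, ((n : ℝ) + 1) := by
        apply Finset.sum_le_sum
        intro c hc
        exact ih ((mem_oth G).1 hc).1.symm
      rw [Finset.sum_const, et_card G hreg h, nsmul_eq_mul, Nat.cast_sub (by omega)] at h3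
      simpa using h3
    have h4 : θ ^ 2 * ∑ c ∈ oth G i j, Gs G θ x n c i ≤ θ ^ 2 * (((d : ℝ) - 1) * (n + 1)) :=
      mul_le_mul_of_nonneg_left h2 (sq_nonneg θ)
    have h5 : θ ^ 2 * (((d : ℝ) - 1) * (n + 1)) ≤ n + 1 := by
      have h6 : (0 : ℝ) ≤ n + 1 := by positivity
      nlinarith
    push_cast
    linarith

/-- product functions on product spaces -/
theorem et_lintegral_pi {ι : Type*} [Fintype ι] {α : ι → Type*} [∀ i, MeasurableSpace (α i)]
    (ν : ∀ i, Measure (α i)) [∀ i, IsProbabilityMeasure (ν i)] (g : ∀ i, α i → ℝ≥0∞)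
    (hg : ∀ i, Measurable (g i)) :
    ∫⁻ y, ∏ i, g i (y i) ∂(Measure.pi ν) = ∏ i, ∫⁻ z, g i z ∂(ν i) := by
  have hind : iIndepFun (fun i (y : ∀ i, α i) => g i (y i)) (Measure.pi ν) :=
    iIndepFun_pi (fun i => (hg i).aemeasurable)
  rw [lintegral_prod_eq_prod_lintegral_of_indepFun Finset.univ _ hind
    (fun i => (hg i).comp (measurable_pi_apply i))]
  apply Finset.prod_congr rfl
  intro i _
  exact (measurePreserving_eval ν i).lintegral_comp (hg i)

theorem et_fieldLaw_lintegral (μ : Measure (V → Bool)) (ρ : V → Measure ℝ) {f : (V → ℝ) → ℝ≥0∞}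
    (hf : Measurable f) : ∫⁻ x, f x ∂(fieldLaw μ ρ) = ∫⁻ q, f q.2 ∂(spinField μ ρ) := by
  unfold fieldLaw
  rw [lintegral_map hf measurable_snd]

theorem et_prod [Countable V] (hT : G.IsTree) {θ : ℝ} (h0 : 0 ≤ θ) (h1 : θ < 1)
    {μ : Measure (V → Bool)} [IsProbabilityMeasure μ] (hμ : IsIsing G θ μ) (ρ : V → Measure ℝ)
    [∀ v, IsProbabilityMeasure (ρ v)] (hgood : ∀ᵐ x ∂(fieldLaw μ ρ), Good G θ x) (i : V) (n : ℕ)
    (f : V → ℝ → ℝ≥0∞) (hf : ∀ c, Measurable (f c)) :
    ∫⁻ x, ∏ c ∈ G.neighborFinset i, f c (Gs G θ x n c i) ∂(fieldLaw μ ρ)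
      = ∏ c ∈ G.neighborFinset i, ∫⁻ x, f c (Gs G θ x n c i) ∂(fieldLaw μ ρ) := by
  have hmG : ∀ c : V, Measurable (fun x : V → ℝ => Gs G θ x n c i) :=
    fun c => measurable_Gs G θ n c i
  have hmf : ∀ c : V, Measurable (fun x : V → ℝ => f c (Gs G θ x n c i)) :=
    fun c => (hf c).comp (hmG c)
  haveI : IsProbabilityMeasure (spinField μ ρ) := spinField_prob μ ρ
  haveI : IsProbabilityMeasure (berS θ) := bst_berS_prob (by linarith) h1.le
  have hmh : ∀ c : V, Measurable (fun q : (V → Bool) × (V → ℝ) => (hh G θ q c i, Gs G θ q.2 n c i)) := by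
    intro c
    apply Measurable.prodMk
    · unfold hh
      exact ((measurable_of_countable sg).comp ((measurable_pi_apply c).comp measurable_fst)).mul
        ((measurable_hl G θ c i).comp measurable_snd)
    · exact (hmG c).comp measurable_snd
  haveI : ∀ c : G.neighborFinset i, IsProbabilityMeasure
      ((spinField μ ρ).map (fun q => (hh G θ q c i, Gs G θ q.2 n c i))) :=
    fun c => Measure.isProbabilityMeasure_map (hmh c).aemeasurable
  have key := hh_indep G hT h0 h1 hμ ρ hgood i n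
  have hm1 : Measurable (fun x : V → ℝ => ∏ c ∈ G.neighborFinset i, f c (Gs G θ x n c i)) :=
    Finset.measurable_prod _ (fun c _ => hmf c)
  rw [et_fieldLaw_lintegral μ ρ hm1]
  have hPhi : Measurable (fun q : (V → Bool) × (V → ℝ) => (sg (q.1 i) * q.2 i,
        fun c : G.neighborFinset i => (sg (q.1 c) * sg (q.1 i), (hh G θ q c i, Gs G θ q.2 n c i)))) := by
    apply Measurable.prodMk
    · exact ((measurable_of_countable sg).comp ((measurable_pi_apply i).comp measurable_fst)).mul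
        ((measurable_pi_apply i).comp measurable_snd)
    · apply measurable_pi_lambda
      intro c
      apply Measurable.prodMk
      · exact ((measurable_of_countable sg).comp
          ((measurable_pi_apply (c : V)).comp measurable_fst)).mul
          ((measurable_of_countable sg).comp ((measurable_pi_apply i).comp measurable_fst))
      · exact hmh c
  let F : ℝ × (G.neighborFinset i → ℝ × (ℝ × ℝ)) → ℝ≥0∞ := fun y => ∏ c : G.neighborFinset i, f c (y.2 c).2.2
  have hF : Measurable F := by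
    apply Finset.measurable_prod
    intro c _
    exact (hf c).comp (measurable_snd.comp (measurable_snd.comp
      ((measurable_pi_apply c).comp measurable_snd)))
  have h2 : ∫⁻ q, ∏ c ∈ G.neighborFinset i, f c (Gs G θ q.2 n c i) ∂(spinField μ ρ)
      = ∫⁻ y, F y ∂((spinField μ ρ).map (fun q => (sg (q.1 i) * q.2 i,
        fun c : G.neighborFinset i => (sg (q.1 c) * sg (q.1 i),
          (hh G θ q c i, Gs G θ q.2 n c i))))) := by
    rw [lintegral_map hF hPhi]
    apply lintegral_congr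
    intro q
    exact (Finset.prod_coe_sort (G.neighborFinset i) (fun c => f c (Gs G θ q.2 n c i))).symm
  rw [h2, key, lintegral_prod _ hF.aemeasurable]
  have h3 : ∀ a : ℝ, ∫⁻ y, F (a, y) ∂(Measure.pi (fun c : G.neighborFinset i =>
          (berS θ).prod ((spinField μ ρ).map (fun q => (hh G θ q c i, Gs G θ q.2 n c i)))))
      = ∏ c ∈ G.neighborFinset i, ∫⁻ x, f c (Gs G θ x n c i) ∂(fieldLaw μ ρ) := by
    intro a
    simp only [F]
    rw [et_lintegral_pi _ (fun (c : G.neighborFinset i) (z : ℝ × (ℝ × ℝ)) => f c z.2.2)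
      (fun c => (hf c).comp (measurable_snd.comp measurable_snd))]
    rw [← Finset.prod_coe_sort (G.neighborFinset i)
      (fun c => ∫⁻ x, f c (Gs G θ x n c i) ∂(fieldLaw μ ρ))]
    apply Finset.prod_congr rfl
    intro c _
    have hfc : Measurable (fun z : ℝ × ℝ => f c z.2) := (hf c).comp measurable_snd
    have hfc2 : Measurable (fun z : ℝ × (ℝ × ℝ) => f c z.2.2) := hfc.comp measurable_snd
    rw [lintegral_prod _ hfc2.aemeasurable]
    simp only [lintegral_const, measure_univ, mul_one]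
    rw [lintegral_map hfc (hmh c), et_fieldLaw_lintegral μ ρ (hmf c)]
  simp only [h3]
  simp

theorem et_prod_oth [Countable V] (hT : G.IsTree) {θ : ℝ} (h0 : 0 ≤ θ) (h1 : θ < 1)
    {μ : Measure (V → Bool)} [IsProbabilityMeasure μ] (hμ : IsIsing G θ μ) (ρ : V → Measure ℝ)
    [∀ v, IsProbabilityMeasure (ρ v)] (hgood : ∀ᵐ x ∂(fieldLaw μ ρ), Good G θ x) (i j : V) (n : ℕ)
    (f : V → ℝ → ℝ≥0∞) (hf : ∀ c, Measurable (f c)) :
    ∫⁻ x, ∏ c ∈ oth G i j, f c (Gs G θ x n c i) ∂(fieldLaw μ ρ)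
      = ∏ c ∈ oth G i j, ∫⁻ x, f c (Gs G θ x n c i) ∂(fieldLaw μ ρ) := by
  classical
  haveI : IsProbabilityMeasure (fieldLaw μ ρ) := fieldLaw_prob μ ρ
  have key := et_prod G hT h0 h1 hμ ρ hgood i n (fun c => if c ≠ j then f c else fun _ => 1)
    (fun c => by
      by_cases hc : c = j
      · simp [hc]
      · simpa [hc] using hf c)
  have e1 : ∀ x : V → ℝ, ∏ c ∈ oth G i j, f c (Gs G θ x n c i)
      = ∏ c ∈ G.neighborFinset i, (if c ≠ j then f c else fun _ => 1) (Gs G θ x n c i) := by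
    intro x
    unfold oth
    rw [Finset.prod_filter]
    apply Finset.prod_congr rfl
    intro c _
    by_cases hc : c = j
    · simp [hc]
    · simp [hc]
  simp only [e1]
  rw [key]
  unfold oth
  rw [Finset.prod_filter]
  apply Finset.prod_congr rfl
  intro c _
  by_cases hc : c = j
  · simp [hc]
  · simp [hc]

/-- one step of the recursion of exponential moments -/
theorem et_exp_step [Countable V] (hT : G.IsTree) {d : ℕ} (hd : 3 ≤ d)
    (hreg : G.IsRegularOfDegree d) {θ : ℝ} (h0 : 0 ≤ θ) (h1 : θ < 1)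
    (hcrit : θ ^ 2 * ((d : ℝ) - 1) ≤ 1)
    {μ : Measure (V → Bool)} [IsProbabilityMeasure μ] (hμ : IsIsing G θ μ) (ρ : V → Measure ℝ)
    [∀ v, IsProbabilityMeasure (ρ v)] (hgood : ∀ᵐ x ∂(fieldLaw μ ρ), Good G θ x)
    {t s : ℝ} (ht : 0 ≤ t) (n : ℕ) (B : ℝ≥0∞)
    (hB : ∀ i j, G.Adj i j → ∫⁻ x, ENNReal.ofReal
      (Real.exp (t / ((d : ℝ) - 1) * (Gs G θ x n i j - s))) ∂(fieldLaw μ ρ) ≤ B)
    {i j : V} (h : G.Adj i j) :
    ∫⁻ x, ENNReal.ofReal (Real.exp (t * (Gs G θ x (n + 1) i j - (s + 1)))) ∂(fieldLaw μ ρ)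
      ≤ B ^ (d - 1) := by
  have hd1 : (0 : ℝ) < (d : ℝ) - 1 := by
    have : (3 : ℝ) ≤ d := by exact_mod_cast hd
    linarith
  have hpt : ∀ x : V → ℝ, ENNReal.ofReal (Real.exp (t * (Gs G θ x (n + 1) i j - (s + 1))))
      ≤ ∏ c ∈ oth G i j, ENNReal.ofReal
        (Real.exp (t / ((d : ℝ) - 1) * (Gs G θ x n c i - s))) := by
    intro x
    rw [← ENNReal.ofReal_prod_of_nonneg (fun c _ => (Real.exp_pos _).le), ← Real.exp_sum]
    apply ENNReal.ofReal_le_ofReal
    apply Real.exp_le_exp.2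
    rw [← Finset.mul_sum, Finset.sum_sub_distrib, Finset.sum_const, et_card G hreg h,
      nsmul_eq_mul, Nat.cast_sub (by omega)]
    have h2 := et_step G h0 h1 x n i j
    set S := ∑ c ∈ oth G i j, Gs G θ x n c i with hS
    have hS0 : 0 ≤ S := Finset.sum_nonneg fun c _ => zero_le_one.trans (et_ge_one G θ x n c i)
    have h3 : θ ^ 2 * S ≤ S / ((d : ℝ) - 1) := by
      rw [le_div_iff₀ hd1]
      nlinarith
    have h4 : Gs G θ x (n + 1) i j - (s + 1) ≤ S / ((d : ℝ) - 1) - s := by linarith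
    calc t * (Gs G θ x (n + 1) i j - (s + 1)) ≤ t * (S / ((d : ℝ) - 1) - s) :=
          mul_le_mul_of_nonneg_left h4 ht
      _ = t / ((d : ℝ) - 1) * (S - ((d : ℝ) - ((1 : ℕ) : ℝ)) * s) := by
          push_cast
          field_simp
  calc _ ≤ ∫⁻ x, ∏ c ∈ oth G i j, ENNReal.ofReal
        (Real.exp (t / ((d : ℝ) - 1) * (Gs G θ x n c i - s))) ∂(fieldLaw μ ρ) :=
        lintegral_mono hpt
    _ = ∏ c ∈ oth G i j, ∫⁻ x, ENNReal.ofReal
        (Real.exp (t / ((d : ℝ) - 1) * (Gs G θ x n c i - s))) ∂(fieldLaw μ ρ) :=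
        et_prod_oth G hT h0 h1 hμ ρ hgood i j n
          (fun _ g => ENNReal.ofReal (Real.exp (t / ((d : ℝ) - 1) * (g - s))))
          (fun _ => by fun_prop)
    _ ≤ ∏ c ∈ oth G i j, B := by
        apply Finset.prod_le_prod' 
        intro c hc
        exact hB c i ((mem_oth G).1 hc).1.symm
    _ = B ^ (d - 1) := by rw [Finset.prod_const, et_card G hreg h]

theorem et_integrable (θ : ℝ) (n : ℕ) (i j : V) {ν : Measure (V → ℝ)} [IsFiniteMeasure ν]
    {F : ℝ → ℝ} (hF : Continuous F) : Integrable (fun x => F (Gs G θ x n i j)) ν := by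
  obtain ⟨B, hB⟩ := et_bdd G θ n i j
  obtain ⟨C, hC⟩ := isCompact_Icc.exists_bound_of_continuousOn (s := Icc (1 : ℝ) B) hF.continuousOn
  refine Integrable.of_bound ((hF.measurable.comp (measurable_Gs G θ n i j)).aestronglyMeasurable) C ?_
  exact Filter.Eventually.of_forall fun x => hC _ ⟨et_ge_one G θ x n i j, hB x⟩

theorem et_lint (θ : ℝ) (n : ℕ) (i j : V) {ν : Measure (V → ℝ)} [IsFiniteMeasure ν]
    {F : ℝ → ℝ} (hF : Continuous F) (hF0 : ∀ y, 0 ≤ F y) :
    ∫⁻ x, ENNReal.ofReal (F (Gs G θ x n i j)) ∂ν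
      = ENNReal.ofReal (∫ x, F (Gs G θ x n i j) ∂ν) := by
  rw [ofReal_integral_eq_lintegral_ofReal (et_integrable G θ n i j hF)
    (Filter.Eventually.of_forall fun x => hF0 _)]

theorem et_sq_le_exp {y : ℝ} (hy : 0 ≤ y) : y ^ 2 ≤ Real.exp y := by
  have h1 := Real.quadratic_le_exp_of_nonneg (show 0 ≤ y / 2 by linarith)
  have h2 : y ≤ Real.exp (y / 2) := by nlinarith [sq_nonneg (y - 2)]
  have h3 : Real.exp y = Real.exp (y / 2) ^ 2 := by
    rw [← Real.exp_nat_mul]; congr 1; push_cast; ring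
  rw [h3]
  exact pow_le_pow_left₀ hy h2 2

theorem et_exp_quad {y : ℝ} (hy : 0 ≤ y) : Real.exp y ≤ 1 + y + y ^ 2 * Real.exp y := by
  have h1 : Real.exp y - 1 ≤ y * Real.exp y := by
    have h2 := Real.add_one_le_exp (-y)
    have h3 : Real.exp y * Real.exp (-y) = 1 := by rw [← Real.exp_add]; simp
    have h4 := Real.exp_pos y
    nlinarith
  have h5 := mul_le_mul_of_nonneg_left h1 hy
  nlinarith

theorem et_exp_pt {x N : ℝ} (hx : 0 ≤ x) (hN : 8 ≤ N) :
    Real.exp (x / N) ≤ 1 + x / N + 64 / 49 / N ^ 2 * Real.exp x := by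
  have hN0 : 0 < N := by linarith
  have h1 := et_exp_quad (show 0 ≤ x / N by positivity)
  have h2 := et_sq_le_exp (show 0 ≤ 7 * x / 8 by linarith)
  have h3 : x ^ 2 ≤ 64 / 49 * Real.exp (7 * x / 8) := by nlinarith
  have h4 : Real.exp (x / N) ≤ Real.exp (x / 8) := by
    apply Real.exp_le_exp.2
    exact div_le_div_of_nonneg_left hx (by norm_num) hN
  have h5 : x ^ 2 * Real.exp (x / N) ≤ 64 / 49 * Real.exp x := by
    calc x ^ 2 * Real.exp (x / N) ≤ (64 / 49 * Real.exp (7 * x / 8)) * Real.exp (x / 8) :=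
          mul_le_mul h3 h4 (Real.exp_pos _).le (by positivity)
      _ = 64 / 49 * Real.exp x := by
          rw [mul_assoc, ← Real.exp_add]; congr 2; ring
  have h6 : (x / N) ^ 2 * Real.exp (x / N) ≤ 64 / 49 / N ^ 2 * Real.exp x := by
    rw [div_pow, div_mul_eq_mul_div, div_mul_eq_mul_div]
    exact div_le_div_of_nonneg_right h5 (by positivity)
  linarith

/-- exponential moment of `Gs` from its mean: `Gs (n+3) ≤ 3 + average of D³ ≥ 8 i.i.d. copies` -/
theorem Gs_exp [Countable V] (hT : G.IsTree) {d : ℕ} (hd : 3 ≤ d) (hreg : G.IsRegularOfDegree d)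
    {θ : ℝ} (h0 : 0 ≤ θ) (h1 : θ < 1) (hcrit : θ ^ 2 * ((d : ℝ) - 1) ≤ 1)
    {μ : Measure (V → Bool)} [IsProbabilityMeasure μ] (hμ : IsIsing G θ μ) (ρ : Measure ℝ)
    [IsProbabilityMeasure ρ] (hgood : ∀ᵐ x ∂(fieldLaw μ (fun _ => ρ)), Good G θ x) {g : ℝ}
    (hg1 : 1 ≤ g) (hg : ∀ n i j, G.Adj i j → ∫ x, Gs G θ x n i j ∂(fieldLaw μ (fun _ => ρ)) ≤ g)
    (n : ℕ) {i j : V} (h : G.Adj i j) :
    ∫ x, Real.exp (Gs G θ x n i j / (2 * (3 + g))) ∂(fieldLaw μ (fun _ => ρ)) ≤ Real.exp 1 := by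
  haveI : IsProbabilityMeasure (fieldLaw μ (fun _ : V => ρ)) := fieldLaw_prob μ _
  set ν := fieldLaw μ (fun _ : V => ρ) with hν
  set A : ℝ := 2 * (3 + g) with hA
  have hA8 : 8 ≤ A := by rw [hA]; linarith
  have hA0 : 0 < A := by linarith
  have hdr : (3 : ℝ) ≤ d := by exact_mod_cast hd
  have hcont : Continuous (fun y : ℝ => Real.exp (y / A)) := by fun_prop
  induction n using Nat.strong_induction_on generalizing i j with
  | _ n ih =>
  by_cases hn : n < 3
  · have h2 : ∀ x, Real.exp (Gs G θ x n i j / A) ≤ Real.exp 1 := by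
      intro x
      apply Real.exp_le_exp.2
      rw [div_le_one hA0]
      have h3 := et_le G hd hreg h0 h1 hcrit x n h
      have h4 : (n : ℝ) ≤ 2 := by exact_mod_cast (by omega : n ≤ 2)
      linarith
    calc ∫ x, Real.exp (Gs G θ x n i j / A) ∂ν ≤ ∫ x, Real.exp 1 ∂ν :=
          integral_mono (et_integrable G θ n i j hcont) (integrable_const _) h2
      _ = Real.exp 1 := by simp
  · obtain ⟨m, rfl⟩ : ∃ m, n = m + 3 := ⟨n - 3, by omega⟩
    set D : ℝ := (d : ℝ) - 1 with hD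
    have hD2 : 2 ≤ D := by rw [hD]; linarith
    have hD0 : 0 < D := by linarith
    set N : ℝ := D ^ 3 with hN
    have hN8 : 8 ≤ N := by
      rw [hN]
      calc (8 : ℝ) = 2 ^ 3 := by norm_num
        _ ≤ D ^ 3 := pow_le_pow_left₀ (by norm_num) hD2 3
    have hN0 : 0 < N := by linarith
    have hbase : ∀ i j, G.Adj i j →
        ∫⁻ x, ENNReal.ofReal (Real.exp (1 / A / D / D / D * (Gs G θ x m i j - 0))) ∂ν
          ≤ ENNReal.ofReal (Real.exp (g / A / N + 64 / 49 / N ^ 2 * Real.exp 1)) := by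
      intro i j hij
      have e1 : ∀ x, Real.exp (1 / A / D / D / D * (Gs G θ x m i j - 0))
          = Real.exp (Gs G θ x m i j / A / N) := by
        intro x
        congr 1
        rw [hN]
        field_simp
        ring
      simp only [e1]
      rw [et_lint G θ m i j (F := fun y => Real.exp (y / A / N)) (by fun_prop)
        (fun y => (Real.exp_pos _).le)]
      apply ENNReal.ofReal_le_ofReal
      have hI : Integrable (fun x => 1 + Gs G θ x m i j / A / N
          + 64 / 49 / N ^ 2 * Real.exp (Gs G θ x m i j / A)) ν :=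
        et_integrable G θ m i j (F := fun y => 1 + y / A / N
          + 64 / 49 / N ^ 2 * Real.exp (y / A)) (by fun_prop)
      calc ∫ x, Real.exp (Gs G θ x m i j / A / N) ∂ν
          ≤ ∫ x, (1 + Gs G θ x m i j / A / N
          + 64 / 49 / N ^ 2 * Real.exp (Gs G θ x m i j / A)) ∂ν := by
            apply integral_mono (et_integrable G θ m i j (F := fun y => Real.exp (y / A / N))
              (by fun_prop)) hI
            intro x
            apply et_exp_pt _ hN8
            have := et_ge_one G θ x m i j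
            positivity
        _ = 1 + (∫ x, Gs G θ x m i j ∂ν) / A / N
          + 64 / 49 / N ^ 2 * ∫ x, Real.exp (Gs G θ x m i j / A) ∂ν := by
            rw [integral_add (et_integrable G θ m i j (F := fun y => 1 + y / A / N) (by fun_prop))
              (et_integrable G θ m i j (F := fun y => 64 / 49 / N ^ 2 * Real.exp (y / A))
                (by fun_prop)),
              integral_add (integrable_const _)
                (et_integrable G θ m i j (F := fun y => y / A / N) (by fun_prop)),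
              integral_const_mul, integral_div, integral_div]
            simp
        _ ≤ 1 + g / A / N + 64 / 49 / N ^ 2 * Real.exp 1 := by
            have h3 := hg m i j hij
            have h4 := ih m (by omega) hij
            gcongr
        _ ≤ _ := by
            have := Real.add_one_le_exp (g / A / N + 64 / 49 / N ^ 2 * Real.exp 1)
            linarith
    set B := ENNReal.ofReal (Real.exp (g / A / N + 64 / 49 / N ^ 2 * Real.exp 1)) with hB
    have s1 := fun i j (hij : G.Adj i j) => et_exp_step G hT hd hreg h0 h1 hcrit hμ (fun _ => ρ)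
      hgood (t := 1 / A / D / D) (s := 0) (by positivity) m B hbase hij
    have s2 := fun i j (hij : G.Adj i j) => et_exp_step G hT hd hreg h0 h1 hcrit hμ (fun _ => ρ)
      hgood (t := 1 / A / D) (s := 0 + 1) (by positivity) (m + 1) _ s1 hij
    have s3 := et_exp_step G hT hd hreg h0 h1 hcrit hμ (fun _ => ρ)
      hgood (t := 1 / A) (s := 0 + 1 + 1) (by positivity) (m + 1 + 1) _ s2 h
    rw [et_lint G θ (m + 1 + 1 + 1) i j (F := fun y => Real.exp (1 / A * (y - (0 + 1 + 1 + 1))))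
      (by fun_prop) (fun y => (Real.exp_pos _).le)] at s3
    have hB3 : ((B ^ (d - 1)) ^ (d - 1)) ^ (d - 1)
        = ENNReal.ofReal (Real.exp (N * (g / A / N + 64 / 49 / N ^ 2 * Real.exp 1))) := by
      rw [← pow_mul, ← pow_mul, hB, ← ENNReal.ofReal_pow (Real.exp_pos _).le, ← Real.exp_nat_mul]
      congr 3
      push_cast [Nat.cast_sub (by omega : 1 ≤ d)]
      rw [hN, hD]
      ring
    rw [hB3, ENNReal.ofReal_le_ofReal_iff (Real.exp_pos _).le] at s3
    have e2 : ∀ x, Real.exp (Gs G θ x (m + 3) i j / A)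
        = Real.exp (3 / A) * Real.exp (1 / A * (Gs G θ x (m + 1 + 1 + 1) i j - (0 + 1 + 1 + 1))) := by
      intro x
      rw [← Real.exp_add]
      congr 1
      ring
    simp only [e2]
    rw [integral_const_mul]
    calc _ ≤ Real.exp (3 / A) * Real.exp (N * (g / A / N + 64 / 49 / N ^ 2 * Real.exp 1)) :=
          mul_le_mul_of_nonneg_left s3 (Real.exp_pos _).le
      _ = Real.exp (3 / A + N * (g / A / N + 64 / 49 / N ^ 2 * Real.exp 1)) := by
          rw [Real.exp_add]
      _ ≤ Real.exp 1 := by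
          apply Real.exp_le_exp.2
          have h5 : N * (g / A / N + 64 / 49 / N ^ 2 * Real.exp 1)
              = g / A + 64 / 49 * Real.exp 1 / N := by
            field_simp
          have h6 : 3 / A + g / A = 1 / 2 := by
            rw [← add_div, hA]
            field_simp
          have h7 : 64 / 49 * Real.exp 1 / N ≤ 1 / 2 := by
            rw [div_le_iff₀ hN0]
            have := Real.exp_one_lt_d9
            nlinarith
          rw [h5]
          linarith

theorem et_tail_aux [Countable V] (hT : G.IsTree) {d : ℕ} (hd : 3 ≤ d)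
    (hreg : G.IsRegularOfDegree d)
    {θ : ℝ} (h0 : 0 ≤ θ) (h1 : θ < 1) (hcrit : θ ^ 2 * ((d : ℝ) - 1) ≤ 1)
    {μ : Measure (V → Bool)} [IsProbabilityMeasure μ] (hμ : IsIsing G θ μ) (ρ : Measure ℝ)
    [IsProbabilityMeasure ρ] (hgood : ∀ᵐ x ∂(fieldLaw μ (fun _ => ρ)), Good G θ x) {A : ℝ}
    (hA1 : 1 ≤ A) (hA : ∀ n i j, G.Adj i j →
      ∫ x, Real.exp (Gs G θ x n i j / A) ∂(fieldLaw μ (fun _ => ρ)) ≤ Real.exp 1)
    (m : ℕ) : ∀ n i j, G.Adj i j → ∫⁻ x, ENNReal.ofReal (Real.exp (((d : ℝ) - 1) ^ m / A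
      * (Gs G θ x n i j - m))) ∂(fieldLaw μ (fun _ => ρ))
      ≤ ENNReal.ofReal (Real.exp 1) ^ ((d - 1) ^ m) := by
  haveI : IsProbabilityMeasure (fieldLaw μ (fun _ : V => ρ)) := fieldLaw_prob μ _
  have hA0 : 0 < A := by linarith
  have hdr : (3 : ℝ) ≤ d := by exact_mod_cast hd
  have hD0 : 0 < (d : ℝ) - 1 := by linarith
  induction m with
  | zero =>
    intro n i j hij
    simp only [pow_zero, pow_one, Nat.cast_zero, sub_zero]
    rw [et_lint G θ n i j (F := fun y => Real.exp (1 / A * y)) (by fun_prop)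
        (fun y => (Real.exp_pos _).le)]
    apply ENNReal.ofReal_le_ofReal
    convert hA n i j hij using 4
    ring
  | succ m ih =>
    intro n i j hij
    cases n with
    | zero =>
      have h2 : ∀ x : V → ℝ, ENNReal.ofReal (Real.exp (((d : ℝ) - 1) ^ (m + 1) / A
          * (Gs G θ x 0 i j - (m + 1 : ℕ)))) ≤ 1 := by
        intro x
        rw [ENNReal.ofReal_le_one, Real.exp_le_one_iff]
        apply mul_nonpos_of_nonneg_of_nonpos (by positivity)
        simp only [Gs]
        push_cast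
        have : (0 : ℝ) ≤ m := Nat.cast_nonneg m
        linarith
      calc _ ≤ ∫⁻ x, 1 ∂(fieldLaw μ (fun _ : V => ρ)) := lintegral_mono h2
        _ = 1 := by simp
        _ ≤ _ := by
          apply one_le_pow₀
          rw [ENNReal.one_le_ofReal]
          exact Real.one_le_exp zero_le_one
    | succ n =>
      have h3 := et_exp_step G hT hd hreg h0 h1 hcrit hμ (fun _ => ρ) hgood
        (t := ((d : ℝ) - 1) ^ (m + 1) / A) (s := m) (by positivity) n
        (ENNReal.ofReal (Real.exp 1) ^ ((d - 1) ^ m)) (by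
          intro i j hij
          have e : ((d : ℝ) - 1) ^ (m + 1) / A / ((d : ℝ) - 1) = ((d : ℝ) - 1) ^ m / A := by
            rw [pow_succ]; field_simp
          rw [e]
          exact ih n i j hij) hij
      rw [← pow_mul, ← pow_succ] at h3
      push_cast
      exact h3

/-- doubly exponential tail: `Gs n ≤ m + average of D^m i.i.d. copies`, and Markov -/
theorem Gs_tail [Countable V] (hT : G.IsTree) {d : ℕ} (hd : 3 ≤ d) (hreg : G.IsRegularOfDegree d)
    {θ : ℝ} (h0 : 0 ≤ θ) (h1 : θ < 1) (hcrit : θ ^ 2 * ((d : ℝ) - 1) ≤ 1)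
    {μ : Measure (V → Bool)} [IsProbabilityMeasure μ] (hμ : IsIsing G θ μ) (ρ : Measure ℝ)
    [IsProbabilityMeasure ρ] (hgood : ∀ᵐ x ∂(fieldLaw μ (fun _ => ρ)), Good G θ x) {A : ℝ}
    (hA1 : 1 ≤ A) (hA : ∀ n i j, G.Adj i j →
      ∫ x, Real.exp (Gs G θ x n i j / A) ∂(fieldLaw μ (fun _ => ρ)) ≤ Real.exp 1)
    (n m : ℕ) {i j : V} (h : G.Adj i j) :
    fieldLaw μ (fun _ => ρ) {x | 2 * A + m < Gs G θ x n i j}
      ≤ ENNReal.ofReal (Real.exp (-((d : ℝ) - 1) ^ m)) := by
  haveI : IsProbabilityMeasure (fieldLaw μ (fun _ : V => ρ)) := fieldLaw_prob μ _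
  have hA0 : 0 < A := by linarith
  have hdr : (3 : ℝ) ≤ d := by exact_mod_cast hd
  have hD0 : 0 < (d : ℝ) - 1 := by linarith
  set D : ℝ := (d : ℝ) - 1 with hD
  have h2 := et_tail_aux G hT hd hreg h0 h1 hcrit hμ ρ hgood hA1 hA m n i j h
  have hmeas : Measurable (fun x : V → ℝ => ENNReal.ofReal (Real.exp (D ^ m / A
      * (Gs G θ x n i j - m)))) := by
    have := measurable_Gs G θ n i j
    fun_prop
  have h3 := mul_meas_ge_le_lintegral (μ := fieldLaw μ (fun _ : V => ρ)) hmeas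
    (ENNReal.ofReal (Real.exp (2 * D ^ m)))
  have h4 : {x | 2 * A + m < Gs G θ x n i j} ⊆ {x | ENNReal.ofReal (Real.exp (2 * D ^ m))
      ≤ ENNReal.ofReal (Real.exp (D ^ m / A * (Gs G θ x n i j - m)))} := by
    intro x hx
    simp only [mem_setOf_eq] at hx ⊢
    apply ENNReal.ofReal_le_ofReal
    apply Real.exp_le_exp.2
    have h5 : 2 * A ≤ Gs G θ x n i j - m := by linarith
    calc 2 * D ^ m = D ^ m / A * (2 * A) := by field_simp
      _ ≤ _ := mul_le_mul_of_nonneg_left h5 (by positivity)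
  have h5 : ENNReal.ofReal (Real.exp 1) ^ ((d - 1) ^ m) = ENNReal.ofReal (Real.exp (D ^ m)) := by
    rw [← ENNReal.ofReal_pow (Real.exp_pos _).le, ← Real.exp_nat_mul]
    congr 2
    push_cast [Nat.cast_sub (by omega : 1 ≤ d)]
    ring
  rw [h5] at h2
  have h6 : ENNReal.ofReal (Real.exp (2 * D ^ m))
      * fieldLaw μ (fun _ : V => ρ) {x | 2 * A + m < Gs G θ x n i j}
      ≤ ENNReal.ofReal (Real.exp (2 * D ^ m)) * ENNReal.ofReal (Real.exp (-D ^ m)) := by
    calc _ ≤ ENNReal.ofReal (Real.exp (2 * D ^ m)) * fieldLaw μ (fun _ : V => ρ)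
          {x | ENNReal.ofReal (Real.exp (2 * D ^ m))
      ≤ ENNReal.ofReal (Real.exp (D ^ m / A * (Gs G θ x n i j - m)))} :=
          mul_le_mul_right (measure_mono h4) _
      _ ≤ _ := h3
      _ ≤ _ := h2
      _ = _ := by
        rw [← ENNReal.ofReal_mul (Real.exp_pos _).le, ← Real.exp_add]
        congr 2
        ring
  have h7 : ENNReal.ofReal (Real.exp (2 * D ^ m)) ≠ 0 := by
    rw [Ne, ENNReal.ofReal_eq_zero, not_le]
    exact Real.exp_pos _
  exact (ENNReal.mul_le_mul_iff_right h7 ENNReal.ofReal_ne_top).1 h6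

theorem et_mom_aux (θ : ℝ) (P : ℕ) {ν : Measure (V → ℝ)} [IsProbabilityMeasure ν] {A : ℝ}
    (hA1 : 1 ≤ A) (n : ℕ) (i j : V)
    (hA : ∫ x, Real.exp (Gs G θ x n i j / A) ∂ν ≤ Real.exp 1) :
    ∫ x, Gs G θ x n i j ^ P ∂ν ≤ P.factorial * Real.exp 1 * A ^ P := by
  have hA0 : 0 < A := by linarith
  have h2 : ∀ x : V → ℝ, Gs G θ x n i j ^ P
      ≤ P.factorial * A ^ P * Real.exp (Gs G θ x n i j / A) := by
    intro x
    have h3 := Real.pow_div_factorial_le_exp (Gs G θ x n i j / A)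
      (div_nonneg (zero_le_one.trans (et_ge_one G θ x n i j)) hA0.le) P
    have hf : (0 : ℝ) < P.factorial := by exact_mod_cast P.factorial_pos
    rw [div_le_iff₀ hf, div_pow, div_le_iff₀ (by positivity)] at h3
    linarith
  calc ∫ x, Gs G θ x n i j ^ P ∂ν
      ≤ ∫ x, P.factorial * A ^ P * Real.exp (Gs G θ x n i j / A) ∂ν :=
        integral_mono (et_integrable G θ n i j (F := fun y => y ^ P) (by fun_prop))
          (et_integrable G θ n i j (F := fun y => P.factorial * A ^ P * Real.exp (y / A))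
            (by fun_prop)) h2
    _ = P.factorial * A ^ P * ∫ x, Real.exp (Gs G θ x n i j / A) ∂ν := integral_const_mul _ _
    _ ≤ P.factorial * A ^ P * Real.exp 1 := mul_le_mul_of_nonneg_left hA (by positivity)
    _ = _ := by ring

/-- truncated second moment -/
theorem Gs_trunc [Countable V] (hT : G.IsTree) {d : ℕ} (hd : 3 ≤ d) (hreg : G.IsRegularOfDegree d)
    {θ : ℝ} (h0 : 0 ≤ θ) (h1 : θ < 1) (hcrit : θ ^ 2 * ((d : ℝ) - 1) ≤ 1)
    {μ : Measure (V → Bool)} [IsProbabilityMeasure μ] (hμ : IsIsing G θ μ) :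
    ∃ C : ℝ, 0 < C ∧ ∀ (ρ : Measure ℝ) [IsProbabilityMeasure ρ],
      (∀ᵐ x ∂(fieldLaw μ (fun _ => ρ)), Good G θ x) → ∀ A : ℝ, 1 ≤ A →
      (∀ n i j, G.Adj i j →
        ∫ x, Real.exp (Gs G θ x n i j / A) ∂(fieldLaw μ (fun _ => ρ)) ≤ Real.exp 1) →
      ∀ (n m : ℕ) (i j : V), G.Adj i j →
      ∫ x, ({x | 2 * A + m < Gs G θ x n i j}).indicator (fun x => Gs G θ x n i j ^ 2) x
        ∂(fieldLaw μ (fun _ => ρ)) ≤ C * A ^ 2 * Real.exp (-(((d : ℝ) - 1) ^ m / 2)) := by
  refine ⟨(24 * Real.exp 1 + 1) / 2, by positivity, ?_⟩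
  intro ρ _ hgood A hA1 hA n m i j h
  haveI : IsProbabilityMeasure (fieldLaw μ (fun _ : V => ρ)) := fieldLaw_prob μ _
  have hA0 : 0 < A := by linarith
  have htail := Gs_tail G hT hd hreg h0 h1 hcrit hμ ρ hgood hA1 hA n m h
  have hmom := et_mom_aux G θ 4 hA1 n i j (hA n i j h)
  set ν := fieldLaw μ (fun _ : V => ρ) with hν
  set D : ℝ := (d : ℝ) - 1 with hD
  set E : Set (V → ℝ) := {x | 2 * A + m < Gs G θ x n i j} with hE
  have hEm : MeasurableSet E := measurableSet_lt measurable_const (measurable_Gs G θ n i j)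
  set q : ℝ := Real.exp (-(D ^ m / 2)) with hq
  have hq0 : 0 < q := Real.exp_pos _
  have hq2 : Real.exp (-D ^ m) = q ^ 2 := by
    rw [hq, ← Real.exp_nat_mul]; congr 1; push_cast; ring
  have hreal : ν.real E ≤ q ^ 2 := by
    rw [Measure.real, ← hq2]
    exact ENNReal.toReal_le_of_le_ofReal (Real.exp_pos _).le htail
  set lam : ℝ := q / A ^ 2 with hlam
  have hlam0 : 0 < lam := by positivity
  have hpt : ∀ x, E.indicator (fun x => Gs G θ x n i j ^ 2) x
      ≤ lam / 2 * Gs G θ x n i j ^ 4 + 1 / (2 * lam) * E.indicator (fun _ => (1 : ℝ)) x := by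
    intro x
    by_cases hx : x ∈ E
    · rw [indicator_of_mem hx, indicator_of_mem hx]
      set y := Gs G θ x n i j with hy
      have h2 : 0 ≤ (lam * y ^ 2 - 1) ^ 2 / (2 * lam) := by positivity
      have h3 : (lam * y ^ 2 - 1) ^ 2 / (2 * lam)
          = lam / 2 * y ^ 4 + 1 / (2 * lam) * 1 - y ^ 2 := by
        field_simp
        ring
      linarith
    · rw [indicator_of_notMem hx, indicator_of_notMem hx]
      positivity
  have hI4 : Integrable (fun x => Gs G θ x n i j ^ 4) ν :=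
    et_integrable G θ n i j (F := fun y => y ^ 4) (by fun_prop)
  have hI2 : Integrable (fun x => Gs G θ x n i j ^ 2) ν :=
    et_integrable G θ n i j (F := fun y => y ^ 2) (by fun_prop)
  have hI1 : Integrable (E.indicator (fun _ => (1 : ℝ))) ν := (integrable_const _).indicator hEm
  calc ∫ x, E.indicator (fun x => Gs G θ x n i j ^ 2) x ∂ν
      ≤ ∫ x, (lam / 2 * Gs G θ x n i j ^ 4 + 1 / (2 * lam) * E.indicator (fun _ => (1 : ℝ)) x) ∂ν :=
        integral_mono (hI2.indicator hEm) ((hI4.const_mul _).add (hI1.const_mul _)) hpt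
    _ = lam / 2 * ∫ x, Gs G θ x n i j ^ 4 ∂ν + 1 / (2 * lam) * ν.real E := by
        rw [integral_add (hI4.const_mul _) (hI1.const_mul _), integral_const_mul,
          integral_const_mul, integral_indicator_const _ hEm]
        simp
    _ ≤ lam / 2 * ((Nat.factorial 4) * Real.exp 1 * A ^ 4) + 1 / (2 * lam) * q ^ 2 := by
        gcongr
    _ = (24 * Real.exp 1 + 1) / 2 * A ^ 2 * q := by
        rw [hlam]
        simp only [Nat.factorial]
        push_cast
        field_simp

/-- all moments -/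
theorem Gs_mom (μ : Measure (V → Bool)) [IsProbabilityMeasure μ] (P : ℕ) :
    ∃ C : ℝ, 0 < C ∧ ∀ (ρ : Measure ℝ) [IsProbabilityMeasure ρ] (θ A : ℝ), 1 ≤ A →
      ∀ (n : ℕ) (i j : V),
      ∫ x, Real.exp (Gs G θ x n i j / A) ∂(fieldLaw μ (fun _ => ρ)) ≤ Real.exp 1 →
      ∫ x, Gs G θ x n i j ^ P ∂(fieldLaw μ (fun _ => ρ)) ≤ C * A ^ P := by
  refine ⟨P.factorial * Real.exp 1, by positivity, ?_⟩
  intro ρ _ θ A hA1 n i j hA
  haveI : IsProbabilityMeasure (fieldLaw μ (fun _ : V => ρ)) := fieldLaw_prob μ _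
  exact et_mom_aux G θ P hA1 n i j hA

end Crest.Agent.FI
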