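import Mathlib
import Crest.Agent.FI.Defs
import Crest.Agent.FI.TreeAut
import Crest.Agent.FI.Branch
import Crest.Agent.FI.Alg

/-!
Path functionals of pairs of copies: invariance and mass transport (path sums).
-/

set_option autoImplicit false

namespace Crest.Agent.FI

open MeasureTheory ProbabilityTheory Set Filter Topology
open scoped ENNReal

variable {V : Type*} (G : SimpleGraph V) [G.LocallyFinite]

omit [G.LocallyFinite] in
theorem measurable_compAut (g : G ≃g G) :
    Measurable (fun q : (V → ℝ) × (V → ℝ) => (q.1 ∘ g, q.2 ∘ g)) :=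
  (measurable_pi_iff.2 fun v => (measurable_pi_apply (g v)).comp measurable_fst).prodMk
    (measurable_pi_iff.2 fun v => (measurable_pi_apply (g v)).comp measurable_snd)

omit [G.LocallyFinite] in
theorem pair_lintegral_inv {μ : Measure (V → Bool)} {ρ : Measure ℝ}
    {Q : Measure ((V → ℝ) × (V → ℝ))} (hQ : PairState G μ ρ Q) (g : G ≃g G)
    (F : (V → ℝ) × (V → ℝ) → ℝ≥0∞) (hF : Measurable F) :
    ∫⁻ q, F (q.1 ∘ g, q.2 ∘ g) ∂Q = ∫⁻ q, F q ∂Q := by
  conv_rhs => rw [← hQ.inv g]
  rw [lintegral_map hF (measurable_compAut G g)]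

/-- `yy` does not depend on the vertex -/
theorem yy_const [Countable V] (hT : G.IsTree) {d : ℕ} (hd : 3 ≤ d) (hreg : G.IsRegularOfDegree d)
    (θ : ℝ) {μ : Measure (V → Bool)} {ρ : Measure ℝ} {Q : Measure ((V → ℝ) × (V → ℝ))}
    (hQ : PairState G μ ρ Q) (v w : V) : yy G θ Q v = yy G θ Q w := by
  obtain ⟨g, hg⟩ := exists_aut_path G hT (by omega : 2 ≤ d) hreg (fun _ => w) (fun _ => v) 0
    ⟨fun i hi => by omega, fun i hi => by omega⟩ ⟨fun i hi => by omega, fun i hi => by omega⟩
  have hgw : g w = v := hg 0 le_rfl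
  unfold yy
  have hm : Measurable (fun q : (V → ℝ) × (V → ℝ) => (mm G θ q.1 w - mm G θ q.2 w) ^ 2) :=
    (((measurable_mm G θ w).comp measurable_fst).sub
      ((measurable_mm G θ w).comp measurable_snd)).pow_const 2
  conv_rhs => rw [← hQ.inv g]
  rw [integral_map (measurable_compAut G g).aemeasurable hm.aestronglyMeasurable]
  simp only [mm_aut, hgw]

/-- expectation of a path functional only depends on the length of the path -/
theorem path_inv [Countable V] (hT : G.IsTree) {d : ℕ} (hd : 3 ≤ d) (hreg : G.IsRegularOfDegree d)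
    {μ : Measure (V → Bool)} {ρ : Measure ℝ} {Q : Measure ((V → ℝ) × (V → ℝ))}
    (hQ : PairState G μ ρ Q) (n : ℕ) (F : (ℕ → V) → ((V → ℝ) × (V → ℝ)) → ℝ≥0∞)
    (hm : ∀ p, Measurable (F p))
    (heq : ∀ (g : G ≃g G) p q, F p (q.1 ∘ g, q.2 ∘ g) = F (g ∘ p) q)
    (hcongr : ∀ p p' q, (∀ i ≤ n, p i = p' i) → F p q = F p' q)
    {p p' : ℕ → V} (hp : IsPth G p n) (hp' : IsPth G p' n) :
    ∫⁻ q, F p q ∂Q = ∫⁻ q, F p' q ∂Q := by
  obtain ⟨g, hg⟩ := exists_aut_path G hT (by omega : 2 ≤ d) hreg p p' n hp hp'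
  rw [← pair_lintegral_inv G hQ g (F p) (hm p)]
  refine lintegral_congr fun q => ?_
  rw [heq]
  exact hcongr _ _ _ fun i hi => hg i hi

/-! ### Path sums -/

/-- edge weight -/
noncomputable def we (θ : ℝ) (x : V → ℝ) (c i : V) : ℝ≥0∞ :=
  ENNReal.ofReal (θ ^ 2 * Real.exp (-(kap θ * al G θ x c i ^ 2)))

/-- sum over the paths of length `n` from `i` away from `j` -/
noncomputable def Te (θ : ℝ) (x : V → ℝ) : ℕ → V → V → ℝ≥0∞
  | 0, _, _ => 1
  | n + 1, i, j => ∑ c ∈ oth G i j, we G θ x c i * Te θ x n c i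

/-- weight of a path -/
noncomputable def We (θ : ℝ) (x : V → ℝ) (p : ℕ → V) (n : ℕ) : ℝ≥0∞ :=
  ∏ i ∈ Finset.range n, we G θ x (p (i + 1)) (p i)

theorem one_le_Gs' (θ : ℝ) (x : V → ℝ) (n : ℕ) (i j : V) : 1 ≤ Gs G θ x n i j := by
  induction n generalizing i j with
  | zero => exact le_rfl
  | succ n ih =>
    have : 0 ≤ θ ^ 2 * ∑ c ∈ oth G i j,
        Real.exp (-(kap θ * al G θ x c i ^ 2)) * Gs G θ x n c i :=
      mul_nonneg (sq_nonneg _) (Finset.sum_nonneg fun c _ =>
        mul_nonneg (Real.exp_pos _).le (zero_le_one.trans (ih c i)))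
    show 1 ≤ 1 + _
    linarith

theorem sum_Te (θ : ℝ) (x : V → ℝ) (n : ℕ) (i j : V) :
    ∑ k ∈ Finset.range (n + 1), Te G θ x k i j = ENNReal.ofReal (Gs G θ x n i j) := by
  induction n generalizing i j with
  | zero => simp [Te, Gs]
  | succ n ih =>
    rw [Finset.sum_range_succ']
    have h1 : ∀ k, Te G θ x (k + 1) i j = ∑ c ∈ oth G i j, we G θ x c i * Te G θ x k c i :=
      fun k => rfl
    simp only [h1]
    rw [Finset.sum_comm]
    simp only [← Finset.mul_sum, ih]
    have h2 : Gs G θ x (n + 1) i j = 1 + θ ^ 2 * ∑ c ∈ oth G i j,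
      Real.exp (-(kap θ * al G θ x c i ^ 2)) * Gs G θ x n c i := rfl
    have h3 : ∀ c, 0 ≤ Gs G θ x n c i := fun c => zero_le_one.trans (one_le_Gs' G θ x n c i)
    rw [h2, Finset.mul_sum, ENNReal.ofReal_add zero_le_one
      (Finset.sum_nonneg fun c _ => mul_nonneg (sq_nonneg _)
        (mul_nonneg (Real.exp_pos _).le (h3 c))),
      ENNReal.ofReal_sum_of_nonneg (fun c _ => mul_nonneg (sq_nonneg _)
        (mul_nonneg (Real.exp_pos _).le (h3 c))), ENNReal.ofReal_one, add_comm]
    congr 1
    refine Finset.sum_congr rfl fun c _ => ?_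
    rw [we, ← ENNReal.ofReal_mul (mul_nonneg (sq_nonneg _) (Real.exp_pos _).le), mul_assoc]

theorem measurable_we (θ : ℝ) (c i : V) : Measurable (fun x : V → ℝ => we G θ x c i) := by
  unfold we
  refine ENNReal.measurable_ofReal.comp (measurable_const.mul (Real.measurable_exp.comp ?_))
  exact (measurable_const.mul ((measurable_al G θ c i).pow_const 2)).neg

theorem measurable_Te (θ : ℝ) (n : ℕ) (i j : V) :
    Measurable (fun x : V → ℝ => Te G θ x n i j) := by
  induction n generalizing i j with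
  | zero => exact measurable_const
  | succ n ih =>
    exact Finset.measurable_sum _ fun c _ => (measurable_we G θ c i).mul (ih c i)

theorem measurable_We (θ : ℝ) (p : ℕ → V) (n : ℕ) :
    Measurable (fun x : V → ℝ => We G θ x p n) :=
  Finset.measurable_prod _ fun i _ => measurable_we G θ _ _

theorem we_aut (θ : ℝ) (g : G ≃g G) (x : V → ℝ) (c i : V) :
    we G θ (x ∘ g) c i = we G θ x (g c) (g i) := by
  unfold we
  rw [al_aut]

theorem k2_mem_oth_aut (g : G ≃g G) (i j c : V) : c ∈ oth G i j ↔ g c ∈ oth G (g i) (g j) := by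
  rw [mem_oth, mem_oth, g.map_adj_iff, g.injective.ne_iff]

theorem Te_aut (θ : ℝ) (g : G ≃g G) (x : V → ℝ) (n : ℕ) (i j : V) :
    Te G θ (x ∘ g) n i j = Te G θ x n (g i) (g j) := by
  induction n generalizing i j with
  | zero => rfl
  | succ n ih =>
    show ∑ c ∈ oth G i j, _ = ∑ c ∈ oth G (g i) (g j), _
    refine Finset.sum_bij (fun c _ => g c) (fun c hc => (k2_mem_oth_aut G g i j c).1 hc)
      (fun c _ c' _ h => g.injective h) (fun c hc => ⟨g.symm c, ?_, by simp⟩) fun c _ => ?_
    · rw [k2_mem_oth_aut G g]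
      simpa using hc
    · rw [we_aut, ih]

theorem We_aut (θ : ℝ) (g : G ≃g G) (x : V → ℝ) (p : ℕ → V) (n : ℕ) :
    We G θ (x ∘ g) p n = We G θ x (g ∘ p) n := by
  unfold We
  simp only [we_aut, Function.comp]

theorem We_congr (θ : ℝ) (x : V → ℝ) {p p' : ℕ → V} {n : ℕ} (h : ∀ i ≤ n, p i = p' i) :
    We G θ x p n = We G θ x p' n := by
  unfold We
  refine Finset.prod_congr rfl fun i hi => ?_
  rw [Finset.mem_range] at hi
  rw [h i (by omega), h (i + 1) (by omega)]

theorem We_succ' (θ : ℝ) (x : V → ℝ) (p : ℕ → V) (n : ℕ) :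
    We G θ x p (n + 1) = we G θ x (p 1) (p 0) * We G θ x (fun i => p (1 + i)) n := by
  unfold We
  rw [Finset.prod_range_succ', mul_comm]
  simp only [zero_add]
  congr 1
  refine Finset.prod_congr rfl fun i _ => ?_
  rw [show 1 + (i + 1) = i + 1 + 1 by omega, show 1 + i = i + 1 by omega]

theorem k2_card_oth {d : ℕ} (hreg : G.IsRegularOfDegree d) {i j : V} (h : G.Adj i j) :
    (oth G i j).card = d - 1 := by
  classical
  unfold oth
  have h1 : (G.neighborFinset i).filter (fun c => c ≠ j) = (G.neighborFinset i).erase j := by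
    ext c
    simp [and_comm]
  rw [h1, Finset.card_erase_of_mem (by simpa using h), SimpleGraph.card_neighborFinset_eq_degree,
    hreg i]

/-- selection of a copy -/
def cpy (b : Bool) (q : (V → ℝ) × (V → ℝ)) : V → ℝ := if b then q.1 else q.2

omit [G.LocallyFinite] in
theorem cpy_aut (b : Bool) (g : G ≃g G) (q : (V → ℝ) × (V → ℝ)) :
    cpy b (q.1 ∘ g, q.2 ∘ g) = cpy b q ∘ g := by
  cases b <;> rfl

theorem measurable_cpy (b : Bool) : Measurable (cpy b : (V → ℝ) × (V → ℝ) → V → ℝ) := by
  cases b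
  · exact measurable_snd
  · exact measurable_fst

/-- mass transport: expand a path sum -/
theorem Te_expand [Countable V] (hT : G.IsTree) {d : ℕ} (hd : 3 ≤ d) (hreg : G.IsRegularOfDegree d)
    (θ : ℝ) {μ : Measure (V → Bool)} {ρ : Measure ℝ} {Q : Measure ((V → ℝ) × (V → ℝ))}
    (hQ : PairState G μ ρ Q) (b : Bool) (n : ℕ) :
    ∀ (N : ℕ) (Φ : (ℕ → V) → ((V → ℝ) × (V → ℝ)) → ℝ≥0∞), 1 ≤ N → (∀ p, Measurable (Φ p)) →
    (∀ (g : G ≃g G) p q, Φ p (q.1 ∘ g, q.2 ∘ g) = Φ (g ∘ p) q) →
    (∀ p p' q, (∀ i ≤ N, p i = p' i) → Φ p q = Φ p' q) →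
    ∀ {p p' : ℕ → V}, IsPth G p N → IsPth G p' (N + n) →
    ∫⁻ q, Φ p q * Te G θ (cpy b q) n (p N) (p (N - 1)) ∂Q
      = ((d - 1 : ℕ) : ℝ≥0∞) ^ n * ∫⁻ q, Φ p' q * We G θ (cpy b q) (fun i => p' (N + i)) n ∂Q := by
  induction n with
  | zero =>
    intro N Φ _ hm heq hcongr p p' hp hp'
    simp only [Te, We, Finset.range_zero, Finset.prod_empty, mul_one, pow_zero, one_mul]
    exact path_inv G hT hd hreg hQ N Φ hm heq hcongr hp (by simpa using hp')
  | succ n ih =>
    intro N Φ hN hm heq hcongr p p' hp hp'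
    have hadj : G.Adj (p (N - 1)) (p N) := by
      have := hp.1 (N - 1) (by omega)
      rwa [show N - 1 + 1 = N by omega] at this
    have hTe : ∀ q, Φ p q * Te G θ (cpy b q) (n + 1) (p N) (p (N - 1))
        = ∑ c ∈ oth G (p N) (p (N - 1)),
          Φ p q * (we G θ (cpy b q) c (p N) * Te G θ (cpy b q) n c (p N)) := by
      intro q
      rw [← Finset.mul_sum]
      rfl
    simp only [hTe]
    have hmeas : ∀ c, Measurable (fun q : (V → ℝ) × (V → ℝ) =>
        Φ p q * (we G θ (cpy b q) c (p N) * Te G θ (cpy b q) n c (p N))) := fun c =>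
      (hm p).mul (((measurable_we G θ c (p N)).comp (measurable_cpy b)).mul
        ((measurable_Te G θ n c (p N)).comp (measurable_cpy b)))
    rw [lintegral_finsetSum _ (fun c _ => hmeas c)]
    -- each summand
    have hsum : ∀ c ∈ oth G (p N) (p (N - 1)),
        ∫⁻ q, Φ p q * (we G θ (cpy b q) c (p N) * Te G θ (cpy b q) n c (p N)) ∂Q
          = ((d - 1 : ℕ) : ℝ≥0∞) ^ n *
            ∫⁻ q, Φ p' q * We G θ (cpy b q) (fun i => p' (N + i)) (n + 1) ∂Q := by
      intro c hc
      rw [mem_oth] at hc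
      set pc : ℕ → V := fun i => if i ≤ N then p i else c with hpc
      have hpcN : pc N = p N := if_pos le_rfl
      have hpcN1 : pc (N + 1) = c := if_neg (by omega)
      have hpth : IsPth G pc (N + 1) := by
        refine ⟨fun i hi => ?_, fun i hi => ?_⟩
        · by_cases h : i < N
          · simp only [hpc, if_pos h.le, if_pos (show i + 1 ≤ N by omega)]
            exact hp.1 i h
          · have : i = N := by omega
            subst this
            rw [hpcN, hpcN1]
            exact hc.1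
        · by_cases h : i + 2 ≤ N
          · simp only [hpc, if_pos h, if_pos (show i ≤ N by omega)]
            exact hp.2 i h
          · have : i + 2 = N + 1 := by omega
            rw [this, hpcN1]
            have h3 : i = N - 1 := by omega
            simp only [hpc, if_pos (show i ≤ N by omega)]
            rw [h3]
            exact hc.2.symm
      have key := ih (N + 1) (fun r q => Φ r q * we G θ (cpy b q) (r (N + 1)) (r N)) (by omega)
        (fun r => (hm r).mul ((measurable_we G θ _ _).comp (measurable_cpy b)))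
        (fun g r q => by
          simp only [heq, cpy_aut, we_aut, Function.comp])
        (fun r r' q h => by
          rw [hcongr r r' q (fun i hi => h i (by omega)), h (N + 1) le_rfl, h N (by omega)])
        hpth (p' := p') (by rwa [show N + 1 + n = N + (n + 1) by omega])
      simp only [hpcN1, hpcN, show N + 1 - 1 = N by omega] at key
      have hΦ : ∀ q, Φ pc q = Φ p q := fun q => hcongr _ _ _ fun i hi => if_pos hi
      simp only [hΦ] at key
      simp only [← mul_assoc]
      rw [key]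
      congr 1
      refine lintegral_congr fun q => ?_
      rw [We_succ', ← mul_assoc]
      congr 1
      refine We_congr G θ _ fun i _ => ?_
      rw [show N + (1 + i) = N + 1 + i by omega]
    rw [Finset.sum_congr rfl hsum, Finset.sum_const, k2_card_oth G hreg hadj.symm, nsmul_eq_mul,
      ← mul_assoc, pow_succ']

end Crest.Agent.FI
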