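import Mathlib
import Crest.Agent.FI.Defs
import Crest.Agent.FI.Real
import Crest.Agent.FI.Alg
import Crest.Agent.FI.Branch
import Crest.Agent.FI.TreeAut
import Crest.Agent.FI.EnvBase
import Crest.Agent.FI.EnvVar
import Crest.Agent.FI.Ker2A

/-!
Stage (i) kernel bound: pointwise bounds and covariances along a path.
-/

set_option autoImplicit false

namespace Crest.Agent.FI

open MeasureTheory ProbabilityTheory Set Filter Topology
open scoped ENNReal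

/-- log of the normalised derivative factor, truncated -/
noncomputable def k1F (θ B a : ℝ) : ℝ :=
  max (-B) (min 0 (Real.log ((1 - a ^ 2) / (1 - θ ^ 2 * a ^ 2))))

theorem k1F_meas (θ B : ℝ) : Measurable (k1F θ B) := by
  unfold k1F
  refine measurable_const.max (measurable_const.min ?_)
  refine Real.measurable_log.comp ?_
  fun_prop

theorem k1F_even (θ B a : ℝ) : k1F θ B (-a) = k1F θ B a := by
  simp [k1F]

theorem k1F_nonpos {B : ℝ} (hB : 0 ≤ B) (θ a : ℝ) : k1F θ B a ≤ 0 :=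
  max_le (by linarith) (min_le_left _ _)

theorem k1F_abs {B : ℝ} (hB : 0 ≤ B) (θ a : ℝ) : |k1F θ B a| ≤ B := by
  rw [abs_le]
  exact ⟨le_max_left _ _, (k1F_nonpos hB θ a).trans hB⟩

/-- the truncation level -/
noncomputable def k1B (L : ℝ) : ℝ := Real.log (Real.cosh L ^ 2)

theorem k1B_nonneg (L : ℝ) : 0 ≤ k1B L := by
  apply Real.log_nonneg
  have := Real.one_le_cosh L
  nlinarith

theorem k1_ratio {θ L h : ℝ} (h0 : 0 ≤ θ) (h1 : θ < 1) (hh : |h| ≤ L) :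
    1 / Real.cosh L ^ 2 ≤ (1 - Real.tanh h ^ 2) / (1 - θ ^ 2 * Real.tanh h ^ 2) ∧
    (1 - Real.tanh h ^ 2) / (1 - θ ^ 2 * Real.tanh h ^ 2) ≤ 1 := by
  have ha : |Real.tanh h| ≤ 1 := (Real.abs_tanh_lt_one h).le
  have hp := one_sub_pos h0 h1 ha
  have ha2 : Real.tanh h ^ 2 ≤ 1 := by
    rw [← sq_abs]; nlinarith [abs_nonneg (Real.tanh h)]
  have hθ : θ ^ 2 ≤ 1 := by nlinarith
  have hL := one_sub_tanh_sq_ge hh
  constructor
  · refine hL.trans ?_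
    rw [le_div_iff₀ hp]
    have : 0 ≤ (1 - Real.tanh h ^ 2) * (θ ^ 2 * Real.tanh h ^ 2) :=
      mul_nonneg (by linarith) (by positivity)
    nlinarith
  · rw [div_le_one hp]
    nlinarith [sq_nonneg (Real.tanh h)]

theorem k1F_eq {θ L h : ℝ} (h0 : 0 ≤ θ) (h1 : θ < 1) (hh : |h| ≤ L) :
    k1F θ (k1B L) (Real.tanh h)
      = Real.log ((1 - Real.tanh h ^ 2) / (1 - θ ^ 2 * Real.tanh h ^ 2)) := by
  obtain ⟨hl, hu⟩ := k1_ratio h0 h1 hh
  have hc : 0 < 1 / Real.cosh L ^ 2 := by have := Real.cosh_pos L; positivity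
  have hpos := hc.trans_le hl
  unfold k1F
  rw [min_eq_right (Real.log_nonpos hpos.le hu), max_eq_right]
  unfold k1B
  rw [← Real.log_inv, ← one_div]
  exact Real.log_le_log hc hl

theorem k1F_exp {θ L h : ℝ} (h0 : 0 ≤ θ) (h1 : θ < 1) (hh : |h| ≤ L) :
    θ * Real.exp (k1F θ (k1B L) (Real.tanh h)) = ph θ (Real.tanh h) := by
  obtain ⟨hl, hu⟩ := k1_ratio h0 h1 hh
  have hc : 0 < 1 / Real.cosh L ^ 2 := by have := Real.cosh_pos L; positivity
  rw [k1F_eq h0 h1 hh, Real.exp_log (hc.trans_le hl)]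
  unfold ph
  rw [mul_div_assoc]

theorem k1_log_sub {u v m : ℝ} (hm : 0 < m) (hu : m ≤ u) (hv : m ≤ v) :
    |Real.log u - Real.log v| ≤ 1 / m * |u - v| := by
  have key : ∀ {a b : ℝ}, m ≤ a → m ≤ b → Real.log a - Real.log b ≤ 1 / m * |a - b| := by
    intro a b ha hb
    have ha0 := hm.trans_le ha
    have hb0 := hm.trans_le hb
    rw [← Real.log_div ha0.ne' hb0.ne']
    refine (Real.log_le_sub_one_of_pos (div_pos ha0 hb0)).trans ?_
    have e : a / b - 1 = (a - b) / b := by field_simp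
    rw [e]
    calc (a - b) / b ≤ |a - b| / b := div_le_div_of_nonneg_right (le_abs_self _) hb0.le
      _ ≤ |a - b| / m := div_le_div_of_nonneg_left (abs_nonneg _) hm hb
      _ = 1 / m * |a - b| := by ring
  rw [abs_le]
  constructor
  · have := key hv hu
    rw [abs_sub_comm v u] at this
    linarith
  · exact key hu hv

theorem k1F_lip {θ L h h' : ℝ} (h0 : 0 < θ) (h1 : θ < 1) (hh : |h| ≤ L) (hh' : |h'| ≤ L) :
    |k1F θ (k1B L) (Real.tanh h) - k1F θ (k1B L) (Real.tanh h')|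
      ≤ Real.cosh L ^ 2 / (1 - θ ^ 2) * |Real.tanh h ^ 2 - Real.tanh h' ^ 2| := by
  rw [k1F_eq h0.le h1 hh, k1F_eq h0.le h1 hh']
  obtain ⟨hl, hu⟩ := k1_ratio h0.le h1 hh
  obtain ⟨hl', hu'⟩ := k1_ratio h0.le h1 hh'
  have hc : 0 < 1 / Real.cosh L ^ 2 := by have := Real.cosh_pos L; positivity
  refine (k1_log_sub hc hl hl').trans ?_
  have hph := ph_sub_le h0.le h1 (Real.abs_tanh_lt_one h).le (Real.abs_tanh_lt_one h').le
  have e : ph θ (Real.tanh h) - ph θ (Real.tanh h')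
      = θ * ((1 - Real.tanh h ^ 2) / (1 - θ ^ 2 * Real.tanh h ^ 2)
        - (1 - Real.tanh h' ^ 2) / (1 - θ ^ 2 * Real.tanh h' ^ 2)) := by
    unfold ph; ring
  rw [e, abs_mul, abs_of_pos h0] at hph
  have hθ : 0 < 1 - θ ^ 2 := by nlinarith
  have h3 : |(1 - Real.tanh h ^ 2) / (1 - θ ^ 2 * Real.tanh h ^ 2)
        - (1 - Real.tanh h' ^ 2) / (1 - θ ^ 2 * Real.tanh h' ^ 2)|
      ≤ 1 / (1 - θ ^ 2) * |Real.tanh h ^ 2 - Real.tanh h' ^ 2| := by
    have e2 : θ / (1 - θ ^ 2) * |Real.tanh h ^ 2 - Real.tanh h' ^ 2|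
        = θ * (1 / (1 - θ ^ 2) * |Real.tanh h ^ 2 - Real.tanh h' ^ 2|) := by ring
    rw [e2] at hph
    exact le_of_mul_le_mul_left hph h0
  calc 1 / (1 / Real.cosh L ^ 2) * |(1 - Real.tanh h ^ 2) / (1 - θ ^ 2 * Real.tanh h ^ 2)
        - (1 - Real.tanh h' ^ 2) / (1 - θ ^ 2 * Real.tanh h' ^ 2)|
      ≤ 1 / (1 / Real.cosh L ^ 2) * (1 / (1 - θ ^ 2) * |Real.tanh h ^ 2 - Real.tanh h' ^ 2|) := by
        apply mul_le_mul_of_nonneg_left h3 (by positivity)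
    _ = Real.cosh L ^ 2 / (1 - θ ^ 2) * |Real.tanh h ^ 2 - Real.tanh h' ^ 2| := by
        rw [one_div_one_div]; ring

theorem k1_exp_sub {S S' : ℝ} (hS : S ≤ 0) (hS' : S' ≤ 0) :
    |Real.exp S - Real.exp S'| ≤ |S - S'| := by
  have key : ∀ {a b : ℝ}, a ≤ 0 → Real.exp a - Real.exp b ≤ |a - b| := by
    intro a b ha
    have h1 : Real.exp a - Real.exp b = Real.exp a * (1 - Real.exp (b - a)) := by
      rw [mul_sub, ← Real.exp_add]; ring_nf
    have h2 := Real.add_one_le_exp (b - a)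
    have h3 : Real.exp a ≤ 1 := Real.exp_le_one_iff.2 ha
    have h4 := Real.exp_pos a
    rw [h1]
    have h5 : 1 - Real.exp (b - a) ≤ |a - b| := by
      have := le_abs_self (a - b)
      linarith
    calc Real.exp a * (1 - Real.exp (b - a)) ≤ Real.exp a * |a - b| :=
          mul_le_mul_of_nonneg_left h5 h4.le
      _ ≤ 1 * |a - b| := mul_le_mul_of_nonneg_right h3 (abs_nonneg _)
      _ = |a - b| := one_mul _
  rw [abs_le]
  constructor
  · have := key (b := S) hS'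
    rw [abs_sub_comm S' S] at this
    linarith
  · exact key hS

theorem k1_core {m m' S S' : ℝ} (hm : |m| ≤ 1) (hm' : |m'| ≤ 1) (hS : S ≤ 0) (hS' : S' ≤ 0) :
    ((1 - m ^ 2) * Real.exp S - (1 - m' ^ 2) * Real.exp S') ^ 2
      ≤ 8 * (m - m') ^ 2 + 2 * (S - S') ^ 2 := by
  have h1 := k1_exp_sub hS hS'
  have h3 : Real.exp S ≤ 1 := Real.exp_le_one_iff.2 hS
  have h4 := Real.exp_pos S
  have hm2 : m' ^ 2 ≤ 1 := by
    rw [← sq_abs]; nlinarith [abs_nonneg m']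
  have e : (1 - m ^ 2) * Real.exp S - (1 - m' ^ 2) * Real.exp S'
      = (m' ^ 2 - m ^ 2) * Real.exp S + (1 - m' ^ 2) * (Real.exp S - Real.exp S') := by ring
  have h5 : |(m' ^ 2 - m ^ 2) * Real.exp S| ≤ 2 * |m - m'| := by
    rw [abs_mul, abs_of_pos h4]
    have e2 : m' ^ 2 - m ^ 2 = -((m - m') * (m + m')) := by ring
    rw [e2, abs_neg, abs_mul]
    have : |m + m'| ≤ 2 := (abs_add_le _ _).trans (by linarith)
    calc |m - m'| * |m + m'| * Real.exp S ≤ |m - m'| * 2 * 1 := by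
          apply mul_le_mul _ h3 h4.le (by positivity)
          exact mul_le_mul_of_nonneg_left this (abs_nonneg _)
      _ = 2 * |m - m'| := by ring
  have h6 : |(1 - m' ^ 2) * (Real.exp S - Real.exp S')| ≤ |S - S'| := by
    rw [abs_mul, abs_of_nonneg (by linarith : 0 ≤ 1 - m' ^ 2)]
    calc (1 - m' ^ 2) * |Real.exp S - Real.exp S'| ≤ 1 * |S - S'| := by
          apply mul_le_mul _ h1 (abs_nonneg _) zero_le_one
          nlinarith [sq_nonneg m']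
      _ = |S - S'| := one_mul _
  rw [e]
  have h7 : |(m' ^ 2 - m ^ 2) * Real.exp S + (1 - m' ^ 2) * (Real.exp S - Real.exp S')|
      ≤ 2 * |m - m'| + |S - S'| := (abs_add_le _ _).trans (add_le_add h5 h6)
  rw [← sq_abs]
  have h8 := abs_nonneg ((m' ^ 2 - m ^ 2) * Real.exp S + (1 - m' ^ 2) * (Real.exp S - Real.exp S'))
  have e1 : |m - m'| ^ 2 = (m - m') ^ 2 := sq_abs _
  have e2 : |S - S'| ^ 2 = (S - S') ^ 2 := sq_abs _
  nlinarith [sq_nonneg (2 * |m - m'| - |S - S'|), abs_nonneg (m - m'), abs_nonneg (S - S')]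


variable {V : Type*} (G : SimpleGraph V) [G.LocallyFinite]

/-- sum of the logs along a path -/
noncomputable def k1S (θ B : ℝ) (x : V → ℝ) (p : ℕ → V) (n : ℕ) : ℝ :=
  ∑ i ∈ Finset.range n, k1F θ B (al G θ x (p (i + 1)) (p i))

/-- weight of a path -/
noncomputable def k1W (θ : ℝ) (x : V → ℝ) (p : ℕ → V) (n : ℕ) : ℝ :=
  ∏ i ∈ Finset.range n, Real.exp (-(kap θ * al G θ x (p (i + 1)) (p i) ^ 2))

theorem k1_mm_abs (θ : ℝ) (x : V → ℝ) (v : V) : |mm G θ x v| ≤ 1 :=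
  (Real.abs_tanh_lt_one _).le

theorem k1_al_abs (θ : ℝ) (x : V → ℝ) (i j : V) : |al G θ x i j| ≤ 1 :=
  (Real.abs_tanh_lt_one _).le

theorem k1_kap_nonneg {θ : ℝ} (h0 : 0 ≤ θ) (h1 : θ < 1) : 0 ≤ kap θ := by
  unfold kap; nlinarith

theorem k1W_nonneg (θ : ℝ) (x : V → ℝ) (p : ℕ → V) (n : ℕ) : 0 ≤ k1W G θ x p n :=
  Finset.prod_nonneg fun _ _ => (Real.exp_pos _).le

theorem k1W_le_one {θ : ℝ} (h0 : 0 ≤ θ) (h1 : θ < 1) (x : V → ℝ) (p : ℕ → V) (n : ℕ) :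
    k1W G θ x p n ≤ 1 := by
  apply Finset.prod_le_one (fun _ _ => (Real.exp_pos _).le)
  intro i _
  rw [Real.exp_le_one_iff]
  have := mul_nonneg (k1_kap_nonneg h0 h1) (sq_nonneg (al G θ x (p (i + 1)) (p i)))
  linarith

theorem k1S_nonpos {θ B : ℝ} (hB : 0 ≤ B) (x : V → ℝ) (p : ℕ → V) (n : ℕ) :
    k1S G θ B x p n ≤ 0 :=
  Finset.sum_nonpos fun _ _ => k1F_nonpos hB _ _

theorem k1_PP {θ L : ℝ} (h0 : 0 ≤ θ) (h1 : θ < 1) {x : V → ℝ}
    (hL : ∀ i j, |hl G θ x i j| ≤ L) (p : ℕ → V) (n : ℕ) :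
    PP G θ x p n = θ ^ n * Real.exp (k1S G θ (k1B L) x p n) := by
  unfold PP k1S
  rw [Real.exp_sum, ← Finset.card_range n, ← Finset.prod_const, Finset.card_range,
    ← Finset.prod_mul_distrib]
  refine Finset.prod_congr rfl fun i _ => ?_
  exact (k1F_exp h0 h1 (hL _ _)).symm

theorem k1_kker {θ L D : ℝ} (h0 : 0 ≤ θ) (h1 : θ < 1) (hcrit : θ ^ 2 * D = 1)
    {q : (V → ℝ) × (V → ℝ)} (hL : ∀ i j, |hl G θ q.1 i j| ≤ L) (hL' : ∀ i j, |hl G θ q.2 i j| ≤ L)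
    (p : ℕ → V) (n : ℕ) :
    D ^ n * kker G θ p n q ≤ 8 * (mm G θ q.1 (p 0) - mm G θ q.2 (p 0)) ^ 2
      + 2 * (k1S G θ (k1B L) q.1 p n - k1S G θ (k1B L) q.2 p n) ^ 2
      + (mm G θ q.1 (p n) - mm G θ q.2 (p n)) ^ 2 := by
  unfold kker Cv
  rw [k1_PP G h0 h1 hL, k1_PP G h0 h1 hL']
  have hB := k1B_nonneg L
  have hS := k1S_nonpos G hB q.1 p n (θ := θ)
  have hS' := k1S_nonpos G hB q.2 p n (θ := θ)
  set S := k1S G θ (k1B L) q.1 p n
  set S' := k1S G θ (k1B L) q.2 p n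
  have hm := k1_mm_abs G θ q.1 (p 0)
  have hm' := k1_mm_abs G θ q.2 (p 0)
  set m := mm G θ q.1 (p 0)
  set m' := mm G θ q.2 (p 0)
  have hc := k1_core hm hm' hS hS'
  have hpow : D ^ n * (θ ^ n) ^ 2 = 1 := by
    rw [← pow_mul, mul_comm n 2, pow_mul, ← mul_pow, mul_comm D, hcrit, one_pow]
  have e1 : D ^ n * (((1 - m ^ 2) * (θ ^ n * Real.exp S)
        - (1 - m' ^ 2) * (θ ^ n * Real.exp S')) ^ 2
        + ((1 - m' ^ 2) * (θ ^ n * Real.exp S')) ^ 2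
          * (mm G θ q.1 (p n) - mm G θ q.2 (p n)) ^ 2)
      = (D ^ n * (θ ^ n) ^ 2) * (((1 - m ^ 2) * Real.exp S - (1 - m' ^ 2) * Real.exp S') ^ 2
        + ((1 - m' ^ 2) * Real.exp S') ^ 2 * (mm G θ q.1 (p n) - mm G θ q.2 (p n)) ^ 2) := by
    ring
  rw [e1, hpow, one_mul]
  have h3 : Real.exp S' ≤ 1 := Real.exp_le_one_iff.2 hS'
  have h4 := Real.exp_pos S'
  have hm2 : m' ^ 2 ≤ 1 := by
    rw [← sq_abs]; nlinarith [abs_nonneg m']
  have h5 : ((1 - m' ^ 2) * Real.exp S') ^ 2 ≤ 1 := by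
    have h6 : 0 ≤ (1 - m' ^ 2) * Real.exp S' := mul_nonneg (by linarith) h4.le
    have h7 : (1 - m' ^ 2) * Real.exp S' ≤ 1 := by
      calc (1 - m' ^ 2) * Real.exp S' ≤ 1 * 1 :=
            mul_le_mul (by nlinarith [sq_nonneg m']) h3 h4.le zero_le_one
        _ = 1 := one_mul 1
    nlinarith
  have h8 : ((1 - m' ^ 2) * Real.exp S') ^ 2 * (mm G θ q.1 (p n) - mm G θ q.2 (p n)) ^ 2
      ≤ (mm G θ q.1 (p n) - mm G θ q.2 (p n)) ^ 2 := by
    calc _ ≤ 1 * (mm G θ q.1 (p n) - mm G θ q.2 (p n)) ^ 2 :=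
          mul_le_mul_of_nonneg_right h5 (sq_nonneg _)
      _ = _ := one_mul _
  linarith

theorem k1_PP_le {θ : ℝ} (h0 : 0 ≤ θ) (h1 : θ < 1) (x : V → ℝ) (p : ℕ → V) (n : ℕ) :
    0 ≤ PP G θ x p n ∧ PP G θ x p n ≤ θ ^ n * k1W G θ x p n := by
  unfold PP k1W
  constructor
  · exact Finset.prod_nonneg fun i _ => ph_nonneg h0 h1 (k1_al_abs G _ _ _ _)
  · rw [← Finset.card_range n, ← Finset.prod_const, Finset.card_range,
      ← Finset.prod_mul_distrib]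
    exact Finset.prod_le_prod (fun i _ => ph_nonneg h0 h1 (k1_al_abs G _ _ _ _))
      fun i _ => ph_le h0 h1 (k1_al_abs G _ _ _ _)

theorem k1_kker' {θ D : ℝ} (h0 : 0 ≤ θ) (h1 : θ < 1) (hcrit : θ ^ 2 * D = 1)
    (q : (V → ℝ) × (V → ℝ)) (p : ℕ → V) (n : ℕ) :
    D ^ n * kker G θ p n q ≤ 6 * (k1W G θ q.1 p n + k1W G θ q.2 p n) := by
  have hD : 0 ≤ D := by
    by_contra hcon
    push Not at hcon
    nlinarith [sq_nonneg θ]
  have hpow : D ^ n * (θ ^ n) ^ 2 = 1 := by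
    rw [← pow_mul, mul_comm n 2, pow_mul, ← mul_pow, mul_comm D, hcrit, one_pow]
  have hDn : 0 ≤ D ^ n := pow_nonneg hD n
  have key : ∀ x : V → ℝ, D ^ n * (Cv G θ x p n) ^ 2 ≤ k1W G θ x p n := by
    intro x
    obtain ⟨hp0, hp1⟩ := k1_PP_le G h0 h1 x p n
    have hw0 := k1W_nonneg G θ x p n
    have hw1 := k1W_le_one G h0 h1 x p n
    have hm := k1_mm_abs G θ x (p 0)
    have hm2 : mm G θ x (p 0) ^ 2 ≤ 1 := by
      rw [← sq_abs]; nlinarith [abs_nonneg (mm G θ x (p 0))]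
    unfold Cv
    have h5 : ((1 - mm G θ x (p 0) ^ 2) * PP G θ x p n) ^ 2 ≤ (θ ^ n * k1W G θ x p n) ^ 2 := by
      apply pow_le_pow_left₀ (mul_nonneg (by linarith) hp0)
      calc (1 - mm G θ x (p 0) ^ 2) * PP G θ x p n ≤ 1 * PP G θ x p n :=
            mul_le_mul_of_nonneg_right (by nlinarith [sq_nonneg (mm G θ x (p 0))]) hp0
        _ ≤ _ := by rw [one_mul]; exact hp1
    calc D ^ n * ((1 - mm G θ x (p 0) ^ 2) * PP G θ x p n) ^ 2
        ≤ D ^ n * (θ ^ n * k1W G θ x p n) ^ 2 := mul_le_mul_of_nonneg_left h5 hDn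
      _ = (D ^ n * (θ ^ n) ^ 2) * (k1W G θ x p n) ^ 2 := by ring
      _ = (k1W G θ x p n) ^ 2 := by rw [hpow, one_mul]
      _ ≤ k1W G θ x p n := by nlinarith
  have k1 := key q.1
  have k2 := key q.2
  unfold kker
  have hw1 := k1W_nonneg G θ q.1 p n
  have hw2 := k1W_nonneg G θ q.2 p n
  have hm := k1_mm_abs G θ q.1 (p n)
  have hm' := k1_mm_abs G θ q.2 (p n)
  have hδ : (mm G θ q.1 (p n) - mm G θ q.2 (p n)) ^ 2 ≤ 4 := by
    rw [abs_le] at hm hm'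
    nlinarith [hm.1, hm.2, hm'.1, hm'.2]
  have h6 : D ^ n * (Cv G θ q.2 p n ^ 2 * (mm G θ q.1 (p n) - mm G θ q.2 (p n)) ^ 2)
      ≤ 4 * k1W G θ q.2 p n := by
    calc _ = (D ^ n * Cv G θ q.2 p n ^ 2) * (mm G θ q.1 (p n) - mm G θ q.2 (p n)) ^ 2 := by ring
      _ ≤ k1W G θ q.2 p n * 4 := mul_le_mul k2 hδ (sq_nonneg _) hw2
      _ = _ := by ring
  have h7 : D ^ n * (Cv G θ q.1 p n - Cv G θ q.2 p n) ^ 2
      ≤ 2 * k1W G θ q.1 p n + 2 * k1W G θ q.2 p n := by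
    have : (Cv G θ q.1 p n - Cv G θ q.2 p n) ^ 2
        ≤ 2 * Cv G θ q.1 p n ^ 2 + 2 * Cv G θ q.2 p n ^ 2 := by
      nlinarith [sq_nonneg (Cv G θ q.1 p n + Cv G θ q.2 p n)]
    have h8 := mul_le_mul_of_nonneg_left this hDn
    linarith
  rw [mul_add]
  linarith

end Crest.Agent.FI
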