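import Mathlib
import Crest.Agent.FI.Ker1A

/-!
Stage (i) kernel bound: covariances along a path.
-/

set_option autoImplicit false

namespace Crest.Agent.FI

open MeasureTheory ProbabilityTheory Set Filter Topology
open scoped ENNReal

variable {V : Type*} (G : SimpleGraph V) [G.LocallyFinite]

theorem Av_aut (D : ℕ) (F : ℝ → ℝ) (θ : ℝ) (g : G ≃g G) (x : V → ℝ) (m : ℕ) (i j : V) :
    Av G D F θ (x ∘ g) m i j = Av G D F θ x m (g i) (g j) := by
  induction m generalizing i j with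
  | zero => simp only [Av, al_aut]
  | succ m ih =>
    simp only [Av]
    congr 1
    refine Finset.sum_bij (fun c _ => g c) (fun c hc => (k2_mem_oth_aut G g i j c).1 hc)
      (fun c _ c' _ h => g.injective h) (fun c hc => ⟨g.symm c, ?_, by simp⟩) fun c _ => ?_
    · rw [k2_mem_oth_aut G g]
      simpa using hc
    · exact ih c i

/-- difference of the averages for the two copies -/
noncomputable def k1D (D : ℕ) (F : ℝ → ℝ) (θ : ℝ) (q : (V → ℝ) × (V → ℝ)) (m : ℕ) (i j : V) : ℝ :=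
  Av G D F θ q.1 m i j - Av G D F θ q.2 m i j

theorem k1D_aut (D : ℕ) (F : ℝ → ℝ) (θ : ℝ) (g : G ≃g G) (q : (V → ℝ) × (V → ℝ)) (m : ℕ)
    (i j : V) : k1D G D F θ (q.1 ∘ g, q.2 ∘ g) m i j = k1D G D F θ q m (g i) (g j) := by
  unfold k1D
  rw [Av_aut, Av_aut]

theorem k1D_meas {F : ℝ → ℝ} (hF : Measurable F) (D : ℕ) (θ : ℝ) (m : ℕ) (i j : V) :
    Measurable (fun q : (V → ℝ) × (V → ℝ) => k1D G D F θ q m i j) :=
  ((measurable_Av G hF D θ m i j).comp measurable_fst).sub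
    ((measurable_Av G hF D θ m i j).comp measurable_snd)

theorem k1D_bdd {d : ℕ} (hd : 3 ≤ d) (hreg : G.IsRegularOfDegree d) {F : ℝ → ℝ} {B : ℝ}
    (hB : ∀ a, |F a| ≤ B) (θ : ℝ) (q : (V → ℝ) × (V → ℝ)) (m : ℕ) {i j : V} (h : G.Adj i j) :
    |k1D G (d - 1) F θ q m i j| ≤ 2 * B := by
  unfold k1D
  have h1 := Av_bdd G hd hreg hB θ q.1 m h
  have h2 := Av_bdd G hd hreg hB θ q.2 m h
  calc _ ≤ |Av G (d - 1) F θ q.1 m i j| + |Av G (d - 1) F θ q.2 m i j| := abs_sub _ _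
    _ ≤ 2 * B := by linarith

/-- path functionals, Bochner version -/
theorem k1_path_inv (hT : G.IsTree) {d : ℕ} (hd : 3 ≤ d) (hreg : G.IsRegularOfDegree d)
    {μ : Measure (V → Bool)} {ρ : Measure ℝ} {Q : Measure ((V → ℝ) × (V → ℝ))}
    (hQ : PairState G μ ρ Q) (n : ℕ) (F : (ℕ → V) → ((V → ℝ) × (V → ℝ)) → ℝ)
    (hm : ∀ p, Measurable (F p))
    (heq : ∀ (g : G ≃g G) p q, F p (q.1 ∘ g, q.2 ∘ g) = F (g ∘ p) q)
    (hcongr : ∀ p p' q, (∀ i ≤ n, p i = p' i) → F p q = F p' q)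
    {p p' : ℕ → V} (hp : IsPth G p n) (hp' : IsPth G p' n) :
    ∫ q, F p q ∂Q = ∫ q, F p' q ∂Q := by
  obtain ⟨g, hg⟩ := exists_aut_path G hT (by omega : 2 ≤ d) hreg p p' n hp hp'
  conv_lhs => rw [← hQ.inv g]
  rw [integral_map (measurable_compAut G g).aemeasurable (hm p).aestronglyMeasurable]
  refine integral_congr_ae (Filter.Eventually.of_forall fun q => ?_)
  show F p (q.1 ∘ g, q.2 ∘ g) = F p' q
  rw [heq]
  exact hcongr _ _ _ fun i hi => hg i hi

theorem k1D_succ (D : ℕ) (F : ℝ → ℝ) (θ : ℝ) (q : (V → ℝ) × (V → ℝ)) (m : ℕ) (i j : V) :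
    k1D G D F θ q (m + 1) i j = (1 / (D : ℝ)) * ∑ c ∈ oth G i j, k1D G D F θ q m c i := by
  unfold k1D
  simp only [Av]
  rw [Finset.sum_sub_distrib, mul_sub]

theorem k1D_mul_integrable {d : ℕ} (hd : 3 ≤ d) (hreg : G.IsRegularOfDegree d) {F : ℝ → ℝ}
    (hF : Measurable F) {B : ℝ} (hB : ∀ a, |F a| ≤ B) (θ : ℝ) {Q : Measure ((V → ℝ) × (V → ℝ))}
    [IsProbabilityMeasure Q] (m m' : ℕ) {i j i' j' : V} (h : G.Adj i j) (h' : G.Adj i' j') :
    Integrable (fun q => k1D G (d - 1) F θ q m i j * k1D G (d - 1) F θ q m' i' j') Q := by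
  refine Integrable.of_bound (C := 2 * B * (2 * B))
    ((k1D_meas G hF _ θ m i j).mul (k1D_meas G hF _ θ m' i' j')).aestronglyMeasurable
    (Filter.Eventually.of_forall fun q => ?_)
  rw [Real.norm_eq_abs, abs_mul]
  have h1 := k1D_bdd G hd hreg hB θ q m h
  have h2 := k1D_bdd G hd hreg hB θ q m' h'
  exact mul_le_mul h1 h2 (abs_nonneg _) ((abs_nonneg _).trans h1)

theorem k1_step (hT : G.IsTree) {d : ℕ} (hd : 3 ≤ d) (hreg : G.IsRegularOfDegree d)
    {F : ℝ → ℝ} (hF : Measurable F) {B : ℝ} (hB : ∀ a, |F a| ≤ B) (θ : ℝ)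
    {μ : Measure (V → Bool)} {ρ : Measure ℝ} {Q : Measure ((V → ℝ) × (V → ℝ))}
    (hQ : PairState G μ ρ Q) (N m : ℕ) (hN : 1 ≤ N) {r r' : ℕ → V} (hr : IsPth G r N)
    (hr' : IsPth G r' (N + 1)) :
    ∫ q, k1D G (d - 1) F θ q 0 (r 1) (r 0) * k1D G (d - 1) F θ q (m + 1) (r N) (r (N - 1)) ∂Q
      = ∫ q, k1D G (d - 1) F θ q 0 (r' 1) (r' 0)
          * k1D G (d - 1) F θ q m (r' (N + 1)) (r' N) ∂Q := by
  have := hQ.prob
  have hadj : G.Adj (r (N - 1)) (r N) := by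
    have := hr.1 (N - 1) (by omega)
    rwa [show N - 1 + 1 = N by omega] at this
  have hadj0 : G.Adj (r 0) (r 1) := hr.1 0 (by omega)
  have e1 : ∀ q : (V → ℝ) × (V → ℝ),
      k1D G (d - 1) F θ q 0 (r 1) (r 0) * k1D G (d - 1) F θ q (m + 1) (r N) (r (N - 1))
      = (1 / ((d - 1 : ℕ) : ℝ)) * ∑ c ∈ oth G (r N) (r (N - 1)),
        k1D G (d - 1) F θ q 0 (r 1) (r 0) * k1D G (d - 1) F θ q m c (r N) := by
    intro q
    rw [k1D_succ, ← Finset.mul_sum]
    ring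
  simp only [e1]
  rw [integral_const_mul, integral_finsetSum _ (fun c hc =>
    k1D_mul_integrable G hd hreg hF hB θ 0 m hadj0.symm ((mem_oth G).1 hc).1.symm)]
  have hsum : ∀ c ∈ oth G (r N) (r (N - 1)),
      ∫ q, k1D G (d - 1) F θ q 0 (r 1) (r 0) * k1D G (d - 1) F θ q m c (r N) ∂Q
        = ∫ q, k1D G (d - 1) F θ q 0 (r' 1) (r' 0)
          * k1D G (d - 1) F θ q m (r' (N + 1)) (r' N) ∂Q := by
    intro c hc
    rw [mem_oth] at hc
    set pc : ℕ → V := fun i => if i ≤ N then r i else c with hpc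
    have hpcN : pc N = r N := if_pos le_rfl
    have hpcN1 : pc (N + 1) = c := if_neg (by omega)
    have hpc0 : pc 0 = r 0 := if_pos (by omega)
    have hpc1 : pc 1 = r 1 := if_pos hN
    have hpth : IsPth G pc (N + 1) := by
      refine ⟨fun i hi => ?_, fun i hi => ?_⟩
      · by_cases h : i < N
        · simp only [hpc, if_pos h.le, if_pos (show i + 1 ≤ N by omega)]
          exact hr.1 i h
        · have : i = N := by omega
          subst this
          rw [hpcN, hpcN1]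
          exact hc.1
      · by_cases h : i + 2 ≤ N
        · simp only [hpc, if_pos h, if_pos (show i ≤ N by omega)]
          exact hr.2 i h
        · have : i + 2 = N + 1 := by omega
          rw [this, hpcN1]
          have h3 : i = N - 1 := by omega
          simp only [hpc, if_pos (show i ≤ N by omega)]
          rw [h3]
          exact hc.2.symm
    have key := k1_path_inv G hT hd hreg hQ (N + 1)
      (fun s q => k1D G (d - 1) F θ q 0 (s 1) (s 0) * k1D G (d - 1) F θ q m (s (N + 1)) (s N))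
      (fun s => (k1D_meas G hF _ θ 0 _ _).mul (k1D_meas G hF _ θ m _ _))
      (fun g s q => by simp only [k1D_aut, Function.comp])
      (fun s s' q h => by
        rw [h 0 (by omega), h 1 (by omega), h N (by omega), h (N + 1) le_rfl]) hpth hr'
    simp only [hpcN, hpcN1, hpc0, hpc1] at key
    exact key
  rw [Finset.sum_congr rfl hsum, Finset.sum_const, k2_card_oth G hreg hadj.symm, nsmul_eq_mul,
    ← mul_assoc, one_div, inv_mul_cancel₀, one_mul]
  have : 0 < d - 1 := by omega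
  exact_mod_cast this.ne'

theorem k1_iter (hT : G.IsTree) {d : ℕ} (hd : 3 ≤ d) (hreg : G.IsRegularOfDegree d)
    {F : ℝ → ℝ} (hF : Measurable F) {B : ℝ} (hB : ∀ a, |F a| ≤ B) (θ : ℝ)
    {μ : Measure (V → Bool)} {ρ : Measure ℝ} {Q : Measure ((V → ℝ) × (V → ℝ))}
    (hQ : PairState G μ ρ Q) (m : ℕ) : ∀ (N : ℕ), 1 ≤ N → ∀ {r r' : ℕ → V}, IsPth G r N →
    IsPth G r' (N + m) →
    ∫ q, k1D G (d - 1) F θ q 0 (r 1) (r 0) * k1D G (d - 1) F θ q m (r N) (r (N - 1)) ∂Q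
      = ∫ q, k1D G (d - 1) F θ q 0 (r' 1) (r' 0)
          * k1D G (d - 1) F θ q 0 (r' (N + m)) (r' (N + m - 1)) ∂Q := by
  induction m with
  | zero =>
    intro N hN r r' hr hr'
    exact k1_path_inv G hT hd hreg hQ N
      (fun s q => k1D G (d - 1) F θ q 0 (s 1) (s 0) * k1D G (d - 1) F θ q 0 (s N) (s (N - 1)))
      (fun s => (k1D_meas G hF _ θ 0 _ _).mul (k1D_meas G hF _ θ 0 _ _))
      (fun g s q => by simp only [k1D_aut, Function.comp])
      (fun s s' q h => by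
        rw [h 0 (by omega), h 1 (by omega), h N (by omega), h (N - 1) (by omega)]) hr hr'
  | succ m ih =>
    intro N hN r r' hr hr'
    have hr'' : IsPth G r' (N + 1) :=
      ⟨fun i hi => hr'.1 i (by omega), fun i hi => hr'.2 i (by omega)⟩
    rw [k1_step G hT hd hreg hF hB θ hQ N m hN hr hr'']
    have := ih (N + 1) (by omega) hr'' (r' := r') (by
      rwa [show N + 1 + m = N + (m + 1) by omega])
    rw [show N + 1 - 1 = N by omega, show N + 1 + m = N + (m + 1) by omega] at this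
    exact this

theorem k1_Av_var [Countable V] (hT : G.IsTree) {d : ℕ} (hd : 3 ≤ d) (hreg : G.IsRegularOfDegree d)
    {θ : ℝ} (h0 : 0 ≤ θ) (h1 : θ < 1) {μ : Measure (V → Bool)} [IsProbabilityMeasure μ]
    (hμ : IsIsing G θ μ) {ρ : Measure ℝ} [IsProbabilityMeasure ρ]
    (hgood : ∀ᵐ x ∂(fieldLaw μ (fun _ => ρ)), Good G θ x)
    {F : ℝ → ℝ} (hF : Measurable F) (heven : ∀ a, F (-a) = F a) {B : ℝ} (hB : ∀ a, |F a| ≤ B)
    {Q : Measure ((V → ℝ) × (V → ℝ))} (hQ : PairState G μ ρ Q) (m : ℕ) {i j : V}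
    (h : G.Adj i j) :
    ∫ q, (k1D G (d - 1) F θ q m i j) ^ 2 ∂Q ≤ 4 * B ^ 2 / ((d : ℝ) - 1) ^ m := by
  have := hQ.prob
  have hv := Av_var G hT hd hreg h0 h1 hμ ρ hgood F hF heven hB m h
  set c : ℝ := ∫ x, F (al G θ x i j) ∂(fieldLaw μ (fun _ => ρ)) with hc
  have hmA : Measurable (fun x : V → ℝ => (Av G (d - 1) F θ x m i j - c) ^ 2) :=
    ((measurable_Av G hF _ θ m i j).sub_const c).pow_const 2
  have hc_abs : |c| ≤ B := by
    rw [hc]
    have : IsProbabilityMeasure (fieldLaw μ (fun _ : V => ρ)) := inferInstance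
    have := norm_integral_le_of_norm_le_const (μ := fieldLaw μ (fun _ : V => ρ))
      (f := fun x => F (al G θ x i j)) (C := B) (Filter.Eventually.of_forall fun x => hB _)
    simpa using this
  have hbd : ∀ x : V → ℝ, |(Av G (d - 1) F θ x m i j - c) ^ 2| ≤ (2 * B) ^ 2 := by
    intro x
    have h1 := Av_bdd G hd hreg hB θ x m h
    rw [abs_pow]
    apply pow_le_pow_left₀ (abs_nonneg _)
    calc _ ≤ |Av G (d - 1) F θ x m i j| + |c| := abs_sub _ _
      _ ≤ 2 * B := by linarith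
  have i1 : Integrable (fun q : (V → ℝ) × (V → ℝ) => (Av G (d - 1) F θ q.1 m i j - c) ^ 2) Q :=
    Integrable.of_bound (C := (2 * B) ^ 2) (hmA.comp measurable_fst).aestronglyMeasurable
      (Filter.Eventually.of_forall fun q => hbd q.1)
  have i2 : Integrable (fun q : (V → ℝ) × (V → ℝ) => (Av G (d - 1) F θ q.2 m i j - c) ^ 2) Q :=
    Integrable.of_bound (C := (2 * B) ^ 2) (hmA.comp measurable_snd).aestronglyMeasurable
      (Filter.Eventually.of_forall fun q => hbd q.2)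
  have e1 : ∫ q, (Av G (d - 1) F θ q.1 m i j - c) ^ 2 ∂Q
      = ∫ x, (Av G (d - 1) F θ x m i j - c) ^ 2 ∂(fieldLaw μ (fun _ => ρ)) := by
    rw [← hQ.fst, integral_map measurable_fst.aemeasurable hmA.aestronglyMeasurable]
  have e2 : ∫ q, (Av G (d - 1) F θ q.2 m i j - c) ^ 2 ∂Q
      = ∫ x, (Av G (d - 1) F θ x m i j - c) ^ 2 ∂(fieldLaw μ (fun _ => ρ)) := by
    rw [← hQ.snd, integral_map measurable_snd.aemeasurable hmA.aestronglyMeasurable]
  have hle : ∫ q, (k1D G (d - 1) F θ q m i j) ^ 2 ∂Q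
      ≤ ∫ q, (2 * (Av G (d - 1) F θ q.1 m i j - c) ^ 2
        + 2 * (Av G (d - 1) F θ q.2 m i j - c) ^ 2) ∂Q := by
    apply integral_mono_of_nonneg (Filter.Eventually.of_forall fun q => sq_nonneg _)
      ((i1.const_mul 2).add (i2.const_mul 2))
    refine Filter.Eventually.of_forall fun q => ?_
    show (k1D G (d - 1) F θ q m i j) ^ 2 ≤ 2 * (Av G (d - 1) F θ q.1 m i j - c) ^ 2
        + 2 * (Av G (d - 1) F θ q.2 m i j - c) ^ 2
    unfold k1D
    nlinarith [sq_nonneg ((Av G (d - 1) F θ q.1 m i j - c) + (Av G (d - 1) F θ q.2 m i j - c))]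
  rw [integral_add (i1.const_mul 2) (i2.const_mul 2), integral_const_mul, integral_const_mul,
    e1, e2] at hle
  calc _ ≤ 2 * (B ^ 2 / ((d : ℝ) - 1) ^ m) + 2 * (B ^ 2 / ((d : ℝ) - 1) ^ m) := by linarith
    _ = 4 * B ^ 2 / ((d : ℝ) - 1) ^ m := by ring

theorem k1_cov [Countable V] (hT : G.IsTree) {d : ℕ} (hd : 3 ≤ d) (hreg : G.IsRegularOfDegree d)
    {θ : ℝ} (h0 : 0 < θ) (h1 : θ < 1) (hcrit : θ ^ 2 * ((d : ℝ) - 1) = 1)
    {μ : Measure (V → Bool)} [IsProbabilityMeasure μ]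
    (hμ : IsIsing G θ μ) {ρ : Measure ℝ} [IsProbabilityMeasure ρ]
    (hgood : ∀ᵐ x ∂(fieldLaw μ (fun _ => ρ)), Good G θ x)
    {F : ℝ → ℝ} (hF : Measurable F) (heven : ∀ a, F (-a) = F a) {B : ℝ} (hB : ∀ a, |F a| ≤ B)
    {Q : Measure ((V → ℝ) × (V → ℝ))} (hQ : PairState G μ ρ Q) (m : ℕ) {r : ℕ → V}
    (hr : IsPth G r (1 + m)) :
    ∫ q, k1D G (d - 1) F θ q 0 (r 1) (r 0) * k1D G (d - 1) F θ q 0 (r (1 + m)) (r m) ∂Q
      ≤ 4 * B ^ 2 * θ ^ m := by
  have := hQ.prob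
  have hr1 : IsPth G r 1 := ⟨fun i hi => hr.1 i (by omega), fun i hi => hr.2 i (by omega)⟩
  have hadj : G.Adj (r 0) (r 1) := hr.1 0 (by omega)
  have e := k1_iter G hT hd hreg hF hB θ hQ m 1 le_rfl hr1 hr
  rw [show 1 + m - 1 = m by omega] at e
  rw [← e]
  have hθm : 0 < θ ^ m := pow_pos h0 m
  have v0 := k1_Av_var G hT hd hreg h0.le h1 hμ hgood hF heven hB hQ 0 hadj.symm
  have vm := k1_Av_var G hT hd hreg h0.le h1 hμ hgood hF heven hB hQ m hadj.symm
  have hD : (1 : ℝ) / ((d : ℝ) - 1) ^ m = (θ ^ m) ^ 2 := by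
    have hpow : ((d : ℝ) - 1) ^ m * (θ ^ m) ^ 2 = 1 := by
      rw [← pow_mul, mul_comm m 2, pow_mul, ← mul_pow, mul_comm ((d : ℝ) - 1), hcrit, one_pow]
    have hd0 : ((d : ℝ) - 1) ^ m ≠ 0 := by
      intro h; rw [h, zero_mul] at hpow; exact zero_ne_one hpow
    rw [div_eq_iff hd0, mul_comm, hpow]
  have i1 := k1D_mul_integrable G hd hreg hF hB θ (Q := Q) 0 0 hadj.symm hadj.symm
  have i2 := k1D_mul_integrable G hd hreg hF hB θ (Q := Q) m m hadj.symm hadj.symm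
  have i3 := k1D_mul_integrable G hd hreg hF hB θ (Q := Q) 0 m hadj.symm hadj.symm
  have hle : ∫ q, k1D G (d - 1) F θ q 0 (r 1) (r 0) * k1D G (d - 1) F θ q m (r 1) (r 0) ∂Q
      ≤ ∫ q, (θ ^ m / 2 * (k1D G (d - 1) F θ q 0 (r 1) (r 0) * k1D G (d - 1) F θ q 0 (r 1) (r 0))
        + 1 / (2 * θ ^ m) * (k1D G (d - 1) F θ q m (r 1) (r 0)
          * k1D G (d - 1) F θ q m (r 1) (r 0))) ∂Q := by
    apply integral_mono i3 ((i1.const_mul _).add (i2.const_mul _))
    intro q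
    show k1D G (d - 1) F θ q 0 (r 1) (r 0) * k1D G (d - 1) F θ q m (r 1) (r 0)
      ≤ θ ^ m / 2 * (k1D G (d - 1) F θ q 0 (r 1) (r 0) * k1D G (d - 1) F θ q 0 (r 1) (r 0))
        + 1 / (2 * θ ^ m) * (k1D G (d - 1) F θ q m (r 1) (r 0)
          * k1D G (d - 1) F θ q m (r 1) (r 0))
    set X := k1D G (d - 1) F θ q 0 (r 1) (r 0)
    set Y := k1D G (d - 1) F θ q m (r 1) (r 0)
    have h3 : 0 ≤ (θ ^ m * X - Y) ^ 2 / (2 * θ ^ m) := by positivity
    have e3 : (θ ^ m * X - Y) ^ 2 / (2 * θ ^ m)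
        = θ ^ m / 2 * (X * X) + 1 / (2 * θ ^ m) * (Y * Y) - X * Y := by
      field_simp
      ring
    rw [e3] at h3
    linarith
  rw [integral_add (i1.const_mul _) (i2.const_mul _), integral_const_mul, integral_const_mul] at hle
  have s1 : ∀ k : ℕ, (∫ q, k1D G (d - 1) F θ q k (r 1) (r 0) * k1D G (d - 1) F θ q k (r 1) (r 0) ∂Q)
      = ∫ q, (k1D G (d - 1) F θ q k (r 1) (r 0)) ^ 2 ∂Q := by
    intro k
    congr 1
    funext q
    ring
  rw [s1, s1] at hle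
  rw [pow_zero, div_one] at v0
  have vm' : ∫ q, (k1D G (d - 1) F θ q m (r 1) (r 0)) ^ 2 ∂Q ≤ 4 * B ^ 2 * (θ ^ m) ^ 2 := by
    rw [← hD]
    calc _ ≤ _ := vm
      _ = _ := by ring
  calc _ ≤ _ := hle
    _ ≤ θ ^ m / 2 * (4 * B ^ 2) + 1 / (2 * θ ^ m) * (4 * B ^ 2 * (θ ^ m) ^ 2) := by
        gcongr
    _ = 4 * B ^ 2 * θ ^ m := by
        field_simp
        ring


theorem k1_cov' [Countable V] (hT : G.IsTree) {d : ℕ} (hd : 3 ≤ d) (hreg : G.IsRegularOfDegree d)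
    {θ : ℝ} (h0 : 0 < θ) (h1 : θ < 1) (hcrit : θ ^ 2 * ((d : ℝ) - 1) = 1)
    {μ : Measure (V → Bool)} [IsProbabilityMeasure μ]
    (hμ : IsIsing G θ μ) {ρ : Measure ℝ} [IsProbabilityMeasure ρ]
    (hgood : ∀ᵐ x ∂(fieldLaw μ (fun _ => ρ)), Good G θ x)
    {F : ℝ → ℝ} (hF : Measurable F) (heven : ∀ a, F (-a) = F a) {B : ℝ} (hB : ∀ a, |F a| ≤ B)
    {Q : Measure ((V → ℝ) × (V → ℝ))} (hQ : PairState G μ ρ Q) {p : ℕ → V} (hp : IsRay G p)
    {i j : ℕ} (hij : i ≤ j) :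
    ∫ q, k1D G (d - 1) F θ q 0 (p (i + 1)) (p i) * k1D G (d - 1) F θ q 0 (p (j + 1)) (p j) ∂Q
      ≤ 4 * B ^ 2 * θ ^ (j - i) := by
  have hr : IsPth G (fun k => p (i + k)) (1 + (j - i)) := by
    refine ⟨fun k hk => ?_, fun k hk => ?_⟩
    · exact (hp (i + k + 1)).1 (i + k) (by omega)
    · exact (hp (i + k + 2)).2 (i + k) (by omega)
  have := k1_cov G hT hd hreg h0 h1 hcrit hμ hgood hF heven hB hQ (j - i) hr
  simp only [add_zero] at this
  rw [show i + (1 + (j - i)) = j + 1 by omega, show i + (j - i) = j by omega] at this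
  exact this

theorem k1_card (n m0 i : ℕ) :
    ((Finset.range n).filter (fun j => j < i + m0 ∧ i < j + m0)).card ≤ 2 * m0 := by
  have hsub : (Finset.range n).filter (fun j => j < i + m0 ∧ i < j + m0)
      ⊆ Finset.Ico (i + 1 - m0) (i + m0) := by
    intro j hj
    rw [Finset.mem_filter] at hj
    rw [Finset.mem_Ico]
    omega
  refine (Finset.card_le_card hsub).trans ?_
  rw [Nat.card_Ico]
  omega

theorem k1_second [Countable V] (hT : G.IsTree) {d : ℕ} (hd : 3 ≤ d)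
    (hreg : G.IsRegularOfDegree d)
    {θ : ℝ} (h0 : 0 < θ) (h1 : θ < 1) (hcrit : θ ^ 2 * ((d : ℝ) - 1) = 1)
    {μ : Measure (V → Bool)} [IsProbabilityMeasure μ]
    (hμ : IsIsing G θ μ) {ρ : Measure ℝ} [IsProbabilityMeasure ρ]
    (hgood : ∀ᵐ x ∂(fieldLaw μ (fun _ => ρ)), Good G θ x)
    {F : ℝ → ℝ} (hF : Measurable F) (heven : ∀ a, F (-a) = F a) {B : ℝ} (hB : ∀ a, |F a| ≤ B)
    {Q : Measure ((V → ℝ) × (V → ℝ))} (hQ : PairState G μ ρ Q) {p : ℕ → V} (hp : IsRay G p)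
    {V0 : ℝ} (hV0 : 0 ≤ V0)
    (hV : ∀ i j, G.Adj i j → ∫ q, (k1D G (d - 1) F θ q 0 i j) ^ 2 ∂Q ≤ V0) (n m0 : ℕ) :
    ∫ q, (∑ i ∈ Finset.range n, k1D G (d - 1) F θ q 0 (p (i + 1)) (p i)) ^ 2 ∂Q
      ≤ 2 * n * m0 * V0 + n ^ 2 * (4 * B ^ 2 * θ ^ m0) := by
  have := hQ.prob
  have hadj : ∀ i, G.Adj (p (i + 1)) (p i) := fun i => ((hp (i + 1)).1 i (by omega)).symm
  set X : ℕ → ((V → ℝ) × (V → ℝ)) → ℝ := fun i q => k1D G (d - 1) F θ q 0 (p (i + 1)) (p i) with hX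
  have hint : ∀ i j, Integrable (fun q => X i q * X j q) Q := fun i j =>
    k1D_mul_integrable G hd hreg hF hB θ (Q := Q) 0 0 (hadj i) (hadj j)
  have e1 : ∀ q, (∑ i ∈ Finset.range n, X i q) ^ 2
      = ∑ i ∈ Finset.range n, ∑ j ∈ Finset.range n, X i q * X j q := by
    intro q
    rw [sq, Finset.sum_mul_sum]
  show ∫ q, (∑ i ∈ Finset.range n, X i q) ^ 2 ∂Q ≤ _
  simp only [e1]
  rw [integral_finsetSum _ (fun i _ => integrable_finsetSum _ fun j _ => hint i j)]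
  have e2 : ∀ i, ∫ q, ∑ j ∈ Finset.range n, X i q * X j q ∂Q
      = ∑ j ∈ Finset.range n, ∫ q, X i q * X j q ∂Q := fun i =>
    integral_finsetSum _ (fun j _ => hint i j)
  simp only [e2]
  have hB0 : 0 ≤ B := (abs_nonneg _).trans (hB 0)
  have hθm : 0 ≤ 4 * B ^ 2 * θ ^ m0 := by positivity
  have hfar : ∀ i j, i ≤ j → m0 ≤ j - i → ∫ q, X i q * X j q ∂Q ≤ 4 * B ^ 2 * θ ^ m0 := by
    intro i j hij hm
    refine (k1_cov' G hT hd hreg h0 h1 hcrit hμ hgood hF heven hB hQ hp hij).trans ?_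
    apply mul_le_mul_of_nonneg_left _ (by positivity)
    exact pow_le_pow_of_le_one h0.le h1.le hm
  have hnear : ∀ i j, ∫ q, X i q * X j q ∂Q ≤ V0 := by
    intro i j
    have h3 : ∫ q, X i q * X j q ∂Q ≤ ∫ q, (1 / 2 * (X i q * X i q) + 1 / 2 * (X j q * X j q)) ∂Q := by
      apply integral_mono (hint i j) (((hint i i).const_mul _).add ((hint j j).const_mul _))
      intro q
      show X i q * X j q ≤ 1 / 2 * (X i q * X i q) + 1 / 2 * (X j q * X j q)
      nlinarith [sq_nonneg (X i q - X j q)]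
    rw [integral_add ((hint i i).const_mul _) ((hint j j).const_mul _), integral_const_mul,
      integral_const_mul] at h3
    have s1 : ∀ k : ℕ, (∫ q, X k q * X k q ∂Q) ≤ V0 := by
      intro k
      refine le_trans (le_of_eq ?_) (hV _ _ (hadj k))
      congr 1
      funext q
      rw [sq]
    have := s1 i
    have := s1 j
    linarith
  have hterm : ∀ i j, ∫ q, X i q * X j q ∂Q
      ≤ (if j < i + m0 ∧ i < j + m0 then V0 else 0) + 4 * B ^ 2 * θ ^ m0 := by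
    intro i j
    split_ifs with h
    · have := hnear i j
      linarith
    · rw [zero_add]
      rcases le_total i j with hij | hij
      · exact hfar i j hij (by omega)
      · have := hfar j i hij (by omega)
        refine le_trans (le_of_eq ?_) this
        congr 1
        funext q
        ring
  calc ∑ i ∈ Finset.range n, ∑ j ∈ Finset.range n, ∫ q, X i q * X j q ∂Q
      ≤ ∑ i ∈ Finset.range n, ∑ j ∈ Finset.range n,
        ((if j < i + m0 ∧ i < j + m0 then V0 else 0) + 4 * B ^ 2 * θ ^ m0) :=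
        Finset.sum_le_sum fun i _ => Finset.sum_le_sum fun j _ => hterm i j
    _ ≤ ∑ i ∈ Finset.range n, (2 * m0 * V0 + n * (4 * B ^ 2 * θ ^ m0)) := by
        refine Finset.sum_le_sum fun i _ => ?_
        rw [Finset.sum_add_distrib, ← Finset.sum_filter, Finset.sum_const, Finset.sum_const,
          nsmul_eq_mul, nsmul_eq_mul, Finset.card_range]
        have hc := k1_card n m0 i
        have hc' : (((Finset.range n).filter (fun j => j < i + m0 ∧ i < j + m0)).card : ℝ)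
            ≤ 2 * m0 := by exact_mod_cast hc
        have := mul_le_mul_of_nonneg_right hc' hV0
        linarith
    _ = 2 * n * m0 * V0 + n ^ 2 * (4 * B ^ 2 * θ ^ m0) := by
        rw [Finset.sum_const, nsmul_eq_mul, Finset.card_range]
        ring

end Crest.Agent.FI
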