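import Mathlib
import Crest.Agent.FI.Ker1B
import Crest.Agent.FI.Rho
import Crest.Agent.FI.EnvMom
import Crest.Agent.FI.EnvQ
import Crest.Agent.FI.EnvKill

/-!
Stage (i) kernel bound: the variance of one term.
-/

set_option autoImplicit false

namespace Crest.Agent.FI

open MeasureTheory ProbabilityTheory Set Filter Topology
open scoped ENNReal

theorem k1_split {U W t : ℝ} (hU : 0 ≤ U) (hW : 0 ≤ W) (hW4 : W ≤ 4) (ht : 0 < t) (P : ℕ) :
    U * W ≤ t * W + 4 * (U ^ (P + 1) / t ^ P) := by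
  have h1 : 0 ≤ U ^ (P + 1) / t ^ P := by positivity
  rcases le_or_gt U t with h | h
  · have := mul_le_mul_of_nonneg_right h hW
    linarith
  · have h2 : U ≤ U ^ (P + 1) / t ^ P := by
      rw [le_div_iff₀ (pow_pos ht P), pow_succ, mul_comm U]
      exact mul_le_mul_of_nonneg_right (pow_le_pow_left₀ ht.le h.le P) hU
    have h3 : 0 ≤ t * W := by positivity
    have h4 : U * W ≤ U * 4 := mul_le_mul_of_nonneg_left hW4 hU
    linarith

theorem k1_powbound {a a' : ℝ} (P : ℕ) :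
    ((a + a') ^ 2) ^ (P + 1) ≤ 2 ^ (2 * P + 1) * (a ^ (2 * (P + 1)) + a' ^ (2 * (P + 1))) := by
  have h1 : (a + a') ^ 2 ≤ 2 * (a ^ 2 + a' ^ 2) := by nlinarith [sq_nonneg (a - a')]
  have h2 : ((a + a') ^ 2) ^ (P + 1) ≤ (2 * (a ^ 2 + a' ^ 2)) ^ (P + 1) :=
    pow_le_pow_left₀ (sq_nonneg _) h1 _
  have h3 := add_pow_le (sq_nonneg a) (sq_nonneg a') (P + 1)
  rw [Nat.add_sub_cancel] at h3
  calc _ ≤ _ := h2
    _ = 2 ^ (P + 1) * (a ^ 2 + a' ^ 2) ^ (P + 1) := by rw [mul_pow]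
    _ ≤ 2 ^ (P + 1) * (2 ^ P * ((a ^ 2) ^ (P + 1) + (a' ^ 2) ^ (P + 1))) :=
        mul_le_mul_of_nonneg_left h3 (by positivity)
    _ = _ := by
        rw [← pow_mul, ← pow_mul]
        ring

theorem k1_tanh_le (h : ℝ) : Real.tanh h ^ 2 ≤ h ^ 2 := by
  have := tanh_lip h 0
  rw [Real.tanh_zero, sub_zero, sub_zero] at this
  rw [← sq_abs (Real.tanh h), ← sq_abs h]
  exact pow_le_pow_left₀ (abs_nonneg _) this 2

variable {V : Type*} (G : SimpleGraph V) [G.LocallyFinite]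

/-- the truncation level for the fields of round 0 -/
noncomputable def k1L (θ : ℝ) (d : ℕ) : ℝ := 1 + d * Real.artanh θ

/-- almost sure bounds for both copies -/
theorem k1_ae [Countable V] {θ : ℝ} {μ : Measure (V → Bool)} [IsProbabilityMeasure μ] {s : ℝ}
    {Q : Measure ((V → ℝ) × (V → ℝ))}
    (hgood : ∀ᵐ x ∂(fieldLaw μ (fun _ => rho 0 s)), Good G θ x)
    (hQ : PairState G μ (rho 0 s) Q) :
    ∀ᵐ q ∂Q, (Good G θ q.1 ∧ ∀ w, |q.1 w| ≤ 1) ∧ (Good G θ q.2 ∧ ∀ w, |q.2 w| ≤ 1) := by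
  have hb : ∀ᵐ x ∂(fieldLaw μ (fun _ : V => rho 0 s)), ∀ w, |x w| ≤ 1 := by
    have := fieldLaw_bdd (μ := μ) (ρ := fun _ : V => rho 0 s) (L := 1) (fun v => by
      have := chan_rho 0 s
      simpa using this)
    exact this
  have hboth := hgood.and hb
  have h1 : ∀ᵐ q ∂Q, Good G θ q.1 ∧ ∀ w, |q.1 w| ≤ 1 := by
    rw [← hQ.fst] at hboth
    exact ae_of_ae_map measurable_fst.aemeasurable hboth
  have hboth := hgood.and hb
  have h2 : ∀ᵐ q ∂Q, Good G θ q.2 ∧ ∀ w, |q.2 w| ≤ 1 := by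
    rw [← hQ.snd] at hboth
    exact ae_of_ae_map measurable_snd.aemeasurable hboth
  exact h1.and h2

theorem k1_yy_nonneg (θ : ℝ) (Q : Measure ((V → ℝ) × (V → ℝ))) (v : V) : 0 ≤ yy G θ Q v :=
  integral_nonneg fun _ => sq_nonneg _

theorem k1_dsq_le (θ : ℝ) (q : (V → ℝ) × (V → ℝ)) (v : V) :
    (mm G θ q.1 v - mm G θ q.2 v) ^ 2 ≤ 4 := by
  have hm := k1_mm_abs G θ q.1 v
  have hm' := k1_mm_abs G θ q.2 v
  rw [abs_le] at hm hm'
  nlinarith [hm.1, hm.2, hm'.1, hm'.2]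

theorem k1_dsq_int (θ : ℝ) (Q : Measure ((V → ℝ) × (V → ℝ))) [IsProbabilityMeasure Q] (v : V) :
    Integrable (fun q => (mm G θ q.1 v - mm G θ q.2 v) ^ 2) Q := by
  refine Integrable.of_bound (C := 4) ?_ (Filter.Eventually.of_forall fun q => ?_)
  · exact ((((measurable_mm G θ v).comp measurable_fst).sub
      ((measurable_mm G θ v).comp measurable_snd)).pow_const 2).aestronglyMeasurable
  · rw [Real.norm_eq_abs, abs_of_nonneg (sq_nonneg _)]
    exact k1_dsq_le G θ q v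

theorem k1_yy_le (θ : ℝ) (Q : Measure ((V → ℝ) × (V → ℝ))) [IsProbabilityMeasure Q] (v : V) :
    yy G θ Q v ≤ 4 := by
  unfold yy
  calc _ ≤ ∫ _, (4 : ℝ) ∂Q := integral_mono (k1_dsq_int G θ Q v) (integrable_const _)
        (fun q => k1_dsq_le G θ q v)
    _ = 4 := by simp

/-- the variance of one term -/
theorem k1_var [Countable V] (hT : G.IsTree) {d : ℕ} (hd : 3 ≤ d) (hreg : G.IsRegularOfDegree d)
    {θ : ℝ} (h0 : 0 < θ) (h1 : θ < 1) (hcrit : θ ^ 2 * ((d : ℝ) - 1) ≤ 1)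
    {μ : Measure (V → Bool)} [IsProbabilityMeasure μ] (hμ : IsIsing G θ μ) (P : ℕ) :
    ∃ C : ℝ, 0 < C ∧ ∀ (s : ℝ) (Q : Measure ((V → ℝ) × (V → ℝ))), 0 < s → s ≤ 1 / 2 →
      (∀ᵐ x ∂(fieldLaw μ (fun _ => rho 0 s)), Good G θ x) → PairState G μ (rho 0 s) Q →
      ∀ i j v, G.Adj i j →
      ∫ q, (k1D G (d - 1) (k1F θ (k1B (k1L θ d))) θ q 0 i j) ^ 2 ∂Q
        ≤ C * (s * (yy G θ Q v) ^ (1 - 1 / ((P : ℝ) + 1))) := by
  obtain ⟨Cm, hCm, hmom⟩ := mom_bound G hT hd hreg h0 h1 hcrit hμ (P + 1)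
  set L := k1L θ d with hL
  set C1 : ℝ := Real.cosh L ^ 2 / (1 - θ ^ 2) with hC1
  have hθ2 : 0 < 1 - θ ^ 2 := by nlinarith
  have hC1pos : 0 < C1 := by have := Real.cosh_pos L; positivity
  set K : ℝ := Real.cosh L ^ 2 / (1 - θ) with hK
  have hKpos : 0 < K := by
    have := Real.cosh_pos L
    have : 0 < 1 - θ := by linarith
    positivity
  set M : ℝ := 2 ^ (2 * P + 1) * (2 * Cm) with hM
  have hMpos : 0 < M := by positivity
  refine ⟨C1 ^ 2 * (4 * K ^ 2 + 4 * M), by positivity, ?_⟩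
  intro s Q hs0 hs1 hgood hQ i j v hij
  have := hQ.prob
  have hae := k1_ae G hgood hQ
  set y := yy G θ Q v with hy
  have hy0 : 0 ≤ y := k1_yy_nonneg G θ Q v
  have hyc : ∀ w, ∫ q, (mm G θ q.1 w - mm G θ q.2 w) ^ 2 ∂Q = y := fun w =>
    yy_const G hT hd hreg θ hQ w v
  -- abbreviations
  set U : ((V → ℝ) × (V → ℝ)) → ℝ := fun q => (al G θ q.1 i j + al G θ q.2 i j) ^ 2 with hU
  set W : ((V → ℝ) × (V → ℝ)) → ℝ := fun q => (al G θ q.1 i j - al G θ q.2 i j) ^ 2 with hW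
  have hUm : Measurable U := (((measurable_al G θ i j).comp measurable_fst).add
    ((measurable_al G θ i j).comp measurable_snd)).pow_const 2
  have hWm : Measurable W := (((measurable_al G θ i j).comp measurable_fst).sub
    ((measurable_al G θ i j).comp measurable_snd)).pow_const 2
  have hU0 : ∀ q, 0 ≤ U q := fun q => sq_nonneg _
  have hW0 : ∀ q, 0 ≤ W q := fun q => sq_nonneg _
  have hU4 : ∀ q, U q ≤ 4 := by
    intro q
    have h1 := k1_al_abs G θ q.1 i j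
    have h2 := k1_al_abs G θ q.2 i j
    rw [abs_le] at h1 h2
    simp only [hU]
    nlinarith [h1.1, h1.2, h2.1, h2.2]
  have hW4 : ∀ q, W q ≤ 4 := by
    intro q
    have h1 := k1_al_abs G θ q.1 i j
    have h2 := k1_al_abs G θ q.2 i j
    rw [abs_le] at h1 h2
    simp only [hW]
    nlinarith [h1.1, h1.2, h2.1, h2.2]
  have hWi : Integrable W Q := Integrable.of_bound (C := 4) hWm.aestronglyMeasurable
    (Filter.Eventually.of_forall fun q => by
      rw [Real.norm_eq_abs, abs_of_nonneg (hW0 q)]; exact hW4 q)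
  have hUi : Integrable (fun q => U q ^ (P + 1)) Q :=
    Integrable.of_bound (C := 4 ^ (P + 1)) (hUm.pow_const _).aestronglyMeasurable
    (Filter.Eventually.of_forall fun q => by
      rw [Real.norm_eq_abs, abs_of_nonneg (pow_nonneg (hU0 q) _)]
      exact pow_le_pow_left₀ (hU0 q) (hU4 q) _)
  have hUWi : Integrable (fun q => U q * W q) Q :=
    Integrable.of_bound (C := 4 * 4) (hUm.mul hWm).aestronglyMeasurable
    (Filter.Eventually.of_forall fun q => by
      rw [Real.norm_eq_abs, abs_of_nonneg (mul_nonneg (hU0 q) (hW0 q))]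
      exact mul_le_mul (hU4 q) (hW4 q) (hW0 q) (by norm_num))
  -- bound of the integral of W
  have hWy : ∫ q, W q ∂Q ≤ 4 * K ^ 2 * y := by
    have i1 := (k1_dsq_int G θ Q i).const_mul (2 * K ^ 2)
    have i2 := (k1_dsq_int G θ Q j).const_mul (2 * K ^ 2)
    have : ∫ q, W q ∂Q ≤ ∫ q, (2 * K ^ 2 * (mm G θ q.1 i - mm G θ q.2 i) ^ 2
        + 2 * K ^ 2 * (mm G θ q.1 j - mm G θ q.2 j) ^ 2) ∂Q := by
      apply integral_mono_ae hWi (i1.add i2)
      filter_upwards [hae] with q hq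
      show (al G θ q.1 i j - al G θ q.2 i j) ^ 2 ≤ _
      have h3 := hl_sub_le G h0.le h1 hreg hq.1.1 hq.2.1 hq.1.2 hq.2.2 hij
      have h4 : |al G θ q.1 i j - al G θ q.2 i j| ≤ K * (|mm G θ q.1 i - mm G θ q.2 i|
          + |mm G θ q.1 j - mm G θ q.2 j|) := (tanh_lip _ _).trans h3
      rw [← sq_abs]
      have h5 := pow_le_pow_left₀ (abs_nonneg _) h4 2
      refine h5.trans ?_
      have e1 : |mm G θ q.1 i - mm G θ q.2 i| ^ 2 = (mm G θ q.1 i - mm G θ q.2 i) ^ 2 := sq_abs _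
      have e2 : |mm G θ q.1 j - mm G θ q.2 j| ^ 2 = (mm G θ q.1 j - mm G θ q.2 j) ^ 2 := sq_abs _
      show _ ≤ 2 * K ^ 2 * (mm G θ q.1 i - mm G θ q.2 i) ^ 2
        + 2 * K ^ 2 * (mm G θ q.1 j - mm G θ q.2 j) ^ 2
      rw [mul_pow, ← e1, ← e2]
      have hK2 : 0 ≤ K ^ 2 := sq_nonneg K
      nlinarith [mul_nonneg hK2 (sq_nonneg (|mm G θ q.1 i - mm G θ q.2 i|
        - |mm G θ q.1 j - mm G θ q.2 j|))]
    rw [integral_add i1 i2, integral_const_mul, integral_const_mul, hyc, hyc] at this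
    linarith
  -- bound of the moment of U
  have hUP : ∫ q, U q ^ (P + 1) ∂Q ≤ M * s ^ (P + 1) := by
    have hmm : Measurable (fun x : V → ℝ => hl G θ x i j ^ (2 * (P + 1))) :=
      (measurable_hl G θ i j).pow_const _
    have hLb : ∀ x : V → ℝ, Good G θ x → (∀ w, |x w| ≤ 1) → |hl G θ x i j| ≤ L := by
      intro x _ hx
      exact hl_bound G h0.le h1 hreg hx i j
    have ib1 : Integrable (fun q : (V → ℝ) × (V → ℝ) => hl G θ q.1 i j ^ (2 * (P + 1))) Q := by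
      refine Integrable.of_bound (C := L ^ (2 * (P + 1))) (hmm.comp measurable_fst).aestronglyMeasurable ?_
      filter_upwards [hae] with q hq
      rw [Real.norm_eq_abs, abs_pow]
      exact pow_le_pow_left₀ (abs_nonneg _) (hLb _ hq.1.1 hq.1.2) _
    have ib2 : Integrable (fun q : (V → ℝ) × (V → ℝ) => hl G θ q.2 i j ^ (2 * (P + 1))) Q := by
      refine Integrable.of_bound (C := L ^ (2 * (P + 1))) (hmm.comp measurable_snd).aestronglyMeasurable ?_
      filter_upwards [hae] with q hq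
      rw [Real.norm_eq_abs, abs_pow]
      exact pow_le_pow_left₀ (abs_nonneg _) (hLb _ hq.2.1 hq.2.2) _
    have e1 : ∫ q, hl G θ q.1 i j ^ (2 * (P + 1)) ∂Q
        = ∫ x, hl G θ x i j ^ (2 * (P + 1)) ∂(fieldLaw μ (fun _ => rho 0 s)) := by
      rw [← hQ.fst, integral_map measurable_fst.aemeasurable hmm.aestronglyMeasurable]
    have e2 : ∫ q, hl G θ q.2 i j ^ (2 * (P + 1)) ∂Q
        = ∫ x, hl G θ x i j ^ (2 * (P + 1)) ∂(fieldLaw μ (fun _ => rho 0 s)) := by
      rw [← hQ.snd, integral_map measurable_snd.aemeasurable hmm.aestronglyMeasurable]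
    have hle : ∫ q, U q ^ (P + 1) ∂Q ≤ ∫ q, (2 ^ (2 * P + 1) * (hl G θ q.1 i j ^ (2 * (P + 1))
        + hl G θ q.2 i j ^ (2 * (P + 1)))) ∂Q := by
      apply integral_mono hUi ((ib1.add ib2).const_mul _)
      intro q
      show U q ^ (P + 1) ≤ 2 ^ (2 * P + 1) * (hl G θ q.1 i j ^ (2 * (P + 1))
        + hl G θ q.2 i j ^ (2 * (P + 1)))
      refine (k1_powbound P).trans ?_
      apply mul_le_mul_of_nonneg_left _ (by positivity)
      apply add_le_add
      · rw [pow_mul, pow_mul]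
        exact pow_le_pow_left₀ (sq_nonneg _) (k1_tanh_le _) _
      · rw [pow_mul, pow_mul]
        exact pow_le_pow_left₀ (sq_nonneg _) (k1_tanh_le _) _
    rw [integral_const_mul, integral_add ib1 ib2, e1, e2] at hle
    have hm := hmom s hs0 hs1 hgood i j hij
    have h2 : (0 : ℝ) ≤ 2 ^ (2 * P + 1) := by positivity
    calc _ ≤ _ := hle
      _ ≤ 2 ^ (2 * P + 1) * (Cm * s ^ (P + 1) + Cm * s ^ (P + 1)) := by gcongr
      _ = M * s ^ (P + 1) := by rw [hM]; ring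
  -- bound by U * W
  have hXUW : ∫ q, (k1D G (d - 1) (k1F θ (k1B L)) θ q 0 i j) ^ 2 ∂Q
      ≤ C1 ^ 2 * ∫ q, U q * W q ∂Q := by
    rw [← integral_const_mul]
    have hXi : Integrable (fun q => (k1D G (d - 1) (k1F θ (k1B L)) θ q 0 i j) ^ 2) Q := by
      have := k1D_mul_integrable G hd hreg (k1F_meas θ (k1B L)) (k1F_abs (k1B_nonneg L) θ) θ
        (Q := Q) 0 0 hij hij
      refine this.congr (Filter.Eventually.of_forall fun q => ?_)
      exact (sq _).symm
    apply integral_mono_ae hXi (hUWi.const_mul _)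
    filter_upwards [hae] with q hq
    show (k1D G (d - 1) (k1F θ (k1B L)) θ q 0 i j) ^ 2 ≤ C1 ^ 2 * (U q * W q)
    have b1 := hl_bound G h0.le h1 hreg hq.1.2 i j
    have b2 := hl_bound G h0.le h1 hreg hq.2.2 i j
    have h3 := k1F_lip h0 h1 b1 b2 (L := L)
    have h4 : |k1D G (d - 1) (k1F θ (k1B L)) θ q 0 i j|
        ≤ C1 * |al G θ q.1 i j ^ 2 - al G θ q.2 i j ^ 2| := h3
    rw [← sq_abs]
    have h5 := pow_le_pow_left₀ (abs_nonneg _) h4 2
    refine h5.trans (le_of_eq ?_)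
    rw [mul_pow, sq_abs]
    simp only [hU, hW]
    ring
  refine hXUW.trans ?_
  rw [mul_assoc]
  apply mul_le_mul_of_nonneg_left _ (by positivity)
  have hpnn : 0 ≤ y ^ (1 - 1 / ((P : ℝ) + 1)) := Real.rpow_nonneg hy0 _
  rcases hy0.eq_or_lt with hyz | hypos
  · -- y = 0
    have hW0' : ∫ q, W q ∂Q ≤ 0 := by
      rw [← hyz, mul_zero] at hWy
      exact hWy
    have : ∫ q, U q * W q ∂Q ≤ ∫ q, 4 * W q ∂Q := by
      apply integral_mono hUWi (hWi.const_mul 4)
      intro q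
      exact mul_le_mul_of_nonneg_right (hU4 q) (hW0 q)
    rw [integral_const_mul] at this
    have h5 : 0 ≤ (4 * K ^ 2 + 4 * M) * (s * y ^ (1 - 1 / ((P : ℝ) + 1))) := by positivity
    linarith
  · -- y > 0
    have hP0 : (0 : ℝ) < (P : ℝ) + 1 := by positivity
    set w : ℝ := y ^ (1 / ((P : ℝ) + 1)) with hw
    have hwpos : 0 < w := Real.rpow_pos_of_pos hypos _
    have hwP : w ^ (P + 1) = y := by
      rw [hw, ← Real.rpow_natCast, ← Real.rpow_mul hy0]
      have : 1 / ((P : ℝ) + 1) * ((P + 1 : ℕ) : ℝ) = 1 := by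
        push_cast
        field_simp
      rw [this, Real.rpow_one]
    have hwP' : y ^ (1 - 1 / ((P : ℝ) + 1)) = w ^ P := by
      rw [Real.rpow_sub hypos, Real.rpow_one, ← hw]
      rw [div_eq_iff hwpos.ne', ← pow_succ, hwP]
    rw [hwP']
    set t : ℝ := s / w with ht
    have htpos : 0 < t := div_pos hs0 hwpos
    have hle : ∫ q, U q * W q ∂Q ≤ ∫ q, (t * W q + 4 / t ^ P * U q ^ (P + 1)) ∂Q := by
      apply integral_mono hUWi ((hWi.const_mul _).add (hUi.const_mul _))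
      intro q
      show U q * W q ≤ t * W q + 4 / t ^ P * U q ^ (P + 1)
      have := k1_split (hU0 q) (hW0 q) (hW4 q) htpos P
      refine this.trans (le_of_eq ?_)
      ring
    rw [integral_add (hWi.const_mul _) (hUi.const_mul _), integral_const_mul,
      integral_const_mul] at hle
    have hty : t * y = s * w ^ P := by
      rw [ht, ← hwP, pow_succ]
      field_simp
    have hts : s ^ (P + 1) / t ^ P = s * w ^ P := by
      rw [ht, div_pow, pow_succ]
      field_simp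
    calc _ ≤ _ := hle
      _ ≤ t * (4 * K ^ 2 * y) + 4 / t ^ P * (M * s ^ (P + 1)) := by gcongr
      _ = 4 * K ^ 2 * (t * y) + 4 * M * (s ^ (P + 1) / t ^ P) := by ring
      _ = (4 * K ^ 2 + 4 * M) * (s * w ^ P) := by rw [hty, hts]; ring

end Crest.Agent.FI
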