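import Mathlib
import Crest.Agent.FI.Ker1C

/-!
Stage (i) kernel bound: assembly.
-/

set_option autoImplicit false

namespace Crest.Agent.FI

open MeasureTheory ProbabilityTheory Set Filter Topology
open scoped ENNReal

theorem k1_sum {a : ℕ → ℝ≥0∞} {X Y r : ℝ} (hX : 0 ≤ X) (hY : 0 ≤ Y) (hr0 : 0 ≤ r) (hr1 : r < 1)
    (N : ℕ) (h1 : ∀ n < N + 1, a n ≤ ENNReal.ofReal X)
    (h2 : ∀ n, N + 1 ≤ n → a n ≤ ENNReal.ofReal (Y * r ^ (n - 1))) :
    ∑' n, a n ≤ ENNReal.ofReal ((N + 1) * X + Y * r ^ N / (1 - r)) := by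
  have hr : 0 < 1 - r := by linarith
  rw [← (ENNReal.summable (f := fun n => a (n + (N + 1)))).sum_add_tsum_nat_add']
  rw [ENNReal.ofReal_add (by positivity) (by positivity)]
  apply add_le_add
  · calc ∑ i ∈ Finset.range (N + 1), a i ≤ ∑ i ∈ Finset.range (N + 1), ENNReal.ofReal X :=
          Finset.sum_le_sum fun i hi => h1 i (Finset.mem_range.1 hi)
      _ = ENNReal.ofReal ((N + 1) * X) := by
          rw [Finset.sum_const, Finset.card_range, nsmul_eq_mul, ENNReal.ofReal_mul (by positivity)]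
          congr 1
          rw [← Nat.cast_succ, ENNReal.ofReal_natCast]
  · calc ∑' i, a (i + (N + 1)) ≤ ∑' i : ℕ, ENNReal.ofReal (Y * r ^ N * r ^ i) := by
          refine ENNReal.tsum_le_tsum fun i => ?_
          refine (h2 (i + (N + 1)) (by omega)).trans (le_of_eq ?_)
          rw [show i + (N + 1) - 1 = N + i by omega, pow_add]
          congr 1
          ring
      _ = ENNReal.ofReal (∑' i : ℕ, Y * r ^ N * r ^ i) := by
          rw [ENNReal.ofReal_tsum_of_nonneg (fun i => by positivity)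
            ((summable_geometric_of_lt_one hr0 hr1).mul_left _)]
      _ = ENNReal.ofReal (Y * r ^ N / (1 - r)) := by
          rw [tsum_mul_left, tsum_geometric_of_lt_one hr0 hr1]
          rfl

variable {V : Type*} (G : SimpleGraph V) [G.LocallyFinite]

theorem k1S_sub (D : ℕ) (θ B : ℝ) (q : (V → ℝ) × (V → ℝ)) (p : ℕ → V) (n : ℕ) :
    k1S G θ B q.1 p n - k1S G θ B q.2 p n
      = ∑ i ∈ Finset.range n, k1D G D (k1F θ B) θ q 0 (p (i + 1)) (p i) := by
  unfold k1S k1D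
  rw [← Finset.sum_sub_distrib]
  simp only [Av]

theorem k1_castD {d : ℕ} (hd : 3 ≤ d) (n : ℕ) :
    ((d - 1 : ℕ) : ℝ≥0∞) ^ n = ENNReal.ofReal (((d : ℝ) - 1) ^ n) := by
  have e : (d : ℝ) - 1 = ((d - 1 : ℕ) : ℝ) := by
    rw [Nat.cast_sub (by omega), Nat.cast_one]
  rw [e, ← Nat.cast_pow, ← Nat.cast_pow, ENNReal.ofReal_natCast]

theorem k1_lint {d : ℕ} (hd : 3 ≤ d) {Q : Measure ((V → ℝ) × (V → ℝ))} {n : ℕ}
    {f b : ((V → ℝ) × (V → ℝ)) → ℝ} (hb : Integrable b Q) (hb0 : ∀ q, 0 ≤ b q)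
    (h : ∀ᵐ q ∂Q, ((d : ℝ) - 1) ^ n * f q ≤ b q) :
    ((d - 1 : ℕ) : ℝ≥0∞) ^ n * ∫⁻ q, ENNReal.ofReal (f q) ∂Q ≤ ENNReal.ofReal (∫ q, b q ∂Q) := by
  have hD : (0 : ℝ) ≤ ((d : ℝ) - 1) ^ n := by
    have : (1 : ℝ) ≤ (d : ℝ) := by exact_mod_cast (by omega : 1 ≤ d)
    have : (0 : ℝ) ≤ (d : ℝ) - 1 := by linarith
    positivity
  rw [k1_castD hd, ← lintegral_const_mul' _ _ ENNReal.ofReal_ne_top,
    ofReal_integral_eq_lintegral_ofReal hb (Filter.Eventually.of_forall hb0)]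
  apply lintegral_mono_ae
  filter_upwards [h] with q hq
  rw [← ENNReal.ofReal_mul hD]
  exact ENNReal.ofReal_le_ofReal hq

/-- first bound of one term -/
theorem k1_term1 [Countable V] (hT : G.IsTree) {d : ℕ} (hd : 3 ≤ d) (hreg : G.IsRegularOfDegree d)
    {θ : ℝ} (h0 : 0 < θ) (h1 : θ < 1) (hcrit : θ ^ 2 * ((d : ℝ) - 1) = 1)
    {μ : Measure (V → Bool)} [IsProbabilityMeasure μ] (hμ : IsIsing G θ μ) {s : ℝ}
    {Q : Measure ((V → ℝ) × (V → ℝ))}
    (hgood : ∀ᵐ x ∂(fieldLaw μ (fun _ => rho 0 s)), Good G θ x)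
    (hQ : PairState G μ (rho 0 s) Q) {p : ℕ → V} (hp : IsRay G p) {V0 : ℝ} (hV0 : 0 ≤ V0)
    (hV : ∀ i j, G.Adj i j →
      ∫ q, (k1D G (d - 1) (k1F θ (k1B (k1L θ d))) θ q 0 i j) ^ 2 ∂Q ≤ V0) (n m0 : ℕ) :
    ((d - 1 : ℕ) : ℝ≥0∞) ^ n * ∫⁻ q, ENNReal.ofReal (kker G θ p n q) ∂Q
      ≤ ENNReal.ofReal (9 * yy G θ Q (p 0)
        + 2 * (2 * n * m0 * V0 + n ^ 2 * (4 * (k1B (k1L θ d)) ^ 2 * θ ^ m0))) := by
  have := hQ.prob
  set L := k1L θ d with hL
  have hadj : ∀ i, G.Adj (p (i + 1)) (p i) := fun i => ((hp (i + 1)).1 i (by omega)).symm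
  have hsec := k1_second G hT hd hreg h0 h1 hcrit hμ hgood (k1F_meas θ (k1B L))
    (k1F_even θ (k1B L)) (k1F_abs (k1B_nonneg L) θ) hQ hp hV0 hV n m0
  have hSi : Integrable (fun q => (∑ i ∈ Finset.range n,
      k1D G (d - 1) (k1F θ (k1B L)) θ q 0 (p (i + 1)) (p i)) ^ 2) Q := by
    have : Integrable (fun q => ∑ i ∈ Finset.range n, ∑ j ∈ Finset.range n,
        k1D G (d - 1) (k1F θ (k1B L)) θ q 0 (p (i + 1)) (p i)
          * k1D G (d - 1) (k1F θ (k1B L)) θ q 0 (p (j + 1)) (p j)) Q :=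
      integrable_finsetSum _ fun i _ => integrable_finsetSum _ fun j _ =>
        k1D_mul_integrable G hd hreg (k1F_meas θ (k1B L)) (k1F_abs (k1B_nonneg L) θ) θ 0 0
          (hadj i) (hadj j)
    refine this.congr (Filter.Eventually.of_forall fun q => ?_)
    show _ = (∑ i ∈ Finset.range n,
      k1D G (d - 1) (k1F θ (k1B L)) θ q 0 (p (i + 1)) (p i)) ^ 2
    rw [sq, Finset.sum_mul_sum]
  have i0 := (k1_dsq_int G θ Q (p 0)).const_mul 8
  have i1 := hSi.const_mul 2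
  have i2 := k1_dsq_int G θ Q (p n)
  have hae := k1_ae G hgood hQ
  refine (k1_lint hd (b := fun q => 8 * (mm G θ q.1 (p 0) - mm G θ q.2 (p 0)) ^ 2
      + 2 * (∑ i ∈ Finset.range n,
        k1D G (d - 1) (k1F θ (k1B L)) θ q 0 (p (i + 1)) (p i)) ^ 2
      + (mm G θ q.1 (p n) - mm G θ q.2 (p n)) ^ 2) ((i0.add i1).add i2)
      (fun q => by positivity) ?_).trans ?_
  · filter_upwards [hae] with q hq
    rw [← k1S_sub]
    exact k1_kker G h0.le h1 hcrit (fun i j => hl_bound G h0.le h1 hreg hq.1.2 i j)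
      (fun i j => hl_bound G h0.le h1 hreg hq.2.2 i j) p n
  · apply ENNReal.ofReal_le_ofReal
    have e1 : ∫ q, (8 * (mm G θ q.1 (p 0) - mm G θ q.2 (p 0)) ^ 2
      + 2 * (∑ i ∈ Finset.range n,
        k1D G (d - 1) (k1F θ (k1B L)) θ q 0 (p (i + 1)) (p i)) ^ 2
      + (mm G θ q.1 (p n) - mm G θ q.2 (p n)) ^ 2) ∂Q
      = 8 * yy G θ Q (p 0) + 2 * (∫ q, (∑ i ∈ Finset.range n,
        k1D G (d - 1) (k1F θ (k1B L)) θ q 0 (p (i + 1)) (p i)) ^ 2 ∂Q) + yy G θ Q (p n) := by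
      have a1 : ∫ q, (8 * (mm G θ q.1 (p 0) - mm G θ q.2 (p 0)) ^ 2
          + 2 * (∑ i ∈ Finset.range n,
            k1D G (d - 1) (k1F θ (k1B L)) θ q 0 (p (i + 1)) (p i)) ^ 2
          + (mm G θ q.1 (p n) - mm G θ q.2 (p n)) ^ 2) ∂Q
          = ∫ q, (8 * (mm G θ q.1 (p 0) - mm G θ q.2 (p 0)) ^ 2
          + 2 * (∑ i ∈ Finset.range n,
            k1D G (d - 1) (k1F θ (k1B L)) θ q 0 (p (i + 1)) (p i)) ^ 2) ∂Q
          + ∫ q, (mm G θ q.1 (p n) - mm G θ q.2 (p n)) ^ 2 ∂Q := integral_add (i0.add i1) i2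
      rw [a1, integral_add i0 i1, integral_const_mul, integral_const_mul]
      rfl
    rw [e1, yy_const G hT hd hreg θ hQ (p n) (p 0)]
    linarith

/-- second bound of one term -/
theorem k1_term2 [Countable V] (hT : G.IsTree) {d : ℕ} (hd : 3 ≤ d)
    {θ : ℝ} (h0 : 0 < θ) (h1 : θ < 1) (hcrit : θ ^ 2 * ((d : ℝ) - 1) = 1)
    {μ : Measure (V → Bool)} [IsProbabilityMeasure μ] {s : ℝ}
    {Q : Measure ((V → ℝ) × (V → ℝ))}
    (hgood : ∀ᵐ x ∂(fieldLaw μ (fun _ => rho 0 s)), Good G θ x)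
    (hQ : PairState G μ (rho 0 s) Q) {p : ℕ → V} (hp : IsRay G p) {c : ℝ} (hc : 0 ≤ c)
    (hc1 : c ≤ 1) (hk : KillR G θ μ (fun _ => rho 0 s) c) (n : ℕ) :
    ((d - 1 : ℕ) : ℝ≥0∞) ^ n * ∫⁻ q, ENNReal.ofReal (kker G θ p n q) ∂Q
      ≤ ENNReal.ofReal (12 * (1 - c) ^ (n - 1)) := by
  have := hQ.prob
  have hWm : Measurable (fun x : V → ℝ => k1W G θ x p n) := by
    unfold k1W
    exact Finset.measurable_prod _ fun i _ => Real.measurable_exp.comp
      (((measurable_al G θ _ _).pow_const 2).const_mul _).neg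
  have hWi : ∀ (ν : Measure (V → ℝ)) [IsProbabilityMeasure ν],
      Integrable (fun x : V → ℝ => k1W G θ x p n) ν := by
    intro ν _
    refine Integrable.of_bound (C := 1) hWm.aestronglyMeasurable
      (Filter.Eventually.of_forall fun x => ?_)
    rw [Real.norm_eq_abs, abs_of_nonneg (k1W_nonneg G θ x p n)]
    exact k1W_le_one G h0.le h1 x p n
  have hWi1 : Integrable (fun q : (V → ℝ) × (V → ℝ) => k1W G θ q.1 p n) Q := by
    refine Integrable.of_bound (C := 1) (hWm.comp measurable_fst).aestronglyMeasurable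
      (Filter.Eventually.of_forall fun q => ?_)
    rw [Real.norm_eq_abs, abs_of_nonneg (k1W_nonneg G θ q.1 p n)]
    exact k1W_le_one G h0.le h1 q.1 p n
  have hWi2 : Integrable (fun q : (V → ℝ) × (V → ℝ) => k1W G θ q.2 p n) Q := by
    refine Integrable.of_bound (C := 1) (hWm.comp measurable_snd).aestronglyMeasurable
      (Filter.Eventually.of_forall fun q => ?_)
    rw [Real.norm_eq_abs, abs_of_nonneg (k1W_nonneg G θ q.2 p n)]
    exact k1W_le_one G h0.le h1 q.2 p n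
  have e1 : ∫ q, k1W G θ q.1 p n ∂Q = ∫ x, k1W G θ x p n ∂(fieldLaw μ (fun _ => rho 0 s)) := by
    rw [← hQ.fst, integral_map measurable_fst.aemeasurable hWm.aestronglyMeasurable]
  have e2 : ∫ q, k1W G θ q.2 p n ∂Q = ∫ x, k1W G θ x p n ∂(fieldLaw μ (fun _ => rho 0 s)) := by
    rw [← hQ.snd, integral_map measurable_snd.aemeasurable hWm.aestronglyMeasurable]
  have hkill : ∫ x, k1W G θ x p n ∂(fieldLaw μ (fun _ => rho 0 s)) ≤ (1 - c) ^ (n - 1) := by
    rcases n with _ | n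
    · have : ∀ x : V → ℝ, k1W G θ x p 0 = 1 := fun x => by simp [k1W]
      simp [this]
    · rw [Nat.add_sub_cancel]
      exact kill_path G hT h0.le h1 (fun _ => rho 0 s) hgood hc hc1 hk p n (hp (n + 1))
  refine (k1_lint hd (b := fun q => 6 * (k1W G θ q.1 p n + k1W G θ q.2 p n))
      ((hWi1.add hWi2).const_mul 6)
      (fun q => by
        have := k1W_nonneg G θ q.1 p n
        have := k1W_nonneg G θ q.2 p n
        positivity) ?_).trans ?_
  · exact Filter.Eventually.of_forall fun q => k1_kker' G h0.le h1 hcrit q p n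
  · apply ENNReal.ofReal_le_ofReal
    rw [integral_const_mul, integral_add hWi1 hWi2, e1, e2]
    linarith

/-- real inequality: long paths -/
theorem k1_realA {s R lam κ Cv z y B θ : ℝ} {N m0 : ℕ} (hs0 : 0 < s) (hs1 : s ≤ 1 / 2) (hR : 1 ≤ R)
    (hlam : 0 < lam) (hκ : 0 < κ) (hCv : 0 < Cv) (hz : 0 ≤ z) (hy0 : 0 ≤ y) (hyz : y ≤ 4 * z)
    (hθ0 : 0 < θ) (hN1 : R / s ≤ N) (hN2 : (N : ℝ) ≤ R / s + 1) (hm1 : R ≤ m0)
    (hm2 : (m0 : ℝ) ≤ R + 1) (hθ : θ = Real.exp (-lam)) (hκs : κ * s ≤ 1)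
    (hA : Real.exp (-(lam * R / 4)) ≤ s) :
    s * (((N : ℝ) + 1) * (2 * (9 * y
        + 2 * (2 * N * m0 * (Cv * (s * z)) + N ^ 2 * (4 * B ^ 2 * θ ^ m0))))
        + 24 * (1 - κ * s) ^ N / (1 - (1 - κ * s)))
      ≤ (144 + 64 * Cv + 512 * B ^ 2 / lam + 24 / κ) * (R ^ 3 * z
        + R ^ 2 / s * Real.exp (-(min (lam / 4) κ * R))) := by
  have hRs : 2 ≤ R / s := by
    rw [le_div_iff₀ hs0]; nlinarith
  have hNs : s * ((N : ℝ) + 1) ≤ 2 * R := by
    have h1 : (N : ℝ) + 1 ≤ 2 * (R / s) := by linarith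
    calc s * ((N : ℝ) + 1) ≤ s * (2 * (R / s)) := mul_le_mul_of_nonneg_left h1 hs0.le
      _ = 2 * R := by field_simp
  have hNle : (N : ℝ) ≤ 2 * (R / s) := by linarith
  have hm : (m0 : ℝ) ≤ 2 * R := by linarith
  have hN0 : (0 : ℝ) ≤ N := Nat.cast_nonneg N
  have hm00 : (0 : ℝ) ≤ m0 := Nat.cast_nonneg m0
  have hR0 : 0 < R := by linarith
  set E : ℝ := Real.exp (-(min (lam / 4) κ * R)) with hE
  have hE0 : 0 < E := Real.exp_pos _
  have hR3 : R ≤ R ^ 3 := by nlinarith [mul_self_nonneg (R - 1), mul_pos hR0 hR0]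
  -- the four contributions
  have t1 : s * (((N : ℝ) + 1) * (2 * (9 * y))) ≤ 144 * (R ^ 3 * z) := by
    calc s * (((N : ℝ) + 1) * (2 * (9 * y))) = (s * ((N : ℝ) + 1)) * (18 * y) := by ring
      _ ≤ (2 * R) * (18 * y) := mul_le_mul_of_nonneg_right hNs (by positivity)
      _ ≤ (2 * R) * (18 * (4 * z)) := by gcongr
      _ = 144 * (R * z) := by ring
      _ ≤ 144 * (R ^ 3 * z) := by gcongr
  have t2 : s * (((N : ℝ) + 1) * (2 * (2 * (2 * N * m0 * (Cv * (s * z))))))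
      ≤ 64 * Cv * (R ^ 3 * z) := by
    calc s * (((N : ℝ) + 1) * (2 * (2 * (2 * N * m0 * (Cv * (s * z))))))
        = (s * ((N : ℝ) + 1)) * (8 * (N * s) * m0 * (Cv * z)) := by ring
      _ ≤ (2 * R) * (8 * (2 * R) * (2 * R) * (Cv * z)) := by
          have h5 : (N : ℝ) * s ≤ 2 * R := by nlinarith
          have h6 : 0 ≤ Cv * z := by positivity
          have h7 : (N : ℝ) * s * m0 ≤ (2 * R) * (2 * R) :=
            mul_le_mul h5 hm hm00 (by positivity)
          have h8 : 8 * ((N : ℝ) * s) * m0 * (Cv * z) ≤ 8 * (2 * R) * (2 * R) * (Cv * z) := by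
            have := mul_le_mul_of_nonneg_right h7 h6
            nlinarith
          exact mul_le_mul hNs h8 (by positivity) (by positivity)
      _ = 64 * Cv * (R ^ 3 * z) := by ring
  have hθm : θ ^ m0 ≤ Real.exp (-(lam * R)) := by
    rw [hθ, ← Real.exp_nat_mul]
    apply Real.exp_le_exp.2
    nlinarith
  have t3 : s * (((N : ℝ) + 1) * (2 * (2 * (N ^ 2 * (4 * B ^ 2 * θ ^ m0)))))
      ≤ 512 * B ^ 2 / lam * (R ^ 2 / s * E) := by
    have h5 : (N : ℝ) ^ 2 ≤ (2 * (R / s)) ^ 2 := pow_le_pow_left₀ hN0 hNle 2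
    have h6 : R * Real.exp (-(lam * R / 4)) ≤ 4 / lam := by
      have h7 := Real.add_one_le_exp (lam * R / 4)
      have h8 : lam * R / 4 ≤ Real.exp (lam * R / 4) := by linarith
      rw [Real.exp_neg, ← div_eq_mul_inv, div_le_div_iff₀ (Real.exp_pos _) hlam]
      linarith
    have h9 : Real.exp (-(lam * R)) = Real.exp (-(lam * R / 4)) * Real.exp (-(lam * R / 4))
        * (Real.exp (-(lam * R / 4)) * Real.exp (-(lam * R / 4))) := by
      rw [← Real.exp_add, ← Real.exp_add]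
      congr 1
      ring
    have h10 : Real.exp (-(lam * R / 4)) * Real.exp (-(lam * R / 4)) ≤ E := by
      rw [← Real.exp_add, hE]
      apply Real.exp_le_exp.2
      have h11 : min (lam / 4) κ ≤ lam / 4 := min_le_left _ _
      have h12 : min (lam / 4) κ * R ≤ lam / 4 * R := mul_le_mul_of_nonneg_right h11 hR0.le
      have h13 : 0 ≤ lam * R := by positivity
      linarith
    set e := Real.exp (-(lam * R / 4)) with he
    have he0 : 0 < e := Real.exp_pos _
    calc s * (((N : ℝ) + 1) * (2 * (2 * (N ^ 2 * (4 * B ^ 2 * θ ^ m0)))))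
        = (s * ((N : ℝ) + 1)) * ((N : ℝ) ^ 2 * (16 * B ^ 2 * θ ^ m0)) := by ring
      _ ≤ (2 * R) * ((2 * (R / s)) ^ 2 * (16 * B ^ 2 * (e * e * (e * e)))) := by
          rw [← h9]
          have hθ00 : 0 ≤ θ ^ m0 := by positivity
          gcongr
      _ = 128 * B ^ 2 * (R ^ 2 / s) * (R * e) * (e / s) * (e * e) := by
          field_simp
          ring
      _ ≤ 128 * B ^ 2 * (R ^ 2 / s) * (4 / lam) * 1 * E := by
          have h14 : e / s ≤ 1 := by rw [div_le_one hs0]; exact hA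
          have h15 : 0 ≤ e / s := by positivity
          have hR2 : 0 ≤ R ^ 2 / s := by positivity
          gcongr
      _ = 512 * B ^ 2 / lam * (R ^ 2 / s * E) := by ring
  have hRs1 : 1 ≤ R ^ 2 / s := by
    rw [le_div_iff₀ hs0]; nlinarith
  have t4 : s * (24 * (1 - κ * s) ^ N / (1 - (1 - κ * s))) ≤ 24 / κ * (R ^ 2 / s * E) := by
    have h5 : (1 - κ * s) ^ N ≤ E := by
      have h6 : (1 - κ * s) ≤ Real.exp (-(κ * s)) := by
        have := Real.add_one_le_exp (-(κ * s))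
        linarith
      calc (1 - κ * s) ^ N ≤ (Real.exp (-(κ * s))) ^ N :=
            pow_le_pow_left₀ (by linarith) h6 N
        _ = Real.exp (-(κ * (s * N))) := by
            rw [← Real.exp_nat_mul]
            congr 1
            ring
        _ ≤ E := by
            apply Real.exp_le_exp.2
            have h7 : R ≤ s * N := by
              rw [div_le_iff₀ hs0] at hN1
              linarith
            have h8 : min (lam / 4) κ ≤ κ := min_le_right _ _
            have h9 : min (lam / 4) κ * R ≤ κ * R := mul_le_mul_of_nonneg_right h8 hR0.le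
            have h10 : κ * R ≤ κ * (s * N) := mul_le_mul_of_nonneg_left h7 hκ.le
            linarith
    calc s * (24 * (1 - κ * s) ^ N / (1 - (1 - κ * s))) = 24 / κ * (1 - κ * s) ^ N := by
          have : 1 - (1 - κ * s) = κ * s := by ring
          rw [this]
          field_simp
      _ ≤ 24 / κ * E := mul_le_mul_of_nonneg_left h5 (by positivity)
      _ = 24 / κ * (1 * E) := by ring
      _ ≤ 24 / κ * (R ^ 2 / s * E) := by gcongr
  have hz3 : 0 ≤ R ^ 3 * z := by positivity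
  have hE3 : 0 ≤ R ^ 2 / s * E := by positivity
  have c1 : 0 ≤ 64 * Cv := by positivity
  have c2 : 0 ≤ 512 * B ^ 2 / lam := by positivity
  have c3 : 0 ≤ 24 / κ := by positivity
  calc _ = s * (((N : ℝ) + 1) * (2 * (9 * y)))
        + s * (((N : ℝ) + 1) * (2 * (2 * (2 * N * m0 * (Cv * (s * z))))))
        + s * (((N : ℝ) + 1) * (2 * (2 * (N ^ 2 * (4 * B ^ 2 * θ ^ m0)))))
        + s * (24 * (1 - κ * s) ^ N / (1 - (1 - κ * s))) := by ring
    _ ≤ 144 * (R ^ 3 * z) + 64 * Cv * (R ^ 3 * z) + 512 * B ^ 2 / lam * (R ^ 2 / s * E)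
        + 24 / κ * (R ^ 2 / s * E) := by linarith
    _ ≤ _ := by
        rw [mul_add, add_mul, add_mul, add_mul, add_mul, add_mul, add_mul]
        have := mul_nonneg c1 hE3
        have := mul_nonneg c2 hz3
        have := mul_nonneg c3 hz3
        linarith

/-- real inequality: short paths (trivial bound) -/
theorem k1_realB {s R lam κ z : ℝ} (hs0 : 0 < s) (hs1 : s ≤ 1 / 2) (hR : 1 ≤ R)
    (hκ : 0 < κ) (hz : 0 ≤ z) (hκs : κ * s ≤ 1)
    (hA : s < Real.exp (-(lam * R / 4))) :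
    s * ((((0 : ℕ) : ℝ) + 1) * 24 + 24 * (1 - κ * s) ^ 0 / (1 - (1 - κ * s)))
      ≤ (24 + 24 / κ) * (R ^ 3 * z
        + R ^ 2 / s * Real.exp (-(min (lam / 4) κ * R))) := by
  have hR0 : 0 < R := by linarith
  set E : ℝ := Real.exp (-(min (lam / 4) κ * R)) with hE
  have hE0 : 0 < E := Real.exp_pos _
  have h1 : s ≤ E := by
    refine hA.le.trans ?_
    apply Real.exp_le_exp.2
    have h8 : min (lam / 4) κ ≤ lam / 4 := min_le_left _ _
    have h9 : min (lam / 4) κ * R ≤ lam / 4 * R := mul_le_mul_of_nonneg_right h8 hR0.le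
    linarith
  have h2 : 1 ≤ R ^ 2 / s * E := by
    rw [div_mul_eq_mul_div, le_div_iff₀ hs0, one_mul]
    have h3 : 1 ≤ R ^ 2 := by nlinarith
    calc s ≤ 1 * E := by rw [one_mul]; exact h1
      _ ≤ R ^ 2 * E := mul_le_mul_of_nonneg_right h3 hE0.le
  have e : s * ((((0 : ℕ) : ℝ) + 1) * 24 + 24 * (1 - κ * s) ^ 0 / (1 - (1 - κ * s)))
      = 24 * s + 24 / κ := by
    have : 1 - (1 - κ * s) = κ * s := by ring
    rw [this]
    push_cast
    field_simp
    ring
  rw [e]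
  have hz3 : 0 ≤ R ^ 3 * z := by positivity
  have c3 : 0 < 24 / κ := by positivity
  calc 24 * s + 24 / κ ≤ (24 + 24 / κ) * 1 := by linarith
    _ ≤ (24 + 24 / κ) * (R ^ 3 * z + R ^ 2 / s * E) := by
        apply mul_le_mul_of_nonneg_left _ (by positivity)
        linarith

/-- stage (i) kernel bound in round 0 at the threshold, by decorrelation -/
theorem ker1 [Countable V] (hT : G.IsTree) {d : ℕ} (hd : 3 ≤ d) (hreg : G.IsRegularOfDegree d)
    {θ : ℝ} (h0 : 0 < θ) (h1 : θ < 1) (hcrit : θ ^ 2 * ((d : ℝ) - 1) = 1)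
    {μ : Measure (V → Bool)} [IsProbabilityMeasure μ] (hμ : IsIsing G θ μ) :
    ∃ c0 : ℝ, 0 < c0 ∧ ∀ P : ℕ, 1 ≤ P → ∃ C : ℝ, 0 < C ∧
      ∀ (s : ℝ) (Q : Measure ((V → ℝ) × (V → ℝ))), 0 < s → s ≤ 1 / 2 →
      (∀ᵐ x ∂(fieldLaw μ (fun _ => rho 0 s)), Good G θ x) → PairState G μ (rho 0 s) Q →
      ∀ (p : ℕ → V), IsRay G p → ∀ R : ℝ, 1 ≤ R →
      ENNReal.ofReal s * KK G θ (d - 1) p Q
        ≤ ENNReal.ofReal (C * (R ^ 3 * (yy G θ Q (p 0)) ^ (1 - 1 / (P : ℝ))
            + R ^ 2 / s * Real.exp (-(c0 * R)))) := by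
  obtain ⟨ck, hck, hck2, hkill⟩ := killR_q G hT hd hreg h0 h1 hμ
  obtain ⟨cq, hcq, hql⟩ := q_lower G hT hd hreg h0 h1 hcrit hμ
  obtain ⟨cr, hcr, hrl⟩ := rho_S_lower
  set lam : ℝ := -Real.log θ with hlam
  have hlampos : 0 < lam := by
    rw [hlam]
    have := Real.log_neg h0 h1
    linarith
  have hθexp : θ = Real.exp (-lam) := by
    rw [hlam, neg_neg, Real.exp_log h0]
  set κ : ℝ := ck * (cq * √cr) with hκ
  have hκpos : 0 < κ := by
    have := Real.sqrt_pos.2 hcr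
    positivity
  refine ⟨min (lam / 4) κ, lt_min (by positivity) hκpos, ?_⟩
  intro P hP
  obtain ⟨Cv, hCv, hvar⟩ := k1_var G hT hd hreg h0 h1 hcrit.le hμ P
  set B : ℝ := k1B (k1L θ d) with hB
  set Cc : ℝ := (144 + 64 * (4 * Cv) + 512 * B ^ 2 / lam + 24 / κ) + (24 + 24 / κ) with hCc
  have hCc0 : 0 < Cc := by positivity
  refine ⟨Cc, hCc0, ?_⟩
  intro s Q hs0 hs1 hgood hQ p hp R hR
  have := hQ.prob
  have hadj : ∀ i, G.Adj (p (i + 1)) (p i) := fun i => ((hp (i + 1)).1 i (by omega)).symm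
  have hch : Chan (rho 0 s) 1 := by simpa using chan_rho 0 s
  -- the message second moment
  have hq0 : ∀ i j, G.Adj i j → cq * √cr * s
      ≤ ∫ x, al G θ x i j ^ 2 ∂(fieldLaw μ (fun _ => rho 0 s)) := by
    intro i j hij
    refine le_trans ?_ (hql (rho 0 s) 1 hch hgood i j hij)
    rw [mul_assoc]
    apply mul_le_mul_of_nonneg_left _ hcq.le
    have h3 : √cr * s = √(cr * s ^ 2) := by
      rw [Real.sqrt_mul hcr.le, Real.sqrt_sq hs0.le]
    rw [h3]
    exact Real.sqrt_le_sqrt (hrl s hs0.le hs1)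
  have hκs0 : 0 ≤ cq * √cr * s := by positivity
  have hkr := hkill (rho 0 s) 1 hch hgood (cq * √cr * s) hκs0 hq0
  have hκse : ck * (cq * √cr * s) = κ * s := by rw [hκ]; ring
  rw [hκse] at hkr
  have hκs : κ * s ≤ 1 := by
    have h3 := hq0 _ _ (hadj 0)
    have h4 : ∫ x, al G θ x (p 1) (p 0) ^ 2 ∂(fieldLaw μ (fun _ => rho 0 s)) ≤ 1 := by
      calc _ ≤ ∫ _, (1 : ℝ) ∂(fieldLaw μ (fun _ : V => rho 0 s)) := by
            apply integral_mono_of_nonneg (Filter.Eventually.of_forall fun _ => sq_nonneg _)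
              (integrable_const _)
            refine Filter.Eventually.of_forall fun x => ?_
            show al G θ x (p 1) (p 0) ^ 2 ≤ 1
            have := k1_al_abs G θ x (p 1) (p 0)
            rw [← sq_abs]
            nlinarith [abs_nonneg (al G θ x (p 1) (p 0))]
        _ = 1 := by simp
    have h5 : cq * √cr * s ≤ 1 := by
      have : (p (0 + 1)) = p 1 := rfl
      exact h3.trans h4
    rw [← hκse]
    calc ck * (cq * √cr * s) ≤ 1 / 2 * 1 := mul_le_mul hck2 h5 hκs0 (by norm_num)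
      _ ≤ 1 := by norm_num
  have hκs00 : 0 < κ * s := by positivity
  -- exponents
  set y := yy G θ Q (p 0) with hy
  have hy0 : 0 ≤ y := k1_yy_nonneg G θ Q _
  have hy4 : y ≤ 4 := k1_yy_le G θ Q _
  have hP1 : (1 : ℝ) ≤ P := by exact_mod_cast hP
  set z : ℝ := y ^ (1 - 1 / (P : ℝ)) with hz
  have hz0 : 0 ≤ z := Real.rpow_nonneg hy0 _
  have hyz : y ≤ 4 * z := by
    rcases hy0.eq_or_lt with h | h
    · rw [← h]; positivity
    · have e : y = y ^ (1 / (P : ℝ)) * z := by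
        rw [hz, ← Real.rpow_add h]
        simp
      have h5 : y ^ (1 / (P : ℝ)) ≤ 4 := by
        calc y ^ (1 / (P : ℝ)) ≤ 4 ^ (1 / (P : ℝ)) :=
              Real.rpow_le_rpow hy0 hy4 (by positivity)
          _ ≤ 4 ^ (1 : ℝ) := by
              apply Real.rpow_le_rpow_of_exponent_le (by norm_num)
              rw [div_le_one (by linarith)]
              exact hP1
          _ = 4 := Real.rpow_one 4
      calc y = y ^ (1 / (P : ℝ)) * z := e
        _ ≤ 4 * z := mul_le_mul_of_nonneg_right h5 hz0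
  have hyz' : y ^ (1 - 1 / ((P : ℝ) + 1)) ≤ 4 * z := by
    rcases hy0.eq_or_lt with h | h
    · rw [← h, Real.zero_rpow]
      · positivity
      · have : 1 / ((P : ℝ) + 1) < 1 := by
          rw [div_lt_one (by linarith)]
          linarith
        linarith
    · have e : y ^ (1 - 1 / ((P : ℝ) + 1)) = y ^ (1 / (P : ℝ) - 1 / ((P : ℝ) + 1)) * z := by
        rw [hz, ← Real.rpow_add h]
        congr 1
        ring
      have h6 : 1 / ((P : ℝ) + 1) ≤ 1 / (P : ℝ) :=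
        one_div_le_one_div_of_le (by linarith) (by linarith)
      have h7 : 1 / (P : ℝ) ≤ 1 := by
        rw [div_le_one (by linarith)]
        exact hP1
      have h8 : 0 ≤ 1 / ((P : ℝ) + 1) := by positivity
      have h5 : y ^ (1 / (P : ℝ) - 1 / ((P : ℝ) + 1)) ≤ 4 := by
        calc y ^ (1 / (P : ℝ) - 1 / ((P : ℝ) + 1)) ≤ 4 ^ (1 / (P : ℝ) - 1 / ((P : ℝ) + 1)) :=
              Real.rpow_le_rpow hy0 hy4 (by linarith)
          _ ≤ 4 ^ (1 : ℝ) := by
              apply Real.rpow_le_rpow_of_exponent_le (by norm_num)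
              linarith
          _ = 4 := Real.rpow_one 4
      rw [e]
      exact mul_le_mul_of_nonneg_right h5 hz0
  -- variance
  have hV : ∀ i j, G.Adj i j →
      ∫ q, (k1D G (d - 1) (k1F θ (k1B (k1L θ d))) θ q 0 i j) ^ 2 ∂Q ≤ 4 * Cv * (s * z) := by
    intro i j hij
    refine (hvar s Q hs0 hs1 hgood hQ i j (p 0) hij).trans ?_
    calc Cv * (s * y ^ (1 - 1 / ((P : ℝ) + 1))) ≤ Cv * (s * (4 * z)) := by gcongr
      _ = 4 * Cv * (s * z) := by ring
  have hV0 : 0 ≤ 4 * Cv * (s * z) := by positivity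
  -- terms
  have hKK : KK G θ (d - 1) p Q
      = ∑' n : ℕ, 2 * (((d - 1 : ℕ) : ℝ≥0∞) ^ n * ∫⁻ q, ENNReal.ofReal (kker G θ p n q) ∂Q) := by
    unfold KK
    refine tsum_congr fun n => ?_
    rw [mul_assoc]
  have two : (2 : ℝ≥0∞) = ENNReal.ofReal 2 := by simp
  have hb2 : ∀ n, 2 * (((d - 1 : ℕ) : ℝ≥0∞) ^ n * ∫⁻ q, ENNReal.ofReal (kker G θ p n q) ∂Q)
      ≤ ENNReal.ofReal (24 * (1 - κ * s) ^ (n - 1)) := by
    intro n
    have h3 := k1_term2 G hT hd h0 h1 hcrit hgood hQ hp hκs00.le hκs hkr n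
    calc _ ≤ 2 * ENNReal.ofReal (12 * (1 - κ * s) ^ (n - 1)) := by gcongr
      _ = _ := by
          rw [two, ← ENNReal.ofReal_mul (by norm_num)]
          congr 1
          ring
  have hr0 : 0 ≤ 1 - κ * s := by linarith
  have hr1 : 1 - κ * s < 1 := by linarith
  rcases lt_or_ge s (Real.exp (-(lam * R / 4))) with hcase | hcase
  · -- trivial bound
    have hsum := k1_sum (X := 24) (Y := 24) (by norm_num) (by norm_num) hr0 hr1 0
      (a := fun n => 2 * (((d - 1 : ℕ) : ℝ≥0∞) ^ n * ∫⁻ q, ENNReal.ofReal (kker G θ p n q) ∂Q))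
      (fun n hn => by
        have : n = 0 := by omega
        subst this
        have := hb2 0
        simpa using this)
      (fun n _ => hb2 n)
    rw [hKK]
    calc ENNReal.ofReal s * _ ≤ ENNReal.ofReal s * _ := mul_le_mul_right hsum _
      _ = ENNReal.ofReal (s * ((((0 : ℕ) : ℝ) + 1) * 24
          + 24 * (1 - κ * s) ^ 0 / (1 - (1 - κ * s)))) := by
          rw [← ENNReal.ofReal_mul hs0.le]
      _ ≤ _ := by
          apply ENNReal.ofReal_le_ofReal
          refine (k1_realB hs0 hs1 hR hκpos hz0 hκs hcase).trans ?_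
          apply mul_le_mul_of_nonneg_right
          · rw [hCc]
            have : 0 ≤ 144 + 64 * (4 * Cv) + 512 * B ^ 2 / lam + 24 / κ := by positivity
            linarith
          · have : 0 ≤ R := by linarith
            positivity
  · -- main case
    set N : ℕ := ⌈R / s⌉₊ with hN
    set m0 : ℕ := ⌈R⌉₊ with hm0
    have hRs : 0 ≤ R / s := by
      have : 0 ≤ R := by linarith
      positivity
    have hN1 : R / s ≤ N := Nat.le_ceil _
    have hN2 : (N : ℝ) ≤ R / s + 1 := (Nat.ceil_lt_add_one hRs).le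
    have hm1 : R ≤ m0 := Nat.le_ceil _
    have hm2 : (m0 : ℝ) ≤ R + 1 := (Nat.ceil_lt_add_one (by linarith)).le
    set X : ℝ := 2 * (9 * y
        + 2 * (2 * N * m0 * (4 * Cv * (s * z)) + N ^ 2 * (4 * B ^ 2 * θ ^ m0))) with hX
    have hX0 : 0 ≤ X := by positivity
    have hsum := k1_sum (X := X) (Y := 24) hX0 (by norm_num) hr0 hr1 N
      (a := fun n => 2 * (((d - 1 : ℕ) : ℝ≥0∞) ^ n * ∫⁻ q, ENNReal.ofReal (kker G θ p n q) ∂Q))
      (fun n hn => by
        have h3 := k1_term1 G hT hd hreg h0 h1 hcrit hμ hgood hQ hp hV0 hV n m0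
        calc 2 * (((d - 1 : ℕ) : ℝ≥0∞) ^ n * ∫⁻ q, ENNReal.ofReal (kker G θ p n q) ∂Q)
            ≤ 2 * ENNReal.ofReal (9 * y
              + 2 * (2 * n * m0 * (4 * Cv * (s * z)) + n ^ 2 * (4 * B ^ 2 * θ ^ m0))) := by
              gcongr
          _ = ENNReal.ofReal (2 * (9 * y
              + 2 * (2 * n * m0 * (4 * Cv * (s * z)) + n ^ 2 * (4 * B ^ 2 * θ ^ m0)))) := by
              rw [two, ← ENNReal.ofReal_mul (by norm_num)]
          _ ≤ ENNReal.ofReal X := by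
              apply ENNReal.ofReal_le_ofReal
              rw [hX]
              have hnN : (n : ℝ) ≤ N := by exact_mod_cast (by omega : n ≤ N)
              have hn0 : (0 : ℝ) ≤ n := Nat.cast_nonneg n
              gcongr)
      (fun n _ => hb2 n)
    rw [hKK]
    calc ENNReal.ofReal s * _ ≤ ENNReal.ofReal s * _ := mul_le_mul_right hsum _
      _ = ENNReal.ofReal (s * (((N : ℝ) + 1) * X + 24 * (1 - κ * s) ^ N / (1 - (1 - κ * s)))) := by
          rw [← ENNReal.ofReal_mul hs0.le]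
      _ ≤ _ := by
          apply ENNReal.ofReal_le_ofReal
          refine (k1_realA (Cv := 4 * Cv) (B := B) hs0 hs1 hR hlampos hκpos (by positivity) hz0 hy0
            hyz h0 hN1 hN2 hm1 hm2 hθexp hκs hcase).trans ?_
          apply mul_le_mul_of_nonneg_right
          · rw [hCc]
            have : 0 ≤ 24 + 24 / κ := by positivity
            linarith
          · have : 0 ≤ R := by linarith
            positivity

end Crest.Agent.FI
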