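import Mathlib
import Crest.Agent.FI.Defs
import Crest.Agent.FI.Real
import Crest.Agent.FI.Alg
import Crest.Agent.FI.Ker2A

/-!
Pointwise bound of the kernel.
-/

set_option autoImplicit false

namespace Crest.Agent.FI

open MeasureTheory ProbabilityTheory Set Filter Topology
open scoped ENNReal

variable {V : Type*} (G : SimpleGraph V) [G.LocallyFinite]

/-- real edge weight -/
noncomputable def wr (θ : ℝ) (x : V → ℝ) (c i : V) : ℝ :=
  θ ^ 2 * Real.exp (-(kap θ * al G θ x c i ^ 2))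

/-- real weight of a path -/
noncomputable def Wr (θ : ℝ) (x : V → ℝ) (p : ℕ → V) (n : ℕ) : ℝ :=
  ∏ i ∈ Finset.range n, wr G θ x (p (i + 1)) (p i)

theorem wr_nonneg (θ : ℝ) (x : V → ℝ) (c i : V) : 0 ≤ wr G θ x c i :=
  mul_nonneg (sq_nonneg _) (Real.exp_pos _).le

theorem Wr_nonneg (θ : ℝ) (x : V → ℝ) (p : ℕ → V) (n : ℕ) : 0 ≤ Wr G θ x p n :=
  Finset.prod_nonneg fun _ _ => wr_nonneg G θ x _ _

theorem ofReal_Wr (θ : ℝ) (x : V → ℝ) (p : ℕ → V) (n : ℕ) :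
    ENNReal.ofReal (Wr G θ x p n) = We G θ x p n :=
  ENNReal.ofReal_prod_of_nonneg fun _ _ => wr_nonneg G θ x _ _

theorem k2_abs_al_le (θ : ℝ) (x : V → ℝ) (i j : V) : |al G θ x i j| ≤ 1 :=
  (Real.abs_tanh_lt_one _).le

theorem k2_abs_mm_le (θ : ℝ) (x : V → ℝ) (v : V) : |mm G θ x v| ≤ 1 :=
  (Real.abs_tanh_lt_one _).le

theorem k2_mm_sq_le (θ : ℝ) (x : V → ℝ) (v : V) : mm G θ x v ^ 2 ≤ 1 := by
  have := k2_abs_mm_le G θ x v
  rw [← sq_abs]
  nlinarith [abs_nonneg (mm G θ x v)]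

theorem k2_ph_nonneg {θ : ℝ} (h0 : 0 ≤ θ) (h1 : θ < 1) (x : V → ℝ) (i j : V) :
    0 ≤ ph θ (al G θ x i j) := ph_nonneg h0 h1 (k2_abs_al_le G θ x i j)

/-- `θ φ ≤ θ² e^{-κ a²}` -/
theorem k2_theta_ph_le {θ : ℝ} (h0 : 0 ≤ θ) (h1 : θ < 1) (x : V → ℝ) (i j : V) :
    θ * ph θ (al G θ x i j) ≤ wr G θ x i j := by
  have h := ph_le h0 h1 (k2_abs_al_le G θ x i j)
  unfold wr
  calc θ * ph θ (al G θ x i j)
      ≤ θ * (θ * Real.exp (-(kap θ * al G θ x i j ^ 2))) := mul_le_mul_of_nonneg_left h h0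
    _ = _ := by ring

theorem k2_kap_pos {θ : ℝ} (h0 : 0 ≤ θ) (h1 : θ < 1) : 0 < kap θ := by
  unfold kap
  nlinarith

theorem k2_ph_sq_le {θ : ℝ} (h0 : 0 ≤ θ) (h1 : θ < 1) (x : V → ℝ) (i j : V) :
    ph θ (al G θ x i j) ^ 2 ≤ wr G θ x i j := by
  have h := ph_le h0 h1 (k2_abs_al_le G θ x i j)
  have hn := k2_ph_nonneg G h0 h1 x i j
  have he : Real.exp (-(kap θ * al G θ x i j ^ 2)) ≤ 1 := by
    rw [Real.exp_le_one_iff]
    have := mul_nonneg (k2_kap_pos h0 h1).le (sq_nonneg (al G θ x i j))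
    linarith
  have he0 := Real.exp_pos (-(kap θ * al G θ x i j ^ 2))
  unfold wr
  calc ph θ (al G θ x i j) ^ 2
      ≤ (θ * Real.exp (-(kap θ * al G θ x i j ^ 2))) ^ 2 := pow_le_pow_left₀ hn h 2
    _ = θ ^ 2 * (Real.exp (-(kap θ * al G θ x i j ^ 2)) *
          Real.exp (-(kap θ * al G θ x i j ^ 2))) := by ring
    _ ≤ θ ^ 2 * (Real.exp (-(kap θ * al G θ x i j ^ 2)) * 1) :=
        mul_le_mul_of_nonneg_left (mul_le_mul_of_nonneg_left he he0.le) (sq_nonneg _)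
    _ = _ := by ring

/-- square of a path product -/
theorem k2_prod_sq_le {θ : ℝ} (h0 : 0 ≤ θ) (h1 : θ < 1) (x : V → ℝ) (p : ℕ → V) (n : ℕ) :
    (∏ i ∈ Finset.range n, ph θ (al G θ x (p (i + 1)) (p i))) ^ 2 ≤ Wr G θ x p n := by
  rw [← Finset.prod_pow]
  exact Finset.prod_le_prod (fun _ _ => sq_nonneg _) fun i _ => k2_ph_sq_le G h0 h1 x _ _

/-- reversed products -/
theorem k2_prod_rev (f : V → V → ℝ) (p : ℕ → V) (n : ℕ) :
    ∏ i ∈ Finset.range n, f (p i) (p (i + 1))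
      = ∏ i ∈ Finset.range n, f (p (n - (i + 1))) (p (n - i)) := by
  rw [← Finset.prod_range_reflect]
  refine Finset.prod_congr rfl fun i hi => ?_
  rw [Finset.mem_range] at hi
  rw [show n - 1 - i = n - (i + 1) by omega, show n - (i + 1) + 1 = n - i by omega]

theorem k2_Wr_rev (θ : ℝ) (x : V → ℝ) (p : ℕ → V) (n : ℕ) :
    ∏ i ∈ Finset.range n, wr G θ x (p i) (p (i + 1)) = Wr G θ x (fun i => p (n - i)) n :=
  k2_prod_rev (wr G θ x) p n

theorem k2_prod_sq_rev_le {θ : ℝ} (h0 : 0 ≤ θ) (h1 : θ < 1) (x : V → ℝ) (p : ℕ → V) (n : ℕ) :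
    (∏ i ∈ Finset.range n, ph θ (al G θ x (p i) (p (i + 1)))) ^ 2
      ≤ Wr G θ x (fun i => p (n - i)) n := by
  rw [← k2_Wr_rev, ← Finset.prod_pow]
  exact Finset.prod_le_prod (fun _ _ => sq_nonneg _) fun i _ => k2_ph_sq_le G h0 h1 x _ _

theorem k2_cosh_pos (L : ℝ) : 0 < Real.cosh L ^ 2 := by
  have := Real.cosh_pos L
  positivity

theorem k2_one_le_cosh (L : ℝ) : 1 ≤ Real.cosh L ^ 2 := by
  have := Real.one_le_cosh L
  nlinarith

/-- conversion of the direction of the messages -/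
theorem k2_conv {θ : ℝ} (h0 : 0 ≤ θ) (h1 : θ < 1) {x : V → ℝ} (hx : Good G θ x) {L : ℝ}
    (hL : ∀ v, |Hl G θ x v| ≤ L) {p : ℕ → V} {n : ℕ} (hp : IsPth G p n) :
    ∏ i ∈ Finset.range n, ph θ (al G θ x (p (i + 1)) (p i))
      ≤ Real.cosh L ^ 2 * ∏ i ∈ Finset.range n, ph θ (al G θ x (p i) (p (i + 1))) := by
  have h := Cv_symm G h0 h1 hx hp
  have hA : 0 ≤ ∏ i ∈ Finset.range n, ph θ (al G θ x (p (i + 1)) (p i)) :=
    Finset.prod_nonneg fun i _ => k2_ph_nonneg G h0 h1 x _ _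
  have hB : 0 ≤ ∏ i ∈ Finset.range n, ph θ (al G θ x (p i) (p (i + 1))) :=
    Finset.prod_nonneg fun i _ => k2_ph_nonneg G h0 h1 x _ _
  have hc := k2_cosh_pos L
  have h2 : 1 / Real.cosh L ^ 2 ≤ 1 - mm G θ x (p 0) ^ 2 := one_sub_tanh_sq_ge (hL _)
  have h3 : 1 - mm G θ x (p n) ^ 2 ≤ 1 := by
    have := sq_nonneg (mm G θ x (p n))
    linarith
  have h4 : 1 / Real.cosh L ^ 2 * ∏ i ∈ Finset.range n, ph θ (al G θ x (p (i + 1)) (p i))
      ≤ ∏ i ∈ Finset.range n, ph θ (al G θ x (p i) (p (i + 1))) := by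
    calc _ ≤ (1 - mm G θ x (p 0) ^ 2) *
          ∏ i ∈ Finset.range n, ph θ (al G θ x (p (i + 1)) (p i)) :=
          mul_le_mul_of_nonneg_right h2 hA
      _ = (1 - mm G θ x (p n) ^ 2) *
          ∏ i ∈ Finset.range n, ph θ (al G θ x (p i) (p (i + 1))) := h
      _ ≤ 1 * ∏ i ∈ Finset.range n, ph θ (al G θ x (p i) (p (i + 1))) :=
          mul_le_mul_of_nonneg_right h3 hB
      _ = _ := one_mul _
  rw [one_div, inv_mul_le_iff₀ hc] at h4
  exact h4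

/-- the constant of the product difference -/
noncomputable def k2K (θ L : ℝ) : ℝ :=
  4 * (1 / (1 - θ ^ 2)) ^ 2 * (Real.exp (kap θ) / kap θ) * Real.cosh L ^ 2

theorem k2K_nonneg {θ : ℝ} (h0 : 0 ≤ θ) (h1 : θ < 1) (L : ℝ) : 0 ≤ k2K θ L := by
  unfold k2K
  have := k2_kap_pos h0 h1
  have h2 := k2_cosh_pos L
  have h3 := Real.exp_pos (kap θ)
  positivity

theorem k2_prod_diff {θ : ℝ} (h0 : 0 ≤ θ) (h1 : θ < 1) {x x' : V → ℝ} (hx : Good G θ x) {L : ℝ}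
    (hL : ∀ v, |Hl G θ x v| ≤ L) {p : ℕ → V} {n : ℕ} (hp : IsPth G p n) :
    (∏ i ∈ Finset.range n, ph θ (al G θ x (p (i + 1)) (p i))
      - ∏ i ∈ Finset.range n, ph θ (al G θ x' (p (i + 1)) (p i))) ^ 2
    ≤ k2K θ L * ∑ k ∈ Finset.range n, θ ^ 2 * (Wr G θ x (fun i => p (k - i)) k
        * (al G θ x (p (k + 1)) (p k) - al G θ x' (p (k + 1)) (p k)) ^ 2
        * Wr G θ x' (fun i => p (k + 1 + i)) (n - k - 1)) := by
  have hK := k2K_nonneg h0 h1 L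
  have hsum0 : 0 ≤ ∑ k ∈ Finset.range n, θ ^ 2 * (Wr G θ x (fun i => p (k - i)) k
        * (al G θ x (p (k + 1)) (p k) - al G θ x' (p (k + 1)) (p k)) ^ 2
        * Wr G θ x' (fun i => p (k + 1 + i)) (n - k - 1)) :=
    Finset.sum_nonneg fun k _ => mul_nonneg (sq_nonneg _)
      (mul_nonneg (mul_nonneg (Wr_nonneg G θ x _ _) (sq_nonneg _)) (Wr_nonneg G θ x' _ _))
  rcases h0.eq_or_lt with h00 | h00
  · -- `θ = 0`
    rcases Nat.eq_zero_or_pos n with hn | hn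
    · subst hn
      simp
    · have hz : ∀ y : V → ℝ, ∏ i ∈ Finset.range n, ph θ (al G θ y (p (i + 1)) (p i)) = 0 := by
        intro y
        refine Finset.prod_eq_zero (Finset.mem_range.2 hn) ?_
        simp [ph, ← h00]
      rw [hz, hz, sub_self]
      have := mul_nonneg hK hsum0
      simpa using this
  have hden : 0 < 1 - θ ^ 2 := by nlinarith
  have hκ := k2_kap_pos h0 h1
  set a : ℕ → ℝ := fun k => al G θ x (p (k + 1)) (p k) with ha
  set a' : ℕ → ℝ := fun k => al G θ x' (p (k + 1)) (p k) with ha'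
  have hF : ∀ (y : V → ℝ) (k : ℕ), 0 ≤ ph θ (al G θ y (p (k + 1)) (p k)) / θ ∧
      ph θ (al G θ y (p (k + 1)) (p k)) / θ
        ≤ Real.exp (-(kap θ * al G θ y (p (k + 1)) (p k) ^ 2)) := by
    intro y k
    refine ⟨div_nonneg (k2_ph_nonneg G h0 h1 y _ _) h0, ?_⟩
    rw [div_le_iff₀ h00, mul_comm]
    exact ph_le h0 h1 (k2_abs_al_le G θ y _ _)
  have hd : ∀ k, |ph θ (a k) / θ - ph θ (a' k) / θ| ≤ 1 / (1 - θ ^ 2) * |a k ^ 2 - a' k ^ 2| := by
    intro k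
    rw [← sub_div, abs_div, abs_of_pos h00, div_le_iff₀ h00]
    have := ph_sub_le h0 h1 (k2_abs_al_le G θ x (p (k + 1)) (p k))
      (k2_abs_al_le G θ x' (p (k + 1)) (p k))
    calc _ ≤ θ / (1 - θ ^ 2) * |a k ^ 2 - a' k ^ 2| := this
      _ = _ := by ring
  have ht := htrick hκ n (fun k => ph θ (a k) / θ) (fun k => ph θ (a' k) / θ) a a'
    (fun k => hF x k) (fun k => hF x' k) (fun k => k2_abs_al_le G θ x _ _)
    (fun k => k2_abs_al_le G θ x' _ _) hd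
  have hprod : ∀ b : ℕ → ℝ, ∏ i ∈ Finset.range n, ph θ (b i)
      = θ ^ n * ∏ i ∈ Finset.range n, (ph θ (b i) / θ) := by
    intro b
    have : ∏ i ∈ Finset.range n, ph θ (b i) = ∏ i ∈ Finset.range n, (θ * (ph θ (b i) / θ)) := by
      refine Finset.prod_congr rfl fun i _ => ?_
      field_simp
    rw [this, Finset.prod_mul_distrib, Finset.prod_const, Finset.card_range]
  have e1 : (∏ i ∈ Finset.range n, ph θ (a i) - ∏ i ∈ Finset.range n, ph θ (a' i)) ^ 2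
      = θ ^ (2 * n) * (∏ i ∈ Finset.range n, (ph θ (a i) / θ)
        - ∏ i ∈ Finset.range n, (ph θ (a' i) / θ)) ^ 2 := by
    rw [hprod a, hprod a', ← mul_sub, mul_pow, ← pow_mul, mul_comm n 2]
  show (∏ i ∈ Finset.range n, ph θ (a i) - ∏ i ∈ Finset.range n, ph θ (a' i)) ^ 2 ≤ _
  rw [e1]
  refine (mul_le_mul_of_nonneg_left ht (by positivity)).trans ?_
  -- compare term by term
  have hterm : ∀ k ∈ Finset.range n,
      θ ^ (2 * n) * ((∏ i ∈ Finset.range k, (ph θ (a i) / θ)) * (a k - a' k) ^ 2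
        * ∏ i ∈ Finset.Ico (k + 1) n, (ph θ (a' i) / θ))
      ≤ Real.cosh L ^ 2 * (θ ^ 2 * (Wr G θ x (fun i => p (k - i)) k
        * (a k - a' k) ^ 2
        * Wr G θ x' (fun i => p (k + 1 + i)) (n - k - 1))) := by
    intro k hk
    rw [Finset.mem_range] at hk
    have hpk : IsPth G p k := isPth_mono G hp hk.le
    -- first factor
    have f1 : θ ^ (2 * k) * ∏ i ∈ Finset.range k, (ph θ (a i) / θ)
        ≤ Real.cosh L ^ 2 * Wr G θ x (fun i => p (k - i)) k := by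
      have g1 : θ ^ (2 * k) * ∏ i ∈ Finset.range k, (ph θ (a i) / θ)
          = θ ^ k * ∏ i ∈ Finset.range k, ph θ (a i) := by
        rw [Finset.prod_div_distrib, Finset.prod_const, Finset.card_range]
        have : θ ^ k ≠ 0 := by positivity
        field_simp
        ring
      rw [g1]
      calc θ ^ k * ∏ i ∈ Finset.range k, ph θ (a i)
          ≤ θ ^ k * (Real.cosh L ^ 2 * ∏ i ∈ Finset.range k, ph θ (al G θ x (p i) (p (i + 1)))) :=
            mul_le_mul_of_nonneg_left (k2_conv G h0 h1 hx hL hpk) (by positivity)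
        _ = Real.cosh L ^ 2 * ∏ i ∈ Finset.range k, (θ * ph θ (al G θ x (p i) (p (i + 1)))) := by
            rw [Finset.prod_mul_distrib, Finset.prod_const, Finset.card_range]
            ring
        _ ≤ Real.cosh L ^ 2 * ∏ i ∈ Finset.range k, wr G θ x (p i) (p (i + 1)) := by
            refine mul_le_mul_of_nonneg_left (Finset.prod_le_prod (fun i _ =>
              mul_nonneg h0 (k2_ph_nonneg G h0 h1 x _ _)) fun i _ => ?_) (k2_cosh_pos L).le
            exact k2_theta_ph_le G h0 h1 x _ _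
        _ = _ := by rw [k2_Wr_rev]
    -- second factor
    have f2 : θ ^ (2 * (n - k - 1)) * ∏ i ∈ Finset.Ico (k + 1) n, (ph θ (a' i) / θ)
        ≤ Wr G θ x' (fun i => p (k + 1 + i)) (n - k - 1) := by
      rw [Finset.prod_Ico_eq_prod_range, show n - (k + 1) = n - k - 1 by omega]
      have g2 : θ ^ (2 * (n - k - 1)) *
          ∏ i ∈ Finset.range (n - k - 1), (ph θ (a' (k + 1 + i)) / θ)
          = ∏ i ∈ Finset.range (n - k - 1), (θ * ph θ (a' (k + 1 + i))) := by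
        rw [Finset.prod_div_distrib, Finset.prod_mul_distrib, Finset.prod_const, Finset.card_range]
        have : θ ^ (n - k - 1) ≠ 0 := by positivity
        field_simp
        ring
      rw [g2]
      refine Finset.prod_le_prod (fun i _ =>
        mul_nonneg h0 (k2_ph_nonneg G h0 h1 x' _ _)) fun i _ => ?_
      exact k2_theta_ph_le G h0 h1 x' _ _
    have hpow : θ ^ (2 * n) = θ ^ 2 * (θ ^ (2 * k) * θ ^ (2 * (n - k - 1))) := by
      rw [← pow_add, ← pow_add]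
      congr 1
      omega
    have hn1 : 0 ≤ ∏ i ∈ Finset.range k, (ph θ (a i) / θ) :=
      Finset.prod_nonneg fun i _ => (hF x i).1
    have hn2 : 0 ≤ ∏ i ∈ Finset.Ico (k + 1) n, (ph θ (a' i) / θ) :=
      Finset.prod_nonneg fun i _ => (hF x' i).1
    calc _ = θ ^ 2 * ((θ ^ (2 * k) * ∏ i ∈ Finset.range k, (ph θ (a i) / θ))
          * (a k - a' k) ^ 2
          * (θ ^ (2 * (n - k - 1)) * ∏ i ∈ Finset.Ico (k + 1) n, (ph θ (a' i) / θ))) := by
          rw [hpow]; ring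
      _ ≤ θ ^ 2 * ((Real.cosh L ^ 2 * Wr G θ x (fun i => p (k - i)) k)
          * (a k - a' k) ^ 2
          * Wr G θ x' (fun i => p (k + 1 + i)) (n - k - 1)) := by
          refine mul_le_mul_of_nonneg_left ?_ (sq_nonneg _)
          refine mul_le_mul (mul_le_mul_of_nonneg_right f1 (sq_nonneg _)) f2
            (mul_nonneg (by positivity) hn2) ?_
          exact mul_nonneg (mul_nonneg (k2_cosh_pos L).le (Wr_nonneg G θ x _ _)) (sq_nonneg _)
      _ = _ := by ring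
  calc θ ^ (2 * n) * (4 * (1 / (1 - θ ^ 2)) ^ 2 * (Real.exp (kap θ) / kap θ)
        * ∑ k ∈ Finset.range n, (∏ i ∈ Finset.range k, (ph θ (a i) / θ)) * (a k - a' k) ^ 2
        * ∏ i ∈ Finset.Ico (k + 1) n, (ph θ (a' i) / θ))
      = 4 * (1 / (1 - θ ^ 2)) ^ 2 * (Real.exp (kap θ) / kap θ)
        * ∑ k ∈ Finset.range n, θ ^ (2 * n) * ((∏ i ∈ Finset.range k, (ph θ (a i) / θ))
          * (a k - a' k) ^ 2 * ∏ i ∈ Finset.Ico (k + 1) n, (ph θ (a' i) / θ)) := by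
        rw [← Finset.mul_sum]; ring
    _ ≤ 4 * (1 / (1 - θ ^ 2)) ^ 2 * (Real.exp (kap θ) / kap θ)
        * ∑ k ∈ Finset.range n, Real.cosh L ^ 2 * (θ ^ 2 * (Wr G θ x (fun i => p (k - i)) k
        * (a k - a' k) ^ 2 * Wr G θ x' (fun i => p (k + 1 + i)) (n - k - 1))) := by
        refine mul_le_mul_of_nonneg_left (Finset.sum_le_sum hterm) ?_
        have h3 := Real.exp_pos (kap θ)
        positivity
    _ = _ := by
        rw [← Finset.mul_sum]
        unfold k2K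
        ring

/-- pointwise bound of the kernel -/
theorem kker_le {θ : ℝ} (h0 : 0 ≤ θ) (h1 : θ < 1) {q : (V → ℝ) × (V → ℝ)} (hx : Good G θ q.1)
    (hx' : Good G θ q.2) {L : ℝ} (hL : ∀ v, |Hl G θ q.1 v| ≤ L) {p : ℕ → V} {n : ℕ}
    (hp : IsPth G p n) :
    kker G θ p n q ≤ 8 * ((mm G θ q.1 (p 0) - mm G θ q.2 (p 0)) ^ 2 * Wr G θ q.1 p n)
      + 2 * k2K θ L * ∑ k ∈ Finset.range n, θ ^ 2 * (Wr G θ q.1 (fun i => p (k - i)) k
        * (al G θ q.1 (p (k + 1)) (p k) - al G θ q.2 (p (k + 1)) (p k)) ^ 2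
        * Wr G θ q.2 (fun i => p (k + 1 + i)) (n - k - 1))
      + (mm G θ q.1 (p n) - mm G θ q.2 (p n)) ^ 2 * Wr G θ q.2 (fun i => p (n - i)) n := by
  have hsym := Cv_symm G h0 h1 hx' hp
  set A := ∏ i ∈ Finset.range n, ph θ (al G θ q.1 (p (i + 1)) (p i)) with hA
  set A' := ∏ i ∈ Finset.range n, ph θ (al G θ q.2 (p (i + 1)) (p i)) with hA'
  have hdiff := k2_prod_diff G h0 h1 (x' := q.2) hx hL hp
  rw [← hA, ← hA'] at hdiff
  set m := mm G θ q.1 (p 0) with hm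
  set m' := mm G θ q.2 (p 0) with hm'
  have bm := k2_abs_mm_le G θ q.1 (p 0)
  have bm' := k2_abs_mm_le G θ q.2 (p 0)
  rw [← hm] at bm
  rw [← hm'] at bm'
  have sm' : m' ^ 2 ≤ 1 := k2_mm_sq_le G θ q.2 (p 0)
  have hAsq : A ^ 2 ≤ Wr G θ q.1 p n := k2_prod_sq_le G h0 h1 q.1 p n
  -- first part
  have part1 : ((1 - m ^ 2) * A - (1 - m' ^ 2) * A') ^ 2
      ≤ 8 * ((m - m') ^ 2 * Wr G θ q.1 p n) + 2 * (A - A') ^ 2 := by
    have e : (1 - m ^ 2) * A - (1 - m' ^ 2) * A'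
        = (m' - m) * (m' + m) * A + (1 - m' ^ 2) * (A - A') := by ring
    have h1' : ((m' - m) * (m' + m) * A) ^ 2 ≤ 4 * ((m - m') ^ 2 * Wr G θ q.1 p n) := by
      have h2 : (m' + m) ^ 2 ≤ 4 := by
        have := abs_le.1 bm
        have := abs_le.1 bm'
        nlinarith
      have h3 : (m' + m) ^ 2 * A ^ 2 ≤ 4 * Wr G θ q.1 p n :=
        mul_le_mul h2 hAsq (sq_nonneg _) (by norm_num)
      calc ((m' - m) * (m' + m) * A) ^ 2 = (m - m') ^ 2 * ((m' + m) ^ 2 * A ^ 2) := by ring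
        _ ≤ (m - m') ^ 2 * (4 * Wr G θ q.1 p n) := mul_le_mul_of_nonneg_left h3 (sq_nonneg _)
        _ = _ := by ring
    have h2' : ((1 - m' ^ 2) * (A - A')) ^ 2 ≤ (A - A') ^ 2 := by
      rw [mul_pow]
      have h3 : (1 - m' ^ 2) ^ 2 ≤ 1 := by
        have := sq_nonneg m'
        nlinarith
      nlinarith [sq_nonneg (A - A')]
    rw [e]
    nlinarith [sq_nonneg ((m' - m) * (m' + m) * A - (1 - m' ^ 2) * (A - A'))]
  -- second part
  have part2 : (Cv G θ q.2 p n) ^ 2 ≤ Wr G θ q.2 (fun i => p (n - i)) n := by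
    have e : Cv G θ q.2 p n = (1 - mm G θ q.2 (p n) ^ 2) *
        ∏ i ∈ Finset.range n, ph θ (al G θ q.2 (p i) (p (i + 1))) := hsym
    rw [e, mul_pow]
    have h3 : (1 - mm G θ q.2 (p n) ^ 2) ^ 2 ≤ 1 := by
      have := sq_nonneg (mm G θ q.2 (p n))
      have := k2_mm_sq_le G θ q.2 (p n)
      nlinarith
    have h4 := k2_prod_sq_rev_le G h0 h1 q.2 p n
    calc _ ≤ 1 * (∏ i ∈ Finset.range n, ph θ (al G θ q.2 (p i) (p (i + 1)))) ^ 2 :=
          mul_le_mul_of_nonneg_right h3 (sq_nonneg _)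
      _ ≤ _ := by rw [one_mul]; exact h4
  have hC1 : Cv G θ q.1 p n = (1 - m ^ 2) * A := rfl
  have hC2 : Cv G θ q.2 p n = (1 - m' ^ 2) * A' := rfl
  unfold kker
  rw [hC1] at *
  have part3 : (Cv G θ q.2 p n) ^ 2 * (mm G θ q.1 (p n) - mm G θ q.2 (p n)) ^ 2
      ≤ (mm G θ q.1 (p n) - mm G θ q.2 (p n)) ^ 2 * Wr G θ q.2 (fun i => p (n - i)) n := by
    rw [mul_comm]
    exact mul_le_mul_of_nonneg_left part2 (sq_nonneg _)
  rw [hC2] at part3 ⊢
  have h5 : 2 * (A - A') ^ 2 ≤ 2 * (k2K θ L * ∑ k ∈ Finset.range n,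
      θ ^ 2 * (Wr G θ q.1 (fun i => p (k - i)) k
        * (al G θ q.1 (p (k + 1)) (p k) - al G θ q.2 (p (k + 1)) (p k)) ^ 2
        * Wr G θ q.2 (fun i => p (k + 1 + i)) (n - k - 1))) :=
    mul_le_mul_of_nonneg_left hdiff (by norm_num)
  linarith

end Crest.Agent.FI
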