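import Mathlib
import Crest.Agent.FI.Defs
import Crest.Agent.FI.Real
import Crest.Agent.FI.Alg
import Crest.Agent.FI.EnvBase
import Crest.Agent.FI.Ker2A
import Crest.Agent.FI.Ker2B

/-!
Stage (ii) kernel bound.
-/

set_option autoImplicit false

namespace Crest.Agent.FI

open MeasureTheory ProbabilityTheory Set Filter Topology
open scoped ENNReal

variable {V : Type*} (G : SimpleGraph V) [G.LocallyFinite]

theorem k2_Gs_le {d : ℕ} (hd : 3 ≤ d) (hreg : G.IsRegularOfDegree d) {θ : ℝ} (h0 : 0 ≤ θ)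
    (h1 : θ < 1) (hcrit : θ ^ 2 * ((d : ℝ) - 1) ≤ 1) (x : V → ℝ) (n : ℕ) {i j : V}
    (h : G.Adj i j) : Gs G θ x n i j ≤ n + 1 := by
  induction n generalizing i j with
  | zero => simp [Gs]
  | succ n ih =>
    have h2 : Gs G θ x (n + 1) i j = 1 + θ ^ 2 * ∑ c ∈ oth G i j,
      Real.exp (-(kap θ * al G θ x c i ^ 2)) * Gs G θ x n c i := rfl
    have h3 : ∑ c ∈ oth G i j, Real.exp (-(kap θ * al G θ x c i ^ 2)) * Gs G θ x n c i
        ≤ ∑ c ∈ oth G i j, ((n : ℝ) + 1) := by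
      refine Finset.sum_le_sum fun c hc => ?_
      have hg := ih ((mem_oth G).1 hc).1.symm
      have hg0 : 0 ≤ Gs G θ x n c i := zero_le_one.trans (one_le_Gs' G θ x n c i)
      have he : Real.exp (-(kap θ * al G θ x c i ^ 2)) ≤ 1 := by
        rw [Real.exp_le_one_iff]
        have := mul_nonneg (k2_kap_pos h0 h1).le (sq_nonneg (al G θ x c i))
        linarith
      calc _ ≤ 1 * Gs G θ x n c i := mul_le_mul_of_nonneg_right he hg0
        _ ≤ _ := by rw [one_mul]; exact hg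
    rw [Finset.sum_const, k2_card_oth G hreg h, nsmul_eq_mul] at h3
    have hd' : ((d - 1 : ℕ) : ℝ) = (d : ℝ) - 1 := by
      rw [Nat.cast_sub (by omega), Nat.cast_one]
    rw [hd'] at h3
    rw [h2]
    have h4 := mul_le_mul_of_nonneg_left h3 (sq_nonneg θ)
    have h5 : θ ^ 2 * (((d : ℝ) - 1) * ((n : ℝ) + 1)) ≤ 1 * ((n : ℝ) + 1) := by
      rw [← mul_assoc]
      exact mul_le_mul_of_nonneg_right hcrit (by positivity)
    push_cast
    linarith

/-- squared difference of posterior means -/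
noncomputable def k2f (θ : ℝ) (v : V) (q : (V → ℝ) × (V → ℝ)) : ℝ :=
  (mm G θ q.1 v - mm G θ q.2 v) ^ 2

/-- squared difference of messages -/
noncomputable def k2g (θ : ℝ) (i j : V) (q : (V → ℝ) × (V → ℝ)) : ℝ :=
  (al G θ q.1 i j - al G θ q.2 i j) ^ 2

theorem measurable_k2f (θ : ℝ) (v : V) : Measurable (k2f G θ v) :=
  (((measurable_mm G θ v).comp measurable_fst).sub
    ((measurable_mm G θ v).comp measurable_snd)).pow_const 2

theorem measurable_k2g (θ : ℝ) (i j : V) : Measurable (k2g G θ i j) :=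
  (((measurable_al G θ i j).comp measurable_fst).sub
    ((measurable_al G θ i j).comp measurable_snd)).pow_const 2

theorem k2f_nonneg (θ : ℝ) (v : V) (q : (V → ℝ) × (V → ℝ)) : 0 ≤ k2f G θ v q := sq_nonneg _

theorem k2g_nonneg (θ : ℝ) (i j : V) (q : (V → ℝ) × (V → ℝ)) : 0 ≤ k2g G θ i j q := sq_nonneg _

theorem k2_sq_sub_le {a b : ℝ} (ha : |a| ≤ 1) (hb : |b| ≤ 1) : (a - b) ^ 2 ≤ 4 := by
  have := abs_le.1 ha
  have := abs_le.1 hb
  nlinarith

theorem k2f_le (θ : ℝ) (v : V) (q : (V → ℝ) × (V → ℝ)) : k2f G θ v q ≤ 4 :=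
  k2_sq_sub_le (k2_abs_mm_le G θ _ _) (k2_abs_mm_le G θ _ _)

theorem k2g_le (θ : ℝ) (i j : V) (q : (V → ℝ) × (V → ℝ)) : k2g G θ i j q ≤ 4 :=
  k2_sq_sub_le (k2_abs_al_le G θ _ _ _) (k2_abs_al_le G θ _ _ _)

theorem k2f_aut (θ : ℝ) (g : G ≃g G) (v : V) (q : (V → ℝ) × (V → ℝ)) :
    k2f G θ v (q.1 ∘ g, q.2 ∘ g) = k2f G θ (g v) q := by
  unfold k2f
  simp only [mm_aut]

theorem k2g_aut (θ : ℝ) (g : G ≃g G) (i j : V) (q : (V → ℝ) × (V → ℝ)) :
    k2g G θ i j (q.1 ∘ g, q.2 ∘ g) = k2g G θ (g i) (g j) q := by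
  unfold k2g
  simp only [al_aut]

theorem k2_lint_f {θ : ℝ} {Q : Measure ((V → ℝ) × (V → ℝ))} [IsProbabilityMeasure Q] (v : V) :
    ∫⁻ q, ENNReal.ofReal (k2f G θ v q) ∂Q = ENNReal.ofReal (yy G θ Q v) := by
  unfold yy
  rw [ofReal_integral_eq_lintegral_ofReal]
  · rfl
  · exact Integrable.of_bound (measurable_k2f G θ v).aestronglyMeasurable 4
      (ae_of_all _ fun q => by
        rw [Real.norm_eq_abs]
        exact (abs_of_nonneg (k2f_nonneg G θ v q)).le.trans (k2f_le G θ v q))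
  · exact ae_of_all _ fun q => k2f_nonneg G θ v q

theorem k2_yy_nonneg {θ : ℝ} {Q : Measure ((V → ℝ) × (V → ℝ))} (v : V) : 0 ≤ yy G θ Q v :=
  integral_nonneg fun _ => sq_nonneg _

/-- truncated square of `Gs` -/
noncomputable def k2t (θ M : ℝ) (n : ℕ) (i j : V) (x : V → ℝ) : ℝ :=
  ({x | M < Gs G θ x n i j}).indicator (fun x => Gs G θ x n i j ^ 2) x

theorem measurable_k2t (θ M : ℝ) (n : ℕ) (i j : V) : Measurable (k2t G θ M n i j) :=
  Measurable.indicator ((measurable_Gs G θ n i j).pow_const 2)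
    (measurableSet_lt measurable_const (measurable_Gs G θ n i j))

theorem k2t_nonneg (θ M : ℝ) (n : ℕ) (i j : V) (x : V → ℝ) : 0 ≤ k2t G θ M n i j x :=
  Set.indicator_nonneg (fun _ _ => sq_nonneg _) _

theorem k2_trunc {d : ℕ} (hd : 3 ≤ d) (hreg : G.IsRegularOfDegree d) {θ : ℝ} (h0 : 0 ≤ θ)
    (h1 : θ < 1) (hcrit : θ ^ 2 * ((d : ℝ) - 1) ≤ 1)
    {μ : Measure (V → Bool)} {ρ : Measure ℝ} {Q : Measure ((V → ℝ) × (V → ℝ))}
    (hQ : PairState G μ ρ Q) {M τ : ℝ}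
    (hτ : ∀ n i j, G.Adj i j → ∫ x, ({x | M < Gs G θ x n i j}).indicator
        (fun x => Gs G θ x n i j ^ 2) x ∂(fieldLaw μ (fun _ => ρ)) ≤ τ) (b : Bool) (n : ℕ)
    {i j : V} (h : G.Adj i j) :
    ∫⁻ q, ENNReal.ofReal (k2t G θ M n i j (cpy b q)) ∂Q ≤ ENNReal.ofReal τ := by
  have hprob := hQ.prob
  have hlaw : Q.map (cpy b) = fieldLaw μ (fun _ => ρ) := by
    cases b
    · exact hQ.snd
    · exact hQ.fst
  have hp2 : IsProbabilityMeasure (fieldLaw μ (fun _ => ρ)) := by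
    rw [← hlaw]
    exact Measure.isProbabilityMeasure_map (measurable_cpy b).aemeasurable
  have hm : Measurable (fun x : V → ℝ => ENNReal.ofReal (k2t G θ M n i j x)) :=
    ENNReal.measurable_ofReal.comp (measurable_k2t G θ M n i j)
  rw [← lintegral_map hm (measurable_cpy b), hlaw,
    ← ofReal_integral_eq_lintegral_ofReal]
  · exact ENNReal.ofReal_le_ofReal (hτ n i j h)
  · refine Integrable.of_bound (measurable_k2t G θ M n i j).aestronglyMeasurable
      (((n : ℝ) + 1) ^ 2) (ae_of_all _ fun x => ?_)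
    rw [Real.norm_eq_abs, abs_of_nonneg (k2t_nonneg G θ M n i j x)]
    unfold k2t
    have hg := k2_Gs_le G hd hreg h0 h1 hcrit x n h
    have hg0 : 0 ≤ Gs G θ x n i j := zero_le_one.trans (one_le_Gs' G θ x n i j)
    by_cases hx : x ∈ {x | M < Gs G θ x n i j}
    · rw [Set.indicator_of_mem hx]
      exact pow_le_pow_left₀ hg0 hg 2
    · rw [Set.indicator_of_notMem hx]
      positivity
  · exact ae_of_all _ fun x => k2t_nonneg G θ M n i j x

theorem k2_D_theta {d : ℕ} (hd : 3 ≤ d) {θ : ℝ} (hcrit : θ ^ 2 * ((d : ℝ) - 1) ≤ 1) :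
    ((d - 1 : ℕ) : ℝ≥0∞) * ENNReal.ofReal (θ ^ 2) ≤ 1 := by
  have hd' : ((d - 1 : ℕ) : ℝ) = (d : ℝ) - 1 := by
    rw [Nat.cast_sub (by omega), Nat.cast_one]
  have h2 : ((d - 1 : ℕ) : ℝ≥0∞) = ENNReal.ofReal ((d : ℝ) - 1) := by
    rw [← hd', ENNReal.ofReal_natCast]
  have h3 : (3 : ℝ) ≤ d := by exact_mod_cast hd
  rw [h2, ← ENNReal.ofReal_mul (by linarith), mul_comm]
  calc ENNReal.ofReal (θ ^ 2 * ((d : ℝ) - 1)) ≤ ENNReal.ofReal 1 := ENNReal.ofReal_le_ofReal hcrit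
    _ = 1 := ENNReal.ofReal_one

theorem k2_we_le {θ : ℝ} (h0 : 0 ≤ θ) (h1 : θ < 1) (x : V → ℝ) (i j : V) :
    we G θ x i j ≤ ENNReal.ofReal (θ ^ 2) := by
  refine ENNReal.ofReal_le_ofReal ?_
  have he : Real.exp (-(kap θ * al G θ x i j ^ 2)) ≤ 1 := by
    rw [Real.exp_le_one_iff]
    have := mul_nonneg (k2_kap_pos h0 h1).le (sq_nonneg (al G θ x i j))
    linarith
  calc θ ^ 2 * Real.exp (-(kap θ * al G θ x i j ^ 2)) ≤ θ ^ 2 * 1 :=
        mul_le_mul_of_nonneg_left he (sq_nonneg _)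
    _ = _ := mul_one _

theorem We_zero (θ : ℝ) (x : V → ℝ) (p : ℕ → V) : We G θ x p 0 = 1 := by
  simp [We]

/-- one-sided sum -/
theorem k2_onesided [Countable V] (hT : G.IsTree) {d : ℕ} (hd : 3 ≤ d)
    (hreg : G.IsRegularOfDegree d)
    {θ : ℝ} (h0 : 0 ≤ θ) (h1 : θ < 1) (hcrit : θ ^ 2 * ((d : ℝ) - 1) ≤ 1)
    {μ : Measure (V → Bool)} {ρ : Measure ℝ} {Q : Measure ((V → ℝ) × (V → ℝ))}
    (hQ : PairState G μ ρ Q) {M τ : ℝ} (hM : 1 ≤ M) (hτ0 : 0 ≤ τ)
    (hτ : ∀ n i j, G.Adj i j → ∫ x, ({x | M < Gs G θ x n i j}).indicator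
        (fun x => Gs G θ x n i j ^ 2) x ∂(fieldLaw μ (fun _ => ρ)) ≤ τ) (b : Bool) (N : ℕ)
    {p : ℕ → V} (hp : IsRay G p) :
    ∑ n ∈ Finset.range N, ((d - 1 : ℕ) : ℝ≥0∞) ^ n *
        ∫⁻ q, ENNReal.ofReal (k2f G θ (p 0) q) * We G θ (cpy b q) p n ∂Q
      ≤ ENNReal.ofReal (2 * M * yy G θ Q (p 0) + 4 * τ) := by
  have hprob := hQ.prob
  set D : ℝ≥0∞ := ((d - 1 : ℕ) : ℝ≥0∞) with hD
  set y := yy G θ Q (p 0) with hy
  have hy0 : 0 ≤ y := k2_yy_nonneg G (p 0)
  have hadj : G.Adj (p 1) (p 0) := ((hp 1).1 0 (by omega)).symm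
  have hmf := measurable_k2f G θ (p 0)
  -- the sum over `n ≥ 1`
  have hstep : ∀ n, D ^ (n + 1) *
      ∫⁻ q, ENNReal.ofReal (k2f G θ (p 0) q) * We G θ (cpy b q) p (n + 1) ∂Q
      = D * ∫⁻ q, (ENNReal.ofReal (k2f G θ (p 0) q) * we G θ (cpy b q) (p 1) (p 0))
        * Te G θ (cpy b q) n (p 1) (p 0) ∂Q := by
    intro n
    have key := Te_expand G hT hd hreg θ hQ b n 1
      (fun r q => ENNReal.ofReal (k2f G θ (r 0) q) * we G θ (cpy b q) (r 1) (r 0)) le_rfl
      (fun r => (ENNReal.measurable_ofReal.comp (measurable_k2f G θ (r 0))).mul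
        ((measurable_we G θ _ _).comp (measurable_cpy b)))
      (fun g r q => by simp only [k2f_aut, cpy_aut, we_aut, Function.comp])
      (fun r r' q h => by rw [h 0 (by omega), h 1 le_rfl])
      (p := p) (p' := p) (hp 1) (hp (1 + n))
    simp only [Nat.sub_self] at key
    rw [key, pow_succ', mul_assoc]
    congr 2
    refine lintegral_congr fun q => ?_
    rw [We_succ', mul_assoc]
  have hgood : ∀ q, ENNReal.ofReal (k2f G θ (p 0) q) * ENNReal.ofReal (Gs G θ (cpy b q) N (p 1) (p 0))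
      ≤ ENNReal.ofReal M * ENNReal.ofReal (k2f G θ (p 0) q)
        + 4 * ENNReal.ofReal (k2t G θ M N (p 1) (p 0) (cpy b q)) := by
    intro q
    have hf0 := k2f_nonneg G θ (p 0) q
    have hf4 := k2f_le G θ (p 0) q
    have ht0 := k2t_nonneg G θ M N (p 1) (p 0) (cpy b q)
    have hG1 := one_le_Gs' G θ (cpy b q) N (p 1) (p 0)
    rw [← ENNReal.ofReal_mul hf0, ← ENNReal.ofReal_mul (by linarith),
      show (4 : ℝ≥0∞) = ENNReal.ofReal 4 by simp, ← ENNReal.ofReal_mul (by norm_num),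
      ← ENNReal.ofReal_add (mul_nonneg (by linarith) hf0) (mul_nonneg (by norm_num) ht0)]
    refine ENNReal.ofReal_le_ofReal ?_
    by_cases hx : cpy b q ∈ {x | M < Gs G θ x N (p 1) (p 0)}
    · have e : k2t G θ M N (p 1) (p 0) (cpy b q) = Gs G θ (cpy b q) N (p 1) (p 0) ^ 2 :=
        Set.indicator_of_mem hx _
      rw [e]
      nlinarith [mul_nonneg (by linarith : (0 : ℝ) ≤ M) hf0,
        mul_le_mul_of_nonneg_right hf4 (by linarith : (0 : ℝ) ≤ Gs G θ (cpy b q) N (p 1) (p 0))]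
    · have hle : Gs G θ (cpy b q) N (p 1) (p 0) ≤ M := not_lt.1 hx
      nlinarith [mul_le_mul_of_nonneg_left hle hf0]
  rcases N with _ | N
  · simp
  rw [Finset.sum_range_succ']
  simp only [hstep, pow_zero, one_mul, We_zero, mul_one]
  rw [k2_lint_f, ← hy, ← Finset.mul_sum]
  have hmeas : ∀ n, Measurable (fun q : (V → ℝ) × (V → ℝ) =>
      (ENNReal.ofReal (k2f G θ (p 0) q) * we G θ (cpy b q) (p 1) (p 0))
        * Te G θ (cpy b q) n (p 1) (p 0)) := fun n =>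
    ((ENNReal.measurable_ofReal.comp hmf).mul
        ((measurable_we G θ _ _).comp (measurable_cpy b))).mul
      ((measurable_Te G θ n _ _).comp (measurable_cpy b))
  rw [← lintegral_finsetSum _ (fun n _ => hmeas n)]
  have hle : ∀ q, D * ∑ n ∈ Finset.range N,
      (ENNReal.ofReal (k2f G θ (p 0) q) * we G θ (cpy b q) (p 1) (p 0))
        * Te G θ (cpy b q) n (p 1) (p 0)
      ≤ ENNReal.ofReal (k2f G θ (p 0) q)
        * ENNReal.ofReal (Gs G θ (cpy b q) (N + 1) (p 1) (p 0)) := by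
    intro q
    rw [← Finset.mul_sum, ← sum_Te]
    have hs : ∑ n ∈ Finset.range N, Te G θ (cpy b q) n (p 1) (p 0)
        ≤ ∑ n ∈ Finset.range (N + 1 + 1), Te G θ (cpy b q) n (p 1) (p 0) :=
      Finset.sum_le_sum_of_subset (Finset.range_mono (by omega))
    calc D * (ENNReal.ofReal (k2f G θ (p 0) q) * we G θ (cpy b q) (p 1) (p 0)
          * ∑ n ∈ Finset.range N, Te G θ (cpy b q) n (p 1) (p 0))
        ≤ D * (ENNReal.ofReal (k2f G θ (p 0) q) * ENNReal.ofReal (θ ^ 2)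
          * ∑ n ∈ Finset.range (N + 1 + 1), Te G θ (cpy b q) n (p 1) (p 0)) := by
          gcongr
          exact k2_we_le G h0 h1 _ _ _
      _ = (D * ENNReal.ofReal (θ ^ 2)) * (ENNReal.ofReal (k2f G θ (p 0) q)
          * ∑ n ∈ Finset.range (N + 1 + 1), Te G θ (cpy b q) n (p 1) (p 0)) := by ring
      _ ≤ 1 * _ := by
          gcongr
          exact k2_D_theta hd hcrit
      _ = _ := one_mul _
  calc D * ∫⁻ q, ∑ n ∈ Finset.range N,
        (ENNReal.ofReal (k2f G θ (p 0) q) * we G θ (cpy b q) (p 1) (p 0))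
        * Te G θ (cpy b q) n (p 1) (p 0) ∂Q + ENNReal.ofReal y
      = ∫⁻ q, D * ∑ n ∈ Finset.range N,
        (ENNReal.ofReal (k2f G θ (p 0) q) * we G θ (cpy b q) (p 1) (p 0))
        * Te G θ (cpy b q) n (p 1) (p 0) ∂Q + ENNReal.ofReal y := by
        rw [lintegral_const_mul _ (Finset.measurable_sum _ fun n _ => hmeas n)]
    _ ≤ ∫⁻ q, (ENNReal.ofReal M * ENNReal.ofReal (k2f G θ (p 0) q)
        + 4 * ENNReal.ofReal (k2t G θ M (N + 1) (p 1) (p 0) (cpy b q))) ∂Q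
        + ENNReal.ofReal y := by
        gcongr with q
        exact (hle q).trans (hgood q)
    _ = ENNReal.ofReal M * ENNReal.ofReal y
        + 4 * ∫⁻ q, ENNReal.ofReal (k2t G θ M (N + 1) (p 1) (p 0) (cpy b q)) ∂Q
        + ENNReal.ofReal y := by
        have m1 : Measurable (fun q : (V → ℝ) × (V → ℝ) => ENNReal.ofReal (k2f G θ (p 0) q)) :=
          ENNReal.measurable_ofReal.comp hmf
        have m2 : Measurable (fun q : (V → ℝ) × (V → ℝ) =>
            ENNReal.ofReal M * ENNReal.ofReal (k2f G θ (p 0) q)) := m1.const_mul _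
        have m3 : Measurable (fun q : (V → ℝ) × (V → ℝ) =>
            ENNReal.ofReal (k2t G θ M (N + 1) (p 1) (p 0) (cpy b q))) :=
          ENNReal.measurable_ofReal.comp
            ((measurable_k2t G θ M (N + 1) _ _).comp (measurable_cpy b))
        rw [lintegral_add_left m2, lintegral_const_mul _ m1, lintegral_const_mul _ m3,
          k2_lint_f G (p 0)]
    _ ≤ ENNReal.ofReal M * ENNReal.ofReal y + 4 * ENNReal.ofReal τ + ENNReal.ofReal y := by
        gcongr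
        exact k2_trunc G hd hreg h0 h1 hcrit hQ hτ b (N + 1) hadj
    _ = ENNReal.ofReal (M * y + 4 * τ + y) := by
        rw [ENNReal.ofReal_add (by positivity) hy0, ENNReal.ofReal_add (by positivity)
          (by positivity), ENNReal.ofReal_mul (by linarith), ENNReal.ofReal_mul (by norm_num)]
        simp
    _ ≤ _ := by
        refine ENNReal.ofReal_le_ofReal ?_
        nlinarith [mul_le_mul_of_nonneg_right hM hy0]

/-- one-sided sum from the other end -/
theorem k2_onesided_rev [Countable V] (hT : G.IsTree) {d : ℕ} (hd : 3 ≤ d)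
    (hreg : G.IsRegularOfDegree d)
    {θ : ℝ} {μ : Measure (V → Bool)} {ρ : Measure ℝ} {Q : Measure ((V → ℝ) × (V → ℝ))}
    (hQ : PairState G μ ρ Q) (b : Bool) (n : ℕ) {p : ℕ → V} (hp : IsRay G p) :
    ∫⁻ q, ENNReal.ofReal (k2f G θ (p n) q) * We G θ (cpy b q) (fun i => p (n - i)) n ∂Q
      = ∫⁻ q, ENNReal.ofReal (k2f G θ (p 0) q) * We G θ (cpy b q) p n ∂Q := by
  have key := path_inv G hT hd hreg hQ n
    (fun r q => ENNReal.ofReal (k2f G θ (r 0) q) * We G θ (cpy b q) r n)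
    (fun r => (ENNReal.measurable_ofReal.comp (measurable_k2f G θ (r 0))).mul
      ((measurable_We G θ _ _).comp (measurable_cpy b)))
    (fun g r q => by simp only [k2f_aut, cpy_aut, We_aut, Function.comp])
    (fun r r' q h => by rw [h 0 (by omega), We_congr G θ _ h])
    (p := fun i => p (n - i)) (p' := p) (IsPth.reverse G (hp n)) (hp n)
  simpa using key

/-- functional used in the two-sided transport -/
noncomputable def k2Φ (θ : ℝ) (l : ℕ) (r : ℕ → V) (q : (V → ℝ) × (V → ℝ)) : ℝ≥0∞ :=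
  ENNReal.ofReal (k2g G θ (r l) (r (l + 1)) q) * We G θ q.2 (fun i => r (l - i)) l

theorem k2Φ_meas (θ : ℝ) (l : ℕ) (r : ℕ → V) : Measurable (k2Φ G θ l r) := by
  have h1 : Measurable (fun q : (V → ℝ) × (V → ℝ) =>
      ENNReal.ofReal (k2g G θ (r l) (r (l + 1)) q)) :=
    ENNReal.measurable_ofReal.comp (measurable_k2g G θ (r l) (r (l + 1)))
  have h2 : Measurable (fun q : (V → ℝ) × (V → ℝ) => We G θ q.2 (fun i => r (l - i)) l) :=
    (measurable_We G θ (fun i => r (l - i)) l).comp measurable_snd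
  exact h1.mul h2

theorem k2Φ_aut (θ : ℝ) (l : ℕ) (g : G ≃g G) (r : ℕ → V) (q : (V → ℝ) × (V → ℝ)) :
    k2Φ G θ l r (q.1 ∘ g, q.2 ∘ g) = k2Φ G θ l (g ∘ r) q := by
  have e1 : k2g G θ (r l) (r (l + 1)) (q.1 ∘ g, q.2 ∘ g)
      = k2g G θ ((g ∘ r) l) ((g ∘ r) (l + 1)) q := k2g_aut G θ g _ _ q
  have e2 : We G θ (q.2 ∘ g) (fun i => r (l - i)) l
      = We G θ q.2 (fun i => (g ∘ r) (l - i)) l := We_aut G θ g q.2 _ l
  unfold k2Φ
  rw [e1]
  exact congrArg _ e2

theorem k2Φ_congr (θ : ℝ) (l : ℕ) (r r' : ℕ → V) (q : (V → ℝ) × (V → ℝ))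
    (h : ∀ i ≤ l + 1, r i = r' i) : k2Φ G θ l r q = k2Φ G θ l r' q := by
  unfold k2Φ
  have e : We G θ q.2 (fun i => r (l - i)) l = We G θ q.2 (fun i => r' (l - i)) l :=
    We_congr G θ _ fun i _ => h (l - i) (by omega)
  rw [e, h l (by omega), h (l + 1) le_rfl]

/-- two-sided mass transport -/
theorem k2_twosided [Countable V] (hT : G.IsTree) {d : ℕ} (hd : 3 ≤ d)
    (hreg : G.IsRegularOfDegree d)
    {θ : ℝ} {μ : Measure (V → Bool)} {ρ : Measure ℝ} {Q : Measure ((V → ℝ) × (V → ℝ))}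
    (hQ : PairState G μ ρ Q) (k l : ℕ) {p : ℕ → V} (hp : IsRay G p) :
    ((d - 1 : ℕ) : ℝ≥0∞) ^ (k + l) * ∫⁻ q, We G θ q.1 (fun i => p (k - i)) k
        * ENNReal.ofReal (k2g G θ (p (k + 1)) (p k) q) * We G θ q.2 (fun i => p (k + 1 + i)) l ∂Q
      = ∫⁻ q, ENNReal.ofReal (k2g G θ (p 1) (p 0) q) * Te G θ q.1 k (p 0) (p 1)
        * Te G θ q.2 l (p 1) (p 0) ∂Q := by
  -- expand the second copy
  have e1 := Te_expand G hT hd hreg θ hQ false l 1
    (fun r q => ENNReal.ofReal (k2g G θ (r 1) (r 0) q) * Te G θ (cpy true q) k (r 0) (r 1)) le_rfl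
    (fun r => (ENNReal.measurable_ofReal.comp (measurable_k2g G θ _ _)).mul
      ((measurable_Te G θ _ _ _).comp (measurable_cpy true)))
    (fun g r q => by simp only [k2g_aut, cpy_aut, Te_aut, Function.comp])
    (fun r r' q h => by rw [h 0 (by omega), h 1 le_rfl])
    (p := p) (p' := p) (hp 1) (hp (1 + l))
  simp only [Nat.sub_self] at e1
  -- expand the first copy
  have hrev : IsPth G (fun i => p (l + 1 - i)) (l + 1) := IsPth.reverse G (hp (l + 1))
  have hrev' : IsPth G (fun i => p (l + 1 + k - i)) (l + 1 + k) :=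
    IsPth.reverse G (hp (l + 1 + k))
  have e2 := Te_expand G hT hd hreg θ hQ true k (l + 1) (k2Φ G θ l) (Nat.le_add_left 1 l)
    (k2Φ_meas G θ l) (k2Φ_aut G θ l) (k2Φ_congr G θ l)
    (p := fun i => p (l + 1 - i)) (p' := fun i => p (l + 1 + k - i)) hrev hrev'
  have z1 : ∀ q : (V → ℝ) × (V → ℝ), k2Φ G θ l (fun i => p (l + 1 - i)) q
      = ENNReal.ofReal (k2g G θ (p 1) (p 0) q) * We G θ q.2 (fun i => p (1 + i)) l := by
    intro q
    unfold k2Φ
    have e : We G θ q.2 (fun i => p (l + 1 - (l - i))) l = We G θ q.2 (fun i => p (1 + i)) l :=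
      We_congr G θ _ fun i _ => by
        rw [show l + 1 - (l - i) = 1 + i by omega]
    simp only [e, show l + 1 - l = 1 by omega, show l + 1 - (l + 1) = 0 by omega]
  have z2 : ∀ q : (V → ℝ) × (V → ℝ), k2Φ G θ l (fun i => p (l + 1 + k - i)) q
      = ENNReal.ofReal (k2g G θ (p (k + 1)) (p k) q)
        * We G θ q.2 (fun i => p (k + 1 + i)) l := by
    intro q
    unfold k2Φ
    have e : We G θ q.2 (fun i => p (l + 1 + k - (l - i))) l
        = We G θ q.2 (fun i => p (k + 1 + i)) l :=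
      We_congr G θ _ fun i _ => by
        rw [show l + 1 + k - (l - i) = k + 1 + i by omega]
    simp only [e, show l + 1 + k - l = k + 1 by omega, show l + 1 + k - (l + 1) = k by omega]
  have z3 : ∀ q : (V → ℝ) × (V → ℝ),
      We G θ (cpy true q) (fun i => p (l + 1 + k - (l + 1 + i))) k
      = We G θ q.1 (fun i => p (k - i)) k := fun q =>
    We_congr G θ _ fun i _ => by
      rw [show l + 1 + k - (l + 1 + i) = k - i by omega]
  have e2' : ∫⁻ q, ENNReal.ofReal (k2g G θ (p 1) (p 0) q) * We G θ q.2 (fun i => p (1 + i)) l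
        * Te G θ q.1 k (p 0) (p 1) ∂Q
      = ((d - 1 : ℕ) : ℝ≥0∞) ^ k * ∫⁻ q, ENNReal.ofReal (k2g G θ (p (k + 1)) (p k) q)
        * We G θ q.2 (fun i => p (k + 1 + i)) l * We G θ q.1 (fun i => p (k - i)) k ∂Q := by
    refine Eq.trans ?_ (e2.trans ?_)
    · refine lintegral_congr fun q => ?_
      rw [z1, show l + 1 - (l + 1) = 0 by omega, show l + 1 - (l + 1 - 1) = 1 by omega]
      rfl
    · congr 1
      refine lintegral_congr fun q => ?_
      rw [z2, z3]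
  have e3 : ∫⁻ q, ENNReal.ofReal (k2g G θ (p 1) (p 0) q) * Te G θ (cpy true q) k (p 0) (p 1)
        * We G θ (cpy false q) (fun i => p (1 + i)) l ∂Q
      = ∫⁻ q, ENNReal.ofReal (k2g G θ (p 1) (p 0) q)
        * We G θ q.2 (fun i => p (1 + i)) l * Te G θ q.1 k (p 0) (p 1) ∂Q := by
    refine lintegral_congr fun q => ?_
    exact mul_right_comm _ _ _
  refine Eq.symm (e1.trans ?_)
  rw [e3, e2', ← mul_assoc, ← pow_add, add_comm l k]
  congr 1
  refine lintegral_congr fun q => ?_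
  rw [mul_comm, ← mul_assoc]

theorem k2_sum_tri (f : ℕ → ℕ → ℝ≥0∞) (N : ℕ) :
    ∑ n ∈ Finset.range N, ∑ k ∈ Finset.range n, f k (n - k - 1)
      ≤ ∑ k ∈ Finset.range N, ∑ l ∈ Finset.range N, f k l := by
  classical
  rw [Finset.sum_sigma', ← Finset.sum_product']
  have hinj : Set.InjOn (fun z : Σ _ : ℕ, ℕ => (z.2, z.1 - z.2 - 1))
      ((Finset.range N).sigma fun n => Finset.range n) := by
    rintro ⟨n, k⟩ h ⟨n', k'⟩ h' e
    simp only [Finset.coe_sigma, Set.mem_sigma_iff, Finset.coe_range, Set.mem_Iio] at h h'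
    simp only [Prod.mk.injEq] at e
    obtain ⟨e1, e2⟩ := e
    subst e1
    have : n = n' := by omega
    subst this
    rfl
  have e := Finset.sum_image (f := fun z : ℕ × ℕ => f z.1 z.2) hinj
  simp only at e
  rw [← e]
  refine Finset.sum_le_sum_of_subset ?_
  intro z hz
  rw [Finset.mem_image] at hz
  obtain ⟨⟨n, k⟩, h, rfl⟩ := hz
  simp only [Finset.mem_sigma, Finset.mem_range, Finset.mem_product] at h ⊢
  omega

/-- bound of the two-sided sum -/
theorem k2_twosum [Countable V] (hT : G.IsTree) {d : ℕ} (hd : 3 ≤ d)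
    (hreg : G.IsRegularOfDegree d)
    {θ : ℝ} (h0 : 0 ≤ θ) (h1 : θ < 1) (hcrit : θ ^ 2 * ((d : ℝ) - 1) ≤ 1)
    {μ : Measure (V → Bool)} {ρ : Measure ℝ} {Q : Measure ((V → ℝ) × (V → ℝ))}
    (hQ : PairState G μ ρ Q) {M τ K : ℝ} (hM : 1 ≤ M) (hτ0 : 0 ≤ τ) (hK : 0 ≤ K)
    (hτ : ∀ n i j, G.Adj i j → ∫ x, ({x | M < Gs G θ x n i j}).indicator
        (fun x => Gs G θ x n i j ^ 2) x ∂(fieldLaw μ (fun _ => ρ)) ≤ τ) (N : ℕ)
    {p : ℕ → V} (hp : IsRay G p)
    (hδ : ∀ᵐ q ∂Q, k2g G θ (p 1) (p 0) q ≤ K * (k2f G θ (p 1) q + k2f G θ (p 0) q)) :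
    ∑ n ∈ Finset.range N, ((d - 1 : ℕ) : ℝ≥0∞) ^ n *
        ∑ k ∈ Finset.range n, ENNReal.ofReal (θ ^ 2) *
          ∫⁻ q, We G θ q.1 (fun i => p (k - i)) k
            * ENNReal.ofReal (k2g G θ (p (k + 1)) (p k) q)
            * We G θ q.2 (fun i => p (k + 1 + i)) (n - k - 1) ∂Q
      ≤ ENNReal.ofReal (2 * K * M ^ 2 * yy G θ Q (p 0) + 8 * τ) := by
  have hprob := hQ.prob
  set D : ℝ≥0∞ := ((d - 1 : ℕ) : ℝ≥0∞) with hD
  set y := yy G θ Q (p 0) with hy
  have hy0 : 0 ≤ y := k2_yy_nonneg G (p 0)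
  have hadj : G.Adj (p 0) (p 1) := (hp 1).1 0 (by omega)
  set B : ℕ → ℕ → ℝ≥0∞ := fun k l => ∫⁻ q, We G θ q.1 (fun i => p (k - i)) k
      * ENNReal.ofReal (k2g G θ (p (k + 1)) (p k) q)
      * We G θ q.2 (fun i => p (k + 1 + i)) l ∂Q with hB
  set T : ℕ → ℕ → ℝ≥0∞ := fun k l => ∫⁻ q, ENNReal.ofReal (k2g G θ (p 1) (p 0) q)
      * Te G θ q.1 k (p 0) (p 1) * Te G θ q.2 l (p 1) (p 0) ∂Q with hTT
  have hBT : ∀ k l, D ^ (k + l) * B k l = T k l := fun k l => k2_twosided G hT hd hreg hQ k l hp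
  -- step 1: the sum is at most the double sum of `T`
  have s1 : ∑ n ∈ Finset.range N, D ^ n * ∑ k ∈ Finset.range n,
      ENNReal.ofReal (θ ^ 2) * B k (n - k - 1)
      ≤ ∑ n ∈ Finset.range N, ∑ k ∈ Finset.range n, T k (n - k - 1) := by
    refine Finset.sum_le_sum fun n _ => ?_
    rw [Finset.mul_sum]
    refine Finset.sum_le_sum fun k hk => ?_
    rw [Finset.mem_range] at hk
    have hpow : D ^ n = D * D ^ (k + (n - k - 1)) := by
      rw [← pow_succ']
      congr 1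
      omega
    calc D ^ n * (ENNReal.ofReal (θ ^ 2) * B k (n - k - 1))
        = (D * ENNReal.ofReal (θ ^ 2)) * (D ^ (k + (n - k - 1)) * B k (n - k - 1)) := by
          rw [hpow]; ring
      _ ≤ 1 * (D ^ (k + (n - k - 1)) * B k (n - k - 1)) := by
          gcongr
          exact k2_D_theta hd hcrit
      _ = _ := by rw [one_mul, hBT]
  have hmT : ∀ k l, Measurable (fun q : (V → ℝ) × (V → ℝ) =>
      ENNReal.ofReal (k2g G θ (p 1) (p 0) q)
      * Te G θ q.1 k (p 0) (p 1) * Te G θ q.2 l (p 1) (p 0)) := fun k l =>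
    ((ENNReal.measurable_ofReal.comp (measurable_k2g G θ _ _)).mul
      ((measurable_Te G θ k _ _).comp measurable_fst)).mul
      ((measurable_Te G θ l _ _).comp measurable_snd)
  -- step 2: the double sum of `T`
  have s2 : ∑ k ∈ Finset.range N, ∑ l ∈ Finset.range N, T k l
      = ∫⁻ q, ENNReal.ofReal (k2g G θ (p 1) (p 0) q)
        * (∑ k ∈ Finset.range N, Te G θ q.1 k (p 0) (p 1))
        * (∑ l ∈ Finset.range N, Te G θ q.2 l (p 1) (p 0)) ∂Q := by
    have e : ∀ k, ∑ l ∈ Finset.range N, T k l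
        = ∫⁻ q, ∑ l ∈ Finset.range N, ENNReal.ofReal (k2g G θ (p 1) (p 0) q)
          * Te G θ q.1 k (p 0) (p 1) * Te G θ q.2 l (p 1) (p 0) ∂Q := fun k =>
      (lintegral_finsetSum _ (fun l _ => hmT k l)).symm
    simp only [e]
    rw [← lintegral_finsetSum _ (fun k _ => Finset.measurable_sum _ fun l _ => hmT k l)]
    refine lintegral_congr fun q => ?_
    rw [mul_assoc, Finset.sum_mul_sum, Finset.mul_sum]
    refine Finset.sum_congr rfl fun k _ => ?_
    rw [Finset.mul_sum]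
    refine Finset.sum_congr rfl fun l _ => ?_
    rw [mul_assoc]
  have s3 : ∀ᵐ q ∂Q, ENNReal.ofReal (k2g G θ (p 1) (p 0) q)
        * (∑ k ∈ Finset.range N, Te G θ q.1 k (p 0) (p 1))
        * (∑ l ∈ Finset.range N, Te G θ q.2 l (p 1) (p 0))
      ≤ ENNReal.ofReal (K * M ^ 2) * (ENNReal.ofReal (k2f G θ (p 1) q)
          + ENNReal.ofReal (k2f G θ (p 0) q))
        + 4 * (ENNReal.ofReal (k2t G θ M N (p 0) (p 1) (cpy true q))
          + ENNReal.ofReal (k2t G θ M N (p 1) (p 0) (cpy false q))) := by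
    filter_upwards [hδ] with q hq
    have ha : ∑ k ∈ Finset.range N, Te G θ q.1 k (p 0) (p 1)
        ≤ ENNReal.ofReal (Gs G θ q.1 N (p 0) (p 1)) := by
      rw [← sum_Te]
      exact Finset.sum_le_sum_of_subset (Finset.range_mono (by omega))
    have hb : ∑ k ∈ Finset.range N, Te G θ q.2 k (p 1) (p 0)
        ≤ ENNReal.ofReal (Gs G θ q.2 N (p 1) (p 0)) := by
      rw [← sum_Te]
      exact Finset.sum_le_sum_of_subset (Finset.range_mono (by omega))
    refine (mul_le_mul' (mul_le_mul' le_rfl ha) hb).trans ?_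
    set g1 := Gs G θ q.1 N (p 0) (p 1) with hg1
    set g2 := Gs G θ q.2 N (p 1) (p 0) with hg2
    have o1 : 1 ≤ g1 := one_le_Gs' G θ _ _ _ _
    have o2 : 1 ≤ g2 := one_le_Gs' G θ _ _ _ _
    have n0 := k2g_nonneg G θ (p 1) (p 0) q
    have n4 := k2g_le G θ (p 1) (p 0) q
    have f0 := k2f_nonneg G θ (p 0) q
    have f1 := k2f_nonneg G θ (p 1) q
    set t1 := k2t G θ M N (p 0) (p 1) (cpy true q) with ht1
    set t2 := k2t G θ M N (p 1) (p 0) (cpy false q) with ht2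
    have t10 : 0 ≤ t1 := k2t_nonneg G θ M N _ _ _
    have t20 : 0 ≤ t2 := k2t_nonneg G θ M N _ _ _
    rw [← ENNReal.ofReal_mul n0, ← ENNReal.ofReal_mul (mul_nonneg n0 (by linarith)),
      ← ENNReal.ofReal_add f1 f0, ← ENNReal.ofReal_mul (by positivity),
      ← ENNReal.ofReal_add t10 t20, show (4 : ℝ≥0∞) = ENNReal.ofReal 4 by simp,
      ← ENNReal.ofReal_mul (by norm_num),
      ← ENNReal.ofReal_add (by positivity) (by positivity)]
    refine ENNReal.ofReal_le_ofReal ?_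
    have hM0 : 0 ≤ M := by linarith
    have main : g1 * g2 ≤ M ^ 2 + (t1 + t2) ∨ False := by
      left
      by_cases c1 : M < g1
      · have e1 : t1 = g1 ^ 2 := Set.indicator_of_mem (s := {x | M < Gs G θ x N (p 0) (p 1)})
          (show cpy true q ∈ _ from c1) _
        by_cases c2 : M < g2
        · have e2 : t2 = g2 ^ 2 := Set.indicator_of_mem (s := {x | M < Gs G θ x N (p 1) (p 0)})
            (show cpy false q ∈ _ from c2) _
          rw [e1, e2]
          nlinarith [sq_nonneg (g1 - g2), sq_nonneg M, sq_nonneg g1, sq_nonneg g2]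
        · rw [e1]
          have : g2 ≤ g1 := (not_lt.1 c2).trans c1.le
          nlinarith [sq_nonneg M]
      · by_cases c2 : M < g2
        · have e2 : t2 = g2 ^ 2 := Set.indicator_of_mem (s := {x | M < Gs G θ x N (p 1) (p 0)})
            (show cpy false q ∈ _ from c2) _
          rw [e2]
          have : g1 ≤ g2 := (not_lt.1 c1).trans c2.le
          nlinarith [sq_nonneg M]
        · have h3 := not_lt.1 c1
          have h4 := not_lt.1 c2
          nlinarith [mul_le_mul h3 h4 (by linarith) hM0]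
    have main' : g1 * g2 ≤ M ^ 2 + (t1 + t2) := main.resolve_right id
    calc k2g G θ (p 1) (p 0) q * g1 * g2 = k2g G θ (p 1) (p 0) q * (g1 * g2) := by ring
      _ ≤ k2g G θ (p 1) (p 0) q * (M ^ 2 + (t1 + t2)) := mul_le_mul_of_nonneg_left main' n0
      _ = k2g G θ (p 1) (p 0) q * M ^ 2 + k2g G θ (p 1) (p 0) q * (t1 + t2) := by ring
      _ ≤ (K * (k2f G θ (p 1) q + k2f G θ (p 0) q)) * M ^ 2 + 4 * (t1 + t2) :=
          add_le_add (mul_le_mul_of_nonneg_right hq (sq_nonneg _))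
            (mul_le_mul_of_nonneg_right n4 (by linarith))
      _ = _ := by ring
  have hmf : ∀ v, Measurable (fun q : (V → ℝ) × (V → ℝ) => ENNReal.ofReal (k2f G θ v q)) :=
    fun v => ENNReal.measurable_ofReal.comp (measurable_k2f G θ v)
  have hmt : ∀ (b : Bool) (i j : V), Measurable (fun q : (V → ℝ) × (V → ℝ) =>
      ENNReal.ofReal (k2t G θ M N i j (cpy b q))) := fun b i j =>
    ENNReal.measurable_ofReal.comp ((measurable_k2t G θ M N i j).comp (measurable_cpy b))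
  calc _ ≤ ∑ n ∈ Finset.range N, ∑ k ∈ Finset.range n, T k (n - k - 1) := s1
    _ ≤ ∑ k ∈ Finset.range N, ∑ l ∈ Finset.range N, T k l := k2_sum_tri T N
    _ ≤ ∫⁻ q, (ENNReal.ofReal (K * M ^ 2) * (ENNReal.ofReal (k2f G θ (p 1) q)
          + ENNReal.ofReal (k2f G θ (p 0) q))
        + 4 * (ENNReal.ofReal (k2t G θ M N (p 0) (p 1) (cpy true q))
          + ENNReal.ofReal (k2t G θ M N (p 1) (p 0) (cpy false q)))) ∂Q := by
        rw [s2]
        exact lintegral_mono_ae s3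
    _ = ENNReal.ofReal (K * M ^ 2) * (ENNReal.ofReal y + ENNReal.ofReal y)
        + 4 * (∫⁻ q, ENNReal.ofReal (k2t G θ M N (p 0) (p 1) (cpy true q)) ∂Q
          + ∫⁻ q, ENNReal.ofReal (k2t G θ M N (p 1) (p 0) (cpy false q)) ∂Q) := by
        have m1 : Measurable (fun q : (V → ℝ) × (V → ℝ) => ENNReal.ofReal (k2f G θ (p 1) q)
          + ENNReal.ofReal (k2f G θ (p 0) q)) := (hmf (p 1)).add (hmf (p 0))
        have m2 : Measurable (fun q : (V → ℝ) × (V → ℝ) =>
          ENNReal.ofReal (k2t G θ M N (p 0) (p 1) (cpy true q))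
          + ENNReal.ofReal (k2t G θ M N (p 1) (p 0) (cpy false q))) :=
          (hmt _ _ _).add (hmt _ _ _)
        have m3 : Measurable (fun q : (V → ℝ) × (V → ℝ) =>
          ENNReal.ofReal (K * M ^ 2) * (ENNReal.ofReal (k2f G θ (p 1) q)
          + ENNReal.ofReal (k2f G θ (p 0) q))) := m1.const_mul _
        rw [lintegral_add_left m3, lintegral_const_mul _ m1,
          lintegral_add_left (hmf (p 1)), lintegral_const_mul _ m2,
          lintegral_add_left (hmt _ _ _), k2_lint_f, k2_lint_f,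
          yy_const G hT hd hreg θ hQ (p 1) (p 0)]
    _ ≤ ENNReal.ofReal (K * M ^ 2) * (ENNReal.ofReal y + ENNReal.ofReal y)
        + 4 * (ENNReal.ofReal τ + ENNReal.ofReal τ) := by
        gcongr
        · exact k2_trunc G hd hreg h0 h1 hcrit hQ hτ true N hadj
        · exact k2_trunc G hd hreg h0 h1 hcrit hQ hτ false N hadj.symm
    _ = _ := by
        rw [← ENNReal.ofReal_add hy0 hy0, ← ENNReal.ofReal_mul (by positivity),
          ← ENNReal.ofReal_add hτ0 hτ0, show (4 : ℝ≥0∞) = ENNReal.ofReal 4 by simp,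
          ← ENNReal.ofReal_mul (by norm_num), ← ENNReal.ofReal_add (by positivity) (by positivity)]
        congr 1
        ring

theorem k2_arith {a b K : ℝ} (ha : 0 ≤ a) (hb : 0 ≤ b) (hK : 0 ≤ K) :
    2 * (8 * ENNReal.ofReal a + ENNReal.ofReal K * ENNReal.ofReal b + ENNReal.ofReal a)
      = ENNReal.ofReal (2 * (8 * a + K * b + a)) := by
  rw [ENNReal.ofReal_mul (by norm_num : (0 : ℝ) ≤ 2),
    ENNReal.ofReal_add (add_nonneg (by positivity) (by positivity)) ha,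
    ENNReal.ofReal_add (by positivity) (by positivity),
    ENNReal.ofReal_mul (by norm_num : (0 : ℝ) ≤ 8), ENNReal.ofReal_mul hK]
  simp

/-- stage (ii) kernel bound: mass transport + `H e^{-H}` trick + truncation -/
theorem ker2 [Countable V] (hT : G.IsTree) {d : ℕ} (hd : 3 ≤ d) (hreg : G.IsRegularOfDegree d)
    {θ : ℝ} (h0 : 0 ≤ θ) (h1 : θ < 1) (hcrit : θ ^ 2 * ((d : ℝ) - 1) ≤ 1)
    {μ : Measure (V → Bool)} [IsProbabilityMeasure μ] (hμ : IsIsing G θ μ) (L : ℝ) (hL : 0 ≤ L) :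
    ∃ C : ℝ, 0 < C ∧ ∀ (ρ : Measure ℝ) (Q : Measure ((V → ℝ) × (V → ℝ))), Chan ρ L →
      (∀ᵐ x ∂(fieldLaw μ (fun _ => ρ)), Good G θ x) → PairState G μ ρ Q →
      ∀ (p : ℕ → V), IsRay G p → ∀ M τ : ℝ, 1 ≤ M → 0 ≤ τ →
      (∀ n i j, G.Adj i j → ∫ x, ({x | M < Gs G θ x n i j}).indicator
        (fun x => Gs G θ x n i j ^ 2) x ∂(fieldLaw μ (fun _ => ρ)) ≤ τ) →
      KK G θ (d - 1) p Q ≤ ENNReal.ofReal (C * (M ^ 2 * yy G θ Q (p 0) + τ)) := by
  -- constants
  set L' : ℝ := L + d * Real.artanh θ with hL'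
  set K1 : ℝ := k2K θ L' with hK1
  have hK10 : 0 ≤ K1 := k2K_nonneg h0 h1 L'
  set K2 : ℝ := Real.cosh L' ^ 2 / (1 - θ) with hK2
  have hK20 : 0 ≤ K2 := div_nonneg (sq_nonneg _) (by linarith)
  refine ⟨2 * (36 + 2 * K1 * (4 * K2 ^ 2 + 8)), by positivity, ?_⟩
  intro ρ Q hρ hgood hQ p hp M τ hM hτ0 hτ
  have hprob := hQ.prob
  set y := yy G θ Q (p 0) with hy
  have hy0 : 0 ≤ y := k2_yy_nonneg G (p 0)
  set D : ℝ≥0∞ := ((d - 1 : ℕ) : ℝ≥0∞) with hD
  -- almost sure properties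
  have hbdd := fieldLaw_bdd (V := V) (μ := μ) (ρ := fun _ => ρ) (L := L) (fun _ => hρ)
  have g1 : ∀ᵐ q ∂Q, Good G θ q.1 := by
    rw [← hQ.fst] at hgood
    exact ae_of_ae_map measurable_fst.aemeasurable hgood
  have g2 : ∀ᵐ q ∂Q, Good G θ q.2 := by
    rw [← hQ.snd] at hgood
    exact ae_of_ae_map measurable_snd.aemeasurable hgood
  have b1 : ∀ᵐ q ∂Q, ∀ w, |q.1 w| ≤ L := by
    rw [← hQ.fst] at hbdd
    exact ae_of_ae_map measurable_fst.aemeasurable hbdd
  have b2 : ∀ᵐ q ∂Q, ∀ w, |q.2 w| ≤ L := by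
    rw [← hQ.snd] at hbdd
    exact ae_of_ae_map measurable_snd.aemeasurable hbdd
  have hadj : G.Adj (p 1) (p 0) := ((hp 1).1 0 (by omega)).symm
  -- difference of messages
  have hδ : ∀ᵐ q ∂Q, k2g G θ (p 1) (p 0) q
      ≤ (2 * K2 ^ 2) * (k2f G θ (p 1) q + k2f G θ (p 0) q) := by
    filter_upwards [g1, g2, b1, b2] with q c1 c2 c3 c4
    have e1 := hl_sub_le G h0 h1 hreg c1 c2 c3 c4 hadj
    have e2 := tanh_lip (hl G θ q.1 (p 1) (p 0)) (hl G θ q.2 (p 1) (p 0))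
    have e3 := e2.trans e1
    unfold k2g k2f
    set u := |mm G θ q.1 (p 1) - mm G θ q.2 (p 1)| with hu
    set v := |mm G θ q.1 (p 0) - mm G θ q.2 (p 0)| with hv
    rw [← sq_abs (mm G θ q.1 (p 1) - mm G θ q.2 (p 1)),
      ← sq_abs (mm G θ q.1 (p 0) - mm G θ q.2 (p 0)),
      ← sq_abs (al G θ q.1 (p 1) (p 0) - al G θ q.2 (p 1) (p 0)), ← hu, ← hv]
    have e4 : |al G θ q.1 (p 1) (p 0) - al G θ q.2 (p 1) (p 0)| ≤ K2 * (u + v) := e3
    calc |al G θ q.1 (p 1) (p 0) - al G θ q.2 (p 1) (p 0)| ^ 2 ≤ (K2 * (u + v)) ^ 2 :=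
          pow_le_pow_left₀ (abs_nonneg _) e4 2
      _ ≤ _ := by nlinarith [mul_nonneg (sq_nonneg K2) (sq_nonneg (u - v))]
  -- pointwise bound in `ℝ≥0∞`
  have hpt : ∀ n, ∀ᵐ q ∂Q, ENNReal.ofReal (kker G θ p n q)
      ≤ 8 * (ENNReal.ofReal (k2f G θ (p 0) q) * We G θ (cpy true q) p n)
        + ENNReal.ofReal (2 * K1) * ∑ k ∈ Finset.range n, ENNReal.ofReal (θ ^ 2) *
          (We G θ q.1 (fun i => p (k - i)) k
            * ENNReal.ofReal (k2g G θ (p (k + 1)) (p k) q)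
            * We G θ q.2 (fun i => p (k + 1 + i)) (n - k - 1))
        + ENNReal.ofReal (k2f G θ (p n) q) * We G θ (cpy false q) (fun i => p (n - i)) n := by
    intro n
    filter_upwards [g1, g2, b1] with q c1 c2 c3
    have hH : ∀ v, |Hl G θ q.1 v| ≤ L' := fun v => Hl_bound G h0 h1 hreg c3 v
    have hk := kker_le G h0 h1 c1 c2 hH (hp n)
    refine (ENNReal.ofReal_le_ofReal hk).trans ?_
    have w1 := Wr_nonneg G θ q.1 p n
    have n1 : 0 ≤ 8 * ((mm G θ q.1 (p 0) - mm G θ q.2 (p 0)) ^ 2 * Wr G θ q.1 p n) := by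
      positivity
    have nt : ∀ k ∈ Finset.range n, 0 ≤ θ ^ 2 * (Wr G θ q.1 (fun i => p (k - i)) k
        * (al G θ q.1 (p (k + 1)) (p k) - al G θ q.2 (p (k + 1)) (p k)) ^ 2
        * Wr G θ q.2 (fun i => p (k + 1 + i)) (n - k - 1)) := fun k _ =>
      mul_nonneg (sq_nonneg _) (mul_nonneg (mul_nonneg (Wr_nonneg G θ _ _ _) (sq_nonneg _))
        (Wr_nonneg G θ _ _ _))
    have n2 : 0 ≤ 2 * K1 * ∑ k ∈ Finset.range n, θ ^ 2 * (Wr G θ q.1 (fun i => p (k - i)) k
        * (al G θ q.1 (p (k + 1)) (p k) - al G θ q.2 (p (k + 1)) (p k)) ^ 2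
        * Wr G θ q.2 (fun i => p (k + 1 + i)) (n - k - 1)) :=
      mul_nonneg (by linarith) (Finset.sum_nonneg nt)
    have n3 : 0 ≤ (mm G θ q.1 (p n) - mm G θ q.2 (p n)) ^ 2
        * Wr G θ q.2 (fun i => p (n - i)) n :=
      mul_nonneg (sq_nonneg _) (Wr_nonneg G θ _ _ _)
    rw [ENNReal.ofReal_add (add_nonneg n1 n2) n3, ENNReal.ofReal_add n1 n2,
      ENNReal.ofReal_mul (by norm_num : (0 : ℝ) ≤ 8), ENNReal.ofReal_mul (sq_nonneg _),
      ENNReal.ofReal_mul (by linarith : 0 ≤ 2 * K1), ENNReal.ofReal_sum_of_nonneg nt,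
      ENNReal.ofReal_mul (sq_nonneg _)]
    refine le_of_eq ?_
    congr 1
    · congr 1
      · congr 1
        · simp
        · congr 1
          exact ofReal_Wr G θ q.1 p n
      · congr 1
        refine Finset.sum_congr rfl fun k _ => ?_
        rw [ENNReal.ofReal_mul (sq_nonneg _), ENNReal.ofReal_mul
          (mul_nonneg (Wr_nonneg G θ _ _ _) (sq_nonneg _)),
          ENNReal.ofReal_mul (Wr_nonneg G θ _ _ _), ofReal_Wr, ofReal_Wr]
        rfl
    · congr 1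
      exact ofReal_Wr G θ q.2 _ n
  -- measurability
  have hmf : ∀ v, Measurable (fun q : (V → ℝ) × (V → ℝ) => ENNReal.ofReal (k2f G θ v q)) :=
    fun v => ENNReal.measurable_ofReal.comp (measurable_k2f G θ v)
  have hmg : ∀ i j, Measurable (fun q : (V → ℝ) × (V → ℝ) => ENNReal.ofReal (k2g G θ i j q)) :=
    fun i j => ENNReal.measurable_ofReal.comp (measurable_k2g G θ i j)
  have hmW1 : ∀ n, Measurable (fun q : (V → ℝ) × (V → ℝ) => We G θ (cpy true q) p n) := fun n =>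
    (measurable_We G θ p n).comp (measurable_cpy true)
  have hmW2 : ∀ k, Measurable (fun q : (V → ℝ) × (V → ℝ) => We G θ q.1 (fun i => p (k - i)) k) :=
    fun k => (measurable_We G θ (fun i => p (k - i)) k).comp measurable_fst
  have hmW3 : ∀ n k, Measurable (fun q : (V → ℝ) × (V → ℝ) =>
      We G θ q.2 (fun i => p (k + 1 + i)) (n - k - 1)) :=
    fun n k => (measurable_We G θ (fun i => p (k + 1 + i)) (n - k - 1)).comp measurable_snd
  have hmA0 : ∀ n, Measurable (fun q : (V → ℝ) × (V → ℝ) =>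
      ENNReal.ofReal (k2f G θ (p 0) q) * We G θ (cpy true q) p n) := fun n =>
    (hmf (p 0)).mul (hmW1 n)
  have hmA : ∀ n, Measurable (fun q : (V → ℝ) × (V → ℝ) =>
      8 * (ENNReal.ofReal (k2f G θ (p 0) q) * We G θ (cpy true q) p n)) := fun n =>
    (hmA0 n).const_mul _
  have hmB : ∀ n k, Measurable (fun q : (V → ℝ) × (V → ℝ) =>
      We G θ q.1 (fun i => p (k - i)) k
        * ENNReal.ofReal (k2g G θ (p (k + 1)) (p k) q)
        * We G θ q.2 (fun i => p (k + 1 + i)) (n - k - 1)) := fun n k =>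
    ((hmW2 k).mul (hmg (p (k + 1)) (p k))).mul (hmW3 n k)
  have hmB' : ∀ n, Measurable (fun q : (V → ℝ) × (V → ℝ) =>
      ∑ k ∈ Finset.range n, ENNReal.ofReal (θ ^ 2) *
          (We G θ q.1 (fun i => p (k - i)) k
            * ENNReal.ofReal (k2g G θ (p (k + 1)) (p k) q)
            * We G θ q.2 (fun i => p (k + 1 + i)) (n - k - 1))) := fun n =>
    Finset.measurable_sum _ fun k _ => (hmB n k).const_mul _
  -- integrate
  have hint : ∀ n, ∫⁻ q, ENNReal.ofReal (kker G θ p n q) ∂Q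
      ≤ 8 * ∫⁻ q, ENNReal.ofReal (k2f G θ (p 0) q) * We G θ (cpy true q) p n ∂Q
        + ENNReal.ofReal (2 * K1) * ∑ k ∈ Finset.range n, ENNReal.ofReal (θ ^ 2) *
          ∫⁻ q, We G θ q.1 (fun i => p (k - i)) k
            * ENNReal.ofReal (k2g G θ (p (k + 1)) (p k) q)
            * We G θ q.2 (fun i => p (k + 1 + i)) (n - k - 1) ∂Q
        + ∫⁻ q, ENNReal.ofReal (k2f G θ (p 0) q) * We G θ (cpy false q) p n ∂Q := by
    intro n
    refine (lintegral_mono_ae (hpt n)).trans (le_of_eq ?_)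
    have m1 : Measurable (fun q : (V → ℝ) × (V → ℝ) =>
      8 * (ENNReal.ofReal (k2f G θ (p 0) q) * We G θ (cpy true q) p n)
        + ENNReal.ofReal (2 * K1) * ∑ k ∈ Finset.range n, ENNReal.ofReal (θ ^ 2) *
          (We G θ q.1 (fun i => p (k - i)) k
            * ENNReal.ofReal (k2g G θ (p (k + 1)) (p k) q)
            * We G θ q.2 (fun i => p (k + 1 + i)) (n - k - 1))) :=
      (hmA n).add ((hmB' n).const_mul _)
    have m2 := hmA0 n
    have m3 : ∀ k, Measurable (fun q : (V → ℝ) × (V → ℝ) => ENNReal.ofReal (θ ^ 2) *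
          (We G θ q.1 (fun i => p (k - i)) k
            * ENNReal.ofReal (k2g G θ (p (k + 1)) (p k) q)
            * We G θ q.2 (fun i => p (k + 1 + i)) (n - k - 1))) := fun k =>
      (hmB n k).const_mul _
    rw [lintegral_add_left m1, lintegral_add_left (hmA n), lintegral_const_mul _ m2,
      lintegral_const_mul _ (hmB' n), lintegral_finsetSum _ (fun k _ => m3 k),
      k2_onesided_rev G hT hd hreg hQ false n hp]
    congr 3
    refine Finset.sum_congr rfl fun k _ => ?_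
    rw [lintegral_const_mul _ (hmB n k)]
  -- sum
  unfold KK
  rw [ENNReal.tsum_eq_iSup_nat]
  refine iSup_le fun N => ?_
  have o1 := k2_onesided G hT hd hreg h0 h1 hcrit hQ hM hτ0 hτ true N hp
  have o2 := k2_onesided G hT hd hreg h0 h1 hcrit hQ hM hτ0 hτ false N hp
  have o3 := k2_twosum G hT hd hreg h0 h1 hcrit hQ hM hτ0 (by positivity : 0 ≤ 2 * K2 ^ 2) hτ N
    hp hδ
  calc ∑ n ∈ Finset.range N, 2 * D ^ n * ∫⁻ q, ENNReal.ofReal (kker G θ p n q) ∂Q
      ≤ ∑ n ∈ Finset.range N, 2 * D ^ n *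
        (8 * ∫⁻ q, ENNReal.ofReal (k2f G θ (p 0) q) * We G θ (cpy true q) p n ∂Q
        + ENNReal.ofReal (2 * K1) * ∑ k ∈ Finset.range n, ENNReal.ofReal (θ ^ 2) *
          ∫⁻ q, We G θ q.1 (fun i => p (k - i)) k
            * ENNReal.ofReal (k2g G θ (p (k + 1)) (p k) q)
            * We G θ q.2 (fun i => p (k + 1 + i)) (n - k - 1) ∂Q
        + ∫⁻ q, ENNReal.ofReal (k2f G θ (p 0) q) * We G θ (cpy false q) p n ∂Q) :=
        Finset.sum_le_sum fun n _ => mul_le_mul' le_rfl (hint n)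
    _ = 2 * (8 * (∑ n ∈ Finset.range N, D ^ n *
          ∫⁻ q, ENNReal.ofReal (k2f G θ (p 0) q) * We G θ (cpy true q) p n ∂Q)
        + ENNReal.ofReal (2 * K1) * (∑ n ∈ Finset.range N, D ^ n *
          ∑ k ∈ Finset.range n, ENNReal.ofReal (θ ^ 2) *
          ∫⁻ q, We G θ q.1 (fun i => p (k - i)) k
            * ENNReal.ofReal (k2g G θ (p (k + 1)) (p k) q)
            * We G θ q.2 (fun i => p (k + 1 + i)) (n - k - 1) ∂Q)
        + ∑ n ∈ Finset.range N, D ^ n *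
          ∫⁻ q, ENNReal.ofReal (k2f G θ (p 0) q) * We G θ (cpy false q) p n ∂Q) := by
        rw [Finset.mul_sum, Finset.mul_sum (a := ENNReal.ofReal (2 * K1)),
          ← Finset.sum_add_distrib, ← Finset.sum_add_distrib, Finset.mul_sum (a := 2)]
        refine Finset.sum_congr rfl fun n _ => ?_
        ring
    _ ≤ 2 * (8 * ENNReal.ofReal (2 * M * y + 4 * τ)
        + ENNReal.ofReal (2 * K1) * ENNReal.ofReal (2 * (2 * K2 ^ 2) * M ^ 2 * y + 8 * τ)
        + ENNReal.ofReal (2 * M * y + 4 * τ)) := by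
        gcongr
    _ = ENNReal.ofReal (2 * (8 * (2 * M * y + 4 * τ)
        + 2 * K1 * (2 * (2 * K2 ^ 2) * M ^ 2 * y + 8 * τ)
        + (2 * M * y + 4 * τ))) := by
        have p1 : 0 ≤ 2 * M * y + 4 * τ := by positivity
        have p2 : 0 ≤ 2 * (2 * K2 ^ 2) * M ^ 2 * y + 8 * τ := by positivity
        exact k2_arith p1 p2 (by linarith : 0 ≤ 2 * K1)
    _ ≤ _ := by
        refine ENNReal.ofReal_le_ofReal ?_
        have hMy : M * y ≤ M ^ 2 * y := by nlinarith [mul_nonneg (by linarith : 0 ≤ M) hy0]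
        have hA : 0 ≤ M ^ 2 * y := by positivity
        have hK : 0 ≤ K1 * K2 ^ 2 := by positivity
        nlinarith [mul_nonneg hK hA, mul_nonneg hK hτ0, mul_nonneg hK10 hA, mul_nonneg hK10 hτ0]

end Crest.Agent.FI
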