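import Mathlib

set_option autoImplicit false

namespace Crest.Agent.FI

open Set Filter Topology

lemma od_one_sub_exp {x : ℝ} (h0 : 0 ≤ x) (h1 : x ≤ 1 / 2) : 1 ≤ (1 - x) * Real.exp (2 * x) := by
  have h2 : 1 + 2 * x ≤ Real.exp (2 * x) := by
    have := Real.add_one_le_exp (2 * x); linarith
  have h3 : (1 - x) * (1 + 2 * x) ≤ (1 - x) * Real.exp (2 * x) :=
    mul_le_mul_of_nonneg_left h2 (by linarith)
  nlinarith

/-- discrete Gronwall -/
lemma od_gron {y : ℝ → ℝ} {a b L ε : ℝ} (hab : a ≤ b) (hL : 0 ≤ L) (hε : 0 ≤ ε)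
    (hy : ∀ t ∈ Icc a b, 0 ≤ y t)
    (hinc : ∀ u v, a ≤ u → u < v → v ≤ b → y v - y u ≤ (v - u) * (L * y v + ε)) :
    y b ≤ (y a + (b - a) * ε) * Real.exp (2 * L * (b - a)) := by
  rcases eq_or_lt_of_le hab with h | hlt
  · subst h; simp
  obtain ⟨n, hn⟩ := exists_nat_gt (2 * L * (b - a))
  have hn0 : (0 : ℝ) < n + 1 := by positivity
  set N : ℕ := n + 1 with hN
  have hNr : (N : ℝ) = n + 1 := by rw [hN]; push_cast; ring
  set h : ℝ := (b - a) / N with hh
  have hNpos : (0 : ℝ) < N := by rw [hNr]; exact hn0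
  have hhpos : 0 < h := div_pos (by linarith) hNpos
  have hNh : N * h = b - a := by rw [hh]; field_simp
  have hhL : h * L ≤ 1 / 2 := by
    rw [hh, div_mul_eq_mul_div, div_le_iff₀ hNpos]
    rw [hNr]; nlinarith
  have key : ∀ k : ℕ, k ≤ N → y (a + k * h) ≤ (y a + k * h * ε) * Real.exp (2 * L * (k * h)) := by
    intro k
    induction k with
    | zero => intro _; simp
    | succ k ih =>
      intro hk
      have ih' := ih (by omega)
      have hkN : ((k : ℝ) + 1) ≤ N := by exact_mod_cast hk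
      have hu : a ≤ a + k * h := by
        have : 0 ≤ (k : ℝ) * h := by positivity
        linarith
      have hv : a + (k + 1 : ℝ) * h ≤ b := by
        have : ((k : ℝ) + 1) * h ≤ N * h := mul_le_mul_of_nonneg_right hkN hhpos.le
        linarith
      have huv : a + (k : ℝ) * h < a + (k + 1 : ℝ) * h := by nlinarith
      have hi := hinc _ _ hu huv hv
      have hyv : 0 ≤ y (a + (k + 1 : ℝ) * h) := hy _ ⟨by linarith, hv⟩
      have e1 : a + (k + 1 : ℝ) * h - (a + k * h) = h := by ring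
      rw [e1] at hi
      have hya : 0 ≤ y a := hy a ⟨le_refl a, hab⟩
      -- y v (1 - h L) ≤ y u + h ε
      have h1 : (1 - h * L) * y (a + (k + 1 : ℝ) * h) ≤ y (a + k * h) + h * ε := by nlinarith
      have h2 : y (a + k * h) + h * ε ≤ (y a + (k + 1) * h * ε) * Real.exp (2 * L * (k * h)) := by
        have he : 1 ≤ Real.exp (2 * L * (k * h)) := Real.one_le_exp (by positivity)
        have hhe : h * ε ≤ h * ε * Real.exp (2 * L * (k * h)) :=
          le_mul_of_one_le_right (by positivity) he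
        calc y (a + k * h) + h * ε ≤ (y a + k * h * ε) * Real.exp (2 * L * (k * h))
              + h * ε * Real.exp (2 * L * (k * h)) := add_le_add ih' hhe
          _ = (y a + (k + 1) * h * ε) * Real.exp (2 * L * (k * h)) := by ring
      have h3 := od_one_sub_exp (x := h * L) (by positivity) hhL
      have h4 : y (a + (k + 1 : ℝ) * h)
          ≤ ((1 - h * L) * Real.exp (2 * (h * L))) * y (a + (k + 1 : ℝ) * h) :=
        le_mul_of_one_le_left hyv h3
      have h5 : ((1 - h * L) * Real.exp (2 * (h * L))) * y (a + (k + 1 : ℝ) * h)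
          = Real.exp (2 * (h * L)) * ((1 - h * L) * y (a + (k + 1 : ℝ) * h)) := by ring
      have h6 : Real.exp (2 * (h * L)) * ((1 - h * L) * y (a + (k + 1 : ℝ) * h))
          ≤ Real.exp (2 * (h * L)) * ((y a + (k + 1) * h * ε) * Real.exp (2 * L * (k * h))) :=
        mul_le_mul_of_nonneg_left (h1.trans h2) (Real.exp_pos _).le
      have h7 : Real.exp (2 * (h * L)) * ((y a + (k + 1) * h * ε) * Real.exp (2 * L * (k * h)))
          = (y a + (k + 1) * h * ε) * Real.exp (2 * L * ((k + 1) * h)) := by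
        have : Real.exp (2 * L * ((k + 1) * h)) = Real.exp (2 * (h * L)) * Real.exp (2 * L * (k * h)) := by
          rw [← Real.exp_add]; congr 1; ring
        rw [this]; ring
      push_cast
      calc y (a + (k + 1 : ℝ) * h) ≤ _ := h4
        _ = _ := h5
        _ ≤ _ := h6
        _ = _ := h7
  have := key N le_rfl
  rw [hNh] at this
  have e2 : a + (b - a) = b := by ring
  rwa [e2] at this

/-- stage (i): a priori decay of every polynomial order at time 0 -/
theorem ode_stage1 {y : ℝ → ℝ} (hmono : MonotoneOn y (Ioc 0 (1 / 2))) (hy0 : ∀ s ∈ Ioc (0:ℝ) (1 / 2), 0 ≤ y s)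
    {C1 : ℝ} (hC1 : 0 < C1) (hlin : ∀ s ∈ Ioc (0:ℝ) (1 / 2), y s ≤ C1 * s) {c0 : ℝ} (hc0 : 0 < c0)
    (hinc : ∀ P : ℕ, 1 ≤ P → ∃ C : ℝ, 0 < C ∧ ∀ a b R : ℝ, 0 < a → a < b → b ≤ 1 / 2 → 1 ≤ R →
      y b - y a ≤ (b - a) * (C * (R ^ 3 * (y b) ^ (1 - 1 / (P : ℝ)) + R ^ 2 / a * Real.exp (-(c0 * R))))) :
    ∀ N : ℕ, ∃ C : ℝ, 0 < C ∧ ∀ s ∈ Ioc (0:ℝ) (1 / 2), y s ≤ C * s ^ N := by
  -- induction over half-integer exponents
  have main : ∀ n : ℕ, ∃ A : ℝ, 0 < A ∧ ∀ s ∈ Ioc (0:ℝ) (1 / 2), y s ≤ A * s ^ (1 + (n : ℝ) / 2) := by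
    intro n
    induction n with
    | zero =>
      refine ⟨C1, hC1, fun s hs => ?_⟩
      have := hlin s hs
      simpa using this
    | succ n ih =>
      obtain ⟨A, hA, hAy⟩ := ih
      set α : ℝ := 1 + (n : ℝ) / 2 with hα
      have hα1 : 1 ≤ α := by rw [hα]; have : (0:ℝ) ≤ (n:ℝ) / 2 := by positivity
                             linarith
      -- P = 4 (n + 2) ≥ 4 α
      obtain ⟨C, hC, hCi⟩ := hinc (4 * (n + 2)) (by omega)
      set P : ℝ := ((4 * (n + 2) : ℕ) : ℝ) with hP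
      have hPα : 4 * α ≤ P := by rw [hP, hα]; push_cast; linarith
      have hPpos : 0 < P := by linarith
      -- L = n + 3
      set L : ℕ := n + 3 with hL
      set K : ℝ := ((12 * L).factorial : ℝ) / c0 ^ (12 * L) with hK
      have hKpos : 0 < K := by positivity
      -- one dyadic step
      have step : ∀ t ∈ Ioc (0:ℝ) (1 / 2), y t - y (t / 2)
          ≤ (C * (A ^ (1 - 1 / P) + 2 * K)) * t ^ (α + 1 / 2) := by
        intro t ht
        have ht0 : 0 < t := ht.1
        have ht1 : t ≤ 1 := by linarith [ht.2]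
        set R : ℝ := t ^ (-(1 / 12) : ℝ) with hR
        have hRpos : 0 < R := Real.rpow_pos_of_pos ht0 _
        have hR1 : 1 ≤ R := Real.one_le_rpow_of_pos_of_le_one_of_nonpos ht0 ht1 (by norm_num)
        have h1 := hCi (t / 2) t R (by linarith) (by linarith) ht.2 hR1
        have hyt : 0 ≤ y t := hy0 t ht
        have hR3 : R ^ 3 = t ^ (-(1 / 4) : ℝ) := by
          rw [hR, ← Real.rpow_natCast, ← Real.rpow_mul ht0.le]; norm_num
        have hR2 : R ^ 2 = t ^ (-(1 / 6) : ℝ) := by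
          rw [hR, ← Real.rpow_natCast, ← Real.rpow_mul ht0.le]; norm_num
        have hRL : R ^ (12 * L) = t ^ (-(L : ℝ)) := by
          rw [hR, ← Real.rpow_natCast, ← Real.rpow_mul ht0.le]
          congr 1; push_cast; ring
        have hexp : Real.exp (-(c0 * R)) ≤ K * t ^ (L : ℝ) := by
          have h2 : (c0 * R) ^ (12 * L) / (12 * L).factorial ≤ Real.exp (c0 * R) :=
            Real.pow_div_factorial_le_exp (c0 * R) (by positivity) (12 * L)
          have h3 : 0 < (c0 * R) ^ (12 * L) / ((12 * L).factorial : ℝ) := by positivity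
          rw [Real.exp_neg]
          have h4 : (Real.exp (c0 * R))⁻¹ ≤ ((c0 * R) ^ (12 * L) / ((12 * L).factorial : ℝ))⁻¹ :=
            inv_anti₀ h3 h2
          refine h4.trans (le_of_eq ?_)
          rw [mul_pow, hRL, Real.rpow_neg ht0.le, hK]
          have : t ^ (L : ℝ) ≠ 0 := (Real.rpow_pos_of_pos ht0 _).ne'
          field_simp
        have hyP : (y t) ^ (1 - 1 / P) ≤ A ^ (1 - 1 / P) * t ^ (α * (1 - 1 / P)) := by
          have h2 := hAy t ht
          have hexpo : 0 ≤ 1 - 1 / P := by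
            have : 1 / P ≤ 1 := by rw [div_le_one hPpos]; linarith
            linarith
          have h3 := Real.rpow_le_rpow hyt h2 hexpo
          rw [Real.mul_rpow hA.le (Real.rpow_nonneg ht0.le _), ← Real.rpow_mul ht0.le] at h3
          exact h3
        have hAp : 0 < A ^ (1 - 1 / P) := Real.rpow_pos_of_pos hA _
        have e1 : t - t / 2 = t / 2 := by ring
        rw [e1] at h1
        -- first term
        have hT1 : t * (R ^ 3 * (y t) ^ (1 - 1 / P)) ≤ A ^ (1 - 1 / P) * t ^ (α + 1 / 2) := by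
          have h2 : t * (R ^ 3 * (y t) ^ (1 - 1 / P))
              ≤ t * (t ^ (-(1 / 4) : ℝ) * (A ^ (1 - 1 / P) * t ^ (α * (1 - 1 / P)))) := by
            rw [hR3]
            exact mul_le_mul_of_nonneg_left (mul_le_mul_of_nonneg_left hyP
              (Real.rpow_nonneg ht0.le _)) ht0.le
          have h3 : t * (t ^ (-(1 / 4) : ℝ) * (A ^ (1 - 1 / P) * t ^ (α * (1 - 1 / P))))
              = A ^ (1 - 1 / P) * t ^ (1 + -(1 / 4) + α * (1 - 1 / P)) := by
            rw [Real.rpow_add ht0, Real.rpow_add ht0, Real.rpow_one]; ring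
          have h4 : t ^ (1 + -(1 / 4) + α * (1 - 1 / P)) ≤ t ^ (α + 1 / 2) := by
            apply Real.rpow_le_rpow_of_exponent_ge ht0 ht1
            have : α * (1 / P) ≤ 1 / 4 := by
              rw [mul_one_div, div_le_div_iff₀ hPpos (by norm_num)]; linarith
            nlinarith
          calc _ ≤ _ := h2
            _ = _ := h3
            _ ≤ _ := mul_le_mul_of_nonneg_left h4 hAp.le
        -- second term
        have hT2 : t * (R ^ 2 / (t / 2) * Real.exp (-(c0 * R))) ≤ 2 * K * t ^ (α + 1 / 2) := by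
          have h2 : t * (R ^ 2 / (t / 2) * Real.exp (-(c0 * R)))
              = 2 * (R ^ 2 * Real.exp (-(c0 * R))) := by field_simp
          rw [h2, hR2]
          have h3 : t ^ (-(1 / 6) : ℝ) * Real.exp (-(c0 * R)) ≤ t ^ (-(1 / 6) : ℝ) * (K * t ^ (L : ℝ)) :=
            mul_le_mul_of_nonneg_left hexp (Real.rpow_nonneg ht0.le _)
          have h4 : t ^ (-(1 / 6) : ℝ) * (K * t ^ (L : ℝ)) = K * t ^ (-(1 / 6) + (L : ℝ)) := by
            rw [Real.rpow_add ht0]; ring
          have h5 : t ^ (-(1 / 6) + (L : ℝ)) ≤ t ^ (α + 1 / 2) := by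
            apply Real.rpow_le_rpow_of_exponent_ge ht0 ht1
            rw [hL, hα]; push_cast; linarith [(Nat.cast_nonneg n : (0:ℝ) ≤ n)]
          have h6 : K * t ^ (-(1 / 6) + (L : ℝ)) ≤ K * t ^ (α + 1 / 2) :=
            mul_le_mul_of_nonneg_left h5 hKpos.le
          linarith
        have hsum : t / 2 * (C * (R ^ 3 * y t ^ (1 - 1 / P) + R ^ 2 / (t / 2) * Real.exp (-(c0 * R))))
            ≤ C * ((A ^ (1 - 1 / P) + 2 * K) * t ^ (α + 1 / 2)) := by
          have h2 : t / 2 * (C * (R ^ 3 * y t ^ (1 - 1 / P) + R ^ 2 / (t / 2) * Real.exp (-(c0 * R))))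
              = C / 2 * (t * (R ^ 3 * y t ^ (1 - 1 / P)) + t * (R ^ 2 / (t / 2) * Real.exp (-(c0 * R)))) := by
            ring
          rw [h2]
          have h3 : t * (R ^ 3 * y t ^ (1 - 1 / P)) + t * (R ^ 2 / (t / 2) * Real.exp (-(c0 * R)))
              ≤ (A ^ (1 - 1 / P) + 2 * K) * t ^ (α + 1 / 2) := by linarith
          have h4 : 0 ≤ (A ^ (1 - 1 / P) + 2 * K) * t ^ (α + 1 / 2) := by
            have := Real.rpow_nonneg ht0.le (α + 1 / 2)
            positivity
          nlinarith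
        calc y t - y (t / 2) ≤ _ := h1
          _ ≤ _ := hsum
          _ = _ := by ring
      set B : ℝ := C * (A ^ (1 - 1 / P) + 2 * K) with hB
      have hBpos : 0 < B := by
        have : 0 < A ^ (1 - 1 / P) := Real.rpow_pos_of_pos hA _
        positivity
      refine ⟨2 * B, by positivity, fun s hs => ?_⟩
      have hs0 : 0 < s := hs.1
      have hexpo : (1 + ((n + 1 : ℕ) : ℝ) / 2) = α + 1 / 2 := by rw [hα]; push_cast; ring
      rw [hexpo]
      have hind : ∀ k : ℕ, y s ≤ B * s ^ (α + 1 / 2) * (2 - 2 * (1 / 2) ^ k) + y (s / 2 ^ k) := by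
        intro k
        induction k with
        | zero => simp
        | succ k ihk =>
          have hmem : s / 2 ^ k ∈ Ioc (0:ℝ) (1 / 2) := by
            refine ⟨by positivity, ?_⟩
            have : s / 2 ^ k ≤ s := div_le_self hs0.le (one_le_pow₀ (by norm_num))
            linarith [hs.2]
          have h1 := step _ hmem
          have h2 : (s / 2 ^ k) ^ (α + 1 / 2) ≤ s ^ (α + 1 / 2) * (1 / 2) ^ k := by
            rw [div_eq_mul_inv, Real.mul_rpow hs0.le (by positivity)]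
            apply mul_le_mul_of_nonneg_left _ (Real.rpow_nonneg hs0.le _)
            have h3 : ((2:ℝ) ^ k)⁻¹ = (1 / 2) ^ k := by rw [one_div, inv_pow]
            rw [h3]
            calc ((1 / 2 : ℝ) ^ k) ^ (α + 1 / 2) ≤ ((1 / 2 : ℝ) ^ k) ^ (1 : ℝ) := by
                  apply Real.rpow_le_rpow_of_exponent_ge (by positivity)
                    (pow_le_one₀ (by norm_num) (by norm_num)) (by linarith)
              _ = (1 / 2) ^ k := Real.rpow_one _
          have h4 : s / 2 ^ k / 2 = s / 2 ^ (k + 1) := by rw [pow_succ]; field_simp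
          rw [h4] at h1
          have h5 : B * (s / 2 ^ k) ^ (α + 1 / 2) ≤ B * (s ^ (α + 1 / 2) * (1 / 2) ^ k) :=
            mul_le_mul_of_nonneg_left h2 hBpos.le
          have h6 : B * s ^ (α + 1 / 2) * (2 - 2 * (1 / 2) ^ (k + 1))
              = B * s ^ (α + 1 / 2) * (2 - 2 * (1 / 2) ^ k) + B * (s ^ (α + 1 / 2) * (1 / 2) ^ k) := by
            rw [pow_succ]; ring
          rw [h6]; linarith
      have hlim : Tendsto (fun k : ℕ => B * s ^ (α + 1 / 2) * 2 + C1 * (s / 2 ^ k)) atTop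
          (𝓝 (B * s ^ (α + 1 / 2) * 2 + C1 * 0)) := by
        apply Tendsto.const_add
        apply Tendsto.const_mul
        have : Tendsto (fun k : ℕ => s * (1 / 2 : ℝ) ^ k) atTop (𝓝 (s * 0)) :=
          (tendsto_pow_atTop_nhds_zero_of_lt_one (by norm_num) (by norm_num)).const_mul s
        rw [mul_zero] at this
        refine this.congr (fun k => ?_)
        rw [one_div, inv_pow]; rfl
      have hle : ∀ k : ℕ, y s ≤ B * s ^ (α + 1 / 2) * 2 + C1 * (s / 2 ^ k) := by
        intro k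
        have h1 := hind k
        have hmem : s / 2 ^ k ∈ Ioc (0:ℝ) (1 / 2) := by
          refine ⟨by positivity, ?_⟩
          have : s / 2 ^ k ≤ s := div_le_self hs0.le (one_le_pow₀ (by norm_num))
          linarith [hs.2]
        have h2 := hlin _ hmem
        have h3 : 0 ≤ B * s ^ (α + 1 / 2) := mul_nonneg hBpos.le (Real.rpow_nonneg hs0.le _)
        have h4 : (0:ℝ) ≤ (1 / 2) ^ k := by positivity
        nlinarith
      have := ge_of_tendsto' hlim hle
      linarith
  intro N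
  obtain ⟨A, hA, hAy⟩ := main (2 * N)
  refine ⟨A, hA, fun s hs => (hAy s hs).trans ?_⟩
  have hs0 : 0 < s := hs.1
  have hs1 : s ≤ 1 := by linarith [hs.2]
  apply mul_le_mul_of_nonneg_left _ hA.le
  rw [← Real.rpow_natCast]
  apply Real.rpow_le_rpow_of_exponent_ge hs0 hs1
  push_cast; linarith

lemma od_lim {C K : ℝ} (hC : 0 < C) (hK : 0 < K) :
    Tendsto (fun m : ℕ => K * (m : ℝ) ^ 3 - 2 ^ m / 2) atTop atBot := by
  have h1 : Tendsto (fun m : ℕ => (m : ℝ) ^ 3 / 2 ^ m) atTop (𝓝 0) :=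
    tendsto_pow_const_div_const_pow_of_one_lt 3 (by norm_num)
  have h2 : Tendsto (fun m : ℕ => K * ((m : ℝ) ^ 3 / 2 ^ m) - 1 / 2) atTop (𝓝 (K * 0 - 1 / 2)) :=
    (h1.const_mul K).sub_const _
  have h3 : Tendsto (fun m : ℕ => (2 : ℝ) ^ m) atTop atTop :=
    tendsto_pow_atTop_atTop_of_one_lt (by norm_num)
  have h4 := h3.atTop_mul_neg (by norm_num : K * 0 - 1 / 2 < (0:ℝ)) h2
  refine h4.congr (fun m => ?_)
  have : (2:ℝ) ^ m ≠ 0 := by positivity
  field_simp

lemma od_exp_le {D : ℝ} (hD : 2 ≤ D) (m : ℕ) :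
    Real.exp (-(D ^ m / 2)) ≤ Real.exp (-(2 ^ m / 2)) := by
  apply Real.exp_le_exp.2
  have : (2:ℝ) ^ m ≤ D ^ m := pow_le_pow_left₀ (by norm_num) hD m
  linarith

/-- stage (ii): conclusion in round 0 -/
theorem ode_stage2 {y : ℝ → ℝ} (hmono : MonotoneOn y (Ioc 0 (1 / 2))) (hy0 : ∀ s ∈ Ioc (0:ℝ) (1 / 2), 0 ≤ y s)
    (hpoly : ∀ N : ℕ, ∃ C : ℝ, 0 < C ∧ ∀ s ∈ Ioc (0:ℝ) (1 / 2), y s ≤ C * s ^ N)
    {D C : ℝ} (hD : 2 ≤ D) (hC : 0 < C)
    (hinc : ∀ (m : ℕ) (a b : ℝ), 1 ≤ m → 0 < a → a < b → b ≤ 1 / 2 →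
      y b - y a ≤ (b - a) * ((C / a + C * (m : ℝ) ^ 2) * y b + C / a * Real.exp (-(D ^ m / 2)))) :
    ∀ s ∈ Ioc (0:ℝ) (1 / 2), y s = 0 := by
  intro s hs
  have hs0 : 0 < s := hs.1
  apply le_antisymm _ (hy0 s hs)
  obtain ⟨N, hN⟩ := exists_nat_gt ((2 * C + 1) / Real.log 2)
  have hlog2 : 0 < Real.log 2 := Real.log_pos (by norm_num)
  have hN' : 2 * C + 1 ≤ N * Real.log 2 := by
    have := (div_lt_iff₀ hlog2).1 hN
    linarith
  obtain ⟨A, hA, hAy⟩ := hpoly N
  -- iteration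
  have iter : ∀ (m : ℕ), 1 ≤ m → ∀ n : ℕ, y s ≤ (y (s / 2 ^ n) + n * (C * Real.exp (-(D ^ m / 2))))
      * Real.exp (2 * C * n + 2 * (C * (m : ℝ) ^ 2) * (s - s / 2 ^ n)) := by
    intro m hm n
    induction n with
    | zero => simp
    | succ n ih =>
      set t : ℝ := s / 2 ^ (n + 1) with ht
      have ht0 : 0 < t := by positivity
      have h2t : s / 2 ^ n = 2 * t := by rw [ht, pow_succ]; field_simp
      have hts : 2 * t ≤ s := by
        rw [← h2t]; exact div_le_self hs0.le (one_le_pow₀ (by norm_num))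
      have hb : 2 * t ≤ 1 / 2 := hts.trans hs.2
      set E : ℝ := Real.exp (-(D ^ m / 2)) with hE
      have hE0 : 0 < E := Real.exp_pos _
      have hg := od_gron (y := y) (a := t) (b := 2 * t) (L := C / t + C * (m : ℝ) ^ 2)
        (ε := C / t * E) (by linarith) (by positivity) (by positivity)
        (fun u hu => hy0 u ⟨by linarith [hu.1], by linarith [hu.2]⟩)
        (by
          intro u v hu huv hv
          have hu0 : 0 < u := by linarith
          have hv0 : 0 ≤ y v := hy0 v ⟨by linarith, by linarith⟩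
          have h1 := hinc m u v hm hu0 huv (by linarith)
          refine h1.trans ?_
          apply mul_le_mul_of_nonneg_left _ (by linarith)
          have h2 : C / u ≤ C / t := div_le_div_of_nonneg_left hC.le ht0 hu
          have h3 : (C / u + C * (m : ℝ) ^ 2) * y v ≤ (C / t + C * (m : ℝ) ^ 2) * y v :=
            mul_le_mul_of_nonneg_right (by linarith) hv0
          have h4 : C / u * E ≤ C / t * E := mul_le_mul_of_nonneg_right h2 hE0.le
          linarith)
      have e1 : 2 * t - t = t := by ring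
      rw [e1] at hg
      have e2 : t * (C / t * E) = C * E := by field_simp
      have e3 : 2 * (C / t + C * (m : ℝ) ^ 2) * t = 2 * C + 2 * (C * (m : ℝ) ^ 2) * t := by field_simp
      rw [e2, e3] at hg
      rw [h2t] at ih
      have hyt : 0 ≤ y t := hy0 t ⟨ht0, by linarith⟩
      have hexp1 : 1 ≤ Real.exp (2 * C + 2 * (C * (m : ℝ) ^ 2) * t) := Real.one_le_exp (by positivity)
      have h5 : y (2 * t) + n * (C * E) ≤ (y t + (n + 1) * (C * E))
          * Real.exp (2 * C + 2 * (C * (m : ℝ) ^ 2) * t) := by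
        have h6 : n * (C * E) ≤ n * (C * E) * Real.exp (2 * C + 2 * (C * (m : ℝ) ^ 2) * t) :=
          le_mul_of_one_le_right (by positivity) hexp1
        calc y (2 * t) + n * (C * E) ≤ (y t + C * E) * Real.exp (2 * C + 2 * (C * (m : ℝ) ^ 2) * t)
              + n * (C * E) * Real.exp (2 * C + 2 * (C * (m : ℝ) ^ 2) * t) := add_le_add hg h6
          _ = _ := by ring
      calc y s ≤ _ := ih
        _ ≤ ((y t + (n + 1) * (C * E)) * Real.exp (2 * C + 2 * (C * (m : ℝ) ^ 2) * t))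
            * Real.exp (2 * C * n + 2 * (C * (m : ℝ) ^ 2) * (s - 2 * t)) :=
          mul_le_mul_of_nonneg_right h5 (Real.exp_pos _).le
        _ = (y t + (n + 1) * (C * E)) * Real.exp (2 * C * (n + 1) + 2 * (C * (m : ℝ) ^ 2) * (s - t)) := by
          rw [mul_assoc, ← Real.exp_add]; congr 2; ring
        _ = _ := by push_cast; rfl
  -- choose n = m ^ 3
  have bound : ∀ m : ℕ, 1 ≤ m → y s ≤ A * Real.exp (C * (m : ℝ) ^ 2 - (m : ℝ) ^ 3)
      + C * Real.exp ((3 * C + 1) * (m : ℝ) ^ 3 - 2 ^ m / 2) := by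
    intro m hm
    have hm1 : (1:ℝ) ≤ m := by exact_mod_cast hm
    have hm23 : (m : ℝ) ^ 2 ≤ (m : ℝ) ^ 3 := pow_le_pow_right₀ hm1 (by norm_num)
    have h1 := iter m hm (m ^ 3)
    have hn : ((m ^ 3 : ℕ) : ℝ) = (m : ℝ) ^ 3 := by push_cast; rfl
    rw [hn] at h1
    set n : ℕ := m ^ 3 with hnd
    have ht0 : 0 < s / 2 ^ n := by positivity
    have hmem : s / 2 ^ n ∈ Ioc (0:ℝ) (1 / 2) := by
      refine ⟨ht0, ?_⟩
      have : s / 2 ^ n ≤ s := div_le_self hs0.le (one_le_pow₀ (by norm_num))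
      linarith [hs.2]
    have h2 : y (s / 2 ^ n) ≤ A * Real.exp (-((2 * C + 1) * (m : ℝ) ^ 3)) := by
      refine (hAy _ hmem).trans (mul_le_mul_of_nonneg_left ?_ hA.le)
      have h3 : s / 2 ^ n ≤ Real.exp (-(Real.log 2 * n)) := by
        rw [Real.exp_neg, mul_comm, Real.exp_nat_mul, Real.exp_log (by norm_num)]
        rw [div_eq_mul_inv]
        have : ((2:ℝ) ^ n)⁻¹ > 0 := by positivity
        have hs1 : s ≤ 1 := by linarith [hs.2]
        nlinarith
      calc (s / 2 ^ n) ^ N ≤ (Real.exp (-(Real.log 2 * n))) ^ N :=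
            pow_le_pow_left₀ ht0.le h3 N
        _ = Real.exp (-(N * Real.log 2 * n)) := by
            rw [← Real.exp_nat_mul]; congr 1; ring
        _ ≤ _ := by
            apply Real.exp_le_exp.2
            rw [hnd, hn]
            have : 0 ≤ (m : ℝ) ^ 3 := by positivity
            nlinarith
    have h4 : Real.exp (2 * C * (m : ℝ) ^ 3 + 2 * (C * (m : ℝ) ^ 2) * (s - s / 2 ^ n))
        ≤ Real.exp (2 * C * (m : ℝ) ^ 3 + C * (m : ℝ) ^ 2) := by
      apply Real.exp_le_exp.2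
      have : s - s / 2 ^ n ≤ 1 / 2 := by linarith [hs.2]
      have h5 : 0 ≤ C * (m : ℝ) ^ 2 := by positivity
      nlinarith
    have hE := od_exp_le hD m
    have h6 : y (s / 2 ^ n) + (m : ℝ) ^ 3 * (C * Real.exp (-(D ^ m / 2)))
        ≤ A * Real.exp (-((2 * C + 1) * (m : ℝ) ^ 3)) + C * (Real.exp ((m : ℝ) ^ 3) * Real.exp (-(2 ^ m / 2))) := by
      have h7 : (m : ℝ) ^ 3 ≤ Real.exp ((m : ℝ) ^ 3) := by
        have := Real.add_one_le_exp ((m : ℝ) ^ 3); linarith
      have h8 : (m : ℝ) ^ 3 * (C * Real.exp (-(D ^ m / 2)))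
          ≤ Real.exp ((m : ℝ) ^ 3) * (C * Real.exp (-(2 ^ m / 2))) :=
        mul_le_mul h7 (mul_le_mul_of_nonneg_left hE hC.le) (by positivity) (Real.exp_pos _).le
      linarith
    have hsum0 : 0 ≤ y (s / 2 ^ n) + (m : ℝ) ^ 3 * (C * Real.exp (-(D ^ m / 2))) := by
      have := hy0 _ hmem
      positivity
    calc y s ≤ _ := h1
      _ ≤ (A * Real.exp (-((2 * C + 1) * (m : ℝ) ^ 3)) + C * (Real.exp ((m : ℝ) ^ 3) * Real.exp (-(2 ^ m / 2))))
          * Real.exp (2 * C * (m : ℝ) ^ 3 + C * (m : ℝ) ^ 2) :=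
          mul_le_mul h6 h4 (Real.exp_pos _).le (hsum0.trans h6)
      _ = A * Real.exp (C * (m : ℝ) ^ 2 - (m : ℝ) ^ 3)
          + C * Real.exp ((2 * C + 1) * (m : ℝ) ^ 3 + C * (m : ℝ) ^ 2 - 2 ^ m / 2) := by
          have e1 : Real.exp (C * (m : ℝ) ^ 2 - (m : ℝ) ^ 3)
              = Real.exp (-((2 * C + 1) * (m : ℝ) ^ 3)) * Real.exp (2 * C * (m : ℝ) ^ 3 + C * (m : ℝ) ^ 2) := by
            rw [← Real.exp_add]; congr 1; ring
          have e2 : Real.exp ((2 * C + 1) * (m : ℝ) ^ 3 + C * (m : ℝ) ^ 2 - 2 ^ m / 2)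
              = Real.exp ((m : ℝ) ^ 3) * Real.exp (-(2 ^ m / 2))
                * Real.exp (2 * C * (m : ℝ) ^ 3 + C * (m : ℝ) ^ 2) := by
            rw [← Real.exp_add, ← Real.exp_add]; congr 1; ring
          rw [e1, e2]; ring
      _ ≤ _ := by
          apply add_le_add_right
          apply mul_le_mul_of_nonneg_left _ hC.le
          apply Real.exp_le_exp.2
          nlinarith
  have hlim1 : Tendsto (fun m : ℕ => A * Real.exp (C * (m : ℝ) ^ 2 - (m : ℝ) ^ 3)) atTop (𝓝 (A * 0)) := by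
    apply Tendsto.const_mul
    apply Real.tendsto_exp_atBot.comp
    have h1 : Tendsto (fun m : ℕ => (C - (m : ℝ))) atTop atBot := by
      have := tendsto_natCast_atTop_atTop (R := ℝ)
      exact tendsto_atBot_add_const_left _ C (tendsto_neg_atTop_atBot.comp this) |>.congr (fun m => by simp [sub_eq_add_neg])
    have h2 : Tendsto (fun m : ℕ => (m : ℝ) ^ 2) atTop atTop :=
      (tendsto_pow_atTop (by norm_num)).comp tendsto_natCast_atTop_atTop
    refine (h2.atTop_mul_atBot₀ h1).congr (fun m => ?_)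
    ring
  have hlim2 : Tendsto (fun m : ℕ => C * Real.exp ((3 * C + 1) * (m : ℝ) ^ 3 - 2 ^ m / 2)) atTop (𝓝 (C * 0)) := by
    apply Tendsto.const_mul
    exact Real.tendsto_exp_atBot.comp (od_lim hC (by positivity))
  have hlim := hlim1.add hlim2
  rw [mul_zero, mul_zero, add_zero] at hlim
  exact ge_of_tendsto hlim (eventually_atTop.2 ⟨1, fun m hm => bound m hm⟩)

/-- conclusion in the other rounds -/
theorem ode_round {y : ℝ → ℝ} (hmono : MonotoneOn y (Icc 0 (1 / 2))) (hy0 : y 0 = 0)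
    {D C : ℝ} (hD : 2 ≤ D) (hC : 0 < C)
    (hinc : ∀ (m : ℕ) (a b : ℝ), 1 ≤ m → 0 ≤ a → a < b → b ≤ 1 / 2 →
      y b - y a ≤ (b - a) * (C * (m : ℝ) ^ 2 * y b + C * Real.exp (-(D ^ m / 2)))) :
    ∀ s ∈ Icc (0:ℝ) (1 / 2), y s = 0 := by
  intro s hs
  have hnn : ∀ t ∈ Icc (0:ℝ) (1 / 2), 0 ≤ y t := by
    intro t ht
    rw [← hy0]
    exact hmono ⟨le_refl 0, by norm_num⟩ ht ht.1
  apply le_antisymm _ (hnn s hs)
  have bound : ∀ m : ℕ, 1 ≤ m → y s ≤ C * Real.exp ((C + 1) * (m : ℝ) ^ 3 - 2 ^ m / 2) := by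
    intro m hm
    have hm1 : (1:ℝ) ≤ m := by exact_mod_cast hm
    have hm23 : (m : ℝ) ^ 2 ≤ (m : ℝ) ^ 3 := pow_le_pow_right₀ hm1 (by norm_num)
    have hg := od_gron (y := y) (a := 0) (b := s) (L := C * (m : ℝ) ^ 2)
      (ε := C * Real.exp (-(D ^ m / 2))) hs.1 (by positivity) (by positivity)
      (fun u hu => hnn u ⟨hu.1, by linarith [hu.2, hs.2]⟩)
      (by
        intro u v hu huv hv
        exact hinc m u v hm hu huv (by linarith [hs.2]))
    rw [hy0, sub_zero, zero_add] at hg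
    refine hg.trans ?_
    have hE := od_exp_le hD m
    have h1 : s * (C * Real.exp (-(D ^ m / 2))) ≤ C * Real.exp (-(2 ^ m / 2)) := by
      have h2 : C * Real.exp (-(D ^ m / 2)) ≤ C * Real.exp (-(2 ^ m / 2)) :=
        mul_le_mul_of_nonneg_left hE hC.le
      have h3 : 0 ≤ C * Real.exp (-(D ^ m / 2)) := by positivity
      have hs1 : s ≤ 1 := by linarith [hs.2]
      nlinarith [hs.1]
    have h4 : Real.exp (2 * (C * (m : ℝ) ^ 2) * s) ≤ Real.exp ((C + 1) * (m : ℝ) ^ 3) := by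
      apply Real.exp_le_exp.2
      have h5 : 0 ≤ C * (m : ℝ) ^ 2 := by positivity
      have h6 : 2 * (C * (m : ℝ) ^ 2) * s ≤ C * (m : ℝ) ^ 2 := by nlinarith [hs.2, hs.1]
      have h7 : 0 ≤ (m : ℝ) ^ 3 := by positivity
      nlinarith
    calc s * (C * Real.exp (-(D ^ m / 2))) * Real.exp (2 * (C * (m : ℝ) ^ 2) * s)
        ≤ (C * Real.exp (-(2 ^ m / 2))) * Real.exp ((C + 1) * (m : ℝ) ^ 3) :=
          mul_le_mul h1 h4 (Real.exp_pos _).le (by positivity)
      _ = _ := by rw [mul_assoc, ← Real.exp_add]; congr 2; ring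
  have hlim2 : Tendsto (fun m : ℕ => C * Real.exp ((C + 1) * (m : ℝ) ^ 3 - 2 ^ m / 2)) atTop (𝓝 (C * 0)) := by
    apply Tendsto.const_mul
    exact Real.tendsto_exp_atBot.comp (od_lim hC (by positivity))
  rw [mul_zero] at hlim2
  exact ge_of_tendsto hlim2 (eventually_atTop.2 ⟨1, fun m hm => bound m hm⟩)

end Crest.Agent.FI
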