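import Mathlib
import Crest.Agent.FI.Defs
import Crest.Agent.FI.Branch
import Crest.Agent.FI.Real
import Crest.Agent.FI.Alg
import Crest.Agent.FI.EnvBase
import Crest.Agent.FI.EnvTail
import Crest.Agent.FI.EnvKill
import Crest.Agent.FI.EnvQ
import Crest.Agent.FI.EnvMom
import Crest.Agent.FI.Rho
import Crest.Agent.FI.Ker1
import Crest.Agent.FI.Ker2
import Crest.Agent.FI.Ode

set_option autoImplicit false

namespace Crest.Agent.FI

open MeasureTheory ProbabilityTheory Set Filter Topology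
open scoped ENNReal

variable {V : Type*} (G : SimpleGraph V) [G.LocallyFinite]

/-- the interface between the construction of the two copies and the analysis -/
structure Proc (G : SimpleGraph V) [G.LocallyFinite] (θ : ℝ) (d : ℕ) (μ : Measure (V → Bool))
    (p : ℕ → V) (Q : ℕ → ℝ → Measure ((V → ℝ) × (V → ℝ))) : Prop where
  state : ∀ k s, 0 ≤ s → s ≤ 1 / 2 → PairState G μ (rho k s) (Q k s)
  good : ∀ k s, 0 ≤ s → s ≤ 1 / 2 → ∀ᵐ x ∂(fieldLaw μ (fun _ => rho k s)), Good G θ x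
  mono : ∀ k a b, 0 ≤ a → a ≤ b → b ≤ 1 / 2 → yy G θ (Q k a) (p 0) ≤ yy G θ (Q k b) (p 0)
  zero : yy G θ (Q 0 0) (p 0) = 0
  step : ∀ k, yy G θ (Q (k + 1) 0) (p 0) = yy G θ (Q k (1 / 2)) (p 0)
  inc : ∃ C : ℝ, 0 < C ∧ ∀ k a b, 0 ≤ a → a < b → b ≤ 1 / 2 →
    (k = 0 → θ ^ 2 * ((d : ℝ) - 1) = 1 → 0 < a) → ∀ B : ℝ, 0 ≤ B →
    (∀ t ∈ Ico a b, ENNReal.ofReal t * KK G θ (d - 1) p (Q k t) ≤ ENNReal.ofReal B) →
    yy G θ (Q k b) (p 0) - yy G θ (Q k a) (p 0) ≤ C * (b - a) * B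

theorem an_yy_nonneg (θ : ℝ) (Q : Measure ((V → ℝ) × (V → ℝ))) (v : V) : 0 ≤ yy G θ Q v :=
  integral_nonneg fun _ => sq_nonneg _

/-- kernel bound from the mean of `Gs` -/
theorem an_ker [Countable V] (hT : G.IsTree) {d : ℕ} (hd : 3 ≤ d) (hreg : G.IsRegularOfDegree d)
    {θ : ℝ} (h0 : 0 ≤ θ) (h1 : θ < 1) (hcrit : θ ^ 2 * ((d : ℝ) - 1) ≤ 1)
    {μ : Measure (V → Bool)} [IsProbabilityMeasure μ] (hμ : IsIsing G θ μ) (L : ℝ) (hL : 0 ≤ L) :
    ∃ C : ℝ, 0 < C ∧ ∀ (ρ : Measure ℝ) (Q : Measure ((V → ℝ) × (V → ℝ))), Chan ρ L →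
      (∀ᵐ x ∂(fieldLaw μ (fun _ => ρ)), Good G θ x) → PairState G μ ρ Q →
      ∀ (p : ℕ → V), IsRay G p → ∀ g : ℝ, 1 ≤ g →
      (∀ n i j, G.Adj i j → ∫ x, Gs G θ x n i j ∂(fieldLaw μ (fun _ => ρ)) ≤ g) → ∀ m : ℕ,
      KK G θ (d - 1) p Q ≤ ENNReal.ofReal (C * ((g + m) ^ 2 * yy G θ Q (p 0)
        + g ^ 2 * Real.exp (-(((d : ℝ) - 1) ^ m / 2)))) := by
  obtain ⟨C1, hC1, hk⟩ := ker2 G hT hd hreg h0 h1 hcrit hμ L hL
  obtain ⟨C2, hC2, htr⟩ := Gs_trunc G hT hd hreg h0 h1 hcrit hμ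
  refine ⟨C1 * (256 + 64 * C2), by positivity, ?_⟩
  intro ρ Q hρ hgood hQ p hp g hg1 hg m
  haveI := hρ.prob
  set A : ℝ := 2 * (3 + g) with hA
  have hA1 : 1 ≤ A := by rw [hA]; linarith
  have hAe : ∀ n i j, G.Adj i j →
      ∫ x, Real.exp (Gs G θ x n i j / A) ∂(fieldLaw μ (fun _ => ρ)) ≤ Real.exp 1 :=
    fun n i j h => Gs_exp G hT hd hreg h0 h1 hcrit hμ ρ hgood hg1 hg n h
  have hm0 : (0 : ℝ) ≤ m := Nat.cast_nonneg m
  have h2 := hk ρ Q hρ hgood hQ p hp (2 * A + m) (C2 * A ^ 2 * Real.exp (-(((d : ℝ) - 1) ^ m / 2)))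
    (by linarith) (by positivity) (fun n i j h => htr ρ hgood A hA1 hAe n m i j h)
  refine h2.trans (ENNReal.ofReal_le_ofReal ?_)
  have hy := an_yy_nonneg G θ Q (p 0)
  set y := yy G θ Q (p 0)
  set E := Real.exp (-(((d : ℝ) - 1) ^ m / 2))
  have hE : 0 < E := Real.exp_pos _
  have hA8 : A ≤ 8 * g := by rw [hA]; linarith
  have hA0 : 0 ≤ A := by linarith
  have h3 : (2 * A + m) ^ 2 ≤ 256 * (g + m) ^ 2 := by
    have : 2 * A + m ≤ 16 * (g + m) := by linarith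
    calc (2 * A + m) ^ 2 ≤ (16 * (g + m)) ^ 2 := pow_le_pow_left₀ (by positivity) this 2
      _ = _ := by ring
  have h4 : A ^ 2 ≤ 64 * g ^ 2 := by
    calc A ^ 2 ≤ (8 * g) ^ 2 := pow_le_pow_left₀ hA0 hA8 2
      _ = _ := by ring
  rw [mul_assoc C1]
  apply mul_le_mul_of_nonneg_left _ hC1.le
  have h5 : (2 * A + m) ^ 2 * y ≤ 256 * (g + m) ^ 2 * y := mul_le_mul_of_nonneg_right h3 hy
  have h6 : C2 * A ^ 2 * E ≤ C2 * (64 * g ^ 2) * E :=
    mul_le_mul_of_nonneg_right (mul_le_mul_of_nonneg_left h4 hC2.le) hE.le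
  have h7 : 0 ≤ 64 * C2 * ((g + m) ^ 2 * y) := by positivity
  have h8 : 0 ≤ 256 * (g ^ 2 * E) := by positivity
  nlinarith

/-- conclusion of one round from a kernel bound -/
theorem an_round {d : ℕ} (hd : 3 ≤ d) {θ : ℝ} {μ : Measure (V → Bool)}
    {p : ℕ → V} {Q : ℕ → ℝ → Measure ((V → ℝ) × (V → ℝ))}
    (hQ : Proc G θ d μ p Q) (k : ℕ) (hk : k = 0 → θ ^ 2 * ((d : ℝ) - 1) = 1 → False) {C : ℝ}
    (hC : 0 < C)
    (hKK : ∀ m : ℕ, 1 ≤ m → ∀ t : ℝ, 0 ≤ t → t < 1 / 2 → KK G θ (d - 1) p (Q k t)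
      ≤ ENNReal.ofReal (C * ((m : ℝ) ^ 2 * yy G θ (Q k t) (p 0)
        + Real.exp (-(((d : ℝ) - 1) ^ m / 2)))))
    (hz : yy G θ (Q k 0) (p 0) = 0) : ∀ s ∈ Icc (0 : ℝ) (1 / 2), yy G θ (Q k s) (p 0) = 0 := by
  obtain ⟨C1, hC1, hinc⟩ := hQ.inc
  have hdr : (3 : ℝ) ≤ d := by exact_mod_cast hd
  have hmono : MonotoneOn (fun s => yy G θ (Q k s) (p 0)) (Icc 0 (1 / 2)) := by
    intro a ha b hb hab
    exact hQ.mono k a b ha.1 hab hb.2
  refine ode_round (y := fun s => yy G θ (Q k s) (p 0)) hmono hz (D := (d : ℝ) - 1)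
    (C := C1 * C) (by linarith) (by positivity) ?_
  intro m a b hm ha hab hb
  have hyb := an_yy_nonneg G θ (Q k b) (p 0)
  have hE := Real.exp_pos (-(((d : ℝ) - 1) ^ m / 2))
  have h2 := hinc k a b ha hab hb (fun h h' => (hk h h').elim)
    (C * ((m : ℝ) ^ 2 * yy G θ (Q k b) (p 0) + Real.exp (-(((d : ℝ) - 1) ^ m / 2))))
    (by positivity) (by
      intro t ht
      have ht0 : 0 ≤ t := ha.trans ht.1
      have h3 := hKK m hm t ht0 (ht.2.trans_le hb)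
      calc ENNReal.ofReal t * KK G θ (d - 1) p (Q k t)
          ≤ 1 * ENNReal.ofReal (C * ((m : ℝ) ^ 2 * yy G θ (Q k t) (p 0)
            + Real.exp (-(((d : ℝ) - 1) ^ m / 2)))) := by
            apply mul_le_mul' _ h3
            rw [ENNReal.ofReal_le_one]
            linarith [ht.2]
        _ ≤ _ := by
            rw [one_mul]
            apply ENNReal.ofReal_le_ofReal
            have h4 := hQ.mono k t b ht0 ht.2.le hb
            gcongr)
  refine h2.trans (le_of_eq ?_)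
  ring

theorem an_sub [Countable V] (hT : G.IsTree) {d : ℕ} (hd : 3 ≤ d) (hreg : G.IsRegularOfDegree d)
    {θ : ℝ} (h0 : 0 ≤ θ) (h1 : θ < 1) (hcrit : θ ^ 2 * ((d : ℝ) - 1) < 1)
    {μ : Measure (V → Bool)} [IsProbabilityMeasure μ] (hμ : IsIsing G θ μ)
    {p : ℕ → V} (hp : IsRay G p) {Q : ℕ → ℝ → Measure ((V → ℝ) × (V → ℝ))}
    (hQ : Proc G θ d μ p Q) (k : ℕ) (hz : yy G θ (Q k 0) (p 0) = 0) :
    ∀ s ∈ Icc (0 : ℝ) (1 / 2), yy G θ (Q k s) (p 0) = 0 := by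
  obtain ⟨C1, hC1, hk⟩ := ker2 G hT hd hreg h0 h1 hcrit.le hμ ((k : ℝ) + 1) (by positivity)
  have hdr : (3 : ℝ) ≤ d := by exact_mod_cast hd
  set M : ℝ := 1 / (1 - θ ^ 2 * ((d : ℝ) - 1)) with hM
  have hM1 : 1 ≤ M := by
    rw [hM, le_div_iff₀ (by linarith)]
    have : 0 ≤ θ ^ 2 * ((d : ℝ) - 1) := mul_nonneg (sq_nonneg θ) (by linarith)
    linarith
  refine an_round G hd hQ k (fun _ h => by linarith) (C := C1 * M ^ 2) (by positivity) ?_ hz
  intro m hm t ht0 ht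
  have h2 := hk (rho k t) (Q k t) (chan_rho k t) (hQ.good k t ht0 ht.le) (hQ.state k t ht0 ht.le)
    p hp M 0 hM1 le_rfl (by
      intro n i j hij
      have h3 : ∀ x : V → ℝ, ({x | M < Gs G θ x n i j}).indicator
          (fun x => Gs G θ x n i j ^ 2) x = 0 := by
        intro x
        apply indicator_of_notMem
        simp only [mem_setOf_eq, not_lt]
        exact Gs_sub G hd hreg h0 h1 hcrit x n hij
      simp only [h3]
      simp)
  refine h2.trans (ENNReal.ofReal_le_ofReal ?_)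
  have hy := an_yy_nonneg G θ (Q k t) (p 0)
  have hE := Real.exp_pos (-(((d : ℝ) - 1) ^ m / 2))
  have hm1 : (1 : ℝ) ≤ (m : ℝ) ^ 2 := by
    have : (1 : ℝ) ≤ m := by exact_mod_cast hm
    nlinarith
  rw [add_zero, mul_assoc]
  apply mul_le_mul_of_nonneg_left _ hC1.le
  apply mul_le_mul_of_nonneg_left _ (by positivity)
  nlinarith

/-- later rounds at criticality -/
theorem an_later [Countable V] (hT : G.IsTree) {d : ℕ} (hd : 3 ≤ d) (hreg : G.IsRegularOfDegree d)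
    {θ : ℝ} (h0 : 0 ≤ θ) (h1 : θ < 1) (hcrit : θ ^ 2 * ((d : ℝ) - 1) ≤ 1)
    {μ : Measure (V → Bool)} [IsProbabilityMeasure μ] (hμ : IsIsing G θ μ)
    {p : ℕ → V} (hp : IsRay G p) {Q : ℕ → ℝ → Measure ((V → ℝ) × (V → ℝ))}
    (hQ : Proc G θ d μ p Q) (k : ℕ) (hk1 : 1 ≤ k) (hz : yy G θ (Q k 0) (p 0) = 0) :
    ∀ s ∈ Icc (0 : ℝ) (1 / 2), yy G θ (Q k s) (p 0) = 0 := by
  have hκ : 0 < kap θ := by unfold kap; nlinarith
  obtain ⟨c, hc0, hc1, hkill⟩ := rho_kill hκ k 0 (Or.inl hk1)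
  obtain ⟨C1, hC1, hker⟩ := an_ker G hT hd hreg h0 h1 hcrit hμ ((k : ℝ) + 1) (by positivity)
  set g : ℝ := 1 + 1 / c with hg
  have hg1 : 1 ≤ g := by
    rw [hg]
    have : 0 < 1 / c := by positivity
    linarith
  refine an_round G hd hQ k (fun h => by omega) (C := C1 * (2 * g) ^ 2) (by positivity) ?_ hz
  intro m hm t ht0 ht
  haveI := (chan_rho k t).prob
  have hgood := hQ.good k t ht0 ht.le
  have hK : KillR G θ μ (fun _ => rho k t) c :=
    killR_own G hT h0 h1 hμ (fun _ => rho k t) hgood hc0.le hc1.le (fun _ r => hkill t ht0 r)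
  have h2 := hker (rho k t) (Q k t) (chan_rho k t) hgood (hQ.state k t ht0 ht.le)
    p hp g hg1 (fun n i j hij => kill_Gs G hT hd hreg h0 h1 hcrit (fun _ => rho k t) hgood hc0 hc1.le
      hK n hij) m
  refine h2.trans (ENNReal.ofReal_le_ofReal ?_)
  have hy := an_yy_nonneg G θ (Q k t) (p 0)
  have hE := Real.exp_pos (-(((d : ℝ) - 1) ^ m / 2))
  have hm1 : (1 : ℝ) ≤ (m : ℝ) := by exact_mod_cast hm
  have h3 : (g + m) ^ 2 ≤ (2 * g) ^ 2 * (m : ℝ) ^ 2 := by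
    rw [← mul_pow]
    apply pow_le_pow_left₀ (by positivity)
    nlinarith
  have h4 : g ^ 2 ≤ (2 * g) ^ 2 := by nlinarith
  rw [mul_assoc]
  apply mul_le_mul_of_nonneg_left _ hC1.le
  rw [mul_add]
  apply add_le_add
  · rw [← mul_assoc]
    exact mul_le_mul_of_nonneg_right h3 hy
  · exact mul_le_mul_of_nonneg_right h4 hE.le

/-- a priori linear bound in round 0 -/
theorem an_lin [Countable V] (hT : G.IsTree) {d : ℕ} (hd : 3 ≤ d) (hreg : G.IsRegularOfDegree d)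
    {θ : ℝ} (h0 : 0 < θ) (h1 : θ < 1) (hcrit : θ ^ 2 * ((d : ℝ) - 1) ≤ 1)
    {μ : Measure (V → Bool)} [IsProbabilityMeasure μ] (hμ : IsIsing G θ μ)
    {p : ℕ → V} (hp : IsRay G p) {Q : ℕ → ℝ → Measure ((V → ℝ) × (V → ℝ))}
    (hQ : Proc G θ d μ p Q) :
    ∃ C : ℝ, 0 < C ∧ ∀ s ∈ Ioc (0 : ℝ) (1 / 2), yy G θ (Q 0 s) (p 0) ≤ C * s := by
  obtain ⟨C1, hC1, hmom⟩ := mom_bound G hT hd hreg h0 h1 hcrit hμ 1
  refine ⟨16 * C1, by positivity, ?_⟩
  intro s hs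
  have hgood := hQ.good 0 s hs.1.le hs.2
  have hst := hQ.state 0 s hs.1.le hs.2
  haveI := (chan_rho 0 s).prob
  haveI := hst.prob
  haveI : IsProbabilityMeasure (fieldLaw μ (fun _ : V => rho 0 s)) := fieldLaw_prob μ _
  have hadj : G.Adj (p 0) (p 1) := (hp 1).1 0 (by norm_num)
  have hm := hmom s hs.1 hs.2 hgood
  have hbd : ∀ᵐ x ∂(fieldLaw μ (fun _ : V => rho 0 s)), ∀ w, |x w| ≤ ((0 : ℕ) : ℝ) + 1 :=
    fieldLaw_bdd (fun _ => chan_rho 0 s)
  have hmm : Measurable (fun x : V → ℝ => mm G θ x (p 0)) := measurable_mm G θ (p 0)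
  have hmmb : ∀ x : V → ℝ, |mm G θ x (p 0)| ≤ 1 := fun x => (Real.abs_tanh_lt_one _).le
  have hmmI : Integrable (fun x : V → ℝ => mm G θ x (p 0) ^ 2) (fieldLaw μ (fun _ : V => rho 0 s)) := by
    refine Integrable.of_bound (hmm.pow_const 2).aestronglyMeasurable 1 ?_
    refine Filter.Eventually.of_forall fun x => ?_
    rw [Real.norm_eq_abs, abs_of_nonneg (sq_nonneg _), ← sq_abs]
    nlinarith [hmmb x, abs_nonneg (mm G θ x (p 0))]
  have hhI : ∀ i j, G.Adj i j → Integrable (fun x : V → ℝ => hl G θ x i j ^ (2 * 1))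
      (fieldLaw μ (fun _ : V => rho 0 s)) := by
    intro i j hij
    refine Integrable.of_bound ((measurable_hl G θ i j).pow_const _).aestronglyMeasurable
      ((((0 : ℕ) : ℝ) + 1 + d * Real.artanh θ) ^ 2) ?_
    filter_upwards [hbd] with x hx
    have h2 := hl_bound G h0.le h1 hreg hx i j
    rw [Real.norm_eq_abs, mul_one, abs_of_nonneg (sq_nonneg _), ← sq_abs]
    exact pow_le_pow_left₀ (abs_nonneg _) h2 2
  -- second moment of the posterior mean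
  have hE : ∫ x, mm G θ x (p 0) ^ 2 ∂(fieldLaw μ (fun _ : V => rho 0 s)) ≤ 4 * C1 * s := by
    calc ∫ x, mm G θ x (p 0) ^ 2 ∂(fieldLaw μ (fun _ : V => rho 0 s))
        ≤ ∫ x, (2 * hl G θ x (p 0) (p 1) ^ (2 * 1) + 2 * hl G θ x (p 1) (p 0) ^ (2 * 1))
          ∂(fieldLaw μ (fun _ : V => rho 0 s)) := by
          apply integral_mono_ae hmmI (((hhI _ _ hadj).const_mul 2).add
            ((hhI _ _ hadj.symm).const_mul 2))
          filter_upwards [hgood] with x hx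
          have h2 := Hl_eq G h0.le h1 hx hadj
          have h3 : |mm G θ x (p 0)| ≤ |Hl G θ x (p 0)| := by
            have := tanh_lip (Hl G θ x (p 0)) 0
            rwa [Real.tanh_zero, sub_zero, sub_zero] at this
          have h4 : |ff θ (hl G θ x (p 1) (p 0))| ≤ |hl G θ x (p 1) (p 0)| := by
            refine (abs_ff_le h0.le h1 _).trans ?_
            nlinarith [abs_nonneg (hl G θ x (p 1) (p 0))]
          have h5 : |mm G θ x (p 0)| ≤ |hl G θ x (p 0) (p 1)| + |hl G θ x (p 1) (p 0)| := by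
            refine h3.trans ?_
            rw [h2]
            exact (abs_add_le _ _).trans (by linarith)
          show mm G θ x (p 0) ^ 2
            ≤ 2 * hl G θ x (p 0) (p 1) ^ (2 * 1) + 2 * hl G θ x (p 1) (p 0) ^ (2 * 1)
          rw [mul_one, ← sq_abs (mm G θ x (p 0)), ← sq_abs (hl G θ x (p 0) (p 1)),
            ← sq_abs (hl G θ x (p 1) (p 0))]
          have h6 := pow_le_pow_left₀ (abs_nonneg _) h5 2
          nlinarith [sq_nonneg (|hl G θ x (p 0) (p 1)| - |hl G θ x (p 1) (p 0)|)]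
      _ = 2 * ∫ x, hl G θ x (p 0) (p 1) ^ (2 * 1) ∂(fieldLaw μ (fun _ : V => rho 0 s))
          + 2 * ∫ x, hl G θ x (p 1) (p 0) ^ (2 * 1) ∂(fieldLaw μ (fun _ : V => rho 0 s)) := by
          rw [integral_add ((hhI _ _ hadj).const_mul 2) ((hhI _ _ hadj.symm).const_mul 2),
            integral_const_mul, integral_const_mul]
      _ ≤ 4 * C1 * s := by
          have h2 := hm (p 0) (p 1) hadj
          have h3 := hm (p 1) (p 0) hadj.symm
          rw [pow_one] at h2 h3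
          linarith
  have hmQ1 : Measurable (fun q : (V → ℝ) × (V → ℝ) => mm G θ q.1 (p 0)) := hmm.comp measurable_fst
  have hmQ2 : Measurable (fun q : (V → ℝ) × (V → ℝ) => mm G θ q.2 (p 0)) := hmm.comp measurable_snd
  have hi1 : ∫ q, mm G θ q.1 (p 0) ^ 2 ∂(Q 0 s)
      = ∫ x, mm G θ x (p 0) ^ 2 ∂(fieldLaw μ (fun _ : V => rho 0 s)) := by
    rw [← hst.fst, integral_map measurable_fst.aemeasurable (hmm.pow_const 2).aestronglyMeasurable]
  have hi2 : ∫ q, mm G θ q.2 (p 0) ^ 2 ∂(Q 0 s)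
      = ∫ x, mm G θ x (p 0) ^ 2 ∂(fieldLaw μ (fun _ : V => rho 0 s)) := by
    rw [← hst.snd, integral_map measurable_snd.aemeasurable (hmm.pow_const 2).aestronglyMeasurable]
  have hI1 : Integrable (fun q : (V → ℝ) × (V → ℝ) => mm G θ q.1 (p 0) ^ 2) (Q 0 s) := by
    refine Integrable.of_bound (hmQ1.pow_const 2).aestronglyMeasurable 1 ?_
    refine Filter.Eventually.of_forall fun q => ?_
    rw [Real.norm_eq_abs, abs_of_nonneg (sq_nonneg _), ← sq_abs]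
    nlinarith [hmmb q.1, abs_nonneg (mm G θ q.1 (p 0))]
  have hI2 : Integrable (fun q : (V → ℝ) × (V → ℝ) => mm G θ q.2 (p 0) ^ 2) (Q 0 s) := by
    refine Integrable.of_bound (hmQ2.pow_const 2).aestronglyMeasurable 1 ?_
    refine Filter.Eventually.of_forall fun q => ?_
    rw [Real.norm_eq_abs, abs_of_nonneg (sq_nonneg _), ← sq_abs]
    nlinarith [hmmb q.2, abs_nonneg (mm G θ q.2 (p 0))]
  have hId : Integrable (fun q : (V → ℝ) × (V → ℝ) =>
      (mm G θ q.1 (p 0) - mm G θ q.2 (p 0)) ^ 2) (Q 0 s) := by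
    refine Integrable.of_bound ((hmQ1.sub hmQ2).pow_const 2).aestronglyMeasurable 4 ?_
    refine Filter.Eventually.of_forall fun q => ?_
    rw [Real.norm_eq_abs, abs_of_nonneg (sq_nonneg _), ← sq_abs]
    have h2 : |mm G θ q.1 (p 0) - mm G θ q.2 (p 0)| ≤ 2 :=
      (abs_sub _ _).trans (by linarith [hmmb q.1, hmmb q.2])
    nlinarith [abs_nonneg (mm G θ q.1 (p 0) - mm G θ q.2 (p 0))]
  calc yy G θ (Q 0 s) (p 0)
      ≤ ∫ q, (2 * mm G θ q.1 (p 0) ^ 2 + 2 * mm G θ q.2 (p 0) ^ 2) ∂(Q 0 s) := by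
        unfold yy
        apply integral_mono hId ((hI1.const_mul 2).add (hI2.const_mul 2))
        intro q
        show (mm G θ q.1 (p 0) - mm G θ q.2 (p 0)) ^ 2
          ≤ 2 * mm G θ q.1 (p 0) ^ 2 + 2 * mm G θ q.2 (p 0) ^ 2
        nlinarith [sq_nonneg (mm G θ q.1 (p 0) + mm G θ q.2 (p 0))]
    _ = 2 * ∫ q, mm G θ q.1 (p 0) ^ 2 ∂(Q 0 s) + 2 * ∫ q, mm G θ q.2 (p 0) ^ 2 ∂(Q 0 s) := by
        rw [integral_add (hI1.const_mul 2) (hI2.const_mul 2), integral_const_mul,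
          integral_const_mul]
    _ ≤ 16 * C1 * s := by
        rw [hi1, hi2]
        linarith

/-- round 0 at criticality -/
theorem an_zero [Countable V] (hT : G.IsTree) {d : ℕ} (hd : 3 ≤ d) (hreg : G.IsRegularOfDegree d)
    {θ : ℝ} (h0 : 0 < θ) (h1 : θ < 1) (hcrit : θ ^ 2 * ((d : ℝ) - 1) = 1)
    {μ : Measure (V → Bool)} [IsProbabilityMeasure μ] (hμ : IsIsing G θ μ)
    {p : ℕ → V} (hp : IsRay G p) {Q : ℕ → ℝ → Measure ((V → ℝ) × (V → ℝ))}
    (hQ : Proc G θ d μ p Q) :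
    ∀ s ∈ Ioc (0 : ℝ) (1 / 2), yy G θ (Q 0 s) (p 0) = 0 := by
  have hdr : (3 : ℝ) ≤ d := by exact_mod_cast hd
  obtain ⟨Ci, hCi, hinc⟩ := hQ.inc
  have hmono : MonotoneOn (fun s => yy G θ (Q 0 s) (p 0)) (Ioc 0 (1 / 2)) := by
    intro a ha b hb hab
    exact hQ.mono 0 a b ha.1.le hab hb.2
  have hnn : ∀ s ∈ Ioc (0 : ℝ) (1 / 2), 0 ≤ (fun s => yy G θ (Q 0 s) (p 0)) s :=
    fun s _ => an_yy_nonneg G θ (Q 0 s) (p 0)
  obtain ⟨Cl, hCl, hlin⟩ := an_lin G hT hd hreg h0 h1 hcrit.le hμ hp hQ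
  obtain ⟨c0, hc0, hk1⟩ := ker1 G hT hd hreg h0 h1 hcrit hμ
  have hpoly : ∀ N : ℕ, ∃ C : ℝ, 0 < C ∧ ∀ s ∈ Ioc (0:ℝ) (1 / 2),
      (fun s => yy G θ (Q 0 s) (p 0)) s ≤ C * s ^ N := by
    apply ode_stage1 hmono hnn hCl hlin hc0
    intro P hP
    obtain ⟨C, hC, hk⟩ := hk1 P hP
    refine ⟨Ci * C, by positivity, ?_⟩
    intro a b R ha hab hb hR
    have hyb := an_yy_nonneg G θ (Q 0 b) (p 0)
    have hexp := Real.exp_pos (-(c0 * R))
    have hpw : 0 ≤ (yy G θ (Q 0 b) (p 0)) ^ (1 - 1 / (P : ℝ)) := Real.rpow_nonneg hyb _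
    have h2 := hinc 0 a b ha.le hab hb (fun _ _ => ha)
      (C * (R ^ 3 * (yy G θ (Q 0 b) (p 0)) ^ (1 - 1 / (P : ℝ))
        + R ^ 2 / a * Real.exp (-(c0 * R)))) (by positivity) (by
        intro t ht
        have ht0 : 0 < t := ha.trans_le ht.1
        have ht2 : t ≤ 1 / 2 := (ht.2.trans_le hb).le
        refine (hk t (Q 0 t) ht0 ht2 (hQ.good 0 t ht0.le ht2) (hQ.state 0 t ht0.le ht2) p hp R
          hR).trans ?_
        apply ENNReal.ofReal_le_ofReal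
        have hyt := an_yy_nonneg G θ (Q 0 t) (p 0)
        have h3 : (yy G θ (Q 0 t) (p 0)) ^ (1 - 1 / (P : ℝ))
            ≤ (yy G θ (Q 0 b) (p 0)) ^ (1 - 1 / (P : ℝ)) := by
          apply Real.rpow_le_rpow hyt (hQ.mono 0 t b ht0.le ht.2.le hb)
          have hP1 : (1 : ℝ) ≤ P := by exact_mod_cast hP
          rw [sub_nonneg, div_le_one (by linarith)]
          exact hP1
        have h4 : R ^ 2 / t ≤ R ^ 2 / a := div_le_div_of_nonneg_left (by positivity) ha ht.1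
        gcongr)
    refine h2.trans (le_of_eq ?_)
    ring
  obtain ⟨c1, hc1, hql⟩ := q_lower G hT hd hreg h0 h1 hcrit hμ
  obtain ⟨c2, hc2, hSl⟩ := rho_S_lower
  obtain ⟨c3, hc3, hc3', hkq⟩ := killR_q G hT hd hreg h0 h1 hμ
  obtain ⟨C1, hC1, hker⟩ := an_ker G hT hd hreg h0.le h1 hcrit.le hμ (((0 : ℕ) : ℝ) + 1)
    (by positivity)
  set w : ℝ := c3 * (c1 * √c2) with hw
  have hw0 : 0 < w := by positivity
  set K : ℝ := 1 + 1 / w with hK
  have hK1 : 1 ≤ K := by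
    have : 0 < 1 / w := by positivity
    linarith
  have hmain : ∀ t : ℝ, 0 < t → t ≤ 1 / 2 → ∀ m : ℕ, 1 ≤ m →
      ENNReal.ofReal t * KK G θ (d - 1) p (Q 0 t)
        ≤ ENNReal.ofReal (C1 * ((2 * K ^ 2 / t + 2 * (m : ℝ) ^ 2) * yy G θ (Q 0 t) (p 0)
          + K ^ 2 / t * Real.exp (-(((d : ℝ) - 1) ^ m / 2)))) := by
    intro t ht0 ht2 m hm
    haveI := (chan_rho 0 t).prob
    haveI : IsProbabilityMeasure (fieldLaw μ (fun _ : V => rho 0 t)) := fieldLaw_prob μ _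
    have hgood := hQ.good 0 t ht0.le ht2
    have hq : ∀ i j, G.Adj i j → c1 * √c2 * t
        ≤ ∫ x, al G θ x i j ^ 2 ∂(fieldLaw μ (fun _ => rho 0 t)) := by
      intro i j hij
      refine le_trans ?_ (hql (rho 0 t) _ (chan_rho 0 t) hgood i j hij)
      rw [mul_assoc]
      apply mul_le_mul_of_nonneg_left _ hc1.le
      have h3 := Real.sqrt_le_sqrt (hSl t ht0.le ht2)
      rwa [Real.sqrt_mul hc2.le, Real.sqrt_sq ht0.le] at h3
    have hq0 : 0 ≤ c1 * √c2 * t := by positivity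
    have hKR := hkq (rho 0 t) _ (chan_rho 0 t) hgood (c1 * √c2 * t) hq0 hq
    have hqle : c1 * √c2 * t ≤ 1 := by
      refine (hq (p 0) (p 1) ((hp 1).1 0 (by norm_num))).trans ?_
      calc ∫ x, al G θ x (p 0) (p 1) ^ 2 ∂(fieldLaw μ (fun _ => rho 0 t))
          ≤ ∫ x, 1 ∂(fieldLaw μ (fun _ => rho 0 t)) := by
            apply integral_mono_of_nonneg (Filter.Eventually.of_forall fun x => sq_nonneg _)
              (integrable_const _)
            exact Filter.Eventually.of_forall fun x => et_al_sq G θ x _ _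
        _ = 1 := by simp
    have hwt : c3 * (c1 * √c2 * t) = w * t := by rw [hw]; ring
    have hwt1 : w * t ≤ 1 := by
      rw [← hwt]
      nlinarith
    have hwt0 : 0 < w * t := by positivity
    rw [hwt] at hKR
    have hg : ∀ n i j, G.Adj i j →
        ∫ x, Gs G θ x n i j ∂(fieldLaw μ (fun _ => rho 0 t)) ≤ K / t := by
      intro n i j hij
      refine (kill_Gs G hT hd hreg h0.le h1 hcrit.le (fun _ => rho 0 t) hgood hwt0 hwt1 hKR n
        hij).trans ?_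
      rw [le_div_iff₀ ht0, hK]
      have h5 : 1 / (w * t) * t = 1 / w := by field_simp
      nlinarith
    have hKt : 1 ≤ K / t := by
      rw [le_div_iff₀ ht0]; linarith
    have h6 := hker (rho 0 t) (Q 0 t) (chan_rho 0 t) hgood (hQ.state 0 t ht0.le ht2) p hp (K / t)
      hKt hg m
    have hy := an_yy_nonneg G θ (Q 0 t) (p 0)
    set y := yy G θ (Q 0 t) (p 0)
    have hE := Real.exp_pos (-(((d : ℝ) - 1) ^ m / 2))
    set E := Real.exp (-(((d : ℝ) - 1) ^ m / 2))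
    calc ENNReal.ofReal t * KK G θ (d - 1) p (Q 0 t)
        ≤ ENNReal.ofReal t * ENNReal.ofReal (C1 * ((K / t + m) ^ 2 * y + (K / t) ^ 2 * E)) :=
          mul_le_mul_right h6 _
      _ = ENNReal.ofReal (t * (C1 * ((K / t + m) ^ 2 * y + (K / t) ^ 2 * E))) := by
          rw [ENNReal.ofReal_mul ht0.le]
      _ ≤ _ := by
          apply ENNReal.ofReal_le_ofReal
          have h7 : t * (C1 * ((K / t + m) ^ 2 * y + (K / t) ^ 2 * E))
              = C1 * (t * (K / t + m) ^ 2 * y + t * (K / t) ^ 2 * E) := by ring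
          rw [h7]
          apply mul_le_mul_of_nonneg_left _ hC1.le
          have h8 : t * (K / t) ^ 2 = K ^ 2 / t := by field_simp
          have h9 : t * (K / t + m) ^ 2 ≤ 2 * K ^ 2 / t + 2 * (m : ℝ) ^ 2 := by
            have h10 : (K / t + m) ^ 2 ≤ 2 * (K / t) ^ 2 + 2 * (m : ℝ) ^ 2 := by
              nlinarith [sq_nonneg (K / t - m)]
            have h11 : t * (K / t + m) ^ 2 ≤ t * (2 * (K / t) ^ 2 + 2 * (m : ℝ) ^ 2) :=
              mul_le_mul_of_nonneg_left h10 ht0.le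
            have h12 : t * (2 * (m : ℝ) ^ 2) ≤ 2 * (m : ℝ) ^ 2 := by
              nlinarith [sq_nonneg (m : ℝ)]
            calc _ ≤ t * (2 * (K / t) ^ 2 + 2 * (m : ℝ) ^ 2) := h11
              _ = 2 * (t * (K / t) ^ 2) + t * (2 * (m : ℝ) ^ 2) := by ring
              _ ≤ 2 * (K ^ 2 / t) + 2 * (m : ℝ) ^ 2 := by rw [h8]; linarith
              _ = _ := by ring
          rw [h8]
          have h13 := mul_le_mul_of_nonneg_right h9 hy
          linarith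
  refine ode_stage2 hmono hnn hpoly (D := (d : ℝ) - 1) (C := Ci * C1 * (2 * K ^ 2))
    (by linarith) (by positivity) ?_
  intro m a b hm ha hab hb
  have hyb := an_yy_nonneg G θ (Q 0 b) (p 0)
  have hE := Real.exp_pos (-(((d : ℝ) - 1) ^ m / 2))
  have h2 := hinc 0 a b ha.le hab hb (fun _ _ => ha)
    (C1 * ((2 * K ^ 2 / a + 2 * (m : ℝ) ^ 2) * yy G θ (Q 0 b) (p 0)
          + K ^ 2 / a * Real.exp (-(((d : ℝ) - 1) ^ m / 2)))) (by positivity) (by
      intro t ht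
      have ht0 : 0 < t := ha.trans_le ht.1
      have ht2 : t ≤ 1 / 2 := (ht.2.trans_le hb).le
      refine (hmain t ht0 ht2 m hm).trans (ENNReal.ofReal_le_ofReal ?_)
      have hyt := an_yy_nonneg G θ (Q 0 t) (p 0)
      have h3 := hQ.mono 0 t b ht0.le ht.2.le hb
      have h4 : 2 * K ^ 2 / t ≤ 2 * K ^ 2 / a :=
        div_le_div_of_nonneg_left (by positivity) ha ht.1
      have h5 : K ^ 2 / t ≤ K ^ 2 / a := div_le_div_of_nonneg_left (by positivity) ha ht.1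
      gcongr)
  refine h2.trans ?_
  set y := yy G θ (Q 0 b) (p 0)
  set E := Real.exp (-(((d : ℝ) - 1) ^ m / 2))
  have hK2 : 1 ≤ K ^ 2 := by nlinarith
  have h6 : (2 * K ^ 2 / a + 2 * (m : ℝ) ^ 2) * y + K ^ 2 / a * E
      ≤ 2 * K ^ 2 * ((1 / a + (m : ℝ) ^ 2) * y + 1 / a * E) := by
    have h7 : 2 * (m : ℝ) ^ 2 * y ≤ 2 * K ^ 2 * ((m : ℝ) ^ 2 * y) := by
      have : 0 ≤ (m : ℝ) ^ 2 * y := by positivity
      nlinarith
    have h8 : K ^ 2 / a * E ≤ 2 * K ^ 2 * (1 / a * E) := by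
      have h9 : K ^ 2 / a * E = K ^ 2 * (1 / a * E) := by ring
      rw [h9]
      have : 0 ≤ K ^ 2 * (1 / a * E) := by positivity
      linarith
    have h9 : 2 * K ^ 2 / a * y = 2 * K ^ 2 * (1 / a * y) := by ring
    nlinarith
  have hba : 0 ≤ b - a := by linarith
  calc Ci * (b - a) * (C1 * ((2 * K ^ 2 / a + 2 * (m : ℝ) ^ 2) * y + K ^ 2 / a * E))
      = (Ci * C1 * (b - a)) * ((2 * K ^ 2 / a + 2 * (m : ℝ) ^ 2) * y + K ^ 2 / a * E) := by ring
    _ ≤ (Ci * C1 * (b - a)) * (2 * K ^ 2 * ((1 / a + (m : ℝ) ^ 2) * y + 1 / a * E)) :=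
        mul_le_mul_of_nonneg_left h6 (by positivity)
    _ = _ := by ring

theorem analysis [Countable V] (hT : G.IsTree) {d : ℕ} (hd : 3 ≤ d) (hreg : G.IsRegularOfDegree d)
    {θ : ℝ} (h0 : 0 ≤ θ) (h1 : θ < 1) (hcrit : θ ^ 2 * ((d : ℝ) - 1) ≤ 1)
    {μ : Measure (V → Bool)} [IsProbabilityMeasure μ] (hμ : IsIsing G θ μ)
    {p : ℕ → V} (hp : IsRay G p) {Q : ℕ → ℝ → Measure ((V → ℝ) × (V → ℝ))}
    (hQ : Proc G θ d μ p Q) (k : ℕ) (s : ℝ) (hs : 0 ≤ s) (hs' : s ≤ 1 / 2) :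
    yy G θ (Q k s) (p 0) = 0 := by
  have key : ∀ k, ∀ s ∈ Icc (0 : ℝ) (1 / 2), yy G θ (Q k s) (p 0) = 0 := by
    intro k
    induction k with
    | zero =>
      rcases lt_or_eq_of_le hcrit with hlt | heq
      · exact an_sub G hT hd hreg h0 h1 hlt hμ hp hQ 0 hQ.zero
      · have hpos : 0 < θ := by
          rcases h0.lt_or_eq with h | h
          · exact h
          · rw [← h] at heq
            simp at heq
        intro s hs
        rcases hs.1.lt_or_eq with h | h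
        · exact an_zero G hT hd hreg hpos h1 heq hμ hp hQ s ⟨h, hs.2⟩
        · rw [← h]; exact hQ.zero
    | succ k ih =>
      apply an_later G hT hd hreg h0 h1 hcrit hμ hp hQ (k + 1) (by omega)
      rw [hQ.step k]
      exact ih (1 / 2) ⟨by norm_num, le_rfl⟩
  exact key k s ⟨hs, hs'⟩

end Crest.Agent.FI
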