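import Mathlib
import Crest.Agent.FI.Defs
import Crest.Agent.FI.Branch
import Crest.Agent.FI.Ising

/-!
Finite-volume posterior means on a tree: belief propagation by peeling leaves.
-/

set_option autoImplicit false

namespace Crest.Agent.FI.FV

open MeasureTheory Set Filter Topology
open scoped ENNReal

/-! ### Resampling one coordinate of a product measure -/

theorem measurable_updatePair {ι X : Type*} [DecidableEq ι] [MeasurableSpace X] (u : ι) :
    Measurable (fun p : (ι → X) × X => Function.update p.1 u p.2) := by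
  refine measurable_pi_iff.2 fun i => ?_
  by_cases h : i = u
  · subst h
    simp only [Function.update_self]
    exact measurable_snd
  · simp only [Function.update_of_ne h]
    exact (measurable_pi_apply i).comp measurable_fst

theorem resample {ι X : Type*} [DecidableEq ι] [MeasurableSpace X] (P : ι → Measure X)
    [∀ i, IsProbabilityMeasure (P i)] (u : ι) :
    ((Measure.infinitePi P).prod (P u)).map (fun p => Function.update p.1 u p.2)
      = Measure.infinitePi P := by
  refine Measure.eq_infinitePi _ fun s t ht => ?_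
  rw [Measure.map_apply (measurable_updatePair u)
    (MeasurableSet.pi (Finset.countable_toSet _) fun i _ => ht i)]
  by_cases hu : u ∈ s
  · have : (fun p : (ι → X) × X => Function.update p.1 u p.2) ⁻¹' (Set.pi (s : Set ι) t)
        = (Set.pi ((s.erase u : Finset ι) : Set ι) t) ×ˢ (t u) := by
      ext p
      simp only [Set.mem_preimage, Set.mem_pi, Finset.mem_coe, Set.mem_prod, Finset.mem_erase]
      constructor
      · intro h
        refine ⟨fun i hi => ?_, ?_⟩
        · have := h i hi.2
          rwa [Function.update_of_ne hi.1] at this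
        · have := h u hu
          rwa [Function.update_self] at this
      · rintro ⟨h1, h2⟩ i hi
        by_cases hiu : i = u
        · subst hiu
          rwa [Function.update_self]
        · rw [Function.update_of_ne hiu]
          exact h1 i ⟨hiu, hi⟩
    rw [this, Measure.prod_prod, Measure.infinitePi_pi _ fun i _ => ht i, mul_comm,
      Finset.mul_prod_erase s (fun i => P i (t i)) hu]
  · have : (fun p : (ι → X) × X => Function.update p.1 u p.2) ⁻¹' (Set.pi (s : Set ι) t)
        = (Set.pi (s : Set ι) t) ×ˢ Set.univ := by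
      ext p
      simp only [Set.mem_preimage, Set.mem_pi, Finset.mem_coe, Set.mem_prod, Set.mem_univ, and_true]
      refine forall_congr' fun i => forall_congr' fun hi => ?_
      have hiu : i ≠ u := fun h => hu (h ▸ hi)
      rw [Function.update_of_ne hiu]
    rw [this, Measure.prod_prod, Measure.infinitePi_pi _ fun i _ => ht i, measure_univ, mul_one]

/-- integrating out one coordinate -/
theorem integral_resample {ι X : Type*} [DecidableEq ι] [MeasurableSpace X] (P : ι → Measure X)
    [∀ i, IsProbabilityMeasure (P i)] (u : ι) {Φ : (ι → X) → ℝ} (hΦ : Measurable Φ) {C : ℝ}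
    (hC : ∀ e, |Φ e| ≤ C) :
    ∫ e, Φ e ∂(Measure.infinitePi P)
      = ∫ e, ∫ b, Φ (Function.update e u b) ∂(P u) ∂(Measure.infinitePi P) := by
  conv_lhs => rw [← resample P u]
  rw [integral_map (measurable_updatePair u).aemeasurable hΦ.aestronglyMeasurable,
    integral_prod]
  refine Integrable.of_bound (hΦ.comp (measurable_updatePair u)).aestronglyMeasurable C ?_
  exact Eventually.of_forall fun p => by
    rw [Real.norm_eq_abs]
    exact hC _

/-! ### The edge map -/

/-- normalising constant of the edge map -/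
noncomputable def Cc (θ h : ℝ) : ℝ := Real.cosh h / Real.cosh (ff θ h)

theorem Cc_pos (θ h : ℝ) : 0 < Cc θ h := div_pos (Real.cosh_pos _) (Real.cosh_pos _)

theorem sg_sq (b : Bool) : sg b * sg b = 1 := by
  cases b <;> simp [sg]

theorem abs_sg (b : Bool) : |sg b| = 1 := by
  cases b <;> simp [sg]

theorem exp_sg_mul (b : Bool) (a : ℝ) :
    Real.exp (sg b * a) = Real.cosh a + sg b * Real.sinh a := by
  cases b
  · simp only [sg, Bool.false_eq_true, if_false, neg_mul, one_mul]
    rw [← Real.cosh_sub_sinh]
    ring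
  · simp only [sg, if_true, one_mul]
    rw [← Real.cosh_add_sinh]

theorem edge_id {θ : ℝ} (h0 : 0 ≤ θ) (h1 : θ < 1) (b : Bool) (h : ℝ) :
    (1 + θ) / 2 * Real.exp (sg b * h) + (1 - θ) / 2 * Real.exp (-(sg b * h))
      = Cc θ h * Real.exp (sg b * ff θ h) := by
  have ht := Real.abs_tanh_lt_one h
  have hm : θ * Real.tanh h ∈ Set.Ioo (-1 : ℝ) 1 := by
    have : |θ * Real.tanh h| < 1 := by
      rw [abs_mul, abs_of_nonneg h0]
      calc θ * |Real.tanh h| ≤ θ * 1 := by
            exact mul_le_mul_of_nonneg_left ht.le h0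
        _ < 1 := by linarith
    exact abs_lt.1 this
  have hff : Real.tanh (ff θ h) = θ * Real.tanh h := Real.tanh_artanh hm
  have hc := (Real.cosh_pos h).ne'
  have hc' := (Real.cosh_pos (ff θ h)).ne'
  have hsinh : Real.sinh (ff θ h) = θ * Real.tanh h * Real.cosh (ff θ h) := by
    rw [← hff, Real.tanh_eq_sinh_div_cosh]
    field_simp
  have e2 : Real.exp (-(sg b * h)) = Real.cosh h - sg b * Real.sinh h := by
    have := exp_sg_mul b (-h)
    rw [mul_neg, Real.cosh_neg, Real.sinh_neg] at this
    rw [this]
    ring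
  rw [e2, exp_sg_mul, exp_sg_mul, hsinh, Cc, Real.tanh_eq_sinh_div_cosh]
  field_simp
  ring


/-! ### Peeling one leaf -/

variable {V : Type*} (G : SimpleGraph V)

theorem spin_update (hT : G.IsTree) (r : V) [DecidableEq V] {u : V} (e : V → Bool) (b : Bool)
    {w : V} (hw : G.dist r w ≤ G.dist r u) (hne : w ≠ u) :
    spin G r (Function.update e u b) w = spin G r e w := by
  induction h : G.dist r w using Nat.strong_induction_on generalizing w with
  | _ n ih =>
    by_cases hwr : w = r
    · subst hwr
      rw [spin_root, spin_root, Function.update_of_ne hne]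
    · have hd := par_dist G hT hwr
      rw [spin_of_ne G hT hwr, spin_of_ne G hT hwr, Function.update_of_ne hne,
        ih _ (by omega) (by omega) (by
          rintro h3
          rw [h3] at hd
          omega) rfl]

theorem peel (hT : G.IsTree) {θ : ℝ} (h0 : 0 ≤ θ) (h1 : θ < 1) {μ : Measure (V → Bool)}
    [IsProbabilityMeasure μ] (hμ : IsIsing G θ μ) (r : V) {u : V} (hu : u ≠ r)
    {F : (V → Bool) → ℝ} (hF : Measurable F) {C : ℝ} (hC : ∀ τ, |F τ| ≤ C)
    (hdep : ∀ τ τ', (∀ w, G.dist r w ≤ G.dist r u → w ≠ u → τ w = τ' w) → F τ = F τ') (h : ℝ) :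
    ∫ τ, F τ * Real.exp (sg (τ u) * h) ∂μ
      = Cc θ h * ∫ τ, F τ * Real.exp (sg (τ (par G r u)) * ff θ h) ∂μ := by
  classical
  have hprob := fun v => edgeP_prob r h0 h1.le v
  have hmeas : ∀ (w : V) (a : ℝ), Measurable (fun τ : V → Bool => Real.exp (sg (τ w) * a)) := by
    intro w a
    exact (measurable_of_countable (fun b : Bool => Real.exp (sg b * a))).comp (measurable_pi_apply w)
  have hbd : ∀ (w : V) (a : ℝ) (τ : V → Bool), |F τ * Real.exp (sg (τ w) * a)|
      ≤ C * Real.exp |a| := by
    intro w a τ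
    rw [abs_mul, abs_of_pos (Real.exp_pos _)]
    refine mul_le_mul (hC τ) (Real.exp_le_exp.2 ?_) (Real.exp_pos _).le
      ((abs_nonneg _).trans (hC τ))
    calc sg (τ w) * a ≤ |sg (τ w) * a| := le_abs_self _
      _ = |a| := by rw [abs_mul, abs_sg, one_mul]
  have hm1 : Measurable (fun τ : V → Bool => F τ * Real.exp (sg (τ u) * h)) :=
    hF.mul (hmeas u h)
  have hm2 : Measurable
      (fun τ : V → Bool => Cc θ h * (F τ * Real.exp (sg (τ (par G r u)) * ff θ h))) :=
    (hF.mul (hmeas (par G r u) (ff θ h))).const_mul (Cc θ h)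
  rw [ising_eq_map_spin G hT h0 h1.le hμ r, ← integral_const_mul,
    integral_map (measurable_spin G r).aemeasurable hm1.aestronglyMeasurable,
    integral_map (measurable_spin G r).aemeasurable hm2.aestronglyMeasurable,
    integral_resample (edgeP r θ) u (Φ := fun e => F (spin G r e) * Real.exp (sg (spin G r e u) * h))
      (hm1.comp (measurable_spin G r)) (fun e => hbd u h (spin G r e))]
  refine integral_congr_ae (Eventually.of_forall fun e => ?_)
  have hpd := par_dist G hT hu
  have hFe : ∀ b, F (spin G r (Function.update e u b)) = F (spin G r e) := fun b =>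
    hdep _ _ fun w hw hwu => spin_update G hT r e b hw hwu
  have hse : ∀ b, sg (spin G r (Function.update e u b) u) = sg b * sg (spin G r e (par G r u)) := by
    intro b
    rw [spin_of_ne G hT hu, sg_beq, Function.update_self, spin_update G hT r e b (by omega)
      (par_adj G hT hu).ne']
  simp only [hFe, hse]
  have hP : edgeP r θ u = berB θ := by
    unfold edgeP
    rw [if_neg hu]
  rw [hP, integral_const_mul]
  have hint : ∫ b, Real.exp (sg b * sg (spin G r e (par G r u)) * h) ∂(berB θ)
      = (1 + θ) / 2 * Real.exp (sg (spin G r e (par G r u)) * h)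
        + (1 - θ) / 2 * Real.exp (-(sg (spin G r e (par G r u)) * h)) := by
    unfold berB
    rw [integral_add_measure (Integrable.smul_measure (integrable_dirac (by simp)) (by simp))
      (Integrable.smul_measure (integrable_dirac (by simp)) (by simp)),
      integral_smul_measure, integral_smul_measure, integral_dirac, integral_dirac]
    simp only [sg, if_true, Bool.false_eq_true, if_false, one_mul, neg_mul, smul_eq_mul]
    rw [ENNReal.toReal_ofReal (by linarith), ENNReal.toReal_ofReal (by linarith)]
  rw [hint, edge_id h0 h1]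
  ring


/-! ### Peeling a shell -/

/-- bounded measurable -/
def BM (F : (V → Bool) → ℝ) : Prop := Measurable F ∧ ∃ C, ∀ τ, |F τ| ≤ C

theorem BM.mul {F F' : (V → Bool) → ℝ} (h : BM F) (h' : BM F') : BM (fun τ => F τ * F' τ) := by
  obtain ⟨hm, C, hC⟩ := h
  obtain ⟨hm', C', hC'⟩ := h'
  refine ⟨hm.mul hm', C * C', fun τ => ?_⟩
  rw [abs_mul]
  exact mul_le_mul (hC τ) (hC' τ) (abs_nonneg _) ((abs_nonneg _).trans (hC τ))

theorem BM.bool (f : Bool → ℝ) (w : V) : BM (fun τ : V → Bool => f (τ w)) := by
  refine ⟨(measurable_of_countable f).comp (measurable_pi_apply w), max |f true| |f false|, ?_⟩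
  intro τ
  show |f (τ w)| ≤ max |f true| |f false|
  cases τ w
  · exact le_max_right _ _
  · exact le_max_left _ _

theorem BM.prod (T : Finset V) (f : V → Bool → ℝ) (g : V → V) :
    BM (fun τ : V → Bool => ∏ w ∈ T, f w (τ (g w))) := by
  classical
  induction T using Finset.induction_on with
  | empty =>
    refine ⟨by simp, 1, fun τ => by simp⟩
  | insert u T hu ih =>
    simp only [Finset.prod_insert hu]
    exact (BM.bool (f u) (g u)).mul ih

theorem peel_shell (hT : G.IsTree) {θ : ℝ} (h0 : 0 ≤ θ) (h1 : θ < 1) {μ : Measure (V → Bool)}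
    [IsProbabilityMeasure μ] (hμ : IsIsing G θ μ) (r : V) (m : ℕ) (y : V → ℝ) (T : Finset V) :
    (∀ w ∈ T, G.dist r w = m + 1) → ∀ F : (V → Bool) → ℝ, BM F →
    (∀ τ τ', (∀ w, G.dist r w ≤ m → τ w = τ' w) → F τ = F τ') →
    ∫ τ, F τ * ∏ w ∈ T, Real.exp (sg (τ w) * y w) ∂μ
      = (∏ w ∈ T, Cc θ (y w)) * ∫ τ, F τ * ∏ w ∈ T, Real.exp (sg (τ (par G r w)) * ff θ (y w)) ∂μ := by
  classical
  induction T using Finset.induction_on with
  | empty =>
    intro _ F _ _
    simp
  | insert u T hu ih =>
    intro hT' F hF hdep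
    have hur : u ≠ r := by
      rintro rfl
      have := hT' u (Finset.mem_insert_self _ _)
      simp at this
    have hpd := par_dist G hT hur
    have hud := hT' u (Finset.mem_insert_self _ _)
    have hTT : ∀ w ∈ T, G.dist r w = m + 1 := fun w hw => hT' w (Finset.mem_insert_of_mem hw)
    have hF1 : BM (fun τ : V → Bool => F τ * ∏ w ∈ T, Real.exp (sg (τ w) * y w)) :=
      hF.mul (BM.prod T (fun w b => Real.exp (sg b * y w)) id)
    obtain ⟨hm1, C1, hC1⟩ := hF1
    have hp := peel G hT h0 h1 hμ r hur hm1 hC1 (by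
      intro τ τ' hτ
      rw [hdep τ τ' fun w hw => hτ w (by omega) (by rintro rfl; omega)]
      congr 1
      refine Finset.prod_congr rfl fun w hw => ?_
      rw [hτ w (by rw [hTT w hw, hud]) (fun h => hu (h ▸ hw))]) (y u)
    have e1 : ∀ τ : V → Bool, F τ * ∏ w ∈ insert u T, Real.exp (sg (τ w) * y w)
        = F τ * (∏ w ∈ T, Real.exp (sg (τ w) * y w)) * Real.exp (sg (τ u) * y u) := by
      intro τ
      rw [Finset.prod_insert hu]
      ring
    have e2 : ∀ τ : V → Bool, F τ * (∏ w ∈ T, Real.exp (sg (τ w) * y w))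
          * Real.exp (sg (τ (par G r u)) * ff θ (y u))
        = F τ * Real.exp (sg (τ (par G r u)) * ff θ (y u)) * ∏ w ∈ T, Real.exp (sg (τ w) * y w) := by
      intro τ
      ring
    have e3 : ∀ τ : V → Bool,
        F τ * ∏ w ∈ insert u T, Real.exp (sg (τ (par G r w)) * ff θ (y w))
        = F τ * Real.exp (sg (τ (par G r u)) * ff θ (y u))
          * ∏ w ∈ T, Real.exp (sg (τ (par G r w)) * ff θ (y w)) := by
      intro τ
      rw [Finset.prod_insert hu]
      ring
    simp only [e1, e3]
    rw [hp]
    simp only [e2]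
    rw [ih hTT (fun τ => F τ * Real.exp (sg (τ (par G r u)) * ff θ (y u)))
      (hF.mul (BM.bool (fun b => Real.exp (sg b * ff θ (y u))) (par G r u))) (by
        intro τ τ' hτ
        beta_reduce
        rw [hdep τ τ' hτ, hτ (par G r u) (by omega)]), Finset.prod_insert hu]
    ring

/-! ### Peeling all shells -/

section levels

variable [G.LocallyFinite]

open Classical in
/-- children of `w`, away from the root -/
noncomputable def ch (r w : V) : Finset V :=
  (G.neighborFinset w).filter (fun c => G.dist r c = G.dist r w + 1)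

theorem mem_ch {r w c : V} : c ∈ ch G r w ↔ G.Adj w c ∧ G.dist r c = G.dist r w + 1 := by
  classical
  simp [ch]

/-- the field at `w` after peeling everything below -/
noncomputable def hh (θ : ℝ) (x : V → ℝ) (r : V) (k : ℕ) (w : V) : ℝ :=
  x w + ∑ c ∈ ch G r w, ff θ (msg G θ x k c w)

theorem hh_zero (θ : ℝ) (x : V → ℝ) (r w : V) : hh G θ x r 0 w = x w := by
  simp [hh, msg, ff]

theorem ch_root (r : V) : ch G r r = G.neighborFinset r := by
  ext c
  rw [mem_ch, SimpleGraph.mem_neighborFinset]
  refine ⟨fun h => h.1, fun h => ⟨h, ?_⟩⟩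
  rw [SimpleGraph.dist_self, SimpleGraph.dist_eq_one_iff_adj.2 h]

theorem par_of_mem_ch (hT : G.IsTree) {r p c : V} (hc : c ∈ ch G r p) : par G r c = p := by
  rw [mem_ch] at hc
  exact (eq_par G hT hc.1.symm hc.2.symm).symm

theorem oth_eq_ch (hT : G.IsTree) {r p c : V} (hc : c ∈ ch G r p) : oth G c p = ch G r c := by
  have hc' := (mem_ch G).1 hc
  ext d
  rw [mem_oth, mem_ch]
  constructor
  · rintro ⟨h1, h2⟩
    refine ⟨h1, ?_⟩
    rcases hT.dist_eq_dist_add_one_of_adj r h1 with h3 | h3
    · exfalso
      apply h2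
      rw [eq_par G hT h1 h3.symm, par_of_mem_ch G hT hc]
    · exact h3
  · rintro ⟨h1, h2⟩
    refine ⟨h1, ?_⟩
    rintro rfl
    omega

theorem hh_eq_msg (hT : G.IsTree) (θ : ℝ) (x : V → ℝ) {r p c : V} (hc : c ∈ ch G r p) (k : ℕ) :
    hh G θ x r k c = msg G θ x (k + 1) c p := by
  rw [hh, msg, oth_eq_ch G hT hc]

open Classical in
theorem levels (hT : G.IsTree) {θ : ℝ} (h0 : 0 ≤ θ) (h1 : θ < 1)
    {μ : Measure (V → Bool)} [IsProbabilityMeasure μ] (hμ : IsIsing G θ μ) (x : V → ℝ) (r : V)
    (n : ℕ) (B : Finset V) (hB : ∀ w, w ∈ B ↔ G.dist r w ≤ n) (k : ℕ) :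
    ∀ m, m + k = n → ∃ C : ℝ, 0 < C ∧ ∀ f : Bool → ℝ,
      ∫ τ, f (τ r) * ∏ w ∈ B, Real.exp (sg (τ w) * x w) ∂μ
        = C * ∫ τ, (f (τ r) * ∏ w ∈ B.filter (fun w => G.dist r w < m), Real.exp (sg (τ w) * x w))
          * ∏ w ∈ B.filter (fun w => G.dist r w = m), Real.exp (sg (τ w) * hh G θ x r k w) ∂μ := by
  induction k with
  | zero =>
    intro m hm
    refine ⟨1, one_pos, fun f => ?_⟩
    rw [one_mul]
    congr 1
    funext τ
    rw [mul_assoc]
    congr 1
    simp only [hh_zero]
    rw [← Finset.prod_union]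
    · refine Finset.prod_congr ?_ fun _ _ => rfl
      ext w
      rw [Finset.mem_union, Finset.mem_filter, Finset.mem_filter, hB]
      omega
    · rw [Finset.disjoint_filter]
      intro w _ h1
      omega
  | succ k ih =>
    intro m hm
    obtain ⟨C, hC, hind⟩ := ih (m + 1) (by omega)
    refine ⟨C * ∏ w ∈ B.filter (fun w => G.dist r w = m + 1), Cc θ (hh G θ x r k w),
      mul_pos hC (Finset.prod_pos fun w _ => Cc_pos _ _), fun f => ?_⟩
    rw [hind f, peel_shell G hT h0 h1 hμ r m (hh G θ x r k)
      (B.filter (fun w => G.dist r w = m + 1)) (fun w hw => (Finset.mem_filter.1 hw).2)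
      (fun τ => f (τ r) * ∏ w ∈ B.filter (fun w => G.dist r w < m + 1), Real.exp (sg (τ w) * x w))
      ((BM.bool f r).mul (BM.prod _ (fun w b => Real.exp (sg b * x w)) id)) (by
        intro τ τ' hτ
        beta_reduce
        rw [hτ r (by simp)]
        congr 1
        refine Finset.prod_congr rfl fun w hw => ?_
        rw [hτ w (by have := (Finset.mem_filter.1 hw).2; omega)]), mul_assoc]
    congr 2
    congr 1
    funext τ
    rw [mul_assoc, mul_assoc]
    congr 1
    -- split off level `m`
    have hsplit : B.filter (fun w => G.dist r w < m + 1)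
        = B.filter (fun w => G.dist r w < m) ∪ B.filter (fun w => G.dist r w = m) := by
      ext w
      rw [Finset.mem_union, Finset.mem_filter, Finset.mem_filter, Finset.mem_filter]
      constructor
      · rintro ⟨h1, h2⟩
        rcases Nat.lt_or_ge (G.dist r w) m with h3 | h3
        · exact Or.inl ⟨h1, h3⟩
        · exact Or.inr ⟨h1, by omega⟩
      · rintro (⟨h1, h2⟩ | ⟨h1, h2⟩)
        · exact ⟨h1, by omega⟩
        · exact ⟨h1, by omega⟩
    rw [hsplit, Finset.prod_union (by
      rw [Finset.disjoint_filter]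
      intro w _ h1
      omega), mul_assoc]
    congr 1
    have hmaps : ∀ w ∈ B.filter (fun w => G.dist r w = m + 1),
        par G r w ∈ B.filter (fun w => G.dist r w = m) := by
      intro w hw
      rw [Finset.mem_filter] at hw ⊢
      have hwr : w ≠ r := by
        rintro rfl
        simp at hw
      have hd := par_dist G hT hwr
      exact ⟨(hB _).2 (by omega), by omega⟩
    rw [← Finset.prod_fiberwise_of_maps_to hmaps, ← Finset.prod_mul_distrib]
    refine Finset.prod_congr rfl fun p hp => ?_
    have hp' := (Finset.mem_filter.1 hp).2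
    have hfib : (B.filter (fun w => G.dist r w = m + 1)).filter (fun w => par G r w = p)
        = ch G r p := by
      ext c
      rw [Finset.mem_filter, Finset.mem_filter, mem_ch, hB]
      constructor
      · rintro ⟨⟨h2, h3⟩, h4⟩
        have hcr : c ≠ r := by
          rintro rfl
          simp at h3
        have := par_adj G hT hcr
        rw [h4] at this
        exact ⟨this.symm, by omega⟩
      · rintro ⟨h2, h3⟩
        exact ⟨⟨by omega, by omega⟩, par_of_mem_ch G hT ((mem_ch G).2 ⟨h2, h3⟩)⟩
    rw [hfib]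
    have hprod : ∏ w ∈ ch G r p, Real.exp (sg (τ (par G r w)) * ff θ (hh G θ x r k w))
        = Real.exp (sg (τ p) * ∑ c ∈ ch G r p, ff θ (msg G θ x (k + 1) c p)) := by
      rw [Finset.mul_sum, Real.exp_sum]
      refine Finset.prod_congr rfl fun c hc => ?_
      rw [par_of_mem_ch G hT hc, hh_eq_msg G hT θ x hc k]
    rw [hprod, ← Real.exp_add, hh, mul_add]

omit [G.LocallyFinite] in
theorem integral_root (hT : G.IsTree) {θ : ℝ} (h0 : 0 ≤ θ) (h1 : θ < 1)
    {μ : Measure (V → Bool)} [IsProbabilityMeasure μ] (hμ : IsIsing G θ μ) (r : V) (g : Bool → ℝ) :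
    ∫ τ, g (τ r) ∂μ = (g true + g false) / 2 := by
  have hprob := fun v => edgeP_prob r h0 h1.le v
  have hm : Measurable (fun τ : V → Bool => g (τ r)) :=
    (measurable_of_countable g).comp (measurable_pi_apply r)
  rw [ising_eq_map_spin G hT h0 h1.le hμ r,
    integral_map (measurable_spin G r).aemeasurable hm.aestronglyMeasurable]
  simp only [spin_root]
  have := integral_map (μ := Measure.infinitePi (edgeP r θ)) (φ := fun e : V → Bool => e r)
    (measurable_pi_apply r).aemeasurable (f := g) (measurable_of_countable g).aestronglyMeasurable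
  rw [← this, Measure.infinitePi_map_eval]
  have hP : edgeP r θ r = berB 0 := by
    unfold edgeP
    rw [if_pos rfl]
  rw [hP]
  unfold berB
  rw [integral_add_measure (Integrable.smul_measure (integrable_dirac (by simp)) (by simp))
    (Integrable.smul_measure (integrable_dirac (by simp)) (by simp)),
    integral_smul_measure, integral_smul_measure, integral_dirac, integral_dirac]
  simp only [smul_eq_mul]
  rw [ENNReal.toReal_ofReal (by norm_num), ENNReal.toReal_ofReal (by norm_num)]
  ring

end levels

end Crest.Agent.FI.FV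

namespace Crest.Agent.FI

open MeasureTheory Set Filter Topology

variable {V : Type*} (G : SimpleGraph V) [G.LocallyFinite]

/-- finite-volume posterior mean: observations in the ball of radius `n` -/
theorem fv_mean [Countable V] (hT : G.IsTree) {θ : ℝ} (h0 : 0 ≤ θ) (h1 : θ < 1)
    {μ : Measure (V → Bool)} [IsProbabilityMeasure μ] (hμ : IsIsing G θ μ) (x : V → ℝ) (v : V) (n : ℕ)
    (B : Finset V) (hB : ∀ w, w ∈ B ↔ G.dist v w ≤ n) :
    ∫ τ, sg (τ v) * ∏ w ∈ B, Real.exp (sg (τ w) * x w) ∂μ
      = Real.tanh (x v + ∑ c ∈ G.neighborFinset v, ff θ (msg G θ x n c v))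
        * ∫ τ, ∏ w ∈ B, Real.exp (sg (τ w) * x w) ∂μ := by
  classical
  obtain ⟨C, hC, hl⟩ := FV.levels G hT h0 h1 hμ x v n B hB n 0 (by omega)
  have hv : B.filter (fun w => G.dist v w = 0) = {v} := by
    ext w
    rw [Finset.mem_filter, hB, Finset.mem_singleton, hT.connected.dist_eq_zero_iff]
    constructor
    · rintro ⟨-, h⟩
      exact h.symm
    · rintro rfl
      simp
  have hv0 : B.filter (fun w => G.dist v w < 0) = ∅ := by
    rw [Finset.filter_eq_empty_iff]
    intro w _
    omega
  set H : ℝ := x v + ∑ c ∈ G.neighborFinset v, ff θ (msg G θ x n c v) with hH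
  have hh : FV.hh G θ x v n v = H := by
    rw [FV.hh, FV.ch_root]
  have key : ∀ f : Bool → ℝ, ∫ τ, f (τ v) * ∏ w ∈ B, Real.exp (sg (τ w) * x w) ∂μ
      = C * ((f true * Real.exp H + f false * Real.exp (-H)) / 2) := by
    intro f
    rw [hl f, hv, hv0]
    simp only [Finset.prod_empty, mul_one, Finset.prod_singleton, hh]
    rw [FV.integral_root G hT h0 h1 hμ v (fun b => f b * Real.exp (sg b * H))]
    simp [sg]
  have k1 := key sg
  have k2 := key (fun _ => 1)
  simp only [one_mul] at k2
  rw [k1, k2, Real.tanh_eq_sinh_div_cosh, ← Real.cosh_eq]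
  have hc := (Real.cosh_pos H).ne'
  field_simp
  rw [Real.sinh_eq]
  simp [sg]
  ring

/-- balls are finite -/
theorem exists_ball (hT : G.IsTree) (v : V) (n : ℕ) : ∃ B : Finset V, ∀ w, w ∈ B ↔ G.dist v w ≤ n := by
  classical
  induction n with
  | zero =>
    refine ⟨{v}, fun w => ?_⟩
    rw [Finset.mem_singleton, Nat.le_zero, hT.connected.dist_eq_zero_iff]
    exact eq_comm
  | succ n ih =>
    obtain ⟨B, hB⟩ := ih
    refine ⟨B ∪ B.biUnion (fun w => G.neighborFinset w), fun w => ?_⟩
    rw [Finset.mem_union, Finset.mem_biUnion, hB]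
    constructor
    · rintro (h | ⟨u, hu, hw⟩)
      · omega
      · rw [hB] at hu
        rw [SimpleGraph.mem_neighborFinset] at hw
        have := hT.dist_eq_dist_add_one_of_adj v hw
        omega
    · intro h
      by_cases hw : G.dist v w ≤ n
      · exact Or.inl hw
      · right
        have hwv : w ≠ v := by
          rintro rfl
          simp at hw
        have := par_dist G hT hwv
        refine ⟨par G v w, (hB _).2 (by omega), ?_⟩
        rw [SimpleGraph.mem_neighborFinset]
        exact (par_adj G hT hwv).symm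

end Crest.Agent.FI
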