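import Mathlib
import Crest.Prelude.Def_Labels
import Crest.Agent.FI.Defs
import Crest.Agent.FI.FV

/-!
A process which is almost surely a function of i.i.d. labels, with jointly invariant law, is a
factor of i.i.d. in the exact sense.
-/

set_option autoImplicit false

namespace Crest.Agent.FI.Factor

open MeasureTheory ProbabilityTheory Set Filter Topology
open scoped ENNReal symmDiff

variable {V : Type*} (G : SimpleGraph V)

theorem dist_le_aut (hT : G.IsTree) (g : G ≃g G) (a b : V) :
    G.dist (g a) (g b) ≤ G.dist a b := by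
  obtain ⟨p, hp⟩ := hT.connected.exists_walk_length_eq_dist a b
  have := SimpleGraph.dist_le (p.map g.toHom)
  rw [SimpleGraph.Walk.length_map, hp] at this
  exact this

/-- restrictions of automorphisms fixing `o` to a finite set -/
def Kset (o : V) (s : Finset V) : Set (s → V) := {k | ∃ g : G ≃g G, g o = o ∧ ∀ i : s, k i = g i}

theorem Kset_finite [G.LocallyFinite] (hT : G.IsTree) (o : V) (s : Finset V) :
    (Kset G o s).Finite := by
  classical
  obtain ⟨B, hB⟩ := exists_ball G hT o (s.sup (fun w => G.dist o w))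
  refine (Set.Finite.pi' (fun _ : s => B.finite_toSet)).subset ?_
  rintro k ⟨g, hg, hk⟩ i
  rw [hk i, Finset.mem_coe, hB]
  have h1 := dist_le_aut G hT g o i
  rw [hg] at h1
  exact h1.trans (Finset.le_sup (f := fun w => G.dist o w) i.2)

variable {E : Type*} [MeasurableSpace E]

theorem measurable_comp_aut (g : V → V) : Measurable (fun x : V → E => x ∘ g) :=
  measurable_pi_iff.2 fun v => measurable_pi_apply (g v)

open Classical in
/-- the set on which a cylinder event holds for a majority of the rotated configurations -/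
def Maj (s : Finset V) (S : Set (s → E)) (K : Finset (s → V)) : Set (V → E) :=
  {x | K.card < 2 * (K.filter (fun k => (fun i => x (k i)) ∈ S)).card}

open Classical in
theorem measurable_card (s : Finset V) {S : Set (s → E)} (hS : MeasurableSet S)
    (K : Finset (s → V)) :
    Measurable (fun x : V → E => (K.filter (fun k => (fun i => x (k i)) ∈ S)).card) := by
  have : (fun x : V → E => (K.filter (fun k => (fun i => x (k i)) ∈ S)).card)
      = fun x : V → E => ∑ k ∈ K, (if (fun i => x (k i)) ∈ S then 1 else 0) := by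
    funext x
    rw [Finset.card_filter]
  rw [this]
  refine Finset.measurable_sum _ fun k _ => ?_
  refine Measurable.ite ?_ measurable_const measurable_const
  exact (measurable_pi_iff.2 fun i : s => measurable_pi_apply (k i)) hS

open Classical in
theorem measurableSet_Maj (s : Finset V) {S : Set (s → E)} (hS : MeasurableSet S)
    (K : Finset (s → V)) : MeasurableSet (Maj s S K) := by
  have h : Measurable
      (fun x : V → E => 2 * (K.filter (fun k => (fun i => x (k i)) ∈ S)).card) :=
    (measurable_card s hS K).const_mul 2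
  exact measurableSet_lt measurable_const h

omit [MeasurableSpace E] in
theorem Maj_inv (o : V) (s : Finset V) (S : Set (s → E)) (K : Finset (s → V))
    (hK : ∀ k, k ∈ K ↔ k ∈ Kset G o s) (g : G ≃g G) (hg : g o = o) (x : V → E) :
    x ∘ g ∈ Maj s S K ↔ x ∈ Maj s S K := by
  classical
  have : (K.filter (fun k => (fun i => (x ∘ g) (k i)) ∈ S)).card
      = (K.filter (fun k => (fun i => x (k i)) ∈ S)).card := by
    refine Finset.card_bij (fun k _ => fun i => g (k i)) ?_ ?_ ?_
    · intro k hk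
      rw [Finset.mem_filter, hK] at hk ⊢
      obtain ⟨⟨g', hg', hk'⟩, h2⟩ := hk
      refine ⟨⟨g'.trans g, ?_, fun i => ?_⟩, h2⟩
      · show g (g' o) = o
        rw [hg', hg]
      · show g (k i) = g (g' i)
        rw [hk']
    · intro k _ k' _ h
      funext i
      exact g.injective (congrFun h i)
    · intro k hk
      rw [Finset.mem_filter, hK] at hk
      obtain ⟨⟨g', hg', hk'⟩, h2⟩ := hk
      refine ⟨fun i => g.symm (k i), ?_, ?_⟩
      · rw [Finset.mem_filter, hK]
        refine ⟨⟨g'.trans g.symm, ?_, fun i => ?_⟩, ?_⟩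
        · show g.symm (g' o) = o
          rw [hg', RelIso.symm_apply_eq, hg]
        · show g.symm (k i) = g.symm (g' i)
          rw [hk']
        · simpa using h2
      · funext i
        simp
  unfold Maj
  simp only [Set.mem_ofPred_eq]
  rw [this]

theorem exists_maj [G.LocallyFinite] (hT : G.IsTree) (o : V) (P : Measure (V → E))
    [IsProbabilityMeasure P] (hP : ∀ g : G ≃g G, P.map (fun x => x ∘ g) = P) {A : Set (V → E)}
    (hA : MeasurableSet A) (hinv : ∀ g : G ≃g G, g o = o → ∀ᵐ x ∂P, (x ∘ g ∈ A ↔ x ∈ A))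
    {ε : ℝ≥0∞} (hε : 0 < ε) :
    ∃ M : Set (V → E), MeasurableSet M ∧ (∀ g : G ≃g G, g o = o → ∀ x, x ∘ g ∈ M ↔ x ∈ M) ∧
      P (M ∆ A) ≤ 2 * ε := by
  classical
  obtain ⟨C, hC, hCA⟩ := exists_measure_symmDiff_lt_of_generateFrom_isSetRing (μ := P)
    isSetRing_measurableCylinders
    ⟨{Set.univ}, Set.countable_singleton _, by
      rw [Set.singleton_subset_iff]; exact univ_mem_measurableCylinders _, by simp⟩
    generateFrom_measurableCylinders.symm hA hε
  rw [mem_measurableCylinders] at hC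
  obtain ⟨s, S, hS, rfl⟩ := hC
  set K : Finset (s → V) := (Kset_finite G hT o s).toFinset with hKdef
  have hK : ∀ k, k ∈ K ↔ k ∈ Kset G o s := fun k => Set.Finite.mem_toFinset _
  refine ⟨Maj s S K, measurableSet_Maj s hS K, fun g hg x => Maj_inv G o s S K hK g hg x, ?_⟩
  -- the bad sets
  set D : (s → V) → Set (V → E) := fun k => {x | ¬ ((fun i => x (k i)) ∈ S ↔ x ∈ A)} with hD
  have hDm : ∀ k, MeasurableSet (D k) := by
    intro k
    have h1 : MeasurableSet {x : V → E | (fun i => x (k i)) ∈ S} :=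
      (measurable_pi_iff.2 fun i : s => measurable_pi_apply (k i)) hS
    have h2 : D k = {x : V → E | (fun i => x (k i)) ∈ S} ∆ A := by
      ext x
      simp only [hD, Set.mem_ofPred_eq, Set.mem_symmDiff]
      tauto
    rw [h2]
    exact h1.symmDiff hA
  have hDP : ∀ k ∈ K, P (D k) ≤ ε := by
    intro k hk
    obtain ⟨g, hg, hkg⟩ := (hK k).1 hk
    have h1 : D k =ᵐ[P] (fun x : V → E => x ∘ g) ⁻¹' (cylinder s S ∆ A) := by
      filter_upwards [hinv g hg] with x hx
      apply propext
      show ¬ ((fun i => x (k i)) ∈ S ↔ x ∈ A) ↔ (x ∘ g) ∈ cylinder s S ∆ A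
      have h2 : (fun i : s => x (k i)) = s.restrict (x ∘ g) := by
        funext i
        show x (k i) = x (g i)
        rw [hkg]
      rw [h2, Set.mem_symmDiff, mem_cylinder, hx]
      tauto
    rw [measure_congr h1, ← Measure.map_apply (measurable_comp_aut _)
      ((MeasurableSet.cylinder s hS).symmDiff hA), hP g]
    exact hCA.le
  -- Markov
  have hcardK : 0 < K.card := by
    refine Finset.card_pos.2 ⟨fun i => i, (hK _).2 ⟨RelIso.refl _, rfl, fun i => rfl⟩⟩
  have hsum : ∫⁻ x, ∑ k ∈ K, (D k).indicator (fun _ => (1 : ℝ≥0∞)) x ∂P ≤ K.card * ε := by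
    rw [lintegral_finset_sum _ fun k _ => measurable_const.indicator (hDm k)]
    calc ∑ k ∈ K, ∫⁻ x, (D k).indicator (fun _ => (1 : ℝ≥0∞)) x ∂P
        = ∑ k ∈ K, P (D k) := by
          refine Finset.sum_congr rfl fun k _ => ?_
          rw [lintegral_indicator_const (hDm k), one_mul]
      _ ≤ ∑ k ∈ K, ε := Finset.sum_le_sum hDP
      _ = K.card * ε := by rw [Finset.sum_const, nsmul_eq_mul]
  have hpoint : ∀ x ∈ Maj s S K ∆ A,
      (K.card : ℝ≥0∞) ≤ 2 * ∑ k ∈ K, (D k).indicator (fun _ => (1 : ℝ≥0∞)) x := by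
    intro x hx
    have h1 : ∑ k ∈ K, (D k).indicator (fun _ => (1 : ℝ≥0∞)) x
        = ((K.filter (fun k => x ∈ D k)).card : ℝ≥0∞) := by
      rw [Finset.card_filter, Nat.cast_sum]
      refine Finset.sum_congr rfl fun k _ => ?_
      by_cases h : x ∈ D k <;> simp [h]
    rw [h1]
    have h2 : K.card ≤ 2 * (K.filter (fun k => x ∈ D k)).card := by
      have h3 := Finset.card_filter_add_card_filter_not (s := K) (fun k => (fun i => x (k i)) ∈ S)
      rcases hx with ⟨hxM, hxA⟩ | ⟨hxA, hxM⟩
      · have h4 : K.filter (fun k => x ∈ D k) = K.filter (fun k => (fun i => x (k i)) ∈ S) := by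
          refine Finset.filter_congr fun k _ => ?_
          simp only [hD, Set.mem_ofPred_eq]
          tauto
        rw [h4]
        exact hxM.le
      · have h4 : K.filter (fun k => x ∈ D k) = K.filter (fun k => ¬ (fun i => x (k i)) ∈ S) := by
          refine Finset.filter_congr fun k _ => ?_
          simp only [hD, Set.mem_ofPred_eq]
          tauto
        rw [h4]
        have h5 : ¬ (K.card < 2 * (K.filter (fun k => (fun i => x (k i)) ∈ S)).card) := hxM
        omega
    exact_mod_cast h2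
  have hmark : (K.card : ℝ≥0∞) * P (Maj s S K ∆ A) ≤ 2 * (K.card * ε) := by
    calc (K.card : ℝ≥0∞) * P (Maj s S K ∆ A)
        ≤ (K.card : ℝ≥0∞)
          * P {x | (K.card : ℝ≥0∞) ≤ 2 * ∑ k ∈ K, (D k).indicator (fun _ => (1 : ℝ≥0∞)) x} := by
          gcongr
          exact hpoint
      _ ≤ ∫⁻ x, 2 * ∑ k ∈ K, (D k).indicator (fun _ => (1 : ℝ≥0∞)) x ∂P :=
          mul_meas_ge_le_lintegral ((Finset.measurable_sum _ fun k _ =>
            measurable_const.indicator (hDm k)).const_mul 2) _
      _ = 2 * ∫⁻ x, ∑ k ∈ K, (D k).indicator (fun _ => (1 : ℝ≥0∞)) x ∂P :=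
          lintegral_const_mul _ (Finset.measurable_sum _ fun k _ =>
            measurable_const.indicator (hDm k))
      _ ≤ 2 * (K.card * ε) := by gcongr
  have hK0 : (K.card : ℝ≥0∞) ≠ 0 := by exact_mod_cast hcardK.ne'
  rw [show (2 : ℝ≥0∞) * (K.card * ε) = K.card * (2 * ε) by ring] at hmark
  exact (ENNReal.mul_le_mul_iff_right hK0 (ENNReal.natCast_ne_top _)).1 hmark

theorem exists_inv_version [G.LocallyFinite] (hT : G.IsTree) (o : V) (P : Measure (V → E))
    [IsProbabilityMeasure P] (hP : ∀ g : G ≃g G, P.map (fun x => x ∘ g) = P) {A : Set (V → E)}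
    (hA : MeasurableSet A) (hinv : ∀ g : G ≃g G, g o = o → ∀ᵐ x ∂P, (x ∘ g ∈ A ↔ x ∈ A)) :
    ∃ N : Set (V → E), MeasurableSet N ∧ (∀ g : G ≃g G, g o = o → ∀ x, x ∘ g ∈ N ↔ x ∈ N) ∧
      ∀ᵐ x ∂P, (x ∈ N ↔ x ∈ A) := by
  have hε : ∀ n : ℕ, (0 : ℝ≥0∞) < (1 / 2) ^ n := fun n => by
    rw [pos_iff_ne_zero]
    exact pow_ne_zero _ (by simp)
  choose M hM1 hM2 hM3 using fun n : ℕ => exists_maj G hT o P hP hA hinv (hε n)
  have hsum : ∑' n, P (M n ∆ A) ≠ ∞ := by
    refine ne_top_of_le_ne_top ?_ (ENNReal.tsum_le_tsum hM3)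
    rw [ENNReal.tsum_mul_left]
    refine ENNReal.mul_ne_top (by simp) ?_
    rw [ENNReal.tsum_geometric]
    norm_num
  refine ⟨⋃ n, ⋂ m ∈ {m | n ≤ m}, M m, ?_, ?_, ?_⟩
  · exact MeasurableSet.iUnion fun n => MeasurableSet.biInter (Set.to_countable _) fun m _ => hM1 m
  · intro g hg x
    simp only [Set.mem_iUnion, Set.mem_iInter, hM2 _ g hg x]
  · filter_upwards [ae_eventually_notMem hsum] with x hx
    simp only [Set.mem_iUnion, Set.mem_iInter, Set.mem_ofPred_eq]
    rw [eventually_atTop] at hx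
    obtain ⟨n0, hn0⟩ := hx
    constructor
    · rintro ⟨n, hn⟩
      have h1 := hn0 (max n n0) (le_max_right _ _)
      have h2 := hn (max n n0) (le_max_left _ _)
      by_contra hxA
      exact h1 (Or.inl ⟨h2, hxA⟩)
    · intro hxA
      refine ⟨n0, fun m hm => ?_⟩
      by_contra hxM
      exact hn0 m hm (Or.inr ⟨hxA, hxM⟩)

end Crest.Agent.FI.Factor

namespace Crest.Agent.FI

open MeasureTheory ProbabilityTheory Set Filter Topology
open scoped ENNReal

variable {V : Type*} (G : SimpleGraph V) [G.LocallyFinite]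

/-- A process which is almost surely a function of i.i.d. labels, with jointly invariant law, is a
factor in the exact sense. -/
theorem factor_of_measurable [Countable V] (hT : G.IsTree) (htr : ∀ v w : V, ∃ g : G ≃g G, g v = w)
    {E : Type*} [MeasurableSpace E] [StandardBorelSpace E] [Nonempty E] (νE : Measure E)
    [IsProbabilityMeasure νE] (Λ : Measure ((V → E) × (V → Bool))) [IsProbabilityMeasure Λ]
    (hfst : Λ.map Prod.fst = Measure.infinitePi (fun _ : V => νE))
    (hinv : ∀ g : G ≃g G, Λ.map (fun q => (q.1 ∘ g, q.2 ∘ g)) = Λ)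
    (hmeas : ∀ v : V, ∃ F : (V → E) → Bool, Measurable F ∧ ∀ᵐ q ∂Λ, q.2 v = F q.1) :
    ∃ Φ : (V → E) → (V → Bool), Measurable Φ ∧ (∀ (g : G ≃g G) (x : V → E), Φ (x ∘ g) = Φ x ∘ g) ∧
      ∀ᵐ q ∂Λ, q.2 = Φ q.1 := by
  classical
  obtain ⟨o⟩ := hT.connected.nonempty
  obtain ⟨F, hF, hFae⟩ := hmeas o
  set P : Measure (V → E) := Λ.map Prod.fst with hPdef
  have : IsProbabilityMeasure P := Measure.isProbabilityMeasure_map measurable_fst.aemeasurable
  have hpair : ∀ g : G ≃g G, Measurable
      (fun q : (V → E) × (V → Bool) => (q.1 ∘ g, q.2 ∘ g)) := fun g =>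
    ((Factor.measurable_comp_aut (E := E) g).comp measurable_fst).prodMk
      ((Factor.measurable_comp_aut (E := Bool) g).comp measurable_snd)
  have hP : ∀ g : G ≃g G, P.map (fun x => x ∘ g) = P := by
    intro g
    rw [hPdef, Measure.map_map (Factor.measurable_comp_aut _) measurable_fst]
    conv_rhs => rw [← hinv g, Measure.map_map measurable_fst (hpair g)]
    rfl
  -- transport of a.e. statements
  have htrans : ∀ (g : G ≃g G) {p : (V → E) × (V → Bool) → Prop}, (∀ᵐ q ∂Λ, p q) →
      ∀ᵐ q ∂Λ, p (q.1 ∘ g, q.2 ∘ g) := by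
    intro g p hp
    rw [← hinv g] at hp
    exact ae_of_ae_map (hpair g).aemeasurable hp
  have hA : MeasurableSet {x | F x = true} := hF (measurableSet_singleton true)
  have hAinv : ∀ g : G ≃g G, g o = o →
      ∀ᵐ x ∂P, (x ∘ g ∈ {x | F x = true} ↔ x ∈ {x | F x = true}) := by
    intro g hg
    have hms : MeasurableSet {x : V → E | (x ∘ g ∈ {x | F x = true} ↔ x ∈ {x | F x = true})} := by
      have h1 : MeasurableSet {x : V → E | x ∘ g ∈ {x | F x = true}} :=
        (Factor.measurable_comp_aut (E := E) g) hA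
      exact (h1.iff hA)
    rw [hPdef, ae_map_iff measurable_fst.aemeasurable hms]
    filter_upwards [hFae, htrans g hFae] with q h1 h2
    show F (q.1 ∘ g) = true ↔ F q.1 = true
    rw [← h1, ← h2]
    simp only [Function.comp_apply, hg]
  obtain ⟨N, hN1, hN2, hN3⟩ := Factor.exists_inv_version G hT o P hP hA hAinv
  choose τ hτ using fun v => htr o v
  refine ⟨fun x v => decide (x ∘ τ v ∈ N), ?_, ?_, ?_⟩
  · refine measurable_pi_iff.2 fun v => measurable_to_bool ?_
    have : (fun x : V → E => decide (x ∘ τ v ∈ N)) ⁻¹' {true} = (fun x => x ∘ τ v) ⁻¹' N := by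
      ext x
      simp
    rw [this]
    exact Factor.measurable_comp_aut _ hN1
  · intro g x
    funext v
    simp only [Function.comp_apply]
    congr 1
    have h1 := hN2 (((τ v).trans g).trans (τ (g v)).symm) (by
      show (τ (g v)).symm (g (τ v o)) = o
      rw [hτ v, RelIso.symm_apply_eq, hτ (g v)]) (x ∘ τ (g v))
    rw [← h1]
    have h2 : (x ∘ ⇑g) ∘ ⇑(τ v)
        = (x ∘ ⇑(τ (g v))) ∘ ⇑(((τ v).trans g).trans (τ (g v)).symm) := by
      funext w
      show x (g (τ v w)) = x (τ (g v) ((τ (g v)).symm (g (τ v w))))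
      rw [RelIso.apply_symm_apply]
    rw [h2]
  · have h0 : ∀ᵐ q ∂Λ, (q.2 o = true ↔ q.1 ∈ N) := by
      have h1 : ∀ᵐ q ∂Λ, (q.1 ∈ N ↔ q.1 ∈ {x | F x = true}) :=
        ae_of_ae_map measurable_fst.aemeasurable hN3
      filter_upwards [h1, hFae] with q h2 h3
      rw [h2, h3]
    have h1 : ∀ᵐ q ∂Λ, ∀ v, (q.2 v = true ↔ q.1 ∘ τ v ∈ N) := by
      rw [ae_all_iff]
      intro v
      filter_upwards [htrans (τ v) h0] with q h2
      simpa [hτ v] using h2
    filter_upwards [h1] with q h2
    funext v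
    rw [Bool.eq_iff_iff, h2 v]
    simp

/-- the same with labels in the unit interval -/
theorem factor_unit [Countable V] (hT : G.IsTree) (htr : ∀ v w : V, ∃ g : G ≃g G, g v = w)
    {E : Type*} [MeasurableSpace E] [StandardBorelSpace E] [Nonempty E] (νE : Measure E)
    [IsProbabilityMeasure νE] (Λ : Measure ((V → E) × (V → Bool))) [IsProbabilityMeasure Λ]
    (hfst : Λ.map Prod.fst = Measure.infinitePi (fun _ : V => νE))
    (hinv : ∀ g : G ≃g G, Λ.map (fun q => (q.1 ∘ g, q.2 ∘ g)) = Λ)
    (hmeas : ∀ v : V, ∃ F : (V → E) → Bool, Measurable F ∧ ∀ᵐ q ∂Λ, q.2 v = F q.1) :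
    ∃ Φ : (V → unitInterval) → (V → Bool), Measurable Φ ∧
      (∀ (g : G ≃g G) (x : V → unitInterval), Φ (x ∘ ⇑g) = Φ x ∘ ⇑g) ∧
      (Crest.ProbabilityR.Labels.labelMeasure V).map Φ = Λ.map Prod.snd := by
  obtain ⟨Φ, h1, h2, h3⟩ := factor_of_measurable G hT htr νE Λ hfst hinv hmeas
  obtain ⟨f, hf, hfmap⟩ := MeasureTheory.Measure.exists_measurable_map_eq νE
  have hfm : Measurable (fun (x : V → unitInterval) v => f (x v)) :=
    measurable_pi_iff.2 fun v => hf.comp (measurable_pi_apply v)
  refine ⟨fun x => Φ (fun v => f (x v)), h1.comp hfm, ?_, ?_⟩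
  · intro g x
    exact h2 g (fun v => f (x v))
  · have h4 : (fun x : V → unitInterval => Φ (fun v => f (x v)))
        = Φ ∘ (fun (x : V → unitInterval) v => f (x v)) := rfl
    rw [h4, ← Measure.map_map h1 hfm, Crest.ProbabilityR.Labels.labelMeasure,
      Measure.infinitePi_map_pi (fun _ : V => (volume : Measure unitInterval)) (fun _ => hf)]
    simp only [hfmap]
    rw [← hfst, Measure.map_map h1 measurable_fst]
    refine Measure.map_congr ?_
    filter_upwards [h3] with q hq
    exact hq.symm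

end Crest.Agent.FI
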