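import Mathlib
import Crest.Agent.FI.Defs
import Crest.Agent.FI.Channel
import Crest.Agent.FI.Branch
import Crest.Agent.FI.Real
import Crest.Agent.FI.FV
import Crest.Agent.FI.Alg

set_option autoImplicit false

namespace Crest.Agent.FI

open MeasureTheory ProbabilityTheory unitInterval Set Filter Topology
open scoped ENNReal

variable {V : Type*} (G : SimpleGraph V) [G.LocallyFinite]

/-! ### measurability -/

namespace Post

theorem post_measurable_sg : Measurable sg := measurable_of_finite _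

theorem post_measurable_artanh : Measurable Real.artanh := by
  unfold Real.artanh
  fun_prop

theorem post_measurable_tanh : Measurable Real.tanh := by
  have : Real.tanh = fun x => Real.sinh x / Real.cosh x := by
    funext x; exact Real.tanh_eq_sinh_div_cosh x
  rw [this]
  fun_prop

theorem sg_mem (b : Bool) : sg b = 1 ∨ sg b = -1 := by
  cases b <;> simp [sg]

theorem abs_sg (b : Bool) : |sg b| = 1 := by
  cases b <;> simp [sg]

end Post

open Post

/-- measurability -/
theorem measurable_xf (K : ℕ) (M : Set (V × ℕ)) (s : V × ℕ → ℝ) :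
    Measurable (fun z : V × ℕ → I => xf s K M z) := by
  refine measurable_pi_iff.2 fun v => ?_
  unfold xf
  refine Finset.measurable_sum _ fun l _ => ?_
  split_ifs
  · refine post_measurable_artanh.comp ?_
    fun_prop
  · fun_prop

theorem measurable_zob (s : V × ℕ → ℝ) :
    Measurable (fun ω : (V → Bool) × (V × ℕ → I) => zob s ω) := by
  refine measurable_pi_iff.2 fun j => ?_
  unfold zob
  refine measurable_Qm.comp (Measurable.prodMk ?_ (by fun_prop))
  refine Measurable.mul_const ?_ _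
  exact post_measurable_sg.comp (by fun_prop)

theorem measurable_mask (M : Set (V × ℕ)) : Measurable (mask M) := by
  refine measurable_pi_iff.2 fun j => ?_
  unfold mask
  split_ifs <;> fun_prop

/-- `xf` only uses the masked observations -/
theorem xf_mask (s : V × ℕ → ℝ) (K : ℕ) (M : Set (V × ℕ)) (z : V × ℕ → I) :
    xf s K M (mask M z) = xf s K M z := by
  funext v
  unfold xf
  refine Finset.sum_congr rfl fun l _ => ?_
  by_cases h : (v, l) ∈ M
  · simp [mask, h]
  · simp [h]

namespace Post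

theorem mask_mask {M M' : Set (V × ℕ)} (h : M ⊆ M') (z : V × ℕ → I) :
    mask M (mask M' z) = mask M z := by
  funext j
  unfold mask
  by_cases hj : j ∈ M
  · simp [hj, h hj]
  · simp [hj]

/-! ### elementary -/

theorem one_add_sg_mul {a : ℝ} (ha : |a| ≤ 1 / 2) (b : Bool) :
    1 + sg b * a = √(1 - a ^ 2) * Real.exp (sg b * Real.artanh a) := by
  have h := abs_le.1 ha
  have hmem : a ∈ Ioo (-1 : ℝ) 1 := ⟨by linarith [h.1], by linarith [h.2]⟩
  have hp : 0 < 1 + a := by linarith [hmem.1]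
  have hm : 0 < 1 - a := by linarith [hmem.2]
  have e : 1 - a ^ 2 = (1 + a) * (1 - a) := by ring
  have key : √(1 - a ^ 2) * Real.exp (Real.artanh a) = 1 + a := by
    rw [Real.exp_artanh hmem, ← Real.sqrt_mul (by nlinarith), e]
    have : (1 + a) * (1 - a) * ((1 + a) / (1 - a)) = (1 + a) ^ 2 := by
      field_simp
    rw [this, Real.sqrt_sq hp.le]
  rcases sg_mem b with hb | hb
  · rw [hb, one_mul, one_mul, key]
  · rw [hb]
    have h2 : Real.exp (-1 * Real.artanh a) = (Real.exp (Real.artanh a))⁻¹ := by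
      rw [neg_one_mul, Real.exp_neg]
    rw [h2]
    have hpos := Real.exp_pos (Real.artanh a)
    have h3 : √(1 - a ^ 2) * √(1 - a ^ 2) = (1 + a) * (1 - a) := by
      rw [Real.mul_self_sqrt (by rw [e]; positivity), e]
    have hs : 0 < √(1 - a ^ 2) := Real.sqrt_pos.2 (by rw [e]; positivity)
    have h4 : Real.exp (Real.artanh a) = (1 + a) / √(1 - a ^ 2) := by
      rw [← key]; field_simp
    rw [h4]
    field_simp
    nlinarith

/-- likelihood of finitely many observations -/
noncomputable def wt (s : V × ℕ → ℝ) (J : Finset (V × ℕ)) (x : V → Bool) (z : V × ℕ → I) : ℝ :=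
  ∏ j ∈ J, (1 + sg (x j.1) * s j * (2 * (z j : ℝ) - 1))

theorem abs_obs_le {s : ℝ} (hs : 0 ≤ s ∧ s ≤ 1 / 2) (z : I) : |s * (2 * (z : ℝ) - 1)| ≤ 1 / 2 := by
  have h1 := z.2.1
  have h2 := z.2.2
  rw [abs_le]
  constructor <;> nlinarith [hs.1, hs.2]

theorem wt_factor_mem {s : ℝ} (hs : 0 ≤ s ∧ s ≤ 1 / 2) (b : Bool) (z : I) :
    1 + sg b * s * (2 * (z : ℝ) - 1) ∈ Icc (1 / 2 : ℝ) (3 / 2) := by
  have h := abs_le.1 (abs_obs_le hs z)
  rcases sg_mem b with hb | hb <;> rw [hb] <;> constructor <;> nlinarith [h.1, h.2]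

theorem wt_pos {s : V × ℕ → ℝ} (hs : ∀ j, 0 ≤ s j ∧ s j ≤ 1 / 2) (J : Finset (V × ℕ))
    (x : V → Bool) (z : V × ℕ → I) : 0 < wt s J x z :=
  Finset.prod_pos fun j _ => by linarith [(wt_factor_mem (hs j) (x j.1) (z j)).1]

theorem wt_le {s : V × ℕ → ℝ} (hs : ∀ j, 0 ≤ s j ∧ s j ≤ 1 / 2) (J : Finset (V × ℕ))
    (x : V → Bool) (z : V × ℕ → I) : wt s J x z ≤ (3 / 2) ^ J.card := by
  unfold wt
  calc ∏ j ∈ J, (1 + sg (x j.1) * s j * (2 * (z j : ℝ) - 1)) ≤ ∏ _j ∈ J, (3/2 : ℝ) :=
        Finset.prod_le_prod (fun j _ => by linarith [(wt_factor_mem (hs j) (x j.1) (z j)).1])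
          fun j _ => (wt_factor_mem (hs j) (x j.1) (z j)).2
    _ = (3/2) ^ J.card := by rw [Finset.prod_const]

/-- the likelihood in terms of the fields -/
theorem wt_eq {s : V × ℕ → ℝ} (hs : ∀ j, 0 ≤ s j ∧ s j ≤ 1 / 2) (K : ℕ) (B : Finset V)
    (J : Finset (V × ℕ)) (hJ : ∀ j ∈ J, j.1 ∈ B ∧ j.2 < K) (z : V × ℕ → I) :
    ∃ C : ℝ, 0 < C ∧ ∀ x : V → Bool, wt s J x z
      = C * ∏ w ∈ B, Real.exp (sg (x w) * xf s K (J : Set (V × ℕ)) z w) := by
  classical
  refine ⟨∏ j ∈ J, √(1 - (s j * (2 * (z j : ℝ) - 1)) ^ 2), ?_, ?_⟩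
  · refine Finset.prod_pos fun j _ => Real.sqrt_pos.2 ?_
    have := abs_le.1 (abs_obs_le (hs j) (z j))
    nlinarith [this.1, this.2]
  · intro x
    unfold wt
    have h1 : ∀ j ∈ J, (1 + sg (x j.1) * s j * (2 * (z j : ℝ) - 1))
        = √(1 - (s j * (2 * (z j : ℝ) - 1)) ^ 2)
          * Real.exp (sg (x j.1) * Real.artanh (s j * (2 * (z j : ℝ) - 1))) := by
      intro j _
      rw [mul_assoc]
      exact one_add_sg_mul (abs_obs_le (hs j) (z j)) (x j.1)
    rw [Finset.prod_congr rfl h1, Finset.prod_mul_distrib]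
    congr 1
    rw [← Real.exp_sum, ← Real.exp_sum]
    congr 1
    have h2 : ∑ w ∈ B, sg (x w) * xf s K (J : Set (V × ℕ)) z w
        = ∑ p ∈ B ×ˢ Finset.range K, if p ∈ J then
            sg (x p.1) * Real.artanh (s p * (2 * (z p : ℝ) - 1)) else 0 := by
      rw [Finset.sum_product]
      refine Finset.sum_congr rfl fun w _ => ?_
      unfold xf
      rw [Finset.mul_sum]
      refine Finset.sum_congr rfl fun l _ => ?_
      by_cases h : (w, l) ∈ J
      · simp [h]
      · simp [h]
    rw [h2, ← Finset.sum_filter]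
    refine Finset.sum_congr ?_ fun _ _ => rfl
    ext j
    simp only [Finset.mem_filter, Finset.mem_product, Finset.mem_range]
    constructor
    · intro h; exact ⟨hJ j h, h⟩
    · intro h; exact h.2

/-! ### law of finitely many observations -/

instance : IsProbabilityMeasure (nz V) := by unfold nz; infer_instance

instance (μ : Measure (V → Bool)) [IsProbabilityMeasure μ] : IsProbabilityMeasure (P1 μ) := by
  unfold P1; infer_instance

theorem pi_withDensity_I {κ : Type*} [Fintype κ] (f : κ → I → ENNReal) (hf : ∀ j, Measurable (f j))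
    [∀ j, SigmaFinite ((volume : Measure I).withDensity (f j))] :
    Measure.pi (fun j => (volume : Measure I).withDensity (f j))
      = (Measure.pi (fun _ : κ => (volume : Measure I))).withDensity (fun y => ∏ j, f j (y j)) := by
  refine Measure.pi_eq fun s hs => ?_
  rw [withDensity_apply _ (MeasurableSet.univ_pi hs), ← lintegral_indicator (MeasurableSet.univ_pi hs)]
  have h1 : ∀ y : κ → I, (univ.pi s).indicator (fun y => ∏ j, f j (y j)) y
      = ∏ j, (s j).indicator (f j) (y j) := by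
    intro y
    by_cases hy : y ∈ univ.pi s
    · rw [indicator_of_mem hy]
      refine Finset.prod_congr rfl fun j _ => ?_
      rw [indicator_of_mem (hy j (mem_univ j))]
    · rw [indicator_of_notMem hy]
      simp only [Set.mem_pi, mem_univ, true_implies, not_forall] at hy
      obtain ⟨j, hj⟩ := hy
      symm
      refine Finset.prod_eq_zero (Finset.mem_univ j) ?_
      rw [indicator_of_notMem hj]
  simp_rw [h1]
  have hind : iIndepFun (fun (j : κ) (y : κ → I) => (s j).indicator (f j) (y j))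
      (Measure.pi (fun _ : κ => (volume : Measure I))) :=
    iIndepFun_pi (X := fun j => (s j).indicator (f j))
      (fun j => ((hf j).indicator (hs j)).aemeasurable)
  rw [lintegral_prod_eq_prod_lintegral_of_indepFun Finset.univ
    (fun (j : κ) (y : κ → I) => (s j).indicator (f j) (y j)) hind
    (fun j => ((hf j).indicator (hs j)).comp (measurable_pi_apply j))]
  refine Finset.prod_congr rfl fun j _ => ?_
  have hmp := measurePreserving_eval (fun _ : κ => (volume : Measure I)) j
  have := hmp.lintegral_comp (f := (s j).indicator (f j)) ((hf j).indicator (hs j))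
  simp only [Function.eval] at this
  rw [this, lintegral_indicator (hs j), withDensity_apply _ (hs j)]

theorem abs_sg_mul_le {s : ℝ} (hs : 0 ≤ s ∧ s ≤ 1 / 2) (b : Bool) : |sg b * s| ≤ 1 / 2 := by
  rw [abs_mul, abs_sg, one_mul, abs_of_nonneg hs.1]; exact hs.2

open Classical in
/-- extension by zero -/
noncomputable def ext0 (J : Finset (V × ℕ)) (y : J → I) : V × ℕ → I :=
  fun j => if h : j ∈ J then y ⟨j, h⟩ else 0

theorem measurable_ext0 (J : Finset (V × ℕ)) : Measurable (ext0 J) := by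
  refine measurable_pi_iff.2 fun j => ?_
  unfold ext0
  split_ifs <;> fun_prop

theorem ext0_restrict (J : Finset (V × ℕ)) (z : V × ℕ → I) :
    ext0 J (J.restrict z) = mask (J : Set (V × ℕ)) z := by
  funext j
  unfold ext0 mask
  by_cases h : j ∈ J <;> simp [h]

theorem measurable_wt (s : V × ℕ → ℝ) (J : Finset (V × ℕ)) :
    Measurable (fun p : (V → Bool) × (V × ℕ → I) => wt s J p.1 p.2) := by
  unfold wt
  refine Finset.measurable_prod _ fun j _ => ?_
  refine Measurable.add measurable_const (Measurable.mul (Measurable.mul_const ?_ _) (by fun_prop))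
  exact post_measurable_sg.comp (by fun_prop)

theorem measurable_wt_right (s : V × ℕ → ℝ) (J : Finset (V × ℕ)) (x : V → Bool) :
    Measurable (fun z : V × ℕ → I => wt s J x z) :=
  (measurable_wt s J).comp (measurable_const.prodMk measurable_id)

theorem measurable_wt_left (s : V × ℕ → ℝ) (J : Finset (V × ℕ)) (z : V × ℕ → I) :
    Measurable (fun x : V → Bool => wt s J x z) :=
  (measurable_wt s J).comp (measurable_id.prodMk measurable_const)

/-- law of finitely many observations given the spins -/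
theorem map_zob_restrict {s : V × ℕ → ℝ} (hs : ∀ j, 0 ≤ s j ∧ s j ≤ 1 / 2) (x : V → Bool)
    (J : Finset (V × ℕ)) :
    (nz V).map (fun ξ => J.restrict (zob s (x, ξ)))
      = (Measure.pi (fun _ : J => (volume : Measure I))).withDensity
          (fun y => ENNReal.ofReal (wt s J x (ext0 J y))) := by
  have h1 : (fun ξ : V × ℕ → I => J.restrict (zob s (x, ξ)))
      = (fun (η : J → I) (j : J) => Qm (sg (x j.1.1) * s j) (η j)) ∘ J.restrict := by
    funext ξ j
    simp only [Finset.restrict, Function.comp, zob]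
  have hQ : ∀ c : ℝ, Measurable (Qm c) := fun c =>
    measurable_Qm.comp (measurable_const.prodMk measurable_id)
  have hm : Measurable (fun (η : J → I) (j : J) => Qm (sg (x j.1.1) * s j) (η j)) := by
    refine measurable_pi_iff.2 fun j => (hQ _).comp (by fun_prop)
  rw [h1, ← Measure.map_map hm (by fun_prop)]
  unfold nz
  rw [Measure.infinitePi_map_restrict]
  rw [Measure.pi_map_pi (fun j => (hQ _).aemeasurable)]
  have h2 : ∀ j : J, (volume : Measure I).map (Qm (sg (x j.1.1) * s j))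
      = volume.withDensity (fun z : I => ENNReal.ofReal (1 + sg (x j.1.1) * s j * (2 * (z : ℝ) - 1))) :=
    fun j => map_Qm (abs_sg_mul_le (hs j) _)
  simp_rw [h2]
  have : ∀ j : J, SigmaFinite ((volume : Measure I).withDensity
      (fun z => ENNReal.ofReal (1 + sg (x j.1.1) * s j * (2 * (z : ℝ) - 1)))) := fun j => by
    rw [← h2 j]
    have : IsProbabilityMeasure ((volume : Measure I).map (Qm (sg (x j.1.1) * s j))) :=
      Measure.isProbabilityMeasure_map (hQ _).aemeasurable
    infer_instance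
  rw [pi_withDensity_I (fun (j : J) (z : I) =>
    ENNReal.ofReal (1 + sg (x j.1.1) * s j * (2 * (z : ℝ) - 1))) (fun j => by fun_prop)]
  congr 1
  funext y
  unfold wt
  rw [ENNReal.ofReal_prod_of_nonneg (fun j _ => by
    linarith [(wt_factor_mem (hs j) (x j.1) (ext0 J y j)).1]),
    ← Finset.prod_coe_sort J (fun j => ENNReal.ofReal
      (1 + sg (x j.1) * s j * (2 * ((ext0 J y j : I) : ℝ) - 1)))]
  refine Finset.prod_congr rfl fun j _ => ?_
  simp [ext0]

theorem measurable_zob_fix (s : V × ℕ → ℝ) (x : V → Bool) : Measurable (fun ξ => zob s (x, ξ)) :=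
  (measurable_zob s).comp (measurable_const.prodMk measurable_id)

theorem lintegral_zob_fix {s : V × ℕ → ℝ} (hs : ∀ j, 0 ≤ s j ∧ s j ≤ 1 / 2) (x : V → Bool)
    (J : Finset (V × ℕ)) (H : (V × ℕ → I) → ENNReal) (hH : Measurable H) :
    ∫⁻ ξ, H (mask (J : Set (V × ℕ)) (zob s (x, ξ))) ∂(nz V)
      = ∫⁻ ξ, H (mask (J : Set (V × ℕ)) ξ)
          * ENNReal.ofReal (wt s J x (mask (J : Set (V × ℕ)) ξ)) ∂(nz V) := by
  have e1 : ∀ ξ, H (mask (J : Set (V × ℕ)) (zob s (x, ξ)))
      = (fun y => H (ext0 J y)) (J.restrict (zob s (x, ξ))) := by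
    intro ξ; simp only [ext0_restrict]
  have e2 : ∀ ξ : V × ℕ → I, H (mask (J : Set (V × ℕ)) ξ)
          * ENNReal.ofReal (wt s J x (mask (J : Set (V × ℕ)) ξ))
      = (fun y => H (ext0 J y) * ENNReal.ofReal (wt s J x (ext0 J y))) (J.restrict ξ) := by
    intro ξ; simp only [ext0_restrict]
  have hm1 : Measurable (fun y => H (ext0 J y)) := hH.comp (measurable_ext0 J)
  have hm2 : Measurable (fun y => ENNReal.ofReal (wt s J x (ext0 J y))) :=
    ENNReal.measurable_ofReal.comp ((measurable_wt_right s J x).comp (measurable_ext0 J))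
  have hm3 : Measurable (fun ξ => J.restrict (zob s (x, ξ))) :=
    (Finset.measurable_restrict J).comp (measurable_zob_fix s x)
  rw [lintegral_congr e1, lintegral_congr e2,
    ← lintegral_map hm1 hm3,
    ← lintegral_map (f := fun y => H (ext0 J y) * ENNReal.ofReal (wt s J x (ext0 J y)))
      (hm1.mul hm2) (Finset.measurable_restrict J), map_zob_restrict hs x J,
    lintegral_withDensity_eq_lintegral_mul _ hm2 hm1]
  unfold nz
  rw [Measure.infinitePi_map_restrict]
  refine lintegral_congr fun y => ?_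
  simp only [Pi.mul_apply]
  rw [mul_comm]

/-- change of measure formula -/
theorem lintegral_zob {s : V × ℕ → ℝ} (hs : ∀ j, 0 ≤ s j ∧ s j ≤ 1 / 2) (μ : Measure (V → Bool))
    [IsProbabilityMeasure μ] (J : Finset (V × ℕ)) (F : (V → Bool) × (V × ℕ → I) → ENNReal)
    (hF : Measurable F) :
    ∫⁻ ω, F (ω.1, mask (J : Set (V × ℕ)) (zob s ω)) ∂(P1 μ)
      = ∫⁻ ω, F (ω.1, mask (J : Set (V × ℕ)) ω.2)
          * ENNReal.ofReal (wt s J ω.1 (mask (J : Set (V × ℕ)) ω.2)) ∂(P1 μ) := by
  unfold P1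
  have hm := measurable_mask (V := V) (J : Set (V × ℕ))
  rw [lintegral_prod, lintegral_prod]
  · refine lintegral_congr fun x => ?_
    exact lintegral_zob_fix hs x J (fun z => F (x, z)) (hF.comp (measurable_const.prodMk measurable_id))
  · refine Measurable.aemeasurable ?_
    refine Measurable.mul ?_ ?_
    · exact hF.comp (measurable_fst.prodMk (hm.comp measurable_snd))
    · exact ENNReal.measurable_ofReal.comp
        ((measurable_wt s J).comp (measurable_fst.prodMk (hm.comp measurable_snd)))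
  · refine Measurable.aemeasurable ?_
    exact hF.comp (measurable_fst.prodMk (hm.comp (measurable_zob s)))

theorem map_zob_eq {s : V × ℕ → ℝ} (hs : ∀ j, 0 ≤ s j ∧ s j ≤ 1 / 2) (μ : Measure (V → Bool))
    [IsProbabilityMeasure μ] (J : Finset (V × ℕ)) :
    (P1 μ).map (fun ω => (ω.1, mask (J : Set (V × ℕ)) (zob s ω)))
      = ((P1 μ).map (fun ω => (ω.1, mask (J : Set (V × ℕ)) ω.2))).withDensity
          (fun p => ENNReal.ofReal (wt s J p.1 p.2)) := by
  have hm := measurable_mask (V := V) (J : Set (V × ℕ))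
  have hw : Measurable (fun p : (V → Bool) × (V × ℕ → I) => ENNReal.ofReal (wt s J p.1 p.2)) :=
    ENNReal.measurable_ofReal.comp (measurable_wt s J)
  have hg1 : Measurable (fun ω : (V → Bool) × (V × ℕ → I) =>
      (ω.1, mask (J : Set (V × ℕ)) (zob s ω))) :=
    measurable_fst.prodMk (hm.comp (measurable_zob s))
  have hg2 : Measurable (fun ω : (V → Bool) × (V × ℕ → I) =>
      (ω.1, mask (J : Set (V × ℕ)) ω.2)) :=
    measurable_fst.prodMk (hm.comp measurable_snd)
  refine Measure.ext_of_lintegral _ fun F hF => ?_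
  rw [lintegral_map hF hg1, lintegral_withDensity_eq_lintegral_mul _ hw hF,
    lintegral_map (hw.mul hF) hg2, lintegral_zob hs μ J F hF]
  refine lintegral_congr fun ω => ?_
  simp only [Pi.mul_apply]
  rw [mul_comm]

theorem integral_zob {s : V × ℕ → ℝ} (hs : ∀ j, 0 ≤ s j ∧ s j ≤ 1 / 2) (μ : Measure (V → Bool))
    [IsProbabilityMeasure μ] (J : Finset (V × ℕ)) (F : (V → Bool) × (V × ℕ → I) → ℝ)
    (hF : Measurable F) :
    ∫ ω, F (ω.1, mask (J : Set (V × ℕ)) (zob s ω)) ∂(P1 μ)
      = ∫ ω, F (ω.1, mask (J : Set (V × ℕ)) ω.2)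
          * wt s J ω.1 (mask (J : Set (V × ℕ)) ω.2) ∂(P1 μ) := by
  have hm := measurable_mask (V := V) (J : Set (V × ℕ))
  have hw : Measurable (fun p : (V → Bool) × (V × ℕ → I) => ENNReal.ofReal (wt s J p.1 p.2)) :=
    ENNReal.measurable_ofReal.comp (measurable_wt s J)
  have hg1 : Measurable (fun ω : (V → Bool) × (V × ℕ → I) =>
      (ω.1, mask (J : Set (V × ℕ)) (zob s ω))) :=
    measurable_fst.prodMk (hm.comp (measurable_zob s))
  have hg2 : Measurable (fun ω : (V → Bool) × (V × ℕ → I) =>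
      (ω.1, mask (J : Set (V × ℕ)) ω.2)) :=
    measurable_fst.prodMk (hm.comp measurable_snd)
  have h1 := integral_map (μ := P1 μ) hg1.aemeasurable (f := F) hF.aestronglyMeasurable
  rw [← h1, map_zob_eq hs μ J, integral_withDensity_eq_integral_toReal_smul
    hw (ae_of_all _ fun _ => ENNReal.ofReal_lt_top), integral_map hg2.aemeasurable]
  · refine integral_congr_ae (ae_of_all _ fun ω => ?_)
    simp only [smul_eq_mul]
    rw [ENNReal.toReal_ofReal (wt_pos hs J _ _).le, mul_comm]
  · exact Measurable.aestronglyMeasurable (Measurable.smul (ENNReal.measurable_toReal.comp hw) hF)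

/-! ### finite Bayes formula -/

/-- total field at depth `n` -/
noncomputable def HN (θ : ℝ) (x : V → ℝ) (n : ℕ) (v : V) : ℝ :=
  x v + ∑ c ∈ G.neighborFinset v, ff θ (msg G θ x n c v)

theorem measurable_HN (θ : ℝ) (n : ℕ) (v : V) : Measurable (fun x : V → ℝ => HN G θ x n v) := by
  unfold HN
  refine Measurable.add (by fun_prop) (Finset.measurable_sum _ fun c _ => ?_)
  exact (measurable_ff θ).comp (measurable_msg G θ n c v)

theorem abs_tanh_le_one (x : ℝ) : |Real.tanh x| ≤ 1 := by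
  rw [Real.tanh_eq_sinh_div_cosh, abs_div, div_le_one (by positivity), abs_of_pos (Real.cosh_pos x),
    abs_le]
  constructor
  · have h1 := Real.cosh_add_sinh x
    have h2 := Real.exp_pos x
    linarith
  · have h1 := Real.cosh_sub_sinh x
    have h2 := Real.exp_pos (-x)
    linarith

theorem bayes_fin [Countable V] (hT : G.IsTree) {θ : ℝ} (h0 : 0 ≤ θ) (h1 : θ < 1)
    {μ : Measure (V → Bool)} [IsProbabilityMeasure μ] (hμ : IsIsing G θ μ)
    {s : V × ℕ → ℝ} (hs : ∀ j, 0 ≤ s j ∧ s j ≤ 1 / 2) (K : ℕ) (v : V) (n : ℕ)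
    (B : Finset V) (hB : ∀ w, w ∈ B ↔ G.dist v w ≤ n) (J : Finset (V × ℕ))
    (hJ : ∀ j ∈ J, j.1 ∈ B ∧ j.2 < K) (Ψ : (V × ℕ → I) → ℝ) (hΨ : Measurable Ψ) (C : ℝ)
    (hC : ∀ z, |Ψ z| ≤ C) :
    ∫ ω, sg (ω.1 v) * Ψ (mask (J : Set (V × ℕ)) (zob s ω)) ∂(P1 μ)
      = ∫ ω, Real.tanh (HN G θ (xf s K (J : Set (V × ℕ)) (zob s ω)) n v)
          * Ψ (mask (J : Set (V × ℕ)) (zob s ω)) ∂(P1 μ) := by
  have hm := measurable_mask (V := V) (J : Set (V × ℕ))
  have hsgm : Measurable (fun p : (V → Bool) × (V × ℕ → I) => sg (p.1 v)) :=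
    post_measurable_sg.comp (by fun_prop)
  have hTm : Measurable (fun z : V × ℕ → I =>
      Real.tanh (HN G θ (xf s K (J : Set (V × ℕ)) z) n v)) :=
    post_measurable_tanh.comp ((measurable_HN G θ n v).comp (measurable_xf K _ s))
  have hF1 : Measurable (fun p : (V → Bool) × (V × ℕ → I) => sg (p.1 v) * Ψ p.2) :=
    hsgm.mul (hΨ.comp measurable_snd)
  have hF2 : Measurable (fun p : (V → Bool) × (V × ℕ → I) =>
      Real.tanh (HN G θ (xf s K (J : Set (V × ℕ)) p.2) n v) * Ψ p.2) :=
    (hTm.comp measurable_snd).mul (hΨ.comp measurable_snd)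
  have e1 := integral_zob hs μ J _ hF1
  have e2 := integral_zob hs μ J _ hF2
  simp only [xf_mask] at e1 e2
  rw [e1, e2]
  have hC0 : 0 ≤ C := le_trans (abs_nonneg _) (hC (fun _ => 0))
  have hwm : Measurable (fun p : (V → Bool) × (V × ℕ → I) =>
      wt s J p.1 (mask (J : Set (V × ℕ)) p.2)) :=
    (measurable_wt s J).comp (measurable_fst.prodMk (hm.comp measurable_snd))
  have hbd : ∀ (a b c : ℝ), |a| ≤ 1 → |b| ≤ C → 0 < c → c ≤ (3 / 2) ^ J.card →
      ‖a * b * c‖ ≤ 1 * C * (3 / 2) ^ J.card := by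
    intro a b c ha hb hc hc'
    rw [Real.norm_eq_abs, abs_mul, abs_mul, abs_of_pos hc]
    gcongr
  have hI1 : Integrable (fun ω : (V → Bool) × (V × ℕ → I) =>
      sg (ω.1 v) * Ψ (mask (J : Set (V × ℕ)) ω.2) * wt s J ω.1 (mask (J : Set (V × ℕ)) ω.2))
      (μ.prod (nz V)) := by
    refine Integrable.of_bound (((hsgm.mul (hΨ.comp (hm.comp measurable_snd))).mul
      hwm).aestronglyMeasurable) (1 * C * (3 / 2) ^ J.card) (ae_of_all _ fun ω => ?_)
    exact hbd _ _ _ (abs_sg _).le (hC _) (wt_pos hs J _ _) (wt_le hs J _ _)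
  have hI2 : Integrable (fun ω : (V → Bool) × (V × ℕ → I) =>
      Real.tanh (HN G θ (xf s K (J : Set (V × ℕ)) ω.2) n v) * Ψ (mask (J : Set (V × ℕ)) ω.2)
        * wt s J ω.1 (mask (J : Set (V × ℕ)) ω.2)) (μ.prod (nz V)) := by
    refine Integrable.of_bound ((((hTm.comp measurable_snd).mul
      (hΨ.comp (hm.comp measurable_snd))).mul hwm).aestronglyMeasurable)
      (1 * C * (3 / 2) ^ J.card) (ae_of_all _ fun ω => ?_)
    exact hbd _ _ _ (abs_tanh_le_one _) (hC _) (wt_pos hs J _ _) (wt_le hs J _ _)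
  unfold P1
  rw [integral_prod_symm _ hI1, integral_prod_symm _ hI2]
  congr 1
  funext ξ
  obtain ⟨D, hD, hDw⟩ := wt_eq hs K B J hJ (mask (J : Set (V × ℕ)) ξ)
  simp only [hDw]
  simp only [xf_mask]
  have key := fv_mean G hT h0 h1 hμ (xf s K (J : Set (V × ℕ)) ξ) v n B hB
  calc ∫ x, sg (x v) * Ψ (mask (J : Set (V × ℕ)) ξ)
        * (D * ∏ w ∈ B, Real.exp (sg (x w) * xf s K (J : Set (V × ℕ)) ξ w)) ∂μ
      = (Ψ (mask (J : Set (V × ℕ)) ξ) * D)
        * ∫ x, sg (x v) * ∏ w ∈ B, Real.exp (sg (x w) * xf s K (J : Set (V × ℕ)) ξ w) ∂μ := by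
        rw [← integral_const_mul]
        congr 1
        funext x
        ring
    _ = (Ψ (mask (J : Set (V × ℕ)) ξ) * D)
        * (Real.tanh (HN G θ (xf s K (J : Set (V × ℕ)) ξ) n v)
          * ∫ x, ∏ w ∈ B, Real.exp (sg (x w) * xf s K (J : Set (V × ℕ)) ξ w) ∂μ) := by
        rw [key]; rfl
    _ = _ := by
        rw [← mul_assoc, ← integral_const_mul]
        congr 1
        funext x
        ring

/-! ### conditional expectations -/

/-- sigma-algebra of the observations in `M` -/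
@[reducible] noncomputable def mAlg (s : V × ℕ → ℝ) (M : Set (V × ℕ)) :
    MeasurableSpace ((V → Bool) × (V × ℕ → I)) :=
  MeasurableSpace.comap (fun ω => mask M (zob s ω)) inferInstance

theorem mAlg_le (s : V × ℕ → ℝ) (M : Set (V × ℕ)) :
    mAlg s M ≤ (inferInstance : MeasurableSpace ((V → Bool) × (V × ℕ → I))) :=
  ((measurable_mask M).comp (measurable_zob s)).comap_le

theorem mAlg_mono (s : V × ℕ → ℝ) {M M' : Set (V × ℕ)} (h : M ⊆ M') : mAlg s M ≤ mAlg s M' := by
  unfold mAlg
  have : (fun ω : (V → Bool) × (V × ℕ → I) => mask M (zob s ω))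
      = (mask M) ∘ (fun ω => mask M' (zob s ω)) := by
    funext ω
    simp only [Function.comp, mask_mask h]
  rw [this, ← MeasurableSpace.comap_comp]
  exact MeasurableSpace.comap_mono (measurable_mask M).comap_le

theorem iSup_mAlg (s : V × ℕ → ℝ) {M : ℕ → Set (V × ℕ)} :
    ⨆ n, mAlg s (M n) = mAlg s (⋃ n, M n) := by
  apply le_antisymm
  · exact iSup_le fun n => mAlg_mono s (subset_iUnion M n)
  · unfold mAlg
    rw [← measurable_iff_comap_le]
    refine @measurable_pi_iff _ _ _ (_) _ _ |>.2 fun i => ?_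
    by_cases hi : i ∈ ⋃ n, M n
    · obtain ⟨n, hn⟩ := mem_iUnion.1 hi
      have h1 : Measurable[mAlg s (M n)] (fun ω : (V → Bool) × (V × ℕ → I) => mask (M n) (zob s ω)) :=
        comap_measurable _
      have h2 : Measurable[mAlg s (M n)] (fun ω : (V → Bool) × (V × ℕ → I) =>
          mask (M n) (zob s ω) i) := (measurable_pi_apply i).comp h1
      have h3 : (fun ω : (V → Bool) × (V × ℕ → I) => mask (⋃ n, M n) (zob s ω) i)
          = fun ω => mask (M n) (zob s ω) i := by
        funext ω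
        unfold mask
        rw [if_pos hi, if_pos hn]
      rw [h3]
      exact h2.mono (le_iSup (fun n => mAlg s (M n)) n) le_rfl
    · have h3 : (fun ω : (V → Bool) × (V × ℕ → I) => mask (⋃ n, M n) (zob s ω) i) = fun ω => 0 := by
        funext ω
        unfold mask
        rw [if_neg hi]
      rw [h3]
      exact @measurable_const _ _ _ (_) _

/-- filtration of an increasing sequence of masks -/
noncomputable def mfilt (s : V × ℕ → ℝ) {M : ℕ → Set (V × ℕ)} (hM : Monotone M) :
    Filtration ℕ (inferInstance : MeasurableSpace ((V → Bool) × (V × ℕ → I))) where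
  seq n := mAlg s (M n)
  mono' _ _ hmn := mAlg_mono s (hM hmn)
  le' _ := mAlg_le _ _

/-- the spin at `v` -/
noncomputable def sgv (v : V) (ω : (V → Bool) × (V × ℕ → I)) : ℝ := sg (ω.1 v)

theorem measurable_sgv (v : V) : Measurable (sgv v) := post_measurable_sg.comp (by fun_prop)

theorem integrable_of_bdd_P1 {μ : Measure (V → Bool)} [IsProbabilityMeasure μ]
    {f : (V → Bool) × (V × ℕ → I) → ℝ} (hf : Measurable f) {C : ℝ} (hC : ∀ ω, |f ω| ≤ C) :
    Integrable f (P1 μ) :=
  Integrable.of_bound hf.aestronglyMeasurable C (ae_of_all _ fun ω => by simpa using hC ω)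

theorem integrable_sgv (μ : Measure (V → Bool)) [IsProbabilityMeasure μ] (v : V) :
    Integrable (sgv v) (P1 μ) :=
  integrable_of_bdd_P1 (measurable_sgv v) (fun _ => (abs_sg _).le)

theorem condExp_of_forall {μ : Measure (V → Bool)} [IsProbabilityMeasure μ] (s : V × ℕ → ℝ)
    (M : Set (V × ℕ)) (v : V) (g : (V × ℕ → I) → ℝ) (hg : Measurable g) (C : ℝ)
    (hgC : ∀ z, |g z| ≤ C)
    (h : ∀ Ψ : (V × ℕ → I) → ℝ, Measurable Ψ → (∀ z, |Ψ z| ≤ 1) →
      ∫ ω, sg (ω.1 v) * Ψ (mask M (zob s ω)) ∂(P1 μ)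
        = ∫ ω, g (mask M (zob s ω)) * Ψ (mask M (zob s ω)) ∂(P1 μ)) :
    (fun ω => g (mask M (zob s ω))) =ᵐ[P1 μ] (P1 μ)[sgv v | mAlg s M] := by
  have hle := mAlg_le s M
  have hmm : Measurable (fun ω : (V → Bool) × (V × ℕ → I) => mask M (zob s ω)) :=
    (measurable_mask M).comp (measurable_zob s)
  have hint : Integrable (fun ω => g (mask M (zob s ω))) (P1 μ) :=
    integrable_of_bdd_P1 (hg.comp hmm) (fun ω => hgC _)
  refine ae_eq_condExp_of_forall_setIntegral_eq hle (integrable_sgv μ v)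
    (fun _ _ _ => hint.integrableOn) ?_ ?_
  · rintro S ⟨A, hA, rfl⟩ _
    have h1 := h (A.indicator 1) (measurable_one.indicator hA) (fun z => by
      simp only [indicator]; split_ifs <;> simp)
    rw [← integral_indicator (hmm hA), ← integral_indicator (hmm hA)]
    have e1 : ∀ f : (V → Bool) × (V × ℕ → I) → ℝ, ∀ ω,
        ((fun ω : (V → Bool) × (V × ℕ → I) => mask M (zob s ω)) ⁻¹' A).indicator f ω
          = f ω * (A.indicator (1 : (V × ℕ → I) → ℝ)) (mask M (zob s ω)) := by
      intro f ω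
      by_cases hω : mask M (zob s ω) ∈ A
      · rw [indicator_of_mem (by exact hω), indicator_of_mem hω]; simp
      · rw [indicator_of_notMem (by exact hω), indicator_of_notMem hω]; simp
    rw [integral_congr_ae (ae_of_all _ (e1 _)), integral_congr_ae (ae_of_all _ (e1 _))]
    exact h1.symm
  · refine Measurable.aestronglyMeasurable ?_
    exact hg.comp (comap_measurable _)

theorem mem_oth {i j c : V} : c ∈ oth G i j ↔ G.Adj i c ∧ c ≠ j := by
  classical
  unfold oth
  simp

/-- locality of the finite-depth messages -/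
theorem msg_local (hT : G.IsTree) (θ : ℝ) {x x' : V → ℝ} (n : ℕ) : ∀ (i j : V),
    (∀ w, G.dist i w < n → x w = x' w) → msg G θ x n i j = msg G θ x' n i j := by
  induction n with
  | zero => intro i j _; rfl
  | succ n ih =>
    intro i j h
    simp only [msg]
    rw [h i (by rw [SimpleGraph.dist_self]; omega)]
    congr 1
    refine Finset.sum_congr rfl fun c hc => ?_
    have hadj : G.Adj i c := ((mem_oth G).1 hc).1
    rw [ih c i fun w hw => h w ?_]
    have h1 := hT.connected.dist_triangle (u := i) (v := c) (w := w)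
    have h2 : G.dist i c = 1 := SimpleGraph.dist_eq_one_iff_adj.2 hadj
    omega

theorem HN_local (hT : G.IsTree) (θ : ℝ) {x x' : V → ℝ} (n : ℕ) (v : V)
    (h : ∀ w, G.dist v w ≤ n → x w = x' w) : HN G θ x n v = HN G θ x' n v := by
  unfold HN
  rw [h v (by rw [SimpleGraph.dist_self]; omega)]
  congr 1
  refine Finset.sum_congr rfl fun c hc => ?_
  have hadj : G.Adj v c := by simpa using hc
  rw [msg_local G hT θ n c v fun w hw => h w ?_]
  have h1 := hT.connected.dist_triangle (u := v) (v := c) (w := w)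
  have h2 : G.dist v c = 1 := SimpleGraph.dist_eq_one_iff_adj.2 hadj
  omega

/-- Lévy's theorem for the finite-volume posterior means -/
theorem levy_mean [Countable V] (hT : G.IsTree) {θ : ℝ} (h0 : 0 ≤ θ) (h1 : θ < 1)
    {μ : Measure (V → Bool)} [IsProbabilityMeasure μ] (hμ : IsIsing G θ μ)
    {s : V × ℕ → ℝ} (hs : ∀ j, 0 ≤ s j ∧ s j ≤ 1 / 2) (K : ℕ) (M : Set (V × ℕ))
    (hM : ∀ i ∈ M, i.2 < K) (v : V) :
    ∀ᵐ ω ∂(P1 μ), Tendsto (fun n => Real.tanh (HN G θ (xf s K M (zob s ω)) n v)) atTop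
      (𝓝 (((P1 μ)[sgv v | mAlg s M]) ω)) := by
  classical
  choose B hB using exists_ball G hT v
  let J : ℕ → Finset (V × ℕ) := fun n => ((B n) ×ˢ Finset.range K).filter (fun i => i ∈ M)
  have hJmem : ∀ n i, i ∈ J n ↔ G.dist v i.1 ≤ n ∧ i ∈ M := by
    intro n i
    simp only [J, Finset.mem_filter, Finset.mem_product, Finset.mem_range, hB]
    constructor
    · rintro ⟨⟨h1, _⟩, h3⟩; exact ⟨h1, h3⟩
    · rintro ⟨h1, h3⟩; exact ⟨⟨h1, hM i h3⟩, h3⟩
  have hmono : Monotone (fun n => (J n : Set (V × ℕ))) := by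
    intro m n hmn i hi
    simp only [Finset.mem_coe] at hi ⊢
    rw [hJmem] at hi ⊢
    exact ⟨hi.1.trans hmn, hi.2⟩
  have hU : ⋃ n, (J n : Set (V × ℕ)) = M := by
    ext i
    simp only [mem_iUnion, Finset.mem_coe, hJmem]
    constructor
    · rintro ⟨_, _, h⟩; exact h
    · intro h; exact ⟨_, le_rfl, h⟩
  have hx : ∀ n z, HN G θ (xf s K (J n : Set (V × ℕ)) z) n v = HN G θ (xf s K M z) n v := by
    intro n z
    refine HN_local G hT θ n v fun w hw => ?_
    unfold xf
    refine Finset.sum_congr rfl fun l _ => ?_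
    by_cases h : (w, l) ∈ M
    · rw [if_pos h, if_pos]
      exact Finset.mem_coe.2 ((hJmem n (w, l)).2 ⟨hw, h⟩)
    · rw [if_neg h, if_neg]
      intro h'
      exact h ((hJmem n (w, l)).1 (Finset.mem_coe.1 h')).2
  have hlev := MeasureTheory.tendsto_ae_condExp (μ := P1 μ) (ℱ := mfilt s hmono) (sgv v)
  have hsup : ⨆ n, (mfilt s hmono) n = mAlg s M := by
    conv_rhs => rw [← hU]
    exact iSup_mAlg s
  rw [hsup] at hlev
  have hn : ∀ᵐ ω ∂(P1 μ), ∀ n, Real.tanh (HN G θ (xf s K M (zob s ω)) n v)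
      = ((P1 μ)[sgv v | (mfilt s hmono) n]) ω := by
    rw [ae_all_iff]
    intro n
    have hb := condExp_of_forall (μ := μ) s (J n : Set (V × ℕ)) v
      (fun z => Real.tanh (HN G θ (xf s K (J n : Set (V × ℕ)) z) n v))
      (post_measurable_tanh.comp ((measurable_HN G θ n v).comp (measurable_xf K _ s))) 1
      (fun z => abs_tanh_le_one _) (fun Ψ hΨ hΨ1 => by
        simp only [xf_mask]
        exact bayes_fin G hT h0 h1 hμ hs K v n (B n) (hB n) (J n) (fun j hj => by
          have := (hJmem n j).1 hj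
          exact ⟨(hB n _).2 this.1, hM j this.2⟩) Ψ hΨ 1 hΨ1)
    filter_upwards [hb] with ω hω
    simp only [xf_mask, hx] at hω
    exact hω
  filter_upwards [hlev, hn] with ω h1 h2
  exact h1.congr fun n => (h2 n).symm

/-! ### a priori bounds -/

theorem abs_xf_le {s : V × ℕ → ℝ} (hs : ∀ j, 0 ≤ s j ∧ s j ≤ 1 / 2) (K : ℕ) (M : Set (V × ℕ))
    (z : V × ℕ → I) (v : V) : |xf s K M z v| ≤ K * Real.artanh (1 / 2) := by
  classical
  unfold xf
  have hA : 0 ≤ Real.artanh (1 / 2) := Real.artanh_nonneg (by norm_num)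
  calc |∑ l ∈ Finset.range K, if (v, l) ∈ M then Real.artanh (s (v, l) * (2 * (z (v, l) : ℝ) - 1)) else 0|
      ≤ ∑ l ∈ Finset.range K, |if (v, l) ∈ M then Real.artanh (s (v, l) * (2 * (z (v, l) : ℝ) - 1)) else 0| :=
        Finset.abs_sum_le_sum_abs _ _
    _ ≤ ∑ _l ∈ Finset.range K, Real.artanh (1 / 2) := by
        refine Finset.sum_le_sum fun l _ => ?_
        split_ifs
        · have h := abs_le.1 (abs_obs_le (hs (v, l)) (z (v, l)))
          set a := s (v, l) * (2 * (z (v, l) : ℝ) - 1) with ha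
          have hodd : Real.artanh (-(1 / 2)) = -Real.artanh (1 / 2) := by
            rw [Real.artanh_eq_half_log (by constructor <;> norm_num),
              Real.artanh_eq_half_log (by constructor <;> norm_num)]
            have : (1 + -(1 / 2 : ℝ)) / (1 - -(1 / 2)) = ((1 + 1 / 2) / (1 - 1 / 2))⁻¹ := by norm_num
            rw [this, Real.log_inv]; ring
          rw [abs_le]
          constructor
          · rw [← hodd]
            exact Real.artanh_le_artanh (by norm_num) (by linarith [h.2]) (by linarith [h.1])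
          · exact Real.artanh_le_artanh (by linarith [h.1]) (by norm_num) h.2
        · simpa using hA
    _ = K * Real.artanh (1 / 2) := by rw [Finset.sum_const, Finset.card_range, nsmul_eq_mul]

theorem abs_msg_succ_le {θ : ℝ} (h0 : 0 ≤ θ) (h1 : θ < 1) {x : V → ℝ} {L : ℝ} (i j : V)
    (hx : |x i| ≤ L) (n : ℕ) :
    |msg G θ x (n + 1) i j| ≤ L + (oth G i j).card * Real.artanh θ := by
  simp only [msg]
  refine (abs_add_le _ _).trans (add_le_add hx ?_)
  refine (Finset.abs_sum_le_sum_abs _ _).trans ?_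
  calc ∑ c ∈ oth G i j, |ff θ (msg G θ x n c i)| ≤ ∑ _c ∈ oth G i j, Real.artanh θ :=
        Finset.sum_le_sum fun c _ => abs_ff_le' h0 h1 _
    _ = _ := by rw [Finset.sum_const, nsmul_eq_mul]

theorem tendsto_of_tanh {u : ℕ → ℝ} {L ℓ : ℝ} (hu : ∀ n, |u n| ≤ L)
    (h : Tendsto (fun n => Real.tanh (u n)) atTop (𝓝 ℓ)) : ∃ a, Tendsto u atTop (𝓝 a) := by
  have hmono : StrictMono Real.tanh := by
    intro a b hab
    by_contra hn
    push Not at hn
    have ha := Real.tanh_bijOn.mapsTo (mem_univ a)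
    have hb := Real.tanh_bijOn.mapsTo (mem_univ b)
    have := (Real.artanh_le_artanh_iff hb ha).2 hn
    rw [Real.artanh_tanh, Real.artanh_tanh] at this
    linarith
  have hL : ℓ ∈ Icc (Real.tanh (-L)) (Real.tanh L) := by
    refine isClosed_Icc.mem_of_tendsto h (Eventually.of_forall fun n => ?_)
    have := abs_le.1 (hu n)
    exact ⟨hmono.monotone this.1, hmono.monotone this.2⟩
  have hmem : ℓ ∈ Ioo (-1 : ℝ) 1 := by
    have h1 := Real.tanh_bijOn.mapsTo (mem_univ (-L))
    have h2 := Real.tanh_bijOn.mapsTo (mem_univ L)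
    exact ⟨lt_of_lt_of_le h1.1 hL.1, lt_of_le_of_lt hL.2 h2.2⟩
  refine ⟨Real.artanh ℓ, ?_⟩
  have hc : ContinuousAt Real.artanh ℓ := by
    unfold Real.artanh
    have h3 : 0 < 1 - ℓ := by linarith [hmem.2]
    have h4 : 0 < 1 + ℓ := by linarith [hmem.1]
    have h5 : 0 < (1 + ℓ) / (1 - ℓ) := div_pos h4 h3
    have h6 : √((1 + ℓ) / (1 - ℓ)) ≠ 0 := (Real.sqrt_pos.2 h5).ne'
    have h7 : ContinuousAt (fun x : ℝ => (1 + x) / (1 - x)) ℓ := by
      refine ContinuousAt.div (by fun_prop) (by fun_prop) h3.ne'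
    exact ((Real.continuous_sqrt.continuousAt).comp h7).log h6
  have := hc.tendsto.comp h
  refine this.congr fun n => ?_
  simp only [Function.comp, Real.artanh_tanh]

theorem msg_zero_field (θ : ℝ) (n : ℕ) : ∀ i j : V, msg G θ (fun _ => (0 : ℝ)) n i j = 0 := by
  induction n with
  | zero => intro i j; rfl
  | succ n ih =>
    intro i j
    simp only [msg, ih, ff_zero]
    simp


end Post

open Post

/-- all messages built from the observations in `M` converge almost surely -/
theorem post_good [Countable V] (hT : G.IsTree) {θ : ℝ} (h0 : 0 ≤ θ) (h1 : θ < 1)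
    {μ : Measure (V → Bool)} [IsProbabilityMeasure μ] (hμ : IsIsing G θ μ)
    (s : V × ℕ → ℝ) (hs : ∀ j, 0 ≤ s j ∧ s j ≤ 1 / 2) (K : ℕ) (M : Set (V × ℕ)) (hM : ∀ i ∈ M, i.2 < K) :
    ∀ᵐ ω ∂(P1 μ), Good G θ (xf s K M (zob s ω)) := by
  classical
  have key : ∀ i j, G.Adj i j → ∀ᵐ ω ∂(P1 μ),
      Tendsto (fun n => msg G θ (xf s K M (zob s ω)) n i j) atTop
        (𝓝 (hl G θ (xf s K M (zob s ω)) i j)) := by
    intro i j hij
    let M' : Set (V × ℕ) := {p | p ∈ M ∧ p.1 ∈ brn G i j}
    have hM' : ∀ p ∈ M', p.2 < K := fun p hp => hM p hp.1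
    have hlev := levy_mean G hT h0 h1 hμ hs K M' hM' i
    filter_upwards [hlev] with ω hω
    set z := zob s ω with hz
    have hin : ∀ w ∈ brn G i j, xf s K M z w = xf s K M' z w := by
      intro w hw
      unfold xf
      refine Finset.sum_congr rfl fun l _ => ?_
      by_cases h : (w, l) ∈ M
      · have h' : (w, l) ∈ M' := ⟨h, hw⟩
        rw [if_pos h, if_pos h']
      · have h' : (w, l) ∉ M' := fun h' => h h'.1
        rw [if_neg h, if_neg h']
    have hout : ∀ w ∈ brn G j i, xf s K M' z w = (fun _ => (0 : ℝ)) w := by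
      intro w hw
      unfold xf
      refine Finset.sum_eq_zero fun l _ => ?_
      have h' : (w, l) ∉ M' := fun h' => notMem_brn_of_mem G hT hij h'.2 hw
      rw [if_neg h']
    have hji : ∀ n, msg G θ (xf s K M' z) n j i = 0 := by
      intro n
      rw [msg_congr G hT θ hij.symm hout n]
      exact msg_zero_field G θ n j i
    have hHN : ∀ n, HN G θ (xf s K M' z) n i = msg G θ (xf s K M z) (n + 1) i j := by
      intro n
      rw [msg_congr G hT θ hij hin (n + 1)]
      unfold HN
      simp only [msg]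
      congr 1
      have hjm : j ∈ G.neighborFinset i := by simpa using hij
      have hoth : oth G i j = (G.neighborFinset i).erase j := by
        ext c
        rw [mem_oth, Finset.mem_erase]
        simp [and_comm]
      rw [hoth, ← Finset.add_sum_erase _ _ hjm, hji, ff_zero, zero_add]
    simp only [hHN] at hω
    obtain ⟨a, ha⟩ := tendsto_of_tanh
      (fun n => abs_msg_succ_le G h0 h1 i j (abs_xf_le hs K M z i) n) hω
    have ha' : Tendsto (fun n => msg G θ (xf s K M z) n i j) atTop (𝓝 a) :=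
      (tendsto_add_atTop_iff_nat 1).1 ha
    have : hl G θ (xf s K M z) i j = a := by
      unfold hl
      exact ha'.limsup_eq
    rw [this]
    exact ha'
  have h2 : ∀ᵐ ω ∂(P1 μ), ∀ i j, G.Adj i j →
      Tendsto (fun n => msg G θ (xf s K M (zob s ω)) n i j) atTop
        (𝓝 (hl G θ (xf s K M (zob s ω)) i j)) := by
    rw [ae_all_iff]
    intro i
    rw [ae_all_iff]
    intro j
    by_cases hij : G.Adj i j
    · filter_upwards [key i j hij] with ω hω _
      exact hω
    · exact ae_of_all _ fun ω h => absurd h hij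
  exact h2

namespace Post

/-- the posterior mean is a conditional expectation -/
theorem mm_ae_condExp [Countable V] (hT : G.IsTree) {θ : ℝ} (h0 : 0 ≤ θ) (h1 : θ < 1)
    {μ : Measure (V → Bool)} [IsProbabilityMeasure μ] (hμ : IsIsing G θ μ)
    {s : V × ℕ → ℝ} (hs : ∀ j, 0 ≤ s j ∧ s j ≤ 1 / 2) (K : ℕ) (M : Set (V × ℕ))
    (hM : ∀ i ∈ M, i.2 < K) (v : V) :
    (fun ω => mm G θ (xf s K M (zob s ω)) v) =ᵐ[P1 μ] (P1 μ)[sgv v | mAlg s M] := by
  filter_upwards [post_good G hT h0 h1 hμ s hs K M hM, levy_mean G hT h0 h1 hμ hs K M hM v]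
    with ω hg hl'
  have h3 : Tendsto (fun n => HN G θ (xf s K M (zob s ω)) n v) atTop
      (𝓝 (Hl G θ (xf s K M (zob s ω)) v)) := by
    unfold HN Hl
    refine tendsto_const_nhds.add (tendsto_finsetSum _ fun c hc => ?_)
    have hadj : G.Adj c v := by
      have : G.Adj v c := by simpa using hc
      exact this.symm
    exact ((continuous_ff h0 h1).tendsto _).comp (hg c v hadj)
  have hct : Continuous Real.tanh := by
    have : Real.tanh = fun x => Real.sinh x / Real.cosh x := by
      funext x; exact Real.tanh_eq_sinh_div_cosh x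
    rw [this]
    exact Real.continuous_sinh.div Real.continuous_cosh fun x => (Real.cosh_pos x).ne'
  exact tendsto_nhds_unique ((hct.tendsto _).comp h3) hl'

theorem measurable_mmx (θ : ℝ) (s : V × ℕ → ℝ) (K : ℕ) (M : Set (V × ℕ)) (v : V) :
    Measurable (fun z : V × ℕ → I => mm G θ (xf s K M z) v) :=
  (measurable_mm G θ v).comp (measurable_xf K M s)

end Post

/-- the posterior mean of a spin given the observations in `M` -/
theorem post_mean [Countable V] (hT : G.IsTree) {θ : ℝ} (h0 : 0 ≤ θ) (h1 : θ < 1)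
    {μ : Measure (V → Bool)} [IsProbabilityMeasure μ] (hμ : IsIsing G θ μ)
    (s : V × ℕ → ℝ) (hs : ∀ j, 0 ≤ s j ∧ s j ≤ 1 / 2) (K : ℕ) (M : Set (V × ℕ)) (hM : ∀ i ∈ M, i.2 < K)
    (v : V) (Ψ : (V × ℕ → I) → ℝ) (hΨ : Measurable Ψ) (C : ℝ) (hC : ∀ z, |Ψ z| ≤ C) :
    ∫ ω, sg (ω.1 v) * Ψ (mask M (zob s ω)) ∂(P1 μ)
      = ∫ ω, mm G θ (xf s K M (zob s ω)) v * Ψ (mask M (zob s ω)) ∂(P1 μ) := by
  have hle := mAlg_le s M
  have hWm : Measurable[mAlg s M] (fun ω : (V → Bool) × (V × ℕ → I) => Ψ (mask M (zob s ω))) :=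
    hΨ.comp (comap_measurable _)
  have h1' := condExp_stronglyMeasurable_mul_of_bound (μ := P1 μ) hle
    (f := fun ω => Ψ (mask M (zob s ω))) (g := sgv v)
    hWm.stronglyMeasurable (integrable_sgv μ v) C (ae_of_all _ fun ω => hC _)
  calc ∫ ω, sg (ω.1 v) * Ψ (mask M (zob s ω)) ∂(P1 μ)
      = ∫ ω, ((fun ω => Ψ (mask M (zob s ω))) * sgv v) ω ∂(P1 μ) := by
        refine integral_congr_ae (ae_of_all _ fun ω => ?_)
        simp only [Pi.mul_apply, sgv]
        rw [mul_comm]
    _ = ∫ ω, ((P1 μ)[(fun ω => Ψ (mask M (zob s ω))) * sgv v | mAlg s M]) ω ∂(P1 μ) := by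
        rw [integral_condExp hle]
    _ = _ := by
        refine integral_congr_ae ?_
        filter_upwards [h1', mm_ae_condExp G hT h0 h1 hμ hs K M hM v] with ω h2 h3
        rw [h2, Pi.mul_apply, ← h3, mul_comm]

/-- upward convergence along increasing masks -/
theorem post_tendsto [Countable V] (hT : G.IsTree) {θ : ℝ} (h0 : 0 ≤ θ) (h1 : θ < 1)
    {μ : Measure (V → Bool)} [IsProbabilityMeasure μ] (hμ : IsIsing G θ μ)
    (s : V × ℕ → ℝ) (hs : ∀ j, 0 ≤ s j ∧ s j ≤ 1 / 2) (K : ℕ) (M : ℕ → Set (V × ℕ)) (hmono : Monotone M)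
    (hM : ∀ n, ∀ i ∈ M n, i.2 < K) (v : V) :
    Tendsto (fun n => ∫ ω, (mm G θ (xf s K (M n) (zob s ω)) v
      - mm G θ (xf s K (⋃ n, M n) (zob s ω)) v) ^ 2 ∂(P1 μ)) atTop (𝓝 0) := by
  have hMU : ∀ i ∈ ⋃ n, M n, i.2 < K := by
    intro i hi
    obtain ⟨n, hn⟩ := mem_iUnion.1 hi
    exact hM n i hn
  have hlev := MeasureTheory.tendsto_ae_condExp (μ := P1 μ) (ℱ := mfilt s hmono) (sgv v)
  have hsup : ⨆ n, (mfilt s hmono) n = mAlg s (⋃ n, M n) := iSup_mAlg s
  rw [hsup] at hlev
  have hn : ∀ᵐ ω ∂(P1 μ), ∀ n, mm G θ (xf s K (M n) (zob s ω)) v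
      = ((P1 μ)[sgv v | (mfilt s hmono) n]) ω := by
    rw [ae_all_iff]
    intro n
    exact mm_ae_condExp G hT h0 h1 hμ hs K (M n) (hM n) v
  have hconv : ∀ᵐ ω ∂(P1 μ), Tendsto (fun n => (mm G θ (xf s K (M n) (zob s ω)) v
      - mm G θ (xf s K (⋃ n, M n) (zob s ω)) v) ^ 2) atTop (𝓝 0) := by
    filter_upwards [hlev, hn, mm_ae_condExp G hT h0 h1 hμ hs K (⋃ n, M n) hMU v] with ω h2 h3 h4
    rw [← h4] at h2
    have h5 : Tendsto (fun n => mm G θ (xf s K (M n) (zob s ω)) v) atTop
        (𝓝 (mm G θ (xf s K (⋃ n, M n) (zob s ω)) v)) := h2.congr fun n => (h3 n).symm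
    have h6 := (h5.sub_const (mm G θ (xf s K (⋃ n, M n) (zob s ω)) v)).pow 2
    simpa using h6
  have hdc := tendsto_integral_of_dominated_convergence (μ := P1 μ)
    (F := fun n ω => (mm G θ (xf s K (M n) (zob s ω)) v
      - mm G θ (xf s K (⋃ n, M n) (zob s ω)) v) ^ 2) (f := fun _ => (0 : ℝ)) (fun _ => (4 : ℝ))
    (fun n => (((((measurable_mmx G θ s K (M n) v).comp (measurable_zob s)).sub
      ((measurable_mmx G θ s K (⋃ n, M n) v).comp (measurable_zob s))).pow_const
        2).aestronglyMeasurable)) (integrable_const _)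
    (fun n => ae_of_all _ fun ω => ?_) hconv
  · simpa using hdc
  · have ha : |mm G θ (xf s K (M n) (zob s ω)) v| ≤ 1 := abs_tanh_le_one _
    have hb : |mm G θ (xf s K (⋃ n, M n) (zob s ω)) v| ≤ 1 := abs_tanh_le_one _
    rw [abs_le] at ha hb
    rw [Real.norm_eq_abs, abs_of_nonneg (sq_nonneg _)]
    nlinarith [ha.1, ha.2, hb.1, hb.2]

end Crest.Agent.FI
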