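import Mathlib
import Crest.Agent.FI.Defs
import Crest.Agent.FI.Channel
import Crest.Agent.FI.Alg
import Crest.Agent.FI.Post

set_option autoImplicit false
set_option linter.unusedSectionVars false

namespace Crest.Agent.FI

open MeasureTheory ProbabilityTheory unitInterval Set Filter Topology
open scoped ENNReal

section general

variable {V : Type*}

lemma iv_prec_trans {T : V × ℕ → I} {i j k : V × ℕ} (h1 : prec T i j) (h2 : prec T j k) :
    prec T i k := by
  unfold prec at *
  rcases h1 with h1 | ⟨h1, h1'⟩ <;> rcases h2 with h2 | ⟨h2, h2'⟩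
  · left; omega
  · left; omega
  · left; omega
  · right; exact ⟨by omega, h1'.trans h2'⟩

lemma iv_not_prec_self (T : V × ℕ → I) (j : V × ℕ) : ¬ prec T j j := by
  unfold prec; simp

lemma iv_prec_total {T : V × ℕ → I} (hinj : Function.Injective T) {i j : V × ℕ} (h : i ≠ j) :
    prec T i j ∨ prec T j i := by
  unfold prec
  rcases lt_trichotomy i.2 j.2 with h1 | h1 | h1
  · exact Or.inl (Or.inl h1)
  · have hne : T i ≠ T j := fun h2 => h (hinj h2)
    rcases lt_or_gt_of_ne hne with h2 | h2
    · exact Or.inl (Or.inr ⟨h1, h2⟩)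
    · exact Or.inr (Or.inr ⟨h1.symm, h2⟩)
  · exact Or.inr (Or.inl h1)

lemma iv_sub_bef {T : V × ℕ → I} (hinj : Function.Injective T) {M : Set (V × ℕ)} (hM : InitSeg T M)
    {a : V × ℕ} (ha : a ∉ M) : M ⊆ bef T a := by
  intro i hi
  have hne : i ≠ a := fun h => ha (h ▸ hi)
  rcases iv_prec_total hinj hne with h | h
  · exact h
  · exact absurd (hM i hi a h) ha

lemma iv_bef_sub {T : V × ℕ → I} {i a : V × ℕ} (h : prec T i a) : bef T i ⊆ bef T a :=
  fun _ hk => iv_prec_trans hk h

lemma iv_mask_mask_of_sub {M M' : Set (V × ℕ)} (h : M ⊆ M') (z : V × ℕ → I) :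
    mask M (mask M' z) = mask M z := by
  funext j
  unfold mask
  by_cases hj : j ∈ M
  · rw [if_pos hj, if_pos hj, if_pos (h hj)]
  · rw [if_neg hj, if_neg hj]

lemma iv_nz_prob : IsProbabilityMeasure (nz V) := by unfold nz; infer_instance

/-- resampling one coordinate -/
lemma iv_map_update_nz [DecidableEq V] (a : V × ℕ) :
    ((nz V).prod (volume : Measure I)).map (fun q => Function.update q.1 a q.2) = nz V := by
  unfold nz
  refine Measure.eq_infinitePi _ fun s A hA => ?_
  have hm : Measurable (fun q : (V × ℕ → I) × I => Function.update q.1 a q.2) := by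
    refine measurable_pi_iff.2 fun i => ?_
    by_cases h : i = a
    · subst h; simpa using measurable_snd
    · simp only [Function.update_of_ne h]; fun_prop
  rw [Measure.map_apply hm (MeasurableSet.pi s.countable_toSet fun i _ => hA i)]
  by_cases has : a ∈ s
  · have hset : (fun q : (V × ℕ → I) × I => Function.update q.1 a q.2) ⁻¹' (s : Set (V × ℕ)).pi A
        = (((s.erase a : Finset (V × ℕ)) : Set (V × ℕ)).pi A) ×ˢ A a := by
      ext q
      simp only [mem_preimage, Set.mem_pi, Finset.mem_coe, mem_prod, Finset.mem_erase]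
      constructor
      · intro h
        refine ⟨fun i hi => ?_, ?_⟩
        · have := h i hi.2
          rwa [Function.update_of_ne hi.1] at this
        · have := h a has
          rwa [Function.update_self] at this
      · rintro ⟨h1, h2⟩ i hi
        by_cases hia : i = a
        · subst hia; rwa [Function.update_self]
        · rw [Function.update_of_ne hia]; exact h1 i ⟨hia, hi⟩
    rw [hset, Measure.prod_prod, Measure.infinitePi_pi _ (fun i _ => hA i), mul_comm,
      Finset.mul_prod_erase s (fun i => (volume : Measure I) (A i)) has]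
  · have hset : (fun q : (V × ℕ → I) × I => Function.update q.1 a q.2) ⁻¹' (s : Set (V × ℕ)).pi A
        = ((s : Set (V × ℕ)).pi A) ×ˢ univ := by
      ext q
      simp only [mem_preimage, Set.mem_pi, Finset.mem_coe, mem_prod, mem_univ, and_true]
      constructor
      · intro h i hi
        have hia : i ≠ a := fun h => has (h ▸ hi)
        have := h i hi
        rwa [Function.update_of_ne hia] at this
      · intro h i hi
        have hia : i ≠ a := fun h => has (h ▸ hi)
        rw [Function.update_of_ne hia]; exact h i hi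
    rw [hset, Measure.prod_prod, Measure.infinitePi_pi _ (fun i _ => hA i), measure_univ, mul_one]

lemma iv_lintegral_resample [DecidableEq V] (μ : Measure (V → Bool)) [IsProbabilityMeasure μ]
    (a : V × ℕ) (H : (V → Bool) × (V × ℕ → I) → ENNReal) (hH : Measurable H) :
    ∫⁻ ω, H ω ∂(P1 μ)
      = ∫⁻ ω, ∫⁻ u, H (ω.1, Function.update ω.2 a u) ∂(volume : Measure I) ∂(P1 μ) := by
  have := iv_nz_prob (V := V)
  unfold P1
  have hm : Measurable (fun q : (V × ℕ → I) × I => Function.update q.1 a q.2) := by
    refine measurable_pi_iff.2 fun i => ?_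
    by_cases h : i = a
    · subst h; simpa using measurable_snd
    · simp only [Function.update_of_ne h]; fun_prop
  have hm2 : Measurable (fun q : ((V → Bool) × (V × ℕ → I)) × I =>
      H (q.1.1, Function.update q.1.2 a q.2)) := by
    refine hH.comp ?_
    refine Measurable.prodMk (by fun_prop) ?_
    exact hm.comp (by fun_prop : Measurable (fun q : ((V → Bool) × (V × ℕ → I)) × I =>
      (q.1.2, q.2)))
  rw [lintegral_prod _ hH.aemeasurable, lintegral_prod _ (hm2.lintegral_prod_right').aemeasurable]
  refine lintegral_congr fun x => ?_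
  have hHx : Measurable (fun ξ => H (x, ξ)) := hH.comp (measurable_const.prodMk measurable_id)
  have h1 : ∫⁻ ξ, H (x, ξ) ∂(nz V)
      = ∫⁻ q, H (x, Function.update q.1 a q.2) ∂((nz V).prod (volume : Measure I)) := by
    conv_lhs => rw [← iv_map_update_nz (V := V) a]
    exact lintegral_map hHx hm
  have h2 : Measurable (fun q : (V × ℕ → I) × I => H (x, Function.update q.1 a q.2)) :=
    hHx.comp hm
  rw [h1, lintegral_prod _ h2.aemeasurable]

lemma iv_zob_update [DecidableEq V] (s : V × ℕ → ℝ) (x : V → Bool) (ξ : V × ℕ → I) (a : V × ℕ)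
    (u : I) (i : V × ℕ) (h : i ≠ a) : zob s (x, Function.update ξ a u) i = zob s (x, ξ) i := by
  unfold zob
  simp only [Function.update_of_ne h]

lemma iv_mask_zob_update [DecidableEq V] (s : V × ℕ → ℝ) (x : V → Bool) (ξ : V × ℕ → I) (a : V × ℕ)
    (u : I) {M : Set (V × ℕ)} (ha : a ∉ M) :
    mask M (zob s (x, Function.update ξ a u)) = mask M (zob s (x, ξ)) := by
  funext i
  unfold mask
  by_cases h : i ∈ M
  · rw [if_pos h, if_pos h, iv_zob_update]
    rintro rfl
    exact ha h
  · rw [if_neg h, if_neg h]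

lemma iv_measurable_mask (M : Set (V × ℕ)) : Measurable (mask M) := by
  refine measurable_pi_iff.2 fun j => ?_
  unfold mask
  by_cases h : j ∈ M
  · simp only [h, if_true]; fun_prop
  · simp only [h, if_false]; fun_prop

lemma iv_st_le_half (t : I) : |st t| ≤ 1 / 2 := by
  rw [abs_of_nonneg (st_nonneg t)]
  linarith [st_le t]

/-! ### the channel measure as a linear function -/

/-- tilted measure of a set, as a real number -/
noncomputable def chv (c : ℝ) (D : Set I) : ℝ :=
  ∫ z : I, D.indicator (fun z : I => 1 + c * (2 * (z : ℝ) - 1)) z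

noncomputable def cha (D : Set I) : ℝ := ∫ z : I, D.indicator (fun _ : I => (1 : ℝ)) z

noncomputable def chb (D : Set I) : ℝ := ∫ z : I, D.indicator (fun z : I => (2 * (z : ℝ) - 1)) z

lemma iv_integrable_ind {D : Set I} (hD : MeasurableSet D) {f : I → ℝ} (hf : Measurable f) {C : ℝ}
    (hC : ∀ z, |f z| ≤ C) : Integrable (D.indicator f) (volume : Measure I) := by
  refine Integrable.indicator ?_ hD
  exact Integrable.of_bound hf.aestronglyMeasurable C (ae_of_all _ fun z => by simpa using hC z)

lemma iv_chv_eq {c : ℝ} {D : Set I} (hD : MeasurableSet D) : chv c D = cha D + c * chb D := by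
  unfold chv cha chb
  have h1 : Integrable (D.indicator (fun _ : I => (1 : ℝ))) (volume : Measure I) :=
    iv_integrable_ind hD measurable_const (C := 1) (by simp)
  have h2 : Integrable (D.indicator (fun z : I => (2 * (z : ℝ) - 1))) (volume : Measure I) := by
    refine iv_integrable_ind hD (by fun_prop) (C := 1) ?_
    intro z
    have := z.2.1
    have := z.2.2
    rw [abs_le]; constructor <;> linarith
  rw [← integral_const_mul, ← integral_add h1 (h2.const_mul c)]
  refine integral_congr_ae (ae_of_all _ fun z => ?_)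
  by_cases h : z ∈ D
  · simp [h]
  · simp [h]

lemma iv_one_add_nonneg {c : ℝ} (hc : |c| ≤ 1 / 2) (z : I) : 0 ≤ 1 + c * (2 * (z : ℝ) - 1) := by
  have h1 := z.2.1
  have h2 := z.2.2
  have h3 : |c * (2 * (z : ℝ) - 1)| ≤ 1 / 2 * 1 := by
    rw [abs_mul]
    refine mul_le_mul hc ?_ (abs_nonneg _) (by norm_num)
    rw [abs_le]; constructor <;> linarith
  have := (abs_le.1 h3).1
  linarith

lemma iv_chan_apply {c : ℝ} (hc : |c| ≤ 1 / 2) {D : Set I} (hD : MeasurableSet D) :
    ((volume : Measure I).withDensity (fun z : I => ENNReal.ofReal (1 + c * (2 * (z : ℝ) - 1)))) D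
      = ENNReal.ofReal (chv c D) := by
  unfold chv
  rw [withDensity_apply _ hD, ← lintegral_indicator hD, ofReal_integral_eq_lintegral_ofReal]
  · refine lintegral_congr fun z => ?_
    by_cases h : z ∈ D
    · simp [h]
    · simp [h]
  · refine iv_integrable_ind hD (by fun_prop) (C := 2) ?_
    intro z
    have h1 := iv_one_add_nonneg hc z
    have h2 := iv_one_add_nonneg (c := -c) (by rwa [abs_neg]) z
    rw [abs_of_nonneg h1]
    linarith
  · refine ae_of_all _ fun z => ?_
    by_cases h : z ∈ D
    · simp only [h, indicator_of_mem, Pi.zero_apply]; exact iv_one_add_nonneg hc z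
    · simp [h]

lemma iv_cha_mem (D : Set I) : |cha D| ≤ 1 := by
  unfold cha
  have h := norm_integral_le_of_norm_le_const (μ := (volume : Measure I)) (C := 1)
    (f := D.indicator (fun _ : I => (1 : ℝ)))
    (ae_of_all _ fun z => by by_cases h : z ∈ D <;> simp [h])
  simpa using h

lemma iv_chb_mem (D : Set I) : |chb D| ≤ 1 := by
  unfold chb
  have h := norm_integral_le_of_norm_le_const (μ := (volume : Measure I)) (C := 1)
    (f := D.indicator (fun z : I => (2 * (z : ℝ) - 1)))
    (ae_of_all _ fun z => by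
      have h1 := z.2.1
      have h2 := z.2.2
      by_cases h : z ∈ D
      · simp only [h, indicator_of_mem, Real.norm_eq_abs]
        rw [abs_le]; constructor <;> linarith
      · simp [h])
  simpa using h

lemma iv_measurable_cha {α : Type*} [MeasurableSpace α] {c : α → ℝ} (hc : Measurable c) {A : Set I}
    (hA : MeasurableSet A) : Measurable (fun x => cha (Fm (c x) ⁻¹' A)) := by
  unfold cha
  have h : Measurable (fun q : α × I => (Fm (c q.1) ⁻¹' A).indicator (fun _ : I => (1 : ℝ)) q.2) := by
    have e : (fun q : α × I => (Fm (c q.1) ⁻¹' A).indicator (fun _ : I => (1 : ℝ)) q.2)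
        = ((fun q : α × I => Fm (c q.1) q.2) ⁻¹' A).indicator (fun _ => (1 : ℝ)) := by
      funext q
      by_cases h : Fm (c q.1) q.2 ∈ A
      · rw [indicator_of_mem (show q.2 ∈ Fm (c q.1) ⁻¹' A from h),
          indicator_of_mem (show q ∈ (fun q : α × I => Fm (c q.1) q.2) ⁻¹' A from h)]
      · rw [indicator_of_notMem (show q.2 ∉ Fm (c q.1) ⁻¹' A from h),
          indicator_of_notMem (show q ∉ (fun q : α × I => Fm (c q.1) q.2) ⁻¹' A from h)]
    rw [e]
    refine measurable_const.indicator ?_
    exact (measurable_Fm.comp ((hc.comp measurable_fst).prodMk measurable_snd)) hA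
  exact (h.stronglyMeasurable.integral_prod_right).measurable

lemma iv_measurable_chb {α : Type*} [MeasurableSpace α] {c : α → ℝ} (hc : Measurable c) {A : Set I}
    (hA : MeasurableSet A) : Measurable (fun x => chb (Fm (c x) ⁻¹' A)) := by
  unfold chb
  have h : Measurable (fun q : α × I =>
      (Fm (c q.1) ⁻¹' A).indicator (fun z : I => (2 * (z : ℝ) - 1)) q.2) := by
    have e : (fun q : α × I => (Fm (c q.1) ⁻¹' A).indicator (fun z : I => (2 * (z : ℝ) - 1)) q.2)
        = ((fun q : α × I => Fm (c q.1) q.2) ⁻¹' A).indicator (fun q => (2 * (q.2 : ℝ) - 1)) := by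
      funext q
      by_cases h : Fm (c q.1) q.2 ∈ A
      · rw [indicator_of_mem (show q.2 ∈ Fm (c q.1) ⁻¹' A from h),
          indicator_of_mem (show q ∈ (fun q : α × I => Fm (c q.1) q.2) ⁻¹' A from h)]
      · rw [indicator_of_notMem (show q.2 ∉ Fm (c q.1) ⁻¹' A from h),
          indicator_of_notMem (show q ∉ (fun q : α × I => Fm (c q.1) q.2) ⁻¹' A from h)]
    rw [e]
    refine Measurable.indicator (by fun_prop) ?_
    exact (measurable_Fm.comp ((hc.comp measurable_fst).prodMk measurable_snd)) hA
  exact (h.stronglyMeasurable.integral_prod_right).measurable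

end general

variable {V : Type*} (G : SimpleGraph V) [G.LocallyFinite]

open Classical in
/-- resampling outside `M` -/
noncomputable def res (M : Set (V × ℕ)) (U U' : V × ℕ → I) : V × ℕ → I :=
  fun j => if j ∈ M then U j else U' j

/-- innovations of events in an initial segment only use the observations there -/
theorem un_mask (θ : ℝ) {T : V × ℕ → I} {M : Set (V × ℕ)} (hM : InitSeg T M) (z : V × ℕ → I)
    {j : V × ℕ} (hj : j ∈ M) : un G θ T (mask M z) j = un G θ T z j := by
  have hsub : bef T j ⊆ M := fun i hi => hM j hj i hi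
  unfold un
  have h1 : xf (sts T) (j.2 + 1) (bef T j) (mask M z) = xf (sts T) (j.2 + 1) (bef T j) z := by
    rw [← xf_mask (sts T) (j.2 + 1) (bef T j) (mask M z), iv_mask_mask_of_sub hsub, xf_mask]
  have h2 : mask M z j = z j := by unfold mask; rw [if_pos hj]
  rw [h1, h2]

theorem measurable_un (θ : ℝ) (T : V × ℕ → I) : Measurable (un G θ T) := by
  refine measurable_pi_iff.2 fun j => ?_
  unfold un
  refine measurable_Fm.comp (Measurable.prodMk ?_ (measurable_pi_apply j))
  exact ((measurable_mm G θ j.1).comp (measurable_xf _ _ _)).const_mul _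

lemma iv_measurable_artanh : Measurable Real.artanh := by
  unfold Real.artanh
  fun_prop

/-- joint measurability in labels and observations -/
theorem measurable_un_param [Countable V] (θ : ℝ) (j : V × ℕ) :
    Measurable (fun p : (V × ℕ → I) × (V × ℕ → I) => un G θ p.1 p.2 j) := by
  classical
  unfold un
  have hx : Measurable (fun p : (V × ℕ → I) × (V × ℕ → I) =>
      xf (sts p.1) (j.2 + 1) (bef p.1 j) p.2) := by
    refine measurable_pi_iff.2 fun v => ?_
    unfold xf
    refine Finset.measurable_sum _ fun l _ => ?_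
    refine Measurable.ite ?_ ?_ measurable_const
    · show MeasurableSet {p : (V × ℕ → I) × (V × ℕ → I) | (v, l) ∈ bef p.1 j}
      have e : {p : (V × ℕ → I) × (V × ℕ → I) | (v, l) ∈ bef p.1 j}
          = {p | l < j.2} ∪ ({p | l = j.2} ∩ {p | p.1 (v, l) < p.1 j}) := by
        ext p
        simp [bef, prec]
      rw [e]
      refine (MeasurableSet.const _).union ((MeasurableSet.const _).inter ?_)
      exact measurableSet_lt (by fun_prop) (by fun_prop)
    · refine iv_measurable_artanh.comp ?_
      have h1 : Measurable (fun p : (V × ℕ → I) × (V × ℕ → I) => sts p.1 (v, l)) :=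
        measurable_st.comp (by fun_prop : Measurable (fun p : (V × ℕ → I) × (V × ℕ → I) => p.1 (v, l)))
      exact h1.mul (by fun_prop)
  refine measurable_Fm.comp (Measurable.prodMk ?_ (by fun_prop))
  have h1 : Measurable (fun p : (V × ℕ → I) × (V × ℕ → I) => sts p.1 j) :=
    measurable_st.comp (by fun_prop : Measurable (fun p : (V × ℕ → I) × (V × ℕ → I) => p.1 j))
  exact h1.mul ((measurable_mm G θ j.1).comp hx)

lemma iv_abs_mm_le (θ : ℝ) (x : V → ℝ) (v : V) : |mm G θ x v| ≤ 1 := by
  unfold mm
  exact (Real.abs_tanh_lt_one _).le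

/-- conditional uniformity of an innovation given the past -/
lemma un_uniform [Countable V] (hT : G.IsTree) {θ : ℝ} (h0 : 0 ≤ θ) (h1 : θ < 1)
    {μ : Measure (V → Bool)} [IsProbabilityMeasure μ] (hμ : IsIsing G θ μ)
    (T : V × ℕ → I) (a : V × ℕ) (C : Set (V × ℕ → I)) (hC : MeasurableSet C)
    (A : Set I) (hA : MeasurableSet A) :
    P1 μ ({ω | mask (bef T a) (zob (sts T) ω) ∈ C} ∩ {ω | un G θ T (zob (sts T) ω) a ∈ A})
      = P1 μ {ω | mask (bef T a) (zob (sts T) ω) ∈ C} * volume A := by
  classical
  have := iv_nz_prob (V := V)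
  have hP1 : IsProbabilityMeasure (P1 μ) := by unfold P1; infer_instance
  set s := sts T with hs
  have hs01 : ∀ j, 0 ≤ s j ∧ s j ≤ 1 / 2 := fun j =>
    ⟨st_nonneg _, by have := st_le (T j); show st (T j) ≤ 1 / 2; linarith⟩
  have hana : a ∉ bef T a := iv_not_prec_self T a
  set S : Set ((V → Bool) × (V × ℕ → I)) := {ω | mask (bef T a) (zob s ω) ∈ C} with hSdef
  have hmz : Measurable (fun ω : (V → Bool) × (V × ℕ → I) => mask (bef T a) (zob s ω)) :=
    (iv_measurable_mask _).comp (measurable_zob s)
  have hSm : MeasurableSet S := hmz hC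
  have hun : Measurable (fun ω : (V → Bool) × (V × ℕ → I) => un G θ T (zob s ω) a) :=
    (measurable_pi_apply a).comp ((measurable_un G θ T).comp (measurable_zob s))
  have hAm : MeasurableSet {ω : (V → Bool) × (V × ℕ → I) | un G θ T (zob s ω) a ∈ A} := hun hA
  -- the conditional mean, as a function of the masked observations
  set m : (V × ℕ → I) → ℝ := fun z => mm G θ (xf s (a.2 + 1) (bef T a) z) a.1 with hm
  have hmm : Measurable m := (measurable_mm G θ a.1).comp (measurable_xf _ _ _)
  have hmmask : ∀ z, m (mask (bef T a) z) = m z := fun z => by simp only [hm, xf_mask]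
  have hm1 : ∀ z, |m z| ≤ 1 := fun z => iv_abs_mm_le G θ _ _
  set c : (V × ℕ → I) → ℝ := fun z => s a * m z with hc
  have hcm : Measurable c := hmm.const_mul _
  have hc2 : ∀ z, |c z| ≤ 1 / 2 := by
    intro z
    simp only [hc, abs_mul]
    rw [abs_of_nonneg (hs01 a).1]
    have := hm1 z
    nlinarith [(hs01 a).1, (hs01 a).2, abs_nonneg (m z)]
  set D : (V × ℕ → I) → Set I := fun z => Fm (c z) ⁻¹' A with hD
  have hDm : ∀ z, MeasurableSet (D z) := fun z =>
    (measurable_Fm.comp (measurable_const.prodMk measurable_id)) hA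
  have hunD : ∀ z, un G θ T z a ∈ A ↔ z a ∈ D z := fun z => Iff.rfl
  rw [← lintegral_indicator_one (hSm.inter hAm),
    iv_lintegral_resample μ a _ (measurable_one.indicator (hSm.inter hAm))]
  have hsg : ∀ b : Bool, |sg b| = 1 := by intro b; cases b <;> simp [sg]
  have hcs : ∀ b : Bool, |sg b * s a| ≤ 1 / 2 := by
    intro b; rw [abs_mul, hsg, one_mul, abs_of_nonneg (hs01 a).1]; exact (hs01 a).2
  have hinner : ∀ ω : (V → Bool) × (V × ℕ → I),
      ∫⁻ u, (S ∩ {ω | un G θ T (zob s ω) a ∈ A}).indicator
          (1 : (V → Bool) × (V × ℕ → I) → ENNReal) (ω.1, Function.update ω.2 a u)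
        ∂(volume : Measure I)
      = S.indicator (fun ω => ENNReal.ofReal (chv (sg (ω.1 a.1) * s a) (D (zob s ω)))) ω := by
    intro ω
    have hpast : ∀ u, mask (bef T a) (zob s (ω.1, Function.update ω.2 a u))
        = mask (bef T a) (zob s ω) := fun u => iv_mask_zob_update s ω.1 ω.2 a u hana
    have hmem : ∀ u, ((ω.1, Function.update ω.2 a u) : (V → Bool) × (V × ℕ → I)) ∈ S ↔ ω ∈ S := by
      intro u
      simp only [hSdef, mem_ofPred_eq, hpast]
    by_cases hω : ω ∈ S
    · rw [indicator_of_mem hω]
      have h2 : ∀ u, (S ∩ {ω | un G θ T (zob s ω) a ∈ A}).indicator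
          (1 : (V → Bool) × (V × ℕ → I) → ENNReal) (ω.1, Function.update ω.2 a u)
          = (Qm (sg (ω.1 a.1) * s a) ⁻¹' (D (zob s ω))).indicator 1 u := by
        intro u
        have h3 : un G θ T (zob s (ω.1, Function.update ω.2 a u)) a ∈ A
            ↔ Qm (sg (ω.1 a.1) * s a) u ∈ D (zob s ω) := by
          rw [hunD]
          have e1 : c (zob s (ω.1, Function.update ω.2 a u)) = c (zob s ω) := by
            simp only [hc]
            rw [← hmmask, hpast, hmmask]
          have e2 : zob s (ω.1, Function.update ω.2 a u) a = Qm (sg (ω.1 a.1) * s a) u := by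
            simp only [zob, Function.update_self]
          simp only [hD, e1, e2]
        simp only [indicator, mem_inter_iff, hmem, hω, true_and, mem_ofPred_eq, h3, mem_preimage,
          Pi.one_apply]
      simp_rw [h2]
      have hmQ : Measurable (Qm (sg (ω.1 a.1) * s a)) :=
        measurable_Qm.comp (measurable_const.prodMk measurable_id)
      rw [lintegral_indicator_one (hmQ (hDm _)), ← Measure.map_apply hmQ (hDm _),
        map_Qm (hcs _), iv_chan_apply (hcs _) (hDm _)]
    · rw [indicator_of_notMem hω]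
      have h2 : ∀ u, (S ∩ {ω | un G θ T (zob s ω) a ∈ A}).indicator
          (1 : (V → Bool) × (V × ℕ → I) → ENNReal) (ω.1, Function.update ω.2 a u) = 0 := by
        intro u
        rw [indicator_of_notMem]
        intro h
        exact hω ((hmem u).1 h.1)
      simp_rw [h2]
      simp
  simp_rw [hinner]
  -- real integrals
  set P := P1 μ with hP
  have hint : ∀ (f : (V → Bool) × (V × ℕ → I) → ℝ) (K : ℝ), Measurable f → (∀ ω, |f ω| ≤ K) →
      Integrable f P := by
    intro f K hf hb
    exact Integrable.of_bound hf.aestronglyMeasurable K (ae_of_all _ fun ω => by simpa using hb ω)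
  -- functions of the masked observations
  set Ψ : (V × ℕ → I) → ℝ := fun z => C.indicator (fun z => s a * chb (D z)) z with hΨ
  have hΨm : Measurable Ψ := by
    refine Measurable.indicator ?_ hC
    exact (iv_measurable_chb hcm hA).const_mul _
  have hΨb : ∀ z, |Ψ z| ≤ 1 := by
    intro z
    simp only [hΨ, indicator]
    split_ifs
    · rw [abs_mul, abs_of_nonneg (hs01 a).1]
      nlinarith [iv_chb_mem (D z), (hs01 a).1, (hs01 a).2, abs_nonneg (chb (D z))]
    · simp
  set Φ : (V × ℕ → I) → ℝ := fun z => C.indicator (fun z => cha (D z)) z with hΦ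
  have hΦm : Measurable Φ := Measurable.indicator (iv_measurable_cha hcm hA) hC
  have hΦb : ∀ z, |Φ z| ≤ 1 := by
    intro z
    simp only [hΦ, indicator]
    split_ifs
    · exact iv_cha_mem _
    · simp
  have hDmask : ∀ z, D (mask (bef T a) z) = D z := by
    intro z; simp only [hD, hc, hmmask]
  have hL : ∀ ω : (V → Bool) × (V × ℕ → I),
      S.indicator (fun ω => ENNReal.ofReal (chv (sg (ω.1 a.1) * s a) (D (zob s ω)))) ω
      = ENNReal.ofReal (Φ (mask (bef T a) (zob s ω))
          + sg (ω.1 a.1) * Ψ (mask (bef T a) (zob s ω))) := by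
    intro ω
    by_cases hω : ω ∈ S
    · have hω' : mask (bef T a) (zob s ω) ∈ C := hω
      rw [indicator_of_mem hω]
      simp only [hΦ, hΨ, indicator_of_mem hω', hDmask]
      rw [iv_chv_eq (hDm _)]
      congr 1
      ring
    · have hω' : mask (bef T a) (zob s ω) ∉ C := hω
      rw [indicator_of_notMem hω]
      simp only [hΦ, hΨ, indicator_of_notMem hω']
      simp
  have hR : ∀ ω : (V → Bool) × (V × ℕ → I), S.indicator (fun _ => volume A) ω
      = ENNReal.ofReal (Φ (mask (bef T a) (zob s ω))
          + m (zob s ω) * Ψ (mask (bef T a) (zob s ω))) := by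
    intro ω
    by_cases hω : ω ∈ S
    · have hω' : mask (bef T a) (zob s ω) ∈ C := hω
      rw [indicator_of_mem hω]
      simp only [hΦ, hΨ, indicator_of_mem hω', hDmask]
      have e1 : cha (D (zob s ω)) + m (zob s ω) * (s a * chb (D (zob s ω)))
          = chv (c (zob s ω)) (D (zob s ω)) := by
        rw [iv_chv_eq (hDm _)]; simp only [hc]; ring
      have hmF : Measurable (Fm (c (zob s ω))) :=
        measurable_Fm.comp (measurable_const.prodMk measurable_id)
      rw [e1, ← iv_chan_apply (hc2 _) (hDm _), ← Measure.map_apply hmF hA, map_Fm (hc2 _)]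
    · have hω' : mask (bef T a) (zob s ω) ∉ C := hω
      rw [indicator_of_notMem hω]
      simp only [hΦ, hΨ, indicator_of_notMem hω']
      simp
  have hsgm : Measurable (fun ω : (V → Bool) × (V × ℕ → I) => sg (ω.1 a.1)) :=
    (measurable_of_finite sg).comp (by fun_prop :
      Measurable (fun ω : (V → Bool) × (V × ℕ → I) => ω.1 a.1))
  have hIΦ : Integrable (fun ω => Φ (mask (bef T a) (zob s ω))) P :=
    hint _ 1 (hΦm.comp hmz) fun ω => hΦb _
  have hIs : Integrable (fun ω : (V → Bool) × (V × ℕ → I) =>
      sg (ω.1 a.1) * Ψ (mask (bef T a) (zob s ω))) P := by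
    refine hint _ 1 (hsgm.mul (hΨm.comp hmz)) fun ω => ?_
    rw [abs_mul, hsg, one_mul]; exact hΨb _
  have hIm : Integrable (fun ω : (V → Bool) × (V × ℕ → I) =>
      m (zob s ω) * Ψ (mask (bef T a) (zob s ω))) P := by
    refine hint _ 1 ((hmm.comp (measurable_zob s)).mul (hΨm.comp hmz)) fun ω => ?_
    rw [abs_mul]
    nlinarith [hm1 (zob s ω), hΨb (mask (bef T a) (zob s ω)), abs_nonneg (m (zob s ω)),
      abs_nonneg (Ψ (mask (bef T a) (zob s ω)))]
  have hnn1 : ∀ ω : (V → Bool) × (V × ℕ → I),
      0 ≤ Φ (mask (bef T a) (zob s ω)) + sg (ω.1 a.1) * Ψ (mask (bef T a) (zob s ω)) := by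
    intro ω
    by_cases hω' : mask (bef T a) (zob s ω) ∈ C
    · simp only [hΦ, hΨ, indicator_of_mem hω', hDmask]
      have e1 : cha (D (zob s ω)) + sg (ω.1 a.1) * (s a * chb (D (zob s ω)))
          = chv (sg (ω.1 a.1) * s a) (D (zob s ω)) := by
        rw [iv_chv_eq (hDm _)]; ring
      rw [e1]
      unfold chv
      refine integral_nonneg fun z => ?_
      by_cases h : z ∈ D (zob s ω)
      · simp only [h, indicator_of_mem, Pi.zero_apply]; exact iv_one_add_nonneg (hcs _) z
      · simp [h]
    · simp only [hΦ, hΨ, indicator_of_notMem hω']; simp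
  have hnn2 : ∀ ω : (V → Bool) × (V × ℕ → I),
      0 ≤ Φ (mask (bef T a) (zob s ω)) + m (zob s ω) * Ψ (mask (bef T a) (zob s ω)) := by
    intro ω
    by_cases hω' : mask (bef T a) (zob s ω) ∈ C
    · simp only [hΦ, hΨ, indicator_of_mem hω', hDmask]
      have e1 : cha (D (zob s ω)) + m (zob s ω) * (s a * chb (D (zob s ω)))
          = chv (c (zob s ω)) (D (zob s ω)) := by
        rw [iv_chv_eq (hDm _)]; simp only [hc]; ring
      rw [e1]
      unfold chv
      refine integral_nonneg fun z => ?_
      by_cases h : z ∈ D (zob s ω)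
      · simp only [h, indicator_of_mem, Pi.zero_apply]; exact iv_one_add_nonneg (hc2 _) z
      · simp [h]
    · simp only [hΦ, hΨ, indicator_of_notMem hω']; simp
  have hRR : P S * volume A = ∫⁻ ω, S.indicator (fun _ => volume A) ω ∂P := by
    rw [lintegral_indicator_const hSm, mul_comm]
  have eA : ∫⁻ ω, ENNReal.ofReal (Φ (mask (bef T a) (zob s ω))
      + sg (ω.1 a.1) * Ψ (mask (bef T a) (zob s ω))) ∂P
      = ENNReal.ofReal (∫ ω, (Φ (mask (bef T a) (zob s ω))
      + sg (ω.1 a.1) * Ψ (mask (bef T a) (zob s ω))) ∂P) :=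
    (ofReal_integral_eq_lintegral_ofReal (hIΦ.add hIs) (ae_of_all _ hnn1)).symm
  have eB : ∫⁻ ω, ENNReal.ofReal (Φ (mask (bef T a) (zob s ω))
      + m (zob s ω) * Ψ (mask (bef T a) (zob s ω))) ∂P
      = ENNReal.ofReal (∫ ω, (Φ (mask (bef T a) (zob s ω))
      + m (zob s ω) * Ψ (mask (bef T a) (zob s ω))) ∂P) :=
    (ofReal_integral_eq_lintegral_ofReal (hIΦ.add hIm) (ae_of_all _ hnn2)).symm
  rw [hRR, lintegral_congr hL, lintegral_congr hR, eA, eB]
  congr 1
  rw [integral_add hIΦ hIs, integral_add hIΦ hIm]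
  congr 1
  have hbef : ∀ i ∈ bef T a, i.2 < a.2 + 1 := by
    intro i hi
    rcases hi with h | ⟨h, _⟩ <;> omega
  exact post_mean G hT h0 h1 hμ s hs01 (a.2 + 1) (bef T a) hbef a.1 Ψ hΨm 1 hΨb

/-- the innovations outside an initial segment, and the observations in it -/
lemma un_indep [Countable V] (hT : G.IsTree) {θ : ℝ} (h0 : 0 ≤ θ) (h1 : θ < 1)
    {μ : Measure (V → Bool)} [IsProbabilityMeasure μ] (hμ : IsIsing G θ μ)
    (T : V × ℕ → I) (hinj : Function.Injective T) (M : Set (V × ℕ)) (hM : InitSeg T M)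
    (C : Set (V × ℕ → I)) (hC : MeasurableSet C) (A : V × ℕ → Set I)
    (hA : ∀ j, MeasurableSet (A j)) (s : Finset (V × ℕ)) (hs : ∀ i ∈ s, i ∉ M) :
    P1 μ ({ω | mask M (zob (sts T) ω) ∈ C} ∩ {ω | ∀ i ∈ s, un G θ T (zob (sts T) ω) i ∈ A i})
      = P1 μ {ω | mask M (zob (sts T) ω) ∈ C} * ∏ i ∈ s, volume (A i) := by
  classical
  let key : V × ℕ → ℕ ×ₗ I := fun j => toLex (j.2, T j)
  induction s using Finset.induction_on_max_value key with
  | empty => simp
  | insert a s has hmax ih =>
    have ih' := ih (fun i hi => hs i (Finset.mem_insert_of_mem hi))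
    have haM : a ∉ M := hs a (Finset.mem_insert_self a s)
    have hMsub : M ⊆ bef T a := iv_sub_bef hinj hM haM
    have hprec : ∀ i ∈ s, prec T i a := by
      intro i hi
      have hne : i ≠ a := fun h => has (h ▸ hi)
      have hle := hmax i hi
      simp only [key, Prod.Lex.toLex_le_toLex] at hle
      rcases hle with h | ⟨h1, h2⟩
      · left; exact h
      · right
        exact ⟨h1, lt_of_le_of_ne h2 fun h => hne (hinj h)⟩
    have hset : {ω : (V → Bool) × (V × ℕ → I) | mask M (zob (sts T) ω) ∈ C}
          ∩ {ω | ∀ i ∈ insert a s, un G θ T (zob (sts T) ω) i ∈ A i}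
        = {ω | mask (bef T a) (zob (sts T) ω) ∈
            (mask M ⁻¹' C ∩ ⋂ i ∈ s, (fun z => un G θ T z i) ⁻¹' (A i))}
          ∩ {ω | un G θ T (zob (sts T) ω) a ∈ A a} := by
      ext ω
      simp only [Finset.mem_insert, forall_eq_or_imp, mem_ofPred_eq, mem_inter_iff, mem_preimage,
        mem_iInter, iv_mask_mask_of_sub hMsub]
      have hunb : ∀ i ∈ s, un G θ T (mask (bef T a) (zob (sts T) ω)) i
          = un G θ T (zob (sts T) ω) i := by
        intro i hi
        refine un_mask G θ ?_ _ (hprec i hi)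
        intro j hj j' hj'
        exact iv_prec_trans hj' hj
      constructor
      · rintro ⟨h1, h2, h3⟩
        exact ⟨⟨h1, fun i hi => by rw [hunb i hi]; exact h3 i hi⟩, h2⟩
      · rintro ⟨⟨h1, h3⟩, h2⟩
        exact ⟨h1, h2, fun i hi => by rw [← hunb i hi]; exact h3 i hi⟩
    have hset2 : {ω : (V → Bool) × (V × ℕ → I) | mask (bef T a) (zob (sts T) ω) ∈
            (mask M ⁻¹' C ∩ ⋂ i ∈ s, (fun z => un G θ T z i) ⁻¹' (A i))}
        = {ω | mask M (zob (sts T) ω) ∈ C} ∩ {ω | ∀ i ∈ s, un G θ T (zob (sts T) ω) i ∈ A i} := by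
      ext ω
      simp only [mem_ofPred_eq, mem_inter_iff, mem_preimage,
        mem_iInter, iv_mask_mask_of_sub hMsub]
      have hunb : ∀ i ∈ s, un G θ T (mask (bef T a) (zob (sts T) ω)) i
          = un G θ T (zob (sts T) ω) i := by
        intro i hi
        refine un_mask G θ ?_ _ (hprec i hi)
        intro j hj j' hj'
        exact iv_prec_trans hj' hj
      constructor
      · rintro ⟨h1, h3⟩
        exact ⟨h1, fun i hi => by rw [← hunb i hi]; exact h3 i hi⟩
      · rintro ⟨h1, h3⟩
        exact ⟨h1, fun i hi => by rw [hunb i hi]; exact h3 i hi⟩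
    have hCm : MeasurableSet (mask M ⁻¹' C ∩ ⋂ i ∈ s, (fun z => un G θ T z i) ⁻¹' (A i)) := by
      refine ((iv_measurable_mask M) hC).inter ?_
      refine Finset.measurableSet_biInter _ fun i _ => ?_
      exact ((measurable_pi_apply i).comp (measurable_un G θ T)) (hA i)
    rw [hset, un_uniform G hT h0 h1 hμ T a _ hCm (A a) (hA a), hset2, ih',
      Finset.prod_insert has, mul_comm (volume (A a)), mul_assoc]

lemma iv_measurable_res (M : Set (V × ℕ)) :
    Measurable (fun p : (V × ℕ → I) × (V × ℕ → I) => res M p.1 p.2) := by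
  refine measurable_pi_iff.2 fun j => ?_
  unfold res
  by_cases h : j ∈ M
  · simp only [h, if_true]; fun_prop
  · simp only [h, if_false]; fun_prop

/-- the innovations are i.i.d. uniform, and those outside an initial segment are independent of
the observations in it -/
theorem innov_law [Countable V] (hT : G.IsTree) {θ : ℝ} (h0 : 0 ≤ θ) (h1 : θ < 1)
    {μ : Measure (V → Bool)} [IsProbabilityMeasure μ] (hμ : IsIsing G θ μ)
    (T : V × ℕ → I) (hinj : Function.Injective T) (M : Set (V × ℕ)) (hM : InitSeg T M) :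
    (P1 μ).map (fun ω => (mask M (zob (sts T) ω), un G θ T (zob (sts T) ω)))
      = ((P1 μ).prod (nz V)).map (fun q => (mask M (zob (sts T) q.1),
          res M (un G θ T (zob (sts T) q.1)) q.2)) := by
  classical
  have := iv_nz_prob (V := V)
  have hP1 : IsProbabilityMeasure (P1 μ) := by unfold P1; infer_instance
  set P := P1 μ with hP
  have hmz : Measurable (fun ω : (V → Bool) × (V × ℕ → I) => mask M (zob (sts T) ω)) :=
    (iv_measurable_mask M).comp (measurable_zob _)
  have hmu : Measurable (fun ω : (V → Bool) × (V × ℕ → I) => un G θ T (zob (sts T) ω)) :=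
    (measurable_un G θ T).comp (measurable_zob _)
  have hm1 : Measurable (fun ω : (V → Bool) × (V × ℕ → I) =>
      (mask M (zob (sts T) ω), un G θ T (zob (sts T) ω))) := hmz.prodMk hmu
  have hmr : Measurable (fun q : ((V → Bool) × (V × ℕ → I)) × (V × ℕ → I) =>
      res M (un G θ T (zob (sts T) q.1)) q.2) :=
    (iv_measurable_res M).comp ((hmu.comp measurable_fst).prodMk measurable_snd)
  have hm2 : Measurable (fun q : ((V → Bool) × (V × ℕ → I)) × (V × ℕ → I) =>
      (mask M (zob (sts T) q.1), res M (un G θ T (zob (sts T) q.1)) q.2)) :=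
    (hmz.comp measurable_fst).prodMk hmr
  have : IsProbabilityMeasure (P.map (fun ω => (mask M (zob (sts T) ω), un G θ T (zob (sts T) ω)))) :=
    Measure.isProbabilityMeasure_map hm1.aemeasurable
  refine Measure.ext_prod fun {C B} hC hB => ?_
  rw [Measure.map_apply hm1 (hC.prod hB), Measure.map_apply hm2 (hC.prod hB)]
  set SC : Set ((V → Bool) × (V × ℕ → I)) := {ω | mask M (zob (sts T) ω) ∈ C} with hSC
  have hSCm : MeasurableSet SC := hmz hC
  have key : (P.restrict SC).map (fun ω => un G θ T (zob (sts T) ω))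
      = ((P.restrict SC).prod (nz V)).map (fun q => res M (un G θ T (zob (sts T) q.1)) q.2) := by
    have hfin : IsFiniteMeasure ((P.restrict SC).map (fun ω => un G θ T (zob (sts T) ω))) :=
      Measure.isFiniteMeasure_map _ _
    refine ext_of_generate_finite _ generateFrom_squareCylinders.symm
      (isPiSystem_squareCylinders (fun _ ↦ MeasurableSpace.isPiSystem_measurableSet) (by simp)) ?_ ?_
    · rintro _ ⟨s, A, hA, rfl⟩
      have hA' : ∀ i, MeasurableSet (A i) := fun i => hA i (mem_univ i)
      have hpm : MeasurableSet ((s : Set (V × ℕ)).pi A) :=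
        MeasurableSet.pi s.countable_toSet fun i _ => hA' i
      rw [Measure.map_apply hmu hpm, Measure.map_apply hmr hpm,
        Measure.restrict_apply (hmu hpm)]
      set s₁ := s.filter (fun i => i ∈ M) with hs₁
      set s₂ := s.filter (fun i => i ∉ M) with hs₂
      have h3 := un_indep G hT h0 h1 hμ T hinj M hM
        (C ∩ ⋂ i ∈ s₁, (fun z => un G θ T z i) ⁻¹' (A i)) (hC.inter
          (Finset.measurableSet_biInter _ fun i _ =>
            ((measurable_pi_apply i).comp (measurable_un G θ T)) (hA' i))) A hA' s₂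
        (by intro i hi; exact (Finset.mem_filter.1 hi).2)
      have hunb : ∀ ω : (V → Bool) × (V × ℕ → I), ∀ i ∈ s₁,
          un G θ T (mask M (zob (sts T) ω)) i = un G θ T (zob (sts T) ω) i := by
        intro ω i hi
        exact un_mask G θ hM _ (Finset.mem_filter.1 hi).2
      have e1 : {ω : (V → Bool) × (V × ℕ → I) | mask M (zob (sts T) ω) ∈
            C ∩ ⋂ i ∈ s₁, (fun z => un G θ T z i) ⁻¹' (A i)}
          = {ω | ∀ i ∈ s₁, un G θ T (zob (sts T) ω) i ∈ A i} ∩ SC := by
        ext ω
        simp only [hSC, mem_ofPred_eq, mem_inter_iff, mem_iInter, mem_preimage]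
        constructor
        · rintro ⟨a1, a2⟩
          exact ⟨fun i hi => by rw [← hunb ω i hi]; exact a2 i hi, a1⟩
        · rintro ⟨a2, a1⟩
          exact ⟨a1, fun i hi => by rw [hunb ω i hi]; exact a2 i hi⟩
      have e2 : (fun ω : (V → Bool) × (V × ℕ → I) => un G θ T (zob (sts T) ω)) ⁻¹'
            ((s : Set (V × ℕ)).pi A) ∩ SC
          = {ω : (V → Bool) × (V × ℕ → I) | mask M (zob (sts T) ω) ∈
            C ∩ ⋂ i ∈ s₁, (fun z => un G θ T z i) ⁻¹' (A i)}
            ∩ {ω | ∀ i ∈ s₂, un G θ T (zob (sts T) ω) i ∈ A i} := by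
        rw [e1]
        ext ω
        simp only [hSC, hs₁, hs₂, mem_preimage, Set.mem_pi, Finset.mem_coe, mem_inter_iff,
          mem_ofPred_eq, Finset.mem_filter]
        constructor
        · rintro ⟨a1, a2⟩
          exact ⟨⟨fun i hi => a1 i hi.1, a2⟩, fun i hi => a1 i hi.1⟩
        · rintro ⟨⟨a1, a2⟩, a3⟩
          refine ⟨fun i hi => ?_, a2⟩
          by_cases hiM : i ∈ M
          · exact a1 i ⟨hi, hiM⟩
          · exact a3 i ⟨hi, hiM⟩
      have e3 : (fun q : ((V → Bool) × (V × ℕ → I)) × (V × ℕ → I) =>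
            res M (un G θ T (zob (sts T) q.1)) q.2) ⁻¹' ((s : Set (V × ℕ)).pi A)
          = {ω : (V → Bool) × (V × ℕ → I) | ∀ i ∈ s₁, un G θ T (zob (sts T) ω) i ∈ A i} ×ˢ
            ((s₂ : Set (V × ℕ)).pi A) := by
        ext q
        simp only [hs₁, hs₂, mem_preimage, Set.mem_pi, Finset.mem_coe, mem_prod,
          mem_ofPred_eq, Finset.mem_filter]
        constructor
        · intro h
          refine ⟨fun i hi => ?_, fun i hi => ?_⟩
          · have := h i hi.1
            unfold res at this
            rwa [if_pos hi.2] at this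
          · have := h i hi.1
            unfold res at this
            rwa [if_neg hi.2] at this
        · rintro ⟨a1, a2⟩ i hi
          unfold res
          by_cases hiM : i ∈ M
          · rw [if_pos hiM]; exact a1 i ⟨hi, hiM⟩
          · rw [if_neg hiM]; exact a2 i ⟨hi, hiM⟩
      have hm3 : MeasurableSet {ω : (V → Bool) × (V × ℕ → I) |
          ∀ i ∈ s₁, un G θ T (zob (sts T) ω) i ∈ A i} := by
        have : {ω : (V → Bool) × (V × ℕ → I) | ∀ i ∈ s₁, un G θ T (zob (sts T) ω) i ∈ A i}
            = ⋂ i ∈ s₁, (fun ω => un G θ T (zob (sts T) ω) i) ⁻¹' (A i) := by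
          ext ω; simp
        rw [this]
        exact Finset.measurableSet_biInter _ fun i _ => ((measurable_pi_apply i).comp hmu) (hA' i)
      rw [e2, h3, e3, Measure.prod_prod, Measure.restrict_apply hm3, e1]
      congr 1
      unfold nz
      rw [Measure.infinitePi_pi _ (fun i _ => hA' i)]
    · rw [Measure.map_apply hmu MeasurableSet.univ, Measure.map_apply hmr MeasurableSet.univ,
        preimage_univ, preimage_univ]
      have e5 : (univ : Set (((V → Bool) × (V × ℕ → I)) × (V × ℕ → I))) = univ ×ˢ univ :=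
        univ_prod_univ.symm
      rw [e5, Measure.prod_prod, measure_univ (μ := nz V), mul_one]
  have h5 : P ((fun ω => (mask M (zob (sts T) ω), un G θ T (zob (sts T) ω))) ⁻¹' C ×ˢ B)
      = ((P.restrict SC).map (fun ω => un G θ T (zob (sts T) ω))) B := by
    rw [Measure.map_apply hmu hB, Measure.restrict_apply (hmu hB)]
    congr 1
    ext ω
    simp only [mem_preimage, mem_prod, hSC, mem_inter_iff, mem_ofPred_eq]
    tauto
  have h6 : (P.prod (nz V)) ((fun q : ((V → Bool) × (V × ℕ → I)) × (V × ℕ → I) =>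
        (mask M (zob (sts T) q.1), res M (un G θ T (zob (sts T) q.1)) q.2)) ⁻¹' C ×ˢ B)
      = (((P.restrict SC).prod (nz V)).map
        (fun q => res M (un G θ T (zob (sts T) q.1)) q.2)) B := by
    rw [Measure.map_apply hmr hB]
    have e4 : (P.restrict SC).prod (nz V) = (P.prod (nz V)).restrict (SC ×ˢ univ) := by
      rw [← Measure.prod_restrict, Measure.restrict_univ]
    rw [e4, Measure.restrict_apply (hmr hB)]
    congr 1
    ext q
    simp only [mem_preimage, mem_prod, hSC, mem_inter_iff, mem_ofPred_eq, mem_univ, and_true]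
    tauto
  rw [h5, h6, key]

theorem innov_unif [Countable V] (hT : G.IsTree) {θ : ℝ} (h0 : 0 ≤ θ) (h1 : θ < 1)
    {μ : Measure (V → Bool)} [IsProbabilityMeasure μ] (hμ : IsIsing G θ μ)
    (T : V × ℕ → I) (hinj : Function.Injective T) :
    (P1 μ).map (fun ω => un G θ T (zob (sts T) ω)) = nz V := by
  classical
  have := iv_nz_prob (V := V)
  have hP1 : IsProbabilityMeasure (P1 μ) := by unfold P1; infer_instance
  unfold nz
  refine Measure.eq_infinitePi _ fun s A hA => ?_
  have hm : Measurable (fun ω : (V → Bool) × (V × ℕ → I) => un G θ T (zob (sts T) ω)) :=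
    (measurable_un G θ T).comp (measurable_zob _)
  rw [Measure.map_apply hm (MeasurableSet.pi s.countable_toSet fun i _ => hA i)]
  have h2 := un_indep G hT h0 h1 hμ T hinj ∅ (by intro i hi; exact absurd hi (notMem_empty i))
    univ MeasurableSet.univ A hA s (by simp)
  have e1 : {ω : (V → Bool) × (V × ℕ → I) | mask ∅ (zob (sts T) ω) ∈ univ} = univ := by
    ext; simp
  rw [e1, univ_inter, measure_univ, one_mul] at h2
  rw [← h2]
  rfl

end Crest.Agent.FI
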