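import Mathlib
import Crest.Agent.FI.Defs

/-!
Two copies, conditionally independent given the innovations.
-/

set_option autoImplicit false

namespace Crest.Agent.FI

open MeasureTheory ProbabilityTheory Set Filter Topology
open scoped ENNReal

variable {𝒰 𝒳 𝒴 : Type*} [MeasurableSpace 𝒰] [MeasurableSpace 𝒳] [MeasurableSpace 𝒴]

/-! ### Helpers -/

theorem two_integ {α : Type*} [MeasurableSpace α] (m : Measure α) [IsFiniteMeasure m] {f : α → ℝ}
    (hf : Measurable f) {C : ℝ} (hC : ∀ x, |f x| ≤ C) : Integrable f m :=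
  Integrable.of_bound hf.aestronglyMeasurable C (ae_of_all _ fun x => by simpa using hC x)

theorem two_imap {α β : Type*} [MeasurableSpace α] [MeasurableSpace β] (m : Measure α) (φ : α → β)
    (hφ : Measurable φ) (f : β → ℝ) (hf : Measurable f) :
    ∫ y, f y ∂(m.map φ) = ∫ x, f (φ x) ∂m :=
  integral_map hφ.aemeasurable hf.aestronglyMeasurable

theorem two_iprod {α β : Type*} [MeasurableSpace α] [MeasurableSpace β] (m : Measure α)
    (n : Measure β) [IsProbabilityMeasure m] [IsProbabilityMeasure n] (f : α × β → ℝ)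
    (hf : Measurable f) {C : ℝ} (hC : ∀ z, |f z| ≤ C) :
    ∫ z, f z ∂(m.prod n) = ∫ x, ∫ y, f (x, y) ∂n ∂m :=
  integral_prod _ (two_integ _ hf hC)

theorem abs_mul_le_two {a b C D : ℝ} (ha : |a| ≤ C) (hb : |b| ≤ D) : |a * b| ≤ C * D := by
  rw [abs_mul]
  exact mul_le_mul ha hb (abs_nonneg _) ((abs_nonneg _).trans ha)

theorem two_meas_kint (κ : Kernel 𝒰 𝒳) [IsMarkovKernel κ] {f : 𝒳 → ℝ} (hf : Measurable f) :
    Measurable (fun u => ∫ x, f x ∂κ u) := by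
  have h : StronglyMeasurable (fun p : 𝒰 × 𝒳 => f p.2) := (hf.comp measurable_snd).stronglyMeasurable
  exact (h.integral_kernel_prod_right' (κ := κ)).measurable

theorem two_abs_integral_le {α : Type*} [MeasurableSpace α] (m : Measure α)
    [IsProbabilityMeasure m] {f : α → ℝ} {C : ℝ} (hC : ∀ x, |f x| ≤ C) : |∫ x, f x ∂m| ≤ C := by
  have := norm_integral_le_of_norm_le_const (μ := m) (f := f) (C := C)
    (ae_of_all _ fun x => by simpa using hC x)
  simpa using this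

/-- real indicator -/
noncomputable def twInd {α : Type*} (A : Set α) : α → ℝ := A.indicator (fun _ => 1)

theorem measurable_twInd {α : Type*} [MeasurableSpace α] {A : Set α} (hA : MeasurableSet A) :
    Measurable (twInd A) := measurable_const.indicator hA

theorem abs_twInd_le {α : Type*} (A : Set α) (x : α) : |twInd A x| ≤ 1 := by
  by_cases h : x ∈ A <;> simp [twInd, h]

theorem rect2 {α β : Type*} [MeasurableSpace α] [MeasurableSpace β] (m : Measure (α × β))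
    [IsFiniteMeasure m] {A : Set α} {B : Set β} (hA : MeasurableSet A) (hB : MeasurableSet B) :
    m (A ×ˢ B) = ENNReal.ofReal (∫ q, twInd A q.1 * twInd B q.2 ∂m) := by
  have h : (fun q : α × β => twInd A q.1 * twInd B q.2) = (A ×ˢ B).indicator (fun _ => (1 : ℝ)) := by
    funext q
    by_cases h1 : q.1 ∈ A <;> by_cases h2 : q.2 ∈ B <;> simp [twInd, h1, h2, Set.indicator]
  rw [h, integral_indicator (hA.prod hB)]
  simp [Measure.real]

theorem rect3 {α β γ : Type*} [MeasurableSpace α] [MeasurableSpace β] [MeasurableSpace γ]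
    (m : Measure (α × β × γ))
    [IsFiniteMeasure m] {A : Set α} {B : Set β} {C : Set γ} (hA : MeasurableSet A)
    (hB : MeasurableSet B) (hC : MeasurableSet C) :
    m (A ×ˢ (B ×ˢ C)) = ENNReal.ofReal (∫ q, twInd A q.1 * (twInd B q.2.1 * twInd C q.2.2) ∂m) := by
  have h : (fun q : α × β × γ => twInd A q.1 * (twInd B q.2.1 * twInd C q.2.2))
      = (A ×ˢ (B ×ˢ C)).indicator (fun _ => (1 : ℝ)) := by
    funext q
    by_cases h1 : q.1 ∈ A <;> by_cases h2 : q.2.1 ∈ B <;> by_cases h3 : q.2.2 ∈ C <;>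
      simp [twInd, h1, h2, h3, Set.indicator]
  rw [h, integral_indicator (hA.prod (hB.prod hC))]
  simp [Measure.real]

/-- two copies, conditionally independent given the first coordinate -/
noncomputable def tw (ν : Measure 𝒰) (κ : Kernel 𝒰 𝒳) : Measure (𝒰 × 𝒳 × 𝒳) := ν ⊗ₘ (κ ×ₖ κ)

instance (ν : Measure 𝒰) [IsProbabilityMeasure ν] (κ : Kernel 𝒰 𝒳) [IsMarkovKernel κ] :
    IsProbabilityMeasure (tw ν κ) := by unfold tw; infer_instance

theorem cp_int {ν : Measure 𝒰} [IsProbabilityMeasure ν] {κ : Kernel 𝒰 𝒳} [IsMarkovKernel κ]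
    {h : 𝒰 → ℝ} {f : 𝒳 → ℝ} (hh : Measurable h) (hf : Measurable f) {C D : ℝ}
    (hC : ∀ u, |h u| ≤ C) (hD : ∀ x, |f x| ≤ D) :
    ∫ q, h q.1 * f q.2 ∂(ν ⊗ₘ κ) = ∫ u, h u * (∫ x, f x ∂κ u) ∂ν := by
  rw [Measure.integral_compProd (two_integ _ (by fun_prop) (C := C * D)
    fun q => abs_mul_le_two (hC _) (hD _))]
  simp only [integral_const_mul]

theorem tw_int {ν : Measure 𝒰} [IsProbabilityMeasure ν] {κ : Kernel 𝒰 𝒳} [IsMarkovKernel κ]
    {h : 𝒰 → ℝ} {f g : 𝒳 → ℝ} (hh : Measurable h) (hf : Measurable f) (hg : Measurable g)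
    {C D E : ℝ} (hC : ∀ u, |h u| ≤ C) (hD : ∀ x, |f x| ≤ D) (hE : ∀ x, |g x| ≤ E) :
    ∫ q, h q.1 * (f q.2.1 * g q.2.2) ∂(tw ν κ)
      = ∫ u, h u * ((∫ x, f x ∂κ u) * (∫ x, g x ∂κ u)) ∂ν := by
  unfold tw
  rw [Measure.integral_compProd (two_integ _ (by fun_prop) (C := C * (D * E))
    fun q => abs_mul_le_two (hC _) (abs_mul_le_two (hD _) (hE _)))]
  simp only [integral_const_mul, Kernel.prod_apply]
  congr 1
  funext u
  rw [integral_prod_mul f g]

theorem tw_int' {ν : Measure 𝒰} [IsProbabilityMeasure ν] {κ : Kernel 𝒰 𝒳} [IsMarkovKernel κ]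
    {f g : 𝒳 → ℝ} (hf : Measurable f) (hg : Measurable g)
    {D E : ℝ} (hD : ∀ x, |f x| ≤ D) (hE : ∀ x, |g x| ≤ E) :
    ∫ q, (f q.2.1 * g q.2.2) ∂(tw ν κ)
      = ∫ q, (∫ x, g x ∂κ q.1) * f q.2 ∂(ν ⊗ₘ κ) := by
  have h1 := tw_int (ν := ν) (κ := κ) (h := fun _ => 1) measurable_const hf hg (C := 1)
    (fun _ => by simp) hD hE
  simp only [one_mul] at h1
  rw [h1, cp_int (two_meas_kint κ hg) hf (fun u => two_abs_integral_le _ hE) hD]
  congr 1
  funext u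
  ring

theorem tw_fst (ν : Measure 𝒰) [IsProbabilityMeasure ν] (κ : Kernel 𝒰 𝒳) [IsMarkovKernel κ] :
    (tw ν κ).map (fun q => (q.1, q.2.1)) = ν ⊗ₘ κ := by
  have : IsFiniteMeasure ((tw ν κ).map (fun q => (q.1, q.2.1))) := by
    have := Measure.isProbabilityMeasure_map (μ := tw ν κ)
      (f := fun q : 𝒰 × 𝒳 × 𝒳 => (q.1, q.2.1)) (by fun_prop)
    infer_instance
  refine Measure.ext_prod fun {A B} hA hB => ?_
  rw [rect2 _ hA hB, rect2 _ hA hB]
  congr 1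
  have hmI : Measurable (fun q : 𝒰 × 𝒳 => twInd A q.1 * twInd B q.2) :=
    ((measurable_twInd hA).comp measurable_fst).mul ((measurable_twInd hB).comp measurable_snd)
  rw [integral_map (by fun_prop) hmI.aestronglyMeasurable,
    cp_int (measurable_twInd hA) (measurable_twInd hB) (abs_twInd_le A) (abs_twInd_le B)]
  have h1 := tw_int (ν := ν) (κ := κ) (h := twInd A) (f := twInd B) (g := fun _ => 1)
    (measurable_twInd hA) (measurable_twInd hB) measurable_const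
    (abs_twInd_le A) (abs_twInd_le B) (E := 1) (fun _ => by simp)
  simpa using h1

theorem tw_swap (ν : Measure 𝒰) [IsProbabilityMeasure ν] (κ : Kernel 𝒰 𝒳) [IsMarkovKernel κ] :
    (tw ν κ).map (fun q => (q.1, q.2.2, q.2.1)) = tw ν κ := by
  have : IsFiniteMeasure ((tw ν κ).map (fun q => (q.1, q.2.2, q.2.1))) := by
    have := Measure.isProbabilityMeasure_map (μ := tw ν κ)
      (f := fun q : 𝒰 × 𝒳 × 𝒳 => (q.1, q.2.2, q.2.1)) (by fun_prop)
    infer_instance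
  refine Measure.ext_prod₃ fun {A B C} hA hB hC => ?_
  rw [rect3 _ hA hB hC, rect3 _ hA hB hC]
  congr 1
  have hmI : Measurable (fun q : 𝒰 × 𝒳 × 𝒳 => twInd A q.1 * (twInd B q.2.1 * twInd C q.2.2)) :=
    ((measurable_twInd hA).comp measurable_fst).mul
      (((measurable_twInd hB).comp (measurable_fst.comp measurable_snd)).mul
        ((measurable_twInd hC).comp (measurable_snd.comp measurable_snd)))
  rw [integral_map (by fun_prop) hmI.aestronglyMeasurable,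
    tw_int (measurable_twInd hA) (measurable_twInd hB) (measurable_twInd hC) (abs_twInd_le A)
      (abs_twInd_le B) (abs_twInd_le C)]
  have h1 := tw_int (ν := ν) (κ := κ) (measurable_twInd hA) (measurable_twInd hC) (measurable_twInd hB)
    (abs_twInd_le A) (abs_twInd_le C) (abs_twInd_le B)
  simp only at h1 ⊢
  rw [show (fun q : 𝒰 × 𝒳 × 𝒳 => twInd A q.1 * (twInd B q.2.2 * twInd C q.2.1))
    = fun q : 𝒰 × 𝒳 × 𝒳 => twInd A q.1 * (twInd C q.2.1 * twInd B q.2.2) by funext q; ring, h1]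
  congr 1
  funext u
  ring

theorem tw_snd (ν : Measure 𝒰) [IsProbabilityMeasure ν] (κ : Kernel 𝒰 𝒳) [IsMarkovKernel κ] :
    (tw ν κ).map (fun q => (q.1, q.2.2)) = ν ⊗ₘ κ := by
  conv_rhs => rw [← tw_fst ν κ]
  conv_rhs => rw [← tw_swap ν κ]
  rw [Measure.map_map (by fun_prop) (by fun_prop)]
  rfl

/-- "past" structure: `π` = past observations, `mk u` = past innovations, `r u u'` = resampling of
the future innovations -/
structure PastStr (ν : Measure 𝒰) (κ : Kernel 𝒰 𝒳) (π : 𝒳 → 𝒴) (mk : 𝒰 → 𝒰) (r : 𝒰 → 𝒰 → 𝒰) :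
    Prop where
  mπ : Measurable π
  mmk : Measurable mk
  mr : Measurable (fun p : 𝒰 × 𝒰 => r p.1 p.2)
  /-- `r` only uses the past of its first argument -/
  rmk : ∀ u u', r (mk u) u' = r u u'
  /-- `(u, r u u')` is exchangeable -/
  exch : (ν.prod ν).map (fun p => (p.1, r p.1 p.2)) = (ν.prod ν).map (fun p => (r p.1 p.2, p.1))
  /-- past innovations are a function of the past observations -/
  fac : ∃ g : 𝒴 → 𝒰, Measurable g ∧ ∀ᵐ q ∂(ν ⊗ₘ κ), mk q.1 = g (π q.2)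
  /-- future innovations are independent of the past observations -/
  ind : (ν ⊗ₘ κ).map (fun q => (π q.2, q.1))
    = ((ν ⊗ₘ κ).prod ν).map (fun q => (π q.1.2, r q.1.1 q.2))

/-- the averaged resampling -/
noncomputable def rsm (ν : Measure 𝒰) (r : 𝒰 → 𝒰 → 𝒰) (g : 𝒰 → ℝ) (u : 𝒰) : ℝ :=
  ∫ u', g (r u u') ∂ν

theorem measurable_rsm {ν : Measure 𝒰} [IsProbabilityMeasure ν] {r : 𝒰 → 𝒰 → 𝒰}
    (mr : Measurable (fun p : 𝒰 × 𝒰 => r p.1 p.2)) {g : 𝒰 → ℝ} (hg : Measurable g) :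
    Measurable (rsm ν r g) := by
  have h : StronglyMeasurable (fun p : 𝒰 × 𝒰 => g (r p.1 p.2)) :=
    (hg.comp mr).stronglyMeasurable
  exact h.integral_prod_right'.measurable

theorem abs_rsm_le {ν : Measure 𝒰} [IsProbabilityMeasure ν] {r : 𝒰 → 𝒰 → 𝒰}
    {g : 𝒰 → ℝ} {C : ℝ} (hC : ∀ u, |g u| ≤ C) (u : 𝒰) : |rsm ν r g u| ≤ C :=
  two_abs_integral_le _ fun _ => hC _

/-- the conditional expectation of a past functional only depends on past innovations -/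
theorem past_key {ν : Measure 𝒰} [IsProbabilityMeasure ν] {κ : Kernel 𝒰 𝒳} [IsMarkovKernel κ]
    {π : 𝒳 → 𝒴} {mk : 𝒰 → 𝒰} {r : 𝒰 → 𝒰 → 𝒰} (h : PastStr ν κ π mk r)
    {Ψ : 𝒴 → ℝ} (hΨ : Measurable Ψ) {C : ℝ} (hb : ∀ y, |Ψ y| ≤ C) :
    (fun u => ∫ x, Ψ (π x) ∂κ u) =ᵐ[ν] rsm ν r (fun u => ∫ x, Ψ (π x) ∂κ u) := by
  set g : 𝒰 → ℝ := fun u => ∫ x, Ψ (π x) ∂κ u with hg
  have mΨπ : Measurable (fun x => Ψ (π x)) := hΨ.comp h.mπ
  have mg : Measurable g := two_meas_kint κ mΨπ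
  have bg : ∀ u, |g u| ≤ C := fun u => two_abs_integral_le _ fun x => hb _
  have mR := measurable_rsm h.mr (ν := ν) mg
  have bR := abs_rsm_le (ν := ν) (r := r) bg
  refine Integrable.ae_eq_of_forall_setIntegral_eq _ _ (two_integ _ mg bg) (two_integ _ mR bR)
    fun A hA _ => ?_
  have hmA := measurable_twInd hA
  have conv : ∀ f : 𝒰 → ℝ, ∫ u in A, f u ∂ν = ∫ u, twInd A u * f u ∂ν := by
    intro f
    rw [← integral_indicator hA]
    congr 1
    funext u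
    by_cases hu : u ∈ A <;> simp [twInd, hu]
  rw [conv, conv]
  -- step 1: as an integral of a function of `(π x, u)`
  have mJ : Measurable (fun q : 𝒴 × 𝒰 => twInd A q.2 * Ψ q.1) :=
    (hmA.comp measurable_snd).mul (hΨ.comp measurable_fst)
  have e1 : ∫ u, twInd A u * g u ∂ν
      = ∫ q, twInd A q.2 * Ψ q.1 ∂((ν ⊗ₘ κ).map (fun q => (π q.2, q.1))) := by
    refine Eq.symm ((two_imap (ν ⊗ₘ κ) (fun q => (π q.2, q.1))
      ((h.mπ.comp measurable_snd).prodMk measurable_fst) _ mJ).trans ?_)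
    exact cp_int hmA mΨπ (abs_twInd_le A) (fun x => hb _)
  have mr2 : Measurable (fun q : (𝒰 × 𝒳) × 𝒰 => r q.1.1 q.2) :=
    h.mr.comp ((measurable_fst.comp measurable_fst).prodMk measurable_snd)
  have mπ2 : Measurable (fun q : (𝒰 × 𝒳) × 𝒰 => π q.1.2) :=
    h.mπ.comp (measurable_snd.comp measurable_fst)
  have e2 : ∫ q, twInd A q.2 * Ψ q.1 ∂((ν ⊗ₘ κ).map (fun q => (π q.2, q.1)))
      = ∫ u, rsm ν r (twInd A) u * g u ∂ν := by
    rw [h.ind]
    refine (two_imap _ (fun q : (𝒰 × 𝒳) × 𝒰 => (π q.1.2, r q.1.1 q.2))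
      (mπ2.prodMk mr2) _ mJ).trans ?_
    refine (two_iprod (ν ⊗ₘ κ) ν (fun q : (𝒰 × 𝒳) × 𝒰 => twInd A (r q.1.1 q.2) * Ψ (π q.1.2))
      ((hmA.comp mr2).mul (hΨ.comp mπ2)) (C := 1 * C)
      fun q => abs_mul_le_two (abs_twInd_le A _) (hb _)).trans ?_
    simp only [integral_mul_const]
    exact cp_int (h := rsm ν r (twInd A)) (measurable_rsm h.mr hmA) mΨπ
      (abs_rsm_le (abs_twInd_le A)) (fun x => hb _)
  have e3 : ∫ u, rsm ν r (twInd A) u * g u ∂ν
      = ∫ p, twInd A p.2 * g p.1 ∂((ν.prod ν).map (fun p => (p.1, r p.1 p.2))) := by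
    refine Eq.symm ((two_imap _ (fun p : 𝒰 × 𝒰 => (p.1, r p.1 p.2))
      (measurable_fst.prodMk h.mr) _
      ((hmA.comp measurable_snd).mul (mg.comp measurable_fst))).trans ?_)
    refine (two_iprod ν ν (fun q : 𝒰 × 𝒰 => twInd A (r q.1 q.2) * g q.1)
      ((hmA.comp h.mr).mul (mg.comp measurable_fst)) (C := 1 * C)
      fun q => abs_mul_le_two (abs_twInd_le A _) (bg _)).trans ?_
    simp only [integral_mul_const]
    rfl
  have e4 : ∫ p, twInd A p.2 * g p.1 ∂((ν.prod ν).map (fun p => (r p.1 p.2, p.1)))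
      = ∫ u, twInd A u * rsm ν r g u ∂ν := by
    refine (two_imap _ (fun p : 𝒰 × 𝒰 => (r p.1 p.2, p.1))
      (h.mr.prodMk measurable_fst) _
      ((hmA.comp measurable_snd).mul (mg.comp measurable_fst))).trans ?_
    refine (two_iprod ν ν (fun q : 𝒰 × 𝒰 => twInd A q.1 * g (r q.1 q.2))
      ((hmA.comp measurable_fst).mul (mg.comp h.mr)) (C := 1 * C)
      fun q => abs_mul_le_two (abs_twInd_le A _) (bg _)).trans ?_
    simp only [integral_const_mul]
    rfl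
  rw [e1, e2, e3, h.exch, e4]

theorem rsm_mk {ν : Measure 𝒰} {κ : Kernel 𝒰 𝒳}
    {π : 𝒳 → 𝒴} {mk : 𝒰 → 𝒰} {r : 𝒰 → 𝒰 → 𝒰} (h : PastStr ν κ π mk r) (g : 𝒰 → ℝ) (u : 𝒰) :
    rsm ν r g (mk u) = rsm ν r g u := by
  unfold rsm
  simp only [h.rmk]

/-- the two-copy martingale principle -/
theorem tw_past {ν : Measure 𝒰} [IsProbabilityMeasure ν] {κ : Kernel 𝒰 𝒳} [IsMarkovKernel κ]
    {π : 𝒳 → 𝒴} {mk : 𝒰 → 𝒰} {r : 𝒰 → 𝒰 → 𝒰} (h : PastStr ν κ π mk r)
    {F : 𝒳 → ℝ} (hF : Measurable F) {F' : 𝒴 → ℝ} (hF' : Measurable F') {C : ℝ}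
    (hC : ∀ x, |F x| ≤ C) (hC' : ∀ y, |F' y| ≤ C)
    (hpost : ∀ Ψ : 𝒴 → ℝ, Measurable Ψ → (∃ C, ∀ y, |Ψ y| ≤ C) →
      ∫ q, F q.2 * Ψ (π q.2) ∂(ν ⊗ₘ κ) = ∫ q, F' (π q.2) * Ψ (π q.2) ∂(ν ⊗ₘ κ))
    {Ψ Ψ' : 𝒴 → ℝ} (hΨ : Measurable Ψ) (hΨ' : Measurable Ψ') (hb : ∃ C, ∀ y, |Ψ y| ≤ C)
    (hb' : ∃ C, ∀ y, |Ψ' y| ≤ C) :
    ∫ q, F q.2.1 * (Ψ (π q.2.1) * Ψ' (π q.2.2)) ∂(tw ν κ)
      = ∫ q, F' (π q.2.1) * (Ψ (π q.2.1) * Ψ' (π q.2.2)) ∂(tw ν κ) := by
  obtain ⟨K, hK⟩ := hb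
  obtain ⟨K', hK'⟩ := hb'
  obtain ⟨γ, mγ, hγ⟩ := h.fac
  have mπ := h.mπ
  set g : 𝒰 → ℝ := fun u => ∫ x, Ψ' (π x) ∂κ u with hg
  have mg : Measurable g := two_meas_kint κ (hΨ'.comp mπ)
  have bg : ∀ u, |g u| ≤ K' := fun u => two_abs_integral_le _ fun x => hK' _
  have mR := measurable_rsm h.mr (ν := ν) mg
  have bR := abs_rsm_le (ν := ν) (r := r) bg
  -- `g q.1 = Θ (π q.2)` almost surely
  have hae : ∀ᵐ q ∂(ν ⊗ₘ κ), g q.1 = rsm ν r g (γ (π q.2)) := by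
    have h1 : ∀ᵐ q ∂(ν ⊗ₘ κ), g q.1 = rsm ν r g q.1 :=
      Measure.ae_compProd_of_ae_fst κ (measurableSet_eq_fun mg mR) (past_key h hΨ' hK')
    filter_upwards [h1, hγ] with q h2 h3
    rw [h2, ← h3, rsm_mk h]
  have gen : ∀ F₀ : 𝒳 → ℝ, Measurable F₀ → (∀ x, |F₀ x| ≤ C) →
      ∫ q, F₀ q.2.1 * (Ψ (π q.2.1) * Ψ' (π q.2.2)) ∂(tw ν κ)
        = ∫ q, F₀ q.2 * (Ψ (π q.2) * rsm ν r g (γ (π q.2))) ∂(ν ⊗ₘ κ) := by
    intro F₀ hF₀ hC₀
    have e := tw_int' (ν := ν) (κ := κ) (f := fun x => F₀ x * Ψ (π x)) (g := fun x => Ψ' (π x))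
      (hF₀.mul (hΨ.comp mπ)) (hΨ'.comp mπ)
      (fun x => abs_mul_le_two (hC₀ x) (hK _)) (fun x => hK' _)
    rw [show (fun q : 𝒰 × 𝒳 × 𝒳 => F₀ q.2.1 * (Ψ (π q.2.1) * Ψ' (π q.2.2)))
      = fun q : 𝒰 × 𝒳 × 𝒳 => F₀ q.2.1 * Ψ (π q.2.1) * Ψ' (π q.2.2) by funext q; ring, e]
    refine integral_congr_ae ?_
    filter_upwards [hae] with q hq
    rw [← hq]
    simp only [hg]
    ring
  rw [gen F hF hC, gen (fun x => F' (π x)) (hF'.comp mπ) (fun x => hC' _)]
  have := hpost (fun y => Ψ y * rsm ν r g (γ y)) (hΨ.mul (mR.comp mγ))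
    ⟨K * K', fun y => abs_mul_le_two (hK y) (bR _)⟩
  exact this

/-- the law of the two pasts only depends on the law of (past observations, past innovations) -/
theorem tw_past_law {ν : Measure 𝒰} [IsProbabilityMeasure ν] {κ₁ κ₂ : Kernel 𝒰 𝒳}
    [IsMarkovKernel κ₁] [IsMarkovKernel κ₂] {π : 𝒳 → 𝒴} {mk : 𝒰 → 𝒰} {r : 𝒰 → 𝒰 → 𝒰}
    (h₁ : PastStr ν κ₁ π mk r) (h₂ : PastStr ν κ₂ π mk r)
    (heq : (ν ⊗ₘ κ₁).map (fun q => (π q.2, mk q.1)) = (ν ⊗ₘ κ₂).map (fun q => (π q.2, mk q.1))) :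
    (tw ν κ₁).map (fun q => (π q.2.1, π q.2.2)) = (tw ν κ₂).map (fun q => (π q.2.1, π q.2.2)) := by
  have mπ := h₁.mπ
  have mmk := h₁.mmk
  have mpp : Measurable (fun q : 𝒰 × 𝒳 × 𝒳 => (π q.2.1, π q.2.2)) :=
    (mπ.comp (measurable_fst.comp measurable_snd)).prodMk
      (mπ.comp (measurable_snd.comp measurable_snd))
  have i1 := Measure.isProbabilityMeasure_map (μ := tw ν κ₁) mpp.aemeasurable
  have i2 := Measure.isProbabilityMeasure_map (μ := tw ν κ₂) mpp.aemeasurable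
  refine Measure.ext_prod fun {A B} hA hB => ?_
  rw [rect2 _ hA hB, rect2 _ hA hB]
  congr 1
  have hmA := measurable_twInd hA
  have hmB := measurable_twInd hB
  have mAB : Measurable (fun q : 𝒴 × 𝒴 => twInd A q.1 * twInd B q.2) :=
    (hmA.comp measurable_fst).mul (hmB.comp measurable_snd)
  rw [integral_map mpp.aemeasurable mAB.aestronglyMeasurable,
    integral_map mpp.aemeasurable mAB.aestronglyMeasurable]
  simp only
  -- the conditional expectations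
  set g : Kernel 𝒰 𝒳 → 𝒰 → ℝ := fun κ u => ∫ x, twInd B (π x) ∂κ u with hg
  have mg : ∀ (κ : Kernel 𝒰 𝒳) [IsMarkovKernel κ], Measurable (g κ) := fun κ _ =>
    two_meas_kint κ (hmB.comp mπ)
  have bg : ∀ (κ : Kernel 𝒰 𝒳) [IsMarkovKernel κ] (u : 𝒰), |g κ u| ≤ 1 := fun κ _ u =>
    two_abs_integral_le _ fun x => abs_twInd_le B _
  have mm : Measurable (fun q : 𝒰 × 𝒳 => (π q.2, mk q.1)) :=
    (mπ.comp measurable_snd).prodMk (mmk.comp measurable_fst)
  -- reduction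
  have red : ∀ (κ : Kernel 𝒰 𝒳) [IsMarkovKernel κ] (_ : PastStr ν κ π mk r) (Ψ : 𝒴 → ℝ)
      (_ : Measurable Ψ) (_ : ∀ y, |Ψ y| ≤ 1),
      ∫ q, Ψ (π q.2.1) * twInd B (π q.2.2) ∂(tw ν κ)
        = ∫ q, Ψ q.1 * rsm ν r (g κ) q.2 ∂((ν ⊗ₘ κ).map (fun q => (π q.2, mk q.1))) := by
    intro κ _ hκ Ψ hΨ bΨ
    have mR := measurable_rsm hκ.mr (ν := ν) (mg κ)
    rw [two_imap _ (fun q : 𝒰 × 𝒳 => (π q.2, mk q.1)) mm
      (fun q : 𝒴 × 𝒰 => Ψ q.1 * rsm ν r (g κ) q.2)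
      ((hΨ.comp measurable_fst).mul (mR.comp measurable_snd))]
    have e := tw_int' (ν := ν) (κ := κ) (f := fun x => Ψ (π x)) (g := fun x => twInd B (π x))
      (hΨ.comp mπ) (hmB.comp mπ) (fun x => bΨ _) (fun x => abs_twInd_le B _)
    rw [e]
    refine integral_congr_ae ?_
    have h1 : ∀ᵐ q ∂(ν ⊗ₘ κ), g κ q.1 = rsm ν r (g κ) q.1 :=
      Measure.ae_compProd_of_ae_fst κ (measurableSet_eq_fun (mg κ) mR)
        (past_key hκ hmB (abs_twInd_le B))
    filter_upwards [h1] with q h2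
    rw [rsm_mk hκ, ← h2]
    simp only [hg]
    ring
  rw [red κ₁ h₁ (twInd A) hmA (abs_twInd_le A), red κ₂ h₂ (twInd A) hmA (abs_twInd_le A), ← heq]
  -- the two conditional expectations agree
  set R₁ := rsm ν r (g κ₁) with hR₁
  set R₂ := rsm ν r (g κ₂) with hR₂
  have mR₁ : Measurable R₁ := measurable_rsm h₁.mr (mg κ₁)
  have mR₂ : Measurable R₂ := measurable_rsm h₂.mr (mg κ₂)
  have bR₁ : ∀ u, |R₁ u| ≤ 1 := abs_rsm_le (bg κ₁)
  have bR₂ : ∀ u, |R₂ u| ≤ 1 := abs_rsm_le (bg κ₂)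
  -- test identity
  have test : ∀ (κ : Kernel 𝒰 𝒳) [IsMarkovKernel κ] (_ : PastStr ν κ π mk r) (k : 𝒰 → ℝ)
      (_ : Measurable k) (_ : ∀ u, |k u| ≤ 2),
      ∫ q, k q.2 * twInd B q.1 ∂((ν ⊗ₘ κ).map (fun q => (π q.2, mk q.1)))
        = ∫ u, k (mk u) * rsm ν r (g κ) (mk u) ∂ν := by
    intro κ _ hκ k hk bk
    rw [two_imap _ (fun q : 𝒰 × 𝒳 => (π q.2, mk q.1)) mm
      (fun q : 𝒴 × 𝒰 => k q.2 * twInd B q.1)
      ((hk.comp measurable_snd).mul (hmB.comp measurable_fst))]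
    have e := cp_int (ν := ν) (κ := κ) (h := fun u => k (mk u)) (f := fun x => twInd B (π x))
      (hk.comp mmk) (hmB.comp mπ) (fun u => bk _) (fun x => abs_twInd_le B _)
    rw [e]
    refine integral_congr_ae ?_
    filter_upwards [past_key hκ hmB (abs_twInd_le B)] with u hu
    rw [rsm_mk hκ]
    simp only [hg]
    rw [← hu]
  have bk : ∀ u, |R₁ u - R₂ u| ≤ 2 := fun u => by
    have := abs_sub (R₁ u) (R₂ u)
    linarith [bR₁ u, bR₂ u]
  have t1 := test κ₁ h₁ (fun u => R₁ u - R₂ u) (mR₁.sub mR₂) bk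
  have t2 := test κ₂ h₂ (fun u => R₁ u - R₂ u) (mR₁.sub mR₂) bk
  rw [← heq, t1] at t2
  have hint : ∀ R : 𝒰 → ℝ, Measurable R → (∀ u, |R u| ≤ 1) →
      Integrable (fun u => (R₁ (mk u) - R₂ (mk u)) * R (mk u)) ν := fun R mR bR =>
    two_integ _ ((((mR₁.sub mR₂).mul mR)).comp mmk) (C := 2 * 1)
      (fun u => abs_mul_le_two (bk _) (bR _))
  have hsq : ∫ u, (R₁ (mk u) - R₂ (mk u)) ^ 2 ∂ν = 0 := by
    have : (fun u => (R₁ (mk u) - R₂ (mk u)) ^ 2)
        = fun u => (R₁ (mk u) - R₂ (mk u)) * R₁ (mk u) - (R₁ (mk u) - R₂ (mk u)) * R₂ (mk u) := by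
      funext u; ring
    rw [this, integral_sub (hint R₁ mR₁ bR₁) (hint R₂ mR₂ bR₂), t2, sub_self]
  have hae : ∀ᵐ u ∂ν, R₁ (mk u) = R₂ (mk u) := by
    have hi : Integrable (fun u => (R₁ (mk u) - R₂ (mk u)) ^ 2) ν :=
      two_integ _ (((mR₁.sub mR₂).comp mmk).pow_const 2) (C := 2 ^ 2) (fun u => by
        rw [abs_pow]; exact pow_le_pow_left₀ (abs_nonneg _) (bk _) 2)
    rw [integral_eq_zero_iff_of_nonneg (fun u => sq_nonneg _) hi] at hsq
    filter_upwards [hsq] with u hu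
    have h5 : (R₁ (mk u) - R₂ (mk u)) ^ 2 = 0 := hu
    have := pow_eq_zero_iff (two_ne_zero) |>.1 h5
    linarith
  have hae2 : ∀ᵐ q ∂(ν ⊗ₘ κ₁), R₁ (mk q.1) = R₂ (mk q.1) :=
    Measure.ae_compProd_of_ae_fst κ₁ (measurableSet_eq_fun (mR₁.comp mmk) (mR₂.comp mmk)) hae
  rw [two_imap _ (fun q : 𝒰 × 𝒳 => (π q.2, mk q.1)) mm
      (fun q : 𝒴 × 𝒰 => twInd A q.1 * R₁ q.2)
      ((hmA.comp measurable_fst).mul (mR₁.comp measurable_snd)),
    two_imap _ (fun q : 𝒰 × 𝒳 => (π q.2, mk q.1)) mm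
      (fun q : 𝒴 × 𝒰 => twInd A q.1 * R₂ q.2)
      ((hmA.comp measurable_fst).mul (mR₂.comp measurable_snd))]
  refine integral_congr_ae ?_
  filter_upwards [hae2] with q hq
  rw [hq]

/-- transport -/
theorem tw_map {ν : Measure 𝒰} [IsProbabilityMeasure ν] {κ₁ κ₂ : Kernel 𝒰 𝒳}
    [IsMarkovKernel κ₁] [IsMarkovKernel κ₂] (φ : 𝒰 ≃ᵐ 𝒰) (ψ : 𝒳 → 𝒳) (hψ : Measurable ψ)
    (heq : (ν ⊗ₘ κ₁).map (fun q => (φ q.1, ψ q.2)) = ν ⊗ₘ κ₂) :
    (tw ν κ₁).map (fun q => (φ q.1, ψ q.2.1, ψ q.2.2)) = tw ν κ₂ := by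
  have mφψ : Measurable (fun q : 𝒰 × 𝒳 => (φ q.1, ψ q.2)) :=
    (φ.measurable.comp measurable_fst).prodMk (hψ.comp measurable_snd)
  have mφψ2 : Measurable (fun q : 𝒰 × 𝒳 × 𝒳 => (φ q.1, ψ q.2.1, ψ q.2.2)) :=
    (φ.measurable.comp measurable_fst).prodMk ((hψ.comp (measurable_fst.comp measurable_snd)).prodMk
      (hψ.comp (measurable_snd.comp measurable_snd)))
  -- `φ` preserves `ν`
  have hν : ν.map φ = ν := by
    have := congrArg (fun m => m.map Prod.fst) heq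
    rw [Measure.map_map measurable_fst mφψ] at this
    have h2 : (ν ⊗ₘ κ₂).map Prod.fst = ν := Measure.fst_compProd ν κ₂
    have h3 : (ν ⊗ₘ κ₁).map Prod.fst = ν := Measure.fst_compProd ν κ₁
    rw [h2] at this
    have h4 : (Prod.fst ∘ fun q : 𝒰 × 𝒳 => (φ q.1, ψ q.2)) = φ ∘ Prod.fst := rfl
    rw [h4, ← Measure.map_map φ.measurable measurable_fst, h3] at this
    exact this
  -- integrals are preserved
  have hνi : ∀ f : 𝒰 → ℝ, ∫ u, f (φ u) ∂ν = ∫ u, f u ∂ν := by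
    intro f
    conv_rhs => rw [← hν]
    rw [integral_map_equiv]
  -- conditional probabilities
  have key : ∀ B : Set 𝒳, MeasurableSet B →
      (fun u => ∫ x, twInd B (ψ x) ∂κ₁ u) =ᵐ[ν] fun u => ∫ x, twInd B x ∂κ₂ (φ u) := by
    intro B hB
    have hmB := measurable_twInd hB
    have m1 : Measurable (fun u => ∫ x, twInd B (ψ x) ∂κ₁ u) := two_meas_kint κ₁ (hmB.comp hψ)
    have m2 : Measurable (fun u => ∫ x, twInd B x ∂κ₂ u) := two_meas_kint κ₂ hmB
    have b1 : ∀ u, |∫ x, twInd B (ψ x) ∂κ₁ u| ≤ 1 := fun u =>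
      two_abs_integral_le _ fun x => abs_twInd_le B _
    have b2 : ∀ u, |∫ x, twInd B x ∂κ₂ u| ≤ 1 := fun u =>
      two_abs_integral_le _ fun x => abs_twInd_le B _
    refine Integrable.ae_eq_of_forall_setIntegral_eq _ _ (two_integ _ m1 b1)
      (two_integ _ (m2.comp φ.measurable) (fun u => b2 _)) fun A hA _ => ?_
    have conv : ∀ f : 𝒰 → ℝ, ∫ u in A, f u ∂ν = ∫ u, twInd (φ.symm ⁻¹' A) (φ u) * f u ∂ν := by
      intro f
      rw [← integral_indicator hA]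
      congr 1
      funext u
      by_cases hu : u ∈ A <;> simp [twInd, hu]
    have hA' : MeasurableSet (φ.symm ⁻¹' A) := φ.symm.measurable hA
    have hmA' := measurable_twInd hA'
    rw [conv, conv]
    have e1 := cp_int (ν := ν) (κ := κ₁) (h := fun u => twInd (φ.symm ⁻¹' A) (φ u))
      (f := fun x => twInd B (ψ x)) (hmA'.comp φ.measurable) (hmB.comp hψ)
      (fun u => abs_twInd_le _ _) (fun x => abs_twInd_le B _)
    have e2 := cp_int (ν := ν) (κ := κ₂) (h := twInd (φ.symm ⁻¹' A)) (f := twInd B)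
      hmA' hmB (abs_twInd_le _) (abs_twInd_le B)
    have mAB : Measurable (fun q : 𝒰 × 𝒳 => twInd (φ.symm ⁻¹' A) q.1 * twInd B q.2) :=
      (hmA'.comp measurable_fst).mul (hmB.comp measurable_snd)
    rw [← e1]
    have e3 := integral_map (μ := ν ⊗ₘ κ₁) mφψ.aemeasurable
      (f := fun q : 𝒰 × 𝒳 => twInd (φ.symm ⁻¹' A) q.1 * twInd B q.2) mAB.aestronglyMeasurable
    simp only at e3
    rw [← e3, heq, e2, ← hνi]
  have i1 := Measure.isProbabilityMeasure_map (μ := tw ν κ₁) mφψ2.aemeasurable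
  refine Measure.ext_prod₃ fun {A B C} hA hB hC => ?_
  rw [rect3 _ hA hB hC, rect3 _ hA hB hC]
  congr 1
  have hmA := measurable_twInd hA
  have hmB := measurable_twInd hB
  have hmC := measurable_twInd hC
  have hmI : Measurable (fun q : 𝒰 × 𝒳 × 𝒳 => twInd A q.1 * (twInd B q.2.1 * twInd C q.2.2)) :=
    (hmA.comp measurable_fst).mul
      ((hmB.comp (measurable_fst.comp measurable_snd)).mul
        (hmC.comp (measurable_snd.comp measurable_snd)))
  rw [integral_map mφψ2.aemeasurable hmI.aestronglyMeasurable]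
  have e1 := tw_int (ν := ν) (κ := κ₁) (h := fun u => twInd A (φ u)) (f := fun x => twInd B (ψ x))
    (g := fun x => twInd C (ψ x)) (hmA.comp φ.measurable) (hmB.comp hψ) (hmC.comp hψ)
    (fun u => abs_twInd_le A _) (fun x => abs_twInd_le B _) (fun x => abs_twInd_le C _)
  have e2 := tw_int (ν := ν) (κ := κ₂) hmA hmB hmC (abs_twInd_le A) (abs_twInd_le B) (abs_twInd_le C)
  refine (e1.trans ?_).trans e2.symm
  rw [← hνi (fun u => twInd A u * ((∫ (x : 𝒳), twInd B x ∂κ₂ u) * ∫ (x : 𝒳), twInd C x ∂κ₂ u))]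
  refine integral_congr_ae ?_
  filter_upwards [key B hB, key C hC] with u hu hu'
  rw [hu, hu']

/-- if the two copies agree almost surely, the copy is a function of `𝒰` -/
theorem tw_diag {ν : Measure 𝒰} [IsProbabilityMeasure ν] {κ : Kernel 𝒰 𝒳} [IsMarkovKernel κ]
    {f : 𝒳 → Bool} (hf : Measurable f) (h : ∀ᵐ q ∂(tw ν κ), f q.2.1 = f q.2.2) :
    ∃ Φ : 𝒰 → Bool, Measurable Φ ∧ ∀ᵐ q ∂(ν ⊗ₘ κ), f q.2 = Φ q.1 := by
  classical
  have hT : MeasurableSet {x | f x = true} := hf (measurableSet_singleton true)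
  have hFs : MeasurableSet {x | f x = false} := hf (measurableSet_singleton false)
  have mT : Measurable (fun u => κ u {x | f x = true}) := κ.measurable_coe hT
  refine ⟨fun u => decide (κ u {x | f x = true} ≠ 0), ?_, ?_⟩
  · refine measurable_to_bool ?_
    have : (fun u => decide (κ u {x | f x = true} ≠ 0)) ⁻¹' {true}
        = {u | κ u {x | f x = true} = 0}ᶜ := by
      ext u
      simp
    rw [this]
    exact (mT (measurableSet_singleton 0)).compl
  · have h1 := Measure.ae_ae_of_ae_compProd h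
    refine Measure.ae_compProd_of_ae_ae ?_ ?_
    · refine measurableSet_eq_fun (hf.comp measurable_snd) ?_
      refine Measurable.comp (g := fun u => decide (κ u {x | f x = true} ≠ 0)) ?_ measurable_fst
      refine measurable_to_bool ?_
      have : (fun u => decide (κ u {x | f x = true} ≠ 0)) ⁻¹' {true}
          = {u | κ u {x | f x = true} = 0}ᶜ := by
        ext u
        simp
      rw [this]
      exact (mT (measurableSet_singleton 0)).compl
    · filter_upwards [h1] with u hu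
      rw [Kernel.prod_apply] at hu
      have hz : ((κ u).prod (κ u)) ({x | f x = true} ×ˢ {x | f x = false}) = 0 := by
        refine measure_mono_null ?_ hu
        rintro ⟨x, y⟩ ⟨hx, hy⟩
        simp only [Set.mem_ofPred_eq] at hx hy
        simp [hx, hy]
      rw [Measure.prod_prod, mul_eq_zero] at hz
      by_cases h0 : κ u {x | f x = true} = 0
      · have : ∀ᵐ x ∂κ u, ¬ (f x = true) := by
          rw [ae_iff]
          simpa using h0
        filter_upwards [this] with x hx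
        simp only [h0, ne_eq, not_true_eq_false, decide_false]
        simpa using hx
      · have h3 : κ u {x | f x = false} = 0 := by
          rcases hz with hz | hz
          · exact absurd hz h0
          · exact hz
        have : ∀ᵐ x ∂κ u, ¬ (f x = false) := by
          rw [ae_iff]
          simpa using h3
        filter_upwards [this] with x hx
        simp only [ne_eq, h0, not_false_eq_true, decide_true]
        simpa using hx

end Crest.Agent.FI
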