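import Mathlib
import Crest.Agent.FI.Defs
import Crest.Agent.FI.Innov
import Crest.Agent.FI.Post
import Crest.Agent.FI.Two

set_option autoImplicit false

namespace Crest.Agent.FI

open MeasureTheory ProbabilityTheory unitInterval Set Filter Topology
open scoped ENNReal

variable {V : Type*}

/-- spins and observations -/
abbrev XX (V : Type*) := (V → Bool) × (V × ℕ → I)

/-- law of (innovations, (spins, observations)), as a kernel of the labels -/
noncomputable def lawK (G : SimpleGraph V) [G.LocallyFinite] (θ : ℝ) (μ : Measure (V → Bool))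
    [IsProbabilityMeasure μ] : Kernel (V × ℕ → I) ((V × ℕ → I) × XX V) :=
  Kernel.map (Kernel.id ×ₖ Kernel.const (V × ℕ → I) (P1 μ))
    (fun p => (un G θ p.1 (zob (sts p.1) p.2), (p.2.1, zob (sts p.1) p.2)))

instance P1_prob (μ : Measure (V → Bool)) [IsProbabilityMeasure μ] : IsProbabilityMeasure (P1 μ) := by
  unfold P1 nz; infer_instance

instance nz_prob : IsProbabilityMeasure (nz V) := by
  unfold nz; infer_instance

instance lawK_fin (G : SimpleGraph V) [G.LocallyFinite] (θ : ℝ) (μ : Measure (V → Bool))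
    [IsProbabilityMeasure μ] : IsFiniteKernel (lawK G θ μ) := by
  unfold lawK; infer_instance

/-- conditional law of (spins, observations) given (labels, innovations) -/
noncomputable def ck [Countable V] (G : SimpleGraph V) [G.LocallyFinite] (θ : ℝ)
    (μ : Measure (V → Bool)) [IsProbabilityMeasure μ] :
    Kernel ((V × ℕ → I) × (V × ℕ → I)) (XX V) := (lawK G θ μ).condKernel

/-- ... for fixed labels -/
noncomputable def kT [Countable V] (G : SimpleGraph V) [G.LocallyFinite] (θ : ℝ)
    (μ : Measure (V → Bool)) [IsProbabilityMeasure μ] (T : V × ℕ → I) :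
    Kernel (V × ℕ → I) (XX V) := (ck G θ μ).comap (fun u => (T, u)) (by fun_prop)

/-- the two-copy kernel -/
noncomputable def twK [Countable V] (G : SimpleGraph V) [G.LocallyFinite] (θ : ℝ)
    (μ : Measure (V → Bool)) [IsProbabilityMeasure μ] :
    Kernel (V × ℕ → I) ((V × ℕ → I) × XX V × XX V) :=
  (Kernel.const (V × ℕ → I) (nz V)) ⊗ₖ (ck G θ μ ×ₖ ck G θ μ)

/-- the two-copy measure -/
noncomputable def P2 [Countable V] (G : SimpleGraph V) [G.LocallyFinite] (θ : ℝ)
    (μ : Measure (V → Bool)) [IsProbabilityMeasure μ] :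
    Measure ((V × ℕ → I) × ((V × ℕ → I) × XX V × XX V)) := (nz V) ⊗ₘ (twK G θ μ)

/-- events before vertex-dependent times in round `k` -/
def thrV (T : V × ℕ → I) (k : ℕ) (s : V → ℝ) : Set (V × ℕ) :=
  {i | i.2 < k ∨ (i.2 = k ∧ (T i : ℝ) < s i.1)}

/-- the pair of fields at time `(k, s)` -/
noncomputable def pairX (k : ℕ) (s : ℝ) (q : (V × ℕ → I) × ((V × ℕ → I) × XX V × XX V)) :
    (V → ℝ) × (V → ℝ) :=
  (xf (sts q.1) (k + 1) (thr q.1 k s) q.2.2.1.2, xf (sts q.1) (k + 1) (thr q.1 k s) q.2.2.2.2)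

/-- the state at time `(k, s)` -/
noncomputable def QQ [Countable V] (G : SimpleGraph V) [G.LocallyFinite] (θ : ℝ)
    (μ : Measure (V → Bool)) [IsProbabilityMeasure μ] (k : ℕ) (s : ℝ) :
    Measure ((V → ℝ) × (V → ℝ)) := (P2 G θ μ).map (pairX k s)

end Crest.Agent.FI
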