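import Mathlib
import Crest.Agent.FI.ProcDefs
import Crest.Agent.FI.Ising
import Crest.Agent.FI.Alg

set_option autoImplicit false

namespace Crest.Agent.FI

open MeasureTheory ProbabilityTheory unitInterval Set Filter Topology
open scoped ENNReal

variable {V : Type*} [Countable V] (G : SimpleGraph V) [G.LocallyFinite]

namespace PA

theorem measurable_zob_param : Measurable (fun p : (V × ℕ → I) × ((V → Bool) × (V × ℕ → I)) =>
    zob (sts p.1) p.2) := by
  refine measurable_pi_iff.2 fun j => ?_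
  unfold zob sts
  refine measurable_Qm.comp (Measurable.prodMk (Measurable.mul ?_ ?_) (by fun_prop))
  · exact Post.post_measurable_sg.comp (by fun_prop)
  · exact measurable_st.comp (by fun_prop)

theorem measurable_un_joint (θ : ℝ) :
    Measurable (fun p : (V × ℕ → I) × (V × ℕ → I) => un G θ p.1 p.2) :=
  measurable_pi_iff.2 fun j => measurable_un_param G θ j

theorem measurable_lawF (θ : ℝ) : Measurable (fun p : (V × ℕ → I) × ((V → Bool) × (V × ℕ → I)) =>
    (un G θ p.1 (zob (sts p.1) p.2), (p.2.1, zob (sts p.1) p.2))) := by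
  have h := measurable_zob_param (V := V)
  exact ((measurable_un_joint G θ).comp (measurable_fst.prodMk h)).prodMk
    (Measurable.prodMk (by fun_prop) h)

theorem measurable_lawF' (θ : ℝ) (T : V × ℕ → I) :
    Measurable (fun ω : (V → Bool) × (V × ℕ → I) =>
    (un G θ T (zob (sts T) ω), (ω.1, zob (sts T) ω))) :=
  ((measurable_un G θ T).comp (measurable_zob _)).prodMk
    (measurable_fst.prodMk (measurable_zob _))

theorem measurable_zobs (T : V × ℕ → I) :
    Measurable (fun ω : (V → Bool) × (V × ℕ → I) => (ω.1, zob (sts T) ω)) :=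
  measurable_fst.prodMk (measurable_zob _)

end PA

open PA

theorem lawK_apply (θ : ℝ) (μ : Measure (V → Bool)) [IsProbabilityMeasure μ] (T : V × ℕ → I) :
    lawK G θ μ T = law1 G θ μ T := by
  unfold lawK law1
  rw [Kernel.map_apply _ (measurable_lawF G θ), Kernel.prod_apply, Kernel.id_apply,
    Kernel.const_apply, Measure.dirac_prod, Measure.map_map (measurable_lawF G θ) (by fun_prop)]
  rfl

instance lawK_markov (θ : ℝ) (μ : Measure (V → Bool)) [IsProbabilityMeasure μ] :
    IsMarkovKernel (lawK G θ μ) := by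
  unfold lawK
  exact Kernel.IsMarkovKernel.map _ (measurable_lawF G θ)

theorem ae_injective : ∀ᵐ T ∂(nz V), Function.Injective T := by
  classical
  have h : ∀ i j : V × ℕ, i ≠ j → ∀ᵐ T ∂(nz V), T i ≠ T j := by
    intro i j hij
    have hm : Measurable (fun q : (V × ℕ → I) × I => Function.update q.1 i q.2) := by
      refine measurable_pi_iff.2 fun k => ?_
      by_cases h : k = i
      · subst h; simpa using measurable_snd
      · simp only [Function.update_of_ne h]; fun_prop
    rw [← iv_map_update_nz i]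
    have hS : MeasurableSet {T : V × ℕ → I | T i ≠ T j} :=
      (measurableSet_eq_fun (measurable_pi_apply i) (measurable_pi_apply j)).compl
    rw [ae_map_iff hm.aemeasurable hS]
    have hS2 : MeasurableSet {q : (V × ℕ → I) × I |
        Function.update q.1 i q.2 i ≠ Function.update q.1 i q.2 j} := hm hS
    rw [Measure.ae_prod_iff_ae_ae hS2]
    refine ae_of_all _ fun T => ?_
    simp only [Function.update_self, Function.update_of_ne hij.symm]
    have : ∀ᵐ u ∂(volume : Measure I), u ≠ T j := by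
      rw [ae_iff]
      simp
    exact this
  have h2 : ∀ᵐ T ∂(nz V), ∀ i j : V × ℕ, i ≠ j → T i ≠ T j := by
    rw [ae_all_iff]
    intro i
    rw [ae_all_iff]
    intro j
    by_cases hij : i = j
    · exact ae_of_all _ fun T h => absurd hij h
    · filter_upwards [h i j hij] with T hT _ using hT
  filter_upwards [h2] with T hT i j hij
  by_contra hne
  exact hT i j hne hij

theorem law1_eq (hT : G.IsTree) {θ : ℝ} (h0 : 0 ≤ θ) (h1 : θ < 1) {μ : Measure (V → Bool)}
    [IsProbabilityMeasure μ] (hμ : IsIsing G θ μ) (T : V × ℕ → I) (hinj : Function.Injective T) :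
    law1 G θ μ T = (nz V) ⊗ₘ (kT G θ μ T) := by
  have h2 : (lawK G θ μ).fst T = nz V := by
    rw [Kernel.fst_apply, lawK_apply]
    unfold law1
    rw [Measure.map_map measurable_fst (measurable_lawF' G θ T)]
    exact innov_unif G hT h0 h1 hμ T hinj
  have h3 := (lawK G θ μ).disintegrate (lawK G θ μ).condKernel
  rw [← lawK_apply]
  conv_lhs => rw [← h3]
  rw [Kernel.compProd_apply_eq_compProd_sectR, h2]
  rfl

theorem twK_apply (θ : ℝ) (μ : Measure (V → Bool)) [IsProbabilityMeasure μ] (T : V × ℕ → I) :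
    twK G θ μ T = tw (nz V) (kT G θ μ T) := by
  unfold twK tw
  have : IsMarkovKernel (ck G θ μ) := by unfold ck; infer_instance
  rw [Kernel.compProd_apply_eq_compProd_sectR, Kernel.const_apply]
  congr 1
  ext u : 1
  unfold kT
  rw [Kernel.sectR_apply, Kernel.prod_apply, Kernel.prod_apply, Kernel.comap_apply]

theorem initSeg_bef (T : V × ℕ → I) (j : V × ℕ) : InitSeg T (bef T j) :=
  fun _ hi _ hi' => iv_prec_trans hi' hi

theorem initSeg_thr (T : V × ℕ → I) (k : ℕ) (s : ℝ) : InitSeg T (thr T k s) := by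
  intro i hi i' hi'
  have hi0 : i.2 < k ∨ (i.2 = k ∧ (T i : ℝ) < s) := hi
  show i'.2 < k ∨ (i'.2 = k ∧ (T i' : ℝ) < s)
  rcases hi' with h | ⟨h, h'⟩
  · left
    rcases hi0 with h2 | ⟨h2, _⟩ <;> omega
  · rcases hi0 with h2 | ⟨h2, h3⟩
    · left; omega
    · right
      refine ⟨by omega, lt_trans ?_ h3⟩
      exact_mod_cast h'

theorem initSeg_insert (T : V × ℕ → I) (j : V × ℕ) : InitSeg T (insert j (bef T j)) := by
  intro i hi i' hi'
  rcases hi with rfl | hi
  · exact Or.inr hi'
  · exact Or.inr (iv_prec_trans hi' hi)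

namespace PA

/-- exchangeability of resampling -/
theorem exch_nz (M : Set (V × ℕ)) :
    ((nz V).prod (nz V)).map (fun p => (p.1, res M p.1 p.2))
      = ((nz V).prod (nz V)).map (fun p => (res M p.1 p.2, p.1)) := by
  classical
  have hmr := iv_measurable_res (V := V) M
  have hm1 : Measurable (fun p : (V × ℕ → I) × (V × ℕ → I) => (p.1, res M p.1 p.2)) :=
    measurable_fst.prodMk hmr
  have hm2 : Measurable (fun p : (V × ℕ → I) × (V × ℕ → I) => (res M p.1 p.2, p.1)) :=
    hmr.prodMk measurable_fst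
  -- probability of a box
  have key : ∀ (s : Finset (V × ℕ)) (A D : V × ℕ → Set I), (∀ i, MeasurableSet (A i)) →
      (∀ i, MeasurableSet (D i)) →
      ((nz V).prod (nz V)) {p | (∀ i ∈ s, p.1 i ∈ A i) ∧ ∀ i ∈ s, res M p.1 p.2 i ∈ D i}
        = (∏ i ∈ s.filter (fun i => i ∈ M), (volume : Measure I) (A i ∩ D i))
          * ∏ i ∈ s.filter (fun i => i ∉ M), (volume (A i) * volume (D i)) := by
    intro s A D hA hD
    set A' : V × ℕ → Set I := fun i => if i ∈ M then A i ∩ D i else A i with hA'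
    have hA'm : ∀ i, MeasurableSet (A' i) := by
      intro i
      simp only [hA']
      split_ifs
      · exact (hA i).inter (hD i)
      · exact hA i
    have hset : {p : (V × ℕ → I) × (V × ℕ → I) | (∀ i ∈ s, p.1 i ∈ A i) ∧
          ∀ i ∈ s, res M p.1 p.2 i ∈ D i}
        = ((s : Set (V × ℕ)).pi A') ×ˢ (((s.filter (fun i => i ∉ M) : Finset (V × ℕ)) :
            Set (V × ℕ)).pi D) := by
      ext p
      simp only [mem_ofPred_eq, mem_prod, Set.mem_pi, Finset.mem_coe, Finset.mem_filter]
      constructor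
      · rintro ⟨a1, a2⟩
        refine ⟨fun i hi => ?_, fun i hi => ?_⟩
        · simp only [hA']
          split_ifs with hM
          · refine ⟨a1 i hi, ?_⟩
            have := a2 i hi
            unfold res at this
            rwa [if_pos hM] at this
          · exact a1 i hi
        · have := a2 i hi.1
          unfold res at this
          rwa [if_neg hi.2] at this
      · rintro ⟨a1, a2⟩
        refine ⟨fun i hi => ?_, fun i hi => ?_⟩
        · have := a1 i hi
          simp only [hA'] at this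
          split_ifs at this with hM
          · exact this.1
          · exact this
        · unfold res
          split_ifs with hM
          · have := a1 i hi
            simp only [hA'] at this
            rw [if_pos hM] at this
            exact this.2
          · exact a2 i ⟨hi, hM⟩
    rw [hset, Measure.prod_prod]
    unfold nz
    rw [Measure.infinitePi_pi _ (fun i _ => hA'm i), Measure.infinitePi_pi _ (fun i _ => hD i),
      ← Finset.prod_filter_mul_prod_filter_not s (fun i => i ∈ M) (fun i => volume (A' i)),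
      Finset.prod_mul_distrib, mul_assoc]
    congr 1
    · refine Finset.prod_congr rfl fun i hi => ?_
      simp only [hA']
      rw [if_pos (Finset.mem_filter.1 hi).2]
    · congr 1
      refine Finset.prod_congr rfl fun i hi => ?_
      simp only [hA']
      rw [if_neg (Finset.mem_filter.1 hi).2]
  have : IsProbabilityMeasure (nz V) := iv_nz_prob
  have hfin : IsFiniteMeasure (((nz V).prod (nz V)).map (fun p => (p.1, res M p.1 p.2))) :=
    Measure.isFiniteMeasure_map _ _
  set Cy : Set (Set (V × ℕ → I)) := squareCylinders (fun _ => {s : Set I | MeasurableSet s}) with hCy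
  have hgen : MeasurableSpace.generateFrom Cy = MeasurableSpace.pi := generateFrom_squareCylinders
  have hpi : IsPiSystem Cy :=
    isPiSystem_squareCylinders (fun _ ↦ MeasurableSpace.isPiSystem_measurableSet) (by simp)
  have hspan : IsCountablySpanning Cy := by
    refine ⟨fun _ => univ, fun _ => ?_, iUnion_const univ⟩
    refine ⟨∅, fun _ => univ, by simp, by simp⟩
  refine ext_of_generate_finite _ (generateFrom_eq_prod hgen hgen hspan hspan).symm
    (hpi.prod hpi) ?_ ?_
  · rintro _ ⟨B, ⟨s, A, hA, rfl⟩, C, ⟨t, D, hD, rfl⟩, rfl⟩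
    have hA0 : ∀ i, MeasurableSet (A i) := fun i => hA i (mem_univ i)
    have hD0 : ∀ i, MeasurableSet (D i) := fun i => hD i (mem_univ i)
    have hBm : MeasurableSet ((s : Set (V × ℕ)).pi A) :=
      MeasurableSet.pi s.countable_toSet fun i _ => hA0 i
    have hCm : MeasurableSet ((t : Set (V × ℕ)).pi D) :=
      MeasurableSet.pi t.countable_toSet fun i _ => hD0 i
    rw [Measure.map_apply hm1 (hBm.prod hCm), Measure.map_apply hm2 (hBm.prod hCm)]
    -- enlarge
    set A1 : V × ℕ → Set I := fun i => if i ∈ s then A i else univ with hA1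
    set D1 : V × ℕ → Set I := fun i => if i ∈ t then D i else univ with hD1
    have hA1m : ∀ i, MeasurableSet (A1 i) := by
      intro i; simp only [hA1]; split_ifs; exacts [hA0 i, MeasurableSet.univ]
    have hD1m : ∀ i, MeasurableSet (D1 i) := by
      intro i; simp only [hD1]; split_ifs; exacts [hD0 i, MeasurableSet.univ]
    have eA : ∀ u : V × ℕ → I, u ∈ (s : Set (V × ℕ)).pi A ↔ ∀ i ∈ s ∪ t, u i ∈ A1 i := by
      intro u
      simp only [Set.mem_pi, Finset.mem_coe, Finset.mem_union, hA1]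
      constructor
      · intro h i _
        split_ifs with hi
        · exact h i hi
        · exact mem_univ _
      · intro h i hi
        have := h i (Or.inl hi)
        rwa [if_pos hi] at this
    have eD : ∀ u : V × ℕ → I, u ∈ (t : Set (V × ℕ)).pi D ↔ ∀ i ∈ s ∪ t, u i ∈ D1 i := by
      intro u
      simp only [Set.mem_pi, Finset.mem_coe, Finset.mem_union, hD1]
      constructor
      · intro h i _
        split_ifs with hi
        · exact h i hi
        · exact mem_univ _
      · intro h i hi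
        have := h i (Or.inr hi)
        rwa [if_pos hi] at this
    have s1 : (fun p : (V × ℕ → I) × (V × ℕ → I) => (p.1, res M p.1 p.2)) ⁻¹'
          ((s : Set (V × ℕ)).pi A ×ˢ (t : Set (V × ℕ)).pi D)
        = {p | (∀ i ∈ s ∪ t, p.1 i ∈ A1 i) ∧ ∀ i ∈ s ∪ t, res M p.1 p.2 i ∈ D1 i} := by
      ext p
      simp only [mem_preimage, mem_prod, eA, eD, mem_ofPred_eq]
    have s2 : (fun p : (V × ℕ → I) × (V × ℕ → I) => (res M p.1 p.2, p.1)) ⁻¹'
          ((s : Set (V × ℕ)).pi A ×ˢ (t : Set (V × ℕ)).pi D)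
        = {p | (∀ i ∈ s ∪ t, p.1 i ∈ D1 i) ∧ ∀ i ∈ s ∪ t, res M p.1 p.2 i ∈ A1 i} := by
      ext p
      simp only [mem_preimage, mem_prod, eA, eD, mem_ofPred_eq]
      tauto
    rw [s1, s2, key _ _ _ hA1m hD1m, key _ _ _ hD1m hA1m]
    congr 1
    · refine Finset.prod_congr rfl fun i _ => ?_
      rw [inter_comm]
    · refine Finset.prod_congr rfl fun i _ => ?_
      rw [mul_comm]
  · rw [Measure.map_apply hm1 MeasurableSet.univ, Measure.map_apply hm2 MeasurableSet.univ,
      preimage_univ, preimage_univ]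

end PA

/-- past structure of the two-copy construction -/
theorem pastStr (hT : G.IsTree) {θ : ℝ} (h0 : 0 ≤ θ) (h1 : θ < 1) {μ : Measure (V → Bool)}
    [IsProbabilityMeasure μ] (hμ : IsIsing G θ μ) (T : V × ℕ → I) (hinj : Function.Injective T)
    (M : Set (V × ℕ)) (hM : InitSeg T M) :
    PastStr (nz V) (kT G θ μ T) (fun x : XX V => mask M x.2) (mask M) (res M) where
  mπ := (measurable_mask M).comp measurable_snd
  mmk := measurable_mask M
  mr := iv_measurable_res M
  rmk := by
    intro u u'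
    funext j
    unfold res mask
    by_cases hj : j ∈ M
    · simp [hj]
    · simp [hj]
  exch := exch_nz M
  fac := by
    refine ⟨fun z => mask M (un G θ T z), (measurable_mask M).comp (measurable_un G θ T), ?_⟩
    rw [← law1_eq G hT h0 h1 hμ T hinj]
    unfold law1
    have hm := measurable_lawF' G θ T
    have hS : MeasurableSet {q : (V × ℕ → I) × ((V → Bool) × (V × ℕ → I)) |
        mask M q.1 = mask M (un G θ T (mask M q.2.2))} := by
      refine measurableSet_eq_fun ((measurable_mask M).comp measurable_fst) ?_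
      exact (measurable_mask M).comp ((measurable_un G θ T).comp
        ((measurable_mask M).comp (measurable_snd.comp measurable_snd)))
    rw [ae_map_iff hm.aemeasurable hS]
    refine ae_of_all _ fun ω => ?_
    funext j
    unfold mask
    by_cases hj : j ∈ M
    · rw [if_pos hj, if_pos hj]
      exact (un_mask G θ hM (zob (sts T) ω) hj).symm
    · rw [if_neg hj, if_neg hj]
  ind := by
    have h := innov_law G hT h0 h1 hμ T hinj M hM
    have hm := measurable_lawF' G θ T
    rw [← law1_eq G hT h0 h1 hμ T hinj]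
    unfold law1
    have hm1 : Measurable (fun q : (V × ℕ → I) × ((V → Bool) × (V × ℕ → I)) =>
        (mask M q.2.2, q.1)) :=
      ((measurable_mask M).comp (measurable_snd.comp measurable_snd)).prodMk measurable_fst
    have hm2 : Measurable (fun q : ((V × ℕ → I) × ((V → Bool) × (V × ℕ → I))) × (V × ℕ → I) =>
        (mask M q.1.2.2, res M q.1.1 q.2)) :=
      ((measurable_mask M).comp (measurable_snd.comp (measurable_snd.comp measurable_fst))).prodMk
        ((iv_measurable_res M).comp ((measurable_fst.comp measurable_fst).prodMk measurable_snd))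
    rw [Measure.map_map hm1 hm]
    have e1 : ((P1 μ).map (fun ω => (un G θ T (zob (sts T) ω), (ω.1, zob (sts T) ω)))).prod (nz V)
        = ((P1 μ).prod (nz V)).map (fun q =>
            ((un G θ T (zob (sts T) q.1), (q.1.1, zob (sts T) q.1)), q.2)) := by
      have h4 := Measure.map_prod_map (P1 μ) (nz V) hm measurable_id
      rw [Measure.map_id] at h4
      rw [h4]
      rfl
    have hm3 : Measurable (fun q : ((V → Bool) × (V × ℕ → I)) × (V × ℕ → I) =>
            ((un G θ T (zob (sts T) q.1), (q.1.1, zob (sts T) q.1)), q.2)) :=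
      (hm.comp measurable_fst).prodMk measurable_snd
    rw [e1, Measure.map_map hm2 hm3]
    exact h

namespace PA

theorem kT_markov' (θ : ℝ) (μ : Measure (V → Bool)) [IsProbabilityMeasure μ] (T : V × ℕ → I) :
    IsMarkovKernel (kT G θ μ T) := by
  unfold kT ck; infer_instance

instance kT_markov (θ : ℝ) (μ : Measure (V → Bool)) [IsProbabilityMeasure μ] (T : V × ℕ → I) :
    IsMarkovKernel (kT G θ μ T) := kT_markov' G θ μ T

theorem twK_fst (hT : G.IsTree) {θ : ℝ} (h0 : 0 ≤ θ) (h1 : θ < 1) {μ : Measure (V → Bool)}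
    [IsProbabilityMeasure μ] (hμ : IsIsing G θ μ) (T : V × ℕ → I) (hinj : Function.Injective T) :
    (twK G θ μ T).map (fun q => (q.1, q.2.1)) = law1 G θ μ T := by
  rw [twK_apply, law1_eq G hT h0 h1 hμ T hinj, tw_fst]

theorem twK_snd (hT : G.IsTree) {θ : ℝ} (h0 : 0 ≤ θ) (h1 : θ < 1) {μ : Measure (V → Bool)}
    [IsProbabilityMeasure μ] (hμ : IsIsing G θ μ) (T : V × ℕ → I) (hinj : Function.Injective T) :
    (twK G θ μ T).map (fun q => (q.1, q.2.2)) = law1 G θ μ T := by
  rw [twK_apply, law1_eq G hT h0 h1 hμ T hinj, tw_snd]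

end PA

/-- marginals of the two-copy measure -/
theorem tw_marg1 (hT : G.IsTree) {θ : ℝ} (h0 : 0 ≤ θ) (h1 : θ < 1) {μ : Measure (V → Bool)}
    [IsProbabilityMeasure μ] (hμ : IsIsing G θ μ) (T : V × ℕ → I) (hinj : Function.Injective T) :
    (twK G θ μ T).map (fun q => q.2.1) = (P1 μ).map (fun ω => (ω.1, zob (sts T) ω)) := by
  have h := congrArg (fun m => m.map Prod.snd) (twK_fst G hT h0 h1 hμ T hinj)
  unfold law1 at h
  rw [Measure.map_map measurable_snd (by fun_prop),
    Measure.map_map measurable_snd (measurable_lawF' G θ T)] at h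
  exact h

theorem tw_marg2 (hT : G.IsTree) {θ : ℝ} (h0 : 0 ≤ θ) (h1 : θ < 1) {μ : Measure (V → Bool)}
    [IsProbabilityMeasure μ] (hμ : IsIsing G θ μ) (T : V × ℕ → I) (hinj : Function.Injective T) :
    (twK G θ μ T).map (fun q => q.2.2) = (P1 μ).map (fun ω => (ω.1, zob (sts T) ω)) := by
  have h := congrArg (fun m => m.map Prod.snd) (twK_snd G hT h0 h1 hμ T hinj)
  unfold law1 at h
  rw [Measure.map_map measurable_snd (by fun_prop),
    Measure.map_map measurable_snd (measurable_lawF' G θ T)] at h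
  exact h

/-- both copies have the same innovations -/
theorem tw_obs (hT : G.IsTree) {θ : ℝ} (h0 : 0 ≤ θ) (h1 : θ < 1) {μ : Measure (V → Bool)}
    [IsProbabilityMeasure μ] (hμ : IsIsing G θ μ) (T : V × ℕ → I) (hinj : Function.Injective T) :
    ∀ᵐ q ∂(twK G θ μ T), ∀ j, q.1 j = un G θ T q.2.1.2 j ∧ q.1 j = un G θ T q.2.2.2 j := by
  have hS : MeasurableSet {p : (V × ℕ → I) × XX V | p.1 = un G θ T p.2.2} :=
    measurableSet_eq_fun measurable_fst
      ((measurable_un G θ T).comp (measurable_snd.comp measurable_snd))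
  have h : ∀ᵐ p ∂(law1 G θ μ T), p.1 = un G θ T p.2.2 := by
    unfold law1
    rw [ae_map_iff (measurable_lawF' G θ T).aemeasurable hS]
    exact ae_of_all _ fun ω => rfl
  have ha : ∀ᵐ q ∂(twK G θ μ T), q.1 = un G θ T q.2.1.2 := by
    have h2 := h
    rw [← twK_fst G hT h0 h1 hμ T hinj, ae_map_iff (by fun_prop) hS] at h2
    exact h2
  have hb : ∀ᵐ q ∂(twK G θ μ T), q.1 = un G θ T q.2.2.2 := by
    have h2 := h
    rw [← twK_snd G hT h0 h1 hμ T hinj, ae_map_iff (by fun_prop) hS] at h2
    exact h2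
  filter_upwards [ha, hb] with q h2 h3 j
  exact ⟨congrFun h2 j, congrFun h3 j⟩

namespace PA

theorem st_bound (T : V × ℕ → I) (j : V × ℕ) : 0 ≤ sts T j ∧ sts T j ≤ 1 / 2 :=
  ⟨st_nonneg _, (st_le _).trans (by norm_num)⟩

end PA

theorem tw_good (hT : G.IsTree) {θ : ℝ} (h0 : 0 ≤ θ) (h1 : θ < 1) {μ : Measure (V → Bool)}
    [IsProbabilityMeasure μ] (hμ : IsIsing G θ μ) (T : V × ℕ → I) (hinj : Function.Injective T)
    (K : ℕ) (M : Set (V × ℕ)) (hM : ∀ i ∈ M, i.2 < K) :
    ∀ᵐ q ∂(twK G θ μ T), Good G θ (xf (sts T) K M q.2.1.2) ∧ Good G θ (xf (sts T) K M q.2.2.2) := by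
  have hg := post_good G hT h0 h1 hμ (sts T) (st_bound T) K M hM
  have hS : MeasurableSet {x : XX V | Good G θ (xf (sts T) K M x.2)} :=
    ((measurable_xf K M (sts T)).comp measurable_snd) (measurableSet_Good G θ)
  have h : ∀ᵐ x ∂((P1 μ).map (fun ω => (ω.1, zob (sts T) ω))), Good G θ (xf (sts T) K M x.2) := by
    rw [ae_map_iff (measurable_zobs T).aemeasurable hS]
    exact hg
  have ha : ∀ᵐ q ∂(twK G θ μ T), Good G θ (xf (sts T) K M q.2.1.2) := by
    have h2 := h
    rw [← tw_marg1 G hT h0 h1 hμ T hinj, ae_map_iff (by fun_prop) hS] at h2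
    exact h2
  have hb : ∀ᵐ q ∂(twK G θ μ T), Good G θ (xf (sts T) K M q.2.2.2) := by
    have h2 := h
    rw [← tw_marg2 G hT h0 h1 hμ T hinj, ae_map_iff (by fun_prop) hS] at h2
    exact h2
  filter_upwards [ha, hb] with q h2 h3 using ⟨h2, h3⟩

namespace PA

theorem past_int (hT : G.IsTree) {θ : ℝ} (h0 : 0 ≤ θ) (h1 : θ < 1) {μ : Measure (V → Bool)}
    [IsProbabilityMeasure μ] (hμ : IsIsing G θ μ) (T : V × ℕ → I) (hinj : Function.Injective T)
    (K : ℕ) (M : Set (V × ℕ)) (hM : InitSeg T M) (hK : ∀ i ∈ M, i.2 < K) (v : V)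
    {Ψ Ψ' : (V × ℕ → I) → ℝ} (hΨ : Measurable Ψ)
    (hΨ' : Measurable Ψ') (hb : ∃ C, ∀ y, |Ψ y| ≤ C) (hb' : ∃ C, ∀ y, |Ψ' y| ≤ C) :
    ∫ q, sg (q.2.1.1 v) * (Ψ (mask M q.2.1.2) * Ψ' (mask M q.2.2.2)) ∂(twK G θ μ T)
      = ∫ q, mm G θ (xf (sts T) K M q.2.1.2) v
          * (Ψ (mask M q.2.1.2) * Ψ' (mask M q.2.2.2)) ∂(twK G θ μ T) := by
  have hstr := pastStr G hT h0 h1 hμ T hinj M hM
  have hF : Measurable (fun x : XX V => sg (x.1 v)) := Post.post_measurable_sg.comp (by fun_prop)
  have hF' : Measurable (fun y : V × ℕ → I => mm G θ (xf (sts T) K M y) v) :=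
    (measurable_mm G θ v).comp (measurable_xf K M (sts T))
  have hC' : ∀ y : V × ℕ → I, |mm G θ (xf (sts T) K M y) v| ≤ 1 := fun y => iv_abs_mm_le G θ _ v
  have hpost : ∀ Ψ : (V × ℕ → I) → ℝ, Measurable Ψ → (∃ C, ∀ y, |Ψ y| ≤ C) →
      ∫ q, (fun x : XX V => sg (x.1 v)) q.2 * Ψ ((fun x : XX V => mask M x.2) q.2)
          ∂((nz V) ⊗ₘ (kT G θ μ T))
        = ∫ q, (fun y : V × ℕ → I => mm G θ (xf (sts T) K M y) v)
            ((fun x : XX V => mask M x.2) q.2)
          * Ψ ((fun x : XX V => mask M x.2) q.2) ∂((nz V) ⊗ₘ (kT G θ μ T)) := by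
    intro Φ hΦ ⟨C, hC⟩
    rw [← law1_eq G hT h0 h1 hμ T hinj]
    unfold law1
    have hm := measurable_lawF' G θ T
    have hΦm : Measurable (fun q : (V × ℕ → I) × XX V => Φ (mask M q.2.2)) :=
      hΦ.comp ((measurable_mask M).comp (measurable_snd.comp measurable_snd))
    have hFm : Measurable (fun q : (V × ℕ → I) × XX V => sg (q.2.1 v)) :=
      hF.comp measurable_snd
    have hFm' : Measurable (fun q : (V × ℕ → I) × XX V =>
        mm G θ (xf (sts T) K M (mask M q.2.2)) v) :=
      hF'.comp ((measurable_mask M).comp (measurable_snd.comp measurable_snd))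
    have i1 := two_imap (P1 μ) _ hm (fun q : (V × ℕ → I) × XX V =>
      sg (q.2.1 v) * Φ (mask M q.2.2)) (hFm.mul hΦm)
    have i2 := two_imap (P1 μ) _ hm (fun q : (V × ℕ → I) × XX V =>
      mm G θ (xf (sts T) K M (mask M q.2.2)) v * Φ (mask M q.2.2)) (hFm'.mul hΦm)
    refine i1.trans (Eq.trans ?_ i2.symm)
    simp only [xf_mask]
    exact post_mean G hT h0 h1 hμ (sts T) (st_bound T) K M hK v Φ hΦ C hC
  have h := tw_past hstr hF hF' (C := 1) (fun x => (Post.abs_sg _).le) hC' hpost hΨ hΨ' hb hb'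
  rw [← twK_apply] at h
  simp only [xf_mask] at h
  exact h

end PA

/-- two-copy martingale property: for nested initial segments, the increments of the posterior mean
of copy 1 are orthogonal to products of past observables of the two copies -/
theorem tw_mart (hT : G.IsTree) {θ : ℝ} (h0 : 0 ≤ θ) (h1 : θ < 1) {μ : Measure (V → Bool)}
    [IsProbabilityMeasure μ] (hμ : IsIsing G θ μ) (T : V × ℕ → I) (hinj : Function.Injective T)
    (K : ℕ) (M M' : Set (V × ℕ)) (hM : InitSeg T M) (hM' : InitSeg T M') (hsub : M ⊆ M')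
    (hK : ∀ i ∈ M', i.2 < K) (v : V) {Ψ Ψ' : (V × ℕ → I) → ℝ} (hΨ : Measurable Ψ)
    (hΨ' : Measurable Ψ') (hb : ∃ C, ∀ y, |Ψ y| ≤ C) (hb' : ∃ C, ∀ y, |Ψ' y| ≤ C) :
    ∫ q, (mm G θ (xf (sts T) K M' q.2.1.2) v - mm G θ (xf (sts T) K M q.2.1.2) v)
      * (Ψ (mask M q.2.1.2) * Ψ' (mask M q.2.2.2)) ∂(twK G θ μ T) = 0 := by
  have e1 := past_int G hT h0 h1 hμ T hinj K M hM (fun i hi => hK i (hsub hi)) v hΨ hΨ' hb hb'
  have e2 := past_int G hT h0 h1 hμ T hinj K M' hM' hK v
    (Ψ := fun y => Ψ (mask M y)) (Ψ' := fun y => Ψ' (mask M y))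
    (hΨ.comp (measurable_mask M)) (hΨ'.comp (measurable_mask M))
    (by obtain ⟨C, hC⟩ := hb; exact ⟨C, fun y => hC _⟩)
    (by obtain ⟨C, hC⟩ := hb'; exact ⟨C, fun y => hC _⟩)
  simp only [iv_mask_mask_of_sub hsub] at e2
  obtain ⟨C, hC⟩ := hb
  obtain ⟨C', hC'⟩ := hb'
  have hP : IsProbabilityMeasure (twK G θ μ T) := by rw [twK_apply]; infer_instance
  have hΨm : Measurable (fun q : (V × ℕ → I) × XX V × XX V => Ψ (mask M q.2.1.2)) :=
    hΨ.comp ((measurable_mask M).comp (by fun_prop))
  have hΨm' : Measurable (fun q : (V × ℕ → I) × XX V × XX V => Ψ' (mask M q.2.2.2)) :=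
    hΨ'.comp ((measurable_mask M).comp (by fun_prop))
  have hmm : ∀ N : Set (V × ℕ), Measurable (fun q : (V × ℕ → I) × XX V × XX V =>
      mm G θ (xf (sts T) K N q.2.1.2) v) := fun N =>
    (measurable_mm G θ v).comp ((measurable_xf K N (sts T)).comp (by fun_prop))
  have hint : ∀ N : Set (V × ℕ), Integrable (fun q : (V × ℕ → I) × XX V × XX V =>
      mm G θ (xf (sts T) K N q.2.1.2) v * (Ψ (mask M q.2.1.2) * Ψ' (mask M q.2.2.2)))
      (twK G θ μ T) := by
    intro N
    refine Integrable.of_bound (((hmm N).mul (hΨm.mul hΨm')).aestronglyMeasurable) (1 * (C * C'))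
      (ae_of_all _ fun q => ?_)
    rw [Real.norm_eq_abs]
    exact abs_mul_le_two (iv_abs_mm_le G θ _ v) (abs_mul_le_two (hC _) (hC' _))
  have : ∀ q : (V × ℕ → I) × XX V × XX V,
      (mm G θ (xf (sts T) K M' q.2.1.2) v - mm G θ (xf (sts T) K M q.2.1.2) v)
        * (Ψ (mask M q.2.1.2) * Ψ' (mask M q.2.2.2))
      = mm G θ (xf (sts T) K M' q.2.1.2) v * (Ψ (mask M q.2.1.2) * Ψ' (mask M q.2.2.2))
        - mm G θ (xf (sts T) K M q.2.1.2) v * (Ψ (mask M q.2.1.2) * Ψ' (mask M q.2.2.2)) := by
    intro q; ring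
  simp only [this]
  rw [integral_sub (hint M') (hint M), ← e1, ← e2, sub_self]

theorem tw_mart' (hT : G.IsTree) {θ : ℝ} (h0 : 0 ≤ θ) (h1 : θ < 1) {μ : Measure (V → Bool)}
    [IsProbabilityMeasure μ] (hμ : IsIsing G θ μ) (T : V × ℕ → I) (hinj : Function.Injective T)
    (K : ℕ) (M M' : Set (V × ℕ)) (hM : InitSeg T M) (hM' : InitSeg T M') (hsub : M ⊆ M')
    (hK : ∀ i ∈ M', i.2 < K) (v : V) {Ψ Ψ' : (V × ℕ → I) → ℝ} (hΨ : Measurable Ψ)
    (hΨ' : Measurable Ψ') (hb : ∃ C, ∀ y, |Ψ y| ≤ C) (hb' : ∃ C, ∀ y, |Ψ' y| ≤ C) :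
    ∫ q, (mm G θ (xf (sts T) K M' q.2.2.2) v - mm G θ (xf (sts T) K M q.2.2.2) v)
      * (Ψ (mask M q.2.1.2) * Ψ' (mask M q.2.2.2)) ∂(twK G θ μ T) = 0 := by
  have h := tw_mart G hT h0 h1 hμ T hinj K M M' hM hM' hsub hK v hΨ' hΨ hb' hb
  have hsw : (twK G θ μ T).map (fun q => (q.1, q.2.2, q.2.1)) = twK G θ μ T := by
    rw [twK_apply, tw_swap]
  have hΨm : Measurable (fun q : (V × ℕ → I) × XX V × XX V => Ψ' (mask M q.2.1.2)) :=
    hΨ'.comp ((measurable_mask M).comp (by fun_prop))
  have hΨm' : Measurable (fun q : (V × ℕ → I) × XX V × XX V => Ψ (mask M q.2.2.2)) :=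
    hΨ.comp ((measurable_mask M).comp (by fun_prop))
  have hmm : ∀ N : Set (V × ℕ), Measurable (fun q : (V × ℕ → I) × XX V × XX V =>
      mm G θ (xf (sts T) K N q.2.1.2) v) := fun N =>
    (measurable_mm G θ v).comp ((measurable_xf K N (sts T)).comp (by fun_prop))
  have i1 := two_imap (twK G θ μ T) (fun q : (V × ℕ → I) × XX V × XX V => (q.1, q.2.2, q.2.1))
    (by fun_prop) _ (((hmm M').sub (hmm M)).mul (hΨm.mul hΨm'))
  rw [hsw] at i1
  have i2 := i1.symm.trans h
  rw [← i2]
  refine integral_congr_ae (ae_of_all _ fun q => ?_)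
  simp only [Pi.mul_apply, Pi.sub_apply]
  ring

/-- the pair of pasts only depends on the labels in the past -/
theorem tw_label (hT : G.IsTree) {θ : ℝ} (h0 : 0 ≤ θ) (h1 : θ < 1) {μ : Measure (V → Bool)}
    [IsProbabilityMeasure μ] (hμ : IsIsing G θ μ) (T T' : V × ℕ → I) (hinj : Function.Injective T)
    (hinj' : Function.Injective T') (M : Set (V × ℕ)) (hM : InitSeg T M) (hM' : InitSeg T' M)
    (heq : ∀ i ∈ M, T i = T' i) :
    (twK G θ μ T).map (fun q => (mask M q.2.1.2, mask M q.2.2.2))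
      = (twK G θ μ T').map (fun q => (mask M q.2.1.2, mask M q.2.2.2)) := by
  rw [twK_apply, twK_apply]
  refine tw_past_law (pastStr G hT h0 h1 hμ T hinj M hM) (pastStr G hT h0 h1 hμ T' hinj' M hM') ?_
  rw [← law1_eq G hT h0 h1 hμ T hinj, ← law1_eq G hT h0 h1 hμ T' hinj']
  unfold law1
  have hm1 : Measurable (fun q : (V × ℕ → I) × XX V => (mask M q.2.2, mask M q.1)) :=
    ((measurable_mask M).comp (measurable_snd.comp measurable_snd)).prodMk
      ((measurable_mask M).comp measurable_fst)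
  rw [Measure.map_map hm1 (measurable_lawF' G θ T), Measure.map_map hm1 (measurable_lawF' G θ T')]
  congr 1
  funext ω
  simp only [Function.comp]
  have hz : mask M (zob (sts T) ω) = mask M (zob (sts T') ω) := by
    funext j
    unfold mask
    by_cases hj : j ∈ M
    · rw [if_pos hj, if_pos hj]
      unfold zob sts
      rw [heq j hj]
    · rw [if_neg hj, if_neg hj]
  have hbef : ∀ j ∈ M, bef T j = bef T' j := by
    intro j hj
    ext i
    constructor
    · intro hi
      have hiM : i ∈ M := hM j hj i hi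
      rcases hi with h | ⟨h, h'⟩
      · exact Or.inl h
      · exact Or.inr ⟨h, by rwa [← heq i hiM, ← heq j hj]⟩
    · intro hi
      have hiM : i ∈ M := hM' j hj i hi
      rcases hi with h | ⟨h, h'⟩
      · exact Or.inl h
      · exact Or.inr ⟨h, by rwa [heq i hiM, heq j hj]⟩
  have hu : mask M (un G θ T (zob (sts T) ω)) = mask M (un G θ T' (zob (sts T') ω)) := by
    funext j
    unfold mask
    by_cases hj : j ∈ M
    · rw [if_pos hj, if_pos hj]
      rw [← un_mask G θ hM (zob (sts T) ω) hj, ← un_mask G θ hM' (zob (sts T') ω) hj, hz]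
      unfold un
      rw [hbef j hj]
      have hx : xf (sts T) (j.2 + 1) (bef T' j) (mask M (zob (sts T') ω))
          = xf (sts T') (j.2 + 1) (bef T' j) (mask M (zob (sts T') ω)) := by
        funext w
        unfold xf
        refine Finset.sum_congr rfl fun l _ => ?_
        by_cases h : (w, l) ∈ bef T' j
        · rw [if_pos h, if_pos h]
          have : (w, l) ∈ M := hM' j hj _ h
          unfold sts
          rw [heq _ this]
        · rw [if_neg h, if_neg h]
      rw [hx]
      have : sts T j = sts T' j := by unfold sts; rw [heq j hj]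
      rw [this]
    · rw [if_neg hj, if_neg hj]
  rw [hz, hu]

namespace PA

/-- relabelling of events by an automorphism -/
def ge (g : G ≃g G) (j : V × ℕ) : V × ℕ := (g j.1, j.2)

/-- relabelling as an equivalence -/
def geE (g : G ≃g G) : V × ℕ ≃ V × ℕ where
  toFun j := (g j.1, j.2)
  invFun j := (g.symm j.1, j.2)
  left_inv j := by simp
  right_inv j := by simp

omit [Countable V] [G.LocallyFinite] in
theorem map_ge_nz (g : G ≃g G) :
    (nz V).map (fun u : V × ℕ → I => fun j : V × ℕ => u (g j.1, j.2)) = nz V := by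
  classical
  have hm : Measurable (fun u : V × ℕ → I => fun j : V × ℕ => u (g j.1, j.2)) :=
    measurable_pi_iff.2 fun j => measurable_pi_apply _
  unfold nz
  refine Measure.eq_infinitePi _ fun s A hA => ?_
  rw [Measure.map_apply hm (MeasurableSet.pi s.countable_toSet fun i _ => hA i)]
  have hset : (fun u : V × ℕ → I => fun j : V × ℕ => u (g j.1, j.2)) ⁻¹' (s : Set (V × ℕ)).pi A
      = ((s.map (geE G g).toEmbedding : Finset (V × ℕ)) : Set (V × ℕ)).pi
        (fun i => A ((geE G g).symm i)) := by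
    ext u
    simp only [mem_preimage, Set.mem_pi, Finset.mem_coe, Finset.mem_map, Equiv.coe_toEmbedding]
    constructor
    · rintro h i ⟨j, hj, rfl⟩
      rw [Equiv.symm_apply_apply]
      exact h j hj
    · intro h j hj
      have := h (geE G g j) ⟨j, hj, rfl⟩
      rwa [Equiv.symm_apply_apply] at this
  rw [hset, Measure.infinitePi_pi _ (fun i _ => hA _), Finset.prod_map]
  refine Finset.prod_congr rfl fun j _ => ?_
  simp

omit [Countable V] in
theorem bef_ge (g : G ≃g G) (T : V × ℕ → I) (i j : V × ℕ) :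
    i ∈ bef (fun j : V × ℕ => T (g j.1, j.2)) j ↔ (g i.1, i.2) ∈ bef T (g j.1, j.2) := Iff.rfl

omit [Countable V] [G.LocallyFinite] in
theorem zob_ge (g : G ≃g G) (T : V × ℕ → I) (ω : (V → Bool) × (V × ℕ → I)) :
    zob (sts (fun j : V × ℕ => T (g j.1, j.2))) (ω.1 ∘ g, fun j : V × ℕ => ω.2 (g j.1, j.2))
      = fun j : V × ℕ => zob (sts T) ω (g j.1, j.2) := rfl

omit [Countable V] in
theorem xf_ge (g : G ≃g G) (T : V × ℕ → I) (K : ℕ) (M : Set (V × ℕ)) (z : V × ℕ → I) :
    xf (sts (fun j : V × ℕ => T (g j.1, j.2))) K {i | (g i.1, i.2) ∈ M}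
      (fun j : V × ℕ => z (g j.1, j.2)) = xf (sts T) K M z ∘ g := by
  funext v
  unfold xf
  simp only [Function.comp]
  refine Finset.sum_congr rfl fun l _ => ?_
  by_cases h : (g v, l) ∈ M
  · have h' : (v, l) ∈ {i : V × ℕ | (g i.1, i.2) ∈ M} := h
    rw [if_pos h, if_pos h']
    rfl
  · have h' : (v, l) ∉ {i : V × ℕ | (g i.1, i.2) ∈ M} := h
    rw [if_neg h, if_neg h']

omit [Countable V] in
theorem un_ge (g : G ≃g G) (θ : ℝ) (T : V × ℕ → I) (z : V × ℕ → I) (j : V × ℕ) :
    un G θ (fun j : V × ℕ => T (g j.1, j.2)) (fun j : V × ℕ => z (g j.1, j.2)) j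
      = un G θ T z (g j.1, j.2) := by
  unfold un
  have h1 : bef (fun j : V × ℕ => T (g j.1, j.2)) j
      = {i : V × ℕ | (g i.1, i.2) ∈ bef T (g j.1, j.2)} := rfl
  rw [h1, xf_ge G g T, mm_aut]
  rfl

theorem map_ge_P1 (hT : G.IsTree) {θ : ℝ} {μ : Measure (V → Bool)}
    [IsProbabilityMeasure μ] (hμ : IsIsing G θ μ) (g : G ≃g G) :
    (P1 μ).map (fun ω => (ω.1 ∘ g, fun j : V × ℕ => ω.2 (g j.1, j.2))) = P1 μ := by
  unfold P1
  have h1 := ising_aut G hT hμ g
  have h2 := map_ge_nz G g
  have hm1 : Measurable (fun x : V → Bool => x ∘ g) :=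
    measurable_pi_iff.2 fun j => measurable_pi_apply _
  have hm2 : Measurable (fun u : V × ℕ → I => fun j : V × ℕ => u (g j.1, j.2)) :=
    measurable_pi_iff.2 fun j => measurable_pi_apply _
  have h3 := Measure.map_prod_map μ (nz V) hm1 hm2
  rw [h1, h2] at h3
  exact h3.symm

/-- relabelling as a measurable equivalence -/
def geM (g : G ≃g G) : (V × ℕ → I) ≃ᵐ (V × ℕ → I) where
  toFun u := fun j => u (g j.1, j.2)
  invFun u := fun j => u (g.symm j.1, j.2)
  left_inv u := by funext j; simp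
  right_inv u := by funext j; simp
  measurable_toFun := measurable_pi_iff.2 fun j => measurable_pi_apply _
  measurable_invFun := measurable_pi_iff.2 fun j => measurable_pi_apply _

end PA

/-- automorphisms -/
theorem twK_aut (hT : G.IsTree) {θ : ℝ} (h0 : 0 ≤ θ) (h1 : θ < 1) {μ : Measure (V → Bool)}
    [IsProbabilityMeasure μ] (hμ : IsIsing G θ μ) (g : G ≃g G) (T : V × ℕ → I)
    (hinj : Function.Injective T) :
    (twK G θ μ T).map (fun q => ((fun j : V × ℕ => q.1 (g j.1, j.2)),
        (q.2.1.1 ∘ g, fun j : V × ℕ => q.2.1.2 (g j.1, j.2)),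
        (q.2.2.1 ∘ g, fun j : V × ℕ => q.2.2.2 (g j.1, j.2))))
      = twK G θ μ (fun j : V × ℕ => T (g j.1, j.2)) := by
  have hinj' : Function.Injective (fun j : V × ℕ => T (g j.1, j.2)) := by
    intro i j hij
    exact (geE G g).injective (hinj hij)
  rw [twK_apply, twK_apply]
  have hm1 : Measurable (fun x : V → Bool => x ∘ g) :=
    measurable_pi_iff.2 fun j => measurable_pi_apply _
  have hm2 : Measurable (fun u : V × ℕ → I => fun j : V × ℕ => u (g j.1, j.2)) :=
    measurable_pi_iff.2 fun j => measurable_pi_apply _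
  have hψ : Measurable (fun x : XX V => (x.1 ∘ g, fun j : V × ℕ => x.2 (g j.1, j.2))) :=
    (hm1.comp measurable_fst).prodMk (hm2.comp measurable_snd)
  refine tw_map (geM G g) (fun x : XX V => (x.1 ∘ g, fun j : V × ℕ => x.2 (g j.1, j.2))) hψ ?_
  rw [← law1_eq G hT h0 h1 hμ T hinj, ← law1_eq G hT h0 h1 hμ _ hinj']
  unfold law1
  have hm3 : Measurable (fun q : (V × ℕ → I) × XX V =>
      ((geM G g) q.1, (q.2.1 ∘ g, fun j : V × ℕ => q.2.2 (g j.1, j.2)))) :=
    ((geM G g).measurable.comp measurable_fst).prodMk (hψ.comp measurable_snd)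
  have hm4 : Measurable (fun ω : (V → Bool) × (V × ℕ → I) =>
      (ω.1 ∘ g, fun j : V × ℕ => ω.2 (g j.1, j.2))) :=
    (hm1.comp measurable_fst).prodMk (hm2.comp measurable_snd)
  conv_rhs => rw [← map_ge_P1 G hT hμ g]
  rw [Measure.map_map hm3 (measurable_lawF' G θ T), Measure.map_map (measurable_lawF' G θ _) hm4]
  congr 1
  funext ω
  simp only [Function.comp]
  refine Prod.ext ?_ (Prod.ext rfl rfl)
  funext j
  exact (un_ge G g θ T (zob (sts T) ω) j).symm

end Crest.Agent.FI
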