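import Mathlib
import Crest.Agent.FI.ProcDefs

set_option autoImplicit false

namespace Crest.Agent.FI

open MeasureTheory ProbabilityTheory unitInterval Set Filter Topology
open scoped ENNReal

variable {V : Type*} (G : SimpleGraph V) [G.LocallyFinite]

/-- posterior mean of the spin at `v` given the observations in `M` (labels `T` fixed) -/
noncomputable def m1 (θ : ℝ) (K : ℕ) (M : Set (V × ℕ)) (T : V × ℕ → I) (v : V)
    (ω : (V → Bool) × (V × ℕ → I)) : ℝ :=
  mm G θ (xf (sts T) K M (zob (sts T) ω)) v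

/-- difference of the posterior means of the two copies -/
noncomputable def dl (θ : ℝ) (K : ℕ) (M : Set (V × ℕ)) (T : V × ℕ → I) (v : V)
    (q : (V × ℕ → I) × XX V × XX V) : ℝ :=
  mm G θ (xf (sts T) K M q.2.1.2) v - mm G θ (xf (sts T) K M q.2.2.2) v

/-- the pair of fields before event `j` -/
noncomputable def pairB (T : V × ℕ → I) (j : V × ℕ) (q : (V × ℕ → I) × XX V × XX V) :
    (V → ℝ) × (V → ℝ) :=
  (xf (sts T) (j.2 + 1) (bef T j) q.2.1.2, xf (sts T) (j.2 + 1) (bef T j) q.2.2.2)

open Classical in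
/-- vertices of `F` whose event of round `k` has label in `[a, b)` -/
noncomputable def act (F : Finset V) (T : V × ℕ → I) (k : ℕ) (a b : ℝ) : Finset V :=
  F.filter (fun u => a ≤ (T (u, k) : ℝ) ∧ (T (u, k) : ℝ) < b)

/-- the energy of single-copy increments not explained by the events of `F`, at fixed labels -/
noncomputable def esc (θ : ℝ) (μ : Measure (V → Bool)) (k : ℕ) (a b : ℝ) (v : V) (F : Finset V)
    (T : V × ℕ → I) : ℝ :=
  (∫ ω, (m1 G θ (k + 1) (thr T k b) T v ω - m1 G θ (k + 1) (thr T k a) T v ω) ^ 2 ∂(P1 μ))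
    - ∑ u ∈ act F T k a b,
        ∫ ω, (m1 G θ (k + 1) (insert (u, k) (bef T (u, k))) T v ω
          - m1 G θ (k + 1) (bef T (u, k)) T v ω) ^ 2 ∂(P1 μ)

end Crest.Agent.FI
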