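import Mathlib
import Crest.Agent.FI.ProcDefs
import Crest.Agent.FI.Channel
import Crest.Agent.FI.Real

set_option autoImplicit false
set_option linter.unusedSectionVars false

namespace Crest.Agent.FI

open MeasureTheory ProbabilityTheory unitInterval Set Filter Topology Measure
open scoped ENNReal

variable {V : Type*} [Countable V]

/-! ### measurability -/

lemma psf_measurable_term :
    Measurable (fun q : I × I => Real.artanh (st q.1 * (2 * (q.2 : ℝ) - 1))) := by
  apply ch_measurable_artanh.comp
  have h1 : Measurable (fun p : I × I => st p.1) := measurable_st.comp measurable_fst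
  fun_prop

/-- joint measurability of the fields -/
theorem measurable_xf_thr (k : ℕ) : Measurable (fun p : ℝ × (V × ℕ → I) × (V × ℕ → I) =>
    xf (sts p.2.1) (k + 1) (thr p.2.1 k p.1) p.2.2) := by
  refine measurable_pi_iff.2 fun v => ?_
  unfold xf
  refine Finset.measurable_sum _ fun l _ => ?_
  refine Measurable.ite ?_ ?_ measurable_const
  · have h1 : MeasurableSet {p : ℝ × (V × ℕ → I) × (V × ℕ → I) | (p.2.1 (v, l) : ℝ) < p.1} :=
      measurableSet_lt (by fun_prop) (by fun_prop)
    exact (MeasurableSet.const (l < k)).union ((MeasurableSet.const (l = k)).inter h1)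
  · exact psf_measurable_term.comp
      (f := fun p : ℝ × (V × ℕ → I) × (V × ℕ → I) => (p.2.1 (v, l), p.2.2 (v, l))) (by fun_prop)

theorem measurable_xf_thrV (k : ℕ) (s : V → ℝ) : Measurable (fun p : (V × ℕ → I) × (V × ℕ → I) =>
    xf (sts p.1) (k + 1) (thrV p.1 k s) p.2) := by
  refine measurable_pi_iff.2 fun v => ?_
  unfold xf
  refine Finset.measurable_sum _ fun l _ => ?_
  refine Measurable.ite ?_ ?_ measurable_const
  · have h1 : MeasurableSet {p : (V × ℕ → I) × (V × ℕ → I) | (p.1 (v, l) : ℝ) < s v} :=
      measurableSet_lt (by fun_prop) (by fun_prop)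
    exact (MeasurableSet.const (l < k)).union ((MeasurableSet.const (l = k)).inter h1)
  · exact psf_measurable_term.comp
      (f := fun p : (V × ℕ → I) × (V × ℕ → I) => (p.1 (v, l), p.2 (v, l))) (by fun_prop)

lemma psf_measurable_sg : Measurable sg := measurable_of_finite _

theorem measurable_zob_param : Measurable (fun p : (V × ℕ → I) × ((V → Bool) × (V × ℕ → I)) =>
    zob (sts p.1) p.2) := by
  refine measurable_pi_iff.2 fun j => ?_
  unfold zob sts
  refine measurable_Qm.comp (f := fun p : (V × ℕ → I) × ((V → Bool) × (V × ℕ → I)) =>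
    (sg (p.2.1 j.1) * st (p.1 j), p.2.2 j)) ?_
  have h1 : Measurable (fun p : (V × ℕ → I) × ((V → Bool) × (V × ℕ → I)) => sg (p.2.1 j.1)) :=
    psf_measurable_sg.comp (by fun_prop)
  have h2 : Measurable (fun p : (V × ℕ → I) × ((V → Bool) × (V × ℕ → I)) => st (p.1 j)) :=
    measurable_st.comp (by fun_prop)
  fun_prop

/-- one event: field, in terms of the gauged noise -/
theorem artanh_zob (s : V × ℕ → ℝ) (hs : ∀ j, 0 ≤ s j ∧ s j ≤ 1 / 2)
    (ω : (V → Bool) × (V × ℕ → I)) (j : V × ℕ) :
    Real.artanh (s j * (2 * (zob s ω j : ℝ) - 1)) = sg (ω.1 j.1)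
      * Real.artanh (s j * (2 * (Qm (s j) (if ω.1 j.1 then ω.2 j else symm (ω.2 j)) : ℝ) - 1)) := by
  obtain ⟨h0, h1⟩ := hs j
  unfold zob sg
  cases h : ω.1 j.1
  · simp only [Bool.false_eq_true, if_false]
    have e : (-1 : ℝ) * s j = -s j := by ring
    rw [e, Qm_neg (by rwa [abs_of_nonneg h0]), coe_symm_eq, neg_one_mul, ← artanh_neg']
    congr 1
    ring
  · simp

/-! ### zipping and resampling -/

lemma psf_zip (J : Type*) [Countable J] :
    ((Measure.infinitePi (fun _ : J => (volume : Measure I))).prod
      (Measure.infinitePi (fun _ : J => (volume : Measure I)))).map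
        (fun q : (J → I) × (J → I) => fun j => (q.1 j, q.2 j))
      = Measure.infinitePi (fun _ : J => (volume : Measure (I × I))) := by
  set M : Measure (J × Fin 2 → I) := Measure.infinitePi (fun _ => (volume : Measure I)) with hM
  have h1 : M.map (fun ω : J × Fin 2 → I => fun p : Fin 2 × J => ω p.swap)
      = Measure.infinitePi (fun _ : Fin 2 × J => (volume : Measure I)) :=
    Measure.map_infinitePi_infinitePi_of_inj (P := fun _ : J × Fin 2 => (volume : Measure I))
      (f := Prod.swap) Prod.swap_injective
  have h2 := Measure.infinitePi_map_curry (fun (_ : Fin 2) (_ : J) => (volume : Measure I))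
  have h3 : (Measure.infinitePi (fun _ : Fin 2 => Measure.infinitePi
      (fun _ : J => (volume : Measure I)))).map (fun ω => (ω 0, ω 1))
      = (Measure.infinitePi (fun _ : J => (volume : Measure I))).prod
        (Measure.infinitePi (fun _ : J => (volume : Measure I))) :=
    Measure.infinitePi_map_eval_prod (P := fun _ : Fin 2 => Measure.infinitePi
      (fun _ : J => (volume : Measure I))) (by norm_num)
  rw [← h3, ← h2, ← h1, Measure.map_map (by fun_prop) (by fun_prop),
    Measure.map_map (by fun_prop) (by fun_prop), Measure.map_map (by fun_prop) (by fun_prop)]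
  have h4 := Measure.infinitePi_map_curry (fun (_ : J) (_ : Fin 2) => (volume : Measure I))
  have h5 := Measure.infinitePi_map_pi (fun _ : J => Measure.infinitePi
    (fun _ : Fin 2 => (volume : Measure I))) (f := fun _ x => (x 0, x 1)) (by fun_prop)
  have h6 : (Measure.infinitePi (fun _ : Fin 2 => (volume : Measure I))).map
      (fun ω => (ω 0, ω 1)) = (volume : Measure (I × I)) :=
    Measure.infinitePi_map_eval_prod (P := fun _ : Fin 2 => (volume : Measure I)) (by norm_num)
  rw [h6] at h5
  rw [← h5, ← h4, Measure.map_map (by fun_prop) (by fun_prop)]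
  rfl

lemma psf_resample (J : Type*) [DecidableEq J] (j : J) :
    ((volume : Measure I).prod (Measure.infinitePi (fun _ : J => (volume : Measure I)))).map
      (fun p : I × (J → I) => Function.update p.2 j p.1)
      = Measure.infinitePi (fun _ : J => (volume : Measure I)) := by
  apply Measure.eq_infinitePi
  intro s t ht
  have hm : Measurable (fun p : I × (J → I) => Function.update p.2 j p.1) := by
    refine measurable_pi_iff.2 fun i => ?_
    by_cases h : i = j
    · subst h; simp; fun_prop
    · simp [Function.update_of_ne h]; fun_prop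
  rw [Measure.map_apply hm (.pi s.countable_toSet fun _ _ => ht _)]
  by_cases hj : j ∈ s
  · have e : (fun p : I × (J → I) => Function.update p.2 j p.1) ⁻¹' ((s : Set J).pi t)
        = (t j) ×ˢ ((s.erase j : Finset J) : Set J).pi t := by
      ext ⟨a, T⟩
      simp only [mem_preimage, Set.mem_pi, Finset.mem_coe, mem_prod, Finset.mem_erase]
      constructor
      · intro h
        refine ⟨by simpa using h j hj, fun i hi => ?_⟩
        simpa [Function.update_of_ne hi.1] using h i hi.2
      · rintro ⟨h1, h2⟩ i hi
        by_cases hij : i = j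
        · subst hij; simpa using h1
        · simpa [Function.update_of_ne hij] using h2 i ⟨hij, hi⟩
    rw [e, Measure.prod_prod, Measure.infinitePi_pi _ (fun i _ => ht i)]
    exact Finset.mul_prod_erase s (fun i => (volume : Measure I) (t i)) hj
  · have e : (fun p : I × (J → I) => Function.update p.2 j p.1) ⁻¹' ((s : Set J).pi t)
        = Set.univ ×ˢ (s : Set J).pi t := by
      ext ⟨a, T⟩
      simp only [mem_preimage, Set.mem_pi, Finset.mem_coe, mem_prod, mem_univ, true_and]
      refine forall₂_congr fun i hi => ?_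
      have : i ≠ j := fun h => hj (h ▸ hi)
      rw [Function.update_of_ne this]
    rw [e, Measure.prod_prod, Measure.infinitePi_pi _ (fun i _ => ht i)]
    simp

/-! ### the gauged fields -/

open Classical in
/-- gauged fields -/
noncomputable def psf_hat (k : ℕ) (s : V → ℝ) (T w : V × ℕ → I) (v : V) : ℝ :=
  ∑ l ∈ Finset.range (k + 1), if (v, l) ∈ thrV T k s then xi (T (v, l)) (w (v, l)) else 0

/-- gauge transformation of the noise -/
noncomputable def psf_gz (τ : V → Bool) (w : V × ℕ → I) (j : V × ℕ) : I :=
  if τ j.1 then w j else symm (w j)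

lemma psf_xf_eq (k : ℕ) (s : V → ℝ) (T : V × ℕ → I) (ω : (V → Bool) × (V × ℕ → I)) (v : V) :
    xf (sts T) (k + 1) (thrV T k s) (zob (sts T) ω) v
      = sg (ω.1 v) * psf_hat k s T (psf_gz ω.1 ω.2) v := by
  unfold xf psf_hat
  rw [Finset.mul_sum]
  refine Finset.sum_congr rfl fun l _ => ?_
  split_ifs with h
  · rw [artanh_zob (sts T) (fun j => ⟨st_nonneg _, (st_le _).trans (by norm_num)⟩) ω (v, l)]
    rfl
  · rw [mul_zero]

lemma psf_measurable_gz : Measurable (fun p : (V → Bool) × (V × ℕ → I) => psf_gz p.1 p.2) := by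
  refine measurable_pi_iff.2 fun j => ?_
  unfold psf_gz
  have h : MeasurableSet {p : (V → Bool) × (V × ℕ → I) | p.1 j.1 = true} :=
    (by fun_prop : Measurable fun p : (V → Bool) × (V × ℕ → I) => p.1 j.1)
      (measurableSet_singleton true)
  exact Measurable.ite h (by fun_prop) (unitInterval.measurable_symm.comp (by fun_prop))

lemma psf_map_gz (τ : V → Bool) : (nz V).map (psf_gz τ) = nz V := by
  unfold nz
  have h := Measure.infinitePi_map_pi (fun _ : V × ℕ => (volume : Measure I))
    (f := fun j x => if τ j.1 then x else symm x) (fun j => by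
      by_cases h : τ j.1
      · simp [h]; exact measurable_id
      · simp [h]; exact unitInterval.measurable_symm)
  have e : (fun j : V × ℕ => (volume : Measure I).map (fun x => if τ j.1 then x else symm x))
      = fun _ => (volume : Measure I) := by
    funext j
    by_cases h : τ j.1
    · simp [h]
    · simp only [h, Bool.false_eq_true, if_false]
      exact unitInterval.measurePreserving_symm.map_eq
  rw [e] at h
  exact h

lemma psf_gauge (μ : Measure (V → Bool)) [IsProbabilityMeasure μ] :
    MeasurePreserving (fun p : (V → Bool) × (V × ℕ → I) => (p.1, psf_gz p.1 p.2))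
      (P1 μ) (P1 μ) := by
  unfold P1
  exact MeasurePreserving.skew_product (MeasurePreserving.id μ) psf_measurable_gz
    (Filter.Eventually.of_forall psf_map_gz)

lemma psf_measurable_hat (k : ℕ) (s : V → ℝ) :
    Measurable (fun p : (V × ℕ → I) × (V × ℕ → I) => psf_hat k s p.1 p.2) := by
  refine measurable_pi_iff.2 fun v => ?_
  unfold psf_hat
  refine Finset.measurable_sum _ fun l _ => ?_
  refine Measurable.ite ?_ ?_ measurable_const
  · have h1 : MeasurableSet {p : (V × ℕ → I) × (V × ℕ → I) | (p.1 (v, l) : ℝ) < s v} :=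
      measurableSet_lt (by fun_prop) (by fun_prop)
    exact (MeasurableSet.const (l < k)).union ((MeasurableSet.const (l = k)).inter h1)
  · exact measurable_xi.comp
      (f := fun p : (V × ℕ → I) × (V × ℕ → I) => (p.1 (v, l), p.2 (v, l))) (by fun_prop)

/-- field of one vertex -/
noncomputable def psf_one (k : ℕ) (s : ℝ) (w : ℕ → I × I) : ℝ :=
  (∑ l ∈ Finset.range k, xi (w l).1 (w l).2) +
      if ((w k).1 : ℝ) < s then xi (w k).1 (w k).2 else 0

lemma psf_measurable_one (k : ℕ) (s : ℝ) : Measurable (psf_one k s) := by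
  unfold psf_one
  have h : ∀ l, Measurable (fun w : ℕ → I × I => xi (w l).1 (w l).2) := fun l =>
    measurable_xi.comp (measurable_pi_apply l)
  refine Measurable.add (Finset.measurable_sum _ fun l _ => h l) ?_
  refine Measurable.ite ?_ (h k) measurable_const
  exact measurableSet_lt (by fun_prop) (by fun_prop)

lemma psf_rho (k : ℕ) (s : ℝ) : rho k s
    = (Measure.infinitePi (fun _ : ℕ => (volume : Measure (I × I)))).map (psf_one k s) := rfl

lemma psf_hat_eq (k : ℕ) (s : V → ℝ) (T w : V × ℕ → I) :
    psf_hat k s T w = fun v => psf_one k (s v) (fun l => (T (v, l), w (v, l))) := by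
  funext v
  unfold psf_hat psf_one
  rw [Finset.sum_range_succ]
  congr 1
  · refine Finset.sum_congr rfl fun l hl => ?_
    have : (v, l) ∈ thrV T k s := Or.inl (Finset.mem_range.1 hl)
    rw [if_pos this]
  · congr 1
    apply propext
    simp [thrV]

lemma psf_map_hat (k : ℕ) (s : V → ℝ) :
    ((nz V).prod (nz V)).map (fun p : (V × ℕ → I) × (V × ℕ → I) => psf_hat k s p.1 p.2)
      = Measure.infinitePi (fun v => rho k (s v)) := by
  have h1 := psf_zip (V × ℕ)
  have h2 := Measure.infinitePi_map_curry (fun (_ : V) (_ : ℕ) => (volume : Measure (I × I)))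
  have h3 := Measure.infinitePi_map_pi (fun _ : V => Measure.infinitePi
    (fun _ : ℕ => (volume : Measure (I × I)))) (f := fun v => psf_one k (s v))
    (fun v => psf_measurable_one k (s v))
  unfold nz
  have e : (fun v => rho k (s v)) = fun v => (Measure.infinitePi
    (fun _ : ℕ => (volume : Measure (I × I)))).map (psf_one k (s v)) := rfl
  have hm : Measurable (fun x : V → ℕ → I × I => fun v => psf_one k (s v) (x v)) :=
    measurable_pi_iff.2 fun v => (psf_measurable_one k (s v)).comp (measurable_pi_apply v)
  rw [e, ← h3, ← h2, Measure.map_map hm (by fun_prop), ← h1, Measure.map_map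
    (hm.comp (by fun_prop)) (by fun_prop)]
  congr 1
  funext p
  rw [psf_hat_eq]
  rfl

instance psf_rho_prob (k : ℕ) (s : ℝ) : IsProbabilityMeasure (rho k s) := by
  rw [psf_rho]
  exact Measure.isProbabilityMeasure_map (psf_measurable_one k s).aemeasurable

lemma psf_rearr {α β γ : Type*} [MeasurableSpace α] [MeasurableSpace β] [MeasurableSpace γ]
    (a : Measure α) (b : Measure β) (c : Measure γ) [IsProbabilityMeasure a]
    [IsProbabilityMeasure b] [IsProbabilityMeasure c] :
    (a.prod (b.prod c)).map (fun p => (p.2.1, (p.1, p.2.2))) = b.prod (a.prod c) := by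
  have h1 : MeasurePreserving (MeasurableEquiv.prodAssoc.symm : α × β × γ ≃ᵐ (α × β) × γ)
      (a.prod (b.prod c)) ((a.prod b).prod c) :=
    (measurePreserving_prodAssoc a b c).symm MeasurableEquiv.prodAssoc
  have h2 : MeasurePreserving (Prod.map Prod.swap id : (α × β) × γ → (β × α) × γ)
      ((a.prod b).prod c) ((b.prod a).prod c) :=
    (measurePreserving_swap (μ := a) (ν := b)).prod (MeasurePreserving.id c)
  have h3 : MeasurePreserving (MeasurableEquiv.prodAssoc : (β × α) × γ ≃ᵐ β × α × γ)
      ((b.prod a).prod c) (b.prod (a.prod c)) := measurePreserving_prodAssoc b a c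
  exact ((h3.comp h2).comp h1).map_eq

/-- law of (spins, fields) at vertex-dependent times: `spinField` with channels `rho k (s v)` -/
theorem spinField_xf (μ : Measure (V → Bool)) [IsProbabilityMeasure μ] (k : ℕ) (s : V → ℝ) :
    ((nz V).prod (P1 μ)).map (fun p => (p.2.1, xf (sts p.1) (k + 1) (thrV p.1 k s) (zob (sts p.1) p.2)))
      = spinField μ (fun v => rho k (s v)) := by
  unfold spinField
  have hS : Measurable (fun p : (V → Bool) × (V → ℝ) => (p.1, fun v => sg (p.1 v) * p.2 v)) := by
    refine measurable_fst.prodMk (measurable_pi_iff.2 fun v => ?_)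
    exact (psf_measurable_sg.comp (by fun_prop)).mul (by fun_prop)
  have hh := psf_measurable_hat k s
  rw [← psf_map_hat k s]
  have h1 : μ.prod (((nz V).prod (nz V)).map
      (fun p : (V × ℕ → I) × (V × ℕ → I) => psf_hat k s p.1 p.2))
      = (μ.prod ((nz V).prod (nz V))).map
        (Prod.map id (fun p : (V × ℕ → I) × (V × ℕ → I) => psf_hat k s p.1 p.2)) := by
    rw [← Measure.map_prod_map _ _ measurable_id hh, Measure.map_id]
  rw [h1, ← psf_rearr (nz V) μ (nz V), Measure.map_map (by fun_prop) (by fun_prop),
    Measure.map_map (by fun_prop) (by fun_prop)]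
  have h2 : MeasurePreserving (Prod.map id (fun p : (V → Bool) × (V × ℕ → I) =>
      (p.1, psf_gz p.1 p.2))) ((nz V).prod (P1 μ)) ((nz V).prod (P1 μ)) :=
    (MeasurePreserving.id (nz V)).prod (psf_gauge μ)
  have h3 : (nz V).prod (μ.prod (nz V)) = (nz V).prod (P1 μ) := rfl
  rw [h3]
  conv_rhs => rw [← h2.map_eq]
  rw [Measure.map_map (by fun_prop) h2.measurable]
  congr 1
  funext p
  simp only [Function.comp, Prod.map, id]
  refine Prod.ext rfl ?_
  funext v
  exact psf_xf_eq k s p.1 p.2 v

/-- ... and if `u` has not been observed in round `k`, this is independent of the label of `(u, k)` -/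
theorem spinField_xf_indep (μ : Measure (V → Bool)) [IsProbabilityMeasure μ] (k : ℕ) (s : V → ℝ) (u : V)
    (hu : s u ≤ 0) :
    ((nz V).prod (P1 μ)).map (fun p => (p.1 (u, k),
        (p.2.1, xf (sts p.1) (k + 1) (thrV p.1 k s) (zob (sts p.1) p.2))))
      = (volume : Measure I).prod (spinField μ (fun v => rho k (s v))) := by
  classical
  rw [← spinField_xf μ k s]
  set F : (V × ℕ → I) × ((V → Bool) × (V × ℕ → I)) → (V → Bool) × (V → ℝ) := fun p =>
    (p.2.1, xf (sts p.1) (k + 1) (thrV p.1 k s) (zob (sts p.1) p.2)) with hF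
  have hFm : Measurable F := by
    refine (by fun_prop : Measurable fun p : (V × ℕ → I) × ((V → Bool) × (V × ℕ → I)) =>
      p.2.1).prodMk ?_
    exact (measurable_xf_thrV k s).comp
      (f := fun p : (V × ℕ → I) × ((V → Bool) × (V × ℕ → I)) => (p.1, zob (sts p.1) p.2))
      (measurable_fst.prodMk measurable_zob_param)
  have hup : Measurable (fun p : I × (V × ℕ → I) => Function.update p.2 (u, k) p.1) := by
    refine measurable_pi_iff.2 fun i => ?_
    by_cases h : i = (u, k)
    · subst h; simp; fun_prop
    · simp [Function.update_of_ne h]; fun_prop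
  have h0 : ((volume : Measure I).prod (nz V)).map
      (fun p : I × (V × ℕ → I) => Function.update p.2 (u, k) p.1) = nz V :=
    psf_resample (V × ℕ) (u, k)
  have h1 : (nz V).prod (P1 μ) = (((volume : Measure I).prod (nz V)).prod (P1 μ)).map
      (Prod.map (fun p : I × (V × ℕ → I) => Function.update p.2 (u, k) p.1) id) := by
    rw [← Measure.map_prod_map _ _ hup measurable_id, h0, Measure.map_id]
  have hG : Measurable (fun p : (V × ℕ → I) × ((V → Bool) × (V × ℕ → I)) => (p.1 (u, k), F p)) :=
    (by fun_prop : Measurable fun p : (V × ℕ → I) × ((V → Bool) × (V × ℕ → I)) =>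
      p.1 (u, k)).prodMk hFm
  have h2 : (volume : Measure I).prod (((nz V).prod (P1 μ)).map F)
      = ((volume : Measure I).prod ((nz V).prod (P1 μ))).map (Prod.map id F) := by
    rw [← Measure.map_prod_map _ _ measurable_id hFm, Measure.map_id]
  have h3 : MeasurePreserving (MeasurableEquiv.prodAssoc :
      (I × (V × ℕ → I)) × ((V → Bool) × (V × ℕ → I)) ≃ᵐ I × (V × ℕ → I) × ((V → Bool) × (V × ℕ → I)))
      (((volume : Measure I).prod (nz V)).prod (P1 μ))
      ((volume : Measure I).prod ((nz V).prod (P1 μ))) := measurePreserving_prodAssoc _ _ _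
  rw [h2, ← h3.map_eq, Measure.map_map (by fun_prop) h3.measurable]
  conv_lhs => rw [h1]
  rw [Measure.map_map hG (by fun_prop)]
  congr 1
  funext ⟨⟨t, T⟩, ω⟩
  change (Function.update T (u, k) t (u, k), F (Function.update T (u, k) t, ω)) = (t, F (T, ω))
  refine Prod.ext ?_ ?_
  · simp
  · simp only [hF]
    refine Prod.ext rfl ?_
    funext v
    simp only
    unfold xf
    refine Finset.sum_congr rfl fun l _ => ?_
    by_cases hvl : (v, l) = (u, k)
    · have e1 : ∀ T' : V × ℕ → I, (v, l) ∉ thrV T' k s := by
        intro T' hT'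
        simp only [Prod.mk.injEq] at hvl
        obtain ⟨rfl, rfl⟩ := hvl
        rcases hT' with h | ⟨_, h⟩
        · exact lt_irrefl _ h
        · have := (T' (v, l)).2.1
          simp only at h
          linarith
      rw [if_neg (e1 _), if_neg (e1 _)]
    · have e2 : Function.update T (u, k) t (v, l) = T (v, l) := Function.update_of_ne hvl _ _
      have e3 : (v, l) ∈ thrV (Function.update T (u, k) t) k s ↔ (v, l) ∈ thrV T k s := by
        simp [thrV, e2]
      simp only [e3, sts, zob, e2]

end Crest.Agent.FI
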