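import Mathlib
import Crest.Agent.FI.ProcDefs2
import Crest.Agent.FI.ProcA
import Crest.Agent.FI.ProcSF

set_option autoImplicit false
set_option linter.unusedSectionVars false

namespace Crest.Agent.FI

open MeasureTheory ProbabilityTheory unitInterval Set Filter Topology
open scoped ENNReal

variable {V : Type*} [Countable V] (G : SimpleGraph V) [G.LocallyFinite]

namespace IA

omit [Countable V] in
theorem lln (v : V) (k : ℕ) (a : ℝ) (f : ℕ → I → ℝ) (hf : ∀ l, Measurable (f l))
    (hb : ∀ l z, |f l z| ≤ 1) :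
    ∫ u, (a - ∑ l ∈ Finset.range k, f l (u (v, l))) ^ 2 ∂(nz V)
      ≤ (a - ∑ l ∈ Finset.range k, ∫ z, f l z) ^ 2 + k := by
  classical
  set X : ℕ → (V × ℕ → I) → ℝ := fun l u => f l (u (v, l)) with hX
  have hXm : ∀ l, Measurable (X l) := fun l => (hf l).comp (measurable_pi_apply _)
  have hXb : ∀ l u, ‖X l u‖ ≤ 1 := fun l u => hb l _
  have hP : IsProbabilityMeasure (nz V) := by unfold nz; infer_instance
  have hmem : ∀ l, MemLp (X l) 2 (nz V) := fun l =>
    MemLp.of_bound (hXm l).aestronglyMeasurable 1 (ae_of_all _ (hXb l))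
  have hind : iIndepFun (fun (j : V × ℕ) (u : V × ℕ → I) => u j) (nz V) := by
    unfold nz
    exact iIndepFun_infinitePi (P := fun _ : V × ℕ => (volume : Measure I))
      (X := fun _ z => z) (fun _ => measurable_id)
  have hpw : Set.Pairwise (↑(Finset.range k)) fun i j => X i ⟂ᵢ[nz V] X j := by
    intro i _ j _ hij
    have h1 : ((v, i) : V × ℕ) ≠ (v, j) := by
      intro h; exact hij (congrArg Prod.snd h)
    exact (hind.indepFun h1).comp (hf i) (hf j)
  have hvar := IndepFun.variance_sum (μ := nz V) (X := X) (s := Finset.range k)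
    (fun i _ => hmem i) hpw
  have hsum : MemLp (∑ l ∈ Finset.range k, X l) 2 (nz V) := memLp_finsetSum' _ fun l _ => hmem l
  have hY : MemLp (fun u => a - (∑ l ∈ Finset.range k, X l) u) 2 (nz V) :=
    (memLp_const a).sub hsum
  have h2 := variance_eq_sub hY
  have h3 := variance_const_sub (μ := nz V) hsum.aestronglyMeasurable a
  rw [h3, hvar] at h2
  have h4 : ∀ l, Var[X l; nz V] ≤ 1 := by
    intro l
    refine (variance_le_expectation_sq (hXm l).aestronglyMeasurable).trans ?_
    calc ∫ u, (X l ^ 2) u ∂(nz V) ≤ ∫ _u, (1 : ℝ) ∂(nz V) := by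
          refine integral_mono_of_nonneg (ae_of_all _ fun u => sq_nonneg _) (integrable_const _)
            (ae_of_all _ fun u => ?_)
          have := hXb l u
          rw [Real.norm_eq_abs] at this
          simp only [Pi.pow_apply]
          rw [← sq_abs]
          exact pow_le_one₀ (abs_nonneg _) this
      _ = 1 := by simp
  have h5 : ∑ l ∈ Finset.range k, Var[X l; nz V] ≤ k := by
    calc ∑ l ∈ Finset.range k, Var[X l; nz V] ≤ ∑ _l ∈ Finset.range k, (1 : ℝ) :=
          Finset.sum_le_sum fun l _ => h4 l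
      _ = k := by simp
  have h6 : ∫ u, (a - (∑ l ∈ Finset.range k, X l) u) ∂(nz V)
      = a - ∑ l ∈ Finset.range k, ∫ z, f l z := by
    rw [integral_sub (integrable_const _) (hsum.integrable one_le_two)]
    simp only [Finset.sum_apply]
    rw [integral_finsetSum _ fun l _ => (hmem l).integrable one_le_two]
    simp only [integral_const, probReal_univ, one_smul]
    congr 1
    refine Finset.sum_congr rfl fun l _ => ?_
    have h7 : (nz V).map (fun u : V × ℕ → I => u (v, l)) = volume := by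
      unfold nz
      exact Measure.infinitePi_map_eval (fun _ : V × ℕ => (volume : Measure I)) (v, l)
    have h10 := two_imap (nz V) (fun u : V × ℕ → I => u (v, l)) (measurable_pi_apply _) (f l) (hf l)
    rw [h7] at h10
    exact h10.symm
  have h8 : ∫ u, (a - ∑ l ∈ Finset.range k, f l (u (v, l))) ^ 2 ∂(nz V)
      = ∫ u, ((fun u => a - (∑ l ∈ Finset.range k, X l) u) ^ 2) u ∂(nz V) := by
    refine integral_congr_ae (ae_of_all _ fun u => ?_)
    simp only [Pi.pow_apply, Finset.sum_apply, hX]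
  rw [h8]
  have h9 := h2.symm
  rw [sub_eq_iff_eq_add] at h9
  rw [h9, h6]
  linarith

theorem int_I (g : ℝ → ℝ) : ∫ z : I, g z = ∫ x in (0:ℝ)..1, g x := by
  rw [intervalIntegral.integral_of_le zero_le_one, ← integral_Icc_eq_integral_Ioc]
  exact MeasurePreserving.integral_comp measurePreserving_coe measurableEmbedding_coe g

theorem chan_mean {c : ℝ} (hc : |c| ≤ 1 / 2) : ∫ u : I, (2 * (Qm c u : ℝ) - 1) = c / 3 := by
  have hm : Measurable (Qm c) := measurable_Qm.comp (measurable_const.prodMk measurable_id)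
  have h1 : ∫ u : I, (2 * (Qm c u : ℝ) - 1)
      = ∫ z : I, (2 * (z : ℝ) - 1) ∂((volume : Measure I).map (Qm c)) := by
    rw [integral_map hm.aemeasurable]
    exact Measurable.aestronglyMeasurable (by fun_prop)
  rw [h1, map_Qm hc, integral_withDensity_eq_integral_toReal_smul (by fun_prop)
    (ae_of_all _ fun _ => ENNReal.ofReal_lt_top)]
  have h2 : ∀ z : I, (ENNReal.ofReal (1 + c * (2 * (z : ℝ) - 1))).toReal • (2 * (z : ℝ) - 1)
      = (fun x : ℝ => (1 + c * (2 * x - 1)) * (2 * x - 1)) z := by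
    intro z
    rw [ENNReal.toReal_ofReal (iv_one_add_nonneg hc z), smul_eq_mul]
  rw [integral_congr_ae (ae_of_all _ h2), int_I (fun x : ℝ => (1 + c * (2 * x - 1)) * (2 * x - 1))]
  have h3 : ∀ x ∈ uIcc (0:ℝ) 1, HasDerivAt (fun x : ℝ => x ^ 2 - x + c * (4 / 3 * x ^ 3 - 2 * x ^ 2 + x))
      ((1 + c * (2 * x - 1)) * (2 * x - 1)) x := by
    intro x _
    have d1 := hasDerivAt_id x
    have d2 := (hasDerivAt_id x).pow 2
    have d3 := (hasDerivAt_id x).pow 3
    have := (d2.sub d1).add ((((d3.const_mul (4/3)).sub (d2.const_mul 2)).add d1).const_mul c)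
    refine this.congr_deriv ?_
    simp only [id]
    ring
  rw [intervalIntegral.integral_eq_sub_of_hasDerivAt h3]
  · ring
  · apply Continuous.intervalIntegrable; fun_prop

/-- the constant of the linear estimator -/
noncomputable def cc0 : ℝ := ∫ t : I, st t ^ 2 / 3

theorem st_abs (t : I) : |st t| ≤ 1 / 2 := by
  rw [abs_of_nonneg (st_nonneg t)]
  exact (st_le t).trans (by norm_num)

theorem measurable_bt : Measurable (fun t : I => st t ^ 2 / 3) :=
  (measurable_st.pow_const 2).div_const 3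

theorem bt_bound (t : I) : |st t ^ 2 / 3| ≤ 1 := by
  have h := abs_le.1 (st_abs t)
  rw [abs_of_nonneg (by positivity)]
  nlinarith [h.1, h.2]

theorem cc0_pos : 0 < cc0 := by
  unfold cc0
  rw [integral_pos_iff_support_of_nonneg_ae (ae_of_all _ fun t => by positivity)
    (Integrable.of_bound measurable_bt.aestronglyMeasurable 1 (ae_of_all _ fun t => bt_bound t))]
  have h1 : (Set.Ioo (⟨0, by norm_num⟩ : I) ⟨1 / 2, by norm_num⟩) ⊆ Function.support
      (fun t : I => st t ^ 2 / 3) := by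
    intro t ht
    have h0 : (0 : ℝ) < t := by
      have := ht.1; exact_mod_cast (Subtype.coe_lt_coe.2 this)
    have h1 : (t : ℝ) < 1 / 2 := by
      have := ht.2; exact_mod_cast (Subtype.coe_lt_coe.2 this)
    rw [Function.mem_support]
    unfold st
    rw [if_pos h1]
    have := Real.sqrt_pos.2 h0
    positivity
  refine lt_of_lt_of_le ?_ (measure_mono h1)
  rw [unitInterval.volume_Ioo]
  norm_num


theorem int4 {α : Type*} [MeasurableSpace α] (m : Measure α) (A B C D : α → ℝ)
    (hA : Integrable A m) (hB : Integrable B m) (hC : Integrable C m) (hD : Integrable D m) :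
    ∫ w, ((A w + B w) + 2 * (C w - D w)) ∂m
      = (∫ w, A w ∂m + ∫ w, B w ∂m) + 2 * (∫ w, C w ∂m - ∫ w, D w ∂m) := by
  have h1 : Integrable (fun w => A w + B w) m := hA.add hB
  have h2 : Integrable (fun w => 2 * (C w - D w)) m := (hC.sub hD).const_mul 2
  rw [integral_add h1 h2, integral_add hA hB, integral_const_mul, integral_sub hC hD]

/-- the posterior mean is the best estimator -/
theorem best (hT : G.IsTree) {θ : ℝ} (h0 : 0 ≤ θ) (h1 : θ < 1) {μ : Measure (V → Bool)}
    [IsProbabilityMeasure μ] (hμ : IsIsing G θ μ)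
    (s : V × ℕ → ℝ) (hs : ∀ j, 0 ≤ s j ∧ s j ≤ 1 / 2) (K : ℕ) (M : Set (V × ℕ))
    (hM : ∀ i ∈ M, i.2 < K) (v : V) (Ψ : (V × ℕ → I) → ℝ) (hΨ : Measurable Ψ) (C : ℝ)
    (hC : ∀ z, |Ψ z| ≤ C) :
    ∫ ω, (sg (ω.1 v) - mm G θ (xf s K M (zob s ω)) v) ^ 2 ∂(P1 μ)
      ≤ ∫ ω, (sg (ω.1 v) - Ψ (mask M (zob s ω))) ^ 2 ∂(P1 μ) := by
  have hmz : Measurable (fun ω : (V → Bool) × (V × ℕ → I) => mask M (zob s ω)) :=
    (measurable_mask M).comp (measurable_zob s)
  have hmm : Measurable (fun z : V × ℕ → I => mm G θ (xf s K M z) v) :=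
    (measurable_mm G θ v).comp (measurable_xf K M s)
  have hmmb : ∀ z, |mm G θ (xf s K M z) v| ≤ 1 := fun z => iv_abs_mm_le G θ _ v
  have hm1 : Measurable (fun ω : (V → Bool) × (V × ℕ → I) => mm G θ (xf s K M (zob s ω)) v) :=
    hmm.comp (measurable_zob s)
  have hm2 : Measurable (fun ω : (V → Bool) × (V × ℕ → I) => Ψ (mask M (zob s ω))) := hΨ.comp hmz
  have hm3 : Measurable (fun ω : (V → Bool) × (V × ℕ → I) => sg (ω.1 v)) := Post.measurable_sgv v
  have hΦ : Measurable (fun z : V × ℕ → I => mm G θ (xf s K M z) v - Ψ z) := hmm.sub hΨ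
  have hΦb : ∀ z, |mm G θ (xf s K M z) v - Ψ z| ≤ 1 + C := fun z =>
    (abs_sub _ _).trans (add_le_add (hmmb z) (hC z))
  have key := post_mean G hT h0 h1 hμ s hs K M hM v _ hΦ (1 + C) hΦb
  simp only [xf_mask] at key
  have hC0 : 0 ≤ C := (abs_nonneg _).trans (hC (fun _ => 0))
  have i1 : Integrable (fun ω : (V → Bool) × (V × ℕ → I) =>
      (sg (ω.1 v) - mm G θ (xf s K M (zob s ω)) v) ^ 2) (P1 μ) := by
    refine Post.integrable_of_bdd_P1 ((hm3.sub hm1).pow_const 2) (C := 4) fun ω => ?_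
    have a1 := abs_le.1 (Post.abs_sg (ω.1 v)).le
    have a2 := abs_le.1 (hmmb (zob s ω))
    rw [abs_of_nonneg (sq_nonneg _)]
    nlinarith [a1.1, a1.2, a2.1, a2.2]
  have i2 : Integrable (fun ω : (V → Bool) × (V × ℕ → I) =>
      (mm G θ (xf s K M (zob s ω)) v - Ψ (mask M (zob s ω))) ^ 2) (P1 μ) := by
    refine Post.integrable_of_bdd_P1 ((hm1.sub hm2).pow_const 2) (C := (1 + C) ^ 2) fun ω => ?_
    rw [abs_of_nonneg (sq_nonneg _)]
    have := hΦb (mask M (zob s ω))
    simp only [xf_mask] at this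
    rw [← sq_abs]
    gcongr
  have i3 : Integrable (fun ω : (V → Bool) × (V × ℕ → I) =>
      sg (ω.1 v) * (mm G θ (xf s K M (zob s ω)) v - Ψ (mask M (zob s ω)))) (P1 μ) := by
    refine Post.integrable_of_bdd_P1 (hm3.mul (hm1.sub hm2)) (C := 1 * (1 + C)) fun ω => ?_
    have := hΦb (mask M (zob s ω))
    simp only [xf_mask] at this
    exact abs_mul_le_two (Post.abs_sg _).le this
  have i4 : Integrable (fun ω : (V → Bool) × (V × ℕ → I) =>
      mm G θ (xf s K M (zob s ω)) v * (mm G θ (xf s K M (zob s ω)) v - Ψ (mask M (zob s ω))))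
      (P1 μ) := by
    refine Post.integrable_of_bdd_P1 (hm1.mul (hm1.sub hm2)) (C := 1 * (1 + C)) fun ω => ?_
    have := hΦb (mask M (zob s ω))
    simp only [xf_mask] at this
    exact abs_mul_le_two (hmmb _) this
  have e : ∀ ω : (V → Bool) × (V × ℕ → I), (sg (ω.1 v) - Ψ (mask M (zob s ω))) ^ 2
      = ((sg (ω.1 v) - mm G θ (xf s K M (zob s ω)) v) ^ 2
        + (mm G θ (xf s K M (zob s ω)) v - Ψ (mask M (zob s ω))) ^ 2)
        + 2 * (sg (ω.1 v) * (mm G θ (xf s K M (zob s ω)) v - Ψ (mask M (zob s ω)))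
          - mm G θ (xf s K M (zob s ω)) v
            * (mm G θ (xf s K M (zob s ω)) v - Ψ (mask M (zob s ω)))) := by
    intro ω; ring
  simp_rw [e]
  rw [int4 (P1 μ) (fun ω : (V → Bool) × (V × ℕ → I) =>
      (sg (ω.1 v) - mm G θ (xf s K M (zob s ω)) v) ^ 2)
    (fun ω : (V → Bool) × (V × ℕ → I) =>
      (mm G θ (xf s K M (zob s ω)) v - Ψ (mask M (zob s ω))) ^ 2)
    (fun ω : (V → Bool) × (V × ℕ → I) =>
      sg (ω.1 v) * (mm G θ (xf s K M (zob s ω)) v - Ψ (mask M (zob s ω))))
    (fun ω : (V → Bool) × (V × ℕ → I) =>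
      mm G θ (xf s K M (zob s ω)) v * (mm G θ (xf s K M (zob s ω)) v - Ψ (mask M (zob s ω))))
    i1 i2 i3 i4, key, sub_self, mul_zero, add_zero]
  have : 0 ≤ ∫ ω, (mm G θ (xf s K M (zob s ω)) v - Ψ (mask M (zob s ω))) ^ 2 ∂(P1 μ) :=
    integral_nonneg fun ω => sq_nonneg _
  linarith

/-- second moment of the linear estimator, labels and spins fixed -/
theorem inner_bound (v : V) (k : ℕ) (T : V × ℕ → I) (x : V → Bool) (a : ℝ) :
    ∫ ξ, (sg (x v) * a - ∑ l ∈ Finset.range k,
        st (T (v, l)) * (2 * (zob (sts T) (x, ξ) (v, l) : ℝ) - 1)) ^ 2 ∂(nz V)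
      ≤ (a - ∑ l ∈ Finset.range k, st (T (v, l)) ^ 2 / 3) ^ 2 + k := by
  have hQ : ∀ c : ℝ, Measurable (Qm c) := fun c =>
    measurable_Qm.comp (measurable_const.prodMk measurable_id)
  have hc : ∀ l, |sg (x v) * st (T (v, l))| ≤ 1 / 2 := by
    intro l
    rw [abs_mul, Post.abs_sg, one_mul]
    exact st_abs _
  have h := lln (V := V) v k (sg (x v) * a)
    (fun l u => st (T (v, l)) * (2 * (Qm (sg (x v) * st (T (v, l))) u : ℝ) - 1))
    (fun l => (((measurable_subtype_coe.comp (hQ (sg (x v) * st (T (v, l))))).const_mul 2).sub_const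
      1).const_mul _)
    (fun l z => by
      have h1 := (Qm (sg (x v) * st (T (v, l))) z).2.1
      have h2 := (Qm (sg (x v) * st (T (v, l))) z).2.2
      have h3 : |2 * (Qm (sg (x v) * st (T (v, l))) z : ℝ) - 1| ≤ 1 := by
        rw [abs_le]; constructor <;> linarith
      rw [abs_mul]
      have h4 := st_abs (T (v, l))
      have h5 := abs_nonneg (2 * (Qm (sg (x v) * st (T (v, l))) z : ℝ) - 1)
      nlinarith [abs_nonneg (st (T (v, l)))])
  have h2 : ∀ l, ∫ u : I, st (T (v, l)) * (2 * (Qm (sg (x v) * st (T (v, l))) u : ℝ) - 1)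
      = sg (x v) * (st (T (v, l)) ^ 2 / 3) := by
    intro l
    rw [integral_const_mul, chan_mean (hc l)]
    ring
  simp only [h2] at h
  rw [← Finset.mul_sum, ← mul_sub, mul_pow] at h
  have h3 : sg (x v) ^ 2 = 1 := by
    rcases Post.sg_mem (x v) with h | h <;> rw [h] <;> norm_num
  rw [h3, one_mul] at h
  exact h

end IA

/-- the spin at `v` is asymptotically determined by its own observations:
`E (σ - m)² ≤ C/(k+1)` by comparison with the linear estimator `S = (1/(c k)) ∑_l st(T_l)(2 z_l - 1)` -/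
theorem mean_sq_err (hT : G.IsTree) {θ : ℝ} (h0 : 0 ≤ θ) (h1 : θ < 1) {μ : Measure (V → Bool)}
    [IsProbabilityMeasure μ] (hμ : IsIsing G θ μ) (v : V) :
    ∃ C : ℝ, 0 < C ∧ ∀ k : ℕ,
      ∫ T, ∫ ω, (sg (ω.1 v) - m1 G θ (k + 1) (thr T k (1 / 2)) T v ω) ^ 2 ∂(P1 μ) ∂(nz V)
        ≤ C / (k + 1) := by
  classical
  have hc := IA.cc0_pos
  set c := IA.cc0 with hcdef
  have hPn : IsProbabilityMeasure (nz V) := by unfold nz; infer_instance
  -- joint integrability
  have hmm := measurable_mm G θ v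
  have hjm : ∀ k : ℕ, Measurable (fun p : (V × ℕ → I) × ((V → Bool) × (V × ℕ → I)) =>
      (sg (p.2.1 v) - m1 G θ (k + 1) (thr p.1 k (1 / 2)) p.1 v p.2) ^ 2) := by
    intro k
    have hm3 : Measurable (fun p : (V × ℕ → I) × ((V → Bool) × (V × ℕ → I)) =>
        xf (sts p.1) (k + 1) (thr p.1 k (1 / 2)) (zob (sts p.1) p.2)) := by
      have e1 : Measurable (fun p : (V × ℕ → I) × ((V → Bool) × (V × ℕ → I)) =>
          ((1 / 2 : ℝ), (p.1, zob (sts p.1) p.2))) :=
        measurable_const.prodMk (measurable_fst.prodMk PA.measurable_zob_param)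
      exact (measurable_xf_thr (V := V) k).comp e1
    unfold m1
    refine ((Post.post_measurable_sg.comp ?_).sub (hmm.comp hm3)).pow_const 2
    fun_prop
  have hbd : ∀ (k : ℕ) (p : (V × ℕ → I) × ((V → Bool) × (V × ℕ → I))),
      |(sg (p.2.1 v) - m1 G θ (k + 1) (thr p.1 k (1 / 2)) p.1 v p.2) ^ 2| ≤ 4 := by
    intro k p
    have a1 := abs_le.1 (Post.abs_sg (p.2.1 v)).le
    have a2 := abs_le.1 (iv_abs_mm_le G θ
      (xf (sts p.1) (k + 1) (thr p.1 k (1 / 2)) (zob (sts p.1) p.2)) v)
    rw [abs_of_nonneg (sq_nonneg _)]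
    unfold m1
    nlinarith [a1.1, a1.2, a2.1, a2.2]
  have hint : ∀ k : ℕ, Integrable (fun T : V × ℕ → I =>
      ∫ ω, (sg (ω.1 v) - m1 G θ (k + 1) (thr T k (1 / 2)) T v ω) ^ 2 ∂(P1 μ)) (nz V) := by
    intro k
    have h2 : Integrable (fun p : (V × ℕ → I) × ((V → Bool) × (V × ℕ → I)) =>
        (sg (p.2.1 v) - m1 G θ (k + 1) (thr p.1 k (1 / 2)) p.1 v p.2) ^ 2)
        ((nz V).prod (P1 μ)) :=
      Integrable.of_bound (hjm k).aestronglyMeasurable 4 (ae_of_all _ fun p => by
        simpa using hbd k p)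
    exact h2.integral_prod_left
  refine ⟨4 + 4 / c ^ 2, by positivity, fun k => ?_⟩
  rcases Nat.eq_zero_or_pos k with rfl | hk
  · -- trivial bound
    have h2 : ∀ T : V × ℕ → I,
        ∫ ω, (sg (ω.1 v) - m1 G θ (0 + 1) (thr T 0 (1 / 2)) T v ω) ^ 2 ∂(P1 μ) ≤ 4 := by
      intro T
      calc ∫ ω, (sg (ω.1 v) - m1 G θ (0 + 1) (thr T 0 (1 / 2)) T v ω) ^ 2 ∂(P1 μ)
          ≤ ∫ _ω, (4 : ℝ) ∂(P1 μ) := by
            refine integral_mono_of_nonneg (ae_of_all _ fun ω => sq_nonneg _) (integrable_const _)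
              (ae_of_all _ fun ω => ?_)
            exact (le_abs_self _).trans (hbd 0 (T, ω))
        _ = 4 := by simp
    calc ∫ T, ∫ ω, (sg (ω.1 v) - m1 G θ (0 + 1) (thr T 0 (1 / 2)) T v ω) ^ 2 ∂(P1 μ) ∂(nz V)
        ≤ ∫ _T, (4 : ℝ) ∂(nz V) := integral_mono (hint 0) (integrable_const _) h2
      _ = 4 := by simp
      _ ≤ (4 + 4 / c ^ 2) / ((0 : ℕ) + 1) := by
          have : 0 < 4 / c ^ 2 := by positivity
          simp only [Nat.cast_zero, zero_add, div_one]
          linarith
  · have hk' : (0 : ℝ) < k := by exact_mod_cast hk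
    -- comparison for fixed labels
    have h2 : ∀ T : V × ℕ → I,
        ∫ ω, (sg (ω.1 v) - m1 G θ (k + 1) (thr T k (1 / 2)) T v ω) ^ 2 ∂(P1 μ)
          ≤ (1 / (c * k)) ^ 2
            * ((c * k - ∑ l ∈ Finset.range k, st (T (v, l)) ^ 2 / 3) ^ 2 + k) := by
      intro T
      have hthr : ∀ i ∈ thr T k (1 / 2), i.2 < k + 1 := by
        intro i hi
        rcases hi with h | ⟨h, _⟩ <;> omega
      have hΨm : Measurable (fun z : V × ℕ → I => (1 / (c * k)) * ∑ l ∈ Finset.range k,
          st (T (v, l)) * (2 * (z (v, l) : ℝ) - 1)) := by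
        refine Measurable.const_mul (Finset.measurable_sum _ fun l _ => ?_) _
        fun_prop
      have hΨb : ∀ z : V × ℕ → I, |(1 / (c * k)) * ∑ l ∈ Finset.range k,
          st (T (v, l)) * (2 * (z (v, l) : ℝ) - 1)| ≤ (1 / (c * k)) * k := by
        intro z
        rw [abs_mul, abs_of_pos (by positivity : 0 < 1 / (c * k))]
        gcongr
        refine (Finset.abs_sum_le_sum_abs _ _).trans ?_
        calc ∑ l ∈ Finset.range k, |st (T (v, l)) * (2 * (z (v, l) : ℝ) - 1)|
            ≤ ∑ _l ∈ Finset.range k, (1 : ℝ) := by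
              refine Finset.sum_le_sum fun l _ => ?_
              have h1 := (z (v, l)).2.1
              have h2 := (z (v, l)).2.2
              have h3 : |2 * (z (v, l) : ℝ) - 1| ≤ 1 := by
                rw [abs_le]; constructor <;> linarith
              rw [abs_mul]
              have h4 := IA.st_abs (T (v, l))
              nlinarith [abs_nonneg (st (T (v, l))), abs_nonneg (2 * (z (v, l) : ℝ) - 1)]
          _ = k := by simp
      have hb := IA.best G hT h0 h1 hμ (sts T) (PA.st_bound T) (k + 1) (thr T k (1 / 2)) hthr v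
        _ hΨm _ hΨb
      refine hb.trans ?_
      have hmask : ∀ z : V × ℕ → I, ∀ l ∈ Finset.range k,
          mask (thr T k (1 / 2)) z (v, l) = z (v, l) := by
        intro z l hl
        unfold mask
        rw [if_pos]
        exact Or.inl (Finset.mem_range.1 hl)
      have e1 : ∀ ω : (V → Bool) × (V × ℕ → I),
          (sg (ω.1 v) - (1 / (c * k)) * ∑ l ∈ Finset.range k,
            st (T (v, l)) * (2 * (mask (thr T k (1 / 2)) (zob (sts T) ω) (v, l) : ℝ) - 1)) ^ 2
          = (1 / (c * k)) ^ 2 * (sg (ω.1 v) * (c * k) - ∑ l ∈ Finset.range k,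
            st (T (v, l)) * (2 * (zob (sts T) ω (v, l) : ℝ) - 1)) ^ 2 := by
        intro ω
        rw [Finset.sum_congr rfl fun l hl => by rw [hmask (zob (sts T) ω) l hl]]
        field_simp
      simp_rw [e1]
      rw [integral_const_mul]
      gcongr
      have hFm : Measurable (fun ω : (V → Bool) × (V × ℕ → I) =>
          (sg (ω.1 v) * (c * k) - ∑ l ∈ Finset.range k,
            st (T (v, l)) * (2 * (zob (sts T) ω (v, l) : ℝ) - 1)) ^ 2) := by
        have hz := measurable_zob (V := V) (sts T)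
        refine Measurable.pow_const (Measurable.sub ((Post.measurable_sgv v).mul_const _)
          (Finset.measurable_sum _ fun l _ => ?_)) 2
        have h7 : Measurable (fun ω : (V → Bool) × (V × ℕ → I) => zob (sts T) ω (v, l)) :=
          (measurable_pi_apply _).comp hz
        exact (((measurable_subtype_coe.comp h7).const_mul 2).sub_const 1).const_mul _
      have hFb : ∀ ω : (V → Bool) × (V × ℕ → I),
          |(sg (ω.1 v) * (c * k) - ∑ l ∈ Finset.range k,
            st (T (v, l)) * (2 * (zob (sts T) ω (v, l) : ℝ) - 1)) ^ 2| ≤ (c * k + k) ^ 2 := by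
        intro ω
        rw [abs_of_nonneg (sq_nonneg _), ← sq_abs]
        gcongr
        refine (abs_sub _ _).trans (add_le_add ?_ ?_)
        · rw [abs_mul, Post.abs_sg, one_mul, abs_of_pos (by positivity)]
        · refine (Finset.abs_sum_le_sum_abs _ _).trans ?_
          calc ∑ l ∈ Finset.range k, |st (T (v, l)) * (2 * (zob (sts T) ω (v, l) : ℝ) - 1)|
              ≤ ∑ _l ∈ Finset.range k, (1 : ℝ) := by
                refine Finset.sum_le_sum fun l _ => ?_
                have h1 := (zob (sts T) ω (v, l)).2.1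
                have h2 := (zob (sts T) ω (v, l)).2.2
                have h3 : |2 * (zob (sts T) ω (v, l) : ℝ) - 1| ≤ 1 := by
                  rw [abs_le]; constructor <;> linarith
                rw [abs_mul]
                have h4 := IA.st_abs (T (v, l))
                nlinarith [abs_nonneg (st (T (v, l))),
                  abs_nonneg (2 * (zob (sts T) ω (v, l) : ℝ) - 1)]
            _ = k := by simp
      have hFi := Post.integrable_of_bdd_P1 (μ := μ) hFm hFb
      unfold P1 at hFi ⊢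
      rw [integral_prod _ hFi]
      calc ∫ x, ∫ ξ, (sg (x v) * (c * k) - ∑ l ∈ Finset.range k,
            st (T (v, l)) * (2 * (zob (sts T) (x, ξ) (v, l) : ℝ) - 1)) ^ 2 ∂(nz V) ∂μ
          ≤ ∫ _x, ((c * k - ∑ l ∈ Finset.range k, st (T (v, l)) ^ 2 / 3) ^ 2 + k) ∂μ :=
            integral_mono hFi.integral_prod_left (integrable_const _)
              fun x => IA.inner_bound v k T x (c * k)
        _ = _ := by simp
    -- average over the labels
    have hGm : Measurable (fun T : V × ℕ → I =>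
        (c * k - ∑ l ∈ Finset.range k, st (T (v, l)) ^ 2 / 3) ^ 2) := by
      refine Measurable.pow_const (measurable_const.sub (Finset.measurable_sum _ fun l _ => ?_)) 2
      exact IA.measurable_bt.comp (measurable_pi_apply _)
    have hGb : ∀ T : V × ℕ → I,
        |(c * k - ∑ l ∈ Finset.range k, st (T (v, l)) ^ 2 / 3) ^ 2| ≤ (c * k + k) ^ 2 := by
      intro T
      rw [abs_of_nonneg (sq_nonneg _), ← sq_abs]
      gcongr
      refine (abs_sub _ _).trans (add_le_add (abs_of_pos (by positivity)).le ?_)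
      refine (Finset.abs_sum_le_sum_abs _ _).trans ?_
      calc ∑ l ∈ Finset.range k, |st (T (v, l)) ^ 2 / 3| ≤ ∑ _l ∈ Finset.range k, (1 : ℝ) :=
            Finset.sum_le_sum fun l _ => IA.bt_bound _
        _ = k := by simp
    have hGi : Integrable (fun T : V × ℕ → I =>
        (c * k - ∑ l ∈ Finset.range k, st (T (v, l)) ^ 2 / 3) ^ 2) (nz V) :=
      Integrable.of_bound hGm.aestronglyMeasurable _ (ae_of_all _ fun T => by simpa using hGb T)
    have h3 := IA.lln (V := V) v k (c * k) (fun _ t => st t ^ 2 / 3) (fun _ => IA.measurable_bt)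
      (fun _ t => IA.bt_bound t)
    have h4 : ∑ _l ∈ Finset.range k, ∫ t : I, st t ^ 2 / 3 = c * k := by
      rw [Finset.sum_const, Finset.card_range, nsmul_eq_mul, hcdef, mul_comm]
      rfl
    rw [h4, sub_self] at h3
    calc ∫ T, ∫ ω, (sg (ω.1 v) - m1 G θ (k + 1) (thr T k (1 / 2)) T v ω) ^ 2 ∂(P1 μ) ∂(nz V)
        ≤ ∫ T : V × ℕ → I, (1 / (c * k)) ^ 2
            * ((c * k - ∑ l ∈ Finset.range k, st (T (v, l)) ^ 2 / 3) ^ 2 + k) ∂(nz V) :=
          integral_mono (hint k) ((hGi.add (integrable_const _)).const_mul _) h2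
      _ = (1 / (c * k)) ^ 2
            * ((∫ T : V × ℕ → I, (c * k - ∑ l ∈ Finset.range k, st (T (v, l)) ^ 2 / 3) ^ 2 ∂(nz V))
              + k) := by
          rw [integral_const_mul, integral_add hGi (integrable_const _)]
          simp
      _ ≤ (1 / (c * k)) ^ 2 * ((0 ^ 2 + k) + k) := by gcongr
      _ = 2 / (c ^ 2 * k) := by field_simp; ring
      _ ≤ (4 + 4 / c ^ 2) / (k + 1) := by
          rw [div_le_div_iff₀ (by positivity) (by positivity)]
          have h5 : (4 + 4 / c ^ 2) * (c ^ 2 * k) = (4 * c ^ 2 + 4) * k := by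
            field_simp
          rw [h5]
          have hk1 : (1 : ℝ) ≤ k := by exact_mod_cast hk
          nlinarith [mul_pos (pow_pos hc 2) hk']

end Crest.Agent.FI
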