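import Mathlib
import Crest.Agent.FI.ProcDefs2
import Crest.Agent.FI.ProcA
import Crest.Agent.FI.ProcSF

set_option autoImplicit false

namespace Crest.Agent.FI

open MeasureTheory ProbabilityTheory unitInterval Set Filter Topology
open scoped ENNReal

namespace PS

variable {V : Type*} [Countable V] (G : SimpleGraph V) [G.LocallyFinite]

instance twK_markov (θ : ℝ) (μ : Measure (V → Bool)) [IsProbabilityMeasure μ] :
    IsMarkovKernel (twK G θ μ) := by
  unfold twK ck
  infer_instance

instance P2_prob (θ : ℝ) (μ : Measure (V → Bool)) [IsProbabilityMeasure μ] :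
    IsProbabilityMeasure (P2 G θ μ) := by
  unfold P2
  infer_instance

omit [Countable V] in
theorem sts_mem (T : V × ℕ → I) (j : V × ℕ) : 0 ≤ sts T j ∧ sts T j ≤ 1 / 2 :=
  ⟨st_nonneg _, (st_le _).trans (by norm_num)⟩

omit [Countable V] in
theorem thrV_const (T : V × ℕ → I) (k : ℕ) (s : ℝ) : thrV T k (fun _ => s) = thr T k s := rfl

/-- law of the fields -/
theorem fieldLaw_eq (μ : Measure (V → Bool)) [IsProbabilityMeasure μ] (k : ℕ) (s : V → ℝ) :
    fieldLaw μ (fun v => rho k (s v))
      = ((nz V).prod (P1 μ)).map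
        (fun p => xf (sts p.1) (k + 1) (thrV p.1 k s) (zob (sts p.1) p.2)) := by
  have hm1 : Measurable (fun p : (V × ℕ → I) × ((V → Bool) × (V × ℕ → I)) =>
      xf (sts p.1) (k + 1) (thrV p.1 k s) (zob (sts p.1) p.2)) :=
    (measurable_xf_thrV k s).comp (measurable_fst.prodMk measurable_zob_param)
  have hm : Measurable (fun p : (V × ℕ → I) × ((V → Bool) × (V × ℕ → I)) =>
      (p.2.1, xf (sts p.1) (k + 1) (thrV p.1 k s) (zob (sts p.1) p.2))) :=
    (measurable_fst.comp measurable_snd).prodMk hm1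
  unfold fieldLaw
  rw [← spinField_xf μ k s, Measure.map_map measurable_snd hm]
  rfl

end PS

variable {V : Type*} [Countable V] (G : SimpleGraph V) [G.LocallyFinite]

theorem good_rho (hT : G.IsTree) {θ : ℝ} (h0 : 0 ≤ θ) (h1 : θ < 1) {μ : Measure (V → Bool)}
    [IsProbabilityMeasure μ] (hμ : IsIsing G θ μ) (k : ℕ) (s : V → ℝ) :
    ∀ᵐ x ∂(fieldLaw μ (fun v => rho k (s v))), Good G θ x := by
  have hm1 : Measurable (fun p : (V × ℕ → I) × ((V → Bool) × (V × ℕ → I)) =>
      xf (sts p.1) (k + 1) (thrV p.1 k s) (zob (sts p.1) p.2)) :=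
    (measurable_xf_thrV k s).comp (measurable_fst.prodMk measurable_zob_param)
  have hG := measurableSet_Good (G := G) θ
  have hset : MeasurableSet {p : (V × ℕ → I) × ((V → Bool) × (V × ℕ → I)) |
      Good G θ (xf (sts p.1) (k + 1) (thrV p.1 k s) (zob (sts p.1) p.2))} := hm1 hG
  rw [PS.fieldLaw_eq μ k s, ae_map_iff hm1.aemeasurable hG, Measure.ae_prod_iff_ae_ae hset]
  refine Eventually.of_forall fun T => ?_
  exact post_good G hT h0 h1 hμ (sts T) (PS.sts_mem T) (k + 1) (thrV T k s) (by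
    rintro i (hi | ⟨hi, -⟩)
    · omega
    · omega)

theorem measurable_pairX (k : ℕ) :
    Measurable (fun p : ℝ × ((V × ℕ → I) × ((V × ℕ → I) × XX V × XX V)) => pairX k p.1 p.2) := by
  have h := measurable_xf_thr (V := V) k
  have e1 : Measurable (fun p : ℝ × ((V × ℕ → I) × ((V × ℕ → I) × XX V × XX V)) =>
      (p.1, (p.2.1, p.2.2.2.1.2))) := by fun_prop
  have e2 : Measurable (fun p : ℝ × ((V × ℕ → I) × ((V × ℕ → I) × XX V × XX V)) =>
      (p.1, (p.2.1, p.2.2.2.2.2))) := by fun_prop
  exact (h.comp e1).prodMk (h.comp e2)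

namespace PS

theorem measurable_pairX' (k : ℕ) (s : ℝ) : Measurable (pairX (V := V) k s) :=
  (measurable_pairX (V := V) k).comp (measurable_const.prodMk measurable_id)

instance QQ_prob (θ : ℝ) (μ : Measure (V → Bool)) [IsProbabilityMeasure μ] (k : ℕ) (s : ℝ) :
    IsProbabilityMeasure (QQ G θ μ k s) :=
  Measure.isProbabilityMeasure_map (measurable_pairX' k s).aemeasurable

/-- law of labels and one copy of (spins, observations) -/
theorem marg_aux (θ : ℝ) {μ : Measure (V → Bool)} [IsProbabilityMeasure μ]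
    (f : (V × ℕ → I) × XX V × XX V → XX V) (hf : Measurable f)
    (hmarg : ∀ T : V × ℕ → I, Function.Injective T →
      (twK G θ μ T).map f = (P1 μ).map (fun ω => (ω.1, zob (sts T) ω))) :
    (P2 G θ μ).map (fun q => (q.1, f q.2))
      = ((nz V).prod (P1 μ)).map (fun p => (p.1, (p.2.1, zob (sts p.1) p.2))) := by
  have hm1 : Measurable (fun q : (V × ℕ → I) × ((V × ℕ → I) × XX V × XX V) => (q.1, f q.2)) :=
    measurable_fst.prodMk (hf.comp measurable_snd)
  have hm2 : Measurable (fun p : (V × ℕ → I) × ((V → Bool) × (V × ℕ → I)) =>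
      (p.1, (p.2.1, zob (sts p.1) p.2))) :=
    measurable_fst.prodMk ((measurable_fst.comp measurable_snd).prodMk measurable_zob_param)
  refine Measure.ext_of_lintegral _ fun g hg => ?_
  have hg1 : Measurable (fun q : (V × ℕ → I) × ((V × ℕ → I) × XX V × XX V) => g (q.1, f q.2)) :=
    hg.comp hm1
  have hg2 : Measurable (fun p : (V × ℕ → I) × ((V → Bool) × (V × ℕ → I)) =>
      g (p.1, (p.2.1, zob (sts p.1) p.2))) := hg.comp hm2
  rw [lintegral_map hg hm1, lintegral_map hg hm2, P2, Measure.lintegral_compProd hg1,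
    lintegral_prod _ hg2.aemeasurable]
  refine lintegral_congr_ae ?_
  filter_upwards [ae_injective (V := V)] with T hT
  have hgT : Measurable (fun x : XX V => g (T, x)) := hg.comp (measurable_const.prodMk measurable_id)
  have hz : Measurable (fun ω : (V → Bool) × (V × ℕ → I) => ((ω.1, zob (sts T) ω) : XX V)) :=
    measurable_fst.prodMk (measurable_zob (sts T))
  have e1 : ∫⁻ q, g (T, f q) ∂(twK G θ μ T) = ∫⁻ x, g (T, x) ∂((twK G θ μ T).map f) :=
    (lintegral_map hgT hf).symm
  rw [e1, hmarg T hT, lintegral_map hgT hz]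

theorem marg (hT : G.IsTree) {θ : ℝ} (h0 : 0 ≤ θ) (h1 : θ < 1) {μ : Measure (V → Bool)}
    [IsProbabilityMeasure μ] (hμ : IsIsing G θ μ) (k : ℕ) (s : ℝ)
    (f : (V × ℕ → I) × XX V × XX V → XX V) (hf : Measurable f)
    (hmarg : ∀ T : V × ℕ → I, Function.Injective T →
      (twK G θ μ T).map f = (P1 μ).map (fun ω => (ω.1, zob (sts T) ω))) :
    (P2 G θ μ).map (fun q => xf (sts q.1) (k + 1) (thr q.1 k s) (f q.2).2)
      = fieldLaw μ (fun _ => rho k s) := by
  have hm1 : Measurable (fun q : (V × ℕ → I) × ((V × ℕ → I) × XX V × XX V) => (q.1, f q.2)) :=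
    measurable_fst.prodMk (hf.comp measurable_snd)
  have hm2 : Measurable (fun p : (V × ℕ → I) × ((V → Bool) × (V × ℕ → I)) =>
      (p.1, ((p.2.1, zob (sts p.1) p.2) : XX V))) :=
    measurable_fst.prodMk ((measurable_fst.comp measurable_snd).prodMk measurable_zob_param)
  have hm3 : Measurable (fun q : (V × ℕ → I) × XX V =>
      xf (sts q.1) (k + 1) (thr q.1 k s) q.2.2) := by
    have e1 : Measurable (fun q : (V × ℕ → I) × XX V => (s, (q.1, q.2.2))) := by fun_prop
    exact (measurable_xf_thr (V := V) k).comp e1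
  have e1 := marg_aux G θ (μ := μ) f hf hmarg
  have e2 := congrArg (fun ν => ν.map (fun q : (V × ℕ → I) × XX V =>
      xf (sts q.1) (k + 1) (thr q.1 k s) q.2.2)) e1
  beta_reduce at e2
  rw [Measure.map_map hm3 hm1, Measure.map_map hm3 hm2] at e2
  rw [fieldLaw_eq μ k (fun _ => s)]
  exact e2

omit [Countable V] in
/-- labels after relabelling -/
theorem pairX_aut (g : V → V) (k : ℕ) (s : ℝ) (q : (V × ℕ → I) × ((V × ℕ → I) × XX V × XX V)) :
    ((pairX k s q).1 ∘ g, (pairX k s q).2 ∘ g)
      = pairX k s ((fun j : V × ℕ => q.1 (g j.1, j.2)),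
        ((fun j : V × ℕ => q.2.1 (g j.1, j.2)),
        (q.2.2.1.1 ∘ g, fun j : V × ℕ => q.2.2.1.2 (g j.1, j.2)),
        (q.2.2.2.1 ∘ g, fun j : V × ℕ => q.2.2.2.2 (g j.1, j.2)))) := by
  rfl

theorem map_nz_aut (g : V ≃ V) :
    (nz V).map (fun (T : V × ℕ → I) (j : V × ℕ) => T (g j.1, j.2)) = nz V := by
  have hinj : Function.Injective (fun j : V × ℕ => (g j.1, j.2)) := by
    intro a b h
    simp only [Prod.mk.injEq, EmbeddingLike.apply_eq_iff_eq] at h
    exact Prod.ext h.1 h.2
  exact Measure.map_infinitePi_infinitePi_of_inj (P := fun _ : V × ℕ => (volume : Measure I)) hinj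

theorem P2_aut (hT : G.IsTree) {θ : ℝ} (h0 : 0 ≤ θ) (h1 : θ < 1) {μ : Measure (V → Bool)}
    [IsProbabilityMeasure μ] (hμ : IsIsing G θ μ) (g : G ≃g G) :
    (P2 G θ μ).map (fun q => ((fun j : V × ℕ => q.1 (g j.1, j.2)),
        ((fun j : V × ℕ => q.2.1 (g j.1, j.2)),
        (q.2.2.1.1 ∘ g, fun j : V × ℕ => q.2.2.1.2 (g j.1, j.2)),
        (q.2.2.2.1 ∘ g, fun j : V × ℕ => q.2.2.2.2 (g j.1, j.2))))) = P2 G θ μ := by
  have hTm : Measurable (fun (T : V × ℕ → I) (j : V × ℕ) => T (g j.1, j.2)) :=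
    measurable_pi_iff.2 fun j => measurable_pi_apply _
  have hqm : Measurable (fun q : (V × ℕ → I) × XX V × XX V =>
      ((fun j : V × ℕ => q.1 (g j.1, j.2)),
        ((q.2.1.1 ∘ g, fun j : V × ℕ => q.2.1.2 (g j.1, j.2)) : XX V),
        ((q.2.2.1 ∘ g, fun j : V × ℕ => q.2.2.2 (g j.1, j.2)) : XX V))) := by
    refine Measurable.prodMk ?_ (Measurable.prodMk (Measurable.prodMk ?_ ?_)
      (Measurable.prodMk ?_ ?_))
    · exact measurable_pi_iff.2 fun j => (measurable_pi_apply _).comp measurable_fst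
    · exact measurable_pi_iff.2 fun j => (measurable_pi_apply (g j)).comp
        (measurable_fst.comp (measurable_fst.comp measurable_snd))
    · exact measurable_pi_iff.2 fun j => (measurable_pi_apply (g j.1, j.2)).comp
        (measurable_snd.comp (measurable_fst.comp measurable_snd))
    · exact measurable_pi_iff.2 fun j => (measurable_pi_apply (g j)).comp
        (measurable_fst.comp (measurable_snd.comp measurable_snd))
    · exact measurable_pi_iff.2 fun j => (measurable_pi_apply (g j.1, j.2)).comp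
        (measurable_snd.comp (measurable_snd.comp measurable_snd))
  have hm : Measurable (fun q : (V × ℕ → I) × ((V × ℕ → I) × XX V × XX V) =>
      ((fun j : V × ℕ => q.1 (g j.1, j.2)),
        ((fun j : V × ℕ => q.2.1 (g j.1, j.2)),
        ((q.2.2.1.1 ∘ g, fun j : V × ℕ => q.2.2.1.2 (g j.1, j.2)) : XX V),
        ((q.2.2.2.1 ∘ g, fun j : V × ℕ => q.2.2.2.2 (g j.1, j.2)) : XX V)))) :=
    (hTm.comp measurable_fst).prodMk (hqm.comp measurable_snd)
  refine Measure.ext_of_lintegral _ fun f hf => ?_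
  have hfm : Measurable (fun q : (V × ℕ → I) × ((V × ℕ → I) × XX V × XX V) =>
      f ((fun j : V × ℕ => q.1 (g j.1, j.2)),
        ((fun j : V × ℕ => q.2.1 (g j.1, j.2)),
        ((q.2.2.1.1 ∘ g, fun j : V × ℕ => q.2.2.1.2 (g j.1, j.2)) : XX V),
        ((q.2.2.2.1 ∘ g, fun j : V × ℕ => q.2.2.2.2 (g j.1, j.2)) : XX V)))) := hf.comp hm
  rw [lintegral_map hf hm, P2, Measure.lintegral_compProd hfm,
    Measure.lintegral_compProd hf]
  have hK : Measurable (fun T : V × ℕ → I => ∫⁻ q, f (T, q) ∂(twK G θ μ T)) :=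
    Measurable.lintegral_kernel_prod_right' hf
  conv_rhs => rw [← map_nz_aut g.toEquiv]
  have hTm' : Measurable (fun (T : V × ℕ → I) (j : V × ℕ) => T (g.toEquiv j.1, j.2)) := hTm
  rw [lintegral_map hK hTm']
  refine lintegral_congr_ae ?_
  filter_upwards [ae_injective (V := V)] with T hTi
  have h2 := twK_aut G hT h0 h1 hμ g T hTi
  have h3 : twK G θ μ (fun j : V × ℕ => T (g.toEquiv j.1, j.2))
      = twK G θ μ (fun j : V × ℕ => T (g j.1, j.2)) := rfl
  have hfT : Measurable (fun q : (V × ℕ → I) × XX V × XX V =>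
      f ((fun j : V × ℕ => T (g.toEquiv j.1, j.2)), q)) :=
    hf.comp (measurable_const.prodMk measurable_id)
  rw [h3, ← h2, lintegral_map hfT hqm]
  rfl

end PS

theorem pairState (hT : G.IsTree) {θ : ℝ} (h0 : 0 ≤ θ) (h1 : θ < 1) {μ : Measure (V → Bool)}
    [IsProbabilityMeasure μ] (hμ : IsIsing G θ μ) (k : ℕ) (s : ℝ) :
    PairState G μ (rho k s) (QQ G θ μ k s) where
  prob := PS.QQ_prob G θ μ k s
  fst := by
    unfold QQ
    rw [Measure.map_map measurable_fst (PS.measurable_pairX' k s)]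
    exact PS.marg G hT h0 h1 hμ k s (fun q => q.2.1) (by fun_prop)
      (fun T hinj => tw_marg1 G hT h0 h1 hμ T hinj)
  snd := by
    unfold QQ
    rw [Measure.map_map measurable_snd (PS.measurable_pairX' k s)]
    exact PS.marg G hT h0 h1 hμ k s (fun q => q.2.2) (by fun_prop)
      (fun T hinj => tw_marg2 G hT h0 h1 hμ T hinj)
  inv := by
    intro g
    have hm : Measurable (fun q : (V → ℝ) × (V → ℝ) => (q.1 ∘ g, q.2 ∘ g)) :=
      (measurable_pi_iff.2 fun v => (measurable_pi_apply (g v)).comp measurable_fst).prodMk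
        (measurable_pi_iff.2 fun v => (measurable_pi_apply (g v)).comp measurable_snd)
    have hqm : Measurable (fun q : (V × ℕ → I) × ((V × ℕ → I) × XX V × XX V) =>
      ((fun j : V × ℕ => q.1 (g j.1, j.2)),
        ((fun j : V × ℕ => q.2.1 (g j.1, j.2)),
        ((q.2.2.1.1 ∘ g, fun j : V × ℕ => q.2.2.1.2 (g j.1, j.2)) : XX V),
        ((q.2.2.2.1 ∘ g, fun j : V × ℕ => q.2.2.2.2 (g j.1, j.2)) : XX V)))) := by
      refine Measurable.prodMk ?_ (Measurable.prodMk ?_ (Measurable.prodMk (Measurable.prodMk ?_ ?_)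
        (Measurable.prodMk ?_ ?_)))
      · exact measurable_pi_iff.2 fun j => (measurable_pi_apply _).comp measurable_fst
      · exact measurable_pi_iff.2 fun j => (measurable_pi_apply (g j.1, j.2)).comp
          (measurable_fst.comp measurable_snd)
      · exact measurable_pi_iff.2 fun j => (measurable_pi_apply (g j)).comp
          (measurable_fst.comp (measurable_fst.comp (measurable_snd.comp measurable_snd)))
      · exact measurable_pi_iff.2 fun j => (measurable_pi_apply (g j.1, j.2)).comp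
          (measurable_snd.comp (measurable_fst.comp (measurable_snd.comp measurable_snd)))
      · exact measurable_pi_iff.2 fun j => (measurable_pi_apply (g j)).comp
          (measurable_fst.comp (measurable_snd.comp (measurable_snd.comp measurable_snd)))
      · exact measurable_pi_iff.2 fun j => (measurable_pi_apply (g j.1, j.2)).comp
          (measurable_snd.comp (measurable_snd.comp (measurable_snd.comp measurable_snd)))
    unfold QQ
    rw [Measure.map_map hm (PS.measurable_pairX' k s)]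
    conv_rhs => rw [← PS.P2_aut G hT h0 h1 hμ g, Measure.map_map (PS.measurable_pairX' k s) hqm]
    rfl

theorem yy_zero (hT : G.IsTree) {θ : ℝ} (h0 : 0 ≤ θ) (h1 : θ < 1) {μ : Measure (V → Bool)}
    [IsProbabilityMeasure μ] (hμ : IsIsing G θ μ) (v : V) : yy G θ (QQ G θ μ 0 0) v = 0 := by
  have hmm := measurable_mm G θ v
  have hm : Measurable (fun q : (V → ℝ) × (V → ℝ) => (mm G θ q.1 v - mm G θ q.2 v) ^ 2) :=
    ((hmm.comp measurable_fst).sub (hmm.comp measurable_snd)).pow_const 2
  unfold yy QQ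
  rw [integral_map (PS.measurable_pairX' 0 0).aemeasurable hm.aestronglyMeasurable]
  have h2 : ∀ q : (V × ℕ → I) × ((V × ℕ → I) × XX V × XX V),
      (mm G θ (pairX 0 0 q).1 v - mm G θ (pairX 0 0 q).2 v) ^ 2 = 0 := by
    intro q
    have h3 : thr q.1 0 0 = ∅ := by
      ext i
      simp only [thr, Set.mem_ofPred_eq, Set.mem_empty_iff_false, iff_false, not_or, not_and,
        not_lt]
      exact ⟨by omega, fun _ => (q.1 i).2.1⟩
    have h4 : (pairX 0 0 q).1 = (pairX 0 0 q).2 := by
      unfold pairX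
      simp only [h3]
      funext w
      simp [xf]
    rw [h4]
    simp
  simp only [h2, integral_zero]

theorem QQ_step (θ : ℝ) (μ : Measure (V → Bool)) [IsProbabilityMeasure μ] (k : ℕ) :
    QQ G θ μ (k + 1) 0 = QQ G θ μ k (1 / 2) := by
  have key : ∀ (T z : V × ℕ → I), xf (sts T) (k + 1 + 1) (thr T (k + 1) 0) z
      = xf (sts T) (k + 1) (thr T k (1 / 2)) z := by
    intro T z
    funext v
    unfold xf
    rw [Finset.sum_range_succ]
    have h1 : (v, k + 1) ∉ thr T (k + 1) 0 := by
      simp only [thr, Set.mem_ofPred_eq, lt_irrefl, false_or, true_and, not_lt]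
      exact (T _).2.1
    rw [if_neg h1, add_zero]
    refine Finset.sum_congr rfl fun l hl => ?_
    have hl' := Finset.mem_range.1 hl
    have h2 : (v, l) ∈ thr T (k + 1) 0 := by
      simp only [thr, Set.mem_ofPred_eq]
      exact Or.inl hl'
    rw [if_pos h2]
    by_cases h3 : (v, l) ∈ thr T k (1 / 2)
    · rw [if_pos h3]
    · rw [if_neg h3]
      have h4 : ¬ ((T (v, l) : ℝ) < 1 / 2) := by
        intro h5
        apply h3
        simp only [thr, Set.mem_ofPred_eq]
        rcases Nat.lt_or_ge l k with h6 | h6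
        · exact Or.inl h6
        · exact Or.inr ⟨by omega, h5⟩
      have h5 : sts T (v, l) = 0 := by
        unfold sts st
        rw [if_neg h4]
      rw [h5]
      simp
  unfold QQ
  congr 1
  funext q
  unfold pairX
  simp only [key]

/-- `yy` as an iterated integral -/
theorem yy_QQ (hT : G.IsTree) {θ : ℝ} (h0 : 0 ≤ θ) (h1 : θ < 1) {μ : Measure (V → Bool)}
    [IsProbabilityMeasure μ] (hμ : IsIsing G θ μ) (k : ℕ) (s : ℝ) (v : V) :
    yy G θ (QQ G θ μ k s) v
      = ∫ T, ∫ q, (dl G θ (k + 1) (thr T k s) T v q) ^ 2 ∂(twK G θ μ T) ∂(nz V) := by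
  have hmm := measurable_mm G θ v
  have hm : Measurable (fun q : (V → ℝ) × (V → ℝ) => (mm G θ q.1 v - mm G θ q.2 v) ^ 2) :=
    ((hmm.comp measurable_fst).sub (hmm.comp measurable_snd)).pow_const 2
  have hm' : Measurable (fun q : (V × ℕ → I) × ((V × ℕ → I) × XX V × XX V) =>
      (mm G θ (pairX k s q).1 v - mm G θ (pairX k s q).2 v) ^ 2) :=
    hm.comp (PS.measurable_pairX' k s)
  have hint : Integrable (fun q : (V × ℕ → I) × ((V × ℕ → I) × XX V × XX V) =>
      (mm G θ (pairX k s q).1 v - mm G θ (pairX k s q).2 v) ^ 2) (P2 G θ μ) := by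
    refine Integrable.of_bound hm'.aestronglyMeasurable 4 (Eventually.of_forall fun q => ?_)
    rw [Real.norm_eq_abs, abs_of_nonneg (sq_nonneg _)]
    have a1 := abs_lt.1 (abs_mm_lt G θ (pairX k s q).1 v)
    have a2 := abs_lt.1 (abs_mm_lt G θ (pairX k s q).2 v)
    nlinarith [a1.1, a1.2, a2.1, a2.2]
  unfold yy QQ
  rw [integral_map (PS.measurable_pairX' k s).aemeasurable hm.aestronglyMeasurable]
  unfold P2 at hint ⊢
  rw [Measure.integral_compProd hint]
  rfl

end Crest.Agent.FI
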