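import Mathlib
import Crest.Agent.FI.ProcDefs2
import Crest.Agent.FI.ProcA
import Crest.Agent.FI.ProcState

set_option autoImplicit false

namespace Crest.Agent.FI

open MeasureTheory ProbabilityTheory unitInterval Set Filter Topology
open scoped ENNReal

variable {V : Type*} [Countable V] (G : SimpleGraph V) [G.LocallyFinite]

/-- invariance of the law of (labels, innovations, spins) -/
theorem lam_inv (hT : G.IsTree) {θ : ℝ} (h0 : 0 ≤ θ) (h1 : θ < 1) {μ : Measure (V → Bool)}
    [IsProbabilityMeasure μ] (hμ : IsIsing G θ μ) (g : G ≃g G) :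
    (((nz V).prod (P1 μ)).map (fun p => ((p.1, un G θ p.1 (zob (sts p.1) p.2)), p.2.1))).map
        (fun q => (((fun j : V × ℕ => q.1.1 (g j.1, j.2)), (fun j : V × ℕ => q.1.2 (g j.1, j.2))),
          q.2 ∘ g))
      = ((nz V).prod (P1 μ)).map (fun p => ((p.1, un G θ p.1 (zob (sts p.1) p.2)), p.2.1)) := by
  have hm1 : Measurable (fun x : V → Bool => x ∘ g) :=
    measurable_pi_iff.2 fun j => measurable_pi_apply _
  have hm2 : Measurable (fun u : V × ℕ → I => fun j : V × ℕ => u (g j.1, j.2)) :=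
    measurable_pi_iff.2 fun j => measurable_pi_apply _
  have hΛ : Measurable (fun p : (V × ℕ → I) × ((V → Bool) × (V × ℕ → I)) =>
      ((p.1, un G θ p.1 (zob (sts p.1) p.2)), p.2.1)) :=
    (measurable_fst.prodMk ((PA.measurable_un_joint G θ).comp
      (measurable_fst.prodMk PA.measurable_zob_param))).prodMk
      (measurable_fst.comp measurable_snd)
  have hg : Measurable (fun q : ((V × ℕ → I) × (V × ℕ → I)) × (V → Bool) =>
      (((fun j : V × ℕ => q.1.1 (g j.1, j.2)), (fun j : V × ℕ => q.1.2 (g j.1, j.2))), q.2 ∘ g)) :=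
    ((hm2.comp (measurable_fst.comp measurable_fst)).prodMk
      (hm2.comp (measurable_snd.comp measurable_fst))).prodMk (hm1.comp measurable_snd)
  have hm4 : Measurable (fun ω : (V → Bool) × (V × ℕ → I) =>
      (ω.1 ∘ g, fun j : V × ℕ => ω.2 (g j.1, j.2))) :=
    (hm1.comp measurable_fst).prodMk (hm2.comp measurable_snd)
  have hm5 : Measurable (Prod.map (fun u : V × ℕ → I => fun j : V × ℕ => u (g j.1, j.2))
      (fun ω : (V → Bool) × (V × ℕ → I) => (ω.1 ∘ g, fun j : V × ℕ => ω.2 (g j.1, j.2)))) :=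
    hm2.prodMap hm4
  have hprod : ((nz V).prod (P1 μ)).map
      (Prod.map (fun u : V × ℕ → I => fun j : V × ℕ => u (g j.1, j.2))
      (fun ω : (V → Bool) × (V × ℕ → I) => (ω.1 ∘ g, fun j : V × ℕ => ω.2 (g j.1, j.2))))
      = (nz V).prod (P1 μ) := by
    rw [← Measure.map_prod_map _ _ hm2 hm4, PA.map_ge_nz G g, PA.map_ge_P1 G hT hμ g]
  rw [Measure.map_map hg hΛ]
  conv_rhs => rw [← hprod, Measure.map_map hΛ hm5]
  congr 1
  funext p
  simp only [Function.comp, Prod.map]
  refine Prod.ext (Prod.ext rfl ?_) rfl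
  funext j
  exact (PA.un_ge G g θ p.1 (zob (sts p.1) p.2) j).symm

end Crest.Agent.FI
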