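import Mathlib
import Crest.Agent.FI.ProcDefs2
import Crest.Agent.FI.ProcA
import Crest.Agent.FI.ProcState
import Crest.Agent.FI.ProcIdA
import Crest.Agent.FI.ProcIdB

set_option autoImplicit false

namespace Crest.Agent.FI

open MeasureTheory ProbabilityTheory unitInterval Set Filter Topology
open scoped ENNReal

variable {V : Type*} [Countable V] (G : SimpleGraph V) [G.LocallyFinite]

theorem id_abs_sg (b : Bool) : |sg b| ≤ 1 := by
  unfold sg; split <;> simp

theorem id_sg_inj {a b : Bool} (h : (sg a - sg b) ^ 2 = 0) : a = b := by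
  unfold sg at h
  cases a <;> cases b <;> simp_all <;> norm_num at h

theorem id_meas_sg : Measurable sg := measurable_of_countable _

/-- squared error of one copy, on `P2` -/
theorem id_err {θ : ℝ} {μ : Measure (V → Bool)} [IsProbabilityMeasure μ] (v : V) (k : ℕ)
    (f : (V × ℕ → I) × XX V × XX V → XX V) (hf : Measurable f)
    (hmarg : ∀ T : V × ℕ → I, Function.Injective T →
      (twK G θ μ T).map f = (P1 μ).map (fun ω => (ω.1, zob (sts T) ω))) :
    ∫ q, (sg ((f q.2).1 v)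
        - mm G θ (xf (sts q.1) (k + 1) (thr q.1 k (1 / 2)) (f q.2).2) v) ^ 2 ∂(P2 G θ μ)
      = ∫ T, ∫ ω, (sg (ω.1 v) - m1 G θ (k + 1) (thr T k (1 / 2)) T v ω) ^ 2 ∂(P1 μ) ∂(nz V) := by
  have hmm := measurable_mm G θ v
  have hm3 : Measurable (fun q : (V × ℕ → I) × XX V =>
      xf (sts q.1) (k + 1) (thr q.1 k (1 / 2)) q.2.2) := by
    have e1 : Measurable (fun q : (V × ℕ → I) × XX V => ((1 / 2 : ℝ), (q.1, q.2.2))) := by fun_prop
    exact (measurable_xf_thr (V := V) k).comp e1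
  have hF : Measurable (fun q : (V × ℕ → I) × XX V =>
      (sg (q.2.1 v) - mm G θ (xf (sts q.1) (k + 1) (thr q.1 k (1 / 2)) q.2.2) v) ^ 2) :=
    ((id_meas_sg.comp ((measurable_pi_apply v).comp (measurable_fst.comp measurable_snd))).sub
      (hmm.comp hm3)).pow_const 2
  have hm1 : Measurable (fun q : (V × ℕ → I) × ((V × ℕ → I) × XX V × XX V) => (q.1, f q.2)) :=
    measurable_fst.prodMk (hf.comp measurable_snd)
  have hm2 : Measurable (fun p : (V × ℕ → I) × ((V → Bool) × (V × ℕ → I)) =>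
      (p.1, ((p.2.1, zob (sts p.1) p.2) : XX V))) :=
    measurable_fst.prodMk ((measurable_fst.comp measurable_snd).prodMk PA.measurable_zob_param)
  have e1 := PS.marg_aux G θ (μ := μ) f hf hmarg
  have e2 : ∫ q, (sg ((f q.2).1 v)
        - mm G θ (xf (sts q.1) (k + 1) (thr q.1 k (1 / 2)) (f q.2).2) v) ^ 2 ∂(P2 G θ μ)
      = ∫ q, (sg (q.2.1 v) - mm G θ (xf (sts q.1) (k + 1) (thr q.1 k (1 / 2)) q.2.2) v) ^ 2
        ∂((P2 G θ μ).map (fun q => (q.1, f q.2))) :=
    (integral_map hm1.aemeasurable hF.aestronglyMeasurable).symm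
  rw [e2, e1, integral_map hm2.aemeasurable hF.aestronglyMeasurable]
  have hint : Integrable (fun p : (V × ℕ → I) × ((V → Bool) × (V × ℕ → I)) =>
      (sg (p.2.1 v) - mm G θ (xf (sts p.1) (k + 1) (thr p.1 k (1 / 2)) (zob (sts p.1) p.2)) v) ^ 2)
      ((nz V).prod (P1 μ)) := by
    refine Integrable.of_bound (hF.comp hm2).aestronglyMeasurable 4 (Eventually.of_forall fun p => ?_)
    rw [Real.norm_eq_abs, abs_of_nonneg (sq_nonneg _)]
    have a1 := abs_le.1 (id_abs_sg (p.2.1 v))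
    have a2 := abs_lt.1 (abs_mm_lt G θ (xf (sts p.1) (k + 1) (thr p.1 k (1 / 2)) (zob (sts p.1) p.2)) v)
    nlinarith [a1.1, a1.2, a2.1, a2.2]
  rw [integral_prod _ hint]
  rfl

/-- the two copies have the same spins -/
theorem id_agree (hT : G.IsTree) {θ : ℝ} (h0 : 0 ≤ θ) (h1 : θ < 1) {μ : Measure (V → Bool)}
    [IsProbabilityMeasure μ] (hμ : IsIsing G θ μ) (v : V)
    (h : ∀ k, yy G θ (QQ G θ μ k (1 / 2)) v = 0) :
    ∀ᵐ q ∂(P2 G θ μ), q.2.2.1.1 v = q.2.2.2.1 v := by
  haveI := PS.P2_prob G θ μ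
  have hmm := measurable_mm G θ v
  obtain ⟨C, hC, herr⟩ := mean_sq_err G hT h0 h1 hμ v
  -- the functions
  set f1 : (V × ℕ → I) × ((V × ℕ → I) × XX V × XX V) → ℝ := fun q => sg (q.2.2.1.1 v) with hf1
  set f2 : (V × ℕ → I) × ((V × ℕ → I) × XX V × XX V) → ℝ := fun q => sg (q.2.2.2.1 v) with hf2
  have mf1 : Measurable f1 := id_meas_sg.comp ((measurable_pi_apply v).comp (by fun_prop))
  have mf2 : Measurable f2 := id_meas_sg.comp ((measurable_pi_apply v).comp (by fun_prop))
  have key : ∀ k : ℕ, ∫ q, (f1 q - f2 q) ^ 2 ∂(P2 G θ μ) ≤ 6 * (C / (k + 1)) := by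
    intro k
    have mp := PS.measurable_pairX' (V := V) k (1 / 2)
    set g1 : (V × ℕ → I) × ((V × ℕ → I) × XX V × XX V) → ℝ :=
      fun q => mm G θ (pairX k (1 / 2) q).1 v with hg1
    set g2 : (V × ℕ → I) × ((V × ℕ → I) × XX V × XX V) → ℝ :=
      fun q => mm G θ (pairX k (1 / 2) q).2 v with hg2
    have mg1 : Measurable g1 := hmm.comp (measurable_fst.comp mp)
    have mg2 : Measurable g2 := hmm.comp (measurable_snd.comp mp)
    have bf1 : ∀ q, |f1 q| ≤ 1 := fun q => id_abs_sg _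
    have bf2 : ∀ q, |f2 q| ≤ 1 := fun q => id_abs_sg _
    have bg1 : ∀ q, |g1 q| ≤ 1 := fun q => (abs_mm_lt G θ _ v).le
    have bg2 : ∀ q, |g2 q| ≤ 1 := fun q => (abs_mm_lt G θ _ v).le
    have hI : ∀ a b : (V × ℕ → I) × ((V × ℕ → I) × XX V × XX V) → ℝ, Measurable a → Measurable b →
        (∀ q, |a q| ≤ 1) → (∀ q, |b q| ≤ 1) →
        Integrable (fun q => (a q - b q) ^ 2) (P2 G θ μ) := by
      intro a b ma mb ba bb
      refine Integrable.of_bound ((ma.sub mb).pow_const 2).aestronglyMeasurable 4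
        (Eventually.of_forall fun q => ?_)
      rw [Real.norm_eq_abs, abs_of_nonneg (sq_nonneg _)]
      have a1 := abs_le.1 (ba q)
      have a2 := abs_le.1 (bb q)
      nlinarith [a1.1, a1.2, a2.1, a2.2]
    have hE1 : ∫ q, (f1 q - g1 q) ^ 2 ∂(P2 G θ μ) ≤ C / (k + 1) := by
      have e := id_err G (θ := θ) (μ := μ) v k (fun q => q.2.1) (by fun_prop)
        (fun T hinj => tw_marg1 G hT h0 h1 hμ T hinj)
      exact (le_of_eq e).trans (herr k)
    have hE2 : ∫ q, (f2 q - g2 q) ^ 2 ∂(P2 G θ μ) ≤ C / (k + 1) := by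
      have e := id_err G (θ := θ) (μ := μ) v k (fun q => q.2.2) (by fun_prop)
        (fun T hinj => tw_marg2 G hT h0 h1 hμ T hinj)
      exact (le_of_eq e).trans (herr k)
    have hE3 : ∫ q, (g1 q - g2 q) ^ 2 ∂(P2 G θ μ) = 0 := by
      have e := h k
      have hmq : Measurable (fun q : (V → ℝ) × (V → ℝ) => (mm G θ q.1 v - mm G θ q.2 v) ^ 2) :=
        ((hmm.comp measurable_fst).sub (hmm.comp measurable_snd)).pow_const 2
      unfold yy QQ at e
      rw [integral_map mp.aemeasurable hmq.aestronglyMeasurable] at e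
      exact e
    have hI1 := hI f1 g1 mf1 mg1 bf1 bg1
    have hI2 := hI f2 g2 mf2 mg2 bf2 bg2
    have hI3 := hI g1 g2 mg1 mg2 bg1 bg2
    have hJ : Integrable (fun q => 3 * (g1 q - g2 q) ^ 2 + 3 * (f2 q - g2 q) ^ 2) (P2 G θ μ) :=
      (hI3.const_mul 3).add (hI2.const_mul 3)
    calc ∫ q, (f1 q - f2 q) ^ 2 ∂(P2 G θ μ)
        ≤ ∫ q, (3 * (f1 q - g1 q) ^ 2 + (3 * (g1 q - g2 q) ^ 2 + 3 * (f2 q - g2 q) ^ 2))
          ∂(P2 G θ μ) := by
          apply integral_mono (hI f1 f2 mf1 mf2 bf1 bf2)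
            ((hI1.const_mul 3).add ((hI3.const_mul 3).add (hI2.const_mul 3)))
          intro q
          show (f1 q - f2 q) ^ 2 ≤ 3 * (f1 q - g1 q) ^ 2 + (3 * (g1 q - g2 q) ^ 2
            + 3 * (f2 q - g2 q) ^ 2)
          nlinarith [sq_nonneg ((f1 q - g1 q) - (g1 q - g2 q)),
            sq_nonneg ((f1 q - g1 q) + (f2 q - g2 q)), sq_nonneg ((g1 q - g2 q) + (f2 q - g2 q))]
      _ = 3 * ∫ q, (f1 q - g1 q) ^ 2 ∂(P2 G θ μ) + (3 * ∫ q, (g1 q - g2 q) ^ 2 ∂(P2 G θ μ)
          + 3 * ∫ q, (f2 q - g2 q) ^ 2 ∂(P2 G θ μ)) := by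
          rw [integral_add (hI1.const_mul 3) hJ,
            integral_add (hI3.const_mul 3) (hI2.const_mul 3), integral_const_mul,
            integral_const_mul, integral_const_mul]
      _ ≤ 6 * (C / (k + 1)) := by
          rw [hE3]
          linarith
  have hI12 : Integrable (fun q => (f1 q - f2 q) ^ 2) (P2 G θ μ) := by
    refine Integrable.of_bound ((mf1.sub mf2).pow_const 2).aestronglyMeasurable 4
      (Eventually.of_forall fun q => ?_)
    rw [Real.norm_eq_abs, abs_of_nonneg (sq_nonneg _)]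
    have a1 := abs_le.1 (id_abs_sg (q.2.2.1.1 v))
    have a2 := abs_le.1 (id_abs_sg (q.2.2.2.1 v))
    simp only [hf1, hf2]
    nlinarith [a1.1, a1.2, a2.1, a2.2]
  have hz : ∫ q, (f1 q - f2 q) ^ 2 ∂(P2 G θ μ) = 0 := by
    apply le_antisymm _ (integral_nonneg fun q => sq_nonneg _)
    have hlim : Tendsto (fun k : ℕ => 6 * (C / ((k : ℝ) + 1))) atTop (𝓝 0) := by
      have h2 : Tendsto (fun k : ℕ => C / ((k : ℝ) + 1)) atTop (𝓝 0) :=
        tendsto_const_nhds.div_atTop (tendsto_atTop_add_const_right _ _ tendsto_natCast_atTop_atTop)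
      simpa using h2.const_mul 6
    exact ge_of_tendsto' hlim key
  have hae := (integral_eq_zero_iff_of_nonneg (fun q => sq_nonneg _) hI12).1 hz
  filter_upwards [hae] with q hq
  exact id_sg_inj hq

/-- if the two copies have the same posterior means, the spins are a function of labels and innovations -/
theorem ident (hT : G.IsTree) {θ : ℝ} (h0 : 0 ≤ θ) (h1 : θ < 1) {μ : Measure (V → Bool)}
    [IsProbabilityMeasure μ] (hμ : IsIsing G θ μ) (v : V)
    (h : ∀ k, yy G θ (QQ G θ μ k (1 / 2)) v = 0) :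
    ∃ F : (V × ℕ → I) × (V × ℕ → I) → Bool, Measurable F ∧
      ∀ᵐ p ∂((nz V).prod (P1 μ)), p.2.1 v = F (p.1, un G θ p.1 (zob (sts p.1) p.2)) := by
  haveI hck : IsMarkovKernel (ck G θ μ) := by unfold ck; infer_instance
  have hag := id_agree G hT h0 h1 hμ v h
  have hms : Measurable (fun x : XX V => x.1 v) := (measurable_pi_apply v).comp measurable_fst
  -- transfer to the re-associated measure
  have htw : ∀ᵐ q ∂(tw ((nz V).prod (nz V)) (ck G θ μ)),
      (fun x : XX V => x.1 v) q.2.1 = (fun x : XX V => x.1 v) q.2.2 := by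
    have hset2 : MeasurableSet {q : ((V × ℕ → I) × (V × ℕ → I)) × XX V × XX V |
        (fun x : XX V => x.1 v) q.2.1 = (fun x : XX V => x.1 v) q.2.2} :=
      measurableSet_eq_fun (hms.comp (measurable_fst.comp measurable_snd))
        (hms.comp (measurable_snd.comp measurable_snd))
    have hset1 : MeasurableSet {q : (V × ℕ → I) × XX V × XX V |
        (fun x : XX V => x.1 v) q.2.1 = (fun x : XX V => x.1 v) q.2.2} :=
      measurableSet_eq_fun (hms.comp (measurable_fst.comp measurable_snd))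
        (hms.comp (measurable_snd.comp measurable_snd))
    have hset0 : MeasurableSet {x : XX V × XX V | x.1.1 v = x.2.1 v} :=
      measurableSet_eq_fun (hms.comp measurable_fst) (hms.comp measurable_snd)
    have hmk : MeasurableSet {p : (V × ℕ → I) × (V × ℕ → I) |
        ((ck G θ μ) ×ₖ (ck G θ μ)) p {x : XX V × XX V | x.1.1 v = x.2.1 v}ᶜ = 0} :=
      (Kernel.measurable_coe _ hset0.compl) (measurableSet_singleton 0)
    have h2 : ∀ᵐ T ∂(nz V), ∀ᵐ u ∂(nz V), ((ck G θ μ) ×ₖ (ck G θ μ)) (T, u)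
        {x : XX V × XX V | x.1.1 v = x.2.1 v}ᶜ = 0 := by
      have h3 := Measure.ae_ae_of_ae_compProd hag
      filter_upwards [h3] with T hT3
      rw [twK_apply] at hT3
      unfold tw at hT3
      have h4 := Measure.ae_ae_of_ae_compProd hT3
      filter_upwards [h4] with u hu
      rw [ae_iff] at hu
      rw [Kernel.prod_apply] at hu ⊢
      exact hu
    have h5 : ∀ᵐ p ∂((nz V).prod (nz V)), ((ck G θ μ) ×ₖ (ck G θ μ)) p
        {x : XX V × XX V | x.1.1 v = x.2.1 v}ᶜ = 0 := by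
      rw [Measure.ae_prod_iff_ae_ae hmk]
      exact h2
    unfold tw
    refine Measure.ae_compProd_of_ae_ae hset2 ?_
    filter_upwards [h5] with p hp
    rw [ae_iff]
    exact hp
  obtain ⟨Φ, hΦ, hΦae⟩ := tw_diag hms htw
  refine ⟨Φ, hΦ, ?_⟩
  have hset : MeasurableSet {p : (V × ℕ → I) × ((V → Bool) × (V × ℕ → I)) |
      p.2.1 v = Φ (p.1, un G θ p.1 (zob (sts p.1) p.2))} := by
    refine measurableSet_eq_fun ((measurable_pi_apply v).comp (measurable_fst.comp measurable_snd)) ?_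
    exact hΦ.comp (measurable_fst.prodMk ((PA.measurable_un_joint G θ).comp
      (measurable_fst.prodMk PA.measurable_zob_param)))
  rw [Measure.ae_prod_iff_ae_ae hset]
  have h6 : ∀ᵐ T ∂(nz V), ∀ᵐ q ∂((nz V) ⊗ₘ (kT G θ μ T)), q.2.1 v = Φ (T, q.1) := by
    have h7 := Measure.ae_ae_of_ae_compProd hΦae
    have hmk : MeasurableSet {p : (V × ℕ → I) × (V × ℕ → I) |
        (∀ᵐ x ∂(ck G θ μ p), x.1 v = Φ p)} := by
      have e : {p : (V × ℕ → I) × (V × ℕ → I) | (∀ᵐ x ∂(ck G θ μ p), x.1 v = Φ p)}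
          = {p | (ck G θ μ) p (Prod.mk p ⁻¹' {z : ((V × ℕ → I) × (V × ℕ → I)) × XX V |
              z.2.1 v = Φ z.1}ᶜ) = 0} := by
        ext p
        rfl
      rw [e]
      refine (Kernel.measurable_kernel_prodMk_left ?_) (measurableSet_singleton 0)
      exact (measurableSet_eq_fun (hms.comp measurable_snd) (hΦ.comp measurable_fst)).compl
    rw [Measure.ae_prod_iff_ae_ae hmk] at h7
    filter_upwards [h7] with T hT7
    refine Measure.ae_compProd_of_ae_ae ?_ ?_
    · exact measurableSet_eq_fun (hms.comp measurable_snd)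
        (hΦ.comp (measurable_const.prodMk measurable_fst))
    · filter_upwards [hT7] with u hu
      exact hu
  filter_upwards [h6, ae_injective (V := V)] with T hT6 hinj
  rw [← law1_eq G hT h0 h1 hμ T hinj] at hT6
  unfold law1 at hT6
  have hS : MeasurableSet {q : (V × ℕ → I) × ((V → Bool) × (V × ℕ → I)) |
      q.2.1 v = Φ (T, q.1)} :=
    measurableSet_eq_fun (hms.comp measurable_snd)
      (hΦ.comp (measurable_const.prodMk measurable_fst))
  rw [ae_map_iff (PA.measurable_lawF' G θ T).aemeasurable hS] at hT6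
  exact hT6

end Crest.Agent.FI
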