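import Mathlib
import Crest.Agent.FI.ProcDefs2
import Crest.Agent.FI.Factor
import Crest.Agent.FI.ProcId
import Crest.Agent.FI.Ising
import Crest.Agent.FI.TreeAut
import Crest.Agent.FI.Analysis
import Crest.Agent.FI.ProcSF
import Crest.Agent.FI.ProcA

set_option autoImplicit false

namespace Crest.Agent.FI

open MeasureTheory ProbabilityTheory unitInterval Set Filter Topology
open scoped ENNReal

universe u

/-- labels and innovations, vertex by vertex -/
def fn_cv {V : Type*} (q : (V × ℕ → I) × (V × ℕ → I)) : V → ℕ → I × I :=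
  fun v n => (q.1 (v, n), q.2 (v, n))

/-- inverse of `fn_cv` -/
def fn_vc {V : Type*} (x : V → ℕ → I × I) : (V × ℕ → I) × (V × ℕ → I) :=
  (fun j => (x j.1 j.2).1, fun j => (x j.1 j.2).2)

theorem fn_vc_cv {V : Type*} (q : (V × ℕ → I) × (V × ℕ → I)) : fn_vc (fn_cv q) = q := rfl

theorem fn_meas_cv {V : Type*} : Measurable (fn_cv (V := V)) := by
  unfold fn_cv; fun_prop

theorem fn_meas_vc {V : Type*} : Measurable (fn_vc (V := V)) := by
  unfold fn_vc; fun_prop

theorem fn_law_cv {V : Type*} [Countable V] :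
    ((nz V).prod (nz V)).map fn_cv
      = Measure.infinitePi (fun _ : V => Measure.infinitePi (fun _ : ℕ => (volume : Measure (I × I)))) := by
  have h1 := psf_zip (V × ℕ)
  have h2 := Measure.infinitePi_map_curry (fun (_ : V) (_ : ℕ) => (volume : Measure (I × I)))
  unfold nz
  rw [← h2, ← h1, Measure.map_map (by fun_prop) (by fun_prop)]
  rfl

section

variable {V : Type*} [Countable V] (G : SimpleGraph V) [G.LocallyFinite]

theorem fn_meas_TU (θ : ℝ) : Measurable (fun p : (V × ℕ → I) × ((V → Bool) × (V × ℕ → I)) =>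
    (p.1, un G θ p.1 (zob (sts p.1) p.2))) :=
  measurable_fst.prodMk ((PA.measurable_un_joint G θ).comp
    (measurable_fst.prodMk PA.measurable_zob_param))

theorem fn_law_TU (hT : G.IsTree) {θ : ℝ} (h0 : 0 ≤ θ) (h1 : θ < 1) {μ : Measure (V → Bool)}
    [IsProbabilityMeasure μ] (hμ : IsIsing G θ μ) :
    ((nz V).prod (P1 μ)).map (fun p => (p.1, un G θ p.1 (zob (sts p.1) p.2)))
      = (nz V).prod (nz V) := by
  symm
  apply Measure.prod_eq
  intro s t hs ht
  have hm := fn_meas_TU G θ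
  rw [Measure.map_apply hm (hs.prod ht), Measure.prod_apply (hm (hs.prod ht))]
  have h2 : ∀ᵐ T ∂(nz V), P1 μ (Prod.mk T ⁻¹' ((fun p : (V × ℕ → I) × ((V → Bool) × (V × ℕ → I)) =>
      (p.1, un G θ p.1 (zob (sts p.1) p.2))) ⁻¹' s ×ˢ t)) = s.indicator (fun _ => nz V t) T := by
    filter_upwards [ae_injective (V := V)] with T hinj
    by_cases hTs : T ∈ s
    · rw [indicator_of_mem hTs]
      have h3 := innov_unif G hT h0 h1 hμ T hinj
      have hm3 : Measurable (fun ω : (V → Bool) × (V × ℕ → I) => un G θ T (zob (sts T) ω)) :=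
        (measurable_un G θ T).comp (measurable_zob _)
      have h3' : nz V t = P1 μ ((fun ω => un G θ T (zob (sts T) ω)) ⁻¹' t) :=
        (congrArg (fun ν : Measure (V × ℕ → I) => ν t) h3.symm).trans (Measure.map_apply hm3 ht)
      rw [h3']
      exact congrArg (P1 μ) (Set.ext fun ω => ⟨fun h => h.2, fun h => ⟨hTs, h⟩⟩)
    · rw [indicator_of_notMem hTs]
      have h4 : Prod.mk T ⁻¹' ((fun p : (V × ℕ → I) × ((V → Bool) × (V × ℕ → I)) =>
        (p.1, un G θ p.1 (zob (sts p.1) p.2))) ⁻¹' s ×ˢ t) = ∅ :=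
        Set.eq_empty_of_forall_notMem fun ω h => hTs h.1
      rw [h4, measure_empty]
  rw [lintegral_congr_ae h2, lintegral_indicator hs, lintegral_const, Measure.restrict_apply_univ,
    mul_comm]

end

/-- assembly: from the increments structure to the factor map. Labels at `v`:
`E = ℕ → I × I` (labels and innovations of the events of `v`) -/
theorem final_of_proc (d : ℕ) (hd : 3 ≤ d) (θ : ℝ) (h0 : 0 ≤ θ) (h1 : θ < 1)
    (hcrit : θ ^ 2 * ((d : ℝ) - 1) ≤ 1) (V : Type u)
    (G : SimpleGraph V) [G.LocallyFinite] [Countable V] (hT : G.IsTree) (hreg : G.IsRegularOfDegree d)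
    (hproc : ∀ (μ : Measure (V → Bool)) [IsProbabilityMeasure μ], IsIsing G θ μ →
      ∀ p : ℕ → V, IsRay G p → Proc G θ d μ p (QQ G θ μ)) :
    ∃ Φ : (V → unitInterval) → (V → Bool),
      Measurable Φ ∧
      (∀ (g : G ≃g G) (x : V → unitInterval), Φ (x ∘ ⇑g) = Φ x ∘ ⇑g) ∧
      ∀ (S : Finset V) (η : V → Bool), (G.induce (S : Set V)).Connected →
        (Crest.ProbabilityR.Labels.labelMeasure V).map Φ {τ | ∀ v ∈ S, τ v = η v} =
          ENNReal.ofReal (Crest.ProbabilityR.TreeIsing.isingWeight G θ S η) := by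
  obtain ⟨μ, hμp, hμ⟩ := exists_ising G hT h0 h1.le
  haveI := hμp
  have htr : ∀ v w : V, ∃ g : G ≃g G, g v = w := by
    intro v w
    have hv : IsPth G (fun _ : ℕ => v) 0 := ⟨fun i hi => absurd hi (by omega), fun i hi => by omega⟩
    have hw : IsPth G (fun _ : ℕ => w) 0 := ⟨fun i hi => absurd hi (by omega), fun i hi => by omega⟩
    obtain ⟨g, hg⟩ := exists_aut_path G hT (by omega) hreg _ _ 0 hv hw
    exact ⟨g, hg 0 le_rfl⟩
  have hzero : ∀ (v : V) (k : ℕ), yy G θ (QQ G θ μ k (1 / 2)) v = 0 := by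
    intro v k
    have hv : IsPth G (fun _ : ℕ => v) 0 := ⟨fun i hi => absurd hi (by omega), fun i hi => by omega⟩
    obtain ⟨q, hq, hq0⟩ := exists_ray G hT (by omega) hreg _ 0 hv
    have h2 := analysis G hT hd hreg h0 h1 hcrit hμ hq (hproc μ hμ q hq) k (1 / 2) (by norm_num)
      le_rfl
    rwa [hq0 0 le_rfl] at h2
  -- the joint law of labels, innovations and spins
  set Λ' : Measure (((V × ℕ → I) × (V × ℕ → I)) × (V → Bool)) :=
    ((nz V).prod (P1 μ)).map (fun p => ((p.1, un G θ p.1 (zob (sts p.1) p.2)), p.2.1)) with hΛ'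
  have hmTU := fn_meas_TU G θ
  have hmΛ' : Measurable (fun p : (V × ℕ → I) × ((V → Bool) × (V × ℕ → I)) =>
      ((p.1, un G θ p.1 (zob (sts p.1) p.2)), p.2.1)) :=
    hmTU.prodMk (measurable_fst.comp measurable_snd)
  have hmc : Measurable (fun q : ((V × ℕ → I) × (V × ℕ → I)) × (V → Bool) => (fn_cv q.1, q.2)) :=
    (fn_meas_cv.comp measurable_fst).prodMk measurable_snd
  haveI : IsProbabilityMeasure ((nz V).prod (P1 μ)) := inferInstance
  haveI hΛ'p : IsProbabilityMeasure Λ' := Measure.isProbabilityMeasure_map hmΛ'.aemeasurable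
  set Λ : Measure ((V → ℕ → I × I) × (V → Bool)) := Λ'.map (fun q => (fn_cv q.1, q.2)) with hΛ
  haveI hΛp : IsProbabilityMeasure Λ := Measure.isProbabilityMeasure_map hmc.aemeasurable
  have hfst : Λ.map Prod.fst = Measure.infinitePi
      (fun _ : V => Measure.infinitePi (fun _ : ℕ => (volume : Measure (I × I)))) := by
    rw [← fn_law_cv, ← fn_law_TU G hT h0 h1 hμ, hΛ, hΛ', Measure.map_map measurable_fst hmc,
      Measure.map_map (measurable_fst.comp hmc) hmΛ', Measure.map_map fn_meas_cv hmTU]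
    rfl
  have hinv : ∀ g : G ≃g G, Λ.map (fun q => (q.1 ∘ g, q.2 ∘ g)) = Λ := by
    intro g
    have h2 := lam_inv G hT h0 h1 hμ g
    have hmg' : Measurable (fun q : ((V × ℕ → I) × (V × ℕ → I)) × (V → Bool) =>
        (((fun j : V × ℕ => q.1.1 (g j.1, j.2)), (fun j : V × ℕ => q.1.2 (g j.1, j.2))),
          q.2 ∘ g)) := by
      apply Measurable.prodMk
      · apply Measurable.prodMk
        · fun_prop
        · fun_prop
      · exact measurable_pi_lambda _ fun v => (measurable_pi_apply (g v)).comp measurable_snd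
    have hmg : Measurable (fun q : (V → ℕ → I × I) × (V → Bool) => (q.1 ∘ g, q.2 ∘ g)) := by
      apply Measurable.prodMk
      · exact measurable_pi_lambda _ fun v => (measurable_pi_apply (g v)).comp measurable_fst
      · exact measurable_pi_lambda _ fun v => (measurable_pi_apply (g v)).comp measurable_snd
    rw [hΛ, Measure.map_map hmg hmc]
    conv_rhs => rw [hΛ', ← h2, ← hΛ', Measure.map_map hmc hmg']
    rfl
  have hmeas : ∀ v : V, ∃ F : (V → ℕ → I × I) → Bool, Measurable F ∧ ∀ᵐ q ∂Λ, q.2 v = F q.1 := by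
    intro v
    obtain ⟨F, hF, hFae⟩ := ident G hT h0 h1 hμ v (hzero v)
    refine ⟨F ∘ fn_vc, hF.comp fn_meas_vc, ?_⟩
    have hFm : Measurable (fun q : (V → ℕ → I × I) × (V → Bool) => (F ∘ fn_vc) q.1) :=
      (hF.comp fn_meas_vc).comp measurable_fst
    have hsm : Measurable (fun q : (V → ℕ → I × I) × (V → Bool) => q.2 v) :=
      (measurable_pi_apply v).comp measurable_snd
    have hset : MeasurableSet {q : ((V × ℕ → I) × (V × ℕ → I)) × (V → Bool) |
        (fn_cv q.1, q.2).2 v = (F ∘ fn_vc) (fn_cv q.1, q.2).1} :=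
      measurableSet_eq_fun (hsm.comp hmc) (hFm.comp hmc)
    rw [hΛ, ae_map_iff hmc.aemeasurable (measurableSet_eq_fun hsm hFm), hΛ',
      ae_map_iff hmΛ'.aemeasurable hset]
    filter_upwards [hFae] with p hp
    exact hp
  obtain ⟨Φ, hΦm, hΦe, hΦl⟩ := factor_unit G hT htr
    (Measure.infinitePi (fun _ : ℕ => (volume : Measure (I × I)))) Λ hfst hinv hmeas
  refine ⟨Φ, hΦm, hΦe, ?_⟩
  intro S η hS
  have hsnd : Λ.map Prod.snd = μ := by
    rw [hΛ, hΛ', Measure.map_map measurable_snd hmc, Measure.map_map (measurable_snd.comp hmc) hmΛ']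
    have h2 : (Prod.snd ∘ fun q : ((V × ℕ → I) × (V × ℕ → I)) × (V → Bool) => (fn_cv q.1, q.2)) ∘
        (fun p : (V × ℕ → I) × ((V → Bool) × (V × ℕ → I)) =>
          ((p.1, un G θ p.1 (zob (sts p.1) p.2)), p.2.1)) = Prod.fst ∘ Prod.snd := rfl
    rw [h2, ← Measure.map_map measurable_fst measurable_snd]
    unfold P1
    rw [Measure.map_snd_prod, measure_univ, one_smul, Measure.map_fst_prod, measure_univ, one_smul]
  rw [hΦl, hsnd]
  exact hμ S η hS

end Crest.Agent.FI
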