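import Mathlib
import Crest.Agent.FI.ProcDefs2
import Crest.Agent.FI.ProcA
import Crest.Agent.FI.Alg
import Crest.Agent.FI.Real
import Crest.Agent.FI.Channel

set_option autoImplicit false

namespace Crest.Agent.FI

open MeasureTheory ProbabilityTheory unitInterval Set Filter Topology
open scoped ENNReal

/-- bounded measurable functions -/
def pi_BM {Ω : Type*} [MeasurableSpace Ω] (f : Ω → ℝ) : Prop := Measurable f ∧ ∃ C, ∀ ω, |f ω| ≤ C

lemma pi_BM.int {Ω : Type*} [MeasurableSpace Ω] {P : Measure Ω} [IsFiniteMeasure P] {f : Ω → ℝ}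
    (h : pi_BM f) : Integrable f P := by
  obtain ⟨hm, C, hC⟩ := h
  exact Integrable.of_bound hm.aestronglyMeasurable C (ae_of_all _ fun ω => by simpa using hC ω)

lemma pi_BM.add {Ω : Type*} [MeasurableSpace Ω] {f g : Ω → ℝ} (hf : pi_BM f) (hg : pi_BM g) :
    pi_BM (fun ω => f ω + g ω) := by
  obtain ⟨hm, C, hC⟩ := hf
  obtain ⟨hm', C', hC'⟩ := hg
  exact ⟨hm.add hm', C + C', fun ω => (abs_add_le _ _).trans (add_le_add (hC ω) (hC' ω))⟩

lemma pi_BM.neg {Ω : Type*} [MeasurableSpace Ω] {f : Ω → ℝ} (hf : pi_BM f) :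
    pi_BM (fun ω => -f ω) := by
  obtain ⟨hm, C, hC⟩ := hf
  exact ⟨hm.neg, C, fun ω => by rw [abs_neg]; exact hC ω⟩

lemma pi_BM.sub {Ω : Type*} [MeasurableSpace Ω] {f g : Ω → ℝ} (hf : pi_BM f) (hg : pi_BM g) :
    pi_BM (fun ω => f ω - g ω) := by
  simpa only [sub_eq_add_neg] using hf.add hg.neg

lemma pi_BM.mul {Ω : Type*} [MeasurableSpace Ω] {f g : Ω → ℝ} (hf : pi_BM f) (hg : pi_BM g) :
    pi_BM (fun ω => f ω * g ω) := by
  obtain ⟨hm, C, hC⟩ := hf
  obtain ⟨hm', C', hC'⟩ := hg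
  refine ⟨hm.mul hm', C * C', fun ω => ?_⟩
  rw [abs_mul]
  exact mul_le_mul (hC ω) (hC' ω) (abs_nonneg _) ((abs_nonneg _).trans (hC ω))

lemma pi_BM.sq {Ω : Type*} [MeasurableSpace Ω] {f : Ω → ℝ} (hf : pi_BM f) :
    pi_BM (fun ω => f ω ^ 2) := by
  simpa only [pow_two] using hf.mul hf

lemma pi_BM.const {Ω : Type*} [MeasurableSpace Ω] (c : ℝ) : pi_BM (fun _ : Ω => c) :=
  ⟨measurable_const, |c|, fun _ => le_rfl⟩

lemma pi_BM.sum {Ω ι : Type*} [MeasurableSpace Ω] (S : Finset ι) {f : ι → Ω → ℝ}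
    (hf : ∀ i ∈ S, pi_BM (f i)) : pi_BM (fun ω => ∑ i ∈ S, f i ω) := by
  classical
  induction S using Finset.induction_on with
  | empty => simpa using pi_BM.const 0
  | insert a s ha ih =>
    simp only [Finset.sum_insert ha]
    exact (hf a (by simp)).add (ih fun i hi => hf i (by simp [hi]))

lemma pi_BM.comp {Ω Ω' : Type*} [MeasurableSpace Ω] [MeasurableSpace Ω'] {f : Ω' → ℝ}
    (hf : pi_BM f) {φ : Ω → Ω'} (hφ : Measurable φ) : pi_BM (fun ω => f (φ ω)) := by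
  obtain ⟨hm, C, hC⟩ := hf
  exact ⟨hm.comp hφ, C, fun ω => hC _⟩

/-- Bessel identity -/
lemma pi_bessel {Ω ι : Type*} [MeasurableSpace Ω] (P : Measure Ω) [IsFiniteMeasure P] (S : Finset ι)
    (D : Ω → ℝ) (E : ι → Ω → ℝ) (hD : pi_BM D) (hE : ∀ u ∈ S, pi_BM (E u))
    (h1 : ∀ u ∈ S, ∫ ω, D ω * E u ω ∂P = ∫ ω, E u ω ^ 2 ∂P)
    (h2 : ∀ u ∈ S, ∀ w ∈ S, u ≠ w → ∫ ω, E u ω * E w ω ∂P = 0) :
    ∫ ω, (D ω - ∑ u ∈ S, E u ω) ^ 2 ∂P = ∫ ω, D ω ^ 2 ∂P - ∑ u ∈ S, ∫ ω, E u ω ^ 2 ∂P := by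
  classical
  have key : ∀ S' ⊆ S, ∫ ω, (D ω - ∑ u ∈ S', E u ω) ^ 2 ∂P
      = ∫ ω, D ω ^ 2 ∂P - ∑ u ∈ S', ∫ ω, E u ω ^ 2 ∂P := by
    intro S'
    induction S' using Finset.induction_on with
    | empty => intro _; simp
    | insert a s ha ih =>
      intro hs
      have hsS : s ⊆ S := fun i hi => hs (by simp [hi])
      have haS : a ∈ S := hs (by simp)
      have ih' := ih hsS
      rw [Finset.sum_insert ha]
      have e1 : ∀ ω, (D ω - ∑ u ∈ insert a s, E u ω) ^ 2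
          = (D ω - ∑ u ∈ s, E u ω) ^ 2 - (2 * (D ω * E a ω) - (2 * ∑ u ∈ s, (E u ω * E a ω) + E a ω ^ 2)) := by
        intro ω
        rw [Finset.sum_insert ha, ← Finset.sum_mul]
        ring
      have hEs : pi_BM (fun ω => ∑ u ∈ s, E u ω) := pi_BM.sum s fun i hi => hE i (hsS hi)
      have hEa := hE a haS
      have hI1 : Integrable (fun ω => (D ω - ∑ u ∈ s, E u ω) ^ 2) P := (hD.sub hEs).sq.int
      have hI2 : Integrable (fun ω => 2 * (D ω * E a ω)) P := ((pi_BM.const 2).mul (hD.mul hEa)).int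
      have hb3 : pi_BM (fun ω => ∑ u ∈ s, (E u ω * E a ω)) :=
        pi_BM.sum s fun i hi => (hE i (hsS hi)).mul hEa
      have hI3 : Integrable (fun ω => 2 * ∑ u ∈ s, (E u ω * E a ω)) P := ((pi_BM.const 2).mul hb3).int
      have hI4 : Integrable (fun ω => E a ω ^ 2) P := hEa.sq.int
      have hI34 : Integrable (fun ω => 2 * ∑ u ∈ s, (E u ω * E a ω) + E a ω ^ 2) P := hI3.add hI4
      have hI234 : Integrable (fun ω => 2 * (D ω * E a ω) - (2 * ∑ u ∈ s, (E u ω * E a ω) + E a ω ^ 2)) P :=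
        hI2.sub hI34
      rw [integral_congr_ae (ae_of_all _ e1), integral_sub hI1 hI234, integral_sub hI2 hI34,
        integral_add hI3 hI4, integral_const_mul, integral_const_mul, ih', h1 a haS,
        integral_finset_sum s (fun i hi => ((hE i (hsS hi)).mul hEa).int)]
      have h0 : ∑ i ∈ s, ∫ ω, E i ω * E a ω ∂P = 0 :=
        Finset.sum_eq_zero fun i hi => h2 i (hsS hi) a haS (fun h => ha (h ▸ hi))
      rw [h0]
      ring
  exact key S (Finset.Subset.refl S)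

variable {V : Type*} [Countable V] (G : SimpleGraph V) [G.LocallyFinite]

lemma pi_xf_mask_sub (s : V × ℕ → ℝ) (K : ℕ) {M M' : Set (V × ℕ)} (h : M ⊆ M') (z : V × ℕ → I) :
    xf s K M (mask M' z) = xf s K M z := by
  funext v
  unfold xf
  refine Finset.sum_congr rfl fun l _ => ?_
  by_cases hm : (v, l) ∈ M
  · simp only [if_pos hm, mask, if_pos (h hm)]
  · simp only [if_neg hm]

lemma pi_mm_abs (θ : ℝ) (x : V → ℝ) (v : V) : |mm G θ x v| ≤ 1 := by
  unfold mm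
  have := tanh_mem (Hl G θ x v)
  rw [abs_le]
  exact ⟨this.1.le, this.2.le⟩

lemma pi_BM_mm (θ : ℝ) (s : V × ℕ → ℝ) (K : ℕ) (M : Set (V × ℕ)) (v : V) :
    pi_BM (fun z : V × ℕ → I => mm G θ (xf s K M z) v) :=
  ⟨(measurable_mm G θ v).comp (measurable_xf K M s), 1, fun _ => pi_mm_abs G θ _ v⟩

/-- two-copy orthogonality -/
lemma pi_orth (hT : G.IsTree) {θ : ℝ} (h0 : 0 ≤ θ) (h1 : θ < 1) {μ : Measure (V → Bool)}
    [IsProbabilityMeasure μ] (hμ : IsIsing G θ μ) (T : V × ℕ → I) (hinj : Function.Injective T)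
    (K : ℕ) (M1 M2 M3 M4 : Set (V × ℕ)) (h13 : M1 ⊆ M3) (h23 : M2 ⊆ M3) (hM3 : InitSeg T M3)
    (hM4 : InitSeg T M4) (h34 : M3 ⊆ M4) (hK : ∀ i ∈ M4, i.2 < K) (v : V) :
    ∫ q, (dl G θ K M4 T v q - dl G θ K M3 T v q) * (dl G θ K M2 T v q - dl G θ K M1 T v q)
      ∂(twK G θ μ T) = 0 := by
  have hfin : IsFiniteMeasure (twK G θ μ T) := by
    rw [twK_apply]
    have : IsMarkovKernel (kT G θ μ T) := by
      unfold kT ck; infer_instance
    infer_instance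
  set ψ : (V × ℕ → I) → ℝ := fun z => mm G θ (xf (sts T) K M2 z) v - mm G θ (xf (sts T) K M1 z) v with hψ
  have hψB : pi_BM ψ := (pi_BM_mm G θ (sts T) K M2 v).sub (pi_BM_mm G θ (sts T) K M1 v)
  have hψm : ∀ z, ψ (mask M3 z) = ψ z := by
    intro z
    simp only [hψ]
    rw [pi_xf_mask_sub _ _ h23, pi_xf_mask_sub _ _ h13]
  have hone : ∃ C : ℝ, ∀ y : V × ℕ → I, |(1:ℝ)| ≤ C := ⟨1, fun _ => by simp⟩
  have a1 := tw_mart G hT h0 h1 hμ T hinj K M3 M4 hM3 hM4 h34 hK v hψB.1 measurable_const hψB.2 hone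
  have a2 := tw_mart G hT h0 h1 hμ T hinj K M3 M4 hM3 hM4 h34 hK v (Ψ := fun _ => 1) measurable_const hψB.1 hone hψB.2
  have a3 := tw_mart' G hT h0 h1 hμ T hinj K M3 M4 hM3 hM4 h34 hK v hψB.1 measurable_const hψB.2 hone
  have a4 := tw_mart' G hT h0 h1 hμ T hinj K M3 M4 hM3 hM4 h34 hK v (Ψ := fun _ => 1) measurable_const hψB.1 hone hψB.2
  simp only [hψm, mul_one, one_mul] at a1 a2 a3 a4
  set A : (V × ℕ → I) → ℝ := fun z => mm G θ (xf (sts T) K M4 z) v - mm G θ (xf (sts T) K M3 z) v with hA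
  have hAB : pi_BM A := (pi_BM_mm G θ (sts T) K M4 v).sub (pi_BM_mm G θ (sts T) K M3 v)
  have m1 : Measurable (fun q : (V × ℕ → I) × XX V × XX V => q.2.1.2) := by fun_prop
  have m2 : Measurable (fun q : (V × ℕ → I) × XX V × XX V => q.2.2.2) := by fun_prop
  have b1 := hAB.comp m1
  have b2 := hAB.comp m2
  have c1 := hψB.comp m1
  have c2 := hψB.comp m2
  have e : ∀ q : (V × ℕ → I) × XX V × XX V,
      (dl G θ K M4 T v q - dl G θ K M3 T v q) * (dl G θ K M2 T v q - dl G θ K M1 T v q)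
        = (A q.2.1.2 * ψ q.2.1.2 - A q.2.1.2 * ψ q.2.2.2)
          - (A q.2.2.2 * ψ q.2.1.2 - A q.2.2.2 * ψ q.2.2.2) := by
    intro q
    simp only [dl, hA, hψ]
    ring
  rw [integral_congr_ae (ae_of_all _ e),
    integral_sub ((b1.mul c1).sub (b1.mul c2)).int ((b2.mul c1).sub (b2.mul c2)).int,
    integral_sub (b1.mul c1).int (b1.mul c2).int, integral_sub (b2.mul c1).int (b2.mul c2).int,
    a1, a2, a3, a4]
  simp

/-- single-copy orthogonality -/
lemma pi_orth1 (hT : G.IsTree) {θ : ℝ} (h0 : 0 ≤ θ) (h1 : θ < 1) {μ : Measure (V → Bool)}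
    [IsProbabilityMeasure μ] (hμ : IsIsing G θ μ) (T : V × ℕ → I)
    (K : ℕ) (M1 M2 M3 M4 : Set (V × ℕ)) (h13 : M1 ⊆ M3) (h23 : M2 ⊆ M3) (h34 : M3 ⊆ M4)
    (hK : ∀ i ∈ M4, i.2 < K) (v : V) :
    ∫ ω, (m1 G θ K M4 T v ω - m1 G θ K M3 T v ω) * (m1 G θ K M2 T v ω - m1 G θ K M1 T v ω)
      ∂(P1 μ) = 0 := by
  have hs : ∀ j, 0 ≤ sts T j ∧ sts T j ≤ 1 / 2 := fun j => ⟨st_nonneg _, (st_le _).trans (by norm_num)⟩
  set ψ : (V × ℕ → I) → ℝ := fun z => mm G θ (xf (sts T) K M2 z) v - mm G θ (xf (sts T) K M1 z) v with hψ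
  have hψB : pi_BM ψ := (pi_BM_mm G θ (sts T) K M2 v).sub (pi_BM_mm G θ (sts T) K M1 v)
  have hψm : ∀ z, ψ (mask M3 z) = ψ z := by
    intro z
    simp only [hψ]
    rw [pi_xf_mask_sub _ _ h23, pi_xf_mask_sub _ _ h13]
  have hψm4 : ∀ z, ψ (mask M4 z) = ψ z := by
    intro z
    simp only [hψ]
    rw [pi_xf_mask_sub _ _ (h23.trans h34), pi_xf_mask_sub _ _ (h13.trans h34)]
  obtain ⟨C, hC⟩ := hψB.2
  have p3 := post_mean G hT h0 h1 hμ (sts T) hs K M3 (fun i hi => hK i (h34 hi)) v ψ hψB.1 C hC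
  have p4 := post_mean G hT h0 h1 hμ (sts T) hs K M4 hK v ψ hψB.1 C hC
  simp only [hψm, hψm4] at p3 p4
  have mz : Measurable (fun ω : (V → Bool) × (V × ℕ → I) => zob (sts T) ω) := measurable_zob _
  have b4 := (pi_BM_mm G θ (sts T) K M4 v).comp mz
  have b3 := (pi_BM_mm G θ (sts T) K M3 v).comp mz
  have c := hψB.comp mz
  have e : ∀ ω : (V → Bool) × (V × ℕ → I),
      (m1 G θ K M4 T v ω - m1 G θ K M3 T v ω) * (m1 G θ K M2 T v ω - m1 G θ K M1 T v ω)
        = mm G θ (xf (sts T) K M4 (zob (sts T) ω)) v * ψ (zob (sts T) ω)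
          - mm G θ (xf (sts T) K M3 (zob (sts T) ω)) v * ψ (zob (sts T) ω) := by
    intro ω
    simp only [m1, hψ]
    ring
  rw [integral_congr_ae (ae_of_all _ e), integral_sub (b4.mul c).int (b3.mul c).int, ← p3, ← p4, sub_self]

lemma pi_twK_prob (θ : ℝ) (μ : Measure (V → Bool)) [IsProbabilityMeasure μ] (T : V × ℕ → I) :
    IsProbabilityMeasure (twK G θ μ T) := by
  rw [twK_apply]
  have : IsMarkovKernel (kT G θ μ T) := by
    unfold kT ck; infer_instance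
  infer_instance

lemma pi_BM_dl (θ : ℝ) (K : ℕ) (M : Set (V × ℕ)) (T : V × ℕ → I) (v : V) :
    pi_BM (fun q : (V × ℕ → I) × XX V × XX V => dl G θ K M T v q) := by
  have m1 : Measurable (fun q : (V × ℕ → I) × XX V × XX V => q.2.1.2) := by fun_prop
  have m2 : Measurable (fun q : (V × ℕ → I) × XX V × XX V => q.2.2.2) := by fun_prop
  exact ((pi_BM_mm G θ (sts T) K M v).comp m1).sub ((pi_BM_mm G θ (sts T) K M v).comp m2)

lemma pi_BM_m1 (θ : ℝ) (K : ℕ) (M : Set (V × ℕ)) (T : V × ℕ → I) (v : V) :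
    pi_BM (fun ω : (V → Bool) × (V × ℕ → I) => m1 G θ K M T v ω) :=
  (pi_BM_mm G θ (sts T) K M v).comp (measurable_zob _)

/-- monotonicity at fixed labels -/
theorem dl_mono (hT : G.IsTree) {θ : ℝ} (h0 : 0 ≤ θ) (h1 : θ < 1) {μ : Measure (V → Bool)}
    [IsProbabilityMeasure μ] (hμ : IsIsing G θ μ) (T : V × ℕ → I) (hinj : Function.Injective T)
    (K : ℕ) (M M' : Set (V × ℕ)) (hM : InitSeg T M) (hM' : InitSeg T M') (hsub : M ⊆ M')
    (hK : ∀ i ∈ M', i.2 < K) (v : V) :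
    ∫ q, (dl G θ K M T v q) ^ 2 ∂(twK G θ μ T) ≤ ∫ q, (dl G θ K M' T v q) ^ 2 ∂(twK G θ μ T) := by
  have := pi_twK_prob G θ μ T
  have horth := pi_orth G hT h0 h1 hμ T hinj K ∅ M M M' (empty_subset _) Subset.rfl hM hM' hsub hK v
  have hz : ∀ q : (V × ℕ → I) × XX V × XX V, dl G θ K ∅ T v q = 0 := by
    intro q
    have : ∀ z : V × ℕ → I, xf (sts T) K ∅ z = fun _ => 0 := by
      intro z; funext w; unfold xf; simp
    simp only [dl, this, sub_self]
  simp only [hz, sub_zero] at horth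
  have b := pi_BM_dl G θ K M T v
  have b' := pi_BM_dl G θ K M' T v
  have e : ∀ q : (V × ℕ → I) × XX V × XX V, dl G θ K M' T v q ^ 2
      = dl G θ K M T v q ^ 2 + ((dl G θ K M' T v q - dl G θ K M T v q) ^ 2
        + 2 * ((dl G θ K M' T v q - dl G θ K M T v q) * dl G θ K M T v q)) := by
    intro q; ring
  have hc : pi_BM (fun q : (V × ℕ → I) × XX V × XX V =>
      (dl G θ K M' T v q - dl G θ K M T v q) * dl G θ K M T v q) := (b'.sub b).mul b
  have hd : pi_BM (fun q : (V × ℕ → I) × XX V × XX V =>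
      2 * ((dl G θ K M' T v q - dl G θ K M T v q) * dl G θ K M T v q)) := (pi_BM.const 2).mul hc
  have hsq : pi_BM (fun q : (V × ℕ → I) × XX V × XX V =>
      (dl G θ K M' T v q - dl G θ K M T v q) ^ 2) := (b'.sub b).sq
  rw [integral_congr_ae (ae_of_all _ e) (f := fun q => dl G θ K M' T v q ^ 2),
    integral_add b.sq.int (hsq.add hd).int, integral_add hsq.int hd.int, integral_const_mul, horth]
  have : 0 ≤ ∫ q, (dl G θ K M' T v q - dl G θ K M T v q) ^ 2 ∂(twK G θ μ T) :=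
    integral_nonneg fun q => sq_nonneg _
  linarith

lemma pi_mem_act {F : Finset V} {T : V × ℕ → I} {k : ℕ} {a b : ℝ} {u : V} :
    u ∈ act F T k a b ↔ u ∈ F ∧ a ≤ (T (u, k) : ℝ) ∧ (T (u, k) : ℝ) < b := by
  unfold act; simp

lemma pi_thr_sub_bef {T : V × ℕ → I} {k : ℕ} {a : ℝ} {u : V} (h : a ≤ (T (u, k) : ℝ)) :
    thr T k a ⊆ bef T (u, k) := by
  intro i hi
  rcases hi with hi | ⟨hi, hi'⟩
  · exact Or.inl hi
  · right
    refine ⟨hi, ?_⟩
    rw [← Subtype.coe_lt_coe]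
    exact lt_of_lt_of_le hi' h

lemma pi_ins_sub_thr {T : V × ℕ → I} {k : ℕ} {b : ℝ} {u : V} (h : (T (u, k) : ℝ) < b) :
    insert (u, k) (bef T (u, k)) ⊆ thr T k b := by
  rintro i (rfl | hi)
  · exact Or.inr ⟨rfl, h⟩
  · rcases hi with hi | ⟨hi, hi'⟩
    · exact Or.inl hi
    · right
      refine ⟨hi, lt_trans ?_ h⟩
      exact Subtype.coe_lt_coe.2 hi'

lemma pi_ins_sub_bef {T : V × ℕ → I} {k : ℕ} {u w : V} (h : T (u, k) < T (w, k)) :
    insert (u, k) (bef T (u, k)) ⊆ bef T (w, k) := by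
  rintro i (rfl | hi)
  · exact Or.inr ⟨rfl, h⟩
  · rcases hi with hi | ⟨hi, hi'⟩
    · exact Or.inl hi
    · exact Or.inr ⟨hi, hi'.trans h⟩

lemma pi_thr_lt {T : V × ℕ → I} {k : ℕ} {b : ℝ} : ∀ i ∈ thr T k b, i.2 < k + 1 := by
  rintro i (hi | ⟨hi, _⟩) <;> omega

lemma pi_bef_lt {T : V × ℕ → I} {k : ℕ} {u : V} : ∀ i ∈ bef T (u, k), i.2 < k + 1 := by
  rintro i (hi | ⟨hi, _⟩)
  · have : i.2 < k := hi
    omega
  · have : i.2 = k := hi
    omega

lemma pi_ins_lt {T : V × ℕ → I} {k : ℕ} {u : V} : ∀ i ∈ insert (u, k) (bef T (u, k)), i.2 < k + 1 := by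
  rintro i (rfl | hi)
  · simp
  · exact pi_bef_lt i hi

/-- increments at fixed labels -/
theorem inc_fixed (hT : G.IsTree) {θ : ℝ} (h0 : 0 ≤ θ) (h1 : θ < 1) {μ : Measure (V → Bool)}
    [IsProbabilityMeasure μ] (hμ : IsIsing G θ μ) (T : V × ℕ → I) (hinj : Function.Injective T)
    (v : V) (k : ℕ) {a b : ℝ} (hab : a ≤ b) (F : Finset V) :
    ∫ q, (dl G θ (k + 1) (thr T k b) T v q) ^ 2 ∂(twK G θ μ T)
        - ∫ q, (dl G θ (k + 1) (thr T k a) T v q) ^ 2 ∂(twK G θ μ T)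
      ≤ ∑ u ∈ act F T k a b,
          ∫ q, (dl G θ (k + 1) (insert (u, k) (bef T (u, k))) T v q
            - dl G θ (k + 1) (bef T (u, k)) T v q) ^ 2 ∂(twK G θ μ T)
        + 4 * esc G θ μ k a b v F T := by
  have hP := pi_twK_prob G θ μ T
  set S := act F T k a b with hS
  set P := twK G θ μ T with hPdef
  have hthr : thr T k a ⊆ thr T k b := by
    rintro i (hi | ⟨hi, hi'⟩)
    · exact Or.inl hi
    · exact Or.inr ⟨hi, lt_of_lt_of_le hi' hab⟩
  have iA : InitSeg T (thr T k a) := initSeg_thr T k a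
  have iB : InitSeg T (thr T k b) := initSeg_thr T k b
  have iu : ∀ u, InitSeg T (bef T (u, k)) := fun u => initSeg_bef T _
  have iu' : ∀ u, InitSeg T (insert (u, k) (bef T (u, k))) := fun u => initSeg_insert T _
  -- labels of distinct vertices are distinct
  have hne : ∀ u w : V, u ≠ w → T (u, k) ≠ T (w, k) := by
    intro u w huw h
    have := hinj h
    exact huw (by simpa using this)
  -- two-copy functions
  let D : (V × ℕ → I) × XX V × XX V → ℝ := fun q =>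
    dl G θ (k + 1) (thr T k b) T v q - dl G θ (k + 1) (thr T k a) T v q
  let E : V → (V × ℕ → I) × XX V × XX V → ℝ := fun u q =>
    dl G θ (k + 1) (insert (u, k) (bef T (u, k))) T v q - dl G θ (k + 1) (bef T (u, k)) T v q
  let D1 : (V → Bool) × (V × ℕ → I) → ℝ := fun ω =>
    m1 G θ (k + 1) (thr T k b) T v ω - m1 G θ (k + 1) (thr T k a) T v ω
  let E1 : V → (V → Bool) × (V × ℕ → I) → ℝ := fun u ω =>
    m1 G θ (k + 1) (insert (u, k) (bef T (u, k))) T v ω - m1 G θ (k + 1) (bef T (u, k)) T v ω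
  have bD : pi_BM D := (pi_BM_dl G θ _ _ T v).sub (pi_BM_dl G θ _ _ T v)
  have bE : ∀ u, pi_BM (E u) := fun u => (pi_BM_dl G θ _ _ T v).sub (pi_BM_dl G θ _ _ T v)
  have bD1 : pi_BM D1 := (pi_BM_m1 G θ _ _ T v).sub (pi_BM_m1 G θ _ _ T v)
  have bE1 : ∀ u, pi_BM (E1 u) := fun u => (pi_BM_m1 G θ _ _ T v).sub (pi_BM_m1 G θ _ _ T v)
  -- orthogonality relations, two copies
  have hD : ∀ u ∈ S, ∫ q, D q * E u q ∂P = ∫ q, E u q ^ 2 ∂P := by
    intro u hu
    rw [hS, pi_mem_act] at hu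
    have o1 := pi_orth G hT h0 h1 hμ T hinj (k + 1) (bef T (u, k)) (insert (u, k) (bef T (u, k)))
      (insert (u, k) (bef T (u, k))) (thr T k b) (subset_insert _ _) Subset.rfl (iu' u) iB
      (pi_ins_sub_thr hu.2.2) pi_thr_lt v
    have o2 := pi_orth G hT h0 h1 hμ T hinj (k + 1) (thr T k a) (bef T (u, k))
      (bef T (u, k)) (insert (u, k) (bef T (u, k))) (pi_thr_sub_bef hu.2.1) Subset.rfl (iu u) (iu' u)
      (subset_insert _ _) pi_ins_lt v
    have bd : ∀ M, pi_BM (fun q : (V × ℕ → I) × XX V × XX V => dl G θ (k + 1) M T v q) :=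
      fun M => pi_BM_dl G θ (k + 1) M T v
    have e : ∀ q, D q * E u q = E u q ^ 2
        + ((dl G θ (k + 1) (thr T k b) T v q - dl G θ (k + 1) (insert (u, k) (bef T (u, k))) T v q)
            * (dl G θ (k + 1) (insert (u, k) (bef T (u, k))) T v q - dl G θ (k + 1) (bef T (u, k)) T v q)
          + (dl G θ (k + 1) (insert (u, k) (bef T (u, k))) T v q - dl G θ (k + 1) (bef T (u, k)) T v q)
            * (dl G θ (k + 1) (bef T (u, k)) T v q - dl G θ (k + 1) (thr T k a) T v q)) := by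
      intro q; simp only [D, E]; ring
    rw [integral_congr_ae (ae_of_all _ e),
      integral_add (bE u).sq.int (((((bd _).sub (bd _)).mul ((bd _).sub (bd _))).add
        (((bd _).sub (bd _)).mul ((bd _).sub (bd _))))).int,
      integral_add (((bd _).sub (bd _)).mul ((bd _).sub (bd _))).int
        (((bd _).sub (bd _)).mul ((bd _).sub (bd _))).int, o1, o2]
    simp
  have hE : ∀ u ∈ S, ∀ w ∈ S, u ≠ w → ∫ q, E u q * E w q ∂P = 0 := by
    intro u hu w hw huw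
    rcases lt_or_gt_of_ne (hne u w huw) with h | h
    · have o := pi_orth G hT h0 h1 hμ T hinj (k + 1) (bef T (u, k)) (insert (u, k) (bef T (u, k)))
        (bef T (w, k)) (insert (w, k) (bef T (w, k))) ((subset_insert _ _).trans (pi_ins_sub_bef h))
        (pi_ins_sub_bef h) (iu w) (iu' w) (subset_insert _ _) pi_ins_lt v
      rw [← o]
      refine integral_congr_ae (ae_of_all _ fun q => ?_)
      simp only [E]; ring
    · have o := pi_orth G hT h0 h1 hμ T hinj (k + 1) (bef T (w, k)) (insert (w, k) (bef T (w, k)))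
        (bef T (u, k)) (insert (u, k) (bef T (u, k))) ((subset_insert _ _).trans (pi_ins_sub_bef h))
        (pi_ins_sub_bef h) (iu u) (iu' u) (subset_insert _ _) pi_ins_lt v
      rw [← o]
  -- orthogonality relations, one copy
  have hD1 : ∀ u ∈ S, ∫ ω, D1 ω * E1 u ω ∂(P1 μ) = ∫ ω, E1 u ω ^ 2 ∂(P1 μ) := by
    intro u hu
    rw [hS, pi_mem_act] at hu
    have o1 := pi_orth1 G hT h0 h1 hμ T (k + 1) (bef T (u, k)) (insert (u, k) (bef T (u, k)))
      (insert (u, k) (bef T (u, k))) (thr T k b) (subset_insert _ _) Subset.rfl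
      (pi_ins_sub_thr hu.2.2) pi_thr_lt v
    have o2 := pi_orth1 G hT h0 h1 hμ T (k + 1) (thr T k a) (bef T (u, k))
      (bef T (u, k)) (insert (u, k) (bef T (u, k))) (pi_thr_sub_bef hu.2.1) Subset.rfl
      (subset_insert _ _) pi_ins_lt v
    have bd : ∀ M, pi_BM (fun ω : (V → Bool) × (V × ℕ → I) => m1 G θ (k + 1) M T v ω) :=
      fun M => pi_BM_m1 G θ (k + 1) M T v
    have e : ∀ ω, D1 ω * E1 u ω = E1 u ω ^ 2
        + ((m1 G θ (k + 1) (thr T k b) T v ω - m1 G θ (k + 1) (insert (u, k) (bef T (u, k))) T v ω)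
            * (m1 G θ (k + 1) (insert (u, k) (bef T (u, k))) T v ω - m1 G θ (k + 1) (bef T (u, k)) T v ω)
          + (m1 G θ (k + 1) (insert (u, k) (bef T (u, k))) T v ω - m1 G θ (k + 1) (bef T (u, k)) T v ω)
            * (m1 G θ (k + 1) (bef T (u, k)) T v ω - m1 G θ (k + 1) (thr T k a) T v ω)) := by
      intro q; simp only [D1, E1]; ring
    rw [integral_congr_ae (ae_of_all _ e),
      integral_add (bE1 u).sq.int (((((bd _).sub (bd _)).mul ((bd _).sub (bd _))).add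
        (((bd _).sub (bd _)).mul ((bd _).sub (bd _))))).int,
      integral_add (((bd _).sub (bd _)).mul ((bd _).sub (bd _))).int
        (((bd _).sub (bd _)).mul ((bd _).sub (bd _))).int, o1, o2]
    simp
  have hE1 : ∀ u ∈ S, ∀ w ∈ S, u ≠ w → ∫ ω, E1 u ω * E1 w ω ∂(P1 μ) = 0 := by
    intro u hu w hw huw
    rcases lt_or_gt_of_ne (hne u w huw) with h | h
    · have o := pi_orth1 G hT h0 h1 hμ T (k + 1) (bef T (u, k)) (insert (u, k) (bef T (u, k)))
        (bef T (w, k)) (insert (w, k) (bef T (w, k))) ((subset_insert _ _).trans (pi_ins_sub_bef h))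
        (pi_ins_sub_bef h) (subset_insert _ _) pi_ins_lt v
      rw [← o]
      refine integral_congr_ae (ae_of_all _ fun q => ?_)
      simp only [E1]; ring
    · have o := pi_orth1 G hT h0 h1 hμ T (k + 1) (bef T (w, k)) (insert (w, k) (bef T (w, k)))
        (bef T (u, k)) (insert (u, k) (bef T (u, k))) ((subset_insert _ _).trans (pi_ins_sub_bef h))
        (pi_ins_sub_bef h) (subset_insert _ _) pi_ins_lt v
      rw [← o]
  have B := pi_bessel P S D E bD (fun u _ => bE u) hD hE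
  have B1 := pi_bessel (P1 μ) S D1 E1 bD1 (fun u _ => bE1 u) hD1 hE1
  -- energy identity for D
  have hen : ∫ q, D q ^ 2 ∂P = ∫ q, (dl G θ (k + 1) (thr T k b) T v q) ^ 2 ∂P
      - ∫ q, (dl G θ (k + 1) (thr T k a) T v q) ^ 2 ∂P := by
    have horth := pi_orth G hT h0 h1 hμ T hinj (k + 1) ∅ (thr T k a) (thr T k a) (thr T k b)
      (empty_subset _) Subset.rfl iA iB hthr pi_thr_lt v
    have hz : ∀ q : (V × ℕ → I) × XX V × XX V, dl G θ (k + 1) ∅ T v q = 0 := by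
      intro q
      have : ∀ z : V × ℕ → I, xf (sts T) (k + 1) ∅ z = fun _ => 0 := by
        intro z; funext w; unfold xf; simp
      simp only [dl, this, sub_self]
    simp only [hz, sub_zero] at horth
    have ba := pi_BM_dl G θ (k + 1) (thr T k a) T v
    have bb := pi_BM_dl G θ (k + 1) (thr T k b) T v
    have e : ∀ q, D q ^ 2 = (dl G θ (k + 1) (thr T k b) T v q ^ 2 - dl G θ (k + 1) (thr T k a) T v q ^ 2)
        - 2 * ((dl G θ (k + 1) (thr T k b) T v q - dl G θ (k + 1) (thr T k a) T v q)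
          * dl G θ (k + 1) (thr T k a) T v q) := by
      intro q; simp only [D]; ring
    rw [integral_congr_ae (ae_of_all _ e), integral_sub (bb.sq.sub ba.sq).int
      ((pi_BM.const 2).mul ((bb.sub ba).mul ba)).int, integral_sub bb.sq.int ba.sq.int,
      integral_const_mul, horth]
    ring
  -- comparison of the residuals
  let R : (V × ℕ → I) → ℝ := fun z =>
    (mm G θ (xf (sts T) (k + 1) (thr T k b) z) v - mm G θ (xf (sts T) (k + 1) (thr T k a) z) v)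
      - ∑ u ∈ S, (mm G θ (xf (sts T) (k + 1) (insert (u, k) (bef T (u, k))) z) v
        - mm G θ (xf (sts T) (k + 1) (bef T (u, k)) z) v)
  have bR : pi_BM R := ((pi_BM_mm G θ _ _ _ v).sub (pi_BM_mm G θ _ _ _ v)).sub
    (pi_BM.sum S fun u _ => (pi_BM_mm G θ _ _ _ v).sub (pi_BM_mm G θ _ _ _ v))
  have hR2 : ∀ q, D q - ∑ u ∈ S, E u q = R q.2.1.2 - R q.2.2.2 := by
    intro q
    simp only [D, E, R, dl, Finset.sum_sub_distrib]
    ring
  have hR1 : ∀ ω, D1 ω - ∑ u ∈ S, E1 u ω = R (zob (sts T) ω) := by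
    intro ω
    simp only [D1, E1, R, m1]
  have mq1 : Measurable (fun q : (V × ℕ → I) × XX V × XX V => q.2.1) := by fun_prop
  have mq2 : Measurable (fun q : (V × ℕ → I) × XX V × XX V => q.2.2) := by fun_prop
  have msnd : Measurable (fun x : XX V => x.2) := by fun_prop
  have mz : Measurable (fun ω : (V → Bool) × (V × ℕ → I) => (ω.1, zob (sts T) ω)) :=
    (by fun_prop : Measurable (fun ω : (V → Bool) × (V × ℕ → I) => ω.1)).prodMk (measurable_zob _)
  have bR' : pi_BM (fun x : XX V => R x.2) := bR.comp msnd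
  have hc1 : ∫ q, R q.2.1.2 ^ 2 ∂P = ∫ ω, R (zob (sts T) ω) ^ 2 ∂(P1 μ) := by
    have h := congrArg (fun m => ∫ x : XX V, R x.2 ^ 2 ∂m) (tw_marg1 G hT h0 h1 hμ T hinj)
    rw [integral_map mq1.aemeasurable bR'.sq.1.aestronglyMeasurable,
      integral_map mz.aemeasurable bR'.sq.1.aestronglyMeasurable] at h
    exact h
  have hc2 : ∫ q, R q.2.2.2 ^ 2 ∂P = ∫ ω, R (zob (sts T) ω) ^ 2 ∂(P1 μ) := by
    have h := congrArg (fun m => ∫ x : XX V, R x.2 ^ 2 ∂m) (tw_marg2 G hT h0 h1 hμ T hinj)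
    rw [integral_map mq2.aemeasurable bR'.sq.1.aestronglyMeasurable,
      integral_map mz.aemeasurable bR'.sq.1.aestronglyMeasurable] at h
    exact h
  have hres : ∫ q, (D q - ∑ u ∈ S, E u q) ^ 2 ∂P ≤ 4 * ∫ ω, (D1 ω - ∑ u ∈ S, E1 u ω) ^ 2 ∂(P1 μ) := by
    have b1 : pi_BM (fun q : (V × ℕ → I) × XX V × XX V => R q.2.1.2) := bR'.comp mq1
    have b2 : pi_BM (fun q : (V × ℕ → I) × XX V × XX V => R q.2.2.2) := bR'.comp mq2
    calc ∫ q, (D q - ∑ u ∈ S, E u q) ^ 2 ∂P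
        ≤ ∫ q, (2 * R q.2.1.2 ^ 2 + 2 * R q.2.2.2 ^ 2) ∂P := by
          refine integral_mono ?_ (((pi_BM.const 2).mul b1.sq).add ((pi_BM.const 2).mul b2.sq)).int ?_
          · exact (bD.sub (pi_BM.sum S fun u _ => bE u)).sq.int
          · intro q
            simp only [hR2]
            nlinarith [sq_nonneg (R q.2.1.2 + R q.2.2.2)]
      _ = 4 * ∫ ω, R (zob (sts T) ω) ^ 2 ∂(P1 μ) := by
          rw [integral_add ((pi_BM.const 2).mul b1.sq).int ((pi_BM.const 2).mul b2.sq).int,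
            integral_const_mul, integral_const_mul, hc1, hc2]
          ring
      _ = _ := by simp only [hR1]
  rw [B1] at hres
  rw [B, hen] at hres
  have hesc : esc G θ μ k a b v F T = ∫ ω, D1 ω ^ 2 ∂(P1 μ) - ∑ u ∈ S, ∫ ω, E1 u ω ^ 2 ∂(P1 μ) := rfl
  rw [hesc]
  have : ∑ u ∈ S, ∫ q, (dl G θ (k + 1) (insert (u, k) (bef T (u, k))) T v q
            - dl G θ (k + 1) (bef T (u, k)) T v q) ^ 2 ∂P = ∑ u ∈ S, ∫ q, E u q ^ 2 ∂P := rfl
  rw [this]
  linarith

lemma pi_eta_abs (T : V × ℕ → I) (z : I) (j : V × ℕ) :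
    |sts T j * (2 * (z : ℝ) - 1)| ≤ 2 / 5 := by
  have h1 := st_nonneg (T j)
  have h2 := st_le (T j)
  have h3 := zeta_abs z
  unfold sts
  rw [abs_mul, abs_of_nonneg h1]
  calc st (T j) * |2 * (z : ℝ) - 1| ≤ st (T j) * 1 := mul_le_mul_of_nonneg_left h3 h1
    _ ≤ 2 / 5 := by linarith

lemma pi_tanh_eta (T : V × ℕ → I) (z : I) (j : V × ℕ) :
    Real.tanh (Real.artanh (sts T j * (2 * (z : ℝ) - 1))) = sts T j * (2 * (z : ℝ) - 1) := by
  have := pi_eta_abs T z j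
  rw [abs_le] at this
  exact Real.tanh_artanh ⟨by linarith, by linarith⟩

open Classical in
lemma pi_xf_insert (s : V × ℕ → ℝ) (K : ℕ) {M : Set (V × ℕ)} {u : V} {k : ℕ} (hk : k < K)
    (hj : (u, k) ∉ M) (z : V × ℕ → I) (w : V) :
    xf s K (insert (u, k) M) z w
      = xf s K M z w + if w = u then Real.artanh (s (u, k) * (2 * (z (u, k) : ℝ) - 1)) else 0 := by
  unfold xf
  by_cases hw : w = u
  · subst hw
    rw [if_pos rfl]
    have hmem : k ∈ Finset.range K := Finset.mem_range.2 hk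
    rw [← Finset.add_sum_erase _ _ hmem, ← Finset.add_sum_erase (Finset.range K)
      (fun l => if (w, l) ∈ M then Real.artanh (s (w, l) * (2 * (z (w, l) : ℝ) - 1)) else 0) hmem]
    simp only [mem_insert_iff, true_or, if_true, if_neg hj]
    have : ∀ l ∈ (Finset.range K).erase k,
        (if (w, l) = (w, k) ∨ (w, l) ∈ M then Real.artanh (s (w, l) * (2 * (z (w, l) : ℝ) - 1)) else 0)
          = if (w, l) ∈ M then Real.artanh (s (w, l) * (2 * (z (w, l) : ℝ) - 1)) else 0 := by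
      intro l hl
      have hlk : l ≠ k := (Finset.mem_erase.1 hl).1
      simp [hlk]
    rw [Finset.sum_congr rfl this]
    ring
  · rw [if_neg hw, add_zero]
    refine Finset.sum_congr rfl fun l _ => ?_
    simp [hw]

/-- the update formula for one more event -/
lemma pi_update (hT : G.IsTree) {θ : ℝ} (h0 : 0 ≤ θ) (h1 : θ < 1) (T : V × ℕ → I)
    (p : ℕ → V) (n : ℕ) (hp : IsPth G p n) (K : ℕ) {M : Set (V × ℕ)} {k : ℕ} (hk : k < K)
    (hj : (p n, k) ∉ M) (z : V × ℕ → I) (hg : Good G θ (xf (sts T) K M z))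
    (hg' : Good G θ (xf (sts T) K (insert (p n, k) M) z)) :
    mm G θ (xf (sts T) K (insert (p n, k) M) z) (p 0) - mm G θ (xf (sts T) K M z) (p 0)
      = Cv G θ (xf (sts T) K M z) p n * (sts T (p n, k) * (2 * (z (p n, k) : ℝ) - 1)
        / (1 + sts T (p n, k) * (2 * (z (p n, k) : ℝ) - 1) * mm G θ (xf (sts T) K M z) (p n))) := by
  classical
  have h := mm_update G hT h0 h1 hg hg' hp (y := Real.artanh (sts T (p n, k) * (2 * (z (p n, k) : ℝ) - 1)))
    (by rw [pi_xf_insert (sts T) K hk hj z (p n), if_pos rfl])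
    (fun w hw => by rw [pi_xf_insert (sts T) K hk hj z w, if_neg hw, add_zero])
  rw [h, pi_tanh_eta]
  ring

/-- jump bound -/
theorem jump_bound (hT : G.IsTree) {θ : ℝ} (h0 : 0 ≤ θ) (h1 : θ < 1) {μ : Measure (V → Bool)}
    [IsProbabilityMeasure μ] (hμ : IsIsing G θ μ) (T : V × ℕ → I) (hinj : Function.Injective T)
    (p : ℕ → V) (n : ℕ) (hp : IsPth G p n) (k : ℕ) :
    ∀ᵐ q ∂(twK G θ μ T), (dl G θ (k + 1) (insert (p n, k) (bef T (p n, k))) T (p 0) q
        - dl G θ (k + 1) (bef T (p n, k)) T (p 0) q) ^ 2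
      ≤ 128 * st (T (p n, k)) ^ 2 * kker G θ p n (pairB T (p n, k) q) := by
  have hnj : (p n, k) ∉ bef T (p n, k) := iv_not_prec_self T _
  filter_upwards [tw_good G hT h0 h1 hμ T hinj (k + 1) (bef T (p n, k)) pi_bef_lt,
    tw_good G hT h0 h1 hμ T hinj (k + 1) (insert (p n, k) (bef T (p n, k))) pi_ins_lt,
    tw_obs G hT h0 h1 hμ T hinj] with q hg hg' hobs
  have u1 := pi_update G hT h0 h1 T p n hp (k + 1) (Nat.lt_succ_self k) hnj q.2.1.2 hg.1 hg'.1
  have u2 := pi_update G hT h0 h1 T p n hp (k + 1) (Nat.lt_succ_self k) hnj q.2.2.2 hg.2 hg'.2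
  obtain ⟨o1, o2⟩ := hobs (p n, k)
  set a : ℝ := sts T (p n, k) with ha
  have ha0 : 0 ≤ a := st_nonneg _
  have ha2 : a ≤ 1 / 2 := (st_le _).trans (by norm_num)
  set X := xf (sts T) (k + 1) (bef T (p n, k)) q.2.1.2 with hX
  set X' := xf (sts T) (k + 1) (bef T (p n, k)) q.2.2.2 with hX'
  set m := mm G θ X (p n) with hm
  set m' := mm G θ X' (p n) with hm'
  have hm1 : |m| ≤ 1 := pi_mm_abs G θ X (p n)
  have hm1' : |m'| ≤ 1 := pi_mm_abs G θ X' (p n)
  have hc : |a * m| ≤ 1 / 2 := by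
    rw [abs_mul, abs_of_nonneg ha0]
    nlinarith [abs_nonneg m]
  have hc' : |a * m'| ≤ 1 / 2 := by
    rw [abs_mul, abs_of_nonneg ha0]
    nlinarith [abs_nonneg m']
  have z1 : q.2.1.2 (p n, k) = Qm (a * m) (q.1 (p n, k)) := by
    rw [o1]
    unfold un
    rw [Qm_Fm hc]
  have z2 : q.2.2.2 (p n, k) = Qm (a * m') (q.1 (p n, k)) := by
    rw [o2]
    unfold un
    rw [Qm_Fm hc']
  have hd : dl G θ (k + 1) (insert (p n, k) (bef T (p n, k))) T (p 0) q
        - dl G θ (k + 1) (bef T (p n, k)) T (p 0) q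
      = Cv G θ X p n * (a * (2 * (Qm (a * m) (q.1 (p n, k)) : ℝ) - 1)
          / (1 + a * (2 * (Qm (a * m) (q.1 (p n, k)) : ℝ) - 1) * m))
        - Cv G θ X' p n * (a * (2 * (Qm (a * m') (q.1 (p n, k)) : ℝ) - 1)
          / (1 + a * (2 * (Qm (a * m') (q.1 (p n, k)) : ℝ) - 1) * m')) := by
    rw [← z1, ← z2, ← u1, ← u2]
    unfold dl
    ring
  rw [hd]
  have e1 := eta_bound ha0 ha2 hm1 (Qm (a * m) (q.1 (p n, k)))
  have e2 := eta_diff ha0 ha2 hm1 hm1' (q.1 (p n, k))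
  set g := a * (2 * (Qm (a * m) (q.1 (p n, k)) : ℝ) - 1)
          / (1 + a * (2 * (Qm (a * m) (q.1 (p n, k)) : ℝ) - 1) * m) with hg
  set g' := a * (2 * (Qm (a * m') (q.1 (p n, k)) : ℝ) - 1)
          / (1 + a * (2 * (Qm (a * m') (q.1 (p n, k)) : ℝ) - 1) * m') with hg'
  have hk : kker G θ p n (pairB T (p n, k) q)
      = (Cv G θ X p n - Cv G θ X' p n) ^ 2 + (Cv G θ X' p n) ^ 2 * (m - m') ^ 2 := rfl
  have hst : st (T (p n, k)) = a := rfl
  rw [hk, hst]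
  set c := Cv G θ X p n
  set c' := Cv G θ X' p n
  have f1 : g ^ 2 ≤ 4 * a ^ 2 := by
    have := sq_le_sq' (by rw [abs_le] at e1; linarith [e1.1]) (abs_le.1 e1).2
    nlinarith
  have f2 : (g - g') ^ 2 ≤ 64 * a ^ 2 * (m - m') ^ 2 := by
    have h3 : |g - g'| ^ 2 ≤ (8 * a * |m - m'|) ^ 2 := pow_le_pow_left₀ (abs_nonneg _) e2 2
    rw [sq_abs] at h3
    calc (g - g') ^ 2 ≤ (8 * a * |m - m'|) ^ 2 := h3
      _ = 64 * a ^ 2 * (m - m') ^ 2 := by rw [mul_pow, sq_abs]; ring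
  have e3 : (c * g - c' * g') ^ 2 ≤ 2 * (c - c') ^ 2 * g ^ 2 + 2 * c' ^ 2 * (g - g') ^ 2 := by
    have : c * g - c' * g' = (c - c') * g + c' * (g - g') := by ring
    rw [this]
    nlinarith [sq_nonneg ((c - c') * g - c' * (g - g'))]
  calc (c * g - c' * g') ^ 2 ≤ 2 * (c - c') ^ 2 * g ^ 2 + 2 * c' ^ 2 * (g - g') ^ 2 := e3
    _ ≤ 2 * (c - c') ^ 2 * (4 * a ^ 2) + 2 * c' ^ 2 * (64 * a ^ 2 * (m - m') ^ 2) := by
        have t1 := mul_le_mul_of_nonneg_left f1 (by positivity : 0 ≤ 2 * (c - c') ^ 2)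
        have t2 := mul_le_mul_of_nonneg_left f2 (by positivity : 0 ≤ 2 * c' ^ 2)
        linarith
    _ ≤ 128 * a ^ 2 * ((c - c') ^ 2 + c' ^ 2 * (m - m') ^ 2) := by
        nlinarith [mul_nonneg (sq_nonneg a) (sq_nonneg (c - c'))]

/-- single-copy jump bound -/
theorem jump_bound1 (hT : G.IsTree) {θ : ℝ} (h0 : 0 ≤ θ) (h1 : θ < 1) {μ : Measure (V → Bool)}
    [IsProbabilityMeasure μ] (hμ : IsIsing G θ μ) (T : V × ℕ → I)
    (p : ℕ → V) (n : ℕ) (hp : IsPth G p n) (K : ℕ) (M : Set (V × ℕ)) (hK : ∀ i ∈ M, i.2 < K)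
    {k : ℕ} (hk : k < K) (hj : (p n, k) ∉ M) :
    ∀ᵐ ω ∂(P1 μ), (m1 G θ K (insert (p n, k) M) T (p 0) ω - m1 G θ K M T (p 0) ω) ^ 2
      ≤ (PP G θ (xf (sts T) K M (zob (sts T) ω)) p n) ^ 2 := by
  have hs : ∀ j, 0 ≤ sts T j ∧ sts T j ≤ 1 / 2 := fun j => ⟨st_nonneg _, (st_le _).trans (by norm_num)⟩
  filter_upwards [post_good G hT h0 h1 hμ (sts T) hs K M hK,
    post_good G hT h0 h1 hμ (sts T) hs K (insert (p n, k) M) (by
      rintro i (rfl | hi)
      · exact hk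
      · exact hK i hi)] with ω hg hg'
  have u := pi_update G hT h0 h1 T p n hp K hk hj (zob (sts T) ω) hg hg'
  have : m1 G θ K (insert (p n, k) M) T (p 0) ω - m1 G θ K M T (p 0) ω = _ := u
  rw [this]
  set a : ℝ := sts T (p n, k) with ha
  have ha0 : 0 ≤ a := st_nonneg _
  have ha2 : a ≤ 2 / 5 := st_le _
  set X := xf (sts T) K M (zob (sts T) ω) with hX
  have hm1 := pi_mm_abs G θ X (p n)
  have e1 := eta_bound ha0 (ha2.trans (by norm_num)) hm1 (zob (sts T) ω (p n, k))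
  set g := a * (2 * (zob (sts T) ω (p n, k) : ℝ) - 1)
          / (1 + a * (2 * (zob (sts T) ω (p n, k) : ℝ) - 1) * mm G θ X (p n)) with hg
  have hg1 : g ^ 2 ≤ 1 := by
    have : |g| ≤ 1 := e1.trans (by linarith)
    rw [← sq_abs]
    exact pow_le_one₀ (abs_nonneg _) this
  unfold Cv
  have hV0 : 0 ≤ 1 - mm G θ X (p 0) ^ 2 := by
    have := pi_mm_abs G θ X (p 0)
    have : mm G θ X (p 0) ^ 2 ≤ 1 := by rw [← sq_abs]; exact pow_le_one₀ (abs_nonneg _) this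
    linarith
  have hV1 : 1 - mm G θ X (p 0) ^ 2 ≤ 1 := by linarith [sq_nonneg (mm G θ X (p 0))]
  have hVsq : (1 - mm G θ X (p 0) ^ 2) ^ 2 ≤ 1 := pow_le_one₀ hV0 hV1
  calc ((1 - mm G θ X (p 0) ^ 2) * PP G θ X p n * g) ^ 2
      = ((1 - mm G θ X (p 0) ^ 2) ^ 2 * g ^ 2) * (PP G θ X p n) ^ 2 := by ring
    _ ≤ 1 * (PP G θ X p n) ^ 2 := by
        refine mul_le_mul_of_nonneg_right ?_ (sq_nonneg _)
        exact mul_le_one₀ hVsq (sq_nonneg _) hg1
    _ = _ := one_mul _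

end Crest.Agent.FI
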