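import Mathlib
import Crest.Agent.FI.ProcDefs2
import Crest.Agent.FI.ProcInc
import Crest.Agent.FI.ProcSF
import Crest.Agent.FI.ProcState
import Crest.Agent.FI.EnvKill
import Crest.Agent.FI.TreeAut
import Crest.Agent.FI.Rho
import Crest.Agent.FI.EnvBase

set_option autoImplicit false

namespace Crest.Agent.FI

open MeasureTheory ProbabilityTheory unitInterval Set Filter Topology
open scoped ENNReal

/-! ### preliminaries -/

lemma pe_abs_le_sqrt {Ω : Type*} [MeasurableSpace Ω] (P : Measure Ω) [IsProbabilityMeasure P]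
    {f : Ω → ℝ} (hf : pi_BM f) : (∫ ω, |f ω| ∂P) ^ 2 ≤ ∫ ω, f ω ^ 2 ∂P := by
  set c := ∫ ω, |f ω| ∂P with hc
  have hfa : pi_BM (fun ω => |f ω|) := by
    obtain ⟨hm, C, hC⟩ := hf
    exact ⟨hm.abs, C, fun ω => by rw [abs_abs]; exact hC ω⟩
  have h : 0 ≤ ∫ ω, (|f ω| - c) ^ 2 ∂P := integral_nonneg fun ω => sq_nonneg _
  have e : ∀ ω, (|f ω| - c) ^ 2 = f ω ^ 2 - (2 * c * |f ω| - c ^ 2) := by
    intro ω; rw [sub_sq, sq_abs]; ring
  have hI1 : Integrable (fun ω => 2 * c * |f ω|) P := ((pi_BM.const (2 * c)).mul hfa).int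
  have hI2 : Integrable (fun _ : Ω => c ^ 2) P := integrable_const _
  have hI12 : Integrable (fun ω => 2 * c * |f ω| - c ^ 2) P := hI1.sub hI2
  rw [integral_congr_ae (ae_of_all _ e), integral_sub hf.sq.int hI12,
    integral_sub hI1 hI2, integral_const_mul, integral_const, ← hc] at h
  simp at h
  nlinarith

lemma pe_sq_tendsto {Ω : Type*} [MeasurableSpace Ω] (P : Measure Ω) [IsProbabilityMeasure P]
    {A : ℕ → Ω → ℝ} {B : Ω → ℝ} (hAm : ∀ n, Measurable (A n)) (hBm : Measurable B)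
    (hA : ∀ n ω, |A n ω| ≤ 2) (hB : ∀ ω, |B ω| ≤ 2)
    (h : Tendsto (fun n => ∫ ω, (A n ω - B ω) ^ 2 ∂P) atTop (𝓝 0)) :
    Tendsto (fun n => ∫ ω, A n ω ^ 2 ∂P) atTop (𝓝 (∫ ω, B ω ^ 2 ∂P)) := by
  have bA : ∀ n, pi_BM (A n) := fun n => ⟨hAm n, 2, hA n⟩
  have bB : pi_BM B := ⟨hBm, 2, hB⟩
  have hb : ∀ n, |∫ ω, A n ω ^ 2 ∂P - ∫ ω, B ω ^ 2 ∂P| ≤ 4 * √(∫ ω, (A n ω - B ω) ^ 2 ∂P) := by
    intro n
    rw [← integral_sub (bA n).sq.int bB.sq.int]
    have hd : pi_BM (fun ω => |A n ω - B ω|) := by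
      obtain ⟨hm, C, hC⟩ := (bA n).sub bB
      exact ⟨hm.abs, C, fun ω => by rw [abs_abs]; exact hC ω⟩
    calc |∫ ω, (A n ω ^ 2 - B ω ^ 2) ∂P| ≤ ∫ ω, |A n ω ^ 2 - B ω ^ 2| ∂P := abs_integral_le_integral_abs
      _ ≤ ∫ ω, 4 * |A n ω - B ω| ∂P := by
          refine integral_mono ?_ ((pi_BM.const 4).mul hd).int fun ω => ?_
          · have hb : pi_BM (fun ω => |A n ω ^ 2 - B ω ^ 2|) := by
              obtain ⟨hm, C, hC⟩ := (bA n).sq.sub bB.sq
              exact ⟨hm.abs, C, fun ω => by rw [abs_abs]; exact hC ω⟩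
            exact hb.int
          · have : A n ω ^ 2 - B ω ^ 2 = (A n ω + B ω) * (A n ω - B ω) := by ring
            dsimp only
            rw [this, abs_mul]
            refine mul_le_mul_of_nonneg_right ?_ (abs_nonneg _)
            exact (abs_add_le _ _).trans (by linarith [hA n ω, hB ω])
      _ = 4 * ∫ ω, |A n ω - B ω| ∂P := integral_const_mul _ _
      _ ≤ 4 * √(∫ ω, (A n ω - B ω) ^ 2 ∂P) := by
          refine mul_le_mul_of_nonneg_left ?_ (by norm_num)
          exact Real.le_sqrt_of_sq_le (pe_abs_le_sqrt P ((bA n).sub bB))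
  rw [tendsto_iff_dist_tendsto_zero]
  have h2 : Tendsto (fun n => 4 * √(∫ ω, (A n ω - B ω) ^ 2 ∂P)) atTop (𝓝 0) := by
    have := (Real.continuous_sqrt.tendsto 0).comp h
    simp only [Real.sqrt_zero] at this
    simpa using this.const_mul 4
  exact squeeze_zero (fun n => dist_nonneg) (fun n => by rw [Real.dist_eq]; exact hb n) h2

section masks

variable {V : Type*}

/-- events of earlier rounds, round `k` up to time `a`, and the round `k` events of `S` -/
def pe_fb (T : V × ℕ → I) (k : ℕ) (a : ℝ) (S : Finset V) : Set (V × ℕ) :=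
  {i | i.2 < k ∨ (i.2 = k ∧ ((T i : ℝ) < a ∨ i.1 ∈ S))}

open Classical in
noncomputable def pe_lt (T : V × ℕ → I) (k : ℕ) (S : Finset V) (u : V) : Finset V :=
  S.filter (fun w => T (w, k) < T (u, k))

lemma pe_mem_lt {T : V × ℕ → I} {k : ℕ} {S : Finset V} {u w : V} :
    w ∈ pe_lt T k S u ↔ w ∈ S ∧ T (w, k) < T (u, k) := by
  unfold pe_lt; simp

lemma pe_fb_empty (T : V × ℕ → I) (k : ℕ) (a : ℝ) : pe_fb T k a ∅ = thr T k a := by
  ext i; simp [pe_fb, thr]

open Classical in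
lemma pe_insert_fb (T : V × ℕ → I) (k : ℕ) (a : ℝ) (S : Finset V) (u : V) :
    insert (u, k) (pe_fb T k a S) = pe_fb T k a (insert u S) := by
  ext ⟨w, l⟩
  simp only [mem_insert_iff, pe_fb, mem_ofPred_eq, Prod.mk.injEq, Finset.mem_insert]
  tauto

lemma pe_fb_mono {T : V × ℕ → I} {k : ℕ} {a : ℝ} {S S' : Finset V} (h : S ⊆ S') :
    pe_fb T k a S ⊆ pe_fb T k a S' := by
  rintro i (hi | ⟨hi, hi' | hi'⟩)
  · exact Or.inl hi
  · exact Or.inr ⟨hi, Or.inl hi'⟩
  · exact Or.inr ⟨hi, Or.inr (h hi')⟩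

lemma pe_fb_round {T : V × ℕ → I} {k : ℕ} {a : ℝ} {S : Finset V} : ∀ i ∈ pe_fb T k a S, i.2 < k + 1 := by
  rintro i (hi | ⟨hi, _⟩) <;> omega

/-- telescoping -/
lemma pe_tel (f : Set (V × ℕ) → ℝ) (T : V × ℕ → I) (hinj : Function.Injective T) (k : ℕ) (a : ℝ)
    (S : Finset V) :
    f (pe_fb T k a S) - f (thr T k a)
      = ∑ u ∈ S, (f (insert (u, k) (pe_fb T k a (pe_lt T k S u))) - f (pe_fb T k a (pe_lt T k S u))) := by
  classical
  induction S using Finset.induction_on_max_value (fun u : V => T (u, k)) with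
  | empty => simp [pe_fb_empty]
  | insert u S hu hmax ih =>
    rw [Finset.sum_insert hu]
    have hlt : ∀ w ∈ S, T (w, k) < T (u, k) := by
      intro w hw
      refine lt_of_le_of_ne (hmax w hw) fun h => hu ?_
      have := hinj h
      simp only [Prod.mk.injEq, and_true] at this
      exact this ▸ hw
    have e1 : pe_lt T k (insert u S) u = S := by
      ext w
      rw [pe_mem_lt, Finset.mem_insert]
      constructor
      · rintro ⟨rfl | h, h'⟩
        · exact absurd h' (lt_irrefl _)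
        · exact h
      · intro h; exact ⟨Or.inr h, hlt w h⟩
    have e2 : ∀ w ∈ S, pe_lt T k (insert u S) w = pe_lt T k S w := by
      intro w hw
      ext x
      rw [pe_mem_lt, pe_mem_lt, Finset.mem_insert]
      constructor
      · rintro ⟨rfl | h, h'⟩
        · exact absurd (h'.trans (hlt w hw)) (lt_irrefl _)
        · exact ⟨h, h'⟩
      · rintro ⟨h, h'⟩; exact ⟨Or.inr h, h'⟩
    rw [e1, pe_insert_fb, Finset.sum_congr rfl (fun w hw => by rw [e2 w hw]), ← ih]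
    ring

end masks

variable {V : Type*} [Countable V] (G : SimpleGraph V) [G.LocallyFinite]

/-- chain decomposition of the energy of a finite set of events, at fixed labels -/
lemma pe_chain (hT : G.IsTree) {θ : ℝ} (h0 : 0 ≤ θ) (h1 : θ < 1) {μ : Measure (V → Bool)}
    [IsProbabilityMeasure μ] (hμ : IsIsing G θ μ) (T : V × ℕ → I) (hinj : Function.Injective T)
    (v : V) (k : ℕ) (a : ℝ) (S : Finset V) :
    ∫ ω, (m1 G θ (k + 1) (pe_fb T k a S) T v ω - m1 G θ (k + 1) (thr T k a) T v ω) ^ 2 ∂(P1 μ)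
      = ∑ u ∈ S, ∫ ω, (m1 G θ (k + 1) (insert (u, k) (pe_fb T k a (pe_lt T k S u))) T v ω
          - m1 G θ (k + 1) (pe_fb T k a (pe_lt T k S u)) T v ω) ^ 2 ∂(P1 μ) := by
  classical
  have hne : ∀ u w : V, u ≠ w → T (u, k) ≠ T (w, k) := by
    intro u w huw h
    have := hinj h
    exact huw (by simpa using this)
  let D1 : (V → Bool) × (V × ℕ → I) → ℝ := fun ω =>
    m1 G θ (k + 1) (pe_fb T k a S) T v ω - m1 G θ (k + 1) (thr T k a) T v ω
  let E1 : V → (V → Bool) × (V × ℕ → I) → ℝ := fun u ω =>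
    m1 G θ (k + 1) (insert (u, k) (pe_fb T k a (pe_lt T k S u))) T v ω
      - m1 G θ (k + 1) (pe_fb T k a (pe_lt T k S u)) T v ω
  have bD1 : pi_BM D1 := (pi_BM_m1 G θ _ _ T v).sub (pi_BM_m1 G θ _ _ T v)
  have bE1 : ∀ u, pi_BM (E1 u) := fun u => (pi_BM_m1 G θ _ _ T v).sub (pi_BM_m1 G θ _ _ T v)
  have hsub1 : ∀ u ∈ S, insert (u, k) (pe_fb T k a (pe_lt T k S u)) ⊆ pe_fb T k a S := by
    intro u hu
    rw [pe_insert_fb]
    refine pe_fb_mono ?_
    intro w hw
    rcases Finset.mem_insert.1 hw with rfl | hw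
    · exact hu
    · exact (pe_mem_lt.1 hw).1
  have hsub0 : ∀ u, thr T k a ⊆ pe_fb T k a (pe_lt T k S u) := by
    intro u
    rw [← pe_fb_empty]
    exact pe_fb_mono (Finset.empty_subset _)
  have hsub2 : ∀ u ∈ S, ∀ w, T (u, k) < T (w, k) →
      insert (u, k) (pe_fb T k a (pe_lt T k S u)) ⊆ pe_fb T k a (pe_lt T k S w) := by
    intro u hu w h
    rw [pe_insert_fb]
    refine pe_fb_mono ?_
    intro x hx
    rcases Finset.mem_insert.1 hx with rfl | hx
    · exact pe_mem_lt.2 ⟨hu, h⟩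
    · exact pe_mem_lt.2 ⟨(pe_mem_lt.1 hx).1, (pe_mem_lt.1 hx).2.trans h⟩
  have hround : ∀ u, ∀ i ∈ insert (u, k) (pe_fb T k a (pe_lt T k S u)), i.2 < k + 1 := by
    rintro u i (rfl | hi)
    · simp
    · exact pe_fb_round i hi
  have hD1 : ∀ u ∈ S, ∫ ω, D1 ω * E1 u ω ∂(P1 μ) = ∫ ω, E1 u ω ^ 2 ∂(P1 μ) := by
    intro u hu
    have o1 := pi_orth1 G hT h0 h1 hμ T (k + 1) (pe_fb T k a (pe_lt T k S u))
      (insert (u, k) (pe_fb T k a (pe_lt T k S u)))
      (insert (u, k) (pe_fb T k a (pe_lt T k S u))) (pe_fb T k a S) (subset_insert _ _) Subset.rfl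
      (hsub1 u hu) pe_fb_round v
    have o2 := pi_orth1 G hT h0 h1 hμ T (k + 1) (thr T k a) (pe_fb T k a (pe_lt T k S u))
      (pe_fb T k a (pe_lt T k S u)) (insert (u, k) (pe_fb T k a (pe_lt T k S u))) (hsub0 u) Subset.rfl
      (subset_insert _ _) (hround u) v
    have bd : ∀ M, pi_BM (fun ω : (V → Bool) × (V × ℕ → I) => m1 G θ (k + 1) M T v ω) :=
      fun M => pi_BM_m1 G θ (k + 1) M T v
    have e : ∀ ω, D1 ω * E1 u ω = E1 u ω ^ 2
        + ((m1 G θ (k + 1) (pe_fb T k a S) T v ω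
              - m1 G θ (k + 1) (insert (u, k) (pe_fb T k a (pe_lt T k S u))) T v ω)
            * (m1 G θ (k + 1) (insert (u, k) (pe_fb T k a (pe_lt T k S u))) T v ω
              - m1 G θ (k + 1) (pe_fb T k a (pe_lt T k S u)) T v ω)
          + (m1 G θ (k + 1) (insert (u, k) (pe_fb T k a (pe_lt T k S u))) T v ω
              - m1 G θ (k + 1) (pe_fb T k a (pe_lt T k S u)) T v ω)
            * (m1 G θ (k + 1) (pe_fb T k a (pe_lt T k S u)) T v ω
              - m1 G θ (k + 1) (thr T k a) T v ω)) := by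
      intro q; simp only [D1, E1]; ring
    rw [integral_congr_ae (ae_of_all _ e),
      integral_add (bE1 u).sq.int (((((bd _).sub (bd _)).mul ((bd _).sub (bd _))).add
        (((bd _).sub (bd _)).mul ((bd _).sub (bd _))))).int,
      integral_add (((bd _).sub (bd _)).mul ((bd _).sub (bd _))).int
        (((bd _).sub (bd _)).mul ((bd _).sub (bd _))).int, o1, o2]
    simp
  have hE1 : ∀ u ∈ S, ∀ w ∈ S, u ≠ w → ∫ ω, E1 u ω * E1 w ω ∂(P1 μ) = 0 := by
    intro u hu w hw huw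
    rcases lt_or_gt_of_ne (hne u w huw) with h | h
    · have o := pi_orth1 G hT h0 h1 hμ T (k + 1) (pe_fb T k a (pe_lt T k S u))
        (insert (u, k) (pe_fb T k a (pe_lt T k S u)))
        (pe_fb T k a (pe_lt T k S w)) (insert (w, k) (pe_fb T k a (pe_lt T k S w)))
        ((subset_insert _ _).trans (hsub2 u hu w h))
        (hsub2 u hu w h) (subset_insert _ _) (hround w) v
      rw [← o]
      refine integral_congr_ae (ae_of_all _ fun q => ?_)
      simp only [E1]; ring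
    · have o := pi_orth1 G hT h0 h1 hμ T (k + 1) (pe_fb T k a (pe_lt T k S w))
        (insert (w, k) (pe_fb T k a (pe_lt T k S w)))
        (pe_fb T k a (pe_lt T k S u)) (insert (u, k) (pe_fb T k a (pe_lt T k S u)))
        ((subset_insert _ _).trans (hsub2 w hw u h))
        (hsub2 w hw u h) (subset_insert _ _) (hround u) v
      rw [← o]
  have B1 := pi_bessel (P1 μ) S D1 E1 bD1 (fun u _ => bE1 u) hD1 hE1
  have hz : ∀ ω, D1 ω - ∑ u ∈ S, E1 u ω = 0 := by
    intro ω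
    have := pe_tel (fun M => m1 G θ (k + 1) M T v ω) T hinj k a S
    simp only [D1, E1]
    rw [this]
    ring
  simp only [hz] at B1
  have : ∫ ω, D1 ω ^ 2 ∂(P1 μ) = ∑ u ∈ S, ∫ ω, E1 u ω ^ 2 ∂(P1 μ) := by
    have h3 : ∫ _ω : (V → Bool) × (V × ℕ → I), (0:ℝ) ^ 2 ∂(P1 μ) = 0 := by simp
    rw [h3] at B1
    linarith
  exact this

/-! ### measurability in the labels -/

omit [G.LocallyFinite] in
lemma pe_meas_xf (K : ℕ) (M : (V × ℕ → I) → Set (V × ℕ)) (hM : ∀ i, MeasurableSet {T | i ∈ M T}) :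
    Measurable (fun p : (V × ℕ → I) × (V × ℕ → I) => xf (sts p.1) K (M p.1) p.2) := by
  refine measurable_pi_iff.2 fun v => ?_
  unfold xf
  refine Finset.measurable_sum _ fun l _ => ?_
  refine Measurable.ite (measurable_fst (hM (v, l))) ?_ measurable_const
  refine measurable_artanh.comp ?_
  refine Measurable.mul ?_ (by fun_prop)
  exact measurable_st.comp (by fun_prop : Measurable (fun p : (V × ℕ → I) × (V × ℕ → I) => p.1 (v, l)))

lemma pe_meas_m1 (θ : ℝ) (K : ℕ) (M : (V × ℕ → I) → Set (V × ℕ)) (hM : ∀ i, MeasurableSet {T | i ∈ M T})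
    (v : V) : Measurable (fun p : (V × ℕ → I) × ((V → Bool) × (V × ℕ → I)) =>
      m1 G θ K (M p.1) p.1 v p.2) := by
  unfold m1
  refine (measurable_mm G θ v).comp ?_
  exact (pe_meas_xf K M hM).comp (measurable_fst.prodMk measurable_zob_param)

lemma pe_meas_int (θ : ℝ) (μ : Measure (V → Bool)) [IsProbabilityMeasure μ] (K : ℕ)
    (M M' : (V × ℕ → I) → Set (V × ℕ)) (hM : ∀ i, MeasurableSet {T | i ∈ M T})
    (hM' : ∀ i, MeasurableSet {T | i ∈ M' T}) (v : V) :
    Measurable (fun T : V × ℕ → I =>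
      ∫ ω, (m1 G θ K (M T) T v ω - m1 G θ K (M' T) T v ω) ^ 2 ∂(P1 μ)) := by
  have h : Measurable (fun p : (V × ℕ → I) × ((V → Bool) × (V × ℕ → I)) =>
      (m1 G θ K (M p.1) p.1 v p.2 - m1 G θ K (M' p.1) p.1 v p.2) ^ 2) :=
    ((pe_meas_m1 G θ K M hM v).sub (pe_meas_m1 G θ K M' hM' v)).pow_const 2
  exact h.stronglyMeasurable.integral_prod_right'.measurable

lemma pe_int_le (θ : ℝ) (μ : Measure (V → Bool)) [IsProbabilityMeasure μ] (K : ℕ)
    (M M' : Set (V × ℕ)) (T : V × ℕ → I) (v : V) :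
    |∫ ω, (m1 G θ K M T v ω - m1 G θ K M' T v ω) ^ 2 ∂(P1 μ)| ≤ 4 := by
  have hb : ∀ ω, |(m1 G θ K M T v ω - m1 G θ K M' T v ω) ^ 2| ≤ 4 := by
    intro ω
    have a1 : |m1 G θ K M T v ω| ≤ 1 := pi_mm_abs G θ _ v
    have a2 : |m1 G θ K M' T v ω| ≤ 1 := pi_mm_abs G θ _ v
    rw [abs_of_nonneg (sq_nonneg _), ← sq_abs]
    have : |m1 G θ K M T v ω - m1 G θ K M' T v ω| ≤ 2 := (abs_sub _ _).trans (by linarith)
    nlinarith [abs_nonneg (m1 G θ K M T v ω - m1 G θ K M' T v ω)]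
  calc |∫ ω, (m1 G θ K M T v ω - m1 G θ K M' T v ω) ^ 2 ∂(P1 μ)|
      ≤ ∫ ω, |(m1 G θ K M T v ω - m1 G θ K M' T v ω) ^ 2| ∂(P1 μ) := abs_integral_le_integral_abs
    _ ≤ ∫ _ω, (4:ℝ) ∂(P1 μ) := by
        refine integral_mono_of_nonneg (ae_of_all _ fun ω => abs_nonneg _) (integrable_const _)
          (ae_of_all _ hb)
    _ = 4 := by simp


lemma pe_ms_thr (k : ℕ) (a : ℝ) (i : V × ℕ) : MeasurableSet {T : V × ℕ → I | i ∈ thr T k a} := by
  have h : MeasurableSet {T : V × ℕ → I | (T i : ℝ) < a} :=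
    measurableSet_lt (by fun_prop) measurable_const
  by_cases h1 : i.2 < k
  · simp [thr, h1]
  · by_cases h2 : i.2 = k
    · simpa [thr, h1, h2] using h
    · simp [thr, h1, h2]


lemma pe_ms_bef (j i : V × ℕ) : MeasurableSet {T : V × ℕ → I | i ∈ bef T j} := by
  have h : MeasurableSet {T : V × ℕ → I | T i < T j} :=
    measurableSet_lt (measurable_pi_apply i) (measurable_pi_apply j)
  by_cases h1 : i.2 < j.2
  · simp [bef, prec, h1]
  · by_cases h2 : i.2 = j.2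
    · simpa [bef, prec, h1, h2] using h
    · simp [bef, prec, h1, h2]


lemma pe_ms_act (F : Finset V) (k : ℕ) (a b : ℝ) (w : V) :
    MeasurableSet {T : V × ℕ → I | w ∈ act F T k a b} := by
  simp only [pi_mem_act]
  have h1 : MeasurableSet {T : V × ℕ → I | a ≤ (T (w, k) : ℝ)} :=
    measurableSet_le measurable_const (by fun_prop)
  have h2 : MeasurableSet {T : V × ℕ → I | (T (w, k) : ℝ) < b} :=
    measurableSet_lt (by fun_prop) measurable_const
  by_cases h : w ∈ F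
  · simp only [h, true_and]
    exact h1.inter h2
  · simp [h]


lemma pe_ms_fb (S : (V × ℕ → I) → Finset V) (hS : ∀ w, MeasurableSet {T | w ∈ S T}) (k : ℕ) (a : ℝ)
    (i : V × ℕ) : MeasurableSet {T : V × ℕ → I | i ∈ pe_fb T k a (S T)} := by
  have h : MeasurableSet {T : V × ℕ → I | (T i : ℝ) < a} :=
    measurableSet_lt (by fun_prop) measurable_const
  by_cases h1 : i.2 < k
  · simp [pe_fb, h1]
  · by_cases h2 : i.2 = k
    · have := h.union (hS i.1)
      simpa [pe_fb, h1, h2, ofPred_or] using this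
    · simp [pe_fb, h1, h2]


lemma pe_ms_lt (S : (V × ℕ → I) → Finset V) (hS : ∀ w, MeasurableSet {T | w ∈ S T}) (k : ℕ) (u w : V) :
    MeasurableSet {T : V × ℕ → I | w ∈ pe_lt T k (S T) u} := by
  simp only [pe_mem_lt]
  have h : MeasurableSet {T : V × ℕ → I | T (w, k) < T (u, k)} :=
    measurableSet_lt (measurable_pi_apply (w, k)) (measurable_pi_apply (u, k))
  exact (hS w).inter h


lemma pe_ms_insert (M : (V × ℕ → I) → Set (V × ℕ)) (hM : ∀ i, MeasurableSet {T | i ∈ M T}) (j i : V × ℕ) :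
    MeasurableSet {T : V × ℕ → I | i ∈ insert j (M T)} := by
  simp only [mem_insert_iff]
  by_cases h : i = j
  · simp [h]
  · simp only [h, false_or]; exact hM i

/-! ### limits -/

lemma pe_tend (hT : G.IsTree) {θ : ℝ} (h0 : 0 ≤ θ) (h1 : θ < 1) {μ : Measure (V → Bool)}
    [IsProbabilityMeasure μ] (hμ : IsIsing G θ μ) (T : V × ℕ → I) (K : ℕ)
    (M M' : ℕ → Set (V × ℕ)) (hmono : Monotone M) (hmono' : Monotone M')
    (hM : ∀ n, ∀ i ∈ M n, i.2 < K) (hM' : ∀ n, ∀ i ∈ M' n, i.2 < K) (v : V) :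
    Tendsto (fun n => ∫ ω, (m1 G θ K (M n) T v ω - m1 G θ K (M' n) T v ω) ^ 2 ∂(P1 μ)) atTop
      (𝓝 (∫ ω, (m1 G θ K (⋃ n, M n) T v ω - m1 G θ K (⋃ n, M' n) T v ω) ^ 2 ∂(P1 μ))) := by
  have hs : ∀ j, 0 ≤ sts T j ∧ sts T j ≤ 1 / 2 := fun j => ⟨st_nonneg _, (st_le _).trans (by norm_num)⟩
  have t1 := post_tendsto G hT h0 h1 hμ (sts T) hs K M hmono hM v
  have t2 := post_tendsto G hT h0 h1 hμ (sts T) hs K M' hmono' hM' v
  have bm : ∀ N, pi_BM (fun ω : (V → Bool) × (V × ℕ → I) => m1 G θ K N T v ω) :=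
    fun N => pi_BM_m1 G θ K N T v
  have habs : ∀ N ω, |m1 G θ K N T v ω| ≤ 1 := fun N ω => pi_mm_abs G θ _ v
  have hab2 : ∀ N N' ω, |m1 G θ K N T v ω - m1 G θ K N' T v ω| ≤ 2 := fun N N' ω =>
    (abs_sub _ _).trans (by linarith [habs N ω, habs N' ω])
  refine pe_sq_tendsto (P1 μ) (A := fun n ω => m1 G θ K (M n) T v ω - m1 G θ K (M' n) T v ω)
    (B := fun ω => m1 G θ K (⋃ n, M n) T v ω - m1 G θ K (⋃ n, M' n) T v ω)
    (fun n => ((bm _).sub (bm _)).1) ((bm _).sub (bm _)).1 (fun n ω => hab2 _ _ ω) (fun ω => hab2 _ _ ω) ?_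
  have t3 := (t1.const_mul 2).add (t2.const_mul 2)
  simp only [mul_zero, add_zero] at t3
  refine squeeze_zero (fun n => integral_nonneg fun ω => sq_nonneg _) (fun n => ?_) t3
  rw [← integral_const_mul, ← integral_const_mul, ← integral_add]
  · refine integral_mono (((bm _).sub (bm _)).sub ((bm _).sub (bm _))).sq.int
      ((((pi_BM.const 2).mul ((bm (M n)).sub (bm (⋃ n, M n))).sq).add
        ((pi_BM.const 2).mul ((bm (M' n)).sub (bm (⋃ n, M' n))).sq)).int) fun ω => ?_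
    have key : ∀ x X y Y : ℝ, ((x - y) - (X - Y)) ^ 2 ≤ 2 * (x - X) ^ 2 + 2 * (y - Y) ^ 2 := by
      intro x X y Y
      nlinarith [sq_nonneg ((x - X) + (y - Y))]
    exact key _ _ _ _
  · exact ((pi_BM.const 2).mul ((bm (M n)).sub (bm (⋃ n, M n))).sq).int
  · exact ((pi_BM.const 2).mul ((bm (M' n)).sub (bm (⋃ n, M' n))).sq).int

lemma pe_act_mono {F F' : Finset V} (h : F ⊆ F') (T : V × ℕ → I) (k : ℕ) (a b : ℝ) :
    act F T k a b ⊆ act F' T k a b := by
  intro w hw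
  rw [pi_mem_act] at hw ⊢
  exact ⟨h hw.1, hw.2⟩

lemma pe_lt_mono {S S' : Finset V} (h : S ⊆ S') (T : V × ℕ → I) (k : ℕ) (u : V) :
    pe_lt T k S u ⊆ pe_lt T k S' u := by
  intro w hw
  rw [pe_mem_lt] at hw ⊢
  exact ⟨h hw.1, hw.2⟩

lemma pe_union_fb (T : V × ℕ → I) (k : ℕ) {a b : ℝ} (hab : a ≤ b) (F : ℕ → Finset V)
    (hcov : ∀ u, ∃ n, u ∈ F n) : (⋃ n, pe_fb T k a (act (F n) T k a b)) = thr T k b := by
  ext ⟨w, l⟩
  simp only [mem_iUnion, pe_fb, mem_ofPred_eq, thr]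
  constructor
  · rintro ⟨n, h | ⟨rfl, h | h⟩⟩
    · exact Or.inl h
    · exact Or.inr ⟨rfl, lt_of_lt_of_le h hab⟩
    · exact Or.inr ⟨rfl, (pi_mem_act.1 h).2.2⟩
  · rintro (h | ⟨rfl, h⟩)
    · exact ⟨0, Or.inl h⟩
    · by_cases h' : (T (w, l) : ℝ) < a
      · exact ⟨0, Or.inr ⟨rfl, Or.inl h'⟩⟩
      · obtain ⟨n, hn⟩ := hcov w
        exact ⟨n, Or.inr ⟨rfl, Or.inr (pi_mem_act.2 ⟨hn, not_lt.1 h', h⟩)⟩⟩

lemma pe_union_bef (T : V × ℕ → I) (k : ℕ) {a b : ℝ} (u : V) (hu : a ≤ (T (u, k) : ℝ))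
    (hu' : (T (u, k) : ℝ) < b) (F : ℕ → Finset V) (hcov : ∀ u, ∃ n, u ∈ F n) :
    (⋃ n, pe_fb T k a (pe_lt T k (act (F n) T k a b) u)) = bef T (u, k) := by
  ext ⟨w, l⟩
  simp only [mem_iUnion, pe_fb, mem_ofPred_eq, bef, prec]
  constructor
  · rintro ⟨n, h | ⟨rfl, h | h⟩⟩
    · exact Or.inl h
    · refine Or.inr ⟨rfl, ?_⟩
      rw [← Subtype.coe_lt_coe]
      exact lt_of_lt_of_le h hu
    · exact Or.inr ⟨rfl, (pe_mem_lt.1 h).2⟩
  · rintro (h | ⟨rfl, h⟩)
    · exact ⟨0, Or.inl h⟩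
    · by_cases h' : (T (w, l) : ℝ) < a
      · exact ⟨0, Or.inr ⟨rfl, Or.inl h'⟩⟩
      · obtain ⟨n, hn⟩ := hcov w
        have h2 : (T (w, l) : ℝ) < b := lt_trans (Subtype.coe_lt_coe.2 h) hu'
        exact ⟨n, Or.inr ⟨rfl, Or.inr (pe_mem_lt.2 ⟨pi_mem_act.2 ⟨hn, not_lt.1 h', h2⟩, h⟩)⟩⟩

/-! ### domination -/

open Classical in
/-- vertex-dependent times of a mixed mask -/
noncomputable def pe_sv (F : Finset V) (u : V) (a t : ℝ) (w : V) : ℝ :=
  if w = u then 0 else if w ∈ F then t else a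

lemma pe_mx_eq (T : V × ℕ → I) (k : ℕ) {a b : ℝ} (u : V) (hu : a ≤ (T (u, k) : ℝ))
    (hu' : (T (u, k) : ℝ) < b) (F : Finset V) :
    pe_fb T k a (pe_lt T k (act F T k a b) u) = thrV T k (pe_sv F u a (T (u, k))) := by
  ext ⟨w, l⟩
  simp only [pe_fb, mem_ofPred_eq, thrV, pe_mem_lt, pi_mem_act, pe_sv]
  by_cases hl : l < k
  · simp [hl]
  · by_cases hl2 : l = k
    · subst hl2
      simp only [lt_irrefl, true_and, false_or]
      by_cases hw : w = u
      · subst hw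
        simp only [if_true, lt_irrefl, and_false, or_false]
        constructor
        · intro h; linarith
        · intro h; exact absurd h (not_lt.2 (T (w, l)).2.1)
      · rw [if_neg hw]
        by_cases hF : w ∈ F
        · rw [if_pos hF]
          simp only [hF, true_and]
          constructor
          · rintro (h | ⟨_, h⟩)
            · linarith
            · exact Subtype.coe_lt_coe.2 h
          · intro h
            by_cases h' : (T (w, l) : ℝ) < a
            · exact Or.inl h'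
            · exact Or.inr ⟨⟨not_lt.1 h', h.trans hu'⟩, Subtype.coe_lt_coe.1 h⟩
        · rw [if_neg hF]
          simp [hF]
    · simp [hl, hl2]

/-- path weight -/
noncomputable def pe_w (G : SimpleGraph V) [G.LocallyFinite] (θ : ℝ) (p : ℕ → V) (n : ℕ) (x : V → ℝ) : ℝ :=
  ∏ i ∈ Finset.range n, Real.exp (-(kap θ * al G θ x (p (i + 1)) (p i) ^ 2))

lemma pe_w_nonneg (θ : ℝ) (p : ℕ → V) (n : ℕ) (x : V → ℝ) : 0 ≤ pe_w G θ p n x :=
  Finset.prod_nonneg fun _ _ => (Real.exp_pos _).le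

lemma pe_kap_nonneg {θ : ℝ} (h0 : 0 ≤ θ) (h1 : θ < 1) : 0 ≤ kap θ := by
  unfold kap; nlinarith

lemma pe_w_le_one {θ : ℝ} (h0 : 0 ≤ θ) (h1 : θ < 1) (p : ℕ → V) (n : ℕ) (x : V → ℝ) :
    pe_w G θ p n x ≤ 1 := by
  refine Finset.prod_le_one (fun _ _ => (Real.exp_pos _).le) fun i _ => ?_
  rw [Real.exp_le_one_iff]
  have := mul_nonneg (pe_kap_nonneg h0 h1) (sq_nonneg (al G θ x (p (i + 1)) (p i)))
  linarith

lemma pe_meas_w (θ : ℝ) (p : ℕ → V) (n : ℕ) : Measurable (pe_w G θ p n) := by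
  unfold pe_w
  refine Finset.measurable_prod _ fun i _ => ?_
  have := measurable_al G θ (p (i + 1)) (p i)
  fun_prop

lemma pe_PP_sq {θ : ℝ} (h0 : 0 ≤ θ) (h1 : θ < 1) (p : ℕ → V) (n : ℕ) (x : V → ℝ) :
    PP G θ x p n ^ 2 ≤ θ ^ (2 * n) * pe_w G θ p n x := by
  unfold PP pe_w
  rw [← Finset.prod_pow, pow_mul]
  have : (θ ^ 2) ^ n = ∏ _i ∈ Finset.range n, θ ^ 2 := by simp
  rw [this, ← Finset.prod_mul_distrib]
  refine Finset.prod_le_prod (fun i _ => sq_nonneg _) fun i _ => ?_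
  have ha : |al G θ x (p (i + 1)) (p i)| ≤ 1 := by
    have := tanh_mem (hl G θ x (p (i + 1)) (p i))
    unfold al
    rw [abs_le]; exact ⟨this.1.le, this.2.le⟩
  have e1 := ph_nonneg h0 h1 ha
  have e2 := ph_le h0 h1 ha
  set E := Real.exp (-(kap θ * al G θ x (p (i + 1)) (p i) ^ 2)) with hE
  have hE0 : 0 ≤ E := (Real.exp_pos _).le
  have hE1 : E ≤ 1 := by
    rw [hE, Real.exp_le_one_iff]
    have := mul_nonneg (pe_kap_nonneg h0 h1) (sq_nonneg (al G θ x (p (i + 1)) (p i)))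
    linarith
  calc ph θ (al G θ x (p (i + 1)) (p i)) ^ 2 ≤ (θ * E) ^ 2 := pow_le_pow_left₀ e1 e2 2
    _ = θ ^ 2 * (E * E) := by ring
    _ ≤ θ ^ 2 * E := by
        refine mul_le_mul_of_nonneg_left ?_ (sq_nonneg θ)
        nlinarith

open Classical in
lemma pe_xf_update (k : ℕ) (s : V → ℝ) (u : V) (hu : s u ≤ 0) (T : V × ℕ → I) (r : I)
    (ω : (V → Bool) × (V × ℕ → I)) :
    xf (sts (Function.update T (u, k) r)) (k + 1) (thrV (Function.update T (u, k) r) k s)
        (zob (sts (Function.update T (u, k) r)) ω)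
      = xf (sts T) (k + 1) (thrV T k s) (zob (sts T) ω) := by
  funext w
  unfold xf
  refine Finset.sum_congr rfl fun l _ => ?_
  by_cases h : (w, l) = (u, k)
  · have n1 : (w, l) ∉ thrV (Function.update T (u, k) r) k s := by
      rintro (h' | ⟨_, h'⟩)
      · rw [h] at h'; exact lt_irrefl _ h'
      · rw [h, Function.update_self] at h'
        exact absurd h' (not_lt.2 (hu.trans r.2.1))
    have n2 : (w, l) ∉ thrV T k s := by
      rintro (h' | ⟨_, h'⟩)
      · rw [h] at h'; exact lt_irrefl _ h'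
      · rw [h] at h'
        exact absurd h' (not_lt.2 (hu.trans (T (u, k)).2.1))
    rw [if_neg n1, if_neg n2]
  · have e : (w, l) ∈ thrV (Function.update T (u, k) r) k s ↔ (w, l) ∈ thrV T k s := by
      simp only [thrV, mem_ofPred_eq, Function.update_of_ne h]
    have e2 : sts (Function.update T (u, k) r) (w, l) = sts T (w, l) := by
      simp only [sts, Function.update_of_ne h]
    have e3 : zob (sts (Function.update T (u, k) r)) ω (w, l) = zob (sts T) ω (w, l) := by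
      simp only [zob, e2]
    simp only [e, e2, e3]

/-- expected path weight at frozen times -/
noncomputable def pe_W (θ : ℝ) (μ : Measure (V → Bool)) (p : ℕ → V) (n k : ℕ) (F : Finset V) (u : V) (a : ℝ)
    (T : V × ℕ → I) (t : ℝ) : ℝ≥0∞ :=
  ∫⁻ ω, ENNReal.ofReal (pe_w G θ p n
    (xf (sts T) (k + 1) (thrV T k (pe_sv F u a t)) (zob (sts T) ω))) ∂(P1 μ)

lemma pe_meas_X (k : ℕ) (F : Finset V) (u : V) (a : ℝ) :
    Measurable (fun q : ((V × ℕ → I) × I) × ((V → Bool) × (V × ℕ → I)) =>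
        xf (sts q.1.1) (k + 1) (thrV q.1.1 k (pe_sv F u a (q.1.2 : ℝ))) (zob (sts q.1.1) q.2)) := by
  refine measurable_pi_iff.2 fun w => ?_
  unfold xf
  refine Finset.measurable_sum _ fun l _ => ?_
  refine Measurable.ite ?_ ?_ measurable_const
  · have hm : Measurable (fun q : ((V × ℕ → I) × I) × ((V → Bool) × (V × ℕ → I)) =>
        pe_sv F u a (q.1.2 : ℝ) w) := by
      unfold pe_sv
      split_ifs <;> fun_prop
    have hlt : MeasurableSet {q : ((V × ℕ → I) × I) × ((V → Bool) × (V × ℕ → I)) |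
        (q.1.1 (w, l) : ℝ) < pe_sv F u a (q.1.2 : ℝ) w} :=
      measurableSet_lt (by fun_prop) hm
    exact (MeasurableSet.const (l < k)).union ((MeasurableSet.const (l = k)).inter hlt)
  · refine measurable_artanh.comp ?_
    refine Measurable.mul ?_ ?_
    · exact measurable_st.comp (by fun_prop :
        Measurable (fun q : ((V × ℕ → I) × I) × ((V → Bool) × (V × ℕ → I)) => q.1.1 (w, l)))
    · have hz : Measurable (fun q : ((V × ℕ → I) × I) × ((V → Bool) × (V × ℕ → I)) =>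
          zob (sts q.1.1) q.2 (w, l)) :=
        ((measurable_pi_apply (w, l)).comp measurable_zob_param).comp
          (by fun_prop : Measurable (fun q : ((V × ℕ → I) × I) × ((V → Bool) × (V × ℕ → I)) =>
            (q.1.1, q.2)))
      exact ((measurable_subtype_coe.comp hz).const_mul 2).sub_const 1

lemma pe_meas_W (θ : ℝ) (μ : Measure (V → Bool)) [IsProbabilityMeasure μ] (p : ℕ → V) (n k : ℕ)
    (F : Finset V) (u : V) (a : ℝ) :
    Measurable (fun q : (V × ℕ → I) × I => pe_W G θ μ p n k F u a q.1 (q.2 : ℝ)) := by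
  unfold pe_W
  refine Measurable.lintegral_prod_right (f := fun (q : (V × ℕ → I) × I) (ω : (V → Bool) × (V × ℕ → I)) =>
    ENNReal.ofReal (pe_w G θ p n
      (xf (sts q.1) (k + 1) (thrV q.1 k (pe_sv F u a (q.2 : ℝ))) (zob (sts q.1) ω)))) ?_
  exact ENNReal.measurable_ofReal.comp ((pe_meas_w G θ p n).comp (pe_meas_X k F u a))

/-- domination of one energy term -/
lemma pe_dom (hT : G.IsTree) {θ : ℝ} (h0 : 0 ≤ θ) (h1 : θ < 1) {μ : Measure (V → Bool)}
    [IsProbabilityMeasure μ] (hμ : IsIsing G θ μ) (k : ℕ) {a b : ℝ} (ha : 0 ≤ a) {c : ℝ} (hc : 0 ≤ c)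
    (hc1 : c ≤ 1) (hk : ∀ s', a ≤ s' → ∀ r : ℝ,
      ∫ x, Real.exp (-(kap θ * Real.tanh (x + r) ^ 2)) ∂(rho k s') ≤ 1 - c)
    (F : Finset V) (p : ℕ → V) (n : ℕ) (hp : IsPth G p n) :
    ∫⁻ T, (open Classical in if a ≤ (T (p n, k) : ℝ) ∧ (T (p n, k) : ℝ) < b then
        ∫⁻ ω, ENNReal.ofReal ((m1 G θ (k + 1) (insert (p n, k)
            (pe_fb T k a (pe_lt T k (act F T k a b) (p n)))) T (p 0) ω
          - m1 G θ (k + 1) (pe_fb T k a (pe_lt T k (act F T k a b) (p n))) T (p 0) ω) ^ 2) ∂(P1 μ)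
        else 0) ∂(nz V)
      ≤ ENNReal.ofReal (θ ^ (2 * n) * (1 - c) ^ (n - 1)) := by
  classical
  set u := p n with hu
  -- weights at frozen times
  obtain ⟨W, hWdef⟩ : ∃ W : (V × ℕ → I) → ℝ → ℝ≥0∞, W = fun T t => pe_W G θ μ p n k F u a T t := ⟨_, rfl⟩
  have hsv : ∀ t, pe_sv F u a t u ≤ 0 := fun t => by simp [pe_sv]
  have hWupd : ∀ T r t, W (Function.update T (u, k) r) t = W T t := by
    intro T r t
    simp only [hWdef, pe_W]
    refine lintegral_congr fun ω => ?_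
    rw [pe_xf_update k _ u (hsv t) T r ω]
  -- law at frozen times
  have hWlaw : ∀ t, a ≤ t → ∫⁻ T, W T t ∂(nz V) ≤ ENNReal.ofReal ((1 - c) ^ (n - 1)) := by
    intro t hat
    have hprob : ∀ v, IsProbabilityMeasure (rho k (pe_sv F u a t v)) := fun v => (chan_rho k _).prob
    have hmw : Measurable (fun x : V → ℝ => ENNReal.ofReal (pe_w G θ p n x)) :=
      ENNReal.measurable_ofReal.comp (pe_meas_w G θ p n)
    have hmx : Measurable (fun q : (V × ℕ → I) × ((V → Bool) × (V × ℕ → I)) =>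
        xf (sts q.1) (k + 1) (thrV q.1 k (pe_sv F u a t)) (zob (sts q.1) q.2)) :=
      (measurable_xf_thrV k (pe_sv F u a t)).comp (measurable_fst.prodMk measurable_zob_param)
    have hpair : Measurable (fun q : (V × ℕ → I) × ((V → Bool) × (V × ℕ → I)) =>
        (q.2.1, xf (sts q.1) (k + 1) (thrV q.1 k (pe_sv F u a t)) (zob (sts q.1) q.2))) :=
      (by fun_prop : Measurable (fun q : (V × ℕ → I) × ((V → Bool) × (V × ℕ → I)) => q.2.1)).prodMk hmx
    have e1 : ∫⁻ T, W T t ∂(nz V) = ∫⁻ x, ENNReal.ofReal (pe_w G θ p n x)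
        ∂(fieldLaw μ (fun v => rho k (pe_sv F u a t v))) := by
      simp only [hWdef, pe_W]
      rw [← lintegral_prod (fun q : (V × ℕ → I) × ((V → Bool) × (V × ℕ → I)) =>
        ENNReal.ofReal (pe_w G θ p n (xf (sts q.1) (k + 1) (thrV q.1 k (pe_sv F u a t)) (zob (sts q.1) q.2))))
        (hmw.comp hmx).aemeasurable]
      unfold fieldLaw
      rw [← spinField_xf μ k (pe_sv F u a t), Measure.map_map measurable_snd hpair,
        lintegral_map hmw (measurable_snd.comp hpair)]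
      rfl
    rw [e1]
    have hfl : IsProbabilityMeasure (fieldLaw μ (fun v => rho k (pe_sv F u a t v))) := fieldLaw_prob μ _
    have hb : ∫ x, pe_w G θ p n x ∂(fieldLaw μ (fun v => rho k (pe_sv F u a t v))) ≤ (1 - c) ^ (n - 1) := by
      rcases Nat.eq_zero_or_pos n with hn | hn
      · have h3 : ∀ x, pe_w G θ p n x = 1 := by intro x; rw [hn]; simp [pe_w]
        simp only [h3]
        rw [hn]
        simp
      · obtain ⟨m, rfl⟩ : ∃ m, n = m + 1 := ⟨n - 1, by omega⟩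
        have := kill_path_own G hT h0 h1 hμ (fun v => rho k (pe_sv F u a t v))
          (good_rho G hT h0 h1 hμ k (pe_sv F u a t)) hc hc1 p m hp (by
            intro w hw r
            have hwu : w ≠ u := hw
            refine hk _ ?_ r
            unfold pe_sv
            rw [if_neg hwu]
            split_ifs
            · exact hat
            · exact le_rfl)
        simpa [pe_w] using this
    rw [← ofReal_integral_eq_lintegral_ofReal]
    · exact ENNReal.ofReal_le_ofReal hb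
    · exact Integrable.of_bound (pe_meas_w G θ p n).aestronglyMeasurable 1 (ae_of_all _ fun x => by
        rw [Real.norm_of_nonneg (pe_w_nonneg G θ p n x)]; exact pe_w_le_one G h0 h1 p n x)
    · exact ae_of_all _ fun x => pe_w_nonneg G θ p n x
  -- pointwise bound
  have hpt : ∀ T : V × ℕ → I, (if a ≤ (T (u, k) : ℝ) ∧ (T (u, k) : ℝ) < b then
        ∫⁻ ω, ENNReal.ofReal ((m1 G θ (k + 1) (insert (u, k)
            (pe_fb T k a (pe_lt T k (act F T k a b) u))) T (p 0) ω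
          - m1 G θ (k + 1) (pe_fb T k a (pe_lt T k (act F T k a b) u)) T (p 0) ω) ^ 2) ∂(P1 μ) else 0)
      ≤ ENNReal.ofReal (θ ^ (2 * n)) *
        (if a ≤ (T (u, k) : ℝ) then W T (T (u, k)) else 0) := by
    intro T
    split_ifs with h h'
    · have hj : (p n, k) ∉ pe_fb T k a (pe_lt T k (act F T k a b) u) := by
        rintro (h2 | ⟨_, h2 | h2⟩)
        · exact lt_irrefl _ h2
        · exact absurd h2 (not_lt.2 h.1)
        · exact lt_irrefl _ (pe_mem_lt.1 h2).2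
      have hjb := jump_bound1 G hT h0 h1 hμ T p n hp (k + 1) (pe_fb T k a (pe_lt T k (act F T k a b) u))
        pe_fb_round (Nat.lt_succ_self k) hj
      simp only [hWdef, pe_W]
      rw [← lintegral_const_mul']
      · refine lintegral_mono_ae ?_
        filter_upwards [hjb] with ω hω
        rw [← ENNReal.ofReal_mul (by positivity)]
        refine ENNReal.ofReal_le_ofReal ?_
        refine hω.trans ?_
        rw [← pe_mx_eq T k u h.1 h.2 F]
        exact pe_PP_sq G h0 h1 p n _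
      · exact ENNReal.ofReal_ne_top
    · exact absurd h.1 h'
    · simp
    · simp
  refine (lintegral_mono hpt).trans ?_
  rw [lintegral_const_mul' _ _ ENNReal.ofReal_ne_top, ENNReal.ofReal_mul (by positivity)]
  refine mul_le_mul_right ?_ _
  -- joint measurability of W
  have hWm : Measurable (fun q : (V × ℕ → I) × I => W q.1 (q.2 : ℝ)) := by
    rw [hWdef]
    exact pe_meas_W G θ μ p n k F u a
  have hWm1 : Measurable (fun T : V × ℕ → I => if a ≤ (T (u, k) : ℝ) then W T (T (u, k)) else 0) := by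
    refine Measurable.ite (measurableSet_le measurable_const (by fun_prop)) ?_ measurable_const
    exact hWm.comp (measurable_id.prodMk (measurable_pi_apply (u, k)))
  have hmu : Measurable (fun q : (V × ℕ → I) × I => Function.update q.1 (u, k) q.2) := by
    refine measurable_pi_iff.2 fun i => ?_
    by_cases h : i = (u, k)
    · subst h; simpa using measurable_snd
    · simp only [Function.update_of_ne h]; fun_prop
  rw [← iv_map_update_nz (V := V) (u, k), lintegral_map hWm1 hmu]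
  have e2 : ∀ q : (V × ℕ → I) × I, (if a ≤ ((Function.update q.1 (u, k) q.2) (u, k) : ℝ) then
      W (Function.update q.1 (u, k) q.2) ((Function.update q.1 (u, k) q.2) (u, k)) else 0)
      = if a ≤ (q.2 : ℝ) then W q.1 q.2 else 0 := by
    intro q
    rw [Function.update_self, hWupd]
  simp only [e2]
  have hm3 : Measurable (fun q : (V × ℕ → I) × I => if a ≤ (q.2 : ℝ) then W q.1 (q.2 : ℝ) else 0) :=
    Measurable.ite (measurableSet_le measurable_const (by fun_prop)) hWm measurable_const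
  rw [lintegral_prod_symm' _ hm3]
  calc ∫⁻ y : I, ∫⁻ x, (if a ≤ (y : ℝ) then W x (y : ℝ) else 0) ∂(nz V)
      ≤ ∫⁻ _y : I, ENNReal.ofReal ((1 - c) ^ (n - 1)) := by
        refine lintegral_mono fun y => ?_
        dsimp only
        split_ifs with h
        · exact hWlaw y h
        · simp
    _ = _ := by simp

/-! ### the theorem -/

lemma pe_kill_const {d : ℕ} {θ : ℝ} (h0 : 0 ≤ θ) (h1 : θ < 1) (hcrit : θ ^ 2 * ((d : ℝ) - 1) ≤ 1)
    (k : ℕ) {a : ℝ} (ha : 0 ≤ a) (hpos : k = 0 → θ ^ 2 * ((d : ℝ) - 1) = 1 → 0 < a) :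
    ∃ c : ℝ, 0 ≤ c ∧ c < 1 ∧ (∀ s', a ≤ s' → ∀ r : ℝ,
      ∫ x, Real.exp (-(kap θ * Real.tanh (x + r) ^ 2)) ∂(rho k s') ≤ 1 - c) ∧
      θ ^ 2 * ((d : ℝ) - 1) * (1 - c) < 1 := by
  rcases lt_or_eq_of_le hcrit with hlt | heq
  · refine ⟨0, le_rfl, one_pos, fun s' _ r => ?_, by simpa using hlt⟩
    have hprob : IsProbabilityMeasure (rho k s') := (chan_rho k s').prob
    have hle : ∀ x : ℝ, Real.exp (-(kap θ * Real.tanh (x + r) ^ 2)) ≤ 1 := by
      intro x
      rw [Real.exp_le_one_iff]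
      have := mul_nonneg (pe_kap_nonneg h0 h1) (sq_nonneg (Real.tanh (x + r)))
      linarith
    calc ∫ x, Real.exp (-(kap θ * Real.tanh (x + r) ^ 2)) ∂(rho k s') ≤ ∫ _x, (1:ℝ) ∂(rho k s') := by
          refine integral_mono_of_nonneg (ae_of_all _ fun x => (Real.exp_pos _).le) (integrable_const _)
            (ae_of_all _ hle)
      _ = 1 - 0 := by simp
  · have hκ : 0 < kap θ := by unfold kap; nlinarith
    obtain ⟨c, hc0, hc1, hk⟩ := rho_kill hκ k a (by
      rcases Nat.eq_zero_or_pos k with hk | hk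
      · exact Or.inr (hpos hk heq)
      · exact Or.inl hk)
    exact ⟨c, hc0.le, hc1, hk, by rw [heq]; linarith⟩

lemma pe_summable (hT : G.IsTree) {d : ℕ} (hd : 3 ≤ d) (hreg : G.IsRegularOfDegree d)
    {θ c : ℝ} (h0 : 0 ≤ θ) (hc0 : 0 ≤ c) (hc1 : c < 1) (hsum : θ ^ 2 * ((d : ℝ) - 1) * (1 - c) < 1) (v : V) :
    Summable (fun u => θ ^ (2 * G.dist v u) * (1 - c) ^ (G.dist v u - 1)) := by
  have hc' : 0 < 1 - c := by linarith
  set r : ℝ := θ ^ 2 * ((d : ℝ) - 1) * (1 - c) with hr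
  have hd1 : (0:ℝ) ≤ (d : ℝ) - 1 := by
    have : (3:ℝ) ≤ d := by exact_mod_cast hd
    linarith
  have hr0 : 0 ≤ r := by positivity
  have hB0 : ∀ n : ℕ, 0 ≤ θ ^ (2 * n) * (1 - c) ^ (n - 1) := fun n => by positivity
  have hterm : ∀ n : ℕ, 2 * ((d - 1 : ℕ) : ℝ≥0∞) ^ n * ENNReal.ofReal (θ ^ (2 * n) * (1 - c) ^ (n - 1))
      ≤ ENNReal.ofReal (2 / (1 - c) * r ^ n) := by
    intro n
    have e1 : ((d - 1 : ℕ) : ℝ≥0∞) = ENNReal.ofReal ((d : ℝ) - 1) := by
      rw [← ENNReal.ofReal_natCast, Nat.cast_sub (by omega)]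
      simp
    have e2 : (2 : ℝ≥0∞) = ENNReal.ofReal 2 := by simp
    rw [e1, e2, ← ENNReal.ofReal_pow hd1, ← ENNReal.ofReal_mul (by norm_num),
      ← ENNReal.ofReal_mul (by positivity)]
    refine ENNReal.ofReal_le_ofReal ?_
    have e3 : (1 - c) ^ (n - 1) ≤ (1 - c) ^ n / (1 - c) ∨ n = 0 := by
      rcases Nat.eq_zero_or_pos n with hn | hn
      · exact Or.inr hn
      · left
        obtain ⟨m, rfl⟩ : ∃ m, n = m + 1 := ⟨n - 1, by omega⟩
        rw [pow_succ, mul_div_assoc, div_self hc'.ne', mul_one]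
        simp
    rcases e3 with e3 | rfl
    · calc 2 * ((d : ℝ) - 1) ^ n * (θ ^ (2 * n) * (1 - c) ^ (n - 1))
          ≤ 2 * ((d : ℝ) - 1) ^ n * (θ ^ (2 * n) * ((1 - c) ^ n / (1 - c))) := by
            refine mul_le_mul_of_nonneg_left (mul_le_mul_of_nonneg_left e3 (by positivity)) (by positivity)
        _ = 2 / (1 - c) * r ^ n := by
            rw [hr, mul_pow, mul_pow, ← pow_mul]
            ring
    · simp only [pow_zero, mul_one, mul_zero]
      rw [le_div_iff₀ hc']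
      norm_num
      linarith
  have hfin : ∑' u : V, ENNReal.ofReal (θ ^ (2 * G.dist v u) * (1 - c) ^ (G.dist v u - 1)) ≠ ⊤ := by
    refine ne_top_of_le_ne_top ?_ (tsum_dist_le G hT hd hreg v
      (fun n => ENNReal.ofReal (θ ^ (2 * n) * (1 - c) ^ (n - 1))))
    refine ne_top_of_le_ne_top ?_ (ENNReal.tsum_le_tsum hterm)
    have : Summable (fun n : ℕ => 2 / (1 - c) * r ^ n) :=
      (summable_geometric_of_lt_one hr0 hsum).mul_left _
    exact this.tsum_ofReal_ne_top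
  have := ENNReal.summable_toReal hfin
  refine this.congr fun u => ?_
  rw [ENNReal.toReal_ofReal (hB0 _)]

omit [Countable V] in
lemma pe_ms_lab (u : V) (k : ℕ) (a b : ℝ) :
    MeasurableSet {T : V × ℕ → I | a ≤ (T (u, k) : ℝ) ∧ (T (u, k) : ℝ) < b} := by
  have h1 : MeasurableSet {T : V × ℕ → I | a ≤ (T (u, k) : ℝ)} :=
    measurableSet_le measurable_const (by fun_prop)
  have h2 : MeasurableSet {T : V × ℕ → I | (T (u, k) : ℝ) < b} :=
    measurableSet_lt (by fun_prop) measurable_const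
  exact h1.inter h2

open Classical in
/-- energy of one event, for a mask depending on the labels -/
noncomputable def pe_e (θ : ℝ) (μ : Measure (V → Bool)) (k : ℕ) (a b : ℝ) (v u : V)
    (M : (V × ℕ → I) → Set (V × ℕ)) (T : V × ℕ → I) : ℝ :=
  if a ≤ (T (u, k) : ℝ) ∧ (T (u, k) : ℝ) < b then
    ∫ ω, (m1 G θ (k + 1) (insert (u, k) (M T)) T v ω - m1 G θ (k + 1) (M T) T v ω) ^ 2 ∂(P1 μ) else 0

lemma pe_e_meas (θ : ℝ) (μ : Measure (V → Bool)) [IsProbabilityMeasure μ] (k : ℕ) (a b : ℝ) (v u : V)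
    (M : (V × ℕ → I) → Set (V × ℕ)) (hM : ∀ i, MeasurableSet {T | i ∈ M T}) :
    Measurable (pe_e G θ μ k a b v u M) := by
  unfold pe_e
  refine Measurable.ite (pe_ms_lab u k a b) ?_ measurable_const
  exact pe_meas_int G θ μ (k + 1) (fun T => insert (u, k) (M T)) M
    (fun i => pe_ms_insert _ hM _ _) hM v

lemma pe_e_le (θ : ℝ) (μ : Measure (V → Bool)) [IsProbabilityMeasure μ] (k : ℕ) (a b : ℝ) (v u : V)
    (M : (V × ℕ → I) → Set (V × ℕ)) (T : V × ℕ → I) : |pe_e G θ μ k a b v u M T| ≤ 4 := by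
  unfold pe_e
  split_ifs
  · exact pe_int_le G θ μ (k + 1) _ _ T v
  · simp

lemma pe_e_nonneg (θ : ℝ) (μ : Measure (V → Bool)) (k : ℕ) (a b : ℝ) (v u : V)
    (M : (V × ℕ → I) → Set (V × ℕ)) (T : V × ℕ → I) : 0 ≤ pe_e G θ μ k a b v u M T := by
  unfold pe_e
  split_ifs
  · exact integral_nonneg fun ω => sq_nonneg _
  · exact le_rfl

lemma pe_e_int (θ : ℝ) (μ : Measure (V → Bool)) [IsProbabilityMeasure μ] (k : ℕ) (a b : ℝ) (v u : V)
    (M : (V × ℕ → I) → Set (V × ℕ)) (hM : ∀ i, MeasurableSet {T | i ∈ M T}) :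
    Integrable (pe_e G θ μ k a b v u M) (nz V) :=
  Integrable.of_bound (pe_e_meas G θ μ k a b v u M hM).aestronglyMeasurable 4 (ae_of_all _ fun T => by
    rw [Real.norm_eq_abs]; exact pe_e_le G θ μ k a b v u M T)

/-- mixed mask before the event `(u, k)` -/
noncomputable def pe_mx (F : Finset V) (k : ℕ) (a b : ℝ) (u : V) (T : V × ℕ → I) : Set (V × ℕ) :=
  pe_fb T k a (pe_lt T k (act F T k a b) u)

lemma pe_mx_ms (F : Finset V) (k : ℕ) (a b : ℝ) (u : V) (i : V × ℕ) :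
    MeasurableSet {T : V × ℕ → I | i ∈ pe_mx F k a b u T} :=
  pe_ms_fb _ (fun w => pe_ms_lt _ (fun w => pe_ms_act F k a b w) k u w) k a i

/-- bound of the energies -/
noncomputable def pe_B (θ c : ℝ) (v u : V) : ℝ := θ ^ (2 * G.dist v u) * (1 - c) ^ (G.dist v u - 1)

omit [Countable V] [G.LocallyFinite] in
lemma pe_B_nonneg {θ c : ℝ} (h0 : 0 ≤ θ) (hc1 : c < 1) (v u : V) : 0 ≤ pe_B G θ c v u := by
  have : 0 ≤ 1 - c := by linarith
  unfold pe_B
  positivity

lemma pe_X_le (hT : G.IsTree) {θ : ℝ} (h0 : 0 ≤ θ) (h1 : θ < 1) {μ : Measure (V → Bool)}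
    [IsProbabilityMeasure μ] (hμ : IsIsing G θ μ) (k : ℕ) {a b : ℝ} (ha : 0 ≤ a) {c : ℝ} (hc : 0 ≤ c)
    (hc1 : c < 1) (hk : ∀ s', a ≤ s' → ∀ r : ℝ,
      ∫ x, Real.exp (-(kap θ * Real.tanh (x + r) ^ 2)) ∂(rho k s') ≤ 1 - c)
    (F : Finset V) (v u : V) :
    ∫ T, pe_e G θ μ k a b v u (pe_mx F k a b u) T ∂(nz V) ≤ pe_B G θ c v u := by
  obtain ⟨p, hp, hp0, hpn⟩ := exists_pth G hT v u
  have hdom := pe_dom G hT h0 h1 hμ k ha hc hc1.le hk (b := b) F p (G.dist v u) hp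
  rw [hpn, hp0] at hdom
  refine (ENNReal.ofReal_le_ofReal_iff (pe_B_nonneg G h0 hc1 v u)).1 ?_
  rw [ofReal_integral_eq_lintegral_ofReal (pe_e_int G θ μ k a b v u _ (pe_mx_ms F k a b u))
    (ae_of_all _ fun T => pe_e_nonneg G θ μ k a b v u _ T)]
  refine le_trans (le_of_eq (lintegral_congr fun T => ?_)) hdom
  unfold pe_e pe_mx
  split_ifs with h
  · rw [ofReal_integral_eq_lintegral_ofReal]
    · exact ((pi_BM_m1 G θ _ _ T v).sub (pi_BM_m1 G θ _ _ T v)).sq.int
    · exact ae_of_all _ fun ω => sq_nonneg _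
  · simp

lemma pe_X_tend (hT : G.IsTree) {θ : ℝ} (h0 : 0 ≤ θ) (h1 : θ < 1) {μ : Measure (V → Bool)}
    [IsProbabilityMeasure μ] (hμ : IsIsing G θ μ) (k : ℕ) {a b : ℝ} (v u : V)
    (F : ℕ → Finset V) (hF : Monotone F) (hcov : ∀ u, ∃ n, u ∈ F n) :
    Tendsto (fun n => ∫ T, pe_e G θ μ k a b v u (pe_mx (F n) k a b u) T ∂(nz V)) atTop
      (𝓝 (∫ T, pe_e G θ μ k a b v u (fun T => bef T (u, k)) T ∂(nz V))) := by
  refine tendsto_integral_of_dominated_convergence (fun _ => (4:ℝ))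
    (fun n => (pe_e_meas G θ μ k a b v u _ (pe_mx_ms (F n) k a b u)).aestronglyMeasurable)
    (integrable_const _)
    (fun n => ae_of_all _ fun T => by rw [Real.norm_eq_abs]; exact pe_e_le G θ μ k a b v u _ T)
    (ae_of_all _ fun T => ?_)
  unfold pe_e
  split_ifs with h
  · have hmo : Monotone (fun n => pe_mx (F n) k a b u T) := by
      intro n n' hn
      exact pe_fb_mono (pe_lt_mono (pe_act_mono (hF hn) T k a b) T k u)
    have hmo' : Monotone (fun n => insert (u, k) (pe_mx (F n) k a b u T)) := fun n n' hn =>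
      insert_subset_insert (hmo hn)
    have ht := pe_tend G hT h0 h1 hμ T (k + 1) (fun n => insert (u, k) (pe_mx (F n) k a b u T))
      (fun n => pe_mx (F n) k a b u T)
      hmo' hmo (by
        rintro n i (rfl | hi)
        · simp
        · exact pe_fb_round i hi) (fun n i hi => pe_fb_round i hi) v
    have hu1 : (⋃ n, pe_mx (F n) k a b u T) = bef T (u, k) := pe_union_bef T k u h.1 h.2 F hcov
    have hu2 : (⋃ n, insert (u, k) (pe_mx (F n) k a b u T)) = insert (u, k) (bef T (u, k)) := by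
      rw [← hu1]
      ext i
      simp only [mem_iUnion, mem_insert_iff]
      constructor
      · rintro ⟨n, h | h⟩
        · exact Or.inl h
        · exact Or.inr ⟨n, h⟩
      · rintro (h | ⟨n, h⟩)
        · exact ⟨0, Or.inl h⟩
        · exact ⟨n, Or.inr h⟩
    rw [hu1, hu2] at ht
    exact ht
  · exact tendsto_const_nhds

lemma pe_sum_tend (X : ℕ → V → ℝ) (Y B : V → ℝ) (hB : Summable B) (hX0 : ∀ n u, 0 ≤ X n u)
    (hXB : ∀ n u, X n u ≤ B u) (hXY : ∀ u, Tendsto (fun n => X n u) atTop (𝓝 (Y u)))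
    (F : ℕ → Finset V) (hF : Monotone F) (hcov : ∀ u, ∃ n, u ∈ F n) :
    Tendsto (fun n => ∑ u ∈ F n, X n u) atTop (𝓝 (∑' u, Y u)) := by
  classical
  have hcov' : ∀ u, ∀ᶠ n in atTop, u ∈ F n := by
    intro u
    obtain ⟨n0, hn0⟩ := hcov u
    filter_upwards [eventually_ge_atTop n0] with n hn using hF hn hn0
  have hB0 : ∀ u, 0 ≤ B u := fun u => (hX0 0 u).trans (hXB 0 u)
  have ht := tendsto_tsum_of_dominated_convergence (f := fun n u => if u ∈ F n then X n u else 0)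
    (g := Y) (bound := B) hB (fun u => by
      refine (hXY u).congr' ?_
      filter_upwards [hcov' u] with n hn
      rw [if_pos hn]) (Eventually.of_forall fun n u => by
      rw [Real.norm_eq_abs]
      split_ifs
      · rw [abs_of_nonneg (hX0 n u)]; exact hXB n u
      · simpa using hB0 u)
  refine ht.congr fun n => ?_
  rw [tsum_eq_sum (s := F n) (fun u hu => if_neg hu)]
  exact Finset.sum_congr rfl fun u hu => if_pos hu

theorem pe_sum_act (F : Finset V) (T : V × ℕ → I) (k : ℕ) (a b : ℝ) (f : V → ℝ) :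
    ∑ u ∈ act F T k a b, f u
      = ∑ u ∈ F, if a ≤ ((T (u, k) : I) : ℝ) ∧ ((T (u, k) : I) : ℝ) < b then f u else 0 := by
  unfold act
  rw [Finset.sum_filter]


/-- no escape of energy -/
theorem escape (hT : G.IsTree) {d : ℕ} (hd : 3 ≤ d) (hreg : G.IsRegularOfDegree d)
    {θ : ℝ} (h0 : 0 ≤ θ) (h1 : θ < 1) (hcrit : θ ^ 2 * ((d : ℝ) - 1) ≤ 1) {μ : Measure (V → Bool)}
    [IsProbabilityMeasure μ] (hμ : IsIsing G θ μ) (k : ℕ) {a b : ℝ} (ha : 0 ≤ a) (hab : a ≤ b)
    (hb : b ≤ 1 / 2) (hpos : k = 0 → θ ^ 2 * ((d : ℝ) - 1) = 1 → 0 < a) (v : V)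
    (F : ℕ → Finset V) (hF : Monotone F) (hcov : ∀ u, ∃ n, u ∈ F n) :
    Tendsto (fun n => ∫ T, esc G θ μ k a b v (F n) T ∂(nz V)) atTop (𝓝 0) := by
  classical
  obtain ⟨c, hc0, hc1, hk, hsum⟩ := pe_kill_const h0 h1 hcrit k ha hpos
  obtain ⟨X, hX⟩ : ∃ X : ℕ → V → ℝ, X = fun n u =>
    ∫ T, pe_e G θ μ k a b v u (pe_mx (F n) k a b u) T ∂(nz V) := ⟨_, rfl⟩
  obtain ⟨Y, hY⟩ : ∃ Y : V → ℝ, Y = fun u =>
    ∫ T, pe_e G θ μ k a b v u (fun T => bef T (u, k)) T ∂(nz V) := ⟨_, rfl⟩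
  have hBsum : Summable (pe_B G θ c v) := pe_summable G hT hd hreg h0 hc0 hc1 hsum v
  have hXB : ∀ n u, X n u ≤ pe_B G θ c v u := by
    intro n u
    rw [hX]
    exact pe_X_le G hT h0 h1 hμ k ha hc0 hc1 hk (F n) v u
  have hX0 : ∀ n u, 0 ≤ X n u := fun n u => by
    rw [hX]; exact integral_nonneg fun T => pe_e_nonneg G θ μ k a b v u _ T
  have hXY : ∀ u, Tendsto (fun n => X n u) atTop (𝓝 (Y u)) := by
    intro u
    rw [hX, hY]
    exact pe_X_tend G hT h0 h1 hμ k v u F hF hcov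
  have hYB : ∀ u, Y u ≤ pe_B G θ c v u := fun u => le_of_tendsto' (hXY u) fun n => hXB n u
  have hY0 : ∀ u, 0 ≤ Y u := fun u => by
    rw [hY]; exact integral_nonneg fun T => pe_e_nonneg G θ μ k a b v u _ T
  have hS1 := pe_sum_tend X Y _ hBsum hX0 hXB hXY F hF hcov
  have hS2 := pe_sum_tend (fun _ => Y) Y _ hBsum (fun _ => hY0) (fun _ => hYB)
    (fun u => tendsto_const_nhds) F hF hcov
  -- the energies
  obtain ⟨L, hL⟩ : ∃ L : ℝ, L = ∫ T, ∫ ω, (m1 G θ (k + 1) (thr T k b) T v ω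
    - m1 G θ (k + 1) (thr T k a) T v ω) ^ 2 ∂(P1 μ) ∂(nz V) := ⟨_, rfl⟩
  have hmL : Measurable (fun T : V × ℕ → I =>
      ∫ ω, (m1 G θ (k + 1) (thr T k b) T v ω - m1 G θ (k + 1) (thr T k a) T v ω) ^ 2 ∂(P1 μ)) :=
    pe_meas_int G θ μ (k + 1) (fun T => thr T k b) (fun T => thr T k a) (pe_ms_thr k b) (pe_ms_thr k a) v
  have hiL : Integrable (fun T : V × ℕ → I =>
      ∫ ω, (m1 G θ (k + 1) (thr T k b) T v ω - m1 G θ (k + 1) (thr T k a) T v ω) ^ 2 ∂(P1 μ)) (nz V) :=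
    Integrable.of_bound hmL.aestronglyMeasurable 4 (ae_of_all _ fun T => by
      rw [Real.norm_eq_abs]; exact pe_int_le G θ μ (k + 1) _ _ T v)
  have hmbef : ∀ u i, MeasurableSet {T : V × ℕ → I | i ∈ bef T (u, k)} := fun u i => pe_ms_bef _ _
  have hesc : ∀ n, ∫ T, esc G θ μ k a b v (F n) T ∂(nz V) = L - ∑ u ∈ F n, Y u := by
    intro n
    have e1 : ∀ T, esc G θ μ k a b v (F n) T
        = (∫ ω, (m1 G θ (k + 1) (thr T k b) T v ω - m1 G θ (k + 1) (thr T k a) T v ω) ^ 2 ∂(P1 μ))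
          - ∑ u ∈ F n, pe_e G θ μ k a b v u (fun T => bef T (u, k)) T := by
      intro T
      unfold esc act pe_e
      rw [Finset.sum_filter]
    rw [integral_congr_ae (ae_of_all _ e1), integral_sub hiL
      (integrable_finset_sum _ fun u _ => pe_e_int G θ μ k a b v u _ (hmbef u)),
      integral_finset_sum _ fun u _ => pe_e_int G θ μ k a b v u _ (hmbef u), hL, hY]
  have hLn : ∀ n, ∫ T, ∫ ω, (m1 G θ (k + 1) (pe_fb T k a (act (F n) T k a b)) T v ω
      - m1 G θ (k + 1) (thr T k a) T v ω) ^ 2 ∂(P1 μ) ∂(nz V) = ∑ u ∈ F n, X n u := by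
    intro n
    have e1 : ∀ᵐ T ∂(nz V), ∫ ω, (m1 G θ (k + 1) (pe_fb T k a (act (F n) T k a b)) T v ω
        - m1 G θ (k + 1) (thr T k a) T v ω) ^ 2 ∂(P1 μ)
          = ∑ u ∈ F n, pe_e G θ μ k a b v u (pe_mx (F n) k a b u) T := by
      filter_upwards [ae_injective (V := V)] with T hinj
      rw [pe_chain G hT h0 h1 hμ T hinj v k a (act (F n) T k a b)]
      unfold pe_e pe_mx
      exact pe_sum_act (F n) T k a b _
    rw [integral_congr_ae e1, integral_finset_sum _ fun u _ => pe_e_int G θ μ k a b v u _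
      (pe_mx_ms (F n) k a b u), hX]
  have hLlim : Tendsto (fun n => ∫ T, ∫ ω, (m1 G θ (k + 1) (pe_fb T k a (act (F n) T k a b)) T v ω
      - m1 G θ (k + 1) (thr T k a) T v ω) ^ 2 ∂(P1 μ) ∂(nz V)) atTop (𝓝 L) := by
    rw [hL]
    refine tendsto_integral_of_dominated_convergence (fun _ => (4:ℝ)) (fun n => ?_) (integrable_const _)
      (fun n => ae_of_all _ fun T => by
        rw [Real.norm_eq_abs]; exact pe_int_le G θ μ (k + 1) _ _ T v) (ae_of_all _ fun T => ?_)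
    · exact (pe_meas_int G θ μ (k + 1) (fun T => pe_fb T k a (act (F n) T k a b)) (fun T => thr T k a)
        (fun i => pe_ms_fb _ (fun w => pe_ms_act (F n) k a b w) k a i) (pe_ms_thr k a) v).aestronglyMeasurable
    · have ht := pe_tend G hT h0 h1 hμ T (k + 1) (fun n => pe_fb T k a (act (F n) T k a b))
        (fun _ => thr T k a) (fun n n' hn => pe_fb_mono (pe_act_mono (hF hn) T k a b))
        (fun _ _ _ => le_rfl) (fun n i hi => pe_fb_round i hi) (fun n i hi => pi_thr_lt i hi) v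
      rw [pe_union_fb T k hab F hcov, iUnion_const] at ht
      exact ht
  have hLY : L = ∑' u, Y u := by
    refine tendsto_nhds_unique hLlim ?_
    simp only [hLn]
    exact hS1
  simp only [hesc]
  have := (tendsto_const_nhds (x := L)).sub hS2
  rw [hLY, sub_self] at this
  rw [hLY]
  exact this

end Crest.Agent.FI
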