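import Mathlib
import Crest.Agent.FI.ProcDefs2
import Crest.Agent.FI.ProcA
import Crest.Agent.FI.ProcState

set_option autoImplicit false

namespace Crest.Agent.FI.PT

open MeasureTheory ProbabilityTheory unitInterval Set Filter Topology
open scoped ENNReal

variable {V : Type*} [Countable V] (G : SimpleGraph V) [G.LocallyFinite]

instance twK_markov (θ : ℝ) (μ : Measure (V → Bool)) [IsProbabilityMeasure μ] :
    IsMarkovKernel (twK G θ μ) := by
  unfold twK ck
  infer_instance

/-- the integrand at time `(k, t)` for fixed labels -/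
noncomputable def RR (θ : ℝ) (μ : Measure (V → Bool)) [IsProbabilityMeasure μ] (k : ℕ)
    (g : (V → ℝ) × (V → ℝ) → ℝ≥0∞) (t : ℝ) (T : V × ℕ → I) : ℝ≥0∞ :=
  ∫⁻ q, g (pairX k t (T, q)) ∂(twK G θ μ T)

theorem measurable_RR (θ : ℝ) (μ : Measure (V → Bool)) [IsProbabilityMeasure μ] (k : ℕ)
    {g : (V → ℝ) × (V → ℝ) → ℝ≥0∞} (hg : Measurable g) :
    Measurable (fun p : ℝ × (V × ℕ → I) => RR G θ μ k g p.1 p.2) := by
  have h1 : Measurable (fun p : (ℝ × (V × ℕ → I)) × ((V × ℕ → I) × XX V × XX V) =>
      g (pairX k p.1.1 (p.1.2, p.2))) := by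
    have h0 : Measurable (fun p : (ℝ × (V × ℕ → I)) × ((V × ℕ → I) × XX V × XX V) =>
        (p.1.1, (p.1.2, p.2))) :=
      (measurable_fst.comp measurable_fst).prodMk
        ((measurable_snd.comp measurable_fst).prodMk measurable_snd)
    exact hg.comp ((measurable_pairX (V := V) k).comp h0)
  have h2 := Measurable.lintegral_kernel_prod_right' (κ := (twK G θ μ).comap
    (Prod.snd : ℝ × (V × ℕ → I) → (V × ℕ → I)) measurable_snd) h1
  exact h2

theorem lintegral_QQ (θ : ℝ) (μ : Measure (V → Bool)) [IsProbabilityMeasure μ] (k : ℕ)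
    {g : (V → ℝ) × (V → ℝ) → ℝ≥0∞} (hg : Measurable g) (t : ℝ) :
    ∫⁻ q, g q ∂(QQ G θ μ k t) = ∫⁻ T, RR G θ μ k g t T ∂(nz V) := by
  have hm : Measurable (pairX (V := V) k t) :=
    (measurable_pairX (V := V) k).comp (measurable_const.prodMk measurable_id)
  unfold QQ
  have hm' : Measurable (fun a => g (pairX (V := V) k t a)) := hg.comp hm
  rw [lintegral_map hg hm, P2, Measure.lintegral_compProd hm']
  rfl

/-- the integrand does not depend on the label of an event not yet observed -/
theorem RR_update [DecidableEq V] (hT : G.IsTree) {θ : ℝ} (h0 : 0 ≤ θ) (h1 : θ < 1)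
    {μ : Measure (V → Bool)} [IsProbabilityMeasure μ] (hμ : IsIsing G θ μ) (k : ℕ) (u : V)
    {g : (V → ℝ) × (V → ℝ) → ℝ≥0∞} (hg : Measurable g) (t : I) (T : V × ℕ → I)
    (ht : t ≤ T (u, k)) (hinj : Function.Injective T)
    (hinj' : Function.Injective (Function.update T (u, k) t)) :
    RR G θ μ k g t T = RR G θ μ k g t (Function.update T (u, k) t) := by
  set T' := Function.update T (u, k) t with hT'
  have hM : thr T' k (t : ℝ) = thr T k (t : ℝ) := by
    ext i
    simp only [thr, Set.mem_ofPred_eq]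
    by_cases hi : i = (u, k)
    · subst hi
      simp only [hT', Function.update_self, lt_irrefl, and_false, or_false, true_and]
      constructor
      · intro h
        exact absurd h (by norm_num)
      · rintro (h | h)
        · exact absurd h (by norm_num)
        · exact absurd h (not_lt.2 ht)
    · rw [hT', Function.update_of_ne hi]
  set M := thr T k (t : ℝ) with hMdef
  have hjM : (u, k) ∉ M := by
    simp only [hMdef, thr, Set.mem_ofPred_eq, lt_irrefl, false_or, true_and, not_lt]
    exact ht
  have heq : ∀ i ∈ M, T i = T' i := by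
    intro i hi
    have : i ≠ (u, k) := by
      rintro rfl
      exact hjM hi
    rw [hT', Function.update_of_ne this]
  have hInit : InitSeg T M := initSeg_thr T k t
  have hInit' : InitSeg T' M := by
    rw [← hM]
    exact initSeg_thr T' k t
  have hlab := tw_label G hT h0 h1 hμ T T' hinj hinj' M hInit hInit' heq
  -- fields only use the labels in `M`
  have hxf : ∀ z : V × ℕ → I, xf (sts T') (k + 1) M z = xf (sts T) (k + 1) M z := by
    intro z
    funext v
    unfold xf
    refine Finset.sum_congr rfl fun l _ => ?_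
    by_cases hl : (v, l) ∈ M
    · rw [if_pos hl, if_pos hl]
      unfold sts
      rw [heq _ hl]
    · rw [if_neg hl, if_neg hl]
  set W : (V × ℕ → I) × (V × ℕ → I) → ℝ≥0∞ :=
    fun p => g (xf (sts T) (k + 1) M p.1, xf (sts T) (k + 1) M p.2) with hW
  have hWm : Measurable W := by
    refine hg.comp ?_
    exact ((measurable_xf (k + 1) M (sts T)).comp measurable_fst).prodMk
      ((measurable_xf (k + 1) M (sts T)).comp measurable_snd)
  have hmaskm : Measurable (fun q : (V × ℕ → I) × XX V × XX V =>
      (mask M q.2.1.2, mask M q.2.2.2)) := by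
    refine ((measurable_mask M).comp ?_).prodMk ((measurable_mask M).comp ?_)
    · fun_prop
    · fun_prop
  have e1 : ∀ T₀ : V × ℕ → I, (∀ q : (V × ℕ → I) × XX V × XX V,
      g (pairX k t (T₀, q)) = W (mask M q.2.1.2, mask M q.2.2.2)) →
      RR G θ μ k g t T₀
        = ∫⁻ p, W p ∂((twK G θ μ T₀).map (fun q => (mask M q.2.1.2, mask M q.2.2.2))) := by
    intro T₀ h
    rw [lintegral_map hWm hmaskm]
    unfold RR
    exact lintegral_congr h
  rw [e1 T (by
    intro q
    simp only [pairX, hW, xf_mask]
    rw [← hMdef]), e1 T' (by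
    intro q
    simp only [pairX, hW, xf_mask, hM, hxf]), hlab]

theorem resample_nz [DecidableEq V] (j : V × ℕ) {H : (V × ℕ → I) → ℝ≥0∞} (hH : Measurable H) :
    ∫⁻ T, H T ∂(nz V) = ∫⁻ T, ∫⁻ s, H (Function.update T j s) ∂(volume : Measure I) ∂(nz V) := by
  have hm : Measurable (fun q : (V × ℕ → I) × I => Function.update q.1 j q.2) :=
    FV.measurable_updatePair j
  have := iv_map_update_nz (V := V) j
  have hHm : Measurable (fun q : (V × ℕ → I) × I => H (Function.update q.1 j q.2)) := hH.comp hm
  conv_lhs => rw [← this]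
  rw [lintegral_map hH hm, lintegral_prod _ hHm.aemeasurable]

theorem half_bound [DecidableEq V] (hT : G.IsTree) {θ : ℝ} (h0 : 0 ≤ θ) (h1 : θ < 1)
    {μ : Measure (V → Bool)} [IsProbabilityMeasure μ] (hμ : IsIsing G θ μ) (k : ℕ) (u : V)
    {g : (V → ℝ) × (V → ℝ) → ℝ≥0∞} (hg : Measurable g) (t : I) (ht : (t : ℝ) ≤ 1 / 2)
    (hinj : ∀ᵐ T ∂(nz V), Function.Injective (Function.update T (u, k) t)) :
    ∫⁻ T, RR G θ μ k g t (Function.update T (u, k) t) ∂(nz V)
      ≤ 2 * ∫⁻ T, RR G θ μ k g t T ∂(nz V) := by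
  classical
  set j : V × ℕ := (u, k) with hj
  have hRm : Measurable (fun T : V × ℕ → I => RR G θ μ k g t T) :=
    (measurable_RR G θ μ k hg).comp (measurable_const.prodMk measurable_id)
  have hum : Measurable (fun T : V × ℕ → I => Function.update T j t) := by
    refine measurable_pi_iff.2 fun i => ?_
    by_cases h : i = j
    · subst h
      simp only [Function.update_self]
      exact measurable_const
    · simp only [Function.update_of_ne h]
      exact measurable_pi_apply i
  have hRum : Measurable (fun T : V × ℕ → I => RR G θ μ k g t (Function.update T j t)) :=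
    hRm.comp hum
  have hset : MeasurableSet {T : V × ℕ → I | t ≤ T j} :=
    measurableSet_le measurable_const (measurable_pi_apply j)
  have hlow : ∫⁻ T, {T : V × ℕ → I | t ≤ T j}.indicator
      (fun T => RR G θ μ k g t (Function.update T j t)) T ∂(nz V)
      ≤ ∫⁻ T, RR G θ μ k g t T ∂(nz V) := by
    refine lintegral_mono_ae ?_
    filter_upwards [ae_injective (V := V), hinj] with T hT1 hT2
    by_cases h : t ≤ T j
    · rw [Set.indicator_of_mem (show T ∈ {T : V × ℕ → I | t ≤ T j} from h)]
      exact (RR_update G hT h0 h1 hμ k u hg t T h hT1 hT2).ge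
    · rw [Set.indicator_of_notMem (show T ∉ {T : V × ℕ → I | t ≤ T j} from h)]
      exact zero_le
  have hvol : (2⁻¹ : ℝ≥0∞) ≤ (volume : Measure I) {s : I | t ≤ s} := by
    have : {s : I | t ≤ s} = Set.Ici t := rfl
    rw [this, unitInterval.volume_Ici]
    rw [show (2⁻¹ : ℝ≥0∞) = ENNReal.ofReal (1 / 2) by
      rw [one_div, ENNReal.ofReal_inv_of_pos (by norm_num)]; simp]
    exact ENNReal.ofReal_le_ofReal (by linarith)
  have hlow2 : ∫⁻ T, {T : V × ℕ → I | t ≤ T j}.indicator
      (fun T => RR G θ μ k g t (Function.update T j t)) T ∂(nz V)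
      = (volume : Measure I) {s : I | t ≤ s}
        * ∫⁻ T, RR G θ μ k g t (Function.update T j t) ∂(nz V) := by
    rw [resample_nz j (hRum.indicator hset), ← lintegral_const_mul _ hRum]
    refine lintegral_congr fun T => ?_
    have : ∀ s : I, {T : V × ℕ → I | t ≤ T j}.indicator
        (fun T => RR G θ μ k g t (Function.update T j t)) (Function.update T j s)
        = {s : I | t ≤ s}.indicator (fun _ => RR G θ μ k g t (Function.update T j t)) s := by
      intro s
      by_cases h : t ≤ s
      · rw [Set.indicator_of_mem (show s ∈ {s : I | t ≤ s} from h),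
          Set.indicator_of_mem (show Function.update T j s ∈ {T : V × ℕ → I | t ≤ T j} by
            simpa using h)]
        simp
      · rw [Set.indicator_of_notMem (show s ∉ {s : I | t ≤ s} from h),
          Set.indicator_of_notMem (show Function.update T j s ∉ {T : V × ℕ → I | t ≤ T j} by
            simpa using h)]
    simp only [this]
    have hms : MeasurableSet {s : I | t ≤ s} := measurableSet_Ici
    rw [lintegral_indicator_const hms, mul_comm]
  rw [hlow2] at hlow
  calc ∫⁻ T, RR G θ μ k g t (Function.update T j t) ∂(nz V)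
      = 2 * (2⁻¹ * ∫⁻ T, RR G θ μ k g t (Function.update T j t) ∂(nz V)) := by
        rw [← mul_assoc, ENNReal.mul_inv_cancel (by norm_num) (by norm_num), one_mul]
    _ ≤ 2 * ((volume : Measure I) {s : I | t ≤ s}
        * ∫⁻ T, RR G θ μ k g t (Function.update T j t) ∂(nz V)) := by gcongr
    _ ≤ 2 * ∫⁻ T, RR G θ μ k g t T ∂(nz V) := by gcongr

end Crest.Agent.FI.PT

namespace Crest.Agent.FI

open MeasureTheory ProbabilityTheory unitInterval Set Filter Topology
open scoped ENNReal

variable {V : Type*} [Countable V] (G : SimpleGraph V) [G.LocallyFinite]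

open Classical in
/-- the state before the event `(u, k)`, given its label `t`, is dominated by twice the state at time
`(k, t)` (for `t < 1/2`): the latter, restricted to the event `T (u,k) ≥ t` of probability `≥ 1/2`, does
not depend on `T (u,k)` -/
theorem shift (hT : G.IsTree) {θ : ℝ} (h0 : 0 ≤ θ) (h1 : θ < 1) {μ : Measure (V → Bool)}
    [IsProbabilityMeasure μ] (hμ : IsIsing G θ μ) (k : ℕ) (u : V) {a b : ℝ} (ha : 0 ≤ a)
    (hb : b ≤ 1 / 2) (g : (V → ℝ) × (V → ℝ) → ℝ≥0∞) (hg : Measurable g) :
    ∫⁻ T, (if a ≤ (T (u, k) : ℝ) ∧ (T (u, k) : ℝ) < b then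
        ENNReal.ofReal (T (u, k)) * ∫⁻ q, g (pairB T (u, k) q) ∂(twK G θ μ T) else 0) ∂(nz V)
      ≤ 2 * ∫⁻ t in Ico a b, ENNReal.ofReal t * ∫⁻ q, g q ∂(QQ G θ μ k t) := by
  set j : V × ℕ := (u, k) with hj
  -- rewrite the integrand of the left side
  have e1 : ∀ T : V × ℕ → I, (if a ≤ (T j : ℝ) ∧ (T j : ℝ) < b then
        ENNReal.ofReal (T j) * ∫⁻ q, g (pairB T j q) ∂(twK G θ μ T) else 0)
      = (Set.Ico a b).indicator (fun t => ENNReal.ofReal t) (T j : ℝ)
        * PT.RR G θ μ k g (T j : ℝ) T := by
    intro T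
    have h2 : ∀ q, pairB T j q = pairX k (T j : ℝ) (T, q) := fun q => rfl
    simp only [h2]
    by_cases h : a ≤ (T j : ℝ) ∧ (T j : ℝ) < b
    · rw [if_pos h, Set.indicator_of_mem (show (T j : ℝ) ∈ Set.Ico a b from h)]
      rfl
    · rw [if_neg h, Set.indicator_of_notMem (show (T j : ℝ) ∉ Set.Ico a b from h), zero_mul]
  rw [lintegral_congr e1]
  have hTjm : Measurable (fun T : V × ℕ → I => (T j : ℝ)) :=
    measurable_subtype_coe.comp (measurable_pi_apply j)
  have hindm : Measurable (fun t : ℝ => (Set.Ico a b).indicator (fun t => ENNReal.ofReal t) t) :=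
    ENNReal.measurable_ofReal.indicator measurableSet_Ico
  have hHm : Measurable (fun T : V × ℕ → I =>
      (Set.Ico a b).indicator (fun t => ENNReal.ofReal t) (T j : ℝ)
        * PT.RR G θ μ k g (T j : ℝ) T) :=
    (hindm.comp hTjm).mul ((PT.measurable_RR G θ μ k hg).comp (hTjm.prodMk measurable_id))
  rw [PT.resample_nz j hHm]
  simp only [Function.update_self]
  have hm2 : Measurable (fun p : (V × ℕ → I) × I =>
      (Set.Ico a b).indicator (fun t => ENNReal.ofReal t) (p.2 : ℝ)
        * PT.RR G θ μ k g (p.2 : ℝ) (Function.update p.1 j p.2)) := by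
    refine (hindm.comp (measurable_subtype_coe.comp measurable_snd)).mul
      ((PT.measurable_RR G θ μ k hg).comp ((measurable_subtype_coe.comp measurable_snd).prodMk ?_))
    exact FV.measurable_updatePair j
  rw [lintegral_lintegral_swap hm2.aemeasurable]
  -- injectivity after resampling
  have hinj : ∀ᵐ t : I, ∀ᵐ T ∂(nz V), Function.Injective (Function.update T j t) := by
    have h2 : ∀ᵐ p ∂((nz V).prod (volume : Measure I)),
        Function.Injective (Function.update p.1 j p.2) := by
      have h3 := ae_injective (V := V)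
      rw [← iv_map_update_nz (V := V) j] at h3
      exact ae_of_ae_map (FV.measurable_updatePair j).aemeasurable h3
    have h4 : ∀ᵐ p ∂((volume : Measure I).prod (nz V)),
        Function.Injective (Function.update p.2 j p.1) := by
      rw [← Measure.prod_swap] at h2
      exact ae_of_ae_map measurable_swap.aemeasurable h2
    exact Measure.ae_ae_of_ae_prod h4
  -- bound the inner integral
  have hbound : ∫⁻ t : I, ∫⁻ T, (Set.Ico a b).indicator (fun t => ENNReal.ofReal t) (t : ℝ)
        * PT.RR G θ μ k g (t : ℝ) (Function.update T j t) ∂(nz V)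
      ≤ ∫⁻ t : I, 2 * ((Set.Ico a b).indicator (fun t => ENNReal.ofReal t) (t : ℝ)
        * ∫⁻ q, g q ∂(QQ G θ μ k t)) := by
    refine lintegral_mono_ae ?_
    filter_upwards [hinj] with t ht
    by_cases h : (t : ℝ) ∈ Set.Ico a b
    · have hRum : Measurable (fun T : V × ℕ → I => PT.RR G θ μ k g t (Function.update T j t)) := by
        refine (PT.measurable_RR G θ μ k hg).comp (measurable_const.prodMk ?_)
        exact (FV.measurable_updatePair (X := I) j).comp (measurable_id.prodMk measurable_const)
      rw [lintegral_const_mul _ hRum, PT.lintegral_QQ G θ μ k hg]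
      calc (Set.Ico a b).indicator (fun t => ENNReal.ofReal t) (t : ℝ)
            * ∫⁻ T, PT.RR G θ μ k g t (Function.update T j t) ∂(nz V)
          ≤ (Set.Ico a b).indicator (fun t => ENNReal.ofReal t) (t : ℝ)
            * (2 * ∫⁻ T, PT.RR G θ μ k g t T ∂(nz V)) := by
            gcongr
            exact PT.half_bound G hT h0 h1 hμ k u hg t (h.2.le.trans hb) ht
        _ = 2 * ((Set.Ico a b).indicator (fun t => ENNReal.ofReal t) (t : ℝ)
            * ∫⁻ T, PT.RR G θ μ k g t T ∂(nz V)) := by ring
    · simp only [Set.indicator_of_notMem h, zero_mul, lintegral_zero]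
      exact zero_le
  refine hbound.trans ?_
  -- back to the real line
  have hQm : Measurable (fun t : ℝ => ∫⁻ q, g q ∂(QQ G θ μ k t)) := by
    simp only [PT.lintegral_QQ G θ μ k hg]
    exact (PT.measurable_RR G θ μ k hg).lintegral_prod_right'
  have hfm : Measurable (fun t : ℝ => (Set.Ico a b).indicator (fun t => ENNReal.ofReal t) t
      * ∫⁻ q, g q ∂(QQ G θ μ k t)) := hindm.mul hQm
  have hfm' : Measurable (fun t : I => (Set.Ico a b).indicator (fun t => ENNReal.ofReal t) (t : ℝ)
      * ∫⁻ q, g q ∂(QQ G θ μ k t)) := hfm.comp measurable_subtype_coe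
  rw [lintegral_const_mul _ hfm']
  gcongr
  have h5 : ∫⁻ t : I, (Set.Ico a b).indicator (fun t => ENNReal.ofReal t) (t : ℝ)
        * ∫⁻ q, g q ∂(QQ G θ μ k t)
      = ∫⁻ t in Set.Icc (0 : ℝ) 1, (Set.Ico a b).indicator (fun t => ENNReal.ofReal t) t
        * ∫⁻ q, g q ∂(QQ G θ μ k t) :=
    lintegral_subtype_comap measurableSet_Icc
      (fun t : ℝ => (Set.Ico a b).indicator (fun t => ENNReal.ofReal t) t
        * ∫⁻ q, g q ∂(QQ G θ μ k t))
  rw [h5]
  calc ∫⁻ t in Set.Icc (0 : ℝ) 1, (Set.Ico a b).indicator (fun t => ENNReal.ofReal t) t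
        * ∫⁻ q, g q ∂(QQ G θ μ k t)
      ≤ ∫⁻ t, (Set.Ico a b).indicator (fun t => ENNReal.ofReal t) t
        * ∫⁻ q, g q ∂(QQ G θ μ k t) := setLIntegral_le_lintegral _ _
    _ = ∫⁻ t, (Set.Ico a b).indicator (fun t => ENNReal.ofReal t
        * ∫⁻ q, g q ∂(QQ G θ μ k t)) t := by
        refine lintegral_congr fun t => ?_
        by_cases h : t ∈ Set.Ico a b
        · simp only [Set.indicator_of_mem h]
        · simp only [Set.indicator_of_notMem h, zero_mul]
    _ = ∫⁻ t in Ico a b, ENNReal.ofReal t * ∫⁻ q, g q ∂(QQ G θ μ k t) :=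
        lintegral_indicator measurableSet_Ico _

end Crest.Agent.FI
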