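import Mathlib
import Crest.Agent.FI.ProcDefs2
import Crest.Agent.FI.Analysis
import Crest.Agent.FI.ProcInc
import Crest.Agent.FI.ProcEsc
import Crest.Agent.FI.ProcState
import Crest.Agent.FI.ProcT
import Crest.Agent.FI.Ker2A
import Crest.Agent.FI.Channel
import Crest.Agent.FI.TreeAut

set_option autoImplicit false

namespace Crest.Agent.FI

open MeasureTheory ProbabilityTheory unitInterval Set Filter Topology
open scoped ENNReal

variable {V : Type*} [Countable V] (G : SimpleGraph V) [G.LocallyFinite]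

lemma pf_meas_Cv (θ : ℝ) (p : ℕ → V) (n : ℕ) : Measurable (fun x : V → ℝ => Cv G θ x p n) := by
  unfold Cv
  exact (measurable_const.sub ((measurable_mm G θ (p 0)).pow_const 2)).mul (measurable_PP G θ p n)

lemma pf_meas_kker (θ : ℝ) (p : ℕ → V) (n : ℕ) :
    Measurable (fun q : (V → ℝ) × (V → ℝ) => kker G θ p n q) := by
  unfold kker
  have c1 : Measurable (fun q : (V → ℝ) × (V → ℝ) => Cv G θ q.1 p n) :=
    (pf_meas_Cv G θ p n).comp measurable_fst
  have c2 : Measurable (fun q : (V → ℝ) × (V → ℝ) => Cv G θ q.2 p n) :=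
    (pf_meas_Cv G θ p n).comp measurable_snd
  have m1 : Measurable (fun q : (V → ℝ) × (V → ℝ) => mm G θ q.1 (p n)) :=
    (measurable_mm G θ (p n)).comp measurable_fst
  have m2 : Measurable (fun q : (V → ℝ) × (V → ℝ) => mm G θ q.2 (p n)) :=
    (measurable_mm G θ (p n)).comp measurable_snd
  exact ((c1.sub c2).pow_const 2).add ((c2.pow_const 2).mul ((m1.sub m2).pow_const 2))

lemma pf_kker_nonneg (θ : ℝ) (p : ℕ → V) (n : ℕ) (q : (V → ℝ) × (V → ℝ)) : 0 ≤ kker G θ p n q := by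
  unfold kker; positivity

lemma pf_kker_inv (hT : G.IsTree) {d : ℕ} (hd : 3 ≤ d) (hreg : G.IsRegularOfDegree d) (θ : ℝ)
    {μ : Measure (V → Bool)} {ρ : Measure ℝ} {Q : Measure ((V → ℝ) × (V → ℝ))}
    (hQ : PairState G μ ρ Q) (n : ℕ) {p p' : ℕ → V} (hp : IsPth G p n) (hp' : IsPth G p' n) :
    ∫⁻ q, ENNReal.ofReal (kker G θ p n q) ∂Q = ∫⁻ q, ENNReal.ofReal (kker G θ p' n q) ∂Q := by
  refine path_inv G hT hd hreg hQ n (fun p q => ENNReal.ofReal (kker G θ p n q))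
    (fun p => (pf_meas_kker G θ p n).ennreal_ofReal) ?_ ?_ hp hp'
  · intro g p q
    simp only [kker, Cv, PP, mm_aut, al_aut, Function.comp_apply]
  · intro p p' q h
    have e : ∀ x : V → ℝ, PP G θ x p n = PP G θ x p' n := by
      intro x
      unfold PP
      refine Finset.prod_congr rfl fun i hi => ?_
      have hi' := Finset.mem_range.1 hi
      rw [h i hi'.le, h (i + 1) hi']
    have e' : ∀ x : V → ℝ, Cv G θ x p n = Cv G θ x p' n := by
      intro x
      unfold Cv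
      rw [e, h 0 (Nat.zero_le _)]
    simp only [kker, e', h n le_rfl]

/-- the events of `F` contribute at most the kernel -/
lemma pf_sum (hT : G.IsTree) {d : ℕ} (hd : 3 ≤ d) (hreg : G.IsRegularOfDegree d)
    {θ : ℝ} (h0 : 0 ≤ θ) (h1 : θ < 1) {μ : Measure (V → Bool)}
    [IsProbabilityMeasure μ] (hμ : IsIsing G θ μ) (k : ℕ) {a b : ℝ} (ha : 0 ≤ a)
    (hb : b ≤ 1 / 2) (p : ℕ → V) (hp : IsRay G p) (B : ℝ) (hB : 0 ≤ B)
    (hKK : ∀ t ∈ Ico a b, ENNReal.ofReal t * KK G θ (d - 1) p (QQ G θ μ k t) ≤ ENNReal.ofReal B)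
    (P : V → ℕ → V) (hP : ∀ u, IsPth G (P u) (G.dist (p 0) u)) (F : Finset V) :
    ∑ u ∈ F, ∫⁻ T, (if a ≤ (T (u, k) : ℝ) ∧ (T (u, k) : ℝ) < b then
        ENNReal.ofReal (T (u, k)) * ∫⁻ q, ENNReal.ofReal
          (kker G θ (P u) (G.dist (p 0) u) (pairB T (u, k) q)) ∂(twK G θ μ T) else 0) ∂(nz V)
      ≤ 2 * ENNReal.ofReal (B * (b - a)) := by
  have hgm : ∀ u, Measurable (fun q : (V → ℝ) × (V → ℝ) =>
      ENNReal.ofReal (kker G θ (P u) (G.dist (p 0) u) q)) :=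
    fun u => (pf_meas_kker G θ _ _).ennreal_ofReal
  have hQm : ∀ u, Measurable (fun t : ℝ => ENNReal.ofReal t * ∫⁻ q, ENNReal.ofReal
      (kker G θ (P u) (G.dist (p 0) u) q) ∂(QQ G θ μ k t)) := by
    intro u
    refine ENNReal.measurable_ofReal.mul ?_
    simp only [PT.lintegral_QQ G θ μ k (hgm u)]
    exact (PT.measurable_RR G θ μ k (hgm u)).lintegral_prod_right'
  have s1 : ∀ u ∈ F, ∫⁻ T, (if a ≤ (T (u, k) : ℝ) ∧ (T (u, k) : ℝ) < b then
        ENNReal.ofReal (T (u, k)) * ∫⁻ q, ENNReal.ofReal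
          (kker G θ (P u) (G.dist (p 0) u) (pairB T (u, k) q)) ∂(twK G θ μ T) else 0) ∂(nz V)
      ≤ 2 * ∫⁻ t in Ico a b, ENNReal.ofReal t * ∫⁻ q, ENNReal.ofReal
          (kker G θ (P u) (G.dist (p 0) u) q) ∂(QQ G θ μ k t) := by
    intro u _
    exact shift G hT h0 h1 hμ k u ha hb _ (hgm u)
  refine (Finset.sum_le_sum s1).trans ?_
  rw [← Finset.mul_sum, ← lintegral_finset_sum _ fun u _ => hQm u]
  refine mul_le_mul_right ?_ _
  have s2 : ∀ t ∈ Ico a b, ∑ u ∈ F, ENNReal.ofReal t * ∫⁻ q, ENNReal.ofReal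
          (kker G θ (P u) (G.dist (p 0) u) q) ∂(QQ G θ μ k t) ≤ ENNReal.ofReal B := by
    intro t ht
    refine le_trans ?_ (hKK t ht)
    rw [← Finset.mul_sum]
    refine mul_le_mul_right ?_ _
    have e : ∀ u, ∫⁻ q, ENNReal.ofReal (kker G θ (P u) (G.dist (p 0) u) q) ∂(QQ G θ μ k t)
        = (fun n => ∫⁻ q, ENNReal.ofReal (kker G θ p n q) ∂(QQ G θ μ k t)) (G.dist (p 0) u) := by
      intro u
      exact pf_kker_inv G hT hd hreg θ (pairState G hT h0 h1 hμ k t) _ (hP u) (hp _)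
    simp only [e]
    refine (ENNReal.sum_le_tsum F).trans ?_
    exact tsum_dist_le G hT hd hreg (p 0)
      (fun n => ∫⁻ q, ENNReal.ofReal (kker G θ p n q) ∂(QQ G θ μ k t))
  refine (setLIntegral_mono' measurableSet_Ico s2).trans ?_
  rw [setLIntegral_const, Real.volume_Ico, ← ENNReal.ofReal_mul hB]

/-- the jumps of `F` at fixed labels -/
lemma pf_J (hT : G.IsTree) {θ : ℝ} (h0 : 0 ≤ θ) (h1 : θ < 1) {μ : Measure (V → Bool)}
    [IsProbabilityMeasure μ] (hμ : IsIsing G θ μ) (T : V × ℕ → I) (hinj : Function.Injective T)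
    (k : ℕ) (a b : ℝ) (v : V) (P : V → ℕ → V) (hP : ∀ u, IsPth G (P u) (G.dist v u))
    (hP0 : ∀ u, P u 0 = v) (hPn : ∀ u, P u (G.dist v u) = u) (F : Finset V) :
    ENNReal.ofReal (∑ u ∈ act F T k a b,
          ∫ q, (dl G θ (k + 1) (insert (u, k) (bef T (u, k))) T v q
            - dl G θ (k + 1) (bef T (u, k)) T v q) ^ 2 ∂(twK G θ μ T))
      ≤ 32 * ∑ u ∈ F, (if a ≤ (T (u, k) : ℝ) ∧ (T (u, k) : ℝ) < b then
        ENNReal.ofReal (T (u, k)) * ∫⁻ q, ENNReal.ofReal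
          (kker G θ (P u) (G.dist v u) (pairB T (u, k) q)) ∂(twK G θ μ T) else 0) := by
  have hprob := pi_twK_prob G θ μ T
  have hsum : ∑ u ∈ act F T k a b,
          ∫ q, (dl G θ (k + 1) (insert (u, k) (bef T (u, k))) T v q
            - dl G θ (k + 1) (bef T (u, k)) T v q) ^ 2 ∂(twK G θ μ T)
      = ∑ u ∈ F, if a ≤ ((T (u, k) : I) : ℝ) ∧ ((T (u, k) : I) : ℝ) < b then
          ∫ q, (dl G θ (k + 1) (insert (u, k) (bef T (u, k))) T v q
            - dl G θ (k + 1) (bef T (u, k)) T v q) ^ 2 ∂(twK G θ μ T) else 0 :=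
    pe_sum_act F T k a b _
  rw [hsum, ENNReal.ofReal_sum_of_nonneg, Finset.mul_sum]
  · refine Finset.sum_le_sum fun u _ => ?_
    split_ifs with h
    · rw [ofReal_integral_eq_lintegral_ofReal
        ((pi_BM_dl G θ _ _ T v).sub (pi_BM_dl G θ _ _ T v)).sq.int (ae_of_all _ fun q => sq_nonneg _)]
      have hj := jump_bound G hT h0 h1 hμ T hinj (P u) (G.dist v u) (hP u) k
      rw [hP0, hPn] at hj
      calc ∫⁻ q, ENNReal.ofReal ((dl G θ (k + 1) (insert (u, k) (bef T (u, k))) T v q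
            - dl G θ (k + 1) (bef T (u, k)) T v q) ^ 2) ∂(twK G θ μ T)
          ≤ ∫⁻ q, ENNReal.ofReal (32 * (T (u, k) : ℝ)) * ENNReal.ofReal
            (kker G θ (P u) (G.dist v u) (pairB T (u, k) q)) ∂(twK G θ μ T) := by
            refine lintegral_mono_ae ?_
            filter_upwards [hj] with q hq
            rw [← ENNReal.ofReal_mul (mul_nonneg (by norm_num) (T (u, k)).2.1)]
            refine ENNReal.ofReal_le_ofReal (hq.trans ?_)
            refine mul_le_mul_of_nonneg_right ?_ (pf_kker_nonneg G θ _ _ _)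
            have := st_sq_le (T (u, k))
            linarith
        _ = 32 * (ENNReal.ofReal (T (u, k)) * ∫⁻ q, ENNReal.ofReal
            (kker G θ (P u) (G.dist v u) (pairB T (u, k) q)) ∂(twK G θ μ T)) := by
            rw [lintegral_const_mul' _ _ ENNReal.ofReal_ne_top,
              ENNReal.ofReal_mul (by norm_num : (0 : ℝ) ≤ 32), mul_assoc]
            norm_num
    · simp
  · intro u _
    split_ifs
    · exact integral_nonneg fun q => sq_nonneg _
    · exact le_rfl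

lemma pf_esc_int (θ : ℝ) (μ : Measure (V → Bool)) [IsProbabilityMeasure μ] (k : ℕ) (a b : ℝ) (v : V)
    (F : Finset V) : Integrable (fun T => esc G θ μ k a b v F T) (nz V) := by
  have hmL : Measurable (fun T : V × ℕ → I =>
      ∫ ω, (m1 G θ (k + 1) (thr T k b) T v ω - m1 G θ (k + 1) (thr T k a) T v ω) ^ 2 ∂(P1 μ)) :=
    pe_meas_int G θ μ (k + 1) (fun T => thr T k b) (fun T => thr T k a) (pe_ms_thr k b) (pe_ms_thr k a) v
  have hiL : Integrable (fun T : V × ℕ → I =>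
      ∫ ω, (m1 G θ (k + 1) (thr T k b) T v ω - m1 G θ (k + 1) (thr T k a) T v ω) ^ 2 ∂(P1 μ)) (nz V) :=
    Integrable.of_bound hmL.aestronglyMeasurable 4 (ae_of_all _ fun T => by
      rw [Real.norm_eq_abs]; exact pe_int_le G θ μ (k + 1) _ _ T v)
  have hmbef : ∀ u i, MeasurableSet {T : V × ℕ → I | i ∈ bef T (u, k)} := fun u i => pe_ms_bef _ _
  have e1 : (fun T => esc G θ μ k a b v F T)
      = fun T => (∫ ω, (m1 G θ (k + 1) (thr T k b) T v ω - m1 G θ (k + 1) (thr T k a) T v ω) ^ 2 ∂(P1 μ))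
        - ∑ u ∈ F, pe_e G θ μ k a b v u (fun T => bef T (u, k)) T := by
    funext T
    unfold esc act pe_e
    rw [Finset.sum_filter]
  rw [e1]
  exact hiL.sub (integrable_finset_sum _ fun u _ => pe_e_int G θ μ k a b v u _ (hmbef u))

lemma pf_yy_int (θ : ℝ) (μ : Measure (V → Bool)) [IsProbabilityMeasure μ] (k : ℕ) (s : ℝ) (v : V) :
    Integrable (fun T => ∫ q, (dl G θ (k + 1) (thr T k s) T v q) ^ 2 ∂(twK G θ μ T)) (nz V) := by
  have hmm := measurable_mm G θ v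
  have hm : Measurable (fun q : (V → ℝ) × (V → ℝ) => (mm G θ q.1 v - mm G θ q.2 v) ^ 2) :=
    ((hmm.comp measurable_fst).sub (hmm.comp measurable_snd)).pow_const 2
  have hm' : Measurable (fun q : (V × ℕ → I) × ((V × ℕ → I) × XX V × XX V) =>
      (mm G θ (pairX k s q).1 v - mm G θ (pairX k s q).2 v) ^ 2) :=
    hm.comp (PS.measurable_pairX' k s)
  have hint : Integrable (fun q : (V × ℕ → I) × ((V × ℕ → I) × XX V × XX V) =>
      (mm G θ (pairX k s q).1 v - mm G θ (pairX k s q).2 v) ^ 2) (P2 G θ μ) := by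
    refine Integrable.of_bound hm'.aestronglyMeasurable 4 (Eventually.of_forall fun q => ?_)
    rw [Real.norm_eq_abs, abs_of_nonneg (sq_nonneg _)]
    have a1 := abs_lt.1 (abs_mm_lt G θ (pairX k s q).1 v)
    have a2 := abs_lt.1 (abs_mm_lt G θ (pairX k s q).2 v)
    nlinarith [a1.1, a1.2, a2.1, a2.2]
  unfold P2 at hint
  refine ((Measure.integrable_compProd_iff hint.aestronglyMeasurable).1 hint).2.congr
    (ae_of_all _ fun T => ?_)
  refine integral_congr_ae (ae_of_all _ fun q => ?_)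
  show ‖(mm G θ (pairX k s (T, q)).1 v - mm G θ (pairX k s (T, q)).2 v) ^ 2‖ = _
  rw [Real.norm_eq_abs, abs_of_nonneg (sq_nonneg _)]
  rfl

theorem pf_mono (hT : G.IsTree) {θ : ℝ} (h0 : 0 ≤ θ) (h1 : θ < 1) {μ : Measure (V → Bool)}
    [IsProbabilityMeasure μ] (hμ : IsIsing G θ μ) (k : ℕ) {a b : ℝ} (hab : a ≤ b) (v : V) :
    yy G θ (QQ G θ μ k a) v ≤ yy G θ (QQ G θ μ k b) v := by
  rw [yy_QQ G hT h0 h1 hμ, yy_QQ G hT h0 h1 hμ]
  refine integral_mono_ae (pf_yy_int G θ μ k a v) (pf_yy_int G θ μ k b v) ?_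
  filter_upwards [ae_injective (V := V)] with T hinj
  refine dl_mono G hT h0 h1 hμ T hinj (k + 1) (thr T k a) (thr T k b) (initSeg_thr T k a)
    (initSeg_thr T k b) ?_ pi_thr_lt v
  rintro i (hi | ⟨hi, hi'⟩)
  · exact Or.inl hi
  · exact Or.inr ⟨hi, lt_of_lt_of_le hi' hab⟩

theorem pf_inc (hT : G.IsTree) {d : ℕ} (hd : 3 ≤ d) (hreg : G.IsRegularOfDegree d)
    {θ : ℝ} (h0 : 0 ≤ θ) (h1 : θ < 1) (hcrit : θ ^ 2 * ((d : ℝ) - 1) ≤ 1) {μ : Measure (V → Bool)}
    [IsProbabilityMeasure μ] (hμ : IsIsing G θ μ) (k : ℕ) {a b : ℝ} (ha : 0 ≤ a) (hab : a < b)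
    (hb : b ≤ 1 / 2) (hpos : k = 0 → θ ^ 2 * ((d : ℝ) - 1) = 1 → 0 < a) (p : ℕ → V) (hp : IsRay G p)
    (B : ℝ) (hB : 0 ≤ B)
    (hKK : ∀ t ∈ Ico a b, ENNReal.ofReal t * KK G θ (d - 1) p (QQ G θ μ k t) ≤ ENNReal.ofReal B) :
    yy G θ (QQ G θ μ k b) (p 0) - yy G θ (QQ G θ μ k a) (p 0) ≤ 64 * (b - a) * B := by
  obtain ⟨f, hf⟩ := exists_injective_nat V
  obtain ⟨F, hFdef⟩ : ∃ F : ℕ → Finset V, ∀ n u, u ∈ F n ↔ f u < n := by
    refine ⟨fun n => ((Set.finite_lt_nat n).preimage hf.injOn).toFinset, fun n u => ?_⟩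
    simp
  have hF : Monotone F := by
    intro n n' hn u hu
    rw [hFdef] at hu ⊢
    omega
  have hcov : ∀ u, ∃ n, u ∈ F n := fun u => ⟨f u + 1, by rw [hFdef]; omega⟩
  choose P hP hP0 hPn using fun u => exists_pth G hT (p 0) u
  have key : ∀ n, yy G θ (QQ G θ μ k b) (p 0) - yy G θ (QQ G θ μ k a) (p 0)
      ≤ 64 * (b - a) * B + 4 * ∫ T, esc G θ μ k a b (p 0) (F n) T ∂(nz V) := by
    intro n
    have i1 := pf_yy_int G θ μ k b (p 0)
    have i2 := pf_yy_int G θ μ k a (p 0)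
    have i3 := pf_esc_int G θ μ k a b (p 0) (F n)
    have i12 : Integrable (fun T => (∫ q, (dl G θ (k + 1) (thr T k b) T (p 0) q) ^ 2 ∂(twK G θ μ T))
          - (∫ q, (dl G θ (k + 1) (thr T k a) T (p 0) q) ^ 2 ∂(twK G θ μ T))) (nz V) := i1.sub i2
    have i4 : Integrable (fun T => (∫ q, (dl G θ (k + 1) (thr T k b) T (p 0) q) ^ 2 ∂(twK G θ μ T))
          - (∫ q, (dl G θ (k + 1) (thr T k a) T (p 0) q) ^ 2 ∂(twK G θ μ T))
          - 4 * esc G θ μ k a b (p 0) (F n) T) (nz V) := i12.sub (i3.const_mul 4)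
    have e1 : ∫ T, ((∫ q, (dl G θ (k + 1) (thr T k b) T (p 0) q) ^ 2 ∂(twK G θ μ T))
          - (∫ q, (dl G θ (k + 1) (thr T k a) T (p 0) q) ^ 2 ∂(twK G θ μ T))
          - 4 * esc G θ μ k a b (p 0) (F n) T) ∂(nz V)
        = yy G θ (QQ G θ μ k b) (p 0) - yy G θ (QQ G θ μ k a) (p 0)
          - 4 * ∫ T, esc G θ μ k a b (p 0) (F n) T ∂(nz V) := by
      rw [integral_sub i12 (i3.const_mul 4), integral_sub i1 i2, integral_const_mul,
        ← yy_QQ G hT h0 h1 hμ, ← yy_QQ G hT h0 h1 hμ]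
    have e2 : ∫⁻ T, ENNReal.ofReal ((∫ q, (dl G θ (k + 1) (thr T k b) T (p 0) q) ^ 2 ∂(twK G θ μ T))
          - (∫ q, (dl G θ (k + 1) (thr T k a) T (p 0) q) ^ 2 ∂(twK G θ μ T))
          - 4 * esc G θ μ k a b (p 0) (F n) T) ∂(nz V) ≤ ENNReal.ofReal (64 * (b - a) * B) := by
      calc _ ≤ ∫⁻ T, 32 * ∑ u ∈ F n, (if a ≤ (T (u, k) : ℝ) ∧ (T (u, k) : ℝ) < b then
              ENNReal.ofReal (T (u, k)) * ∫⁻ q, ENNReal.ofReal
              (kker G θ (P u) (G.dist (p 0) u) (pairB T (u, k) q)) ∂(twK G θ μ T) else 0) ∂(nz V) := by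
            refine lintegral_mono_ae ?_
            filter_upwards [ae_injective (V := V)] with T hinj
            refine le_trans (ENNReal.ofReal_le_ofReal ?_)
              (pf_J G hT h0 h1 hμ T hinj k a b (p 0) P hP hP0 hPn (F n))
            have := inc_fixed G hT h0 h1 hμ T hinj (p 0) k hab.le (F n)
            linarith
        _ = 32 * ∑ u ∈ F n, ∫⁻ T, (if a ≤ (T (u, k) : ℝ) ∧ (T (u, k) : ℝ) < b then
              ENNReal.ofReal (T (u, k)) * ∫⁻ q, ENNReal.ofReal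
              (kker G θ (P u) (G.dist (p 0) u) (pairB T (u, k) q)) ∂(twK G θ μ T) else 0) ∂(nz V) := by
            rw [lintegral_const_mul' _ _ (by norm_num), lintegral_finset_sum]
            intro u _
            refine Measurable.ite (pe_ms_lab u k a b) ?_ measurable_const
            have hTjm : Measurable (fun T : V × ℕ → I => (T (u, k) : ℝ)) :=
              measurable_subtype_coe.comp (measurable_pi_apply (u, k))
            refine hTjm.ennreal_ofReal.mul ?_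
            exact (PT.measurable_RR G θ μ k (pf_meas_kker G θ (P u) (G.dist (p 0) u)).ennreal_ofReal).comp
              (hTjm.prodMk measurable_id)
        _ ≤ 32 * (2 * ENNReal.ofReal (B * (b - a))) :=
            mul_le_mul_right (pf_sum G hT hd hreg h0 h1 hμ k ha hb p hp B hB hKK P hP (F n)) _
        _ = ENNReal.ofReal (64 * (b - a) * B) := by
            have : (64 * (b - a) * B : ℝ) = 32 * (2 * (B * (b - a))) := by ring
            rw [this, ENNReal.ofReal_mul (by norm_num : (0 : ℝ) ≤ 32),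
              ENNReal.ofReal_mul (by norm_num : (0 : ℝ) ≤ 2)]
            norm_num
    have e3 : ∫ T, ((∫ q, (dl G θ (k + 1) (thr T k b) T (p 0) q) ^ 2 ∂(twK G θ μ T))
          - (∫ q, (dl G θ (k + 1) (thr T k a) T (p 0) q) ^ 2 ∂(twK G θ μ T))
          - 4 * esc G θ μ k a b (p 0) (F n) T) ∂(nz V) ≤ 64 * (b - a) * B := by
      rw [integral_eq_lintegral_pos_part_sub_lintegral_neg_part i4]
      refine (sub_le_self _ ENNReal.toReal_nonneg).trans ?_
      refine (ENNReal.toReal_mono ENNReal.ofReal_ne_top e2).trans ?_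
      rw [ENNReal.toReal_ofReal (by have := sub_pos.2 hab; positivity)]
    linarith
  have hlim := escape G hT hd hreg h0 h1 hcrit hμ k ha hab.le hb hpos (p 0) F hF hcov
  have hlim2 : Tendsto (fun n => 64 * (b - a) * B + 4 * ∫ T, esc G θ μ k a b (p 0) (F n) T ∂(nz V))
      atTop (𝓝 (64 * (b - a) * B)) := by
    have := (hlim.const_mul 4).const_add (64 * (b - a) * B)
    simpa using this
  exact ge_of_tendsto' hlim2 key

theorem proc_QQ (hT : G.IsTree) {d : ℕ} (hd : 3 ≤ d) (hreg : G.IsRegularOfDegree d)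
    {θ : ℝ} (h0 : 0 ≤ θ) (h1 : θ < 1) (hcrit : θ ^ 2 * ((d : ℝ) - 1) ≤ 1) (μ : Measure (V → Bool))
    [IsProbabilityMeasure μ] (hμ : IsIsing G θ μ) (p : ℕ → V) (hp : IsRay G p) :
    Proc G θ d μ p (QQ G θ μ) where
  state := fun k s _ _ => pairState G hT h0 h1 hμ k s
  good := fun k s _ _ => good_rho G hT h0 h1 hμ k (fun _ => s)
  mono := fun k _ _ _ hab _ => pf_mono G hT h0 h1 hμ k hab (p 0)
  zero := yy_zero G hT h0 h1 hμ (p 0)
  step := fun k => by rw [QQ_step]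
  inc := ⟨64, by norm_num, fun k _ _ ha hab hb hpos B hB hKK =>
    pf_inc G hT hd hreg h0 h1 hcrit hμ k ha hab hb hpos p hp B hB hKK⟩

end Crest.Agent.FI
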